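import Crest.Agent.R164.Lev

/-!
# R164 / Cas: cascades (nested power means) — definitions only

State space `St R Y = Fin R → Y`; slot `i` is integrated at step `i` with exponent `a i`
(step `0` is the innermost one, `a 0 = 1`, `a` is antitone).
`X a H n` is the free energy after the `n` innermost integrations, `E a H n ψ` the corresponding
tilted conditional expectation, `val`/`EE` the fully integrated versions.
Growth classes: `ML` (linear), `ME` (exponential), `MU` (linear above, exponential below).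
Do not edit the definitions.
-/

set_option autoImplicit false

open MeasureTheory ProbabilityTheory Finset

namespace Crest.Agent.R164

section classes
variable {S : Type} [MeasurableSpace S] [Lev S]

/-- Measurable with linear growth. -/
structure ML (f : S → ℝ) : Prop where
  meas : Measurable f
  bd : ∃ C : ℝ, ∀ s, |f s| ≤ C * (1 + Lev.n s)

/-- Measurable with exponential growth. -/
structure ME (f : S → ℝ) : Prop where
  meas : Measurable f
  bd : ∃ C : ℝ, ∀ s, |f s| ≤ Real.exp (C * (1 + Lev.n s))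

/-- Exponential growth, linear growth from above. -/
structure MU (f : S → ℝ) : Prop where
  me : ME f
  up : ∃ C : ℝ, ∀ s, f s ≤ C * (1 + Lev.n s)

/-- A family with uniform linear growth. -/
structure FL (I : Set ℝ) (F : ℝ → S → ℝ) : Prop where
  meas : ∀ θ ∈ I, Measurable (F θ)
  bd : ∃ C : ℝ, ∀ θ ∈ I, ∀ s, |F θ s| ≤ C * (1 + Lev.n s)

/-- A family with uniform exponential growth. -/
structure FE (I : Set ℝ) (F : ℝ → S → ℝ) : Prop where
  meas : ∀ θ ∈ I, Measurable (F θ)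
  bd : ∃ C : ℝ, ∀ θ ∈ I, ∀ s, |F θ s| ≤ Real.exp (C * (1 + Lev.n s))

/-- A differentiable family with derivative `F'`. -/
structure DF (I : Set ℝ) (F F' : ℝ → S → ℝ) : Prop where
  ge : FE I F
  ge' : FE I F'
  der : ∀ θ ∈ I, ∀ s, HasDerivAt (fun t => F t s) (F' θ s) θ

end classes

/-- Power mean with exponent `m`. -/
noncomputable def PM {P : Type} [MeasurableSpace P] (m : ℝ) (ν : Measure P) (F : P → ℝ) : ℝ :=
  m⁻¹ * Real.log (∫ p, Real.exp (m * F p) ∂ν)

/-- States: one point of the level space per level. -/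
abbrev St (R : ℕ) (Y : Type) : Type := Fin R → Y

/-- Admissible exponents. -/
structure Exps (R : ℕ) (a : ℕ → ℝ) : Prop where
  pos : ∀ i < R, 0 < a i
  zero : a 0 = 1
  anti : Antitone a
  last : 0 ≤ a R

/-- The uniform exponents `1 - i/R`. -/
noncomputable def ua (R : ℕ) (i : ℕ) : ℝ := 1 - (i : ℝ) / R

lemma exps_ua {R : ℕ} (hR : 0 < R) : Exps R (ua R) where
  pos := fun i hi => by
    have : (i : ℝ) / R < 1 := (div_lt_one (by exact_mod_cast hR)).2 (by exact_mod_cast hi)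
    simp only [ua]; linarith
  zero := by simp [ua]
  anti := fun i j hij => by
    have : (i : ℝ) / R ≤ j / R := by gcongr
    simp only [ua]; linarith
  last := by
    have : (R : ℝ) ≠ 0 := by exact_mod_cast hR.ne'
    simp [ua, this]

lemma ua_sub {R : ℕ} (i : ℕ) : ua R i - ua R (i + 1) = 1 / R := by
  simp only [ua]; push_cast; ring

/-- The outermost level. -/
def lst (R : ℕ) [NeZero R] : Fin R := ⟨R - 1, Nat.sub_one_lt (NeZero.ne R)⟩

variable {Y : Type} [MeasurableSpace Y] [Lev Y] {R : ℕ}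

/-- Replace slot `i` by `y`. -/
def upd (i : ℕ) (s : St R Y) (y : Y) : St R Y := fun j => if (j : ℕ) = i then y else s j

/-- Free energy after integrating the slots `< n`. -/
noncomputable def X (a : ℕ → ℝ) (H : St R Y → ℝ) : ℕ → St R Y → ℝ
  | 0 => H
  | i + 1 => fun s => PM (a i) Lev.μ fun y => X a H i (upd i s y)

/-- Tilted expectation over the slots `< n`. -/
noncomputable def E (a : ℕ → ℝ) (H : St R Y → ℝ) : ℕ → (St R Y → ℝ) → St R Y → ℝ
  | 0, ψ => ψ
  | i + 1, ψ => fun s => ∫ y, E a H i ψ (upd i s y) *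
      Real.exp (a i * (X a H i (upd i s y) - X a H (i + 1) s)) ∂Lev.μ

lemma X_zero (a : ℕ → ℝ) (H : St R Y → ℝ) : X a H 0 = H := by simp only [X]
lemma X_succ (a : ℕ → ℝ) (H : St R Y → ℝ) (i : ℕ) (s : St R Y) :
    X a H (i + 1) s = PM (a i) Lev.μ fun y => X a H i (upd i s y) := by simp only [X]
lemma E_zero (a : ℕ → ℝ) (H ψ : St R Y → ℝ) : E a H 0 ψ = ψ := by simp only [E]
lemma E_succ (a : ℕ → ℝ) (H ψ : St R Y → ℝ) (i : ℕ) (s : St R Y) :
    E a H (i + 1) ψ s = ∫ y, E a H i ψ (upd i s y) *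
      Real.exp (a i * (X a H i (upd i s y) - X a H (i + 1) s)) ∂Lev.μ := by simp only [E]

/-- The path measure: `E a H n ψ s = ∫ ψ d(Pm a H n s)` (see `CasRep`). -/
noncomputable def Pm (a : ℕ → ℝ) (H : St R Y → ℝ) : ℕ → St R Y → Measure (St R Y)
  | 0 => fun s => Measure.dirac s
  | i + 1 => fun s => ((Lev.μ : Measure Y).withDensity fun y =>
      ENNReal.ofReal (Real.exp (a i * (X a H i (upd i s y) - X a H (i + 1) s)))).bind
        fun y => Pm a H i (upd i s y)

lemma Pm_zero (a : ℕ → ℝ) (H : St R Y → ℝ) (s : St R Y) : Pm a H 0 s = Measure.dirac s := by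
  simp only [Pm]
lemma Pm_succ (a : ℕ → ℝ) (H : St R Y → ℝ) (i : ℕ) (s : St R Y) :
    Pm a H (i + 1) s = ((Lev.μ : Measure Y).withDensity fun y =>
      ENNReal.ofReal (Real.exp (a i * (X a H i (upd i s y) - X a H (i + 1) s)))).bind
        fun y => Pm a H i (upd i s y) := by simp only [Pm]

/-- The value of the cascade. -/
noncomputable def val (a : ℕ → ℝ) (H : St R Y → ℝ) : ℝ := X a H R Lev.pt

/-- The full tilted expectation. -/
noncomputable def EE (a : ℕ → ℝ) (H ψ : St R Y → ℝ) : ℝ := E a H R ψ Lev.pt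

/-- Conditional covariance. -/
noncomputable def Cov (a : ℕ → ℝ) (H : St R Y → ℝ) (n : ℕ) (ψ φ : St R Y → ℝ) (s : St R Y) : ℝ :=
  E a H n (fun t => ψ t * φ t) s - E a H n ψ s * E a H n φ s

/-- The second-derivative form: `δ (E n ψ) = E n (δ ψ) + Cv n ψ (δ H)`. -/
noncomputable def Cv (a : ℕ → ℝ) (H : St R Y → ℝ) (n : ℕ) (ψ φ : St R Y → ℝ) (s : St R Y) : ℝ :=
  ∑ i ∈ range n, a i * (E a H n (fun t => E a H i ψ t * E a H i φ t) s -
    E a H n (fun t => E a H (i + 1) ψ t * E a H (i + 1) φ t) s)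

/-- The form appearing in integration by parts at level `l`. -/
noncomputable def Ct (a : ℕ → ℝ) (H : St R Y → ℝ) (l : ℕ) (ψ φ : St R Y → ℝ) : ℝ :=
  EE a H (fun t => ψ t * φ t) -
    ∑ i ∈ range l, (a i - a (i + 1)) * EE a H fun t => E a H (i + 1) ψ t * E a H (i + 1) φ t

/-- `F` does not depend on the slots `< n`. -/
def Dep (n : ℕ) (F : St R Y → ℝ) : Prop := ∀ i < n, ∀ s y, F (upd i s y) = F s

/-- A flow acting on slot `l`. -/
def act (d : Dir Y) (l : Fin R) (θ : ℝ) (s : St R Y) : St R Y :=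
  Function.update s l (d.τ θ (s l))

/-- `ψ₀` is the derivative of `ψ` along the flow `d` acting on slot `l`. -/
def HasD (d : Dir Y) (l : Fin R) (ψ ψ₀ : St R Y → ℝ) : Prop :=
  ∃ ψ' : ℝ → St R Y → ℝ, DF (Set.Ioo (-1) 1) (fun θ s => ψ (act d l θ s)) ψ' ∧ ψ' 0 = ψ₀

/-- Overlap of the vector observable `Xv` at level `i`. -/
noncomputable def ov {β : Type} [Fintype β] (a : ℕ → ℝ) (H : St R Y → ℝ) (Xv : β → St R Y → ℝ)
    (i : ℕ) : ℝ := EE a H fun s => ∑ b, E a H i (Xv b) s ^ 2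

/-- `X · E i X`. -/
noncomputable def yo {β : Type} [Fintype β] (a : ℕ → ℝ) (H : St R Y → ℝ) (Xv : β → St R Y → ℝ)
    (i : ℕ) (s : St R Y) : ℝ := ∑ b, Xv b s * E a H i (Xv b) s

/-- Squared Hilbert–Schmidt norm of the conditional covariance matrix. -/
noncomputable def hs {β : Type} [Fintype β] (a : ℕ → ℝ) (H : St R Y → ℝ) (Xv : β → St R Y → ℝ)
    (i : ℕ) (s : St R Y) : ℝ := ∑ b, ∑ c, Cov a H i (Xv b) (Xv c) s ^ 2

/-- A measurable vector observable in the unit ball. -/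
structure UV {β : Type} [Fintype β] (Xv : β → St R Y → ℝ) : Prop where
  meas : ∀ b, Measurable (Xv b)
  le_one : ∀ s, ∑ b, Xv b s ^ 2 ≤ 1

/-- `D_i = Σ_{j<i} a_j (q_j - q_{j+1})`. -/
noncomputable def Dq (a q : ℕ → ℝ) (i : ℕ) : ℝ := ∑ j ∈ range i, a j * (q j - q (j + 1))

/-- Tail sum `Σ_{i=1}^{l} (a_{i-1} - a_i) q_i`. -/
noncomputable def Tq (a q : ℕ → ℝ) (l : ℕ) : ℝ := ∑ i ∈ range l, (a i - a (i + 1)) * q (i + 1)

/-- A `C²` truncation at level `-L`. -/
structure IsChi (L : ℝ) (χ χ' χ'' : ℝ → ℝ) : Prop where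
  der : ∀ w, HasDerivAt χ (χ' w) w
  der' : ∀ w, HasDerivAt χ' (χ'' w) w
  cont : Continuous χ''
  eq : ∀ w, -L ≤ w → χ w = w
  le : ∀ w, w ≤ -L → χ w ≤ -L
  ge : ∀ w, -L - 1 ≤ χ w
  ge' : ∀ w, w ≤ χ w
  d1 : ∀ w, 0 ≤ χ' w ∧ χ' w ≤ 1
  d2 : ∀ w, |χ'' w| ≤ 2
  flat : ∀ w, w ≤ -L - 1 → χ' w = 0 ∧ χ'' w = 0

end Crest.Agent.R164
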