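import Crest.Agent.R164.CasCls

/-!
# R164 / CasBas: basic facts on `upd`, `Dep`, `X`, `E` (measurability and growth)

Growth of `X`: `n (upd i s y) ≤ n s + n y`, so for `X_i ≤ C (1 + n)` (with `C ≥ 0`)
`∫ exp (a X_i (upd i s y)) ≤ exp (a C (1 + n s)) ∫ exp (a C n y)`; the lower bound is Jensen's
inequality `PM a μ F ≥ ∫ F` (`PM_ge_integral`).  Growth of `E`: the weight
`exp (a (X_i (upd ..) - X_{i+1} s))` is at most `exp (C (2 + 2 n s + n y))`.
Prove the family versions (`FL.free`, `FE.cond`) first; the single versions are the constant families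
on `I = univ`.
-/

set_option autoImplicit false
set_option linter.unusedSectionVars false

open MeasureTheory ProbabilityTheory Finset

namespace Crest.Agent.R164

section PM
variable {P : Type} [MeasurableSpace P] {ν : Measure P} [IsProbabilityMeasure ν] {m : ℝ}
  {F G : P → ℝ}

lemma PM_ge_integral (hm : 0 < m) (hF : Integrable F ν)
    (hF' : Integrable (fun p => Real.exp (m * F p)) ν) : ∫ p, F p ∂ν ≤ PM m ν F := by
  have h := convexOn_exp.map_integral_le (μ := ν) (f := fun p => m * F p)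
    Real.continuous_exp.continuousOn isClosed_univ (ae_of_all _ fun _ => Set.mem_univ _)
    (hF.const_mul m) hF'
  rw [integral_const_mul] at h
  rw [PM, le_inv_mul_iff₀ hm]
  exact (Real.le_log_iff_exp_le (integral_exp_pos hF')).2 h
lemma PM_mono (hm : 0 < m) (hF : Integrable (fun p => Real.exp (m * F p)) ν)
    (hG : Integrable (fun p => Real.exp (m * G p)) ν) (h : ∀ p, F p ≤ G p) :
    PM m ν F ≤ PM m ν G := by
  refine mul_le_mul_of_nonneg_left (Real.log_le_log (integral_exp_pos hF) ?_) (inv_nonneg.2 hm.le)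
  exact integral_mono hF hG fun p => Real.exp_le_exp.2 (mul_le_mul_of_nonneg_left (h p) hm.le)
lemma PM_add_const (hm : 0 < m) (hF : Integrable (fun p => Real.exp (m * F p)) ν) (c : ℝ) :
    PM m ν (fun p => F p + c) = PM m ν F + c := by
  simp only [PM, mul_add, Real.exp_add]
  rw [integral_mul_const, Real.log_mul (integral_exp_pos hF).ne' (Real.exp_pos _).ne', Real.log_exp,
    mul_add, inv_mul_cancel_left₀ hm.ne']
lemma PM_const (hm : 0 < m) (c : ℝ) : PM m ν (fun _ => c) = c := by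
  simp [PM, hm.ne']
/-- Power means increase with the exponent (Jensen for `x ^ (m'/m)`, or Hölder). -/
lemma PM_mono_exp {m' : ℝ} (hm : 0 < m) (hmm : m ≤ m') (hFm : Measurable F)
    (hF : Integrable (fun p => Real.exp (m' * F p)) ν) : PM m ν F ≤ PM m' ν F := by
  have hm' : 0 < m' := hm.trans_le hmm
  set c := PM m' ν F with hc
  have hc' : Real.exp (m' * c) = ∫ p, Real.exp (m' * F p) ∂ν := by
    rw [hc, PM, mul_inv_cancel_left₀ hm'.ne', Real.exp_log (integral_exp_pos hF)]
  have ht0 : 0 ≤ m / m' := div_nonneg hm.le hm'.le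
  have ht1 : m / m' ≤ 1 := (div_le_one hm').2 hmm
  have key : ∀ p, Real.exp (m * F p) ≤
      Real.exp (m * c) * (m / m' * (Real.exp (m' * c))⁻¹ * Real.exp (m' * F p) + (1 - m / m')) := by
    intro p
    have h1 := convexOn_exp.2 (Set.mem_univ (m' * (F p - c))) (Set.mem_univ 0) ht0
      (sub_nonneg.2 ht1) (by ring)
    simp only [smul_eq_mul, mul_zero, add_zero, Real.exp_zero, mul_one] at h1
    rw [show m / m' * (m' * (F p - c)) = m * F p - m * c by field_simp, Real.exp_sub,
      div_le_iff₀ (Real.exp_pos _), mul_sub m', Real.exp_sub] at h1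
    refine h1.trans_eq ?_
    ring
  have hb : Integrable (fun p => Real.exp (m * c) *
      (m / m' * (Real.exp (m' * c))⁻¹ * Real.exp (m' * F p) + (1 - m / m'))) ν :=
    ((hF.const_mul _).add (integrable_const _)).const_mul _
  have hi : Integrable (fun p => Real.exp (m * F p)) ν :=
    hb.mono' (by fun_prop) (ae_of_all _ fun p => by
      rw [Real.norm_of_nonneg (Real.exp_pos _).le]; exact key p)
  have h2 := integral_mono hi hb key
  rw [integral_const_mul, integral_add (hF.const_mul _) (integrable_const _), integral_const_mul,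
    ← hc', inv_mul_cancel_right₀ (Real.exp_pos _).ne'] at h2
  simp only [integral_const, probReal_univ, smul_eq_mul, one_mul, add_sub_cancel, mul_one] at h2
  rw [PM, inv_mul_le_iff₀ hm]
  exact (Real.log_le_iff_le_exp (integral_exp_pos hi)).2 h2
lemma exp_PM (hm : 0 < m) (hF : Integrable (fun p => Real.exp (m * F p)) ν) :
    Real.exp (m * PM m ν F) = ∫ p, Real.exp (m * F p) ∂ν := by
  rw [PM, mul_inv_cancel_left₀ hm.ne', Real.exp_log (integral_exp_pos hF)]
end PM

variable {Y : Type} [MeasurableSpace Y] [Lev Y] {R : ℕ} {a : ℕ → ℝ} {H ψ φ F G : St R Y → ℝ}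

lemma upd_coe (l : Fin R) (s : St R Y) (y : Y) : upd l s y = Function.update s l y := by
  funext j
  simp only [upd, Function.update_apply, Fin.ext_iff]
lemma upd_of_le {i : ℕ} (hi : R ≤ i) (s : St R Y) (y : Y) : upd i s y = s := by
  funext j
  exact if_neg (by omega)
lemma upd_upd (i : ℕ) (s : St R Y) (y y' : Y) : upd i (upd i s y) y' = upd i s y' := by
  funext j
  simp only [upd]
  split_ifs <;> rfl
lemma upd_comm {i j : ℕ} (h : i ≠ j) (s : St R Y) (y y' : Y) :
    upd i (upd j s y) y' = upd j (upd i s y') y := by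
  funext k
  simp only [upd]
  split_ifs with h1 h2
  · exact absurd (h1.symm.trans h2) h
  all_goals rfl
lemma measurable_upd (i : ℕ) : Measurable fun p : St R Y × Y => upd i p.1 p.2 := by
  refine measurable_pi_lambda _ fun j => ?_
  simp only [upd]
  split_ifs
  · exact measurable_snd
  · exact (measurable_pi_apply j).comp measurable_fst
lemma n_upd_le (i : ℕ) (s : St R Y) (y : Y) : Lev.n (upd i s y) ≤ Lev.n s + Lev.n y := by
  by_cases hi : i < R
  · rw [show upd i s y = Function.update s ⟨i, hi⟩ y from upd_coe ⟨i, hi⟩ s y]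
    simp only [n_pi]
    rw [← Finset.add_sum_erase _ _ (Finset.mem_univ ⟨i, hi⟩),
      ← Finset.add_sum_erase _ (fun b => Lev.n (s b)) (Finset.mem_univ ⟨i, hi⟩), Function.update_self,
      Finset.sum_congr rfl fun b hb => by rw [Function.update_of_ne (Finset.ne_of_mem_erase hb)]]
    linarith [Lev.n_nonneg (s ⟨i, hi⟩)]
  · rw [upd_of_le (not_lt.1 hi)]
    exact le_add_of_nonneg_right (Lev.n_nonneg y)

lemma Dep.mono {n n' : ℕ} (h : Dep n F) (hn : n' ≤ n) : Dep n' F := fun i hi => h i (hi.trans_le hn)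
lemma Dep.const (n : ℕ) (c : ℝ) : Dep n fun _ : St R Y => c := fun _ _ _ _ => rfl
lemma Dep.comp₂ {n : ℕ} (hF : Dep n F) (hG : Dep n G) (g : ℝ → ℝ → ℝ) :
    Dep n fun s => g (F s) (G s) := fun i hi s y => by
  simp only [hF i hi s y, hG i hi s y]
lemma Dep.comp {n : ℕ} (hF : Dep n F) (g : ℝ → ℝ) : Dep n fun s => g (F s) := fun i hi s y => by
  simp only [hF i hi s y]
lemma Dep.sum {β : Type*} (t : Finset β) {n : ℕ} {F : β → St R Y → ℝ} (h : ∀ b ∈ t, Dep n (F b)) :
    Dep n fun s => ∑ b ∈ t, F b s := fun i hi s y =>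
  Finset.sum_congr rfl fun b hb => h b hb i hi s y
/-- A function of slot `l` alone. -/
lemma Dep.slot (l : Fin R) (g : Y → ℝ) : Dep l fun s => g (s l) := fun i hi s y => by
  simp only [upd]
  rw [if_neg hi.ne']
lemma Dep.eq_const (h : Dep R F) (s s' : St R Y) : F s = F s' := by
  have key : ∀ t : Finset (Fin R), F (t.piecewise s' s) = F s := by
    intro t
    induction t using Finset.induction_on with
    | empty => simp
    | insert l t _ ih => rw [Finset.piecewise_insert, ← upd_coe, h l l.2, ih]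
  rw [← key Finset.univ, Finset.piecewise_univ]
lemma dep_X (a : ℕ → ℝ) (H : St R Y → ℝ) (n : ℕ) : Dep n (X a H n) := by
  induction n with
  | zero => exact fun i hi => absurd hi (Nat.not_lt_zero i)
  | succ n ih =>
    intro i hi s y
    rw [X_succ, X_succ]
    congr 1
    funext y'
    rcases (Nat.lt_succ_iff.1 hi).lt_or_eq with hi | rfl
    · rw [upd_comm hi.ne', ih i hi]
    · rw [upd_upd]
lemma dep_E (a : ℕ → ℝ) (H ψ : St R Y → ℝ) (n : ℕ) : Dep n (E a H n ψ) := by
  induction n with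
  | zero => exact fun i hi => absurd hi (Nat.not_lt_zero i)
  | succ n ih =>
    intro i hi s y
    rw [E_succ, E_succ, dep_X a H (n + 1) i hi]
    congr 1
    funext y'
    rcases (Nat.lt_succ_iff.1 hi).lt_or_eq with hi | rfl
    · rw [upd_comm hi.ne', ih i hi, dep_X a H n i hi]
    · rw [upd_upd]
lemma dep_Cov (a : ℕ → ℝ) (H ψ φ : St R Y → ℝ) (n : ℕ) : Dep n (Cov a H n ψ φ) :=
  fun i hi s y => by simp only [Cov, dep_E a H _ n i hi s y]
lemma dep_Cv (a : ℕ → ℝ) (H ψ φ : St R Y → ℝ) (n : ℕ) : Dep n (Cv a H n ψ φ) :=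
  fun i hi s y => by simp only [Cv, dep_E a H _ n i hi s y]
lemma X_top (a : ℕ → ℝ) (H : St R Y → ℝ) (s : St R Y) : X a H R s = val a H :=
  (dep_X a H R).eq_const _ _
lemma E_top (a : ℕ → ℝ) (H ψ : St R Y → ℝ) (s : St R Y) : E a H R ψ s = EE a H ψ :=
  (dep_E a H ψ R).eq_const _ _

lemma measurable_X (a : ℕ → ℝ) (hH : Measurable H) (n : ℕ) : Measurable (X a H n) := by
  induction n with
  | zero => exact hH
  | succ n ih =>
    have h : Measurable fun p : St R Y × Y => Real.exp (a n * X a H n (upd n p.1 p.2)) :=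
      ((ih.comp (measurable_upd n)).const_mul _).exp
    exact (h.stronglyMeasurable.integral_prod_right' (ν := Lev.μ)).measurable.log.const_mul _
lemma measurable_E (a : ℕ → ℝ) (hH : Measurable H) (hψ : Measurable ψ) (n : ℕ) :
    Measurable (E a H n ψ) := by
  induction n with
  | zero => exact hψ
  | succ n ih =>
    have h : Measurable fun p : St R Y × Y => E a H n ψ (upd n p.1 p.2) *
        Real.exp (a n * (X a H n (upd n p.1 p.2) - X a H (n + 1) p.1)) :=
      (ih.comp (measurable_upd n)).mul (((((measurable_X a hH n).comp (measurable_upd n)).sub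
        ((measurable_X a hH (n + 1)).comp measurable_fst)).const_mul _).exp)
    exact (h.stronglyMeasurable.integral_prod_right' (ν := Lev.μ)).measurable

lemma bas_one_le (s : St R Y) : 1 ≤ 1 + Lev.n s := le_add_of_nonneg_right (Lev.n_nonneg s)

lemma bas_max (C : ℝ) (s : St R Y) : C * (1 + Lev.n s) ≤ max C 0 * (1 + Lev.n s) :=
  mul_le_mul_of_nonneg_right (le_max_left _ _) (zero_le_one.trans (bas_one_le s))

lemma bas_upd {C : ℝ} (hC : 0 ≤ C) (i : ℕ) (s : St R Y) (y : Y) :
    C * (1 + Lev.n (upd i s y)) ≤ C * Lev.n y + C * (1 + Lev.n s) := by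
  have := mul_le_mul_of_nonneg_left (n_upd_le i s y) hC
  linarith

lemma bas_exp_bd (A K : ℝ) (s : St R Y) :
    K * Real.exp (A * (1 + Lev.n s)) ≤ Real.exp ((A + |K|) * (1 + Lev.n s)) := by
  rw [add_mul, Real.exp_add, mul_comm]
  refine mul_le_mul_of_nonneg_left ?_ (Real.exp_pos _).le
  have h1 : |K| ≤ |K| * (1 + Lev.n s) := le_mul_of_one_le_right (abs_nonneg K) (bas_one_le s)
  linarith [le_abs_self K, Real.add_one_le_exp (|K| * (1 + Lev.n s))]

lemma bas_int (m C c : ℝ) : Integrable (fun y : Y => Real.exp (m * (C * Lev.n y + c))) Lev.μ := by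
  simp only [mul_add, Real.exp_add, ← mul_assoc]
  exact (Lev.n_int _).mul_const _

lemma bas_int' (m C : ℝ) : Integrable (fun y : Y => Real.exp (m * (C * Lev.n y))) Lev.μ := by
  simpa using bas_int (Y := Y) m C 0

lemma bas_int_up {m C : ℝ} (hm : 0 < m) (hC : 0 ≤ C) (hF : Measurable F)
    (h : ∀ s, F s ≤ C * (1 + Lev.n s)) (i : ℕ) (s : St R Y) :
    Integrable (fun y : Y => Real.exp (m * F (upd i s y))) Lev.μ := by
  have h1 : Measurable fun y : Y => F (upd i s y) :=
    hF.comp ((measurable_upd i).comp measurable_prodMk_left)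
  refine (bas_int m C (C * (1 + Lev.n s))).mono' (h1.const_mul m).exp.aestronglyMeasurable
    (ae_of_all _ fun y => ?_)
  rw [Real.norm_of_nonneg (Real.exp_pos _).le]
  exact Real.exp_le_exp.2 (mul_le_mul_of_nonneg_left ((h _).trans (bas_upd hC i s y)) hm.le)

lemma bas_PM_up {m C : ℝ} (hm : 0 < m) (hC : 0 ≤ C) (hF : Measurable F)
    (h : ∀ s, F s ≤ C * (1 + Lev.n s)) (i : ℕ) (s : St R Y) :
    (PM m Lev.μ fun y : Y => F (upd i s y)) ≤
      (C + |PM m Lev.μ fun y : Y => C * Lev.n y|) * (1 + Lev.n s) := by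
  have h1 := PM_mono hm (bas_int_up hm hC hF h i s) (bas_int m C (C * (1 + Lev.n s)))
    fun y => (h _).trans (bas_upd hC i s y)
  rw [PM_add_const hm (bas_int' m C)] at h1
  have h2 := le_mul_of_one_le_right (abs_nonneg (PM m Lev.μ fun y : Y => C * Lev.n y)) (bas_one_le s)
  linarith [le_abs_self (PM m Lev.μ fun y : Y => C * Lev.n y)]

lemma FL.free {I : Set ℝ} {H : ℝ → St R Y → ℝ} (ha : Exps R a) (hH : FL I H) {n : ℕ} (hn : n ≤ R) :
    FL I fun θ => X a (H θ) n := by
  refine ⟨fun θ hθ => measurable_X a (hH.meas θ hθ) n, ?_⟩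
  induction n with
  | zero => exact hH.bd
  | succ n ih =>
    obtain ⟨C₀, hC₀⟩ := ih (by omega)
    have hm := ha.pos n hn
    set C := max C₀ 0 with hCdef
    have hC : 0 ≤ C := le_max_right _ _
    have hb : ∀ θ ∈ I, ∀ s, |X a (H θ) n s| ≤ C * (1 + Lev.n s) :=
      fun θ hθ s => (hC₀ θ hθ s).trans (bas_max C₀ s)
    set K := |PM (a n) Lev.μ fun y : Y => C * Lev.n y| with hK
    set K' := PM (a n) Lev.μ fun y : Y => -C * Lev.n y with hK'
    refine ⟨C + K + |K'|, fun θ hθ s => ?_⟩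
    have hX := measurable_X a (hH.meas θ hθ) n
    have hu : ∀ s, X a (H θ) n s ≤ C * (1 + Lev.n s) := fun s => (le_abs_self _).trans (hb θ hθ s)
    have h1 := bas_PM_up hm hC hX hu n s
    have h2 := PM_mono hm (bas_int (a n) (-C) (-(C * (1 + Lev.n s)))) (bas_int_up hm hC hX hu n s)
      fun y => by linarith [bas_upd hC n s y, (abs_le.1 (hb θ hθ (upd n s y))).1]
    rw [PM_add_const hm (bas_int' (a n) (-C))] at h2
    have h3 := le_mul_of_one_le_right (abs_nonneg K') (bas_one_le s)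
    have h4 : 0 ≤ K * (1 + Lev.n s) := mul_nonneg (abs_nonneg _) (zero_le_one.trans (bas_one_le s))
    rw [X_succ, abs_le]
    constructor
    · linarith [neg_abs_le K']
    · linarith [abs_nonneg K']
lemma FE.cond {I : Set ℝ} {H ψ : ℝ → St R Y → ℝ} (ha : Exps R a) (hH : FL I H) (hψ : FE I ψ) {n : ℕ}
    (hn : n ≤ R) : FE I fun θ => E a (H θ) n (ψ θ) := by
  refine ⟨fun θ hθ => measurable_E a (hH.meas θ hθ) (hψ.meas θ hθ) n, ?_⟩
  induction n with
  | zero => exact hψ.bd
  | succ n ih =>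
    obtain ⟨C₁, hC₁⟩ := ih (by omega)
    obtain ⟨C₂, hC₂⟩ := (hH.free ha (n := n) (by omega)).bd
    obtain ⟨C₃, hC₃⟩ := (hH.free ha hn).bd
    have hm := ha.pos n hn
    set D₁ := max C₁ 0 with hD₁
    set D₂ := max C₂ 0 with hD₂
    refine ⟨D₁ + a n * (D₂ + C₃) + |∫ y : Y, Real.exp ((D₁ + a n * D₂) * Lev.n y) ∂Lev.μ|,
      fun θ hθ s => le_trans ?_ (bas_exp_bd _ _ s)⟩
    rw [E_succ, ← integral_mul_const, ← Real.norm_eq_abs]
    refine norm_integral_le_of_norm_le ((Lev.n_int _).mul_const _) (ae_of_all _ fun y => ?_)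
    rw [norm_mul, Real.norm_of_nonneg (Real.exp_pos _).le, Real.norm_eq_abs]
    have h1 : |E a (H θ) n (ψ θ) (upd n s y)| ≤ Real.exp (D₁ * Lev.n y + D₁ * (1 + Lev.n s)) :=
      (hC₁ θ hθ _).trans (Real.exp_le_exp.2 ((bas_max C₁ _).trans (bas_upd (le_max_right _ _) n s y)))
    have h2 : X a (H θ) n (upd n s y) ≤ D₂ * Lev.n y + D₂ * (1 + Lev.n s) :=
      (le_abs_self _).trans ((hC₂ θ hθ _).trans
        ((bas_max C₂ _).trans (bas_upd (le_max_right _ _) n s y)))
    have h3 := (abs_le.1 (hC₃ θ hθ s)).1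
    have h4 : a n * (X a (H θ) n (upd n s y) - X a (H θ) (n + 1) s) ≤
        a n * (D₂ * Lev.n y + D₂ * (1 + Lev.n s) + C₃ * (1 + Lev.n s)) :=
      mul_le_mul_of_nonneg_left (by linarith) hm.le
    refine (mul_le_mul h1 (Real.exp_le_exp.2 h4) (Real.exp_pos _).le (Real.exp_pos _).le).trans_eq ?_
    rw [← Real.exp_add, ← Real.exp_add]
    congr 1
    ring
lemma ML.free (ha : Exps R a) (hH : ML H) {n : ℕ} (hn : n ≤ R) : ML (X a H n) :=
  ((FL.const (I := Set.univ) hH).free ha hn).ml (Set.mem_univ 0)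
lemma MU.free (ha : Exps R a) (hH : MU H) {n : ℕ} (hn : n ≤ R) : MU (X a H n) := by
  induction n with
  | zero => exact hH
  | succ n ih =>
    obtain ⟨⟨hX, C₁, hC₁⟩, C₀, hC₀⟩ := ih (by omega)
    have hm := ha.pos n hn
    set C := max C₀ 0 with hCdef
    have hC : 0 ≤ C := le_max_right _ _
    set D := max C₁ 0 with hD
    have hu : ∀ s, X a H n s ≤ C * (1 + Lev.n s) := fun s => (hC₀ s).trans (bas_max C₀ s)
    set K := |PM (a n) Lev.μ fun y : Y => C * Lev.n y| with hK
    set K' := ∫ y : Y, Real.exp (D * Lev.n y) ∂Lev.μ with hK'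
    have h1 : ∀ s, X a H (n + 1) s ≤ (C + K) * (1 + Lev.n s) := fun s => bas_PM_up hm hC hX hu n s
    refine ⟨⟨measurable_X a hH.me.meas _, max (C + K) (D + |K'|), fun s => ?_⟩, C + K, h1⟩
    have h0 : 0 ≤ 1 + Lev.n s := zero_le_one.trans (bas_one_le s)
    have hb : ∀ y : Y, ‖X a H n (upd n s y)‖ ≤
        Real.exp (D * Lev.n y) * Real.exp (D * (1 + Lev.n s)) := fun y => by
      rw [← Real.exp_add]
      exact (hC₁ _).trans (Real.exp_le_exp.2 ((bas_max C₁ _).trans (bas_upd (le_max_right _ _) n s y)))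
    have hbi : Integrable (fun y : Y => Real.exp (D * Lev.n y) * Real.exp (D * (1 + Lev.n s))) Lev.μ :=
      (Lev.n_int _).mul_const _
    have hXm : Measurable fun y : Y => X a H n (upd n s y) :=
      hX.comp ((measurable_upd n).comp measurable_prodMk_left)
    have h2 := PM_ge_integral hm (hbi.mono' hXm.aestronglyMeasurable (ae_of_all _ hb))
      (bas_int_up hm hC hX hu n s)
    have h3 := norm_integral_le_of_norm_le hbi (ae_of_all _ hb)
    rw [integral_mul_const, Real.norm_eq_abs] at h3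
    have h4 := (h3.trans (bas_exp_bd D K' s)).trans (Real.exp_le_exp.2
      (mul_le_mul_of_nonneg_right (le_max_right (C + K) (D + |K'|)) h0))
    have h5 := mul_le_mul_of_nonneg_right (le_max_left (C + K) (D + |K'|)) h0
    rw [abs_le]
    constructor
    · rw [X_succ]
      linarith [(abs_le.1 h4).1]
    · linarith [h1 s, Real.add_one_le_exp (max (C + K) (D + |K'|) * (1 + Lev.n s))]
lemma ME.cond (ha : Exps R a) (hH : ML H) (hψ : ME ψ) {n : ℕ} (hn : n ≤ R) : ME (E a H n ψ) :=
  (FE.cond ha (FL.const (I := Set.univ) hH) (FE.const hψ) hn).me (Set.mem_univ 0)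
lemma ME.cov (ha : Exps R a) (hH : ML H) (hψ : ME ψ) (hφ : ME φ) {n : ℕ} (hn : n ≤ R) :
    ME (Cov a H n ψ φ) :=
  (ME.cond ha hH (hψ.mul hφ) hn).sub ((ME.cond ha hH hψ hn).mul (ME.cond ha hH hφ hn))
lemma ME.cv (ha : Exps R a) (hH : ML H) (hψ : ME ψ) (hφ : ME φ) {n : ℕ} (hn : n ≤ R) :
    ME (Cv a H n ψ φ) :=
  ME.sum (range n) fun i hi =>
    have hi' : i + 1 ≤ R := (Finset.mem_range.1 hi).trans_le hn
    ME.const_mul (a i)
      ((ME.cond ha hH ((ME.cond ha hH hψ (Nat.le_of_succ_le hi')).mul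
        (ME.cond ha hH hφ (Nat.le_of_succ_le hi'))) hn).sub
      (ME.cond ha hH ((ME.cond ha hH hψ hi').mul (ME.cond ha hH hφ hi')) hn))
lemma FE.cv {I : Set ℝ} {H ψ φ : ℝ → St R Y → ℝ} (ha : Exps R a) (hH : FL I H) (hψ : FE I ψ)
    (hφ : FE I φ) {n : ℕ} (hn : n ≤ R) : FE I fun θ => Cv a (H θ) n (ψ θ) (φ θ) :=
  FE.sum (range n) fun i hi =>
    have hi' : i + 1 ≤ R := (Finset.mem_range.1 hi).trans_le hn
    FE.mul (FE.scalar (c := fun _ => a i) |a i| fun _ _ => le_rfl)
      ((FE.cond ha hH ((FE.cond ha hH hψ (Nat.le_of_succ_le hi')).mul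
        (FE.cond ha hH hφ (Nat.le_of_succ_le hi'))) hn).sub
      (FE.cond ha hH ((FE.cond ha hH hψ hi').mul (FE.cond ha hH hφ hi')) hn))

/-- The one-step weights integrate to one. -/
lemma integral_weight (ha : Exps R a) (hH : MU H) {i : ℕ} (hi : i < R) (s : St R Y) :
    ∫ y, Real.exp (a i * (X a H i (upd i s y) - X a H (i + 1) s)) ∂Lev.μ = 1 := by
  have hm := ha.pos i hi
  obtain ⟨⟨hX, -⟩, C₀, hC₀⟩ := hH.free ha hi.le
  have h1 := bas_int_up hm (le_max_right C₀ 0) hX (fun s => (hC₀ s).trans (bas_max C₀ s)) i s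
  simp only [mul_sub, Real.exp_sub]
  rw [integral_div, ← exp_PM hm h1, X_succ, div_self (Real.exp_pos _).ne']

end Crest.Agent.R164
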