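import Crest.Agent.R164.Cas

/-!
# R164 / CasCls: closure properties of the growth classes

Hints: constants may always be replaced by larger ones (`1 + n s ≥ 1`); `|x| ≤ exp |x|`,
`exp u + exp v ≤ exp (max u v + 1)`.  `ME.integrable`: `exp (C (1 + n)) = exp C * exp (C n)` and
`Lev.n_int`.
-/

set_option autoImplicit false

open MeasureTheory ProbabilityTheory Finset

namespace Crest.Agent.R164

variable {S S' S'' : Type} [MeasurableSpace S] [Lev S] [MeasurableSpace S'] [Lev S']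
  [MeasurableSpace S''] [Lev S''] {f g : S → ℝ}

/-- A measurable map with linear growth between level spaces. -/
structure Gro (τ : S → S') : Prop where
  meas : Measurable τ
  bd : ∃ C : ℝ, ∀ s, Lev.n (τ s) ≤ C * (1 + Lev.n s)

lemma cls_one_le (s : S) : 1 ≤ 1 + Lev.n s := le_add_of_nonneg_right (Lev.n_nonneg s)

lemma cls_le_mul {x C N : ℝ} (hN : 1 ≤ N) (h : x ≤ C) : x ≤ |C| * N :=
  h.trans ((le_abs_self C).trans (le_mul_of_one_le_right (abs_nonneg C) hN))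

lemma cls_le_exp {x y : ℝ} (h : x ≤ y) : x ≤ Real.exp y := by
  linarith [Real.add_one_le_exp y]

lemma cls_lin_add {x y A B N : ℝ} (hx : |x| ≤ A * N) (hy : |y| ≤ B * N) : |x + y| ≤ (A + B) * N := by
  linarith [abs_add_le x y]

lemma cls_lin_mul {x y A B N : ℝ} (hx : |x| ≤ A) (hy : |y| ≤ B * N) : |x * y| ≤ (A * B) * N := by
  rw [abs_mul, mul_assoc]
  exact mul_le_mul hx hy (abs_nonneg _) ((abs_nonneg _).trans hx)

lemma cls_exp_add {x y A B N : ℝ} (hN : 1 ≤ N) (hx : |x| ≤ Real.exp (A * N))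
    (hy : |y| ≤ Real.exp (B * N)) : |x + y| ≤ Real.exp ((max A B + 1) * N) := by
  have h1 : Real.exp (A * N) ≤ Real.exp (max A B * N) :=
    Real.exp_le_exp.2 (mul_le_mul_of_nonneg_right (le_max_left _ _) (by linarith))
  have h2 : Real.exp (B * N) ≤ Real.exp (max A B * N) :=
    Real.exp_le_exp.2 (mul_le_mul_of_nonneg_right (le_max_right _ _) (by linarith))
  have h3 : 2 ≤ Real.exp N := by linarith [Real.add_one_le_exp N]
  rw [add_mul, one_mul, Real.exp_add]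
  nlinarith [abs_add_le x y, Real.exp_pos (max A B * N)]

lemma cls_exp_mul {x y A B N : ℝ} (hx : |x| ≤ Real.exp (A * N))
    (hy : |y| ≤ Real.exp (B * N)) : |x * y| ≤ Real.exp ((A + B) * N) := by
  rw [abs_mul, add_mul, Real.exp_add]
  exact mul_le_mul hx hy (abs_nonneg _) (Real.exp_pos _).le

lemma cls_comp {C D n N : ℝ} (hn : 0 ≤ n) (hN : 1 ≤ N) (h : n ≤ D * N) :
    C * (1 + n) ≤ (|C| * (1 + |D|)) * N := by
  have h1 : C * (1 + n) ≤ |C| * (1 + n) := mul_le_mul_of_nonneg_right (le_abs_self C) (by linarith)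
  have h2 : D * N ≤ |D| * N := mul_le_mul_of_nonneg_right (le_abs_self D) (by linarith)
  have h3 : 1 + n ≤ (1 + |D|) * N := by linarith
  rw [mul_assoc]
  exact h1.trans (mul_le_mul_of_nonneg_left h3 (abs_nonneg C))

lemma ML.const (c : ℝ) : ML fun _ : S => c :=
  ⟨measurable_const, |(|c|)|, fun s => cls_le_mul (cls_one_le s) le_rfl⟩
lemma ML.of_bdd (hm : Measurable f) (C : ℝ) (h : ∀ s, |f s| ≤ C) : ML f :=
  ⟨hm, |C|, fun s => cls_le_mul (cls_one_le s) (h s)⟩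
lemma ML.of_le_n (hm : Measurable f) (h : ∀ s, |f s| ≤ Lev.n s) : ML f :=
  ⟨hm, 1, fun s => by linarith [h s]⟩
lemma ML.add (hf : ML f) (hg : ML g) : ML fun s => f s + g s := by
  obtain ⟨A, hA⟩ := hf.bd
  obtain ⟨B, hB⟩ := hg.bd
  exact ⟨hf.meas.add hg.meas, A + B, fun s => cls_lin_add (hA s) (hB s)⟩
lemma ML.neg (hf : ML f) : ML fun s => -f s :=
  ⟨hf.meas.neg, by simpa only [abs_neg] using hf.bd⟩
lemma ML.sub (hf : ML f) (hg : ML g) : ML fun s => f s - g s := by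
  simpa only [sub_eq_add_neg] using hf.add hg.neg
lemma ML.const_mul (c : ℝ) (hf : ML f) : ML fun s => c * f s := by
  obtain ⟨A, hA⟩ := hf.bd
  exact ⟨hf.meas.const_mul c, |c| * A, fun s => cls_lin_mul le_rfl (hA s)⟩
lemma ML.abs (hf : ML f) : ML fun s => |f s| :=
  ⟨hf.meas.abs, by simpa only [abs_abs] using hf.bd⟩
lemma ML.bdd_mul (hg : Measurable g) (C : ℝ) (h : ∀ s, |g s| ≤ C) (hf : ML f) :
    ML fun s => g s * f s := by
  obtain ⟨A, hA⟩ := hf.bd
  exact ⟨hg.mul hf.meas, C * A, fun s => cls_lin_mul (h s) (hA s)⟩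
lemma ML.mul_bdd (hf : ML f) (hg : Measurable g) (C : ℝ) (h : ∀ s, |g s| ≤ C) :
    ML fun s => f s * g s := by
  simpa only [mul_comm] using ML.bdd_mul hg C h hf
lemma ML.sum {β : Type*} (t : Finset β) {F : β → S → ℝ} (h : ∀ b ∈ t, ML (F b)) :
    ML fun s => ∑ b ∈ t, F b s := by
  classical
  induction t using Finset.induction_on with
  | empty => simpa using ML.const (S := S) 0
  | insert b t hb ih =>
    simp only [Finset.sum_insert hb]
    exact (h b (Finset.mem_insert_self _ _)).add (ih fun c hc => h c (Finset.mem_insert_of_mem hc))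
lemma ML.me (hf : ML f) : ME f :=
  ⟨hf.meas, hf.bd.imp fun _ h s => cls_le_exp (h s)⟩
lemma ML.mu (hf : ML f) : MU f :=
  ⟨hf.me, hf.bd.imp fun _ h s => (le_abs_self _).trans (h s)⟩
lemma ML.exp (hf : ML f) : ME fun s => Real.exp (f s) :=
  ⟨hf.meas.exp, hf.bd.imp fun _ h s => by
    rw [abs_of_pos (Real.exp_pos _)]
    exact Real.exp_le_exp.2 ((le_abs_self _).trans (h s))⟩
lemma ML.comp {f : S' → ℝ} {τ : S → S'} (hf : ML f) (hτ : Gro τ) : ML fun s => f (τ s) := by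
  obtain ⟨A, hA⟩ := hf.bd
  obtain ⟨D, hD⟩ := hτ.bd
  exact ⟨hf.meas.comp hτ.meas, _, fun s =>
    (hA _).trans (cls_comp (Lev.n_nonneg _) (cls_one_le s) (hD s))⟩
lemma ml_id : ML fun y : ℝ => y :=
  ML.of_le_n measurable_id fun _ => le_rfl

lemma ME.const (c : ℝ) : ME fun _ : S => c :=
  (ML.const c).me
lemma ME.of_bdd (hm : Measurable f) (C : ℝ) (h : ∀ s, |f s| ≤ C) : ME f :=
  (ML.of_bdd hm C h).me
lemma ME.add (hf : ME f) (hg : ME g) : ME fun s => f s + g s := by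
  obtain ⟨A, hA⟩ := hf.bd
  obtain ⟨B, hB⟩ := hg.bd
  exact ⟨hf.meas.add hg.meas, _, fun s => cls_exp_add (cls_one_le s) (hA s) (hB s)⟩
lemma ME.neg (hf : ME f) : ME fun s => -f s :=
  ⟨hf.meas.neg, by simpa only [abs_neg] using hf.bd⟩
lemma ME.sub (hf : ME f) (hg : ME g) : ME fun s => f s - g s := by
  simpa only [sub_eq_add_neg] using hf.add hg.neg
lemma ME.mul (hf : ME f) (hg : ME g) : ME fun s => f s * g s := by
  obtain ⟨A, hA⟩ := hf.bd
  obtain ⟨B, hB⟩ := hg.bd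
  exact ⟨hf.meas.mul hg.meas, _, fun s => cls_exp_mul (hA s) (hB s)⟩
lemma ME.const_mul (c : ℝ) (hf : ME f) : ME fun s => c * f s :=
  (ME.const c).mul hf
lemma ME.pow (hf : ME f) (k : ℕ) : ME fun s => f s ^ k := by
  induction k with
  | zero => simpa using ME.const (S := S) 1
  | succ k ih => simpa only [pow_succ] using ih.mul hf
lemma ME.abs (hf : ME f) : ME fun s => |f s| :=
  ⟨hf.meas.abs, by simpa only [abs_abs] using hf.bd⟩
lemma ME.sqrt (hf : ME f) : ME fun s => Real.sqrt (f s) := by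
  obtain ⟨A, hA⟩ := (hf.abs.add (ME.const 1)).bd
  refine ⟨hf.meas.sqrt, A, fun s => le_trans ?_ (hA s)⟩
  rw [abs_of_nonneg (Real.sqrt_nonneg _), abs_of_nonneg (by positivity)]
  refine Real.sqrt_le_iff.2 ⟨by positivity, ?_⟩
  nlinarith [le_abs_self (f s), abs_nonneg (f s)]
lemma ME.sum {β : Type*} (t : Finset β) {F : β → S → ℝ} (h : ∀ b ∈ t, ME (F b)) :
    ME fun s => ∑ b ∈ t, F b s := by
  classical
  induction t using Finset.induction_on with
  | empty => simpa using ME.const (S := S) 0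
  | insert b t hb ih =>
    simp only [Finset.sum_insert hb]
    exact (h b (Finset.mem_insert_self _ _)).add (ih fun c hc => h c (Finset.mem_insert_of_mem hc))
lemma ME.mono (hf : ME f) (hg : Measurable g) (h : ∀ s, |g s| ≤ |f s|) : ME g :=
  ⟨hg, hf.bd.imp fun _ hC s => (h s).trans (hC s)⟩
lemma ME.comp {f : S' → ℝ} {τ : S → S'} (hf : ME f) (hτ : Gro τ) : ME fun s => f (τ s) := by
  obtain ⟨A, hA⟩ := hf.bd
  obtain ⟨D, hD⟩ := hτ.bd
  exact ⟨hf.meas.comp hτ.meas, _, fun s =>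
    (hA _).trans (Real.exp_le_exp.2 (cls_comp (Lev.n_nonneg _) (cls_one_le s) (hD s)))⟩
lemma ME.integrable (hf : ME f) : Integrable f Lev.μ := by
  obtain ⟨A, hA⟩ := hf.bd
  refine ((Lev.n_int A).const_mul (Real.exp A)).mono' hf.meas.aestronglyMeasurable
    (Filter.Eventually.of_forall fun s => ?_)
  rw [Real.norm_eq_abs, ← Real.exp_add]
  simpa only [mul_add, mul_one] using hA s

lemma MU.of_nonpos (hf : ME f) (h : ∀ s, f s ≤ 0) : MU f :=
  ⟨hf, 0, fun s => by simpa using h s⟩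
lemma MU.add (hf : MU f) (hg : MU g) : MU fun s => f s + g s := by
  obtain ⟨A, hA⟩ := hf.up
  obtain ⟨B, hB⟩ := hg.up
  exact ⟨hf.me.add hg.me, A + B, fun s => by linarith [hA s, hB s]⟩
lemma MU.sum {β : Type*} (t : Finset β) {F : β → S → ℝ} (h : ∀ b ∈ t, MU (F b)) :
    MU fun s => ∑ b ∈ t, F b s := by
  classical
  induction t using Finset.induction_on with
  | empty => simpa using (ML.const (S := S) 0).mu
  | insert b t hb ih =>
    simp only [Finset.sum_insert hb]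
    exact (h b (Finset.mem_insert_self _ _)).add (ih fun c hc => h c (Finset.mem_insert_of_mem hc))
lemma MU.exp (hf : MU f) {c : ℝ} (hc : 0 ≤ c) : ME fun s => Real.exp (c * f s) := by
  obtain ⟨A, hA⟩ := hf.up
  refine ⟨(hf.me.meas.const_mul c).exp, c * A, fun s => ?_⟩
  rw [abs_of_pos (Real.exp_pos _), mul_assoc]
  exact Real.exp_le_exp.2 (mul_le_mul_of_nonneg_left (hA s) hc)
lemma MU.comp {f : S' → ℝ} {τ : S → S'} (hf : MU f) (hτ : Gro τ) : MU fun s => f (τ s) := by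
  obtain ⟨A, hA⟩ := hf.up
  obtain ⟨D, hD⟩ := hτ.bd
  exact ⟨hf.me.comp hτ, _, fun s =>
    (hA _).trans (cls_comp (Lev.n_nonneg _) (cls_one_le s) (hD s))⟩

lemma Gro.id' : Gro fun s : S => s :=
  ⟨measurable_id, 1, fun s => by linarith⟩
lemma Gro.of_le {τ : S → S'} (hm : Measurable τ) (h : ∀ s, Lev.n (τ s) ≤ Lev.n s) : Gro τ :=
  ⟨hm, 1, fun s => by linarith [h s]⟩
lemma Gro.comp {σ : S' → S''} {τ : S → S'} (hσ : Gro σ) (hτ : Gro τ) : Gro fun s => σ (τ s) := by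
  obtain ⟨A, hA⟩ := hσ.bd
  obtain ⟨D, hD⟩ := hτ.bd
  exact ⟨hσ.meas.comp hτ.meas, _, fun s =>
    (hA _).trans (cls_comp (Lev.n_nonneg _) (cls_one_le s) (hD s))⟩
lemma Gro.fst : Gro fun p : S × S' => p.1 :=
  Gro.of_le measurable_fst fun _ => le_add_of_nonneg_right (Lev.n_nonneg _)
lemma Gro.snd : Gro fun p : S × S' => p.2 :=
  Gro.of_le measurable_snd fun _ => le_add_of_nonneg_left (Lev.n_nonneg _)
lemma Gro.prodMk {σ : S → S'} {τ : S → S''} (hσ : Gro σ) (hτ : Gro τ) :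
    Gro fun s => (σ s, τ s) := by
  obtain ⟨A, hA⟩ := hσ.bd
  obtain ⟨B, hB⟩ := hτ.bd
  refine ⟨hσ.meas.prodMk hτ.meas, A + B, fun s => ?_⟩
  rw [n_prod]
  linarith [hA s, hB s]
lemma Gro.apply {ι : Type} [Fintype ι] (a : ι) : Gro fun s : ι → S => s a :=
  Gro.of_le (measurable_pi_apply a) fun s =>
    Finset.single_le_sum (f := fun b => Lev.n (s b)) (fun _ _ => Lev.n_nonneg _) (Finset.mem_univ a)
lemma Gro.pi {ι : Type} [Fintype ι] {τ : ι → S → S'} (h : ∀ a, Gro (τ a)) :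
    Gro fun s a => τ a s := by
  choose C hC using fun a => (h a).bd
  refine ⟨measurable_pi_lambda _ fun a => (h a).meas, ∑ a, C a, fun s => ?_⟩
  rw [n_pi, Finset.sum_mul]
  exact Finset.sum_le_sum fun a _ => hC a s
lemma Gro.of_ml (hf : ML f) : Gro f :=
  ⟨hf.meas, hf.bd⟩
/-- Slotwise maps of states. -/
lemma Gro.lift {R : ℕ} {τ : Fin R → S → S'} (h : ∀ i, Gro (τ i)) :
    Gro fun (s : St R S) (i : Fin R) => τ i (s i) :=
  Gro.pi (τ := fun i (s : St R S) => τ i (s i)) fun i => (h i).comp (Gro.apply i)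
lemma gro_upd {R : ℕ} (i : ℕ) (s : St R S) : Gro (upd i s) := by
  refine Gro.pi (τ := fun (j : Fin R) (y : S) => if (j : ℕ) = i then y else s j) fun j => ?_
  by_cases hj : (j : ℕ) = i
  · simp only [hj, if_true]
    exact Gro.id'
  · simp only [hj, if_false]
    exact ⟨measurable_const, _, fun y => cls_le_mul (cls_one_le y) le_rfl⟩

variable {I : Set ℝ} {F F' G G' : ℝ → S → ℝ}

lemma FL.ml (h : FL I F) {θ : ℝ} (hθ : θ ∈ I) : ML (F θ) :=
  ⟨h.meas θ hθ, h.bd.imp fun _ hC => hC θ hθ⟩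
lemma FL.fe (h : FL I F) : FE I F :=
  ⟨h.meas, h.bd.imp fun _ hC θ hθ s => cls_le_exp (hC θ hθ s)⟩
lemma FL.const (hf : ML f) : FL I fun _ => f :=
  ⟨fun _ _ => hf.meas, hf.bd.imp fun _ hC _ _ => hC⟩
lemma FL.add (hF : FL I F) (hG : FL I G) : FL I fun θ s => F θ s + G θ s := by
  obtain ⟨A, hA⟩ := hF.bd
  obtain ⟨B, hB⟩ := hG.bd
  exact ⟨fun θ hθ => (hF.meas θ hθ).add (hG.meas θ hθ), A + B,
    fun θ hθ s => cls_lin_add (hA θ hθ s) (hB θ hθ s)⟩
lemma FL.sum {β : Type*} (t : Finset β) {F : β → ℝ → S → ℝ} (h : ∀ b ∈ t, FL I (F b)) :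
    FL I fun θ s => ∑ b ∈ t, F b θ s := by
  classical
  induction t using Finset.induction_on with
  | empty => simpa using FL.const (I := I) (ML.const (S := S) 0)
  | insert b t hb ih =>
    simp only [Finset.sum_insert hb]
    exact (h b (Finset.mem_insert_self _ _)).add (ih fun c hc => h c (Finset.mem_insert_of_mem hc))
lemma FL.smul {c : ℝ → ℝ} (C : ℝ) (hc : ∀ θ ∈ I, |c θ| ≤ C) (hF : FL I F) :
    FL I fun θ s => c θ * F θ s := by
  obtain ⟨A, hA⟩ := hF.bd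
  exact ⟨fun θ hθ => (hF.meas θ hθ).const_mul _, C * A,
    fun θ hθ s => cls_lin_mul (hc θ hθ) (hA θ hθ s)⟩
lemma FL.of_bdd (hm : ∀ θ ∈ I, Measurable (F θ)) (C : ℝ) (h : ∀ θ ∈ I, ∀ s, |F θ s| ≤ C) :
    FL I F :=
  ⟨hm, |C|, fun θ hθ s => cls_le_mul (cls_one_le s) (h θ hθ s)⟩

lemma FE.me (h : FE I F) {θ : ℝ} (hθ : θ ∈ I) : ME (F θ) :=
  ⟨h.meas θ hθ, h.bd.imp fun _ hC => hC θ hθ⟩
lemma FE.const (hf : ME f) : FE I fun _ => f :=
  ⟨fun _ _ => hf.meas, hf.bd.imp fun _ hC _ _ => hC⟩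
lemma FE.scalar {c : ℝ → ℝ} (C : ℝ) (hc : ∀ θ ∈ I, |c θ| ≤ C) : FE I fun θ (_ : S) => c θ :=
  (FL.of_bdd (fun _ _ => measurable_const) C fun θ hθ _ => hc θ hθ).fe
lemma FE.add (hF : FE I F) (hG : FE I G) : FE I fun θ s => F θ s + G θ s := by
  obtain ⟨A, hA⟩ := hF.bd
  obtain ⟨B, hB⟩ := hG.bd
  exact ⟨fun θ hθ => (hF.meas θ hθ).add (hG.meas θ hθ), _,
    fun θ hθ s => cls_exp_add (cls_one_le s) (hA θ hθ s) (hB θ hθ s)⟩
lemma FE.neg (hF : FE I F) : FE I fun θ s => -F θ s :=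
  ⟨fun θ hθ => (hF.meas θ hθ).neg, by simpa only [abs_neg] using hF.bd⟩
lemma FE.sub (hF : FE I F) (hG : FE I G) : FE I fun θ s => F θ s - G θ s := by
  simpa only [sub_eq_add_neg] using hF.add hG.neg
lemma FE.mul (hF : FE I F) (hG : FE I G) : FE I fun θ s => F θ s * G θ s := by
  obtain ⟨A, hA⟩ := hF.bd
  obtain ⟨B, hB⟩ := hG.bd
  exact ⟨fun θ hθ => (hF.meas θ hθ).mul (hG.meas θ hθ), _,
    fun θ hθ s => cls_exp_mul (hA θ hθ s) (hB θ hθ s)⟩
lemma FE.sum {β : Type*} (t : Finset β) {F : β → ℝ → S → ℝ} (h : ∀ b ∈ t, FE I (F b)) :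
    FE I fun θ s => ∑ b ∈ t, F b θ s := by
  classical
  induction t using Finset.induction_on with
  | empty => simpa using FE.const (I := I) (ME.const (S := S) 0)
  | insert b t hb ih =>
    simp only [Finset.sum_insert hb]
    exact (h b (Finset.mem_insert_self _ _)).add (ih fun c hc => h c (Finset.mem_insert_of_mem hc))
lemma FE.mono (hF : FE I F) (hG : ∀ θ ∈ I, Measurable (G θ))
    (h : ∀ θ ∈ I, ∀ s, |G θ s| ≤ |F θ s|) : FE I G :=
  ⟨hG, hF.bd.imp fun _ hC θ hθ s => (h θ hθ s).trans (hC θ hθ s)⟩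

lemma DF.const (hf : ME f) : DF I (fun _ => f) fun _ _ => 0 :=
  ⟨FE.const hf, FE.const (ME.const 0), fun θ _ s => hasDerivAt_const θ (f s)⟩
lemma DF.scalar {c c' : ℝ → ℝ} (C : ℝ) (hc : ∀ θ ∈ I, |c θ| ≤ C) (hc' : ∀ θ ∈ I, |c' θ| ≤ C)
    (hd : ∀ θ ∈ I, HasDerivAt c (c' θ) θ) : DF I (fun θ (_ : S) => c θ) fun θ _ => c' θ :=
  ⟨FE.scalar C hc, FE.scalar C hc', fun θ hθ _ => hd θ hθ⟩
lemma DF.add (hF : DF I F F') (hG : DF I G G') :
    DF I (fun θ s => F θ s + G θ s) fun θ s => F' θ s + G' θ s :=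
  ⟨hF.ge.add hG.ge, hF.ge'.add hG.ge', fun θ hθ s => (hF.der θ hθ s).add (hG.der θ hθ s)⟩
lemma DF.neg (hF : DF I F F') : DF I (fun θ s => -F θ s) fun θ s => -F' θ s :=
  ⟨hF.ge.neg, hF.ge'.neg, fun θ hθ s => (hF.der θ hθ s).neg⟩
lemma DF.sub (hF : DF I F F') (hG : DF I G G') :
    DF I (fun θ s => F θ s - G θ s) fun θ s => F' θ s - G' θ s :=
  ⟨hF.ge.sub hG.ge, hF.ge'.sub hG.ge', fun θ hθ s => (hF.der θ hθ s).sub (hG.der θ hθ s)⟩
lemma DF.mul (hF : DF I F F') (hG : DF I G G') :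
    DF I (fun θ s => F θ s * G θ s) fun θ s => F' θ s * G θ s + F θ s * G' θ s :=
  ⟨hF.ge.mul hG.ge, (hF.ge'.mul hG.ge).add (hF.ge.mul hG.ge'),
    fun θ hθ s => (hF.der θ hθ s).mul (hG.der θ hθ s)⟩
lemma DF.const_mul (c : ℝ) (hF : DF I F F') :
    DF I (fun θ s => c * F θ s) fun θ s => c * F' θ s :=
  ⟨(FE.const (ME.const c)).mul hF.ge, (FE.const (ME.const c)).mul hF.ge',
    fun θ hθ s => (hF.der θ hθ s).const_mul c⟩
lemma DF.sum {β : Type*} (t : Finset β) {F F' : β → ℝ → S → ℝ} (h : ∀ b ∈ t, DF I (F b) (F' b)) :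
    DF I (fun θ s => ∑ b ∈ t, F b θ s) fun θ s => ∑ b ∈ t, F' b θ s := by
  classical
  induction t using Finset.induction_on with
  | empty => simpa using DF.const (I := I) (ME.const (S := S) 0)
  | insert b t hb ih =>
    simp only [Finset.sum_insert hb]
    exact (h b (Finset.mem_insert_self _ _)).add (ih fun c hc => h c (Finset.mem_insert_of_mem hc))
/-- Composition with a `C¹` function with bounded derivative
(`|g w| ≤ |g 0| + B |w|` by the mean value inequality; `g'` is measurable as `deriv g`). -/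
lemma DF.comp {g g' : ℝ → ℝ} (hg : ∀ w, HasDerivAt g (g' w) w) (B : ℝ) (hB : ∀ w, |g' w| ≤ B)
    (hF : DF I F F') : DF I (fun θ s => g (F θ s)) fun θ s => g' (F θ s) * F' θ s := by
  have hd : Differentiable ℝ g := fun w => (hg w).differentiableAt
  have hg' : Measurable g' := by
    have : g' = deriv g := funext fun w => (hg w).deriv.symm
    rw [this]
    exact measurable_deriv g
  have hlip : ∀ w, |g w - g 0| ≤ |B * w| := by
    intro w
    have := Convex.norm_image_sub_le_of_norm_hasDerivWithin_le (f := g) (f' := g') (s := Set.univ)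
      (C := B) (x := 0) (y := w) (fun x _ => (hg x).hasDerivWithinAt) (fun x _ => hB x) convex_univ
      trivial trivial
    rw [abs_mul, abs_of_nonneg ((abs_nonneg _).trans (hB 0))]
    simpa using this
  refine ⟨?_, ?_, fun θ hθ s => (hg _).comp θ (hF.der θ hθ s)⟩
  · have h1 : FE I fun θ s => g (F θ s) - g 0 :=
      ((FE.const (ME.const B)).mul hF.ge).mono
        (fun θ hθ => (hd.continuous.measurable.comp (hF.ge.meas θ hθ)).sub_const _)
        fun θ _ s => hlip _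
    simpa using h1.add (FE.const (ME.const (g 0)))
  · exact (FL.of_bdd (fun θ hθ => hg'.comp (hF.ge.meas θ hθ)) B fun θ _ s => hB _).fe.mul hF.ge'
/-- The linear family `f + θ g` on a bounded parameter set. -/
lemma DF.linear (C : ℝ) (hI : ∀ θ ∈ I, |θ| ≤ C) (hf : ME f) (hg : ME g) :
    DF I (fun θ s => f s + θ * g s) fun _ => g :=
  ⟨(FE.const hf).add ((FE.scalar (c := fun θ => θ) C hI).mul (FE.const hg)), FE.const hg,
    fun θ _ s => by simpa using ((hasDerivAt_id θ).mul_const (g s)).const_add (f s)⟩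
lemma DF.congr (hI : IsOpen I) (hF : DF I F F') (h : ∀ θ ∈ I, G θ = F θ)
    (h' : ∀ θ ∈ I, G' θ = F' θ) : DF I G G' := by
  refine ⟨hF.ge.mono (fun θ hθ => h θ hθ ▸ hF.ge.meas θ hθ) fun θ hθ s => by rw [h θ hθ],
    hF.ge'.mono (fun θ hθ => h' θ hθ ▸ hF.ge'.meas θ hθ) fun θ hθ s => by rw [h' θ hθ],
    fun θ hθ s => ?_⟩
  rw [h' θ hθ]
  refine (hF.der θ hθ s).congr_of_eventuallyEq ?_
  filter_upwards [hI.mem_nhds hθ] with t ht
  rw [h t ht]

end Crest.Agent.R164
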