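import Crest.Agent.R164.CasRep

/-!
# R164 / CasCov: the bilinear forms `Cov`, `Cv`, `Ct`, and vector observables

With `B_i = E n (E i ψ * E i φ)`; `B_0 = E n (ψ φ)`, `B_n = E n ψ * E n φ` (`E_dep`).
For `φ = ψ`: `B_{i+1} ≤ B_i` for `i < n` (`E (i+1) ψ = E (i+1) (E i ψ)`, `E_sq_le`, `E_tower`,
`E_mono`), so `a n (B_0 - B_n) ≤ Cv ≤ B_0 - B_n`.
-/

set_option autoImplicit false

open MeasureTheory ProbabilityTheory Finset

namespace Crest.Agent.R164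

variable {Y : Type} [MeasurableSpace Y] [Lev Y] {R : ℕ} {a : ℕ → ℝ} {H ψ φ F u : St R Y → ℝ}
  {n : ℕ} {β β' : Type} [Fintype β] [Fintype β'] {Xv : β → St R Y → ℝ}

lemma cov_abel (a B : ℕ → ℝ) (n : ℕ) : ∑ i ∈ range n, a i * (B i - B (i + 1)) =
    a 0 * B 0 - ∑ i ∈ range n, (a i - a (i + 1)) * B (i + 1) - a n * B n := by
  induction n with
  | zero => simp
  | succ n ih => rw [sum_range_succ, sum_range_succ, ih]; ring

lemma Exps.cov_nonneg (ha : Exps R a) (hn : n ≤ R) : 0 ≤ a n := ha.last.trans (ha.anti hn)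

lemma Exps.cov_le_one (ha : Exps R a) (n : ℕ) : a n ≤ 1 := ha.zero ▸ ha.anti (Nat.zero_le n)

lemma cov_abs_tail (ha : Exps R a) {B : ℕ → ℝ} {K : ℝ} (hB : ∀ i ≤ n, |B i| ≤ K) :
    |∑ i ∈ range n, (a i - a (i + 1)) * B (i + 1)| ≤ (1 - a n) * K := by
  refine (abs_sum_le_sum_abs _ _).trans ?_
  rw [← ha.zero, ← sum_range_sub' a n, sum_mul]
  refine sum_le_sum fun i hi => ?_
  have h1 : 0 ≤ a i - a (i + 1) := sub_nonneg.2 (ha.anti (Nat.le_succ i))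
  rw [abs_mul, abs_of_nonneg h1]
  exact mul_le_mul_of_nonneg_left (hB _ (mem_range.1 hi)) h1

lemma cov_abs_sum (ha : Exps R a) (hn : n ≤ R) {B : ℕ → ℝ} {K : ℝ} (hB : ∀ i ≤ n, |B i| ≤ K) :
    |∑ i ∈ range n, a i * (B i - B (i + 1))| ≤ 2 * K := by
  rw [cov_abel, ha.zero, one_mul]
  have h1 := abs_le.1 (cov_abs_tail ha hB)
  have h2 := abs_le.1 (hB 0 (Nat.zero_le n))
  have h3 : |a n * B n| ≤ a n * K := by
    rw [abs_mul, abs_of_nonneg (ha.cov_nonneg hn)]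
    exact mul_le_mul_of_nonneg_left (hB n le_rfl) (ha.cov_nonneg hn)
  have h4 := abs_le.1 h3
  rw [abs_le]
  constructor <;> linarith [h1.1, h1.2, h2.1, h2.2, h4.1, h4.2]

lemma cov_abs_ct (ha : Exps R a) (hn : n ≤ R) {B : ℕ → ℝ} {K : ℝ} (hB : ∀ i ≤ n, |B i| ≤ K) :
    |B 0 - ∑ i ∈ range n, (a i - a (i + 1)) * B (i + 1)| ≤ 2 * K := by
  have h1 := abs_le.1 (cov_abs_tail ha hB)
  have h2 := abs_le.1 (hB 0 (Nat.zero_le n))
  have h3 : 0 ≤ a n * K := mul_nonneg (ha.cov_nonneg hn) ((abs_nonneg _).trans (hB 0 (Nat.zero_le n)))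
  rw [abs_le]
  constructor <;> linarith [h1.1, h1.2, h2.1, h2.2]

/-- the quantities `B_i` -/
noncomputable def Bq (a : ℕ → ℝ) (H : St R Y → ℝ) (n : ℕ) (ψ φ : St R Y → ℝ) (s : St R Y) (i : ℕ) : ℝ :=
  E a H n (fun t => E a H i ψ t * E a H i φ t) s

lemma Cv_eq (a : ℕ → ℝ) (H ψ φ : St R Y → ℝ) (n : ℕ) (s : St R Y) :
    Cv a H n ψ φ s = ∑ i ∈ range n, a i * (Bq a H n ψ φ s i - Bq a H n ψ φ s (i + 1)) := rfl

lemma Bq_zero (a : ℕ → ℝ) (H ψ φ : St R Y → ℝ) (n : ℕ) (s : St R Y) :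
    Bq a H n ψ φ s 0 = E a H n (fun t => ψ t * φ t) s := by
  simp only [Bq, E_zero]

lemma Ct_eq (a : ℕ → ℝ) (H ψ φ : St R Y → ℝ) (l : ℕ) : Ct a H l ψ φ = Bq a H R ψ φ Lev.pt 0 -
    ∑ i ∈ range l, (a i - a (i + 1)) * Bq a H R ψ φ Lev.pt (i + 1) := by
  rw [Bq_zero]
  rfl

lemma Bq_top (ha : Exps R a) (hH : ML H) (hn : n ≤ R) (ψ φ : St R Y → ℝ) (s : St R Y) :
    Bq a H n ψ φ s n = E a H n ψ s * E a H n φ s :=
  E_dep ha hH hn ((dep_E a H ψ n).comp₂ (dep_E a H φ n) (· * ·)) s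

lemma Bq_comm (a : ℕ → ℝ) (H ψ φ : St R Y → ℝ) (n : ℕ) (s : St R Y) (i : ℕ) :
    Bq a H n ψ φ s i = Bq a H n φ ψ s i := by
  simp only [Bq, mul_comm (E a H i ψ _)]

lemma Bq_add (ha : Exps R a) (hH : ML H) (hn : n ≤ R) (hψ : ME ψ) (hφ : ME φ) (hu : ME u)
    (s : St R Y) {i : ℕ} (hi : i ≤ R) :
    Bq a H n ψ (fun t => φ t + u t) s i = Bq a H n ψ φ s i + Bq a H n ψ u s i := by
  simp only [Bq, E_add ha hH hi hφ hu, mul_add]
  exact E_add ha hH hn ((hψ.cond ha hH hi).mul (hφ.cond ha hH hi))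
    ((hψ.cond ha hH hi).mul (hu.cond ha hH hi)) s

lemma Bq_const_mul (a : ℕ → ℝ) (H ψ φ : St R Y → ℝ) (n : ℕ) (c : ℝ) (s : St R Y) (i : ℕ) :
    Bq a H n ψ (fun t => c * φ t) s i = c * Bq a H n ψ φ s i := by
  simp only [Bq, E_const_mul, mul_left_comm _ c]

lemma Bq_dep_mul (a : ℕ → ℝ) (H ψ φ : St R Y → ℝ) (hF : Dep n F) (s : St R Y) {i : ℕ} (hi : i ≤ n) :
    Bq a H n (fun t => F t * ψ t) φ s i = F s * Bq a H n ψ φ s i := by
  simp only [Bq, E_dep_mul a H ψ (hF.mono hi), mul_assoc]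
  exact E_dep_mul a H _ hF s

lemma abs_Bq_le (ha : Exps R a) (hH : ML H) (hn : n ≤ R) (hψ : Measurable ψ) {B : ℝ}
    (hB : ∀ t, |ψ t| ≤ B) (hφ : ME φ) (s : St R Y) {i : ℕ} (hi : i ≤ n) :
    |Bq a H n ψ φ s i| ≤ B * E a H n (fun t => |φ t|) s := by
  have hi' := hi.trans hn
  have h1 := ((ME.of_bdd hψ B hB).cond ha hH hi').mul (hφ.cond ha hH hi')
  refine (abs_E_le ha hH hn h1 s).trans ?_
  rw [← E_tower ha hH hn hi (fun t => |φ t|), ← E_const_mul]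
  refine E_mono ha hH hn h1.abs ((hφ.abs.cond ha hH hi').const_mul B) (fun t => ?_) s
  rw [abs_mul]
  exact mul_le_mul (abs_E_le_const ha hH hi' hψ hB t) (abs_E_le ha hH hi' hφ t) (abs_nonneg _)
    ((abs_nonneg _).trans (hB t))

lemma EE_sq_cond_le (ha : Exps R a) (hH : ML H) {i : ℕ} (hi : i ≤ R) (hψ : ME ψ) :
    EE a H (fun t => E a H i ψ t ^ 2) ≤ EE a H fun t => ψ t ^ 2 := by
  rw [← EE_tower ha hH hi fun t => ψ t ^ 2]
  exact EE_mono ha hH ((hψ.cond ha hH hi).pow 2) ((hψ.pow 2).cond ha hH hi)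
    fun t => E_sq_le ha hH hi hψ t

lemma abs_Bq_le_sqrt (ha : Exps R a) (hH : ML H) (hψ : ME ψ) (hφ : ME φ) {i : ℕ} (hi : i ≤ R) :
    |Bq a H R ψ φ Lev.pt i| ≤
      Real.sqrt (EE a H fun t => ψ t ^ 2) * Real.sqrt (EE a H fun t => φ t ^ 2) := by
  refine (abs_EE_mul_le ha hH (hψ.cond ha hH hi) (hφ.cond ha hH hi)).trans ?_
  gcongr
  · exact EE_sq_cond_le ha hH hi hψ
  · exact EE_sq_cond_le ha hH hi hφ

lemma Bq_anti (ha : Exps R a) (hH : ML H) (hn : n ≤ R) (hψ : ME ψ) (s : St R Y) {i : ℕ} (hi : i < n) :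
    0 ≤ Bq a H n ψ ψ s i - Bq a H n ψ ψ s (i + 1) := by
  have hi1 : i + 1 ≤ R := by omega
  have hi0 : i ≤ R := by omega
  rw [sub_nonneg]
  simp only [Bq, ← sq]
  rw [← E_tower ha hH hn hi fun t => E a H i ψ t ^ 2]
  refine E_mono ha hH hn ((hψ.cond ha hH hi1).pow 2) (((hψ.cond ha hH hi0).pow 2).cond ha hH hi1)
    (fun t => ?_) s
  rw [← E_tower ha hH hi1 (Nat.le_succ i) ψ]
  exact E_sq_le ha hH hi1 (hψ.cond ha hH hi0) t

lemma Cov_eq_sum (ha : Exps R a) (hH : ML H) (hn : n ≤ R) (ψ φ : St R Y → ℝ) (s : St R Y) :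
    Cov a H n ψ φ s = ∑ i ∈ range n, (Bq a H n ψ φ s i - Bq a H n ψ φ s (i + 1)) := by
  rw [sum_range_sub', Bq_zero, Bq_top ha hH hn]
  rfl

lemma Cov_comm (a : ℕ → ℝ) (H ψ φ : St R Y → ℝ) (n : ℕ) (s : St R Y) :
    Cov a H n ψ φ s = Cov a H n φ ψ s := by
  simp only [Cov, mul_comm (ψ _), mul_comm (E a H n ψ s)]

lemma Cov_eq_center (ha : Exps R a) (hH : ML H) (hn : n ≤ R) (hψ : ME ψ) (hφ : ME φ) (s : St R Y) :
    Cov a H n ψ φ s = E a H n (fun t => (ψ t - E a H n ψ s) * (φ t - E a H n φ s)) s := by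
  have e : (fun t => (ψ t - E a H n ψ s) * (φ t - E a H n φ s)) = fun t =>
      (ψ t * φ t + E a H n ψ s * E a H n φ s) - (E a H n φ s * ψ t + E a H n ψ s * φ t) := by
    funext t
    ring
  rw [e, E_sub ha hH hn ((hψ.mul hφ).add (ME.const _)) ((hψ.const_mul _).add (hφ.const_mul _)),
    E_add ha hH hn (hψ.mul hφ) (ME.const _), E_add ha hH hn (hψ.const_mul _) (hφ.const_mul _),
    E_const ha hH hn, E_const_mul, E_const_mul, Cov]
  ring

lemma Cov_sum_right (ha : Exps R a) (hH : ML H) (hn : n ≤ R) (hψ : ME ψ) (hX : ∀ b, ME (Xv b))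
    (x : β → ℝ) (s : St R Y) :
    Cov a H n ψ (fun t => ∑ b, x b * Xv b t) s = ∑ b, x b * Cov a H n ψ (Xv b) s := by
  simp only [Cov, mul_sum, mul_left_comm _ (x _)]
  rw [E_sum univ ha hH hn fun b _ => (hψ.mul (hX b)).const_mul (x b),
    E_sum univ ha hH hn fun b _ => (hX b).const_mul (x b), mul_sum, ← sum_sub_distrib]
  refine sum_congr rfl fun b _ => ?_
  rw [E_const_mul, E_const_mul]
  ring

lemma Cov_quad (ha : Exps R a) (hH : ML H) (hn : n ≤ R) (hX : ∀ b, ME (Xv b)) (x : β → ℝ)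
    (s : St R Y) : Cov a H n (fun t => ∑ b, x b * Xv b t) (fun t => ∑ b, x b * Xv b t) s =
      ∑ b, ∑ c, x b * x c * Cov a H n (Xv b) (Xv c) s := by
  rw [Cov_sum_right ha hH hn (ME.sum univ fun b _ => (hX b).const_mul (x b)) hX]
  refine sum_congr rfl fun b _ => ?_
  rw [Cov_comm, Cov_sum_right ha hH hn (hX b) hX, mul_sum]
  simp only [mul_assoc]

lemma Cv_abel (ha : Exps R a) (hH : ML H) (hn : n ≤ R) (ψ φ : St R Y → ℝ) (s : St R Y) :
    Cv a H n ψ φ s = E a H n (fun t => ψ t * φ t) s -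
      ∑ i ∈ range n, (a i - a (i + 1)) *
        E a H n (fun t => E a H (i + 1) ψ t * E a H (i + 1) φ t) s -
      a n * (E a H n ψ s * E a H n φ s) := by
  rw [Cv_eq, cov_abel, ha.zero, one_mul, Bq_zero, Bq_top ha hH hn]
  rfl
lemma Cv_comm (a : ℕ → ℝ) (H ψ φ : St R Y → ℝ) (n : ℕ) (s : St R Y) :
    Cv a H n ψ φ s = Cv a H n φ ψ s := by
  simp only [Cv_eq, Bq_comm a H ψ φ]
lemma Ct_comm (a : ℕ → ℝ) (H ψ φ : St R Y → ℝ) (l : ℕ) : Ct a H l ψ φ = Ct a H l φ ψ := by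
  simp only [Ct_eq, Bq_comm a H ψ φ]
lemma Cv_add_right (ha : Exps R a) (hH : ML H) (hn : n ≤ R) (hψ : ME ψ) (hφ : ME φ) (hu : ME u)
    (s : St R Y) : Cv a H n ψ (fun t => φ t + u t) s = Cv a H n ψ φ s + Cv a H n ψ u s := by
  simp only [Cv_eq]
  rw [← sum_add_distrib]
  refine sum_congr rfl fun i hi => ?_
  have := mem_range.1 hi
  rw [Bq_add ha hH hn hψ hφ hu s (by omega), Bq_add ha hH hn hψ hφ hu s (by omega)]
  ring
lemma Cv_const_mul_right (a : ℕ → ℝ) (H ψ φ : St R Y → ℝ) (n : ℕ) (c : ℝ) (s : St R Y) :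
    Cv a H n ψ (fun t => c * φ t) s = c * Cv a H n ψ φ s := by
  simp only [Cv_eq, Bq_const_mul, mul_sum]
  exact sum_congr rfl fun i _ => by ring
lemma Cv_dep_mul_left (a : ℕ → ℝ) (H ψ φ : St R Y → ℝ) (hF : Dep n F) (s : St R Y) :
    Cv a H n (fun t => F t * ψ t) φ s = F s * Cv a H n ψ φ s := by
  simp only [Cv_eq, mul_sum]
  refine sum_congr rfl fun i hi => ?_
  have := mem_range.1 hi
  rw [Bq_dep_mul a H ψ φ hF s (by omega), Bq_dep_mul a H ψ φ hF s (by omega)]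
  ring
lemma Ct_add_right (ha : Exps R a) (hH : ML H) {l : ℕ} (hl : l ≤ R) (hψ : ME ψ) (hφ : ME φ)
    (hu : ME u) : Ct a H l ψ (fun t => φ t + u t) = Ct a H l ψ φ + Ct a H l ψ u := by
  simp only [Ct_eq]
  rw [Bq_add ha hH le_rfl hψ hφ hu _ (Nat.zero_le R), sum_congr rfl fun i hi => by
    rw [Bq_add ha hH le_rfl hψ hφ hu _ (by have := mem_range.1 hi; omega), mul_add], sum_add_distrib]
  ring
lemma Ct_const_mul_right (a : ℕ → ℝ) (H ψ φ : St R Y → ℝ) (l : ℕ) (c : ℝ) :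
    Ct a H l ψ (fun t => c * φ t) = c * Ct a H l ψ φ := by
  simp only [Ct_eq, Bq_const_mul, mul_sub c, mul_sum, mul_left_comm _ c]
lemma Ct_zero_right (a : ℕ → ℝ) (H ψ : St R Y → ℝ) (l : ℕ) : Ct a H l ψ (fun _ => 0) = 0 := by
  simpa using Ct_const_mul_right a H ψ ψ l 0
lemma Cv_zero_right (a : ℕ → ℝ) (H ψ : St R Y → ℝ) (n : ℕ) (s : St R Y) :
    Cv a H n ψ (fun _ => 0) s = 0 := by
  simpa using Cv_const_mul_right a H ψ ψ n 0 s

omit [Fintype β] in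
lemma Cv_sum_right (ha : Exps R a) (hH : ML H) (hn : n ≤ R) (hψ : ME ψ) (hX : ∀ b, ME (Xv b))
    (x : β → ℝ) (s : St R Y) (T : Finset β) :
    Cv a H n ψ (fun t => ∑ b ∈ T, x b * Xv b t) s = ∑ b ∈ T, x b * Cv a H n ψ (Xv b) s := by
  classical
  induction T using Finset.induction_on with
  | empty => simpa using Cv_zero_right a H ψ n s
  | insert b T hb ih =>
    simp only [sum_insert hb]
    rw [Cv_add_right ha hH hn hψ ((hX b).const_mul _) (ME.sum T fun b _ => (hX b).const_mul (x b)), ih,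
      Cv_const_mul_right]

lemma Cv_quad (ha : Exps R a) (hH : ML H) (hn : n ≤ R) (hX : ∀ b, ME (Xv b)) (x : β → ℝ)
    (s : St R Y) : Cv a H n (fun t => ∑ b, x b * Xv b t) (fun t => ∑ b, x b * Xv b t) s =
      ∑ b, ∑ c, x b * x c * Cv a H n (Xv b) (Xv c) s := by
  rw [Cv_sum_right ha hH hn (ME.sum univ fun b _ => (hX b).const_mul (x b)) hX]
  refine sum_congr rfl fun b _ => ?_
  rw [Cv_comm, Cv_sum_right ha hH hn (hX b) hX, mul_sum]
  simp only [mul_assoc]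

/-- Each of the three Abel terms is bounded by `B * E n |φ|`; weights `1`, `1 - a n`, `a n`. -/
lemma abs_Cv_le (ha : Exps R a) (hH : ML H) (hn : n ≤ R) (hψ : Measurable ψ) {B : ℝ}
    (hB : ∀ t, |ψ t| ≤ B) (hφ : ME φ) (s : St R Y) :
    |Cv a H n ψ φ s| ≤ 2 * B * E a H n (fun t => |φ t|) s := by
  rw [Cv_eq, mul_assoc]
  exact cov_abs_sum ha hn fun i hi => abs_Bq_le ha hH hn hψ hB hφ s hi
lemma abs_EE_Cv_le (ha : Exps R a) (hH : ML H) (hn : n ≤ R) (hψ : ME ψ) (hφ : ME φ) :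
    |EE a H (Cv a H n ψ φ)| ≤
      2 * (Real.sqrt (EE a H fun t => ψ t ^ 2) * Real.sqrt (EE a H fun t => φ t ^ 2)) := by
  have hm : ∀ i ≤ n, ME fun s => Bq a H n ψ φ s i := fun i hi =>
    ((hψ.cond ha hH (hi.trans hn)).mul (hφ.cond ha hH (hi.trans hn))).cond ha hH hn
  have he : ∀ i, EE a H (fun s => Bq a H n ψ φ s i) = Bq a H R ψ φ Lev.pt i := fun i =>
    EE_tower ha hH hn _
  have e : EE a H (Cv a H n ψ φ) =
      ∑ i ∈ range n, a i * (Bq a H R ψ φ Lev.pt i - Bq a H R ψ φ Lev.pt (i + 1)) := by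
    rw [show Cv a H n ψ φ = fun s => ∑ i ∈ range n, a i * (Bq a H n ψ φ s i - Bq a H n ψ φ s (i + 1))
      from rfl, EE_sum _ ha hH fun i hi =>
        ((hm i (mem_range.1 hi).le).sub (hm (i + 1) (mem_range.1 hi))).const_mul _]
    refine sum_congr rfl fun i hi => ?_
    rw [EE_const_mul, EE_sub ha hH (hm i (mem_range.1 hi).le) (hm (i + 1) (mem_range.1 hi)), he, he]
  rw [e]
  exact cov_abs_sum ha hn fun i hi => abs_Bq_le_sqrt ha hH hψ hφ (hi.trans hn)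
lemma abs_Ct_le (ha : Exps R a) (hH : ML H) {l : ℕ} (hl : l ≤ R) (hψ : ME ψ) (hφ : ME φ) :
    |Ct a H l ψ φ| ≤
      2 * (Real.sqrt (EE a H fun t => ψ t ^ 2) * Real.sqrt (EE a H fun t => φ t ^ 2)) := by
  rw [Ct_eq]
  exact cov_abs_ct ha hl fun i hi => abs_Bq_le_sqrt ha hH hψ hφ (hi.trans hl)
lemma abs_Ct_le' (ha : Exps R a) (hH : ML H) {l : ℕ} (hl : l ≤ R) (hψ : Measurable ψ) {B : ℝ}
    (hB : ∀ t, |ψ t| ≤ B) (hφ : ME φ) : |Ct a H l ψ φ| ≤ 2 * B * EE a H fun t => |φ t| := by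
  rw [Ct_eq, mul_assoc]
  exact cov_abs_ct ha hl fun i hi => abs_Bq_le ha hH le_rfl hψ hB hφ _ (hi.trans hl)
lemma Cov_self_nonneg (ha : Exps R a) (hH : ML H) (hn : n ≤ R) (hψ : ME ψ) (s : St R Y) :
    0 ≤ Cov a H n ψ ψ s := by
  simp only [Cov, ← sq]
  exact sub_nonneg.2 (E_sq_le ha hH hn hψ s)
lemma Cv_self_le (ha : Exps R a) (hH : ML H) (hn : n ≤ R) (hψ : ME ψ) (s : St R Y) :
    Cv a H n ψ ψ s ≤ Cov a H n ψ ψ s := by
  rw [Cv_eq, Cov_eq_sum ha hH hn]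
  exact sum_le_sum fun i hi =>
    mul_le_of_le_one_left (Bq_anti ha hH hn hψ s (mem_range.1 hi)) (ha.cov_le_one i)
lemma le_Cv_self (ha : Exps R a) (hH : ML H) (hn : n ≤ R) (hψ : ME ψ) (s : St R Y) :
    a n * Cov a H n ψ ψ s ≤ Cv a H n ψ ψ s := by
  rw [Cv_eq, Cov_eq_sum ha hH hn, mul_sum]
  exact sum_le_sum fun i hi =>
    mul_le_mul_of_nonneg_right (ha.anti (mem_range.1 hi).le) (Bq_anti ha hH hn hψ s (mem_range.1 hi))
/-- Only the innermost term of `Cv`. -/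
lemma le_Cv_self' (ha : Exps R a) (hH : ML H) (hn : n ≤ R) (h1 : 1 ≤ n) (hψ : ME ψ) (s : St R Y) :
    E a H n (fun t => ψ t ^ 2) s - E a H n (fun t => E a H 1 ψ t ^ 2) s ≤ Cv a H n ψ ψ s := by
  have h := single_le_sum (f := fun i => a i * (Bq a H n ψ ψ s i - Bq a H n ψ ψ s (i + 1)))
    (fun i hi => mul_nonneg (ha.cov_nonneg ((mem_range.1 hi).le.trans hn))
      (Bq_anti ha hH hn hψ s (mem_range.1 hi))) (mem_range.2 h1)
  rw [ha.zero, one_mul, Bq_zero] at h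
  simp only [sq]
  exact h
lemma Cov_sq_le (ha : Exps R a) (hH : ML H) (hn : n ≤ R) (hψ : ME ψ) (hφ : ME φ) (s : St R Y) :
    Cov a H n ψ φ s ^ 2 ≤ Cov a H n ψ ψ s * Cov a H n φ φ s := by
  rw [Cov_eq_center ha hH hn hψ hφ, Cov_eq_center ha hH hn hψ hψ, Cov_eq_center ha hH hn hφ hφ]
  simp only [← sq]
  exact E_mul_sq_le ha hH hn (hψ.sub (ME.const _)) (hφ.sub (ME.const _)) s

lemma UV.abs_le (hX : UV Xv) (b : β) (s : St R Y) : |Xv b s| ≤ 1 :=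
  (sq_le_one_iff_abs_le_one _).1 ((single_le_sum (f := fun b => Xv b s ^ 2) (fun _ _ => sq_nonneg _)
    (mem_univ b)).trans (hX.le_one s))
lemma UV.me (hX : UV Xv) (b : β) : ME (Xv b) := ME.of_bdd (hX.meas b) 1 (hX.abs_le b)

lemma UV.sum_E_sq_le (ha : Exps R a) (hH : ML H) (hX : UV Xv) (hn : n ≤ R) (s : St R Y) :
    ∑ b, E a H n (fun t => Xv b t ^ 2) s ≤ 1 := by
  rw [← E_sum univ ha hH hn fun b _ => (hX.me b).pow 2, ← E_const ha hH hn 1 s]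
  exact E_mono ha hH hn (ME.sum univ fun b _ => (hX.me b).pow 2) (ME.const 1) hX.le_one s

/-- `Σ (E X_b)² ≤ E Σ X_b² ≤ 1`. -/
lemma UV.cond (ha : Exps R a) (hH : ML H) (hX : UV Xv) (hn : n ≤ R) :
    UV fun b => E a H n (Xv b) :=
  ⟨fun b => measurable_E a hH.meas (hX.meas b) n, fun s =>
    (sum_le_sum fun b _ => E_sq_le ha hH hn (hX.me b) s).trans (hX.sum_E_sq_le ha hH hn s)⟩
lemma UV.abs_yo_le (ha : Exps R a) (hH : ML H) (hX : UV Xv) (hn : n ≤ R) (s : St R Y) :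
    |yo a H Xv n s| ≤ 1 := by
  refine (sq_le_one_iff_abs_le_one _).1 ((sum_mul_sq_le_sq_mul_sq _ _ _).trans ?_)
  exact mul_le_one₀ (hX.le_one s) (sum_nonneg fun _ _ => sq_nonneg _) ((hX.cond ha hH hn).le_one s)
lemma UV.me_yo (ha : Exps R a) (hH : ML H) (hX : UV Xv) (hn : n ≤ R) : ME (yo a H Xv n) :=
  ME.sum univ fun b _ => (hX.me b).mul ((hX.me b).cond ha hH hn)
lemma UV.EE_yo (ha : Exps R a) (hH : ML H) (hX : UV Xv) (hn : n ≤ R) :
    EE a H (yo a H Xv n) = ov a H Xv n := by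
  unfold yo ov
  rw [EE_sum univ ha hH fun b _ => (hX.me b).mul ((hX.me b).cond ha hH hn),
    EE_sum univ ha hH fun b _ => ((hX.me b).cond ha hH hn).pow 2]
  refine sum_congr rfl fun b _ => ?_
  simp only [sq, mul_comm (Xv b _)]
  exact (EE_tower_mul ha hH hn (dep_E a H _ n) _).symm
lemma UV.ov_mem (ha : Exps R a) (hH : ML H) (hX : UV Xv) (hn : n ≤ R) :
    0 ≤ ov a H Xv n ∧ ov a H Xv n ≤ 1 := by
  refine ⟨EE_nonneg a H fun _ => sum_nonneg fun _ _ => sq_nonneg _, ?_⟩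
  rw [← EE_const ha hH 1]
  exact EE_mono ha hH (ME.sum univ fun b _ => ((hX.me b).cond ha hH hn).pow 2) (ME.const 1)
    (hX.cond ha hH hn).le_one
lemma UV.ov_anti (ha : Exps R a) (hH : ML H) (hX : UV Xv) {i j : ℕ} (hij : i ≤ j) (hj : j ≤ R) :
    ov a H Xv j ≤ ov a H Xv i := by
  have hi := hij.trans hj
  refine le_trans ?_ (EE_tower ha hH hj fun s => ∑ b, E a H i (Xv b) s ^ 2).le
  refine EE_mono ha hH (ME.sum univ fun b _ => ((hX.me b).cond ha hH hj).pow 2)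
    ((ME.sum univ fun b _ => ((hX.me b).cond ha hH hi).pow 2).cond ha hH hj) fun t => ?_
  rw [E_sum univ ha hH hj fun b _ => ((hX.me b).cond ha hH hi).pow 2]
  refine sum_le_sum fun b _ => ?_
  rw [← E_tower ha hH hj hij (Xv b)]
  exact E_sq_le ha hH hj ((hX.me b).cond ha hH hi) t
/-- `E |M_i - M_j|² = q_i - q_j`. -/
lemma UV.EE_sq_sub (ha : Exps R a) (hH : ML H) (hX : UV Xv) {i j : ℕ} (hij : i ≤ j) (hj : j ≤ R) :
    EE a H (fun s => ∑ b, (E a H i (Xv b) s - E a H j (Xv b) s) ^ 2) =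
      ov a H Xv i - ov a H Xv j := by
  have hi := hij.trans hj
  have mi := fun b => (hX.me b).cond ha hH hi
  have mj := fun b => (hX.me b).cond ha hH hj
  unfold ov
  rw [EE_sum univ ha hH fun b _ => ((mi b).sub (mj b)).pow 2, EE_sum univ ha hH fun b _ => (mi b).pow 2,
    EE_sum univ ha hH fun b _ => (mj b).pow 2, ← sum_sub_distrib]
  refine sum_congr rfl fun b _ => ?_
  have e : (fun s => (E a H i (Xv b) s - E a H j (Xv b) s) ^ 2) = fun s =>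
      (E a H i (Xv b) s ^ 2 + E a H j (Xv b) s ^ 2) - 2 * (E a H j (Xv b) s * E a H i (Xv b) s) := by
    funext s
    ring
  have e2 : EE a H (fun s => E a H j (Xv b) s * E a H i (Xv b) s) =
      EE a H fun s => E a H j (Xv b) s ^ 2 := by
    simp only [sq]
    rw [EE_tower_mul ha hH hi ((dep_E a H _ j).mono hij), EE_tower_mul ha hH hj (dep_E a H _ j)]
  rw [e, EE_sub ha hH (((mi b).pow 2).add ((mj b).pow 2)) (((mj b).mul (mi b)).const_mul 2),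
    EE_add ha hH ((mi b).pow 2) ((mj b).pow 2), EE_const_mul, e2]
  ring
lemma UV.me_hs (ha : Exps R a) (hH : ML H) (hX : UV Xv) (hn : n ≤ R) : ME (hs a H Xv n) :=
  ME.sum univ fun b _ => ME.sum univ fun c _ => (ME.cov ha hH (hX.me b) (hX.me c) hn).pow 2
/-- `Cov_sq_le` and `Σ Var X_b ≤ 1`. -/
lemma UV.hs_mem (ha : Exps R a) (hH : ML H) (hX : UV Xv) (hn : n ≤ R) (s : St R Y) :
    0 ≤ hs a H Xv n s ∧ hs a H Xv n s ≤ 1 := by
  refine ⟨sum_nonneg fun _ _ => sum_nonneg fun _ _ => sq_nonneg _, ?_⟩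
  have h1 : ∑ b, Cov a H n (Xv b) (Xv b) s ≤ 1 := by
    refine le_trans (sum_le_sum fun b _ => ?_) (hX.sum_E_sq_le ha hH hn s)
    simp only [Cov, ← sq]
    exact sub_le_self _ (sq_nonneg _)
  have h2 : 0 ≤ ∑ b, Cov a H n (Xv b) (Xv b) s :=
    sum_nonneg fun b _ => Cov_self_nonneg ha hH hn (hX.me b) s
  calc hs a H Xv n s ≤ ∑ b, ∑ c, Cov a H n (Xv b) (Xv b) s * Cov a H n (Xv c) (Xv c) s :=
        sum_le_sum fun b _ => sum_le_sum fun c _ => Cov_sq_le ha hH hn (hX.me b) (hX.me c) s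
    _ = (∑ b, Cov a H n (Xv b) (Xv b) s) * ∑ b, Cov a H n (Xv b) (Xv b) s := by rw [sum_mul_sum]
    _ ≤ 1 := mul_le_one₀ h1 h2 h1

/-- Factorisation lemma.  With `w_b = Cov (X_b, u) s` and `Z = Σ w_b X_b`:
`|w|² = Cov (Z, u) ≤ √(Cov Z Z) √(E u²)` and `Cov Z Z = Σ w_b w_c Cov (X_b, X_c) ≤ |w|² √hs`. -/
lemma UV.sum_cov_sq_le (ha : Exps R a) (hH : ML H) (hX : UV Xv) (hn : n ≤ R) (hu : ME u)
    (s : St R Y) :
    ∑ b, Cov a H n (Xv b) u s ^ 2 ≤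
      Real.sqrt (hs a H Xv n s) * E a H n (fun t => u t ^ 2) s := by
  set w : β → ℝ := fun b => Cov a H n (Xv b) u s with hw
  have hZ : ME fun t => ∑ b, w b * Xv b t := ME.sum univ fun b _ => (hX.me b).const_mul _
  have hW : 0 ≤ ∑ b, w b ^ 2 := sum_nonneg fun _ _ => sq_nonneg _
  have h1 : Cov a H n u (fun t => ∑ b, w b * Xv b t) s = ∑ b, w b ^ 2 := by
    rw [Cov_sum_right ha hH hn hu hX.me]
    exact sum_congr rfl fun b _ => by rw [Cov_comm, sq]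
  have h2 : Cov a H n (fun t => ∑ b, w b * Xv b t) (fun t => ∑ b, w b * Xv b t) s ≤
      (∑ b, w b ^ 2) * Real.sqrt (hs a H Xv n s) := by
    rw [Cov_quad ha hH hn hX.me, ← Real.sqrt_sq hW, ← Real.sqrt_mul (sq_nonneg _)]
    refine Real.le_sqrt_of_sq_le ?_
    rw [← Fintype.sum_prod_type', hs, ← Fintype.sum_prod_type']
    refine (sum_mul_sq_le_sq_mul_sq _ _ _).trans (le_of_eq ?_)
    congr 1
    rw [sq (∑ b, w b ^ 2), sum_mul_sum, ← Fintype.sum_prod_type']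
    exact sum_congr rfl fun p _ => mul_pow _ _ _
  have h3 : Cov a H n u u s ≤ E a H n (fun t => u t ^ 2) s := by
    simp only [Cov, ← sq]
    exact sub_le_self _ (sq_nonneg _)
  have h4 := Cov_sq_le ha hH hn hu hZ s
  have h5 : 0 ≤ E a H n (fun t => u t ^ 2) s := E_nonneg a H n (fun _ => sq_nonneg _) s
  rw [h1] at h4
  have h6 := h4.trans (mul_le_mul h3 h2 (Cov_self_nonneg ha hH hn hZ s) h5)
  rcases hW.eq_or_lt with h | h
  · rw [← h]
    positivity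
  · refine le_of_mul_le_mul_left ?_ h
    calc _ = (∑ b, w b ^ 2) ^ 2 := (sq _).symm
      _ ≤ _ := h6
      _ = _ := by ring

/-- For `A_{bc} = E n (X_b X_c) s`: `Σ A_{bc} Cv (X_b, X_c) = E n (t ↦ Cv (Z_t, Z_t))` with
`Z_t = Σ_b X_b(t) X_b`, so it is at least `a n Σ A_{bc} Cov (X_b, X_c)` by `le_Cv_self` and
`E_mono`; and `A = Cov + M Mᵀ` with `Σ M_b M_c Cov (X_b, X_c) = Cov (M·X, M·X) ≥ 0`. -/
lemma UV.hs_le_sum_Cv (ha : Exps R a) (hH : ML H) (hX : UV Xv) (hn : n ≤ R) (s : St R Y) :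
    a n * hs a H Xv n s ≤
      ∑ b, ∑ c, E a H n (fun t => Xv b t * Xv c t) s * Cv a H n (Xv b) (Xv c) s := by
  have hm : ∀ K : β → β → ℝ, ME fun t => ∑ b, ∑ c, K b c * (Xv b t * Xv c t) := fun K =>
    ME.sum univ fun b _ => ME.sum univ fun c _ => ((hX.me b).mul (hX.me c)).const_mul _
  have he : ∀ K : β → β → ℝ, ∑ b, ∑ c, E a H n (fun t => Xv b t * Xv c t) s * K b c =
      E a H n (fun t => ∑ b, ∑ c, K b c * (Xv b t * Xv c t)) s := by
    intro K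
    rw [E_sum univ ha hH hn fun b _ => ME.sum univ fun c _ => ((hX.me b).mul (hX.me c)).const_mul _]
    refine sum_congr rfl fun b _ => ?_
    rw [E_sum univ ha hH hn fun c _ => ((hX.me b).mul (hX.me c)).const_mul _]
    exact sum_congr rfl fun c _ => by rw [E_const_mul, mul_comm]
  have h1 : hs a H Xv n s ≤
      ∑ b, ∑ c, E a H n (fun t => Xv b t * Xv c t) s * Cov a H n (Xv b) (Xv c) s := by
    have h2 := Cov_self_nonneg ha hH hn (ME.sum univ fun b _ => (hX.me b).const_mul (E a H n (Xv b) s)) s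
    rw [Cov_quad ha hH hn hX.me] at h2
    refine (le_add_of_nonneg_right h2).trans (le_of_eq ?_)
    rw [hs, ← sum_add_distrib]
    refine sum_congr rfl fun b _ => ?_
    rw [← sum_add_distrib]
    refine sum_congr rfl fun c _ => ?_
    simp only [Cov]
    ring
  refine (mul_le_mul_of_nonneg_left h1 (ha.cov_nonneg hn)).trans ?_
  rw [he, he, ← E_const_mul]
  refine E_mono ha hH hn ((hm _).const_mul _) (hm _) (fun t => ?_) s
  have h3 := le_Cv_self ha hH hn (ME.sum univ fun b _ => (hX.me b).const_mul (Xv b t)) s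
  rw [Cov_quad ha hH hn hX.me, Cv_quad ha hH hn hX.me] at h3
  simpa only [mul_comm (Xv _ t * Xv _ t)] using h3

end Crest.Agent.R164
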