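import Crest.Agent.R164.CasRep

/-!
# R164 / CasD: differentiation of a cascade in a parameter

One step (`hasDerivAt_step`): differentiate `θ ↦ ∫ F θ (upd i s y) exp (c G θ (upd i s y)) dμ(y)`
under the integral (`hasDerivAt_integral_of_dominated_loc_of_deriv_le`; the bound is
`exp (C (1 + n s + n y))`, integrable by `Lev.n_int`).
`DF.free`: induction; `X (i+1) = (a i)⁻¹ log ∫ exp (a i X i)`, derivative
`∫ E i φ exp (a i X i) / ∫ exp (a i X i) = E (i+1) φ` (`exp_PM`).
`DF.cond`: induction; `E (i+1) ψ s = exp (- a i X (i+1) s) ∫ E i ψ exp (a i X i)`; the derivative is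
`A (E i ψ' + Cv i ψ φ) + a i (A (E i ψ * E i φ) - E (i+1) ψ * E (i+1) φ)` where `A` is the
one-step tilted integral, and this is `E (i+1) ψ' + Cv (i+1) ψ φ` by `Cv_succ`.
-/

set_option autoImplicit false

open MeasureTheory ProbabilityTheory Finset

namespace Crest.Agent.R164

variable {Y : Type} [MeasurableSpace Y] [Lev Y] {R : ℕ} {a : ℕ → ℝ} {I : Set ℝ}
  {H φ ψ ψ' : ℝ → St R Y → ℝ} {n : ℕ}

lemma cd_hasDerivAt_int (hI : IsOpen I) {F F' : ℝ → St R Y → ℝ} (hF : DF I F F') (i : ℕ)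
    (s : St R Y) {θ : ℝ} (hθ : θ ∈ I) :
    HasDerivAt (fun t => ∫ y, F t (upd i s y) ∂Lev.μ) (∫ y, F' θ (upd i s y) ∂Lev.μ) θ := by
  obtain ⟨C, hC⟩ := hF.ge'.bd
  have hn : ML fun t : St R Y => C * (1 + Lev.n t) :=
    ((ML.const 1).add (ML.of_le_n Lev.n_meas fun t => (abs_of_nonneg (Lev.n_nonneg t)).le)).const_mul C
  have hb : Integrable (fun y : Y => Real.exp (C * (1 + Lev.n (upd i s y)))) Lev.μ :=
    (hn.exp.comp (gro_upd i s)).integrable
  refine (hasDerivAt_integral_of_dominated_loc_of_deriv_le (hI.mem_nhds hθ)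
    (F := fun t y => F t (upd i s y)) (F' := fun t y => F' t (upd i s y)) ?_
    ((hF.ge.me hθ).comp (gro_upd i s)).integrable
    ((hF.ge'.meas θ hθ).comp (gro_upd i s).meas).aestronglyMeasurable
    (Filter.Eventually.of_forall fun y t ht => hC t ht _) hb
    (Filter.Eventually.of_forall fun y t ht => hF.der t ht _)).2
  filter_upwards [hI.mem_nhds hθ] with t ht
  exact ((hF.ge.meas t ht).comp (gro_upd i s).meas).aestronglyMeasurable

lemma cd_fe_exp {G : ℝ → St R Y → ℝ} (hG : FL I G) (c : ℝ) :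
    FE I fun θ s => Real.exp (c * G θ s) := by
  obtain ⟨C, hC⟩ := hG.bd
  refine ⟨fun θ hθ => ((hG.meas θ hθ).const_mul c).exp, |c| * C, fun θ hθ s => ?_⟩
  rw [abs_of_pos (Real.exp_pos _), Real.exp_le_exp, mul_assoc]
  refine (le_abs_self _).trans ?_
  rw [abs_mul]
  exact mul_le_mul_of_nonneg_left (hC θ hθ s) (abs_nonneg c)

lemma cd_df_exp {G G' : ℝ → St R Y → ℝ} (hG : FL I G) (hG' : DF I G G') (c : ℝ) :
    DF I (fun θ s => Real.exp (c * G θ s)) fun θ s => Real.exp (c * G θ s) * (c * G' θ s) :=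
  ⟨cd_fe_exp hG c, (cd_fe_exp hG c).mul (hG'.const_mul c).ge',
    fun θ hθ s => ((hG'.der θ hθ s).const_mul c).exp⟩

lemma cd_int {H g : St R Y → ℝ} (ha : Exps R a) (hH : ML H) (hg : ME g) {i : ℕ} (hi : i < R)
    (s : St R Y) : Integrable (fun y => g (upd i s y) *
      Real.exp (a i * (X a H i (upd i s y) - X a H (i + 1) s))) Lev.μ :=
  ((hg.comp (gro_upd i s)).mul
    ((((hH.free ha hi.le).comp (gro_upd i s)).sub (ML.const _)).const_mul _).exp).integrable

lemma cd_weight {H : St R Y → ℝ} (g : Y → ℝ) (i : ℕ) (s : St R Y) :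
    ∫ y, g y * Real.exp (a i * (X a H i (upd i s y) - X a H (i + 1) s)) ∂Lev.μ =
      (∫ y, g y * Real.exp (a i * X a H i (upd i s y)) ∂Lev.μ) *
        Real.exp (-a i * X a H (i + 1) s) := by
  rw [← integral_mul_const]
  refine integral_congr_ae (Filter.Eventually.of_forall fun y => ?_)
  simp only
  rw [mul_assoc, ← Real.exp_add]
  congr 2
  ring

lemma hasDerivAt_step (hI : IsOpen I) {F F' G G' : ℝ → St R Y → ℝ} (hF : DF I F F') (hG : FL I G)
    (hG' : DF I G G') (c : ℝ) (i : ℕ) (s : St R Y) {θ : ℝ} (hθ : θ ∈ I) :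
    HasDerivAt (fun t => ∫ y, F t (upd i s y) * Real.exp (c * G t (upd i s y)) ∂Lev.μ)
      (∫ y, (F' θ (upd i s y) + c * (F θ (upd i s y) * G' θ (upd i s y))) *
        Real.exp (c * G θ (upd i s y)) ∂Lev.μ) θ := by
  have h := cd_hasDerivAt_int hI (hF.mul (cd_df_exp hG hG' c)) i s hθ
  convert h using 1
  refine integral_congr_ae (Filter.Eventually.of_forall fun y => ?_)
  simp only
  ring

/-- Recursion for `Cv` (use `E_dep` for `E i (E i ψ * E i φ)` and for the last term). -/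
lemma Cv_succ {H ψ φ : St R Y → ℝ} (ha : Exps R a) (hH : ML H) (hψ : ME ψ) (hφ : ME φ) {i : ℕ}
    (hi : i < R) (s : St R Y) :
    Cv a H (i + 1) ψ φ s =
      (∫ y, (Cv a H i ψ φ (upd i s y) + a i * (E a H i ψ (upd i s y) * E a H i φ (upd i s y))) *
        Real.exp (a i * (X a H i (upd i s y) - X a H (i + 1) s)) ∂Lev.μ) -
      a i * (E a H (i + 1) ψ s * E a H (i + 1) φ s) := by
  have hP : ∀ j ≤ R, ME fun t => E a H j ψ t * E a H j φ t := fun j hj =>
    (hψ.cond ha hH hj).mul (hφ.cond ha hH hj)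
  have hD : ∀ j, Dep j fun t => E a H j ψ t * E a H j φ t := fun j =>
    (dep_E a H ψ j).comp₂ (dep_E a H φ j) (· * ·)
  have h1 : ∫ y, Cv a H i ψ φ (upd i s y) *
      Real.exp (a i * (X a H i (upd i s y) - X a H (i + 1) s)) ∂Lev.μ =
      ∑ j ∈ range i, a j * (E a H (i + 1) (fun t => E a H j ψ t * E a H j φ t) s -
        E a H (i + 1) (fun t => E a H (j + 1) ψ t * E a H (j + 1) φ t) s) := by
    have hj : ∀ j ∈ range i, j ≤ R ∧ j + 1 ≤ R := fun j hj => by
      have := mem_range.1 hj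
      omega
    simp only [Cv, Finset.sum_mul]
    rw [integral_finsetSum]
    · refine Finset.sum_congr rfl fun j hj' => ?_
      rw [E_succ, E_succ, ← integral_sub (cd_int ha hH ((hP j (hj j hj').1).cond ha hH hi.le) hi s)
        (cd_int ha hH ((hP (j + 1) (hj j hj').2).cond ha hH hi.le) hi s), ← integral_const_mul]
      refine integral_congr_ae (Filter.Eventually.of_forall fun y => ?_)
      simp only
      ring
    · intro j hj'
      exact cd_int ha hH ((((hP j (hj j hj').1).cond ha hH hi.le).sub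
        ((hP (j + 1) (hj j hj').2).cond ha hH hi.le)).const_mul (a j)) hi s
  have h2 : ∫ y, a i * (E a H i ψ (upd i s y) * E a H i φ (upd i s y)) *
      Real.exp (a i * (X a H i (upd i s y) - X a H (i + 1) s)) ∂Lev.μ =
      a i * E a H (i + 1) (fun t => E a H i ψ t * E a H i φ t) s := by
    rw [E_succ, ← integral_const_mul]
    refine integral_congr_ae (Filter.Eventually.of_forall fun y => ?_)
    simp only
    rw [E_dep ha hH hi.le (hD i), mul_assoc]
  simp only [add_mul]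
  rw [integral_add (cd_int ha hH (hψ.cv ha hH hφ hi.le) hi s)
    (cd_int ha hH ((hP i hi.le).const_mul (a i)) hi s), h1, h2, Cv, Finset.sum_range_succ,
    E_dep ha hH hi (hD (i + 1))]
  ring

theorem DF.free (hI : IsOpen I) (ha : Exps R a) (hH : FL I H) (hφ : DF I H φ) (hn : n ≤ R) :
    DF I (fun θ => X a (H θ) n) fun θ => E a (H θ) n (φ θ) := by
  induction n with
  | zero => simpa only [X_zero, E_zero] using hφ
  | succ i ih =>
    refine ⟨(hH.free ha hn).fe, FE.cond ha hH hφ.ge' hn, fun θ hθ s => ?_⟩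
    have hi : i < R := hn
    have ha' := (ha.pos i hi).ne'
    have h := hasDerivAt_step hI (DF.const (ME.const 1)) (hH.free ha hi.le) (ih hi.le) (a i) i s hθ
    simp only [one_mul, zero_add] at h
    have hint : Integrable (fun y => Real.exp (a i * X a (H θ) i (upd i s y))) Lev.μ :=
      (((((hH.ml hθ).free ha hi.le).comp (gro_upd i s)).const_mul _).exp).integrable
    have hZ : ∫ y, Real.exp (a i * X a (H θ) i (upd i s y)) ∂Lev.μ =
        Real.exp (a i * X a (H θ) (i + 1) s) := (exp_PM (ha.pos i hi) hint).symm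
    have h2 := (h.log (by rw [hZ]; exact (Real.exp_pos _).ne')).const_mul (a i)⁻¹
    refine HasDerivAt.congr_deriv h2 (Eq.symm ?_)
    rw [E_succ, cd_weight, hZ]
    simp only [mul_assoc]
    rw [integral_const_mul, neg_mul, Real.exp_neg]
    field_simp

theorem DF.cond (hI : IsOpen I) (ha : Exps R a) (hH : FL I H) (hφ : DF I H φ) (hψ : DF I ψ ψ')
    (hn : n ≤ R) :
    DF I (fun θ => E a (H θ) n (ψ θ))
      fun θ s => E a (H θ) n (ψ' θ) s + Cv a (H θ) n (ψ θ) (φ θ) s := by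
  induction n with
  | zero => simpa only [E_zero, Cv, range_zero, sum_empty, add_zero] using hψ
  | succ i ih =>
    refine ⟨FE.cond ha hH hψ.ge hn,
      (FE.cond ha hH hψ.ge' hn).add (FE.cv ha hH hψ.ge hφ.ge' hn), fun θ hθ s => ?_⟩
    have hi : i < R := hn
    have h := hasDerivAt_step hI (ih hi.le) (hH.free ha hi.le) (DF.free hI ha hH hφ hi.le)
      (a i) i s hθ
    have h2 := (((DF.free hI ha hH hφ hn).der θ hθ s).const_mul (-a i)).exp
    have h3 := h.mul h2
    have hH' := hH.ml hθ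
    have hψ1 := hψ.ge.me hθ
    have hφ1 := hφ.ge'.me hθ
    refine (h3.congr_of_eventuallyEq (Filter.Eventually.of_forall fun t => ?_)).congr_deriv
      (Eq.symm ?_)
    · rw [E_succ, cd_weight]
      rfl
    · rw [← cd_weight, ← mul_assoc, ← cd_weight, ← E_succ, Cv_succ ha hH' hψ1 hφ1 hi,
        E_succ a (H θ) (ψ' θ), ← add_sub_assoc,
        ← integral_add (cd_int ha hH' ((hψ.ge'.me hθ).cond ha hH' hi.le) hi s)
          (cd_int ha hH' ((hψ1.cv ha hH' hφ1 hi.le).add
            (((hψ1.cond ha hH' hi.le).mul (hφ1.cond ha hH' hi.le)).const_mul (a i))) hi s)]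
      simp only [← add_mul, add_assoc]
      ring

lemma hasDerivAt_val (hI : IsOpen I) (ha : Exps R a) (hH : FL I H) (hφ : DF I H φ) {θ : ℝ}
    (hθ : θ ∈ I) : HasDerivAt (fun t => val a (H t)) (EE a (H θ) (φ θ)) θ :=
  (DF.free hI ha hH hφ le_rfl).der θ hθ Lev.pt

lemma hasDerivAt_EE (hI : IsOpen I) (ha : Exps R a) (hH : FL I H) (hφ : DF I H φ)
    (hψ : DF I ψ ψ') {θ : ℝ} (hθ : θ ∈ I) :
    HasDerivAt (fun t => EE a (H t) (ψ t))
      (EE a (H θ) (ψ' θ) + Cv a (H θ) R (ψ θ) (φ θ) Lev.pt) θ :=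
  (DF.cond hI ha hH hφ hψ le_rfl).der θ hθ Lev.pt

end Crest.Agent.R164
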