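import Crest.Agent.R164.CasIneq

/-!
# R164 / CasDens: density of a perturbed cascade, truncation, power means with a bad event

`dens a H φ n = exp (Σ_{i<n} a i (Δ_i - Δ_{i+1}))`, `Δ_i = X (H+φ) i - X H i`.
`E_dens`: induction on `n`; in the step, `E (n) (ψ * dens (n+1)) (upd n s y)` factors because
`exp (a n (Δ_n - Δ_{n+1}))` is `Dep n` (`E_dep_mul`) and `Δ_{n+1} (upd n s y) = Δ_{n+1} s`.
`dens_le`: Abel summation, the exponent is
`φ - Σ_{i<n} (a i - a (i+1)) Δ_{i+1} - a n Δ_n` with `Δ_j ≥ lo` (`X_mono`, `X_add_const`),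
nonnegative weights of total mass `a 0 = 1`.
-/

set_option autoImplicit false

open MeasureTheory ProbabilityTheory Finset

namespace Crest.Agent.R164

variable {Y : Type} [MeasurableSpace Y] [Lev Y] {R : ℕ} {a : ℕ → ℝ} {H φ ψ W δ : St R Y → ℝ}
  {n : ℕ}

/-- Density of the cascade `H + φ` with respect to the cascade `H`. -/
noncomputable def dens (a : ℕ → ℝ) (H φ : St R Y → ℝ) (n : ℕ) (s : St R Y) : ℝ :=
  Real.exp (∑ i ∈ range n, a i * ((X a (fun t => H t + φ t) i s - X a H i s) -
    (X a (fun t => H t + φ t) (i + 1) s - X a H (i + 1) s)))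

lemma dens_pos (a : ℕ → ℝ) (H φ : St R Y → ℝ) (n : ℕ) (s : St R Y) : 0 < dens a H φ n s :=
  Real.exp_pos _
lemma measurable_dens (a : ℕ → ℝ) (hH : Measurable H) (hφ : Measurable φ) (n : ℕ) :
    Measurable (dens a H φ n) := by
  have h1 : Measurable fun t => H t + φ t := hH.add hφ
  exact (Finset.measurable_sum _ fun i _ =>
    (((measurable_X a h1 i).sub (measurable_X a hH i)).sub
      ((measurable_X a h1 (i + 1)).sub (measurable_X a hH (i + 1)))).const_mul _).exp
/-- No growth hypothesis is needed. -/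
lemma E_dens (a : ℕ → ℝ) (H φ ψ : St R Y → ℝ) (n : ℕ) (s : St R Y) :
    E a (fun t => H t + φ t) n ψ s = E a H n (fun t => ψ t * dens a H φ n t) s := by
  induction n generalizing s with
  | zero => simp [E_zero, dens]
  | succ n ih =>
    rw [E_succ, E_succ]
    refine integral_congr_ae (ae_of_all _ fun y => ?_)
    have hD : Dep n fun t => Real.exp (a n * ((X a (fun t => H t + φ t) n t - X a H n t) -
        (X a (fun t => H t + φ t) (n + 1) t - X a H (n + 1) t))) := fun i hi s y => by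
      simp only [dep_X a _ n i hi s y, dep_X a _ (n + 1) i (hi.trans (Nat.lt_succ_self n)) s y]
    have h1 : (fun t => ψ t * dens a H φ (n + 1) t) = fun t =>
        Real.exp (a n * ((X a (fun t => H t + φ t) n t - X a H n t) -
          (X a (fun t => H t + φ t) (n + 1) t - X a H (n + 1) t))) * (ψ t * dens a H φ n t) := by
      funext t
      simp only [dens, Finset.sum_range_succ, Real.exp_add]
      ring
    simp only
    rw [h1, E_dep_mul a H _ hD, ih, dep_X a _ (n + 1) n (Nat.lt_succ_self n),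
      dep_X a _ (n + 1) n (Nat.lt_succ_self n), mul_right_comm, ← Real.exp_add, mul_comm]
    congr 2
    ring
lemma dens_le (ha : Exps R a) (hH : ML H) (hφ : ML φ) (hn : n ≤ R) {lo : ℝ} (h : ∀ s, lo ≤ φ s)
    (s : St R Y) : dens a H φ n s ≤ Real.exp (φ s - lo) := by
  have hD : ∀ j ≤ R, 0 ≤ X a (fun t => H t + φ t) j s - X a H j s - lo := fun j hj => by
    have h1 := X_mono ha (hH.add (ML.const lo)).mu (hH.add hφ).mu
      (fun t => by linarith [h t]) hj s
    rw [X_add_const ha hH.mu lo hj] at h1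
    linarith
  have key : ∀ k ≤ R, ∑ i ∈ range k, a i * ((X a (fun t => H t + φ t) i s - X a H i s) -
      (X a (fun t => H t + φ t) (i + 1) s - X a H (i + 1) s)) +
      a k * (X a (fun t => H t + φ t) k s - X a H k s - lo) ≤ φ s - lo := by
    intro k
    induction k with
    | zero => intro _; simp [X_zero, ha.zero]
    | succ k ih =>
      intro hk
      have h1 := ih (Nat.le_of_succ_le hk)
      have h2 := mul_nonneg (sub_nonneg.2 (ha.anti (Nat.le_succ k))) (hD (k + 1) hk)
      rw [Finset.sum_range_succ]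
      simp only [Nat.succ_eq_add_one] at h2
      linarith
  have h1 := key n hn
  have h2 := mul_nonneg (ha.last.trans (ha.anti hn)) (hD n hn)
  exact Real.exp_le_exp.2 (by linarith)
lemma EE_le_of_bdd (ha : Exps R a) (hH : ML H) (hφ : Measurable φ) {lo hi : ℝ}
    (h : ∀ s, lo ≤ φ s ∧ φ s ≤ hi) (hψ : ME ψ) (h0 : ∀ s, 0 ≤ ψ s) :
    EE a (fun t => H t + φ t) ψ ≤ Real.exp (hi - lo) * EE a H ψ := by
  have hφ' : ML φ := ML.of_bdd hφ (|lo| + |hi|) fun s => abs_le.2
    ⟨by linarith [(h s).1, neg_abs_le lo, abs_nonneg hi],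
      by linarith [(h s).2, le_abs_self hi, abs_nonneg lo]⟩
  have hd : ∀ s, dens a H φ R s ≤ Real.exp (hi - lo) := fun s =>
    (dens_le ha hH hφ' le_rfl (fun s => (h s).1) s).trans
      (Real.exp_le_exp.2 (by linarith [(h s).2]))
  have hme : ME (dens a H φ R) := ME.of_bdd (measurable_dens a hH.meas hφ R) _ fun s => by
    rw [abs_of_pos (dens_pos a H φ R s)]; exact hd s
  rw [← EE_const_mul, EE, E_dens]
  exact EE_mono ha hH (hψ.mul hme) (hψ.const_mul _) fun t => by
    rw [mul_comm]; exact mul_le_mul_of_nonneg_right (hd t) (h0 t)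

lemma dens_max {g g' : ℝ → ℝ} (hg : ∀ y, HasDerivAt g (g' y) y) {c : ℝ} (h0 : g' c = 0) (y : ℝ) :
    HasDerivAt (fun y => g (max c y)) (g' (max c y)) y := by
  rcases lt_trichotomy y c with h | rfl | h
  · rw [max_eq_left h.le, h0]
    refine (hasDerivAt_const y (g c)).congr_of_eventuallyEq ?_
    filter_upwards [Iio_mem_nhds h] with z hz
    rw [max_eq_left (le_of_lt hz)]
  · rw [max_self, ← hasDerivWithinAt_univ, ← Set.Iic_union_Ici (a := y)]
    refine HasDerivWithinAt.union ?_ ?_
    · rw [h0]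
      exact (hasDerivWithinAt_const y _ (g y)).congr (fun z hz => by rw [max_eq_left hz])
        (by rw [max_self])
    · exact (hg y).hasDerivWithinAt.congr (fun z hz => by rw [max_eq_right hz]) (by rw [max_self])
  · rw [max_eq_right h.le]
    refine (hg y).congr_of_eventuallyEq ?_
    filter_upwards [Ioi_mem_nhds h] with z hz
    rw [max_eq_right (le_of_lt hz)]

lemma dens_min {g g' : ℝ → ℝ} (hg : ∀ y, HasDerivAt g (g' y) y) {c : ℝ} (h0 : g' c = 0) (y : ℝ) :
    HasDerivAt (fun y => g (min y c)) (g' (min y c)) y := by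
  rcases lt_trichotomy y c with h | rfl | h
  · rw [min_eq_left h.le]
    refine (hg y).congr_of_eventuallyEq ?_
    filter_upwards [Iio_mem_nhds h] with z hz
    rw [min_eq_left (le_of_lt hz)]
  · rw [min_self, ← hasDerivWithinAt_univ, ← Set.Iic_union_Ici (a := y)]
    refine HasDerivWithinAt.union ?_ ?_
    · exact (hg y).hasDerivWithinAt.congr (fun z hz => by rw [min_eq_left hz]) (by rw [min_self])
    · rw [h0]
      exact (hasDerivWithinAt_const y _ (g y)).congr (fun z hz => by rw [min_eq_right hz])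
        (by rw [min_self])
  · rw [min_eq_right h.le, h0]
    refine (hasDerivAt_const y (g c)).congr_of_eventuallyEq ?_
    filter_upwards [Ioi_mem_nhds h] with z hz
    rw [min_eq_right (le_of_lt hz)]

/-- The `C¹` step from `0` (below `0`) to `1` (above `1`). -/
lemma dens_step : ∃ η η' : ℝ → ℝ, (∀ y, HasDerivAt η (η' y) y) ∧ Continuous η' ∧
    (∀ y, 0 ≤ η y ∧ η y ≤ 1) ∧ (∀ y, |η' y| ≤ 2) ∧ (∀ y, y ≤ 0 → η y = 0 ∧ η' y = 0) ∧
    ∀ y, 1 ≤ y → η y = 1 := by
  have hg : ∀ y : ℝ, HasDerivAt (fun y : ℝ => 3 * y ^ 2 - 2 * y ^ 3) (6 * y - 6 * y ^ 2) y :=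
    fun y => by
      refine (((hasDerivAt_pow 2 y).const_mul 3).fun_sub
        ((hasDerivAt_pow 3 y).const_mul 2)).congr_deriv ?_
      norm_num
      ring
  have h1 := dens_max hg (c := 0) (by norm_num)
  have h2 := dens_min h1 (c := 1) (by norm_num)
  have hc : ∀ y : ℝ, 0 ≤ max 0 (min y 1) ∧ max 0 (min y 1) ≤ 1 := fun y =>
    ⟨le_max_left _ _, max_le zero_le_one (min_le_right _ _)⟩
  refine ⟨_, _, h2, by fun_prop, fun y => ?_, fun y => ?_, fun y hy => ?_, fun y hy => ?_⟩
  · obtain ⟨h3, h4⟩ := hc y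
    generalize max 0 (min y 1) = c at h3 h4
    constructor
    · nlinarith [mul_nonneg (sq_nonneg c) (sub_nonneg.2 h4)]
    · nlinarith [mul_nonneg (sq_nonneg (1 - c)) h3]
  · obtain ⟨h3, h4⟩ := hc y
    generalize max 0 (min y 1) = c at h3 h4
    rw [abs_le]
    constructor
    · nlinarith [mul_nonneg h3 (sub_nonneg.2 h4)]
    · nlinarith [sq_nonneg (2 * c - 1)]
  · rw [max_eq_left ((min_le_left _ _).trans hy)]
    norm_num
  · rw [min_eq_right hy]
    norm_num

/-- `χ w = -L - 1 + η (w + L + 1)` with `η y = 1/2` for `y ≤ 0`, `1/2 + y³ - y⁴/2` on `[0,1]`,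
`y` for `y ≥ 1` (so `η' = 3 c² - 2 c³`, `η'' = 6 c - 6 c²` with `c = max 0 (min y 1)`; one may define
`η' y = ∫_0^y η''` and `η y = 1/2 + ∫_0^y η'` and use the fundamental theorem of calculus). -/
lemma exists_chi (L : ℝ) : ∃ χ χ' χ'' : ℝ → ℝ, IsChi L χ χ' χ'' := by
  obtain ⟨η, η', hd, hc, h01, h2, hl, hr⟩ := dens_step
  have hd' : ∀ w, HasDerivAt (fun w => η (w + (L + 1))) (η' (w + (L + 1))) w := fun w =>
    (hd (w + (L + 1))).comp_add_const w (L + 1)
  have hcont : Continuous fun w => η (w + (L + 1)) :=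
    continuous_iff_continuousAt.2 fun w => (hd' w).continuousAt
  set χ : ℝ → ℝ := fun w => -L + ∫ t in (-L)..w, η (t + (L + 1)) with hχ
  have hder : ∀ w, HasDerivAt χ (η (w + (L + 1))) w := fun w =>
    (hcont.integral_hasStrictDerivAt (-L) w).hasDerivAt.const_add (-L)
  have hL : χ (-L) = -L := by simp [hχ]
  have hdiff : Differentiable ℝ χ := fun w => (hder w).differentiableAt
  have hmono : Monotone χ := monotone_of_deriv_nonneg hdiff fun w => by
    rw [(hder w).deriv]; exact (h01 _).1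
  have hmono' : Monotone fun w => w - χ w :=
    monotone_of_deriv_nonneg (differentiable_id.sub hdiff) fun w => by
      rw [((hasDerivAt_id' w).fun_sub (hder w)).deriv]; linarith [(h01 (w + (L + 1))).2]
  have heq : ∀ w, -L ≤ w → χ w = w := fun w hw => by
    have : ∫ t in (-L)..w, η (t + (L + 1)) = ∫ _ in (-L)..w, (1 : ℝ) :=
      intervalIntegral.integral_congr fun t ht => hr _ (by
        rw [Set.uIcc_of_le hw] at ht; linarith [ht.1])
    simp only [hχ, this]
    simp
  have hge' : ∀ w, w ≤ χ w := fun w => by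
    rcases le_total (-L) w with hw | hw
    · exact (heq w hw).ge
    · have := hmono' hw
      simp only [hL] at this
      linarith
  refine ⟨χ, fun w => η (w + (L + 1)), fun w => η' (w + (L + 1)), hder, hd', by fun_prop, heq,
    fun w hw => hL ▸ hmono hw, fun w => ?_, hge', fun w => h01 _, fun w => h2 _,
    fun w hw => hl _ (by linarith)⟩
  rcases le_total (-L - 1) w with hw | hw
  · exact hw.trans (hge' w)
  · have h1 : ∫ t in w..(-L - 1), η (t + (L + 1)) = χ (-L - 1) - χ w :=
      intervalIntegral.integral_eq_sub_of_hasDerivAt (fun t _ => hder t)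
        (hcont.intervalIntegrable _ _)
    have h3 : ∫ t in w..(-L - 1), η (t + (L + 1)) = ∫ _ in w..(-L - 1), (0 : ℝ) :=
      intervalIntegral.integral_congr fun t ht => (hl _ (by
        rw [Set.uIcc_of_le hw] at ht; linarith [ht.2])).1
    rw [h3, intervalIntegral.integral_zero] at h1
    linarith [hge' (-L - 1)]

variable {L : ℝ} {χ χ' χ'' : ℝ → ℝ}

lemma IsChi.nonpos (hχ : IsChi L χ χ' χ'') (hL : 0 ≤ L) {w : ℝ} (hw : w ≤ 0) : χ w ≤ 0 := by
  rcases le_total (-L) w with h | h
  · rw [hχ.eq w h]; exact hw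
  · linarith [hχ.le w h]
lemma IsChi.lip (hχ : IsChi L χ χ' χ'') (w w' : ℝ) : |χ w - χ w'| ≤ |w - w'| := by
  have := convex_univ.norm_image_sub_le_of_norm_hasDerivWithin_le (C := 1)
    (fun x _ => (hχ.der x).hasDerivWithinAt)
    (fun x _ => by rw [Real.norm_of_nonneg (hχ.d1 x).1]; exact (hχ.d1 x).2)
    (Set.mem_univ w') (Set.mem_univ w)
  simpa using this
lemma IsChi.ml (hχ : IsChi L χ χ' χ'') (hL : 0 ≤ L) (hW : Measurable W) (h0 : ∀ s, W s ≤ 0) :
    ML fun s => χ (W s) := by
  have hc : Continuous χ := continuous_iff_continuousAt.2 fun w => (hχ.der w).continuousAt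
  exact ML.of_bdd (hc.measurable.comp hW) (L + 1) fun s =>
    abs_le.2 ⟨by linarith [hχ.ge (W s)], by linarith [hχ.nonpos hL (h0 s)]⟩

/-- Lower truncation bound: `val_jensen` from `H + χ W`; the density is at most
`exp (χ W + L + 1)`, which is `≤ e` where `W ≤ -L` (there `|W - χ W| ≤ |W| ≤ W² / L`, elsewhere
`W = χ W`), and `≤ exp (L + 1)` everywhere. -/
lemma trunc_lower (ha : Exps R a) (hH : ML H) (hχ : IsChi L χ χ' χ'') (hL : 0 < L) (hW : ME W)
    (h0 : ∀ s, W s ≤ 0) (hδ : ML δ) :
    val a (fun s => H s + χ (W s)) - 3 / L * EE a H (fun s => W s ^ 2) -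
      Real.exp (L + 1) * EE a H (fun s => |δ s|) ≤ val a fun s => H s + W s + δ s := by
  have hml := hχ.ml hL.le hW.meas h0
  have hmu : MU fun s => H s + W s + δ s := (hH.mu.add (MU.of_nonpos hW h0)).add hδ.mu
  have h1 := val_jensen ha (hH.add hml) hmu
  have hd : ∀ s, dens a H (fun s => χ (W s)) R s ≤ Real.exp (χ (W s) - (-L - 1)) := fun s =>
    dens_le ha hH hml le_rfl (fun s => hχ.ge (W s)) s
  have hd' : ∀ s, dens a H (fun s => χ (W s)) R s ≤ Real.exp (L + 1) := fun s =>
    (hd s).trans (Real.exp_le_exp.2 (by linarith [hχ.nonpos hL.le (h0 s)]))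
  have hme : ME (dens a H (fun s => χ (W s)) R) :=
    ME.of_bdd (measurable_dens a hH.meas hml.meas R) _ fun s => by
      rw [abs_of_pos (dens_pos _ _ _ _ _)]; exact hd' s
  have h2 : EE a H (fun s => (-(3 / L)) * W s ^ 2 - Real.exp (L + 1) * |δ s|) ≤
      EE a (fun s => H s + χ (W s)) fun t => H t + W t + δ t - (H t + χ (W t)) := by
    rw [EE, EE, E_dens]
    refine EE_mono ha hH (((hW.pow 2).const_mul _).sub (hδ.me.abs.const_mul _))
      ((hmu.me.sub (hH.add hml).me).mul hme) fun t => ?_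
    have hp := dens_pos a H (fun s => χ (W s)) R t
    have h3 : -(Real.exp (L + 1) * |δ t|) ≤ δ t * dens a H (fun s => χ (W s)) R t := by
      have h4 := mul_le_mul_of_nonneg_right (hd' t) (abs_nonneg (δ t))
      have h5 := mul_le_mul_of_nonneg_right (neg_abs_le (δ t)) hp.le
      linarith
    have h4 : -(3 / L) * W t ^ 2 ≤ (W t - χ (W t)) * dens a H (fun s => χ (W s)) R t := by
      rcases le_total (-L) (W t) with h | h
      · rw [hχ.eq _ h, sub_self, zero_mul]
        have : 0 ≤ 3 / L * W t ^ 2 := by positivity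
        linarith
      · have h5 : dens a H (fun s => χ (W s)) R t ≤ 3 :=
          (hd t).trans ((Real.exp_le_exp.2 (by linarith [hχ.le _ h])).trans
            (Real.exp_one_lt_d9.le.trans (by norm_num)))
        have h6 := mul_le_mul_of_nonneg_left h5 (sub_nonneg.2 (hχ.ge' (W t)))
        have h7 : -W t ≤ W t ^ 2 / L := by
          rw [le_div_iff₀ hL]; nlinarith [h0 t]
        have h8 := hχ.nonpos hL.le (h0 t)
        have h9 : -(3 / L) * W t ^ 2 = -(3 * (W t ^ 2 / L)) := by ring
        linarith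
    linarith
  rw [EE_sub ha hH ((hW.pow 2).const_mul _) (hδ.me.abs.const_mul _), EE_const_mul,
    EE_const_mul] at h2
  linarith

/-- Upper truncation bound: `W ≤ χ W`, `X_exp_upper` from `H + χ W`, `log (1 + u) ≤ u`. -/
lemma trunc_upper (ha : Exps R a) (hH : ML H) (hχ : IsChi L χ χ' χ'') (hL : 0 < L) (hW : ME W)
    (h0 : ∀ s, W s ≤ 0) (hδ : ML δ) :
    val a (fun s => H s + W s + δ s) ≤ val a (fun s => H s + χ (W s)) +
      Real.exp (L + 1) * EE a H fun s => |Real.exp (δ s) - 1| := by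
  have hml := hχ.ml hL.le hW.meas h0
  have hH₀ := hH.add hml
  have hmu : MU fun s => H s + W s + δ s := (hH.mu.add (MU.of_nonpos hW h0)).add hδ.mu
  have h1 := val_mono ha hmu (hH₀.add hδ).mu fun s => by linarith [hχ.ge' (W s)]
  have h2 := X_exp_upper ha hH₀ (hH₀.add hδ) le_rfl Lev.pt
  simp only [add_sub_cancel_left] at h2
  have h3 := Real.log_le_sub_one_of_pos (ineq_E_exp_pos ha hH₀ le_rfl hδ Lev.pt)
  have hme : ME fun s => |Real.exp (δ s) - 1| := (hδ.exp.sub (ME.const 1)).abs
  have h4 := EE_mono ha hH₀ hδ.exp (hme.add (ME.const 1)) fun t => by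
    linarith [le_abs_self (Real.exp (δ t) - 1)]
  rw [EE_add ha hH₀ hme (ME.const 1), EE_const ha hH₀] at h4
  have h5 := EE_le_of_bdd ha hH hml.meas (lo := -L - 1) (hi := 0)
    (fun s => ⟨hχ.ge _, hχ.nonpos hL.le (h0 s)⟩) hme fun s => abs_nonneg _
  rw [show (0 : ℝ) - (-L - 1) = L + 1 by ring] at h5
  simp only [val, EE] at *
  linarith

/-- A power mean of a bounded function that is close to `c` off a small event. -/
lemma PM_close {P : Type} [MeasurableSpace P] {ν : Measure P} [IsProbabilityMeasure ν]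
    {m c ε B η : ℝ} (hm : 0 < m) {F : P → ℝ} (hF : Measurable F) (hB : ∀ p, |F p - c| ≤ B)
    {G : Set P} (hG : MeasurableSet G) (hη : ν.real Gᶜ ≤ η) (hη' : η ≤ 1 / 2) (hε : 0 ≤ ε)
    (h : ∀ p ∈ G, |F p - c| ≤ ε) :
    |PM m ν F - c| ≤ ε + m⁻¹ * (2 * η * Real.exp (m * (B + ε))) := by
  have hη0 : 0 ≤ η := measureReal_nonneg.trans hη
  obtain ⟨p₀⟩ := nonempty_of_isProbabilityMeasure ν
  have hB0 : 0 ≤ B := (abs_nonneg _).trans (hB p₀)
  have hup : ∀ p, Real.exp (m * F p) ≤ Real.exp (m * (c + B)) := fun p =>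
    Real.exp_le_exp.2 (mul_le_mul_of_nonneg_left (by linarith [(abs_le.1 (hB p)).2]) hm.le)
  have hint : Integrable (fun p => Real.exp (m * F p)) ν :=
    (integrable_const (Real.exp (m * (c + B)))).mono' (hF.const_mul m).exp.aestronglyMeasurable
      (ae_of_all _ fun p => by rw [Real.norm_of_nonneg (Real.exp_pos _).le]; exact hup p)
  have hind : ∀ x y : ℝ, Integrable (fun p => x + Gᶜ.indicator (fun _ => y) p) ν := fun x y =>
    (integrable_const x).add ((integrable_const y).indicator hG.compl)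
  have hind' : ∀ x y : ℝ, ∫ p, (x + Gᶜ.indicator (fun _ => y) p) ∂ν = x + ν.real Gᶜ * y :=
    fun x y => by
      rw [integral_add (integrable_const x) ((integrable_const y).indicator hG.compl),
        integral_indicator_const _ hG.compl]
      simp
  have hU : ∫ p, Real.exp (m * F p) ∂ν ≤
      Real.exp (m * (c + ε)) + ν.real Gᶜ * Real.exp (m * (c + B)) := by
    rw [← hind']
    refine integral_mono hint (hind _ _) fun p => ?_
    by_cases hp : p ∈ G
    · simp only [Set.indicator_of_notMem (Set.notMem_compl_iff.2 hp), add_zero]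
      exact Real.exp_le_exp.2
        (mul_le_mul_of_nonneg_left (by linarith [(abs_le.1 (h p hp)).2]) hm.le)
    · simp only [Set.indicator_of_mem (Set.mem_compl hp)]
      linarith [hup p, Real.exp_pos (m * (c + ε))]
  have hL : Real.exp (m * (c - ε)) + ν.real Gᶜ * -Real.exp (m * (c - ε)) ≤
      ∫ p, Real.exp (m * F p) ∂ν := by
    rw [← hind']
    refine integral_mono (hind _ _) hint fun p => ?_
    by_cases hp : p ∈ G
    · simp only [Set.indicator_of_notMem (Set.notMem_compl_iff.2 hp), add_zero]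
      exact Real.exp_le_exp.2
        (mul_le_mul_of_nonneg_left (by linarith [(abs_le.1 (h p hp)).1]) hm.le)
    · simp only [Set.indicator_of_mem (Set.mem_compl hp)]
      linarith [Real.exp_pos (m * F p)]
  rw [← exp_PM hm hint] at hU hL
  set K := Real.exp (m * (B + ε)) with hK
  have hK1 : 1 ≤ K := Real.one_le_exp (by positivity)
  have h1 : m * PM m ν F ≤ m * (c + ε) + 2 * η * K := by
    rw [← Real.exp_le_exp, Real.exp_add]
    have h2 : Real.exp (m * (c + B)) ≤ Real.exp (m * (c + ε)) * K := by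
      rw [hK, ← Real.exp_add]
      exact Real.exp_le_exp.2 (by nlinarith)
    have h3 : ν.real Gᶜ * Real.exp (m * (c + B)) ≤ η * (Real.exp (m * (c + ε)) * K) :=
      mul_le_mul hη h2 (Real.exp_pos _).le hη0
    have h4 := mul_le_mul_of_nonneg_left (Real.add_one_le_exp (2 * η * K))
      (Real.exp_pos (m * (c + ε))).le
    have h5 : 0 ≤ η * (Real.exp (m * (c + ε)) * K) := by positivity
    linarith
  have h2 : m * (c - ε) ≤ m * PM m ν F + 2 * η * K := by
    rw [← Real.exp_le_exp, Real.exp_add]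
    have h3 := mul_le_mul_of_nonneg_right hη (Real.exp_pos (m * (c - ε))).le
    have h4 : Real.exp (m * (c - ε)) * (1 - η) ≤ Real.exp (m * PM m ν F) := by linarith
    have h5 : 1 + 2 * η ≤ Real.exp (2 * η * K) := by
      have := Real.add_one_le_exp (2 * η * K)
      nlinarith
    have h6 := mul_le_mul h4 h5 (by positivity) (Real.exp_pos _).le
    have h7 : 0 ≤ Real.exp (m * (c - ε)) * (η * (1 - 2 * η)) :=
      mul_nonneg (Real.exp_pos _).le (mul_nonneg hη0 (by linarith))
    nlinarith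
  have h3 : m * (m⁻¹ * (2 * η * K)) = 2 * η * K := mul_inv_cancel_left₀ hm.ne' _
  rw [abs_le]
  constructor
  · refine le_of_mul_le_mul_left ?_ hm
    linarith
  · refine le_of_mul_le_mul_left ?_ hm
    linarith

end Crest.Agent.R164
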