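import Crest.Agent.R164.CasD
import Crest.Agent.R164.CasCov

/-!
# R164 / CasIBP: integration by parts in a cascade

`act d l θ` commutes with `upd j` for `j ≠ l`, hence with `X j`, `E j` for `j ≤ l`
(`X_act`, `E_act`), which with `DF.cond` gives `HasD.cond`.
`ibp_level`: real form of the Cameron–Martin identity `Dir.cm` (`Dir.cm_real`):
`∫ F (τ θ y) exp (-θ γ y - θ² c/2) dμ = ∫ F dμ` for `F ∈ ME`.  Apply it to
`F y = E l ψ (upd l s y) exp (a l X l (upd l s y))`; note `upd l s (τ θ y) = act d l θ (upd l s y)`.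
Differentiate at `θ = 0` with `hasDerivAt_step` (take `c = 1`,
`G θ t = a l * X l (act θ t) - θ γ (t l) - θ² c/2`).  This gives
`E (l+1) (γ ψ) = E (l+1) ψ₀ + A (Cv l ψ φ + a l E l ψ E l φ)`; use `Cv_abel`.
-/

set_option autoImplicit false

open MeasureTheory ProbabilityTheory Finset

namespace Crest.Agent.R164

variable {Y : Type} [MeasurableSpace Y] [Lev Y] {R : ℕ} {a : ℕ → ℝ} {d : Dir Y} {l : Fin R}
  {H φ ψ ψ₀ ψ' ψ₀' : St R Y → ℝ}

lemma Dir.cm_real (d : Dir Y) {F : Y → ℝ} (hF : ME F) (θ : ℝ) :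
    ∫ y, F (d.τ θ y) * Real.exp (-(θ * d.γ y) - θ ^ 2 * d.c / 2) ∂Lev.μ = ∫ y, F y ∂Lev.μ := by
  have hm : ((Lev.μ : Measure Y).withDensity fun y =>
      ENNReal.ofReal (Real.exp (-(θ * d.γ y) - θ ^ 2 * d.c / 2))).map (d.τ θ) = Lev.μ := by
    refine Measure.ext_of_lintegral _ fun f hf => ?_
    rw [lintegral_map hf (d.τ_meas θ), lintegral_withDensity_eq_lintegral_mul _ (d.meas_dens θ)
      (g := fun y => f (d.τ θ y)) (hf.comp (d.τ_meas θ)), ← d.cm θ f hf]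
    exact lintegral_congr fun y => mul_comm _ _
  conv_rhs => rw [← hm]
  rw [integral_map (d.τ_meas θ).aemeasurable hF.meas.aestronglyMeasurable,
    integral_withDensity_eq_integral_toReal_smul (d.meas_dens θ)
      (Filter.Eventually.of_forall fun _ => ENNReal.ofReal_lt_top)]
  refine integral_congr_ae (Filter.Eventually.of_forall fun y => ?_)
  dsimp only
  rw [ENNReal.toReal_ofReal (Real.exp_pos _).le, smul_eq_mul, mul_comm]

lemma act_zero (d : Dir Y) (l : Fin R) (s : St R Y) : act d l 0 s = s := by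
  rw [act, d.τ_zero, Function.update_eq_self]

lemma act_self (d : Dir Y) (l : Fin R) (θ : ℝ) (s : St R Y) : act d l θ s l = d.τ θ (s l) := by
  rw [act, Function.update_self]

lemma act_ne (d : Dir Y) {l j : Fin R} (h : j ≠ l) (θ : ℝ) (s : St R Y) : act d l θ s j = s j := by
  rw [act, Function.update_of_ne h]

lemma measurable_act (d : Dir Y) (l : Fin R) (θ : ℝ) : Measurable (act d l θ) := by
  exact (Dir.pi l d).τ_meas θ

lemma ibp_n_act (C : ℝ) {θ : ℝ} (hθ : θ ∈ Set.Ioo (-1 : ℝ) 1) (s : St R Y) :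
    C * (1 + Lev.n (act d l θ s)) ≤ 2 * |C| * (1 + Lev.n s) := by
  have h1 : Lev.n (act d l θ s) ≤ Lev.n s + |θ| := (Dir.pi l d).n_le θ s
  have h2 : |θ| ≤ 1 := abs_le.2 ⟨hθ.1.le, hθ.2.le⟩
  have h3 := Lev.n_nonneg s
  have h4 := Lev.n_nonneg (act d l θ s)
  calc C * (1 + Lev.n (act d l θ s)) ≤ |C| * (1 + Lev.n (act d l θ s)) :=
        mul_le_mul_of_nonneg_right (le_abs_self C) (by linarith)
    _ ≤ |C| * (2 * (1 + Lev.n s)) := mul_le_mul_of_nonneg_left (by linarith) (abs_nonneg C)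
    _ = _ := by ring

lemma ML.fl_act (hH : ML H) (d : Dir Y) (l : Fin R) :
    FL (Set.Ioo (-1) 1) fun θ s => H (act d l θ s) := by
  obtain ⟨C, hC⟩ := hH.bd
  exact ⟨fun θ _ => hH.meas.comp (measurable_act d l θ),
    2 * |C|, fun θ hθ s => (hC _).trans (ibp_n_act C hθ s)⟩

lemma ME.fe_act (hψ : ME ψ) (d : Dir Y) (l : Fin R) :
    FE (Set.Ioo (-1) 1) fun θ s => ψ (act d l θ s) := by
  obtain ⟨C, hC⟩ := hψ.bd
  exact ⟨fun θ _ => hψ.meas.comp (measurable_act d l θ),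
    2 * |C|, fun θ hθ s => (hC _).trans (Real.exp_le_exp.2 (ibp_n_act C hθ s))⟩

lemma ml_γ (d : Dir Y) (l : Fin R) : ML fun s : St R Y => d.γ (s l) := by
  exact ML.of_le_n (Dir.pi l d).γ_meas (Dir.pi l d).γ_le

lemma ibp_act_upd {j : ℕ} (hj : j ≠ l) (θ : ℝ) (s : St R Y) (y : Y) :
    act d l θ (upd j s y) = upd j (act d l θ s) y := by
  funext k
  by_cases hk : k = l
  · subst hk
    rw [act_self]
    simp only [upd, if_neg (Ne.symm hj), act_self]
  · rw [act_ne d hk]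
    simp only [upd, act_ne d hk]

lemma ibp_act_upd_self (θ : ℝ) (s : St R Y) (y : Y) :
    act d l θ (upd l s y) = upd l s (d.τ θ y) := by
  rw [upd_coe, upd_coe, act, Function.update_self, Function.update_idem]

lemma X_act (a : ℕ → ℝ) (H : St R Y → ℝ) (d : Dir Y) (l : Fin R) (θ : ℝ) {j : ℕ} (hj : j ≤ l)
    (s : St R Y) : X a (fun t => H (act d l θ t)) j s = X a H j (act d l θ s) := by
  induction j generalizing s with
  | zero => rw [X_zero, X_zero]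
  | succ j ih =>
    rw [X_succ, X_succ]
    congr 1
    funext y
    rw [ih (by omega), ibp_act_upd (by omega)]

lemma E_act (a : ℕ → ℝ) (H ψ : St R Y → ℝ) (d : Dir Y) (l : Fin R) (θ : ℝ) {j : ℕ} (hj : j ≤ l)
    (s : St R Y) :
    E a (fun t => H (act d l θ t)) j (fun t => ψ (act d l θ t)) s = E a H j ψ (act d l θ s) := by
  induction j generalizing s with
  | zero => rw [E_zero, E_zero]
  | succ j ih =>
    rw [E_succ, E_succ, X_act a H d l θ hj]
    congr 1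
    funext y
    rw [ih (by omega), X_act a H d l θ (by omega), ibp_act_upd (by omega)]

lemma ibp_zero_mem : (0 : ℝ) ∈ Set.Ioo (-1 : ℝ) 1 := ⟨by norm_num, by norm_num⟩

lemma ibp_abs_le {θ : ℝ} (hθ : θ ∈ Set.Ioo (-1 : ℝ) 1) : |θ| ≤ 1 := abs_le.2 ⟨hθ.1.le, hθ.2.le⟩

lemma HasD.me (h : HasD d l ψ ψ₀) : ME ψ := by
  obtain ⟨ψ', h, -⟩ := h
  simpa only [act_zero] using h.ge.me ibp_zero_mem

lemma HasD.me' (h : HasD d l ψ ψ₀) : ME ψ₀ := by
  obtain ⟨ψ', h, rfl⟩ := h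
  exact h.ge'.me ibp_zero_mem

lemma HasD.of_inv (hψ : ME ψ) (h : ∀ θ s, ψ (act d l θ s) = ψ s) : HasD d l ψ fun _ => 0 := by
  exact ⟨fun _ _ => 0, (DF.const hψ).congr isOpen_Ioo (fun θ _ => funext (h θ)) fun _ _ => rfl, rfl⟩

lemma HasD.of_dep (hψ : ME ψ) (h : Dep (l + 1) ψ) : HasD d l ψ fun _ => 0 := by
  refine HasD.of_inv hψ fun θ s => ?_
  rw [act, ← upd_coe]
  exact h l (Nat.lt_succ_self _) s _

lemma HasD.of_lin (hψ : ME ψ) (hψ₀ : ME ψ₀) (h : ∀ θ s, ψ (act d l θ s) = ψ s + θ * ψ₀ s) :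
    HasD d l ψ ψ₀ := by
  exact ⟨fun _ => ψ₀, (DF.linear 1 (fun _ => ibp_abs_le) hψ hψ₀).congr isOpen_Ioo
    (fun θ _ => funext (h θ)) fun _ _ => rfl, rfl⟩

/-- The pattern of a rotation. -/
lemma HasD.of_rot {u : St R Y → ℝ} (hψ : ME ψ) (hu : ME u)
    (h : ∀ θ s, ψ (act d l θ s) = Real.cos θ * ψ s + Real.sin θ * u s) : HasD d l ψ u := by
  have h1 : DF (Set.Ioo (-1 : ℝ) 1) (fun θ (_ : St R Y) => Real.cos θ) fun θ _ => -Real.sin θ :=
    DF.scalar 1 (fun θ _ => Real.abs_cos_le_one θ)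
      (fun θ _ => by rw [abs_neg]; exact Real.abs_sin_le_one θ) fun θ _ => Real.hasDerivAt_cos θ
  have h2 : DF (Set.Ioo (-1 : ℝ) 1) (fun θ (_ : St R Y) => Real.sin θ) fun θ _ => Real.cos θ :=
    DF.scalar 1 (fun θ _ => Real.abs_sin_le_one θ) (fun θ _ => Real.abs_cos_le_one θ)
      fun θ _ => Real.hasDerivAt_sin θ
  refine ⟨_, ((h1.mul (DF.const hψ)).add (h2.mul (DF.const hu))).congr isOpen_Ioo
    (fun θ _ => funext (h θ)) fun _ _ => rfl, ?_⟩
  funext s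
  simp

lemma HasD.add (h : HasD d l ψ ψ₀) (h' : HasD d l ψ' ψ₀') :
    HasD d l (fun s => ψ s + ψ' s) fun s => ψ₀ s + ψ₀' s := by
  obtain ⟨u, h, rfl⟩ := h
  obtain ⟨u', h', rfl⟩ := h'
  exact ⟨_, h.add h', rfl⟩

lemma HasD.sub (h : HasD d l ψ ψ₀) (h' : HasD d l ψ' ψ₀') :
    HasD d l (fun s => ψ s - ψ' s) fun s => ψ₀ s - ψ₀' s := by
  obtain ⟨u, h, rfl⟩ := h
  obtain ⟨u', h', rfl⟩ := h'
  exact ⟨_, h.sub h', rfl⟩

lemma HasD.mul (h : HasD d l ψ ψ₀) (h' : HasD d l ψ' ψ₀') :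
    HasD d l (fun s => ψ s * ψ' s) fun s => ψ₀ s * ψ' s + ψ s * ψ₀' s := by
  obtain ⟨u, h, rfl⟩ := h
  obtain ⟨u', h', rfl⟩ := h'
  exact ⟨_, h.mul h', by simp only [act_zero]⟩

lemma HasD.const_mul (c : ℝ) (h : HasD d l ψ ψ₀) :
    HasD d l (fun s => c * ψ s) fun s => c * ψ₀ s := by
  obtain ⟨u, h, rfl⟩ := h
  exact ⟨_, h.const_mul c, rfl⟩

lemma HasD.sum {β : Type*} (t : Finset β) {Ψ Ψ₀ : β → St R Y → ℝ}
    (h : ∀ b ∈ t, HasD d l (Ψ b) (Ψ₀ b)) :
    HasD d l (fun s => ∑ b ∈ t, Ψ b s) fun s => ∑ b ∈ t, Ψ₀ b s := by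
  classical
  induction t using Finset.induction_on with
  | empty => simpa using HasD.of_inv (d := d) (l := l) (ME.const 0) fun _ _ => rfl
  | insert b t hb ih =>
    simp only [Finset.sum_insert hb]
    exact (h b (mem_insert_self _ _)).add (ih fun c hc => h c (mem_insert_of_mem hc))

lemma HasD.comp {g g' : ℝ → ℝ} (hg : ∀ w, HasDerivAt g (g' w) w) (B : ℝ) (hB : ∀ w, |g' w| ≤ B)
    (h : HasD d l ψ ψ₀) : HasD d l (fun s => g (ψ s)) fun s => g' (ψ s) * ψ₀ s := by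
  obtain ⟨u, h, rfl⟩ := h
  exact ⟨_, h.comp hg B hB, by simp only [act_zero]⟩

lemma HasD.congr (h : HasD d l ψ ψ₀) (h1 : ∀ s, ψ' s = ψ s) (h2 : ∀ s, ψ₀' s = ψ₀ s) :
    HasD d l ψ' ψ₀' := by
  rw [funext h1, funext h2]
  exact h

lemma HasD.γ (h : ∀ θ y, d.γ (d.τ θ y) = d.γ y + θ) :
    HasD d l (fun s => d.γ (s l)) fun _ => 1 := by
  refine HasD.of_lin (ml_γ d l).me (ME.const 1) fun θ s => ?_
  rw [act_self, h, mul_one]

theorem HasD.free (ha : Exps R a) (hH : ML H) (hφ : HasD d l H φ) {j : ℕ} (hj : j ≤ l) :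
    HasD d l (X a H j) (E a H j φ) := by
  obtain ⟨φ', hφ, rfl⟩ := hφ
  refine ⟨_, (DF.free isOpen_Ioo ha (hH.fl_act d l) hφ (hj.trans l.2.le)).congr isOpen_Ioo
    (fun θ _ => funext fun s => (X_act a H d l θ hj s).symm) fun _ _ => rfl, ?_⟩
  simp only [act_zero]

theorem HasD.cond (ha : Exps R a) (hH : ML H) (hφ : HasD d l H φ) (hψ : HasD d l ψ ψ₀) {j : ℕ}
    (hj : j ≤ l) : HasD d l (E a H j ψ) fun s => E a H j ψ₀ s + Cv a H j ψ φ s := by
  obtain ⟨φ', hφ, rfl⟩ := hφ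
  obtain ⟨u, hψ, rfl⟩ := hψ
  refine ⟨_, (DF.cond isOpen_Ioo ha (hH.fl_act d l) hφ hψ (hj.trans l.2.le)).congr isOpen_Ioo
    (fun θ _ => funext fun s => (E_act a H ψ d l θ hj s).symm) fun _ _ => rfl, ?_⟩
  simp only [act_zero]

/-- The derivative at `θ = 0` of the Cameron–Martin identity. -/
lemma ibp_core (ha : Exps R a) (hH : ML H) (hφ : HasD d l H φ) (hψ : HasD d l ψ ψ₀)
    (s : St R Y) :
    ∫ y, (E a H l ψ₀ (upd l s y) + Cv a H l ψ φ (upd l s y) +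
      E a H l ψ (upd l s y) * (a l * E a H l φ (upd l s y) - d.γ y)) *
        Real.exp (a l * X a H l (upd l s y)) ∂Lev.μ = 0 := by
  have hl : (l : ℕ) ≤ R := l.2.le
  obtain ⟨F', hF, hF0⟩ := HasD.cond ha hH hφ hψ (le_refl (l : ℕ))
  obtain ⟨X', hX, hX0⟩ := HasD.free ha hH hφ (le_refl (l : ℕ))
  have hc : ∀ θ ∈ Set.Ioo (-1 : ℝ) 1, |-(θ ^ 2 * d.c / 2)| ≤ |d.c| := fun θ hθ => by
    have h1 := ibp_abs_le hθ
    have h2 : |θ| ^ 2 ≤ 1 := pow_le_one₀ (abs_nonneg θ) h1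
    rw [abs_neg, abs_div, abs_mul, abs_pow, abs_two]
    nlinarith [abs_nonneg d.c]
  have hc' : ∀ θ ∈ Set.Ioo (-1 : ℝ) 1, |-(θ * d.c)| ≤ |d.c| := fun θ hθ => by
    have h1 := ibp_abs_le hθ
    rw [abs_neg, abs_mul]
    nlinarith [abs_nonneg d.c]
  have hn : ∀ θ ∈ Set.Ioo (-1 : ℝ) 1, |-θ| ≤ 1 := fun θ hθ => by
    rw [abs_neg]; exact ibp_abs_le hθ
  have hG : FL (Set.Ioo (-1 : ℝ) 1) fun θ (t : St R Y) =>
      a l * X a H l (act d l θ t) + -θ * d.γ (t l) + -(θ ^ 2 * d.c / 2) :=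
    ((FL.smul (c := fun _ => a l) |a l| (fun _ _ => le_rfl) ((hH.free ha hl).fl_act d l)).add
      (FL.smul (c := fun θ => -θ) 1 hn (FL.const (ml_γ d l)))).add
      (FL.of_bdd (fun _ _ => measurable_const) |d.c| fun θ hθ _ => hc θ hθ)
  have d1 : DF (Set.Ioo (-1 : ℝ) 1) (fun θ (_ : St R Y) => -θ) fun _ _ => -1 :=
    DF.scalar (c := fun θ => -θ) (c' := fun _ => -1) 1 hn (fun _ _ => by simp)
      fun θ _ => hasDerivAt_neg' θ
  have d2 : DF (Set.Ioo (-1 : ℝ) 1) (fun θ (_ : St R Y) => -(θ ^ 2 * d.c / 2))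
      fun θ _ => -(θ * d.c) :=
    DF.scalar (c := fun θ => -(θ ^ 2 * d.c / 2)) (c' := fun θ => -(θ * d.c)) |d.c| hc hc'
      fun θ _ => by
        refine (((hasDerivAt_pow 2 θ).mul_const d.c).div_const 2).fun_neg.congr_deriv ?_
        push_cast
        ring
  have hG' := ((hX.const_mul (a l)).add (d1.mul (DF.const (ml_γ d l).me))).add d2
  have h1 := hasDerivAt_step isOpen_Ioo hF hG hG' 1 l s ibp_zero_mem
  have hF0' : ME fun y => E a H l ψ (upd l s y) * Real.exp (a l * X a H l (upd l s y)) :=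
    ((hψ.me.cond ha hH hl).mul ((hH.free ha hl).const_mul (a l)).exp).comp (gro_upd l s)
  have e : ∀ y, upd l s y l = y := fun y => by simp [upd]
  have h2 : (fun θ => ∫ y, E a H l ψ (act d l θ (upd l s y)) * Real.exp (1 *
      (a l * X a H l (act d l θ (upd l s y)) + -θ * d.γ (upd l s y l) + -(θ ^ 2 * d.c / 2)))
        ∂Lev.μ) = fun _ =>
      ∫ y, E a H l ψ (upd l s y) * Real.exp (a l * X a H l (upd l s y)) ∂Lev.μ := by
    funext θ
    rw [← d.cm_real hF0' θ]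
    refine integral_congr_ae (Filter.Eventually.of_forall fun y => ?_)
    dsimp only
    rw [ibp_act_upd_self, e, mul_assoc, ← Real.exp_add]
    congr 2
    ring
  rw [h2] at h1
  rw [← h1.unique (hasDerivAt_const _ _)]
  refine integral_congr_ae (Filter.Eventually.of_forall fun y => ?_)
  dsimp only
  rw [hF0, hX0, act_zero, e]
  congr 1
  · ring
  · congr 1
    ring

theorem ibp_level (ha : Exps R a) (hH : ML H) (hφ : HasD d l H φ) (hψ : HasD d l ψ ψ₀)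
    (s : St R Y) :
    E a H (l + 1) (fun t => d.γ (t l) * ψ t) s =
      E a H (l + 1) ψ₀ s + E a H (l + 1) (fun t => ψ t * φ t) s -
        ∑ i ∈ range l, (a i - a (i + 1)) *
          E a H (l + 1) (fun t => E a H (i + 1) ψ t * E a H (i + 1) φ t) s := by
  have hl : (l : ℕ) ≤ R := l.2.le
  have hl1 : (l : ℕ) + 1 ≤ R := l.2
  have hls : (l : ℕ) ≤ l + 1 := Nat.le_succ _
  have hB : ∀ i ∈ range l, ME fun t => E a H (i + 1) ψ t * E a H (i + 1) φ t := fun i hi => by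
    have : i + 1 ≤ R := (Nat.succ_le_of_lt (mem_range.1 hi)).trans hl
    exact (hψ.me.cond ha hH this).mul (hφ.me'.cond ha hH this)
  have m1 : ME (E a H l ψ₀) := hψ.me'.cond ha hH hl
  have m2 : ME (E a H l fun t => ψ t * φ t) := (hψ.me.mul hφ.me').cond ha hH hl
  have m3 : ∀ i ∈ range l, ME fun t => (a i - a (i + 1)) *
      E a H l (fun t => E a H (i + 1) ψ t * E a H (i + 1) φ t) t := fun i hi =>
    ((hB i hi).cond ha hH hl).const_mul _
  have m4 : ME fun t : St R Y => d.γ (t l) * E a H l ψ t :=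
    (ml_γ d l).me.mul (hψ.me.cond ha hH hl)
  have hdep : Dep l fun t => E a H l ψ₀ t + (E a H l (fun t => ψ t * φ t) t -
      ∑ i ∈ range l, (a i - a (i + 1)) *
        E a H l (fun t => E a H (i + 1) ψ t * E a H (i + 1) φ t) t) - d.γ (t l) * E a H l ψ t :=
    Dep.comp₂ (Dep.comp₂ (dep_E a H ψ₀ l) (Dep.comp₂ (dep_E a H _ l)
      (Dep.sum _ fun i _ => (dep_E a H _ l).comp fun x => (a i - a (i + 1)) * x) fun x y => x - y)
      fun x y => x + y) (Dep.comp₂ (Dep.slot l d.γ) (dep_E a H ψ l) fun x y => x * y)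
      fun x y => x - y
  have h0 : E a H (l + 1) (fun t => E a H l ψ₀ t + (E a H l (fun t => ψ t * φ t) t -
      ∑ i ∈ range l, (a i - a (i + 1)) *
        E a H l (fun t => E a H (i + 1) ψ t * E a H (i + 1) φ t) t) -
          d.γ (t l) * E a H l ψ t) s = 0 := by
    rw [E_succ, ← mul_zero (Real.exp (-(a l * X a H (l + 1) s))), ← ibp_core ha hH hφ hψ s,
      ← integral_const_mul]
    refine integral_congr_ae (Filter.Eventually.of_forall fun y => ?_)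
    dsimp only
    rw [E_dep ha hH hl hdep, Cv_abel ha hH hl, mul_sub (a l) (X a H l _), sub_eq_add_neg
      (a l * X a H l _), Real.exp_add]
    have e : upd l s y l = y := by simp [upd]
    rw [e]
    ring
  rw [E_sub ha hH hl1 (m1.add (m2.sub (ME.sum _ m3))) m4, E_add ha hH hl1 m1 (m2.sub (ME.sum _ m3)),
    E_sub ha hH hl1 m2 (ME.sum _ m3), E_sum _ ha hH hl1 m3, E_tower ha hH hl1 hls,
    E_tower ha hH hl1 hls, E_tower_mul ha hH hl1 hls (Dep.slot l d.γ)] at h0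
  simp only [E_const_mul, E_tower ha hH hl1 hls] at h0
  linarith

/-- Integration by parts at level `l` (apply `EE` to `ibp_level`, `EE_tower`). -/
theorem ibp (ha : Exps R a) (hH : ML H) (hφ : HasD d l H φ) (hψ : HasD d l ψ ψ₀) :
    EE a H (fun t => d.γ (t l) * ψ t) = EE a H ψ₀ + Ct a H l ψ φ := by
  have hl : (l : ℕ) ≤ R := l.2.le
  have hl1 : (l : ℕ) + 1 ≤ R := l.2
  have m1 : ME (E a H (l + 1) ψ₀) := hψ.me'.cond ha hH hl1
  have m2 : ME (E a H (l + 1) fun t => ψ t * φ t) := (hψ.me.mul hφ.me').cond ha hH hl1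
  have m3 : ∀ i ∈ range l, ME fun t => (a i - a (i + 1)) *
      E a H (l + 1) (fun t => E a H (i + 1) ψ t * E a H (i + 1) φ t) t := fun i hi => by
    have : i + 1 ≤ R := (Nat.succ_le_of_lt (mem_range.1 hi)).trans hl
    exact (((hψ.me.cond ha hH this).mul (hφ.me'.cond ha hH this)).cond ha hH hl1).const_mul _
  rw [← EE_tower ha hH hl1, funext (ibp_level ha hH hφ hψ), EE_sub ha hH (m1.add m2) (ME.sum _ m3),
    EE_add ha hH m1 m2, EE_sum _ ha hH m3, Ct]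
  simp only [EE_const_mul, EE_tower ha hH hl1]
  ring

/-- Second moment of a Gaussian coordinate: `EE γ² = 1 + Ct γ φ ≤ 1 + 2 √(EE γ²) √(EE φ²)`
(`abs_Ct_le`), hence `√(EE γ²) ≤ 1 + 2 √(EE φ²)`. -/
lemma EE_γ_sq_le (ha : Exps R a) (hH : ML H) (hφ : HasD d l H φ)
    (h : ∀ θ y, d.γ (d.τ θ y) = d.γ y + θ) :
    Real.sqrt (EE a H fun t => d.γ (t l) ^ 2) ≤ 1 + 2 * Real.sqrt (EE a H fun t => φ t ^ 2) := by
  have h1 := ibp ha hH hφ (HasD.γ h)
  have h2 := (le_abs_self _).trans (abs_Ct_le ha hH l.2.le (ml_γ d l).me hφ.me')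
  rw [EE_const ha hH] at h1
  simp only [← sq] at h1
  have h3 : Real.sqrt (EE a H fun t => d.γ (t l) ^ 2) ^ 2 = EE a H fun t => d.γ (t l) ^ 2 :=
    Real.sq_sqrt (EE_nonneg a H fun t => sq_nonneg _)
  have h4 := Real.sqrt_nonneg (EE a H fun t => φ t ^ 2)
  generalize Real.sqrt (EE a H fun t => d.γ (t l) ^ 2) = u at *
  generalize Real.sqrt (EE a H fun t => φ t ^ 2) = v at *
  by_contra h5
  push Not at h5
  nlinarith

end Crest.Agent.R164
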