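import Crest.Agent.R164.CasRep

/-!
# R164 / CasIneq: comparison inequalities for the value of a cascade

All are proved at every level `n ≤ R` and every state by induction on `n`.  Write
`Δ_n = X a H' n - X a H n`, `w` for the one-step weight of `H` (it integrates to `1`,
`integral_weight`).  The basic identity is
`Δ_{n+1} s = (a n)⁻¹ log ∫ exp (a n * Δ_n (upd n s y)) w(y) dμ`, i.e. a power mean `PM (a n)` under
the probability measure `μ.withDensity w`.
* `X_jensen`: `PM ≥ mean` (or `exp u ≥ exp c (1 + u - c)` under the integral).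
* `X_exp_upper`: `PM (a n) ≤ PM 1` as `a n ≤ 1`; induction hypothesis `exp Δ_n ≤ E n (exp (H' - H))`.
* `X_exp_lower`: `PM m ≤ PM (a n)` as `m ≤ a n`; hypothesis `E n (exp (m (H' - H))) ≤ exp (m Δ_n)`.
-/

set_option autoImplicit false

open MeasureTheory ProbabilityTheory Finset

namespace Crest.Agent.R164

variable {Y : Type} [MeasurableSpace Y] [Lev Y] {R : ℕ} {a : ℕ → ℝ} {H H' φ : St R Y → ℝ} {n : ℕ}

lemma ineq_conv {θ : ℝ} (h0 : 0 ≤ θ) (h1 : θ ≤ 1) (u : ℝ) :
    Real.exp (θ * u) ≤ θ * Real.exp u + (1 - θ) := by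
  have := convexOn_exp.2 (Set.mem_univ u) (Set.mem_univ 0) h0 (sub_nonneg.2 h1) (by ring)
  simpa using this

lemma ineq_weight_me (ha : Exps R a) (hH : MU H) (hn : n < R) (s : St R Y) (c : ℝ) :
    ME fun y => Real.exp (a n * (X a H n (upd n s y) - c)) := by
  have h1 : MU fun y => X a H n (upd n s y) + -c :=
    ((hH.free ha hn.le).comp (gro_upd n s)).add (ML.const (-c)).mu
  simpa only [sub_eq_add_neg] using h1.exp (ha.pos n hn).le

lemma ineq_exp_upper (ha : Exps R a) (hH : ML H) (hH' : ML H') (hn : n ≤ R) (s : St R Y) :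
    Real.exp (X a H' n s - X a H n s) ≤ E a H n (fun t => Real.exp (H' t - H t)) s := by
  induction n generalizing s with
  | zero => simp [X_zero, E_zero]
  | succ n ih =>
    have hn' : n < R := hn
    have hα := ha.pos n hn'
    have hα1 : a n ≤ 1 := ha.zero ▸ ha.anti (Nat.zero_le n)
    have hw := ineq_weight_me ha hH.mu hn' s (X a H (n + 1) s)
    have hw' := ineq_weight_me ha hH'.mu hn' s (X a H' (n + 1) s)
    have he : ME fun y => E a H n (fun t => Real.exp (H' t - H t)) (upd n s y) :=
      (ME.cond ha hH (hH'.sub hH).exp hn'.le).comp (gro_upd n s)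
    have h1 := integral_weight ha hH.mu hn' s
    have h1' := integral_weight ha hH'.mu hn' s
    rw [E_succ]
    set A := X a H (n + 1) s
    set A' := X a H' (n + 1) s
    have key := integral_mono hw'.integrable
      ((((he.mul hw).const_mul (a n * Real.exp (A - A'))).add (hw.const_mul (1 - a n))).integrable)
      (fun y => by
        have h2 := ih hn'.le (upd n s y)
        have h3 := ineq_conv hα.le hα1 (X a H' n (upd n s y) - X a H n (upd n s y) + (A - A'))
        have h4 : Real.exp (a n * (X a H' n (upd n s y) - A')) =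
            Real.exp (a n * (X a H' n (upd n s y) - X a H n (upd n s y) + (A - A'))) *
              Real.exp (a n * (X a H n (upd n s y) - A)) := by
          rw [← Real.exp_add]; congr 1; ring
        have h5 := (Real.exp_pos (a n * (X a H n (upd n s y) - A))).le
        have h6 := mul_le_mul_of_nonneg_left h2 (mul_pos hα (Real.exp_pos (A - A'))).le
        rw [Real.exp_add] at h3
        dsimp only
        rw [h4]
        nlinarith [mul_le_mul_of_nonneg_right h3 h5, mul_le_mul_of_nonneg_right h6 h5])
    rw [integral_add ((he.mul hw).const_mul _).integrable (hw.const_mul _).integrable,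
      integral_const_mul, integral_const_mul, h1, h1'] at key
    have h7 : 1 ≤ Real.exp (A - A') * ∫ y, E a H n (fun t => Real.exp (H' t - H t)) (upd n s y) *
        Real.exp (a n * (X a H n (upd n s y) - A)) ∂Lev.μ := by
      refine le_of_mul_le_mul_left ?_ hα
      linarith
    have h8 := mul_le_mul_of_nonneg_left h7 (Real.exp_pos (A' - A)).le
    rwa [mul_one, ← mul_assoc, ← Real.exp_add, show A' - A + (A - A') = 0 by ring, Real.exp_zero,
      one_mul] at h8

lemma ineq_exp_lower (ha : Exps R a) (hH : ML H) (hH' : ML H') (hn : n ≤ R) {m : ℝ} (hm : 0 < m)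
    (hma : ∀ i < n, m ≤ a i) (s : St R Y) :
    E a H n (fun t => Real.exp (m * (H' t - H t))) s ≤ Real.exp (m * (X a H' n s - X a H n s)) := by
  induction n generalizing s with
  | zero => simp [X_zero, E_zero]
  | succ n ih =>
    have hn' : n < R := hn
    have hα := ha.pos n hn'
    have hθ0 : 0 ≤ m / a n := (div_pos hm hα).le
    have hθ1 : m / a n ≤ 1 := (div_le_one hα).2 (hma n (Nat.lt_succ_self n))
    have hw := ineq_weight_me ha hH.mu hn' s (X a H (n + 1) s)
    have hw' := ineq_weight_me ha hH'.mu hn' s (X a H' (n + 1) s)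
    have he : ME fun y => E a H n (fun t => Real.exp (m * (H' t - H t))) (upd n s y) :=
      (ME.cond ha hH ((hH'.sub hH).const_mul m).exp hn'.le).comp (gro_upd n s)
    have h1 := integral_weight ha hH.mu hn' s
    have h1' := integral_weight ha hH'.mu hn' s
    rw [E_succ]
    set A := X a H (n + 1) s
    set A' := X a H' (n + 1) s
    refine le_trans (integral_mono (he.mul hw).integrable
      (((hw'.const_mul (m / a n)).add (hw.const_mul (1 - m / a n))).const_mul
        (Real.exp (m * (A' - A)))).integrable fun y => ?_) (le_of_eq ?_)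
    · have h2 := ih hn'.le (fun i hi => hma i (hi.trans (Nat.lt_succ_self n))) (upd n s y)
      have h3 := ineq_conv hθ0 hθ1 (a n * (X a H' n (upd n s y) - X a H n (upd n s y) + (A - A')))
      have h4 : Real.exp (a n * (X a H' n (upd n s y) - A')) =
          Real.exp (a n * (X a H' n (upd n s y) - X a H n (upd n s y) + (A - A'))) *
            Real.exp (a n * (X a H n (upd n s y) - A)) := by
        rw [← Real.exp_add]; congr 1; ring
      have h5 := (Real.exp_pos (a n * (X a H n (upd n s y) - A))).le
      have h6 : Real.exp (m * (X a H' n (upd n s y) - X a H n (upd n s y))) =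
          Real.exp (m * (A' - A)) * Real.exp (m / a n *
            (a n * (X a H' n (upd n s y) - X a H n (upd n s y) + (A - A')))) := by
        rw [← Real.exp_add]; congr 1; field_simp; ring
      have h7 := mul_le_mul_of_nonneg_left h3 (Real.exp_pos (m * (A' - A))).le
      dsimp only
      rw [h4]
      rw [h6] at h2
      nlinarith [mul_le_mul_of_nonneg_right (h2.trans h7) h5]
    · rw [integral_const_mul, integral_add (hw'.const_mul _).integrable (hw.const_mul _).integrable,
        integral_const_mul, integral_const_mul, h1, h1']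
      ring

lemma ineq_E_exp_pos (ha : Exps R a) (hH : ML H) (hn : n ≤ R) (hφ : ML φ) (s : St R Y) :
    0 < E a H n (fun t => Real.exp (φ t)) s := by
  have := Pm_prob ha hH hn s
  rw [E_eq ha hH hn hφ.exp]
  exact integral_exp_pos (Pm_int ha hH hn hφ.exp s)

lemma ineq_EE_jensen (ha : Exps R a) (hH : ML H) (hφ : ML φ) :
    Real.exp (EE a H φ) ≤ EE a H fun t => Real.exp (φ t) := by
  set c := EE a H φ with hc
  have h1 : EE a H (fun t => Real.exp c * (φ t + (1 - c))) = Real.exp c := by
    rw [EE_const_mul, EE_add ha hH hφ.me (ME.const _), EE_const ha hH, ← hc]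
    ring
  rw [← h1]
  refine EE_mono ha hH ((hφ.me.add (ME.const _)).const_mul _) hφ.exp fun t => ?_
  have h2 := Real.add_one_le_exp (φ t - c)
  have h3 : Real.exp (φ t) = Real.exp c * Real.exp (φ t - c) := by
    rw [← Real.exp_add]; congr 1; ring
  rw [h3]
  exact mul_le_mul_of_nonneg_left (by linarith) (Real.exp_pos c).le

lemma X_mono (ha : Exps R a) (hH : MU H) (hH' : MU H') (h : ∀ s, H s ≤ H' s) (hn : n ≤ R)
    (s : St R Y) : X a H n s ≤ X a H' n s := by
  induction n generalizing s with
  | zero => simpa [X_zero] using h s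
  | succ n ih =>
    have hn' : n < R := hn
    have hα := ha.pos n hn'
    rw [X_succ, X_succ]
    exact PM_mono hα (((hH.free ha hn'.le).comp (gro_upd n s)).exp hα.le).integrable
      (((hH'.free ha hn'.le).comp (gro_upd n s)).exp hα.le).integrable fun y => ih hn'.le _
lemma X_add_const (ha : Exps R a) (hH : MU H) (c : ℝ) (hn : n ≤ R) (s : St R Y) :
    X a (fun t => H t + c) n s = X a H n s + c := by
  induction n generalizing s with
  | zero => simp [X_zero]
  | succ n ih =>
    have hn' : n < R := hn
    have hα := ha.pos n hn'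
    rw [X_succ, X_succ, ← PM_add_const hα
      (((hH.free ha hn'.le).comp (gro_upd n s)).exp hα.le).integrable]
    simp only [ih hn'.le]
lemma X_jensen (ha : Exps R a) (hH : ML H) (hH' : MU H') (hn : n ≤ R) (s : St R Y) :
    X a H n s + E a H n (fun t => H' t - H t) s ≤ X a H' n s := by
  induction n generalizing s with
  | zero => simp [X_zero, E_zero]
  | succ n ih =>
    have hn' : n < R := hn
    have hα := ha.pos n hn'
    have hw := ineq_weight_me ha hH.mu hn' s (X a H (n + 1) s)
    have hw' := ineq_weight_me ha hH' hn' s (X a H' (n + 1) s)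
    have he : ME fun y => E a H n (fun t => H' t - H t) (upd n s y) :=
      (ME.cond ha hH (hH'.me.sub hH.me) hn'.le).comp (gro_upd n s)
    have h1 := integral_weight ha hH.mu hn' s
    have h1' := integral_weight ha hH' hn' s
    rw [E_succ]
    set A := X a H (n + 1) s
    set A' := X a H' (n + 1) s
    have key := integral_mono
      ((((he.mul hw).const_mul (a n)).add (hw.const_mul (1 + a n * (A - A')))).integrable)
      hw'.integrable
      (fun y => by
        have h2 := ih hn'.le (upd n s y)
        have h3 := Real.add_one_le_exp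
          (a n * (X a H' n (upd n s y) - X a H n (upd n s y) + (A - A')))
        have h4 : Real.exp (a n * (X a H' n (upd n s y) - A')) =
            Real.exp (a n * (X a H' n (upd n s y) - X a H n (upd n s y) + (A - A'))) *
              Real.exp (a n * (X a H n (upd n s y) - A)) := by
          rw [← Real.exp_add]; congr 1; ring
        have h5 := (Real.exp_pos (a n * (X a H n (upd n s y) - A))).le
        have h6 := mul_le_mul_of_nonneg_left h2 hα.le
        have h7 : a n * E a H n (fun t => H' t - H t) (upd n s y) + (1 + a n * (A - A')) ≤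
            Real.exp (a n * (X a H' n (upd n s y) - X a H n (upd n s y) + (A - A'))) := by
          linarith
        dsimp only
        rw [h4]
        nlinarith [mul_le_mul_of_nonneg_right h7 h5])
    rw [integral_add ((he.mul hw).const_mul _).integrable (hw.const_mul _).integrable,
      integral_const_mul, integral_const_mul, h1, h1'] at key
    refine le_of_mul_le_mul_left ?_ hα
    linarith
lemma X_exp_upper (ha : Exps R a) (hH : ML H) (hH' : ML H') (hn : n ≤ R) (s : St R Y) :
    X a H' n s ≤ X a H n s + Real.log (E a H n (fun t => Real.exp (H' t - H t)) s) := by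
  have h := ineq_exp_upper ha hH hH' hn s
  have := (Real.le_log_iff_exp_le ((Real.exp_pos _).trans_le h)).2 h
  linarith
lemma X_exp_lower (ha : Exps R a) (hH : ML H) (hH' : ML H') (hn : n ≤ R) {m : ℝ} (hm : 0 < m)
    (hma : ∀ i < n, m ≤ a i) (s : St R Y) :
    X a H n s + m⁻¹ * Real.log (E a H n (fun t => Real.exp (m * (H' t - H t))) s) ≤ X a H' n s := by
  have h := ineq_exp_lower ha hH hH' hn hm hma s
  have h1 := (Real.log_le_iff_le_exp
    (ineq_E_exp_pos ha hH hn ((hH'.sub hH).const_mul m) s)).2 h
  have h2 := (inv_mul_le_iff₀ hm).2 h1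
  linarith

lemma val_mono (ha : Exps R a) (hH : MU H) (hH' : MU H') (h : ∀ s, H s ≤ H' s) :
    val a H ≤ val a H' :=
  X_mono ha hH hH' h le_rfl _
lemma val_add_const (ha : Exps R a) (hH : MU H) (c : ℝ) :
    val a (fun t => H t + c) = val a H + c :=
  X_add_const ha hH c le_rfl _
lemma val_const (ha : Exps R a) (c : ℝ) : val a (fun _ : St R Y => c) = c := by
  have : ∀ n ≤ R, ∀ s : St R Y, X a (fun _ : St R Y => c) n s = c := by
    intro n
    induction n with
    | zero => intro _ s; simp [X_zero]
    | succ n ih =>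
      intro hn s
      have hn' : n < R := hn
      rw [X_succ]
      simp only [ih hn'.le]
      exact PM_const (ha.pos n hn') c
  exact this R le_rfl _
lemma val_jensen (ha : Exps R a) (hH : ML H) (hH' : MU H') :
    val a H + EE a H (fun t => H' t - H t) ≤ val a H' :=
  X_jensen ha hH hH' le_rfl _
/-- Convexity along a line. -/
lemma val_line (ha : Exps R a) (hH : ML H) (hφ : ML φ) (t : ℝ) :
    val a H + t * EE a H φ ≤ val a fun s => H s + t * φ s := by
  have h := val_jensen ha hH (hH.add (hφ.const_mul t)).mu
  simp only [add_sub_cancel_left] at h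
  rwa [EE_const_mul] at h

/-- Second-order Taylor bound for a small bounded perturbation: with `z = φ - EE φ`, `|z| ≤ 2B ≤ 1`,
`exp z ≤ 1 + z + z²` and `log (1 + u) ≤ u` in `X_exp_upper`. -/
lemma val_taylor_bdd (ha : Exps R a) (hH : ML H) (hφ : Measurable φ) {B : ℝ} (hB : B ≤ 1 / 2)
    (h : ∀ s, |φ s| ≤ B) :
    |val a (fun s => H s + φ s) - val a H - EE a H φ| ≤ 4 * B ^ 2 := by
  have hφ' : ML φ := ML.of_bdd hφ B h
  have h1 := val_jensen ha hH (hH.add hφ').mu
  have h2 : val a (fun s => H s + φ s) ≤ val a H + Real.log (EE a H fun t =>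
      Real.exp (H t + φ t - H t)) := X_exp_upper ha hH (hH.add hφ') le_rfl _
  simp only [add_sub_cancel_left] at h1 h2
  have hc : |EE a H φ| ≤ B := abs_E_le_const ha hH le_rfl hφ h _
  set c := EE a H φ with hcdef
  have h3 : EE a H (fun t => Real.exp (φ t)) ≤ Real.exp (c + 4 * B ^ 2) := by
    have h4 : EE a H (fun t => Real.exp c * (φ t + (1 - c + 4 * B ^ 2))) =
        Real.exp c * (4 * B ^ 2 + 1) := by
      rw [EE_const_mul, EE_add ha hH hφ'.me (ME.const _), EE_const ha hH, ← hcdef]
      ring
    refine le_trans (EE_mono ha hH hφ'.exp ((hφ'.me.add (ME.const _)).const_mul _) fun t => ?_)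
      (h4.le.trans ?_)
    · have h5 : |φ t - c| ≤ 2 * B := by
        have := abs_sub (φ t) c
        linarith [h t]
      have h6 := (abs_le.1 (Real.abs_exp_sub_one_sub_id_le (x := φ t - c) (by linarith))).2
      have h7 : (φ t - c) ^ 2 ≤ (2 * B) ^ 2 := by
        rw [← sq_abs]
        exact pow_le_pow_left₀ (abs_nonneg _) h5 2
      have h8 : Real.exp (φ t) = Real.exp c * Real.exp (φ t - c) := by
        rw [← Real.exp_add]; congr 1; ring
      rw [h8]
      exact mul_le_mul_of_nonneg_left (by nlinarith) (Real.exp_pos c).le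
    · rw [Real.exp_add]
      exact mul_le_mul_of_nonneg_left (Real.add_one_le_exp _) (Real.exp_pos c).le
  have h9 := (Real.log_le_iff_le_exp (ineq_E_exp_pos ha hH le_rfl hφ' Lev.pt)).2 h3
  change Real.log (EE a H fun t => Real.exp (φ t)) ≤ _ at h9
  rw [abs_le]
  constructor
  · nlinarith [sq_nonneg B]
  · linarith

/-- Concentration from a bound on a second difference.  With `z = φ - EE φ`, `X_exp_lower` gives
`val (H ± φ) - val H ∓ EE φ ≥ m⁻¹ log EE exp (± m z) ≥ 0` (Jensen), the two left sides add up to at
most `K`, so `EE exp (m |z|) ≤ 2 exp (m K)` and Jensen gives the claim. -/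
lemma conc_of_second_diff (ha : Exps R a) (hH : ML H) (hφ : ML φ) {m K : ℝ} (hm : 0 < m)
    (hma : ∀ i < R, m ≤ a i)
    (hK : val a (fun s => H s + φ s) + val a (fun s => H s - φ s) - 2 * val a H ≤ K) :
    EE a H (fun s => |φ s - EE a H φ|) ≤ K + m⁻¹ * Real.log 2 := by
  have hp : EE a H (fun t => Real.exp (m * (H t + φ t - H t))) ≤
      Real.exp (m * (val a (fun s => H s + φ s) - val a H)) :=
    ineq_exp_lower ha hH (hH.add hφ) le_rfl hm hma _
  have hq : EE a H (fun t => Real.exp (m * (H t - φ t - H t))) ≤
      Real.exp (m * (val a (fun s => H s - φ s) - val a H)) :=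
    ineq_exp_lower ha hH (hH.sub hφ) le_rfl hm hma _
  have jp := val_jensen ha hH (hH.add hφ).mu
  have jq := val_jensen ha hH (hH.sub hφ).mu
  simp only [add_sub_cancel_left, sub_sub_cancel_left] at hp hq jp jq
  have hneg : EE a H (fun t => -φ t) = -EE a H φ := E_neg a H φ R _
  rw [hneg] at jq
  set c := EE a H φ with hc
  have hz : ML fun s => m * |φ s - c| := (hφ.sub (ML.const c)).abs.const_mul m
  have h1 := ineq_EE_jensen ha hH hz
  rw [EE_const_mul] at h1
  have mp : ME fun t => Real.exp (m * φ t) := (hφ.const_mul m).exp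
  have mq : ME fun t => Real.exp (m * -φ t) := (hφ.neg.const_mul m).exp
  have h2 := EE_mono ha hH hz.exp
    ((mp.const_mul (Real.exp (-(m * c)))).add (mq.const_mul (Real.exp (m * c)))) fun t => by
      rw [← Real.exp_add, ← Real.exp_add]
      rcases abs_cases (φ t - c) with h | h
      · rw [h.1, show -(m * c) + m * φ t = m * (φ t - c) by ring]
        linarith [Real.exp_pos (m * c + m * -φ t)]
      · rw [h.1, show m * c + m * -φ t = m * -(φ t - c) by ring]
        linarith [Real.exp_pos (-(m * c) + m * φ t)]
  rw [EE_add ha hH (mp.const_mul _) (mq.const_mul _), EE_const_mul, EE_const_mul] at h2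
  have h3 : Real.exp (-(m * c)) * EE a H (fun t => Real.exp (m * φ t)) ≤ Real.exp (m * K) := by
    refine (mul_le_mul_of_nonneg_left hp (Real.exp_pos _).le).trans ?_
    rw [← Real.exp_add, Real.exp_le_exp]
    have : val a (fun s => H s + φ s) - val a H - c ≤ K := by linarith
    nlinarith [mul_le_mul_of_nonneg_left this hm.le]
  have h4 : Real.exp (m * c) * EE a H (fun t => Real.exp (m * -φ t)) ≤ Real.exp (m * K) := by
    refine (mul_le_mul_of_nonneg_left hq (Real.exp_pos _).le).trans ?_
    rw [← Real.exp_add, Real.exp_le_exp]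
    have : val a (fun s => H s - φ s) - val a H + c ≤ K := by linarith
    nlinarith [mul_le_mul_of_nonneg_left this hm.le]
  have h5 : Real.exp (m * EE a H fun s => |φ s - c|) ≤ Real.exp (m * K + Real.log 2) := by
    rw [Real.exp_add, Real.exp_log two_pos]
    linarith
  rw [Real.exp_le_exp] at h5
  refine le_of_mul_le_mul_left ?_ hm
  rw [mul_add, ← mul_assoc, mul_inv_cancel₀ hm.ne', one_mul]
  exact h5

/-- Two convex functions that are close have close slopes where one of them has a small second
difference (`val_line` four times). -/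
lemma slope_compare {Y' : Type} [MeasurableSpace Y'] [Lev Y'] {H₁ φ₁ : St R Y' → ℝ} (ha : Exps R a)
    (hH : ML H) (hφ : ML φ) (hH₁ : ML H₁) (hφ₁ : ML φ₁) {δ K C : ℝ} (hδ : 0 < δ)
    (hK : val a (fun s => H s + δ * φ s) + val a (fun s => H s + (-δ) * φ s) - 2 * val a H ≤ K)
    (h0 : |val a H₁ - val a H| ≤ C)
    (hp : |val a (fun s => H₁ s + δ * φ₁ s) - val a (fun s => H s + δ * φ s)| ≤ C)
    (hm : |val a (fun s => H₁ s + (-δ) * φ₁ s) - val a (fun s => H s + (-δ) * φ s)| ≤ C) :
    |EE a H₁ φ₁ - EE a H φ| ≤ (K + 2 * C) / δ := by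
  have a1 := val_line ha hH hφ δ
  have a2 := val_line ha hH hφ (-δ)
  have a3 := val_line ha hH₁ hφ₁ δ
  have a4 := val_line ha hH₁ hφ₁ (-δ)
  rw [abs_le] at h0 hp hm
  rw [le_div_iff₀ hδ, ← abs_of_pos hδ, ← abs_mul, abs_le]
  constructor <;> nlinarith [h0.1, h0.2, hp.1, hp.2, hm.1, hm.2]

end Crest.Agent.R164
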