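import Crest.Agent.R164.CasPull

/-!
# R164 / CasProd: independent cascades add

Induction on `n`; `integral_prod_mul` resp. `integral_fintype_prod_eq_prod`, `Real.log_mul`/
`Real.log_prod` with positivity of each factor (`MU.free`, `MU.exp`, `gro_upd`, `ME.integrable`,
`integral_exp_pos`), and `integral_weight` for the `E` statements.
-/

set_option autoImplicit false

open MeasureTheory ProbabilityTheory Finset

namespace Crest.Agent.R164

variable {Y Y' : Type} [MeasurableSpace Y] [Lev Y] [MeasurableSpace Y'] [Lev Y'] {R : ℕ}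
  {a : ℕ → ℝ} {n : ℕ}

/-- First components. -/
def fS (s : St R (Y × Y')) : St R Y := fun i => (s i).1
/-- Second components. -/
def sS (s : St R (Y × Y')) : St R Y' := fun i => (s i).2

lemma gro_fS : Gro (fS : St R (Y × Y') → St R Y) :=
  Gro.lift (τ := fun _ (p : Y × Y') => p.1) fun _ => Gro.fst
lemma gro_sS : Gro (sS : St R (Y × Y') → St R Y') :=
  Gro.lift (τ := fun _ (p : Y × Y') => p.2) fun _ => Gro.snd

omit [MeasurableSpace Y] [Lev Y] [MeasurableSpace Y'] [Lev Y'] in
lemma fS_upd (i : ℕ) (s : St R (Y × Y')) (y : Y × Y') : fS (upd i s y) = upd i (fS s) y.1 := by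
  funext j
  simp only [fS, upd]
  split_ifs <;> rfl

omit [MeasurableSpace Y] [Lev Y] [MeasurableSpace Y'] [Lev Y'] in
lemma sS_upd (i : ℕ) (s : St R (Y × Y')) (y : Y × Y') : sS (upd i s y) = upd i (sS s) y.2 := by
  funext j
  simp only [sS, upd]
  split_ifs <;> rfl

omit [MeasurableSpace Y] [Lev Y] in
lemma prodAux_pi_upd {ι : Type} (i : ℕ) (s : St R (ι → Y)) (y : ι → Y) (r : ι) :
    (fun j => upd i s y j r) = upd i (fun j => s j r) (y r) := by
  funext j
  simp only [upd]
  split_ifs <;> rfl

/-- The one-step partition function is positive. -/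
lemma prodAux_step_pos {H : St R Y → ℝ} (ha : Exps R a) (hH : MU H) {i : ℕ} (hi : i < R) (s : St R Y) :
    0 < ∫ y, Real.exp (a i * X a H i (upd i s y)) ∂Lev.μ := by
  have h1 : ME fun y => Real.exp (a i * X a H i (upd i s y)) :=
    ((hH.free ha hi.le).comp (gro_upd i s)).exp (ha.pos i hi).le
  exact integral_exp_pos h1.integrable

variable {H ψ : St R Y → ℝ} {H' ψ' : St R Y' → ℝ}

lemma X_prod (ha : Exps R a) (hH : MU H) (hH' : MU H') (hn : n ≤ R) (s : St R (Y × Y')) :
    X a (fun t => H (fS t) + H' (sS t)) n s = X a H n (fS s) + X a H' n (sS s) := by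
  induction n generalizing s with
  | zero => simp only [X_zero]
  | succ i ih =>
    have hi : i < R := hn
    rw [X_succ, X_succ, X_succ]
    simp only [ih hi.le, fS_upd, sS_upd, PM, mul_add, Real.exp_add]
    rw [μ_prod, integral_prod_mul (fun y => Real.exp (a i * X a H i (upd i (fS s) y)))
      (fun y => Real.exp (a i * X a H' i (upd i (sS s) y))),
      Real.log_mul (prodAux_step_pos ha hH hi _).ne' (prodAux_step_pos ha hH' hi _).ne', mul_add]

lemma val_prod (ha : Exps R a) (hH : MU H) (hH' : MU H') :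
    val a (fun t : St R (Y × Y') => H (fS t) + H' (sS t)) = val a H + val a H' := by
  rw [val, X_prod ha hH hH' le_rfl, X_top, X_top]

lemma E_prod_fst (ha : Exps R a) (hH : MU H) (hH' : MU H') (hn : n ≤ R) (ψ : St R Y → ℝ)
    (s : St R (Y × Y')) :
    E a (fun t => H (fS t) + H' (sS t)) n (fun t => ψ (fS t)) s = E a H n ψ (fS s) := by
  induction n generalizing s with
  | zero => simp only [E_zero]
  | succ i ih =>
    have hi : i < R := hn
    rw [E_succ, E_succ]
    have key : ∀ y : Y × Y',
        E a (fun t => H (fS t) + H' (sS t)) i (fun t => ψ (fS t)) (upd i s y) *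
          Real.exp (a i * (X a (fun t => H (fS t) + H' (sS t)) i (upd i s y) -
            X a (fun t => H (fS t) + H' (sS t)) (i + 1) s)) =
        (E a H i ψ (upd i (fS s) y.1) *
          Real.exp (a i * (X a H i (upd i (fS s) y.1) - X a H (i + 1) (fS s)))) *
          Real.exp (a i * (X a H' i (upd i (sS s) y.2) - X a H' (i + 1) (sS s))) := by
      intro y
      rw [ih hi.le, X_prod ha hH hH' hi.le, X_prod ha hH hH' hn, fS_upd, sS_upd, mul_assoc,
        ← Real.exp_add]
      congr 2
      ring
    simp only [key]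
    rw [μ_prod, integral_prod_mul (fun y => E a H i ψ (upd i (fS s) y) *
          Real.exp (a i * (X a H i (upd i (fS s) y) - X a H (i + 1) (fS s))))
      (fun y => Real.exp (a i * (X a H' i (upd i (sS s) y) - X a H' (i + 1) (sS s)))),
      integral_weight ha hH' hi, mul_one]

lemma E_prod_snd (ha : Exps R a) (hH : MU H) (hH' : MU H') (hn : n ≤ R) (ψ' : St R Y' → ℝ)
    (s : St R (Y × Y')) :
    E a (fun t => H (fS t) + H' (sS t)) n (fun t => ψ' (sS t)) s = E a H' n ψ' (sS s) := by
  induction n generalizing s with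
  | zero => simp only [E_zero]
  | succ i ih =>
    have hi : i < R := hn
    rw [E_succ, E_succ]
    have key : ∀ y : Y × Y',
        E a (fun t => H (fS t) + H' (sS t)) i (fun t => ψ' (sS t)) (upd i s y) *
          Real.exp (a i * (X a (fun t => H (fS t) + H' (sS t)) i (upd i s y) -
            X a (fun t => H (fS t) + H' (sS t)) (i + 1) s)) =
        Real.exp (a i * (X a H i (upd i (fS s) y.1) - X a H (i + 1) (fS s))) *
        (E a H' i ψ' (upd i (sS s) y.2) *
          Real.exp (a i * (X a H' i (upd i (sS s) y.2) - X a H' (i + 1) (sS s)))) := by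
      intro y
      rw [ih hi.le, X_prod ha hH hH' hi.le, X_prod ha hH hH' hn, fS_upd, sS_upd, mul_left_comm,
        ← Real.exp_add]
      congr 2
      ring
    simp only [key]
    rw [μ_prod, integral_prod_mul
      (fun y => Real.exp (a i * (X a H i (upd i (fS s) y) - X a H (i + 1) (fS s))))
      (fun y => E a H' i ψ' (upd i (sS s) y) *
          Real.exp (a i * (X a H' i (upd i (sS s) y) - X a H' (i + 1) (sS s)))),
      integral_weight ha hH hi, one_mul]

lemma EE_prod_fst (ha : Exps R a) (hH : MU H) (hH' : MU H') (ψ : St R Y → ℝ) :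
    EE a (fun t : St R (Y × Y') => H (fS t) + H' (sS t)) (fun t => ψ (fS t)) = EE a H ψ := by
  rw [EE, E_prod_fst ha hH hH' le_rfl, E_top]

lemma EE_prod_snd (ha : Exps R a) (hH : MU H) (hH' : MU H') (ψ' : St R Y' → ℝ) :
    EE a (fun t : St R (Y × Y') => H (fS t) + H' (sS t)) (fun t => ψ' (sS t)) = EE a H' ψ' := by
  rw [EE, E_prod_snd ha hH hH' le_rfl, E_top]

lemma val_fS (hH : Measurable H) (a : ℕ → ℝ) :
    val a (fun t : St R (Y × Y') => H (fS t)) = val a H :=
  val_pull (τ := fun _ (p : Y × Y') => p.1) (fun _ => measurePreserving_fst) hH a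

lemma val_sS (hH : Measurable H') (a : ℕ → ℝ) :
    val a (fun t : St R (Y × Y') => H' (sS t)) = val a H' :=
  val_pull (τ := fun _ (p : Y × Y') => p.2) (fun _ => measurePreserving_snd) hH a

lemma X_pi {ι : Type} [Fintype ι] {G : ι → St R Y → ℝ} (ha : Exps R a) (hG : ∀ r, MU (G r))
    (hn : n ≤ R) (s : St R (ι → Y)) :
    X a (fun t : St R (ι → Y) => ∑ r, G r fun i => t i r) n s = ∑ r, X a (G r) n fun i => s i r := by
  induction n generalizing s with
  | zero => simp only [X_zero]
  | succ i ih =>
    have hi : i < R := hn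
    simp only [X_succ]
    simp only [ih hi.le, prodAux_pi_upd, PM, Finset.mul_sum, Real.exp_sum]
    rw [μ_pi, integral_fintype_prod_eq_prod
      (fun r y => Real.exp (a i * X a (G r) i (upd i (fun j => s j r) y))),
      Real.log_prod fun r _ => (prodAux_step_pos ha (hG r) hi _).ne', Finset.mul_sum]

lemma val_pi {ι : Type} [Fintype ι] {G : ι → St R Y → ℝ} (ha : Exps R a) (hG : ∀ r, MU (G r)) :
    val a (fun t : St R (ι → Y) => ∑ r, G r fun i => t i r) = ∑ r, val a (G r) := by
  rw [val, X_pi ha hG le_rfl]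
  simp only [X_top]

end Crest.Agent.R164
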