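import Crest.Agent.R164.CasRep

/-!
# R164 / CasPull: pull-back along measure preserving maps, parameters at the outermost level,
insertion of dummy levels

`X_pull`, `E_pull`: induction with `lift τ (upd i s y) = upd i (lift τ s) (τ i y)` and
`MeasurePreserving.integral_comp'`/`integral_map` (only measurability is needed:
`measurable_X`, `measurable_E`, `measurable_upd`).
`val_split`: for `n ≤ R - 1`, `X a Ĥ n s = X a (H (s lst).1) n (snd ∘ s)` (the first components of
the slots `< n` are dummy: `integral_fun_snd`/`measurePreserving_snd`); at the last step use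
`integral_prod` (integrability from `ML.free`, `ML.exp`) and `exp_PM`.
`X_emb`, `E_emb`: induction on `i'`; if `i' = e j` then `cnt e i' = j`, `cnt e (i'+1) = j + 1` and
`(upd i' s y) ∘ e = upd j (s ∘ e) y`; otherwise `cnt` does not change, `(upd i' s y) ∘ e = s ∘ e`
and the step is `PM_const` (for `E`: the weight is `exp 0`).
-/

set_option autoImplicit false

open MeasureTheory ProbabilityTheory Finset

namespace Crest.Agent.R164

variable {Y Y' P : Type} [MeasurableSpace Y] [Lev Y] [MeasurableSpace Y'] [Lev Y']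
  [MeasurableSpace P] [Lev P] {R R' : ℕ} {a a' : ℕ → ℝ}

/-- A slotwise map of states. -/
def lift (τ : Fin R → Y → Y') (s : St R Y) : St R Y' := fun i => τ i (s i)

section pull
variable {τ : Fin R → Y → Y'} {H ψ : St R Y' → ℝ}

lemma pull_step (hτ : ∀ i, MeasurePreserving (τ i) Lev.μ Lev.μ) {G : St R Y' → ℝ}
    (hG : Measurable G) (i : ℕ) (s : St R Y) :
    ∫ y, G (lift τ (upd i s y)) ∂Lev.μ = ∫ y, G (upd i (lift τ s) y) ∂Lev.μ := by
  rcases lt_or_ge i R with hi | hi
  · have e : ∀ y, lift τ (upd i s y) = upd i (lift τ s) (τ ⟨i, hi⟩ y) := fun y => by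
      ext j
      simp only [lift, upd]
      split_ifs with h
      · obtain rfl : j = ⟨i, hi⟩ := Fin.ext h
        rfl
      · rfl
    have hm : Measurable fun y => G (upd i (lift τ s) y) :=
      hG.comp ((measurable_upd i).comp measurable_prodMk_left)
    simp only [e]
    rw [← integral_map (hτ ⟨i, hi⟩).measurable.aemeasurable hm.aestronglyMeasurable,
      (hτ ⟨i, hi⟩).map_eq]
  · simp [upd_of_le hi]

lemma X_pull (hτ : ∀ i, MeasurePreserving (τ i) Lev.μ Lev.μ) (hH : Measurable H) (a : ℕ → ℝ)
    (n : ℕ) (s : St R Y) : X a (fun t => H (lift τ t)) n s = X a H n (lift τ s) := by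
  induction n generalizing s with
  | zero => rfl
  | succ n ih =>
    rw [X_succ, X_succ]
    simp only [ih, PM]
    rw [pull_step hτ (G := fun t => Real.exp (a n * X a H n t))
      ((measurable_X a hH n).const_mul _).exp]
lemma E_pull (hτ : ∀ i, MeasurePreserving (τ i) Lev.μ Lev.μ) (hH : Measurable H)
    (hψ : Measurable ψ) (a : ℕ → ℝ) (n : ℕ) (s : St R Y) :
    E a (fun t => H (lift τ t)) n (fun t => ψ (lift τ t)) s = E a H n ψ (lift τ s) := by
  induction n generalizing s with
  | zero => rfl
  | succ n ih =>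
    rw [E_succ, E_succ]
    simp only [ih, X_pull hτ hH]
    exact pull_step hτ (G := fun t => E a H n ψ t *
      Real.exp (a n * (X a H n t - X a H (n + 1) (lift τ s))))
      ((measurable_E a hH hψ n).mul (((measurable_X a hH n).sub_const _).const_mul _).exp) n s
lemma val_pull (hτ : ∀ i, MeasurePreserving (τ i) Lev.μ Lev.μ) (hH : Measurable H) (a : ℕ → ℝ) :
    val a (fun t => H (lift τ t)) = val a H := by
  rw [val, X_pull hτ hH, X_top]
lemma EE_pull (hτ : ∀ i, MeasurePreserving (τ i) Lev.μ Lev.μ) (hH : Measurable H)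
    (hψ : Measurable ψ) (a : ℕ → ℝ) :
    EE a (fun t => H (lift τ t)) (fun t => ψ (lift τ t)) = EE a H ψ := by
  rw [EE, E_pull hτ hH hψ, E_top]
end pull

section split
variable [NeZero R] {H : P → St R Y → ℝ}

/-- The cascade whose outermost slot carries the parameter. -/
def par (H : P → St R Y → ℝ) (s : St R (P × Y)) : ℝ := H (s (lst R)).1 fun i => (s i).2

omit [Lev P] [NeZero R] in
lemma pull_meas_par (hH : Measurable fun q : P × St R Y => H q.1 q.2) (a : ℕ → ℝ) (n : ℕ) :
    Measurable fun q : P × St R Y => X a (H q.1) n q.2 := by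
  induction n with
  | zero => exact hH
  | succ n ih =>
    simp only [X_succ, PM]
    have h1 : Measurable fun z : (P × St R Y) × Y => (z.1.1, upd n z.1.2 z.2) :=
      measurable_fst.fst.prodMk ((measurable_upd n).comp (measurable_fst.snd.prodMk measurable_snd))
    have h2 : Measurable fun z : (P × St R Y) × Y =>
        Real.exp (a n * X a (H z.1.1) n (upd n z.1.2 z.2)) := ((ih.comp h1).const_mul _).exp
    exact (h2.stronglyMeasurable.integral_prod_right'.measurable.log).const_mul _

lemma pull_val_eq {Z : Type} [MeasurableSpace Z] [Lev Z] (a : ℕ → ℝ) (K : St R Z → ℝ) :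
    val a K = PM (a (R - 1)) Lev.μ fun y => X a K (R - 1) (upd (R - 1) Lev.pt y) := by
  rw [← X_succ, Nat.sub_add_cancel (NeZero.pos R)]
  rfl

lemma pull_X_par (a : ℕ → ℝ) (H : P → St R Y → ℝ) {n : ℕ} (hn : n ≤ R - 1) (s : St R (P × Y)) :
    X a (par H) n s = X a (H (s (lst R)).1) n fun i => (s i).2 := by
  induction n generalizing s with
  | zero => rfl
  | succ n ih =>
    rw [X_succ, X_succ]
    have e1 : ∀ y, upd n s y (lst R) = s (lst R) := fun y => by
      have : ¬ ((lst R : Fin R) : ℕ) = n := by
        simp only [lst]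
        omega
      exact if_neg this
    have e2 : ∀ y, (fun i => (upd n s y i).2) = upd n (fun i => (s i).2) y.2 := fun y => by
      ext i
      simp only [upd]
      split_ifs <;> rfl
    simp only [ih (by omega : n ≤ R - 1), e1, e2, PM, μ_prod]
    rw [integral_fun_snd fun y => Real.exp (a n * X a (H (s (lst R)).1) n
      (upd n (fun i => (s i).2) y))]
    simp

lemma measurable_val_par (hH : Measurable fun q : P × St R Y => H q.1 q.2) (a : ℕ → ℝ) :
    Measurable fun p => val a (H p) :=   (pull_meas_par hH a R).comp (measurable_id.prodMk measurable_const)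
lemma ml_par (hH : ML fun q : P × St R Y => H q.1 q.2) : ML (par H) :=   hH.comp (τ := fun s : St R (P × Y) => ((s (lst R)).1, fun i => (s i).2))
    (Gro.prodMk (Gro.fst.comp (Gro.apply (lst R))) (Gro.pi fun i => Gro.snd.comp (Gro.apply i)))
lemma ml_of_par (hH : ML fun q : P × St R Y => H q.1 q.2) (p : P) : ML (H p) :=   hH.comp (τ := fun s : St R Y => (p, s))
    (Gro.prodMk ⟨measurable_const, Lev.n p, fun s =>
      le_mul_of_one_le_right (Lev.n_nonneg p) (cls_one_le s)⟩ Gro.id')
theorem val_split (ha : Exps R a) (hH : ML fun q : P × St R Y => H q.1 q.2) :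
    val a (par H) = PM (a (R - 1)) Lev.μ fun p => val a (H p) := by
  have hR : R - 1 < R := Nat.sub_one_lt (NeZero.ne R)
  have hint := ((((ML.free ha (ml_par hH) hR.le).comp (gro_upd (R - 1) Lev.pt)).const_mul
    (a (R - 1))).exp).integrable
  have e : ∀ z : P × Y, X a (par H) (R - 1) (upd (R - 1) Lev.pt z) =
      X a (H z.1) (R - 1) (upd (R - 1) Lev.pt z.2) := fun z => by
    rw [pull_X_par a H le_rfl]
    have e1 : upd (R - 1) (Lev.pt : St R (P × Y)) z (lst R) = z := by
      simp only [upd, lst, if_true]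
    have e2 : (fun i => (upd (R - 1) (Lev.pt : St R (P × Y)) z i).2) =
        upd (R - 1) (Lev.pt : St R Y) z.2 := by
      ext i
      simp only [upd]
      split_ifs <;> rfl
    rw [e1, e2]
  rw [pull_val_eq]
  simp only [e, μ_prod] at hint ⊢
  rw [PM, PM, integral_prod _ hint]
  congr 2
  refine integral_congr_ae (ae_of_all _ fun p => ?_)
  simp only
  rw [pull_val_eq, exp_PM (ha.pos _ hR)]
  exact ((((ML.free ha (ml_of_par hH p) hR.le).comp (gro_upd (R - 1) Lev.pt)).const_mul
    (a (R - 1))).exp).integrable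
end split

section emb
variable {e : Fin R → Fin R'} {H ψ : St R Y → ℝ}

/-- The number of true levels below `i'`. -/
def cnt (e : Fin R → Fin R') (i' : ℕ) : ℕ := (univ.filter fun j => (e j : ℕ) < i').card

lemma cnt_le (e : Fin R → Fin R') (i' : ℕ) : cnt e i' ≤ R := (card_filter_le _ _).trans (by simp)
lemma cnt_top (e : Fin R → Fin R') : cnt e R' = R := by
  simp [cnt]
lemma cnt_apply (he : StrictMono e) (j : Fin R) : cnt e (e j) = j := by
  have : (univ.filter fun k => (e k : ℕ) < e j) = Iio j := by
    ext k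
    simp [he.lt_iff_lt]
  rw [cnt, this, Fin.card_Iio]
lemma cnt_apply_succ (he : StrictMono e) (j : Fin R) : cnt e (e j + 1) = j + 1 := by
  have : (univ.filter fun k => (e k : ℕ) < e j + 1) = Iic j := by
    ext k
    simp [he.le_iff_le]
  rw [cnt, this, Fin.card_Iic]
lemma cnt_succ_of_ne {i' : ℕ} (h : ∀ j, (e j : ℕ) ≠ i') : cnt e (i' + 1) = cnt e i' := by
  unfold cnt
  congr 1
  refine filter_congr fun j _ => ?_
  have := h j
  omega
lemma lt_cnt_iff (he : StrictMono e) (j : Fin R) (i' : ℕ) : (j : ℕ) < cnt e i' ↔ (e j : ℕ) < i' := by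
  constructor
  · intro h
    by_contra hc
    have : (univ.filter fun k => (e k : ℕ) < i') ⊆ Iio j := fun k hk => by
      simp only [mem_filter, mem_univ, true_and] at hk
      rw [mem_Iio, ← he.lt_iff_lt, Fin.lt_def]
      omega
    have := card_le_card this
    rw [Fin.card_Iio] at this
    unfold cnt at h
    omega
  · intro h
    have : Iic j ⊆ univ.filter fun k => (e k : ℕ) < i' := fun k hk => by
      simp only [mem_filter, mem_univ, true_and]
      rw [mem_Iic, ← he.le_iff_le, Fin.le_def] at hk
      omega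
    have := card_le_card this
    rw [Fin.card_Iic] at this
    exact this
omit [MeasurableSpace Y] [Lev Y] in
lemma emb_upd (he : StrictMono e) (j : Fin R) (s : St R' Y) (y : Y) :
    (fun k => upd (e j) s y (e k)) = upd j (fun k => s (e k)) y := by
  ext k
  simp only [upd, Fin.val_inj, he.injective.eq_iff]

omit [MeasurableSpace Y] [Lev Y] in
lemma emb_upd_ne {i' : ℕ} (h : ∀ j, (e j : ℕ) ≠ i') (s : St R' Y) (y : Y) :
    (fun k => upd i' s y (e k)) = fun k => s (e k) := by
  ext k
  simp only [upd, if_neg (h k)]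

lemma cnt_zero (e : Fin R → Fin R') : cnt e 0 = 0 := by simp [cnt]

lemma X_emb (he : StrictMono e) (hea : ∀ j : Fin R, a' (e j) = a j) (hpos : ∀ i < R', 0 < a' i)
    (H : St R Y → ℝ) {i' : ℕ} (hi : i' ≤ R') (s : St R' Y) :
    X a' (fun t => H fun j => t (e j)) i' s = X a H (cnt e i') fun j => s (e j) := by
  induction i' generalizing s with
  | zero => rw [cnt_zero]; rfl
  | succ i' ih =>
    rw [X_succ]
    simp only [ih (by omega : i' ≤ R')]
    by_cases h : ∃ j, (e j : ℕ) = i'
    · obtain ⟨j, rfl⟩ := h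
      rw [cnt_apply he, cnt_apply_succ he, X_succ, hea]
      simp only [emb_upd he]
    · push Not at h
      rw [cnt_succ_of_ne h]
      simp only [emb_upd_ne h]
      exact PM_const (hpos i' (by omega)) _
lemma E_emb (he : StrictMono e) (hea : ∀ j : Fin R, a' (e j) = a j) (hpos : ∀ i < R', 0 < a' i)
    (H ψ : St R Y → ℝ) {i' : ℕ} (hi : i' ≤ R') (s : St R' Y) :
    E a' (fun t => H fun j => t (e j)) i' (fun t => ψ fun j => t (e j)) s =
      E a H (cnt e i') ψ fun j => s (e j) := by
  induction i' generalizing s with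
  | zero => rw [cnt_zero]; rfl
  | succ i' ih =>
    rw [E_succ]
    simp only [ih (by omega : i' ≤ R'), X_emb he hea hpos H hi,
      X_emb he hea hpos H (by omega : i' ≤ R')]
    by_cases h : ∃ j, (e j : ℕ) = i'
    · obtain ⟨j, rfl⟩ := h
      rw [cnt_apply he, cnt_apply_succ he, E_succ, hea]
      simp only [emb_upd he]
    · push Not at h
      rw [cnt_succ_of_ne h]
      simp [emb_upd_ne h]
end emb

end Crest.Agent.R164
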