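import Crest.Agent.R164.CasBas

/-!
# R164 / CasRep: `E a H n · s` is integration against the probability measure `Pm a H n s`

Plan.  (1) By induction on `n`: `s ↦ Pm a H n s` is measurable and for measurable
`f : St → ℝ≥0∞`, `∫⁻ f d(Pm (n+1) s) = ∫⁻ y, ofReal (weight s y) * ∫⁻ f d(Pm n (upd n s y))`
(`Measure.lintegral_bind`, `lintegral_withDensity_eq_lintegral_mul`,
`Measure.measurable_of_measurable_coe`, `Measurable.lintegral_prod_right'`).
(2) For `ψ ≥ 0` in `ME`: `∫⁻ ofReal ψ d(Pm n s) = ofReal (E n ψ s)` and `0 ≤ E n ψ s` by induction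
(`ofReal_integral_eq_lintegral_ofReal`, integrability from `ME.cond`, `gro_upd`, `ME.integrable`).
(3) `E` is additive on `ME` by induction (`integral_add`), then split `ψ = ψ⁺ - ψ⁻`.
The algebraic lemmas follow from the representation; `E_dep_mul` and `E_tower` are direct
inductions (`E_tower`: induct on `n ≥ i`; base case `n = i` is `E_dep` with `dep_E`).
-/

set_option autoImplicit false

open MeasureTheory ProbabilityTheory Finset

namespace Crest.Agent.R164

variable {Y : Type} [MeasurableSpace Y] [Lev Y] {R : ℕ} {a : ℕ → ℝ} {H ψ φ F : St R Y → ℝ} {n : ℕ}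

lemma rep_wmeas (a : ℕ → ℝ) (hH : Measurable H) (i : ℕ) : Measurable fun p : St R Y × Y =>
    ENNReal.ofReal (Real.exp (a i * (X a H i (upd i p.1 p.2) - X a H (i + 1) p.1))) :=
  ((((measurable_X a hH i).comp (measurable_upd i)).sub
    ((measurable_X a hH (i + 1)).comp measurable_fst)).const_mul _).exp.ennreal_ofReal

lemma rep_meas (a : ℕ → ℝ) (hH : Measurable H) (n : ℕ) : Measurable (Pm a H n) := by
  induction n with
  | zero => exact Measure.measurable_dirac
  | succ n ih =>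
    refine Measure.measurable_of_measurable_coe _ fun A hA => ?_
    have h1 : Measurable fun p : St R Y × Y => Pm a H n (upd n p.1 p.2) :=
      ih.comp (measurable_upd n)
    have h2 : Measurable fun p : St R Y × Y => Pm a H n (upd n p.1 p.2) A :=
      (Measure.measurable_coe hA).comp h1
    have e : (fun s => Pm a H (n + 1) s A) = fun s => ∫⁻ y, ENNReal.ofReal
        (Real.exp (a n * (X a H n (upd n s y) - X a H (n + 1) s))) * Pm a H n (upd n s y) A ∂Lev.μ := by
      ext s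
      have h3 : Measurable fun y => Pm a H n (upd n s y) := h1.comp measurable_prodMk_left
      rw [Pm_succ, Measure.bind_apply hA h3.aemeasurable]
      exact lintegral_withDensity_eq_lintegral_mul _
        ((rep_wmeas a hH n).comp measurable_prodMk_left) (h2.comp measurable_prodMk_left)
    rw [e]
    exact ((rep_wmeas a hH n).mul h2).lintegral_prod_right'

lemma rep_lint (a : ℕ → ℝ) (hH : Measurable H) (n : ℕ) (s : St R Y) {f : St R Y → ENNReal}
    (hf : Measurable f) : ∫⁻ t, f t ∂Pm a H (n + 1) s = ∫⁻ y, ENNReal.ofReal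
      (Real.exp (a n * (X a H n (upd n s y) - X a H (n + 1) s))) *
        ∫⁻ t, f t ∂Pm a H n (upd n s y) ∂Lev.μ := by
  have h1 : Measurable fun y => Pm a H n (upd n s y) :=
    ((rep_meas a hH n).comp (measurable_upd n)).comp measurable_prodMk_left
  rw [Pm_succ, Measure.lintegral_bind h1.aemeasurable hf.aemeasurable]
  exact lintegral_withDensity_eq_lintegral_mul _
    ((rep_wmeas a hH n).comp measurable_prodMk_left) ((Measure.measurable_lintegral hf).comp h1)

lemma rep_int (ha : Exps R a) (hH : ML H) (hn : n ≤ R) (hψ : ME ψ) (s : St R Y) :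
    Integrable (fun y => E a H n ψ (upd n s y) *
      Real.exp (a n * (X a H n (upd n s y) - X a H (n + 1) s))) Lev.μ :=
  (((ME.cond ha hH hψ hn).comp (gro_upd n s)).mul
    ((((ML.free ha hH hn).comp (gro_upd n s)).sub (ML.const _)).const_mul _).exp).integrable

lemma rep_nonneg (a : ℕ → ℝ) (H : St R Y → ℝ) (n : ℕ) (h : ∀ t, 0 ≤ ψ t) (s : St R Y) :
    0 ≤ E a H n ψ s := by
  induction n generalizing s with
  | zero => exact h s
  | succ n ih =>
    rw [E_succ]
    exact integral_nonneg fun y => mul_nonneg (ih _) (Real.exp_pos _).le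

lemma rep_ofReal (ha : Exps R a) (hH : ML H) (hn : n ≤ R) (hψ : ME ψ) (h : ∀ t, 0 ≤ ψ t)
    (s : St R Y) : ∫⁻ t, ENNReal.ofReal (ψ t) ∂Pm a H n s = ENNReal.ofReal (E a H n ψ s) := by
  induction n generalizing s with
  | zero => rw [Pm_zero, lintegral_dirac' _ hψ.meas.ennreal_ofReal, E_zero]
  | succ n ih =>
    have hn' : n ≤ R := by omega
    rw [rep_lint a hH.meas n s hψ.meas.ennreal_ofReal, E_succ,
      ofReal_integral_eq_lintegral_ofReal (rep_int ha hH hn' hψ s)
        (ae_of_all _ fun y => mul_nonneg (rep_nonneg a H n h _) (Real.exp_pos _).le)]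
    refine lintegral_congr fun y => ?_
    rw [ih hn', mul_comm, ENNReal.ofReal_mul (rep_nonneg a H n h _)]

lemma rep_const (ha : Exps R a) (hH : ML H) (hn : n ≤ R) (c : ℝ) (s : St R Y) :
    E a H n (fun _ => c) s = c := by
  induction n generalizing s with
  | zero => rfl
  | succ n ih =>
    rw [E_succ]
    simp only [ih (by omega : n ≤ R)]
    rw [integral_const_mul, integral_weight ha hH.mu (by omega), mul_one]

lemma rep_sub (ha : Exps R a) (hH : ML H) (hn : n ≤ R) (hψ : ME ψ) (hφ : ME φ) (s : St R Y) :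
    E a H n (fun t => ψ t - φ t) s = E a H n ψ s - E a H n φ s := by
  induction n generalizing s with
  | zero => rfl
  | succ n ih =>
    have hn' : n ≤ R := by omega
    rw [E_succ, E_succ, E_succ, ← integral_sub (rep_int ha hH hn' hψ s) (rep_int ha hH hn' hφ s)]
    simp only [ih hn', sub_mul]

lemma rep_eq (ha : Exps R a) (hH : ML H) (hn : n ≤ R) (hψ : ME ψ) (h : ∀ t, 0 ≤ ψ t)
    (s : St R Y) : E a H n ψ s = ∫ t, ψ t ∂Pm a H n s := by
  rw [integral_eq_lintegral_of_nonneg_ae (ae_of_all _ h) hψ.meas.aestronglyMeasurable,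
    rep_ofReal ha hH hn hψ h, ENNReal.toReal_ofReal (rep_nonneg a H n h s)]

lemma Pm_prob (ha : Exps R a) (hH : ML H) (hn : n ≤ R) (s : St R Y) :
    IsProbabilityMeasure (Pm a H n s) := by
  have h := rep_ofReal ha hH hn (ME.const 1) (fun _ => zero_le_one) s
  rw [rep_const ha hH hn] at h
  exact ⟨by simpa using h⟩
lemma Pm_int (ha : Exps R a) (hH : ML H) (hn : n ≤ R) (hψ : ME ψ) (s : St R Y) :
    Integrable ψ (Pm a H n s) := by
  refine ⟨hψ.meas.aestronglyMeasurable, ?_⟩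
  rw [hasFiniteIntegral_iff_norm]
  have h := rep_ofReal ha hH hn hψ.abs (fun _ => abs_nonneg _) s
  simp only [Real.norm_eq_abs]
  rw [h]
  exact ENNReal.ofReal_lt_top
lemma E_eq (ha : Exps R a) (hH : ML H) (hn : n ≤ R) (hψ : ME ψ) (s : St R Y) :
    E a H n ψ s = ∫ t, ψ t ∂Pm a H n s := by
  have hp : ME fun t => max (ψ t) 0 := hψ.mono (hψ.meas.max measurable_const) fun t => by
    rw [abs_of_nonneg (le_max_right _ _)]
    exact max_le (le_abs_self _) (abs_nonneg _)
  have hm : ME fun t => max (-ψ t) 0 := hψ.mono (hψ.meas.neg.max measurable_const) fun t => by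
    rw [abs_of_nonneg (le_max_right _ _)]
    exact max_le (neg_le_abs _) (abs_nonneg _)
  have e : ψ = fun t => max (ψ t) 0 - max (-ψ t) 0 := funext fun t => (max_zero_sub_max_neg_zero_eq_self _).symm
  calc E a H n ψ s = E a H n (fun t => max (ψ t) 0 - max (-ψ t) 0) s := by rw [← e]
    _ = ∫ t, (max (ψ t) 0 - max (-ψ t) 0) ∂Pm a H n s := by
      rw [rep_sub ha hH hn hp hm, rep_eq ha hH hn hp (fun _ => le_max_right _ _),
        rep_eq ha hH hn hm (fun _ => le_max_right _ _),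
        integral_sub (Pm_int ha hH hn hp s) (Pm_int ha hH hn hm s)]
    _ = _ := by simp only [max_zero_sub_max_neg_zero_eq_self]
lemma EE_eq (ha : Exps R a) (hH : ML H) (hψ : ME ψ) :
    EE a H ψ = ∫ t, ψ t ∂Pm a H R Lev.pt := E_eq ha hH le_rfl hψ _

lemma E_const (ha : Exps R a) (hH : ML H) (hn : n ≤ R) (c : ℝ) (s : St R Y) :
    E a H n (fun _ => c) s = c := rep_const ha hH hn c s
lemma E_add (ha : Exps R a) (hH : ML H) (hn : n ≤ R) (hψ : ME ψ) (hφ : ME φ) (s : St R Y) :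
    E a H n (fun t => ψ t + φ t) s = E a H n ψ s + E a H n φ s := by
  rw [E_eq ha hH hn (hψ.add hφ), E_eq ha hH hn hψ, E_eq ha hH hn hφ,
    integral_add (Pm_int ha hH hn hψ s) (Pm_int ha hH hn hφ s)]
lemma E_sub (ha : Exps R a) (hH : ML H) (hn : n ≤ R) (hψ : ME ψ) (hφ : ME φ) (s : St R Y) :
    E a H n (fun t => ψ t - φ t) s = E a H n ψ s - E a H n φ s := rep_sub ha hH hn hψ hφ s
/-- No hypothesis is needed (`integral_const_mul`). -/
lemma E_const_mul (a : ℕ → ℝ) (H ψ : St R Y → ℝ) (n : ℕ) (c : ℝ) (s : St R Y) :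
    E a H n (fun t => c * ψ t) s = c * E a H n ψ s := by
  induction n generalizing s with
  | zero => rfl
  | succ n ih =>
    rw [E_succ, E_succ, ← integral_const_mul]
    simp only [ih, mul_assoc]
lemma E_neg (a : ℕ → ℝ) (H ψ : St R Y → ℝ) (n : ℕ) (s : St R Y) :
    E a H n (fun t => -ψ t) s = -E a H n ψ s := by
  simpa using E_const_mul a H ψ n (-1) s
lemma E_sum {β : Type*} (t : Finset β) {Ψ : β → St R Y → ℝ} (ha : Exps R a) (hH : ML H)
    (hn : n ≤ R) (h : ∀ b ∈ t, ME (Ψ b)) (s : St R Y) :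
    E a H n (fun u => ∑ b ∈ t, Ψ b u) s = ∑ b ∈ t, E a H n (Ψ b) s := by
  rw [E_eq ha hH hn (ME.sum t h), integral_finsetSum _ fun b hb => Pm_int ha hH hn (h b hb) s]
  exact Finset.sum_congr rfl fun b hb => (E_eq ha hH hn (h b hb) s).symm
lemma E_mono (ha : Exps R a) (hH : ML H) (hn : n ≤ R) (hψ : ME ψ) (hφ : ME φ)
    (h : ∀ t, ψ t ≤ φ t) (s : St R Y) : E a H n ψ s ≤ E a H n φ s := by
  rw [E_eq ha hH hn hψ, E_eq ha hH hn hφ]
  exact integral_mono (Pm_int ha hH hn hψ s) (Pm_int ha hH hn hφ s) h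
/-- No hypothesis is needed (`integral_nonneg`). -/
lemma E_nonneg (a : ℕ → ℝ) (H : St R Y → ℝ) (n : ℕ) (h : ∀ t, 0 ≤ ψ t) (s : St R Y) :
    0 ≤ E a H n ψ s := rep_nonneg a H n h s
lemma abs_E_le (ha : Exps R a) (hH : ML H) (hn : n ≤ R) (hψ : ME ψ) (s : St R Y) :
    |E a H n ψ s| ≤ E a H n (fun t => |ψ t|) s := by
  rw [E_eq ha hH hn hψ, E_eq ha hH hn hψ.abs]
  exact abs_integral_le_integral_abs
lemma abs_E_le_const (ha : Exps R a) (hH : ML H) (hn : n ≤ R) (hψ : Measurable ψ) {B : ℝ}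
    (h : ∀ t, |ψ t| ≤ B) (s : St R Y) : |E a H n ψ s| ≤ B := by
  have h1 := ME.of_bdd hψ B h
  exact (abs_E_le ha hH hn h1 s).trans
    ((E_mono ha hH hn h1.abs (ME.const B) h s).trans (E_const ha hH hn B s).le)
/-- Cauchy–Schwarz. -/
lemma E_mul_sq_le (ha : Exps R a) (hH : ML H) (hn : n ≤ R) (hψ : ME ψ) (hφ : ME φ) (s : St R Y) :
    E a H n (fun t => ψ t * φ t) s ^ 2 ≤
      E a H n (fun t => ψ t ^ 2) s * E a H n (fun t => φ t ^ 2) s := by
  have h : ∀ x : ℝ, 0 ≤ E a H n (fun t => φ t ^ 2) s * (x * x) +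
      (2 * E a H n (fun t => ψ t * φ t) s) * x + E a H n (fun t => ψ t ^ 2) s := fun x => by
    have h0 := E_nonneg a H n (ψ := fun t => (x * x) * φ t ^ 2 + (2 * x) * (ψ t * φ t) + ψ t ^ 2)
      (fun t => by nlinarith [sq_nonneg (x * φ t + ψ t)]) s
    rw [E_add ha hH hn (((hφ.pow 2).const_mul _).add ((hψ.mul hφ).const_mul _)) (hψ.pow 2),
      E_add ha hH hn ((hφ.pow 2).const_mul _) ((hψ.mul hφ).const_mul _), E_const_mul, E_const_mul] at h0
    linarith
  have := discrim_le_zero h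
  rw [discrim] at this
  nlinarith
lemma E_sq_le (ha : Exps R a) (hH : ML H) (hn : n ≤ R) (hψ : ME ψ) (s : St R Y) :
    E a H n ψ s ^ 2 ≤ E a H n (fun t => ψ t ^ 2) s := by
  have h := E_mul_sq_le ha hH hn hψ (ME.const 1) s
  simpa [E_const ha hH hn] using h
/-- Pull-out property; no growth hypothesis is needed (`integral_const_mul`). -/
lemma E_dep_mul (a : ℕ → ℝ) (H ψ : St R Y → ℝ) (hF : Dep n F) (s : St R Y) :
    E a H n (fun t => F t * ψ t) s = F s * E a H n ψ s := by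
  induction n generalizing s with
  | zero => rfl
  | succ n ih =>
    rw [E_succ, E_succ, ← integral_const_mul]
    simp only [ih (hF.mono (Nat.le_succ n)), hF n (Nat.lt_succ_self n), mul_assoc]
lemma E_dep (ha : Exps R a) (hH : ML H) (hn : n ≤ R) (hF : Dep n F) (s : St R Y) :
    E a H n F s = F s := by
  have h := E_dep_mul a H (fun _ => 1) hF s
  simpa [E_const ha hH hn] using h
lemma E_tower (ha : Exps R a) (hH : ML H) (hn : n ≤ R) {i : ℕ} (hi : i ≤ n) (ψ : St R Y → ℝ)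
    (s : St R Y) : E a H n (E a H i ψ) s = E a H n ψ s := by
  induction n, hi using Nat.le_induction generalizing s with
  | base => exact E_dep ha hH hn (dep_E a H ψ i) s
  | succ n hi ih =>
    rw [E_succ, E_succ]
    simp only [ih (by omega : n ≤ R)]
lemma E_tower_mul (ha : Exps R a) (hH : ML H) (hn : n ≤ R) {i : ℕ} (hi : i ≤ n) (hF : Dep i F)
    (ψ : St R Y → ℝ) (s : St R Y) :
    E a H n (fun t => F t * E a H i ψ t) s = E a H n (fun t => F t * ψ t) s := by
  rw [← E_tower ha hH hn hi (fun t => F t * ψ t)]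
  congr 1
  ext t
  exact (E_dep_mul a H ψ hF t).symm

lemma EE_const (ha : Exps R a) (hH : ML H) (c : ℝ) : EE a H (fun _ => c) = c := E_const ha hH le_rfl c _
lemma EE_add (ha : Exps R a) (hH : ML H) (hψ : ME ψ) (hφ : ME φ) :
    EE a H (fun t => ψ t + φ t) = EE a H ψ + EE a H φ := E_add ha hH le_rfl hψ hφ _
lemma EE_sub (ha : Exps R a) (hH : ML H) (hψ : ME ψ) (hφ : ME φ) :
    EE a H (fun t => ψ t - φ t) = EE a H ψ - EE a H φ := E_sub ha hH le_rfl hψ hφ _
lemma EE_const_mul (a : ℕ → ℝ) (H ψ : St R Y → ℝ) (c : ℝ) :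
    EE a H (fun t => c * ψ t) = c * EE a H ψ := E_const_mul a H ψ R c _
lemma EE_sum {β : Type*} (t : Finset β) {Ψ : β → St R Y → ℝ} (ha : Exps R a) (hH : ML H)
    (h : ∀ b ∈ t, ME (Ψ b)) : EE a H (fun u => ∑ b ∈ t, Ψ b u) = ∑ b ∈ t, EE a H (Ψ b) := E_sum t ha hH le_rfl h _
lemma EE_mono (ha : Exps R a) (hH : ML H) (hψ : ME ψ) (hφ : ME φ) (h : ∀ t, ψ t ≤ φ t) :
    EE a H ψ ≤ EE a H φ := E_mono ha hH le_rfl hψ hφ h _
lemma EE_nonneg (a : ℕ → ℝ) (H : St R Y → ℝ) (h : ∀ t, 0 ≤ ψ t) : 0 ≤ EE a H ψ := E_nonneg a H R h _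
lemma abs_EE_le (ha : Exps R a) (hH : ML H) (hψ : ME ψ) :
    |EE a H ψ| ≤ EE a H fun t => |ψ t| := abs_E_le ha hH le_rfl hψ _
lemma abs_EE_mul_le (ha : Exps R a) (hH : ML H) (hψ : ME ψ) (hφ : ME φ) :
    |EE a H fun t => ψ t * φ t| ≤
      Real.sqrt (EE a H fun t => ψ t ^ 2) * Real.sqrt (EE a H fun t => φ t ^ 2) := by
  rw [← Real.sqrt_mul (EE_nonneg a H fun t => sq_nonneg _)]
  exact Real.abs_le_sqrt (E_mul_sq_le ha hH le_rfl hψ hφ _)
lemma EE_abs_le_sqrt (ha : Exps R a) (hH : ML H) (hψ : ME ψ) :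
    EE a H (fun t => |ψ t|) ≤ Real.sqrt (EE a H fun t => ψ t ^ 2) := by
  refine Real.le_sqrt_of_sq_le ?_
  have h := E_sq_le ha hH le_rfl hψ.abs (Lev.pt : St R Y)
  simp only [sq_abs] at h
  exact h
/-- Jensen for the square root. -/
lemma EE_sqrt_le (ha : Exps R a) (hH : ML H) (hψ : ME ψ) (h : ∀ t, 0 ≤ ψ t) :
    EE a H (fun t => Real.sqrt (ψ t)) ≤ Real.sqrt (EE a H ψ) := by
  refine Real.le_sqrt_of_sq_le ?_
  have h1 := E_sq_le ha hH le_rfl hψ.sqrt (Lev.pt : St R Y)
  simp only [Real.sq_sqrt (h _)] at h1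
  exact h1
lemma EE_tower (ha : Exps R a) (hH : ML H) {i : ℕ} (hi : i ≤ R) (ψ : St R Y → ℝ) :
    EE a H (E a H i ψ) = EE a H ψ := E_tower ha hH le_rfl hi ψ _
lemma EE_tower_mul (ha : Exps R a) (hH : ML H) {i : ℕ} (hi : i ≤ R) (hF : Dep i F)
    (ψ : St R Y → ℝ) : EE a H (fun t => F t * E a H i ψ t) = EE a H fun t => F t * ψ t := E_tower_mul ha hH le_rfl hi hF ψ _

end Crest.Agent.R164
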