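import Crest.Agent.R164.CasIBP
import Crest.Agent.R164.CasIneq

/-!
# R164 / CasTay: independent Gaussian fields — sandwich and Taylor bounds

Setting `GF`: a finite family of Gaussian coordinates `γ_j = (d j).γ (s (l j))` such that `H` and
the bounded observables `z k` do not move along the flows and `γ_k` moves only along its own flow.
Then for `H_c = H + Σ c_j γ_j z_j` the derivative along flow `j` is `c_j z_j`, and `ibp` gives
`EE_{H_c} (γ_j z_j) = c_j Ct (l j) (z_j) (z_j)` with `0 ≤ Ct (z, z) ≤ EE z²`.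
* `gf_lower`: `val_jensen` from `H` (there `EE (γ_j z_j) = 0`).
* `gf_upper`: `val_jensen` from `H_c` to `H + Σ c_j² z_j²`.
* `gf_taylor`: `F y = val (H + y Σ γ_j z_j)`, `F' y = y Σ_j T_j y`, `T_j y = Ct_{H_y} (z_j, z_j)`
  (`hasDerivAt_val`, `DF.linear` on `Ioo (-2) 2`).  Each of `EE z²`, `EE (E i z)²` has derivative
  `EE (2 E i z * Cv i z φ) + Cv R (..) φ` (`hasDerivAt_EE`, `DF.cond`), bounded by `6 EE |φ|`
  (`abs_Cv_le`), and `EE |φ| ≤ Σ_k √(EE γ_k²) ≤ 3 M` for `|y| ≤ 1` (`EE_γ_sq_le`).  So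
  `|T_j y - T_j 0| ≤ 24 M y` and the mean value inequality for `F y - F 0 - y² Σ T_j 0 / 2` finishes.
-/

set_option autoImplicit false

open MeasureTheory ProbabilityTheory Finset

namespace Crest.Agent.R164

variable {Y : Type} [MeasurableSpace Y] [Lev Y] {R : ℕ} {a : ℕ → ℝ} {J : Type} [Fintype J]
  [DecidableEq J]

/-- Independent Gaussian fields coupled to bounded observables. -/
structure GF (H : St R Y → ℝ) (d : J → Dir Y) (l : J → Fin R) (z : J → St R Y → ℝ) : Prop where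
  ml : ML H
  meas : ∀ j, Measurable (z j)
  bdd : ∃ B : ℝ, ∀ j s, |z j s| ≤ B
  H_inv : ∀ j θ s, H (act (d j) (l j) θ s) = H s
  z_inv : ∀ j k θ s, z k (act (d j) (l j) θ s) = z k s
  γ_act : ∀ j k θ s, (d k).γ (act (d j) (l j) θ s (l k)) = (d k).γ (s (l k)) + if j = k then θ else 0

variable {H : St R Y → ℝ} {d : J → Dir Y} {l : J → Fin R} {z : J → St R Y → ℝ}

omit [Fintype J] in
lemma GF.me_z (h : GF H d l z) (j : J) : ME (z j) := by
  obtain ⟨B, hB⟩ := h.bdd
  exact ME.of_bdd (h.meas j) B (hB j)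

omit [Fintype J] in
lemma GF.ml_field (h : GF H d l z) (j : J) : ML fun s => (d j).γ (s (l j)) * z j s := by
  obtain ⟨B, hB⟩ := h.bdd
  exact (ml_γ (d j) (l j)).mul_bdd (h.meas j) B (hB j)

lemma GF.ml_pert (h : GF H d l z) (c : J → ℝ) :
    ML fun s => H s + ∑ j, c j * ((d j).γ (s (l j)) * z j s) :=
  h.ml.add (ML.sum _ fun j _ => (h.ml_field j).const_mul (c j))

lemma GF.hasD (h : GF H d l z) (c : J → ℝ) (j : J) :
    HasD (d j) (l j) (fun s => H s + ∑ k, c k * ((d k).γ (s (l k)) * z k s)) fun s => c j * z j s := by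
  refine HasD.of_lin (h.ml_pert c).me ((h.me_z j).const_mul _) fun θ s => ?_
  simp only [h.H_inv, h.z_inv, h.γ_act, add_mul, mul_add, sum_add_distrib, ite_mul, zero_mul,
    mul_ite, mul_zero, sum_ite_eq, mem_univ, if_true]
  ring

lemma GF.EE_field (ha : Exps R a) (h : GF H d l z) (c : J → ℝ) (j : J) :
    EE a (fun s => H s + ∑ k, c k * ((d k).γ (s (l k)) * z k s))
        (fun s => (d j).γ (s (l j)) * z j s) =
      c j * Ct a (fun s => H s + ∑ k, c k * ((d k).γ (s (l k)) * z k s)) (l j) (z j) (z j) := by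
  rw [ibp ha (h.ml_pert c) (h.hasD c j) (HasD.of_inv (h.me_z j) (h.z_inv j j)),
    EE_const ha (h.ml_pert c), zero_add, Ct_const_mul_right]

lemma tay_weights (ha : Exps R a) {l : ℕ} (hl : l ≤ R) :
    ∑ i ∈ range l, (a i - a (i + 1)) ≤ 1 := by
  rw [sum_range_sub', ha.zero]
  have := ha.last.trans (ha.anti hl)
  linarith

lemma Ct_self_mem (ha : Exps R a) (hH : ML H) {l : ℕ} (hl : l ≤ R) {ψ : St R Y → ℝ} (hψ : ME ψ) :
    0 ≤ Ct a H l ψ ψ ∧ Ct a H l ψ ψ ≤ EE a H fun s => ψ s ^ 2 := by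
  have hw : ∀ i, 0 ≤ a i - a (i + 1) := fun i => sub_nonneg.2 (ha.anti (Nat.le_succ i))
  have h0 : 0 ≤ EE a H fun s => ψ s ^ 2 := EE_nonneg a H fun t => sq_nonneg _
  unfold Ct
  simp only [← sq]
  constructor
  · have h1 : ∑ i ∈ range l, (a i - a (i + 1)) * EE a H (fun t => E a H (i + 1) ψ t ^ 2) ≤
        ∑ i ∈ range l, (a i - a (i + 1)) * EE a H fun s => ψ s ^ 2 := by
      refine sum_le_sum fun i hi => mul_le_mul_of_nonneg_left ?_ (hw i)
      have hi' : i + 1 ≤ R := (mem_range.1 hi).trans_le hl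
      rw [← EE_tower ha hH hi' fun s => ψ s ^ 2]
      exact EE_mono ha hH ((hψ.cond ha hH hi').pow 2) ((hψ.pow 2).cond ha hH hi')
        fun t => E_sq_le ha hH hi' hψ t
    rw [← sum_mul] at h1
    have h2 := mul_le_mul_of_nonneg_right (tay_weights ha hl) h0
    linarith
  · exact sub_le_self _ (sum_nonneg fun i _ =>
      mul_nonneg (hw i) (EE_nonneg a H fun t => sq_nonneg _))

theorem gf_lower (ha : Exps R a) (h : GF H d l z) (c : J → ℝ) :
    val a H ≤ val a fun s => H s + ∑ j, c j * ((d j).γ (s (l j)) * z j s) := by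
  have h1 := val_jensen ha h.ml (h.ml_pert c).mu
  simp only [add_sub_cancel_left] at h1
  rw [EE_sum _ ha h.ml fun j _ => ((h.ml_field j).const_mul (c j)).me] at h1
  have h2 : ∀ j, EE a H (fun s => c j * ((d j).γ (s (l j)) * z j s)) = 0 := by
    intro j
    have := h.EE_field ha (fun _ => 0) j
    simp only [zero_mul, sum_const_zero, add_zero] at this
    rw [EE_const_mul, this, mul_zero]
  simpa [h2] using h1

theorem gf_upper (ha : Exps R a) (h : GF H d l z) (c : J → ℝ) :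
    val a (fun s => H s + ∑ j, c j * ((d j).γ (s (l j)) * z j s)) ≤
      val a fun s => H s + ∑ j, c j ^ 2 * z j s ^ 2 := by
  obtain ⟨B, hB⟩ := h.bdd
  have hsq : ∀ j, ML fun s => z j s ^ 2 := fun j =>
    ML.of_bdd ((h.meas j).pow_const 2) (B ^ 2) fun s => by
      rw [abs_pow]; exact pow_le_pow_left₀ (abs_nonneg _) (hB j s) 2
  have hH' : ML fun s => H s + ∑ j, c j ^ 2 * z j s ^ 2 :=
    h.ml.add (ML.sum _ fun j _ => (hsq j).const_mul _)
  have hc := h.ml_pert c
  have h1 := val_jensen ha hc hH'.mu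
  simp only [add_sub_add_left_eq_sub, ← sum_sub_distrib] at h1
  rw [EE_sum _ ha hc fun j _ =>
    (((hsq j).const_mul _).sub ((h.ml_field j).const_mul (c j))).me] at h1
  refine le_trans (le_add_of_nonneg_right (sum_nonneg fun j _ => ?_)) h1
  rw [EE_sub ha hc ((hsq j).const_mul _).me ((h.ml_field j).const_mul (c j)).me, EE_const_mul,
    EE_const_mul, h.EE_field ha c j, ← mul_assoc, ← sq, ← mul_sub]
  exact mul_nonneg (sq_nonneg _) (sub_nonneg.2 (Ct_self_mem ha hc (l j).2.le (h.me_z j)).2)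

lemma tay_mvt {f f' : ℝ → ℝ} {y C : ℝ} (hy : 0 ≤ y) (hf : ∀ x ∈ Set.Icc 0 y, HasDerivAt f (f' x) x)
    (hb : ∀ x ∈ Set.Icc 0 y, |f' x| ≤ C) : |f y - f 0| ≤ C * y := by
  have := norm_image_sub_le_of_norm_deriv_le_segment' (f := f) (f' := f') (C := C)
    (fun x hx => (hf x hx).hasDerivWithinAt) (fun x hx => hb x (Set.Ico_subset_Icc_self hx)) y
    ⟨hy, le_rfl⟩
  simpa using this

/-- The second moments of the conditional expectations are Lipschitz along a line. -/
lemma tay_Q (ha : Exps R a) (hH : ML H) {φ u : St R Y → ℝ} (hφ : ML φ) (hu : Measurable u)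
    (hu1 : ∀ s, |u s| ≤ 1) {K : ℝ}
    (hK : ∀ θ ∈ Set.Icc (0 : ℝ) 1, EE a (fun s => H s + θ * φ s) (fun s => |φ s|) ≤ K) {i : ℕ}
    (hi : i ≤ R) {y : ℝ} (hy : 0 ≤ y) (hy1 : y ≤ 1) :
    |EE a (fun s => H s + y * φ s) (fun t => E a (fun s => H s + y * φ s) i u t *
        E a (fun s => H s + y * φ s) i u t) -
      EE a H (fun t => E a H i u t * E a H i u t)| ≤ 6 * K * y := by
  have hI : ∀ θ ∈ Set.Ioo (-2 : ℝ) 2, |θ| ≤ 2 := fun θ hθ => abs_le.2 ⟨hθ.1.le, hθ.2.le⟩
  have hFL : FL (Set.Ioo (-2 : ℝ) 2) fun θ s => H s + θ * φ s :=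
    (FL.const hH).add (FL.smul (c := fun θ => θ) 2 hI (FL.const hφ))
  have hDF : DF (Set.Ioo (-2 : ℝ) 2) (fun θ s => H s + θ * φ s) fun _ => φ :=
    DF.linear 2 hI hH.me hφ.me
  have hue : ME u := ME.of_bdd hu 1 hu1
  have h1 := DF.cond isOpen_Ioo ha hFL hDF (DF.const hue) hi
  have h2 := h1.mul h1
  have hsub : ∀ x ∈ Set.Icc 0 y, x ∈ Set.Ioo (-2 : ℝ) 2 := fun x hx =>
    ⟨by linarith [hx.1], by linarith [hx.2]⟩
  have := tay_mvt (C := 6 * K) hy
    (fun x hx => hasDerivAt_EE isOpen_Ioo ha hFL hDF h2 (hsub x hx)) (fun x hx => by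
      have hx' := hsub x hx
      have hHx : ML fun s => H s + x * φ s := hFL.ml hx'
      have hKx := hK x ⟨hx.1, hx.2.trans hy1⟩
      have b1 : ∀ t, |E a (fun s => H s + x * φ s) i u t| ≤ 1 := abs_E_le_const ha hHx hi hu hu1
      have b2 : ∀ t, |E a (fun s => H s + x * φ s) i (fun _ => 0) t +
          Cv a (fun s => H s + x * φ s) i u φ t| ≤
          2 * E a (fun s => H s + x * φ s) i (fun s => |φ s|) t := by
        intro t
        rw [E_const ha hHx hi, zero_add]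
        simpa using abs_Cv_le ha hHx hi hu hu1 hφ.me t
      have m1 := measurable_E a hHx.meas hu i
      have b3 := abs_Cv_le ha hHx le_rfl (m1.mul m1) (B := 1) (fun t => by
        show |E a (fun s => H s + x * φ s) i u t * E a (fun s => H s + x * φ s) i u t| ≤ 1
        rw [abs_mul]
        exact mul_le_one₀ (b1 t) (abs_nonneg _) (b1 t)) hφ.me Lev.pt
      have b4 := (abs_EE_le ha hHx (h2.ge'.me hx')).trans (EE_mono ha hHx (h2.ge'.me hx').abs
        ((hφ.me.abs.cond ha hHx hi).const_mul 4) fun t => by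
          have a1 := b1 t
          have a2 := b2 t
          refine (abs_add_le _ _).trans ?_
          rw [abs_mul, abs_mul]
          have a3 := mul_le_mul a2 a1 (abs_nonneg _) ((abs_nonneg _).trans a2)
          linarith)
      rw [EE_const_mul, EE_tower ha hHx hi] at b4
      refine (abs_add_le _ _).trans ?_
      have b5 : E a (fun s => H s + x * φ s) R (fun t => |φ t|) Lev.pt ≤ K := hKx
      have b6 := add_le_add b4 b3
      refine b6.trans ?_
      linarith)
  simpa using this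

lemma tay_T (ha : Exps R a) (hH : ML H) {φ u : St R Y → ℝ} (hφ : ML φ) (hu : Measurable u)
    (hu1 : ∀ s, |u s| ≤ 1) {K : ℝ}
    (hK : ∀ θ ∈ Set.Icc (0 : ℝ) 1, EE a (fun s => H s + θ * φ s) (fun s => |φ s|) ≤ K) {l : ℕ}
    (hl : l ≤ R) {y : ℝ} (hy : 0 ≤ y) (hy1 : y ≤ 1) :
    |Ct a (fun s => H s + y * φ s) l u u - Ct a H l u u| ≤ 12 * K * y := by
  have hw : ∀ i, 0 ≤ a i - a (i + 1) := fun i => sub_nonneg.2 (ha.anti (Nat.le_succ i))
  have h0 := tay_Q ha hH hφ hu hu1 hK (Nat.zero_le R) hy hy1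
  simp only [E_zero] at h0
  have hK0 : 0 ≤ 6 * K * y := (abs_nonneg _).trans h0
  unfold Ct
  rw [sub_sub_sub_comm, ← sum_sub_distrib]
  refine (abs_sub _ _).trans ?_
  have h1 : |∑ i ∈ range l, ((a i - a (i + 1)) * EE a (fun s => H s + y * φ s)
      (fun t => E a (fun s => H s + y * φ s) (i + 1) u t * E a (fun s => H s + y * φ s) (i + 1) u t) -
      (a i - a (i + 1)) * EE a H (fun t => E a H (i + 1) u t * E a H (i + 1) u t))| ≤
      ∑ i ∈ range l, (a i - a (i + 1)) * (6 * K * y) := by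
    refine (abs_sum_le_sum_abs _ _).trans (sum_le_sum fun i hi => ?_)
    rw [← mul_sub, abs_mul, abs_of_nonneg (hw i)]
    exact mul_le_mul_of_nonneg_left
      (tay_Q ha hH hφ hu hu1 hK ((mem_range.1 hi).trans_le hl) hy hy1) (hw i)
  rw [← sum_mul] at h1
  have h2 := mul_le_mul_of_nonneg_right (tay_weights ha hl) hK0
  linarith

theorem gf_taylor (ha : Exps R a) (h : GF H d l z) (hz : ∀ j s, |z j s| ≤ 1) {y : ℝ} (hy : 0 ≤ y)
    (hy1 : y ≤ 1) :
    |val a (fun s => H s + ∑ j, y * ((d j).γ (s (l j)) * z j s)) - val a H -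
        y ^ 2 / 2 * ∑ j, Ct a H (l j) (z j) (z j)| ≤ 40 * (Fintype.card J : ℝ) ^ 2 * y ^ 3 := by
  set φ : St R Y → ℝ := fun s => ∑ j, (d j).γ (s (l j)) * z j s with hφd
  have hφ : ML φ := ML.sum _ fun j _ => h.ml_field j
  have e : ∀ θ : ℝ, (fun s => H s + ∑ j, θ * ((d j).γ (s (l j)) * z j s)) =
      fun s => H s + θ * φ s := fun θ => by
    funext s; rw [hφd, mul_sum]
  have hml : ∀ θ : ℝ, ML fun s => H s + θ * φ s := fun θ => h.ml.add (hφ.const_mul θ)
  have hK : ∀ θ ∈ Set.Icc (0 : ℝ) 1,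
      EE a (fun s => H s + θ * φ s) (fun s => |φ s|) ≤ 3 * Fintype.card J := by
    intro θ hθ
    have hγ : ∀ j, ME fun s : St R Y => (d j).γ (s (l j)) := fun j => (ml_γ (d j) (l j)).me
    have a1 : EE a (fun s => H s + θ * φ s) (fun s => |φ s|) ≤
        EE a (fun s => H s + θ * φ s) (fun s => ∑ j, |(d j).γ (s (l j))|) :=
      EE_mono ha (hml θ) hφ.me.abs (ME.sum _ fun j _ => (hγ j).abs) fun s =>
        (abs_sum_le_sum_abs _ _).trans (sum_le_sum fun j _ => by
          rw [abs_mul]; exact mul_le_of_le_one_right (abs_nonneg _) (hz j s))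
    rw [EE_sum _ ha (hml θ) fun j _ => (hγ j).abs] at a1
    refine a1.trans ((sum_le_card_nsmul _ _ 3 fun j _ => ?_).trans (le_of_eq ?_))
    · have hD := h.hasD (fun _ => θ) j
      rw [e] at hD
      have a2 := EE_γ_sq_le ha (hml θ) hD fun t w => by
        have := h.γ_act j j t fun _ => w
        rwa [act_self, if_pos rfl] at this
      have a3 : EE a (fun s => H s + θ * φ s) (fun s => (θ * z j s) ^ 2) ≤ 1 := by
        rw [← EE_const ha (hml θ) 1]
        refine EE_mono ha (hml θ) (((h.me_z j).const_mul θ).pow 2) (ME.const 1) fun s => ?_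
        rw [sq_le_one_iff_abs_le_one, abs_mul, abs_of_nonneg hθ.1]
        exact mul_le_one₀ hθ.2 (abs_nonneg _) (hz j s)
      have a4 := Real.sqrt_le_one.2 a3
      have a5 := EE_abs_le_sqrt ha (hml θ) (hγ j)
      linarith
    · rw [card_univ, nsmul_eq_mul, mul_comm]
  have hI : ∀ θ ∈ Set.Ioo (-2 : ℝ) 2, |θ| ≤ 2 := fun θ hθ => abs_le.2 ⟨hθ.1.le, hθ.2.le⟩
  have hFL : FL (Set.Ioo (-2 : ℝ) 2) fun θ s => H s + θ * φ s :=
    (FL.const h.ml).add (FL.smul (c := fun θ => θ) 2 hI (FL.const hφ))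
  have hDF : DF (Set.Ioo (-2 : ℝ) 2) (fun θ s => H s + θ * φ s) fun _ => φ :=
    DF.linear 2 hI h.ml.me hφ.me
  have hF' : ∀ θ : ℝ, EE a (fun s => H s + θ * φ s) φ =
      θ * ∑ j, Ct a (fun s => H s + θ * φ s) (l j) (z j) (z j) := by
    intro θ
    rw [mul_sum]
    refine (EE_sum _ ha (hml θ) fun j _ => (h.ml_field j).me).trans (sum_congr rfl fun j _ => ?_)
    have := h.EE_field ha (fun _ => θ) j
    rwa [e] at this
  have hM : (0 : ℝ) ≤ Fintype.card J := Nat.cast_nonneg _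
  have key := tay_mvt (C := 36 * (Fintype.card J : ℝ) ^ 2 * y ^ 2) hy
    (f := fun θ => val a (fun s => H s + θ * φ s) - θ ^ 2 / 2 * ∑ j, Ct a H (l j) (z j) (z j))
    (f' := fun θ => EE a (fun s => H s + θ * φ s) φ - θ * ∑ j, Ct a H (l j) (z j) (z j))
    (fun x hx => by
      refine (hasDerivAt_val isOpen_Ioo ha hFL hDF
        ⟨by linarith [hx.1], by linarith [hx.2]⟩).sub ?_
      have := ((hasDerivAt_pow 2 x).div_const 2).mul_const (∑ j, Ct a H (l j) (z j) (z j))
      refine this.congr_deriv ?_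
      simp)
    (fun x hx => by
      rw [hF', ← mul_sub, ← sum_sub_distrib, abs_mul, abs_of_nonneg hx.1]
      have a1 : |∑ j, (Ct a (fun s => H s + x * φ s) (l j) (z j) (z j) -
          Ct a H (l j) (z j) (z j))| ≤ Fintype.card J * (12 * (3 * Fintype.card J) * y) := by
        refine (abs_sum_le_sum_abs _ _).trans ((sum_le_card_nsmul _ _
          (12 * (3 * (Fintype.card J : ℝ)) * y) fun j _ => ?_).trans (le_of_eq ?_))
        · exact (tay_T ha h.ml hφ (h.meas j) (hz j) hK (l j).2.le hx.1 (hx.2.trans hy1)).trans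
            (mul_le_mul_of_nonneg_left hx.2 (by positivity))
        · rw [card_univ, nsmul_eq_mul]
      refine (mul_le_mul hx.2 a1 (abs_nonneg _) hy).trans (le_of_eq ?_)
      ring)
  simp only [zero_mul, add_zero] at key
  rw [e]
  have h3 : 0 ≤ (Fintype.card J : ℝ) ^ 2 * y ^ 3 := by positivity
  refine le_trans (le_of_eq ?_) (key.trans (by nlinarith))
  congr 1
  ring

end Crest.Agent.R164
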