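import Crest.Agent.R164.ST

/-!
# R164 / Cav: cavity objects; elementary bounds on the quadratic cavity term; removing the
truncation in the ideal system

`val_chi_lip`: `val_jensen` in both directions, `IsChi.lip`, `EE_le_of_bdd` (`-L-1 ≤ χ W ≤ 0`).
`EE_tau_four`: `ibp` with the flows `Dir.snd _ (Dir.pi α Dir.real)` at level `l`; `H₁ ∘ fS` does not
move (`Ct_zero_right`), `τ_α` has derivative `√(dc l)`: `EE τ² = Σ dc`, `EE τ⁴ = 3 (Σ dc) EE τ²`.
`ideal_untrunc`: `val_mono` (`W ≤ χ W`) and `trunc_lower` with `δ = 0`, `wq_sq_le`.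
-/

set_option autoImplicit false

open MeasureTheory ProbabilityTheory Finset Matrix

namespace Crest.Agent.R164

/-- The quadratic cavity term. -/
noncomputable def Wq {A : Type} [Fintype A] (mu u : A → ℝ) (P : A → A → ℝ) (τ : A → ℝ) : ℝ :=
  -(∑ α, mu α * (u α + ∑ β, P α β * τ β) ^ 2) / 2

/-- Bounded cavity data. -/
structure WB {A : Type} [Fintype A] (B : ℝ) (mu : A → ℝ) (P : A → A → ℝ) : Prop where
  card : (Fintype.card A : ℝ) ≤ B
  mu_mem : ∀ α, 0 ≤ mu α ∧ mu α ≤ B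
  P_le : ∀ α β, |P α β| ≤ B

/-- A bounded measurable family of shifts. -/
structure UB {S A : Type} [MeasurableSpace S] (B : ℝ) (u : S → A → ℝ) : Prop where
  meas : ∀ α, Measurable fun s => u s α
  le : ∀ s α, |u s α| ≤ B

section ideal
variable {Y₁ A : Type} [MeasurableSpace Y₁] [Lev Y₁] [Fintype A] {R : ℕ}

/-- The ideal Gaussian cavity field. -/
noncomputable def tau (dc : ℕ → ℝ) (s : St R (Y₁ × (A → ℝ))) (α : A) : ℝ :=
  ∑ l : Fin R, Real.sqrt (dc l) * (s l).2 α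

/-- The ideal cavity cascade (with an outer function `f`, either `id` or a truncation). -/
noncomputable def HI (f : ℝ → ℝ) (H₁ : St R Y₁ → ℝ) (mu : A → ℝ) (u : St R Y₁ → A → ℝ)
    (P : A → A → ℝ) (dc : ℕ → ℝ) (s : St R (Y₁ × (A → ℝ))) : ℝ :=
  H₁ (fS s) + f (Wq mu (u (fS s)) P (tau dc s))
end ideal

section real
variable {Y₀ Y₁ A : Type} [MeasurableSpace Y₀] [Lev Y₀] [MeasurableSpace Y₁] [Lev Y₁] [Fintype A]
  {R : ℕ}

/-- The real cavity cascade with cavity coordinates `ζ`. -/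
noncomputable def HR (f : ℝ → ℝ) (H₀ : St R Y₀ → ℝ) (H₁ : St R Y₁ → ℝ) (mu : A → ℝ)
    (u : St R Y₁ → A → ℝ) (P : A → A → ℝ) (ζ : St R Y₀ → A → ℝ) (s : St R (Y₀ × Y₁)) : ℝ :=
  H₀ (fS s) + H₁ (sS s) + f (Wq mu (u (sS s)) P (ζ (fS s)))
end real

section spins
variable {C : Type} [Fintype C] {R : ℕ} [NeZero R]

/-- Independent cavity spins with fields `b` and Gaussian fields of variances `uu`. -/
noncomputable def CF (b : C → ℝ) (uu : C → ℕ → ℝ) (s : St R (C → Bool × ℝ)) : ℝ :=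
  ∑ r, osH (b r) (uu r) fun i => s i r
/-- Cavity spins. -/
def cε (s : St R (C → Bool × ℝ)) (r : C) : ℝ := sp (s 0 r).1
/-- Shift determined by the frame `Y`. -/
noncomputable def uY {A : Type} (Y : A → C → ℝ) (s : St R (C → Bool × ℝ)) (α : A) : ℝ :=
  ∑ r, Y α r * cε s r
/-- Projection onto the complement of the frame `Y`. -/
noncomputable def PY {A : Type} [DecidableEq A] (Y : A → C → ℝ) (α β : A) : ℝ :=
  (if α = β then 1 else 0) - ∑ r, Y α r * Y β r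
/-- The ideal frame. -/
noncomputable def Ys {κ : Type} [DecidableEq C] (ρ : κ → ℝ) (α : C × κ) (r : C) : ℝ :=
  if α.1 = r then Real.sqrt (ρ α.2) else 0

lemma ml_CF (b : C → ℝ) (uu : C → ℕ → ℝ) : ML (CF (R := R) b uu) :=
  ML.sum univ fun r _ => (ml_osH (b r) (uu r)).comp (Gro.lift fun _ => Gro.apply r)
lemma ub_uY {A : Type} {Y : A → C → ℝ} (h : ∀ α r, |Y α r| ≤ 1) :
    UB (Fintype.card C) (uY (R := R) Y) := by
  refine ⟨fun α => ?_, fun s α => ?_⟩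
  · refine Finset.measurable_sum _ fun r _ => measurable_const.mul ?_
    unfold cε
    fun_prop
  · refine (abs_sum_le_sum_abs _ _).trans ?_
    calc ∑ r, |Y α r * cε s r| ≤ ∑ _r : C, (1 : ℝ) := sum_le_sum fun r _ => by
          rw [abs_mul, cε, abs_sp, mul_one]
          exact h α r
      _ = Fintype.card C := by simp
end spins

section labels
variable {ϱ C κ : Type} [DecidableEq κ]
/-- Labels of the common system. -/
def lab0 (labr : ϱ → κ) (k1 : κ) : ϱ ⊕ C × κ → κ := Sum.elim labr fun _ => k1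
/-- Labels of the small system. -/
def labS (labr : ϱ → κ) (k1 : κ) (lC : C → κ) : ϱ ⊕ C × κ → κ :=
  Sum.elim labr fun p => if lC p.1 = p.2 then k1 else p.2
/-- Labels of the big system. -/
def lab1 (labr : ϱ → κ) (k1 : κ) : (ϱ ⊕ C × κ) ⊕ C → κ :=
  Sum.elim (Sum.elim labr Prod.snd) fun _ => k1
end labels

section bounds
variable {A : Type} [Fintype A] {B : ℝ} {mu u u' : A → ℝ} {P P' : A → A → ℝ}

lemma cav_sq_sum_abs (hc : (Fintype.card A : ℝ) ≤ B) (τ : A → ℝ) :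
    (∑ α, |τ α|) ^ 2 ≤ B * ∑ α, τ α ^ 2 := by
  have h1 := sq_sum_le_card_mul_sum_sq (s := (univ : Finset A)) (f := fun α => |τ α|)
  simp only [sq_abs, card_univ] at h1
  exact h1.trans (mul_le_mul_of_nonneg_right hc (sum_nonneg fun _ _ => sq_nonneg _))

lemma cav_abs_lin {e : ℝ} {v : ℝ} {p : A → ℝ} (hv : |v| ≤ e) (hp : ∀ β, |p β| ≤ e) (τ : A → ℝ) :
    |v + ∑ β, p β * τ β| ≤ e * (1 + ∑ β, |τ β|) := by
  rw [mul_add, mul_one, mul_sum]
  refine (abs_add_le _ _).trans (add_le_add hv ((abs_sum_le_sum_abs _ _).trans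
    (sum_le_sum fun β _ => ?_)))
  rw [abs_mul]
  exact mul_le_mul_of_nonneg_right (hp β) (abs_nonneg _)

lemma cav_one_add_sq (hB : 1 ≤ B) (hc : (Fintype.card A : ℝ) ≤ B) (τ : A → ℝ) :
    (1 + ∑ β, |τ β|) ^ 2 ≤ 2 * B * (1 + ∑ β, τ β ^ 2) := by
  have h1 := cav_sq_sum_abs hc τ
  nlinarith [sq_nonneg (1 - ∑ β, |τ β|)]

lemma cav_sum_le (hc : (Fintype.card A : ℝ) ≤ B) {f : A → ℝ} {K : ℝ} (hK : 0 ≤ K)
    (h : ∀ α, |f α| ≤ K) : |∑ α, f α| ≤ B * K := by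
  refine (abs_sum_le_sum_abs _ _).trans ((sum_le_sum fun α _ => h α).trans ?_)
  rw [sum_const, card_univ, nsmul_eq_mul]
  exact mul_le_mul_of_nonneg_right hc hK

lemma wq_nonpos (h : ∀ α, 0 ≤ mu α) (u : A → ℝ) (P : A → A → ℝ) (τ : A → ℝ) :
    Wq mu u P τ ≤ 0 := by
  have : 0 ≤ ∑ α, mu α * (u α + ∑ β, P α β * τ β) ^ 2 :=
    sum_nonneg fun α _ => mul_nonneg (h α) (sq_nonneg _)
  unfold Wq
  linarith
lemma abs_wq_le (hB : 1 ≤ B) (h : WB B mu P) (hu : ∀ α, |u α| ≤ B) (τ : A → ℝ) :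
    |Wq mu u P τ| ≤ B ^ 5 * (1 + ∑ α, τ α ^ 2) := by
  have hB0 : 0 ≤ B := by linarith
  have hT : 0 ≤ ∑ α, τ α ^ 2 := sum_nonneg fun _ _ => sq_nonneg _
  have h1 := cav_sum_le (f := fun α => mu α * (u α + ∑ β, P α β * τ β) ^ 2) h.card
    (K := B * (B ^ 2 * (2 * B * (1 + ∑ α, τ α ^ 2)))) (by positivity) fun α => by
      rw [abs_mul, abs_of_nonneg (h.mu_mem α).1, abs_pow]
      refine mul_le_mul (h.mu_mem α).2 ?_ (by positivity) hB0
      have h2 := pow_le_pow_left₀ (abs_nonneg _) (cav_abs_lin (hu α) (h.P_le α) τ) 2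
      rw [mul_pow] at h2
      exact h2.trans (mul_le_mul_of_nonneg_left (cav_one_add_sq hB h.card τ) (by positivity))
  unfold Wq
  rw [abs_div, abs_neg, abs_two]
  linarith
lemma wq_sq_le (hB : 1 ≤ B) (h : WB B mu P) (hu : ∀ α, |u α| ≤ B) (τ : A → ℝ) :
    Wq mu u P τ ^ 2 ≤ 2 * B ^ 11 * (1 + ∑ α, τ α ^ 4) := by
  have hB0 : 0 ≤ B := by linarith
  have h1 := pow_le_pow_left₀ (abs_nonneg _) (abs_wq_le hB h hu τ) 2
  have h2 := cav_one_add_sq hB h.card fun α => τ α ^ 2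
  simp only [abs_sq, ← pow_mul] at h2
  rw [sq_abs, mul_pow] at h1
  calc Wq mu u P τ ^ 2 ≤ (B ^ 5) ^ 2 * (2 * B * (1 + ∑ α, τ α ^ 4)) :=
        h1.trans (mul_le_mul_of_nonneg_left h2 (by positivity))
    _ = 2 * B ^ 11 * (1 + ∑ α, τ α ^ 4) := by ring
lemma abs_wq_sub_le (hB : 1 ≤ B) (h : WB B mu P) (h' : WB B mu P') (hu : ∀ α, |u α| ≤ B)
    (hu' : ∀ α, |u' α| ≤ B) {e : ℝ} (he0 : 0 ≤ e) (he : ∀ α, |u α - u' α| ≤ e)
    (hP : ∀ α β, |P α β - P' α β| ≤ e) (τ : A → ℝ) :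
    |Wq mu u P τ - Wq mu u' P' τ| ≤ 2 * B ^ 4 * e * (1 + ∑ α, τ α ^ 2) := by
  have hB0 : 0 ≤ B := by linarith
  have hT : 0 ≤ ∑ α, τ α ^ 2 := sum_nonneg fun _ _ => sq_nonneg _
  have hS : 0 ≤ ∑ α, |τ α| := sum_nonneg fun _ _ => abs_nonneg _
  have h1 := cav_sum_le (f := fun α => mu α * ((u α + ∑ β, P α β * τ β) ^ 2 -
      (u' α + ∑ β, P' α β * τ β) ^ 2)) h.card
    (K := B * (2 * B * e * (2 * B * (1 + ∑ α, τ α ^ 2)))) (by positivity) fun α => by
      rw [abs_mul, abs_of_nonneg (h.mu_mem α).1, sq_sub_sq, abs_mul]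
      refine mul_le_mul (h.mu_mem α).2 ?_ (by positivity) hB0
      have h2 := cav_abs_lin (hu α) (h.P_le α) τ
      have h3 := cav_abs_lin (hu' α) (h'.P_le α) τ
      have h4 := cav_abs_lin (he α) (hP α) τ
      have e1 : u α - u' α + ∑ β, (P α β - P' α β) * τ β =
          u α + ∑ β, P α β * τ β - (u' α + ∑ β, P' α β * τ β) := by
        simp only [sub_mul, sum_sub_distrib]
        ring
      rw [e1] at h4
      have h5 := (abs_add_le _ _).trans (add_le_add h2 h3)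
      calc _ ≤ (B * (1 + ∑ β, |τ β|) + B * (1 + ∑ β, |τ β|)) * (e * (1 + ∑ β, |τ β|)) :=
            mul_le_mul h5 h4 (abs_nonneg _) (by positivity)
        _ = 2 * B * e * (1 + ∑ β, |τ β|) ^ 2 := by ring
        _ ≤ _ := mul_le_mul_of_nonneg_left (cav_one_add_sq hB h.card τ) (by positivity)
  have e2 : Wq mu u P τ - Wq mu u' P' τ = -(∑ α, mu α * ((u α + ∑ β, P α β * τ β) ^ 2 -
      (u' α + ∑ β, P' α β * τ β) ^ 2)) / 2 := by
    simp only [Wq, mul_sub, sum_sub_distrib]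
    ring
  rw [e2, abs_div, abs_neg, abs_two]
  linarith
lemma wq_mulVec (mu u : A → ℝ) (P S : A → A → ℝ) (τ : A → ℝ) :
    Wq mu u P (fun β => ∑ γ, S β γ * τ γ) = Wq mu u (fun α γ => ∑ β, P α β * S β γ) τ := by
  have e : ∀ α, ∑ β, P α β * ∑ γ, S β γ * τ γ = ∑ γ, (∑ β, P α β * S β γ) * τ γ := fun α => by
    simp only [mul_sum, sum_mul, mul_assoc]
    exact sum_comm
  simp only [Wq, e]
lemma me_wq {S : Type} [MeasurableSpace S] [Lev S] (mu : A → ℝ) {u τ : S → A → ℝ} (P : A → A → ℝ)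
    (hu : ∀ α, ME fun s => u s α) (hτ : ∀ α, ME fun s => τ s α) :
    ME fun s => Wq mu (u s) P (τ s) := by
  have h1 : ME fun s => (-1 / 2 : ℝ) * ∑ α, mu α * (u s α + ∑ β, P α β * τ s β) ^ 2 :=
    ME.const_mul _ (ME.sum univ fun α _ => ME.const_mul _
      (((hu α).add (ME.sum univ fun β _ => ME.const_mul _ (hτ β))).pow 2))
  have e : (fun s => Wq mu (u s) P (τ s)) =
      fun s => (-1 / 2 : ℝ) * ∑ α, mu α * (u s α + ∑ β, P α β * τ s β) ^ 2 := by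
    funext s
    unfold Wq
    ring
  rw [e]
  exact h1
end bounds

variable {R : ℕ} {a : ℕ → ℝ} {L : ℝ} {χ χ' χ'' : ℝ → ℝ}

lemma cav_chi_one {Y : Type} [MeasurableSpace Y] [Lev Y] {H W W' : St R Y → ℝ} (ha : Exps R a)
    (hH : ML H) (hχ : IsChi L χ χ' χ'') (hL : 0 ≤ L) (hW : ME W) (hW' : ME W') (h0 : ∀ s, W s ≤ 0)
    (h0' : ∀ s, W' s ≤ 0) :
    val a (fun s => H s + χ (W s)) - val a (fun s => H s + χ (W' s)) ≤
      Real.exp (L + 1) * EE a H fun s => |W s - W' s| := by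
  have m1 := hχ.ml hL hW.meas h0
  have m2 := hχ.ml hL hW'.meas h0'
  have h1 := val_jensen ha (hH.add m1) (hH.add m2).mu
  have hd : ME fun s => |W s - W' s| := (hW.sub hW').abs
  have h2 := EE_le_of_bdd ha hH m1.meas (lo := -L - 1) (hi := 0)
    (fun s => ⟨hχ.ge _, hχ.nonpos hL (h0 s)⟩) hd fun s => abs_nonneg _
  have h3 := EE_mono ha (hH.add m1) (hd.const_mul (-1)) ((hH.add m2).sub (hH.add m1)).me
    fun s => by
      have := abs_le.1 (hχ.lip (W s) (W' s))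
      linarith [this.2]
  rw [EE_const_mul] at h3
  rw [show (0 : ℝ) - (-L - 1) = L + 1 by ring] at h2
  linarith

lemma val_chi_lip {Y : Type} [MeasurableSpace Y] [Lev Y] {H W W' : St R Y → ℝ} (ha : Exps R a)
    (hH : ML H) (hχ : IsChi L χ χ' χ'') (hL : 0 ≤ L) (hW : ME W) (hW' : ME W') (h0 : ∀ s, W s ≤ 0)
    (h0' : ∀ s, W' s ≤ 0) :
    |val a (fun s => H s + χ (W s)) - val a fun s => H s + χ (W' s)| ≤
      Real.exp (L + 1) * EE a H fun s => |W s - W' s| := by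
  have h1 := cav_chi_one ha hH hχ hL hW hW' h0 h0'
  have h2 := cav_chi_one ha hH hχ hL hW' hW h0' h0
  simp only [abs_sub_comm (W' _)] at h2
  exact abs_le.2 ⟨by linarith, h1⟩

variable {Y₁ A : Type} [MeasurableSpace Y₁] [Lev Y₁] [Fintype A] [DecidableEq A]
  {H₁ : St R Y₁ → ℝ} {dc : ℕ → ℝ}

lemma ml_tau (dc : ℕ → ℝ) (α : A) : ML fun s : St R (Y₁ × (A → ℝ)) => tau dc s α :=
  ML.sum univ fun l _ => ML.const_mul _
    (ml_id.comp ((Gro.apply α).comp (Gro.snd.comp (Gro.apply l))))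

/-- The flow of the Gaussian coordinate `α`. -/
noncomputable abbrev cavD (Y₁ : Type) [MeasurableSpace Y₁] [Lev Y₁] (α : A) : Dir (Y₁ × (A → ℝ)) :=
  Dir.snd Y₁ (Dir.pi α Dir.real)

lemma cav_fS_act (α : A) (l : Fin R) (θ : ℝ) (s : St R (Y₁ × (A → ℝ))) :
    fS (act (cavD Y₁ α) l θ s) = fS s := by
  funext j
  by_cases hj : j = l
  · subst hj
    simp only [fS, act_self]
    rfl
  · simp only [fS, act_ne _ hj]

lemma cav_tau_act (dc : ℕ → ℝ) (α : A) (l : Fin R) (θ : ℝ) (s : St R (Y₁ × (A → ℝ))) :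
    tau dc (act (cavD Y₁ α) l θ s) α = tau dc s α + θ * Real.sqrt (dc l) := by
  have e : ∀ j : Fin R, Real.sqrt (dc j) * (act (cavD Y₁ α) l θ s j).2 α =
      Real.sqrt (dc j) * (s j).2 α + if j = l then θ * Real.sqrt (dc l) else 0 := fun j => by
    by_cases hj : j = l
    · subst hj
      rw [act_self, if_pos rfl]
      change Real.sqrt (dc j) * Function.update (s j).2 α ((s j).2 α + θ) α = _
      rw [Function.update_self]
      ring
    · rw [act_ne _ hj, if_neg hj, add_zero]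
  simp only [tau, e, sum_add_distrib, sum_ite_eq', mem_univ, if_true]

lemma cav_hasD_pow (dc : ℕ → ℝ) (α : A) (l : Fin R) (k : ℕ) :
    HasD (cavD Y₁ α) l (fun s : St R (Y₁ × (A → ℝ)) => tau dc s α ^ (k + 1))
      fun s => ((k : ℝ) + 1) * Real.sqrt (dc l) * tau dc s α ^ k := by
  have h1 : HasD (cavD Y₁ α) l (fun s : St R (Y₁ × (A → ℝ)) => tau dc s α)
      fun _ => Real.sqrt (dc l) :=
    HasD.of_lin (ml_tau dc α).me (ME.const _) (cav_tau_act dc α l)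
  induction k with
  | zero => exact h1.congr (fun s => by simp) fun s => by simp
  | succ k ih =>
    refine (ih.mul h1).congr (fun s => by ring) fun s => ?_
    push_cast
    ring

lemma cav_EE_pow (ha : Exps R a) (hH : ML H₁) (hdc : ∀ l < R, 0 ≤ dc l) (α : A) (k : ℕ) :
    EE a (fun s : St R (Y₁ × (A → ℝ)) => H₁ (fS s)) (fun s => tau dc s α ^ (k + 2)) =
      ((k : ℝ) + 1) * (∑ l ∈ range R, dc l) *
        EE a (fun s : St R (Y₁ × (A → ℝ)) => H₁ (fS s)) fun s => tau dc s α ^ k := by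
  have hH' : ML fun s : St R (Y₁ × (A → ℝ)) => H₁ (fS s) := hH.comp gro_fS
  have e : (fun s : St R (Y₁ × (A → ℝ)) => tau dc s α ^ (k + 2)) = fun s => ∑ l : Fin R,
      Real.sqrt (dc l) * ((cavD Y₁ α).γ (s l) * tau dc s α ^ (k + 1)) := by
    funext s
    rw [pow_succ' _ (k + 1)]
    conv_lhs => rw [tau, sum_mul]
    refine sum_congr rfl fun l _ => ?_
    rw [mul_assoc]
    rfl
  rw [e, EE_sum univ ha hH' fun l _ =>
    ME.const_mul _ ((ml_γ _ l).me.mul ((ml_tau dc α).me.pow _)), ← Fin.sum_univ_eq_sum_range,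
    mul_sum, sum_mul]
  refine sum_congr rfl fun l _ => ?_
  rw [EE_const_mul, ibp ha hH' (HasD.of_inv hH'.me fun θ s => by rw [cav_fS_act])
    (cav_hasD_pow dc α l k), Ct_zero_right, add_zero, EE_const_mul]
  have := Real.mul_self_sqrt (hdc l l.2)
  linear_combination ((k : ℝ) + 1) * (EE a (fun s : St R (Y₁ × (A → ℝ)) => H₁ (fS s))
    fun s => tau dc s α ^ k) * this

lemma EE_tau_two (ha : Exps R a) (hH : ML H₁) (hdc : ∀ l < R, 0 ≤ dc l) (α : A) :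
    EE a (fun s : St R (Y₁ × (A → ℝ)) => H₁ (fS s)) (fun s => tau dc s α ^ 2) =
      ∑ l ∈ range R, dc l := by
  have h := cav_EE_pow ha hH hdc α 0
  simp only [pow_zero] at h
  rw [EE_const ha (hH.comp gro_fS)] at h
  simpa using h

lemma EE_tau_four (ha : Exps R a) (hH : ML H₁) (hdc : ∀ l < R, 0 ≤ dc l) (α : A) :
    EE a (fun s : St R (Y₁ × (A → ℝ)) => H₁ (fS s)) (fun s => tau dc s α ^ 4) =
      3 * (∑ l ∈ range R, dc l) ^ 2 := by
  rw [cav_EE_pow ha hH hdc α 2, EE_tau_two ha hH hdc α]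
  push_cast
  ring

lemma cav_me_W {B : ℝ} (mu : A → ℝ) {u : St R Y₁ → A → ℝ} (P : A → A → ℝ) (hu : UB B u)
    (dc : ℕ → ℝ) : ME fun s : St R (Y₁ × (A → ℝ)) => Wq mu (u (fS s)) P (tau dc s) :=
  me_wq mu P (fun α => (ME.of_bdd (hu.meas α) B fun s => hu.le s α).comp gro_fS)
    fun α => (ml_tau dc α).me

lemma mu_HI {B : ℝ} {mu : A → ℝ} {u : St R Y₁ → A → ℝ} {P : A → A → ℝ} (hH : ML H₁)
    (h : WB B mu P) (hu : UB B u) (dc : ℕ → ℝ) : MU (HI id H₁ mu u P dc) :=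
  (hH.comp gro_fS).mu.add (MU.of_nonpos (cav_me_W mu P hu dc) fun _ =>
    wq_nonpos (fun α => (h.mu_mem α).1) _ _ _)

theorem ideal_untrunc {B : ℝ} {mu : A → ℝ} {u : St R Y₁ → A → ℝ} {P : A → A → ℝ} (ha : Exps R a)
    (hH : ML H₁) (hχ : IsChi L χ χ' χ'') (hL : 0 < L) (hB : 1 ≤ B) (h : WB B mu P) (hu : UB B u)
    (hdc : ∀ l < R, 0 ≤ dc l) (hdc' : ∑ l ∈ range R, dc l ≤ B) :
    |val a (HI χ H₁ mu u P dc) - val a (HI id H₁ mu u P dc)| ≤ 24 * B ^ 14 / L := by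
  have hB0 : 0 ≤ B := by linarith
  have hH' : ML fun s : St R (Y₁ × (A → ℝ)) => H₁ (fS s) := hH.comp gro_fS
  have hW := cav_me_W (R := R) mu P hu dc
  have h0 : ∀ s : St R (Y₁ × (A → ℝ)), Wq mu (u (fS s)) P (tau dc s) ≤ 0 := fun _ =>
    wq_nonpos (fun α => (h.mu_mem α).1) _ _ _
  have h1 : val a (HI id H₁ mu u P dc) ≤ val a (HI χ H₁ mu u P dc) :=
    val_mono ha (mu_HI hH h hu dc) (hH'.add (hχ.ml hL.le hW.meas h0)).mu fun s => by
      simp only [HI, id]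
      linarith [hχ.ge' (Wq mu (u (fS s)) P (tau dc s))]
  have h2 := trunc_lower ha hH' hχ hL hW h0 (ML.const 0)
  simp only [abs_zero, add_zero] at h2
  rw [EE_const ha hH', mul_zero, sub_zero] at h2
  have h4 : ∀ α, ME fun s : St R (Y₁ × (A → ℝ)) => tau dc s α ^ 4 := fun α => (ml_tau dc α).me.pow 4
  have h3 := EE_mono ha hH' (hW.pow 2)
    (ME.const_mul (2 * B ^ 11) ((ME.const 1).add (ME.sum univ fun α _ => h4 α)))
    fun s => wq_sq_le hB h (hu.le _) _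
  rw [EE_const_mul, EE_add ha hH' (ME.const 1) (ME.sum univ fun α _ => h4 α), EE_const ha hH',
    EE_sum univ ha hH' fun α _ => h4 α] at h3
  simp only [EE_tau_four ha hH hdc, sum_const, card_univ, nsmul_eq_mul] at h3
  have hs : 0 ≤ ∑ l ∈ range R, dc l := sum_nonneg fun l hl => hdc l (mem_range.1 hl)
  have h5 : (Fintype.card A : ℝ) * (3 * (∑ l ∈ range R, dc l) ^ 2) ≤ B * (3 * B ^ 2) :=
    mul_le_mul h.card (by gcongr) (by positivity) hB0
  have h6 : (1 : ℝ) ≤ B ^ 3 := one_le_pow₀ hB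
  have h7 : EE a (fun s : St R (Y₁ × (A → ℝ)) => H₁ (fS s))
      (fun s => Wq mu (u (fS s)) P (tau dc s) ^ 2) ≤ 8 * B ^ 14 := by
    refine h3.trans ?_
    calc 2 * B ^ 11 * (1 + (Fintype.card A : ℝ) * (3 * (∑ l ∈ range R, dc l) ^ 2))
        ≤ 2 * B ^ 11 * (4 * B ^ 3) := mul_le_mul_of_nonneg_left (by linarith) (by positivity)
      _ = 8 * B ^ 14 := by ring
  have h8 := mul_le_mul_of_nonneg_left h7 (show 0 ≤ 3 / L by positivity)
  have h9 : 3 / L * (8 * B ^ 14) = 24 * B ^ 14 / L := by ring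
  rw [abs_of_nonneg (sub_nonneg.2 h1)]
  change val a (fun s : St R (Y₁ × (A → ℝ)) => H₁ (fS s) + χ (Wq mu (u (fS s)) P (tau dc s))) -
    val a (fun s : St R (Y₁ × (A → ℝ)) => H₁ (fS s) + Wq mu (u (fS s)) P (tau dc s)) ≤ _
  linarith

end Crest.Agent.R164
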