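import Crest.Agent.R164.CasBas
import Crest.Prelude.Def_InvariantGlass

/-!
# R164 / Ch: the one-site chain `Ch` and the operator `gaussOp` on 1-Lipschitz functions

For `a > 0`, `gaussOp a v f z = PM a gs (g ↦ f (z + √v g))`, so the `PM_*` lemmas of `CasBas`
apply (integrability from `integrable_exp_abs_gs`).  Convexity of `gaussOp a v f` for convex `f`:
Hölder (`integral_mul_le_Lp_mul_Lq` or `Real.inner_le_nnorm_mul_nnorm`-free route: for
`λ ∈ [0,1]`, `u^λ w^(1-λ) ≤ λ u + (1-λ) w` applied to the normalised integrands).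
-/

set_option autoImplicit false

open MeasureTheory ProbabilityTheory Finset Crest.ProbabilityR.InvariantGlass

namespace Crest.Agent.R164

/-- `log cosh`. -/
noncomputable def lc (z : ℝ) : ℝ := Real.log (Real.cosh z)

/-- The one-site chain, innermost operator first. -/
noncomputable def Ch (a v : ℕ → ℝ) : ℕ → ℝ → ℝ
  | 0 => lc
  | i + 1 => gaussOp (a i) (v i) (Ch a v i)

lemma Ch_zero (a v : ℕ → ℝ) : Ch a v 0 = lc := by simp only [Ch]
lemma Ch_succ (a v : ℕ → ℝ) (i : ℕ) : Ch a v (i + 1) = gaussOp (a i) (v i) (Ch a v i) := by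
  simp only [Ch]

/-- One-site value `ℓ_b`. -/
noncomputable def osv (a v : ℕ → ℝ) (n : ℕ) (b : ℝ) : ℝ := Ch a v n b - (∑ i ∈ range n, v i) / 2

/-- Constrained one-site value `ℓ^[m]`. -/
noncomputable def osc (a v : ℕ → ℝ) (n : ℕ) (m : ℝ) : ℝ := ⨅ b : ℝ, (osv a v n b - b * m)

/-- Real version of `constrainedFieldValue`. -/
noncomputable def cfv {k : ℕ} (m : ℝ) (w hv : Fin k → ℝ) : ℝ :=
  ⨅ b : ℝ, (fieldValueAt b w hv - b * m)

/-- Tail integral of a trial path. -/
noncomputable def tl (p : ℝ → ℝ) (ζ : ℝ) : ℝ := ∫ s in Set.Ioo ζ 1, p s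

/-- 1-Lipschitz. -/
def Lip1 (f : ℝ → ℝ) : Prop := ∀ x y, |f x - f y| ≤ |x - y|

/-- Convex, 1-Lipschitz, within bounded distance of `|x|`. -/
structure CL (f : ℝ → ℝ) : Prop where
  conv : ConvexOn ℝ Set.univ f
  lip : Lip1 f
  near : ∃ C : ℝ, ∀ x, |f x - (|x|)| ≤ C

/-- Semiconcavity. -/
def SC (C : ℝ) (f : ℝ → ℝ) : Prop := ∀ x h, f (x + h) + f (x - h) - 2 * f x ≤ C * h ^ 2

variable {f g : ℝ → ℝ} {a a' v v' c : ℝ}

lemma ch_int {F : ℝ → ℝ} (hF : Continuous F) {C : ℝ} (hC : ∀ x, |F x| ≤ Real.exp (C * (1 + |x|)))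
    (z t : ℝ) : Integrable (fun y => F (z + t * y)) gs := by
  refine ((integrable_exp_abs_gs (|C| * |t|)).const_mul (Real.exp (|C| * (1 + |z|)))).mono'
    (Continuous.aestronglyMeasurable (by fun_prop)) (ae_of_all _ fun y => (hC _).trans ?_)
  rw [← Real.exp_add, Real.exp_le_exp, mul_assoc, ← mul_add, ← abs_mul]
  exact mul_le_mul (le_abs_self C) (by linarith [abs_add_le z (t * y)]) (by positivity)
    (abs_nonneg C)
lemma Lip1.abs_le (hf : Lip1 f) (x : ℝ) : |f x| ≤ (|f 0| + 1) * (1 + |x|) := by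
  have h := hf x 0
  rw [sub_zero] at h
  nlinarith [abs_sub_abs_le_abs_sub (f x) (f 0), abs_nonneg x, abs_nonneg (f 0)]
lemma Lip1.bd (hf : Lip1 f) (x : ℝ) : |f x| ≤ Real.exp ((|f 0| + 1) * (1 + |x|)) := by
  linarith [hf.abs_le x, Real.add_one_le_exp ((|f 0| + 1) * (1 + |x|))]
lemma Lip1.bd_exp (hf : Lip1 f) (c x : ℝ) :
    |Real.exp (c * f x)| ≤ Real.exp (|c| * (|f 0| + 1) * (1 + |x|)) := by
  rw [abs_of_pos (Real.exp_pos _), Real.exp_le_exp, mul_assoc]
  exact (le_abs_self _).trans ((abs_mul _ _).trans_le (by gcongr; exact hf.abs_le x))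
lemma Lip1.le (hf : Lip1 f) (x y : ℝ) : f x ≤ f y + |x - y| := by
  linarith [le_abs_self (f x - f y), hf x y]
lemma lip1_abs : Lip1 fun x => |x| := abs_abs_sub_abs_le_abs_sub
lemma Lip1.neg (hf : Lip1 f) : Lip1 fun x => -f x := fun x y => by
  rw [neg_sub_neg, abs_sub_comm]; exact hf x y
instance : gs.IsNegInvariant :=
  ⟨(gaussianReal_map_neg (μ := 0) (v := 1)).trans (by rw [neg_zero])⟩

lemma Lip1.continuous (hf : Lip1 f) : Continuous f :=
  (LipschitzWith.of_dist_le_mul (K := 1) fun x y => by simpa [Real.dist_eq] using hf x y).continuous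
lemma Lip1.integrable (hf : Lip1 f) (z t : ℝ) : Integrable (fun y => f (z + t * y)) gs :=
  ch_int hf.continuous hf.bd z t
lemma Lip1.integrable_exp (hf : Lip1 f) (c z t : ℝ) :
    Integrable (fun y => Real.exp (c * f (z + t * y))) gs :=
  ch_int (F := fun x => Real.exp (c * f x)) (have := hf.continuous; by fun_prop) (hf.bd_exp c) z t
lemma gaussOp_eq_PM (ha : a ≠ 0) (v : ℝ) (f : ℝ → ℝ) (z : ℝ) :
    gaussOp a v f z = PM a gs fun y => f (z + Real.sqrt v * y) := if_neg ha
lemma gaussOp_zero_left (v : ℝ) (f : ℝ → ℝ) (z : ℝ) :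
    gaussOp 0 v f z = ∫ y, f (z + Real.sqrt v * y) ∂gs := if_pos rfl
lemma gaussOp_zero_var (a : ℝ) (f : ℝ → ℝ) : gaussOp a 0 f = f := by
  funext z
  by_cases ha : a = 0 <;> simp [gaussOp, ha]
lemma exp_gaussOp (ha : 0 < a) (hf : Lip1 f) (v z : ℝ) :
    Real.exp (a * gaussOp a v f z) = ∫ y, Real.exp (a * f (z + Real.sqrt v * y)) ∂gs := by
  rw [gaussOp_eq_PM ha.ne', exp_PM ha (hf.integrable_exp _ _ _)]
/-- Monotone and commuting with constants. -/
lemma gaussOp_le_add (ha : 0 ≤ a) (hf : Lip1 f) (hg : Lip1 g) {z z' : ℝ}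
    (h : ∀ y, f (z + y) ≤ g (z' + y) + c) : gaussOp a v f z ≤ gaussOp a v g z' + c := by
  rcases ha.eq_or_lt with rfl | ha
  · have := integral_mono (hf.integrable z √v) ((hg.integrable z' √v).add (integrable_const c))
      fun y => h _
    rwa [integral_add' (hg.integrable _ _) (integrable_const c), integral_const, probReal_univ,
      one_smul, ← gaussOp_zero_left, ← gaussOp_zero_left] at this
  · rw [gaussOp_eq_PM ha.ne', gaussOp_eq_PM ha.ne', ← PM_add_const ha (hg.integrable_exp _ _ _)]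
    refine PM_mono ha (hf.integrable_exp _ _ _) ?_ fun y => h _
    simpa only [mul_add, Real.exp_add] using (hg.integrable_exp a z' √v).mul_const _
lemma gaussOp_add_const (ha : 0 ≤ a) (hf : Lip1 f) (c : ℝ) :
    gaussOp a v (fun x => f x + c) = fun x => gaussOp a v f x + c := by
  have hc : Lip1 fun x => f x + c := fun x y => by simpa using hf x y
  funext x
  have := gaussOp_le_add (v := v) (c := -c) (z := x) (z' := x) ha hf hc fun y => by simp
  exact le_antisymm (gaussOp_le_add ha hc hf fun _ => le_rfl) (by linarith)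
lemma Lip1.gauss (ha : 0 ≤ a) (hf : Lip1 f) : Lip1 (gaussOp a v f) := by
  have key : ∀ x y, gaussOp a v f x - gaussOp a v f y ≤ |x - y| := fun x y =>
    sub_le_iff_le_add'.2 (gaussOp_le_add ha hf hf fun u => by simpa using hf.le (x + u) (y + u))
  exact fun x y => abs_sub_le_iff.2 ⟨key x y, abs_sub_comm x y ▸ key y x⟩
lemma ch_sandwich (ha : 0 ≤ a) (hf : Lip1 f) (x : ℝ) :
    gaussOp a v (fun y => -|y|) 0 ≤ gaussOp a v f x - f x ∧
      gaussOp a v f x - f x ≤ gaussOp a v (fun y => |y|) 0 :=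
  ⟨gaussOp_le_add (c := -f x) ha lip1_abs.neg hf fun y => by
      have := hf.le x (x + y)
      simp only [zero_add, sub_add_cancel_left, abs_neg] at this ⊢; linarith,
    sub_le_iff_le_add.2 (gaussOp_le_add ha hf lip1_abs fun y => by
      have := hf.le (x + y) x
      simp only [zero_add, add_sub_cancel_left] at this ⊢; linarith)⟩
/-- normalised form of Hölder's inequality -/
lemma ch_holder {p q : ℝ} (hp : 0 ≤ p) (hq : 0 ≤ q) (hpq : p + q = 1) (u w A B : ℝ) :
    Real.exp (p * u + q * w) ≤ Real.exp (p * A + q * B) *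
      (p * Real.exp (-A) * Real.exp u + q * Real.exp (-B) * Real.exp w) := by
  have h := convexOn_exp.2 (Set.mem_univ (-A + u)) (Set.mem_univ (-B + w)) hp hq hpq
  simp only [smul_eq_mul, Real.exp_add (-A), Real.exp_add (-B), ← mul_assoc] at h
  refine le_trans (le_of_eq ?_) (mul_le_mul_of_nonneg_left h (Real.exp_pos _).le)
  rw [← Real.exp_add]; congr 1; ring
lemma CL.gauss (ha : 0 ≤ a) (hf : CL f) : CL (gaussOp a v f) := by
  refine ⟨⟨convex_univ, fun x _ y _ p q hp hq hpq => ?_⟩, hf.lip.gauss ha, ?_⟩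
  · have h0 : ∀ u, f (p • x + q • y + u) ≤ p * f (x + u) + q * f (y + u) := fun u => by
      have := hf.conv.2 (Set.mem_univ (x + u)) (Set.mem_univ (y + u)) hp hq hpq
      rwa [show p • (x + u) + q • (y + u) = p • x + q • y + u by
        simp only [smul_eq_mul]; linear_combination u * hpq] at this
    have i1 := hf.lip.integrable
    have i2 := hf.lip.integrable_exp a
    simp only [smul_eq_mul] at h0 ⊢
    rcases ha.eq_or_lt with rfl | ha
    · simp only [gaussOp_zero_left, ← integral_const_mul]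
      rw [← integral_add ((i1 _ _).const_mul _) ((i1 _ _).const_mul _)]
      exact integral_mono (i1 _ _) (((i1 _ _).const_mul _).add ((i1 _ _).const_mul _)) fun u => h0 _
    refine le_of_mul_le_mul_left (Real.exp_le_exp.1 ?_) ha
    rw [exp_gaussOp ha hf.lip]
    refine (integral_mono (i2 _ _) ((((i2 x √v).const_mul _).add
      ((i2 y √v).const_mul _)).const_mul _) fun u => le_trans ?_ (ch_holder hp hq hpq _ _
        (a * gaussOp a v f x) (a * gaussOp a v f y))).trans_eq ?_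
    · exact Real.exp_le_exp.2 (by linarith [mul_le_mul_of_nonneg_left (h0 (√v * u)) ha.le])
    · simp only [Pi.add_apply]
      rw [integral_const_mul, integral_add ((i2 _ _).const_mul _) ((i2 _ _).const_mul _),
        integral_const_mul, integral_const_mul, ← exp_gaussOp ha hf.lip, ← exp_gaussOp ha hf.lip,
        mul_assoc p (Real.exp _), mul_assoc q (Real.exp _), ← Real.exp_add, ← Real.exp_add,
        neg_add_cancel, neg_add_cancel, Real.exp_zero, mul_one, mul_one, hpq, mul_one]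
      congr 1; ring
  · obtain ⟨C, hC⟩ := hf.near
    refine ⟨C + |gaussOp a v (fun y => -|y|) 0| + |gaussOp a v (fun y => |y|) 0|, fun x => ?_⟩
    obtain ⟨h1, h2⟩ := ch_sandwich (v := v) ha hf.lip x
    obtain ⟨h3, h4⟩ := abs_le.1 (hC x)
    have h5 := abs_le.1 (le_refl |gaussOp a v (fun y => -|y|) 0|)
    have h6 := abs_le.1 (le_refl |gaussOp a v (fun y => |y|) 0|)
    exact abs_le.2 ⟨by linarith [h5.1, abs_nonneg (gaussOp a v (fun y => |y|) 0)],
      by linarith [h6.2, abs_nonneg (gaussOp a v (fun y => -|y|) 0)]⟩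
lemma gaussOp_even (hf : Lip1 f) (h : ∀ x, f (-x) = f x) (x : ℝ) :
    gaussOp a v f (-x) = gaussOp a v f x := by
  have e : ∀ y, f (-x + √v * -y) = f (x + √v * y) := fun y => by rw [← h]; congr 1; ring
  have h1 := integral_neg_eq_self (fun y => f (-x + √v * y)) gs
  have h2 := integral_neg_eq_self (fun y => Real.exp (a * f (-x + √v * y))) gs
  simp only [e] at h1 h2
  rw [gaussOp, gaussOp, ← h1, ← h2]
lemma gaussOp_mono_exp (ha : 0 ≤ a) (haa : a ≤ a') (hf : Lip1 f) (x : ℝ) :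
    gaussOp a v f x ≤ gaussOp a' v f x := by
  rcases haa.eq_or_lt with rfl | haa'
  · exact le_rfl
  have ha' := ha.trans_lt haa'
  rw [gaussOp_eq_PM ha'.ne']
  rcases ha.eq_or_lt with rfl | ha
  · exact (gaussOp_zero_left _ _ _).trans_le
      (PM_ge_integral ha' (hf.integrable _ _) (hf.integrable_exp _ _ _))
  · rw [gaussOp_eq_PM ha.ne']
    have := hf.continuous
    exact PM_mono_exp ha haa (by fun_prop) (hf.integrable_exp _ _ _)
/-- Jensen. -/
lemma CL.le_gauss (ha : 0 ≤ a) (hf : CL f) (x : ℝ) : f x ≤ gaussOp a v f x := by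
  refine le_trans ?_ (gaussOp_mono_exp le_rfl ha hf.lip x)
  have i1 : Integrable (fun y => √v * y) gs := by
    simpa using Lip1.integrable (f := id) (fun _ _ => le_rfl) 0 √v
  have := hf.conv.map_integral_le hf.lip.continuous.continuousOn isClosed_univ
    (ae_of_all _ fun _ => trivial) ((integrable_const x).add i1) (hf.lip.integrable x √v)
  rw [integral_add' (integrable_const x) i1, integral_const_mul, integral_id_gaussianReal] at this
  simpa [gaussOp_zero_left] using this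
/-- Sum of independent Gaussians (`gaussianReal_conv_gaussianReal` / `gaussianReal_map_const_mul`). -/
lemma integral_gs_gs (hv : 0 ≤ v) (hv' : 0 ≤ v') {F : ℝ → ℝ} (hF : Continuous F) {C : ℝ}
    (hC : ∀ x, |F x| ≤ Real.exp (C * (1 + |x|))) (z : ℝ) :
    ∫ y, ∫ y', F (z + Real.sqrt v * y + Real.sqrt v' * y') ∂gs ∂gs =
      ∫ y, F (z + Real.sqrt (v + v') * y) ∂gs := by
  have m : ∀ c : ℝ, Measurable fun y : ℝ => c * y := fun c => by fun_prop
  have m2 : Measurable fun p : ℝ × ℝ => √v * p.1 + √v' * p.2 := by fun_prop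
  have h1 : (gs.prod gs).map (fun p => √v * p.1 + √v' * p.2) = gs.map (√(v + v') * ·) := by
    have h2 : gs.map (√v * ·) ∗ gs.map (√v' * ·) = gs.map (√(v + v') * ·) := by
      simp only [gaussianReal_map_const_mul, gaussianReal_conv_gaussianReal, mul_zero, add_zero]
      congr 1
      ext
      simp [Real.sq_sqrt hv, Real.sq_sqrt hv', Real.sq_sqrt (add_nonneg hv hv')]
    rw [← h2, Measure.conv, Measure.map_prod_map _ _ (m _) (m _),
      Measure.map_map measurable_add ((m _).prodMap (m _))]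
    rfl
  have c1 : ∀ μ : Measure ℝ, AEStronglyMeasurable (fun u => F (z + u)) μ := fun μ =>
    Continuous.aestronglyMeasurable (by fun_prop)
  have i1 := (integrable_map_measure (c1 _) (m _).aemeasurable).2 (ch_int hF hC z √(v + v'))
  rw [← h1, integrable_map_measure (c1 _) m2.aemeasurable] at i1
  rw [← integral_map (m _).aemeasurable (c1 _), ← h1, integral_map m2.aemeasurable (c1 _)]
  simp only [add_assoc]
  exact (integral_prod _ i1).symm
lemma gaussOp_gaussOp (ha : 0 ≤ a) (hv : 0 ≤ v) (hv' : 0 ≤ v') (hf : Lip1 f) :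
    gaussOp a v (gaussOp a v' f) = gaussOp a (v + v') f := by
  funext z
  rcases ha.eq_or_lt with rfl | ha'
  · simp only [gaussOp_zero_left]
    exact integral_gs_gs hv hv' hf.continuous hf.bd z
  · refine mul_left_cancel₀ ha'.ne' (Real.exp_injective ?_)
    simp only [exp_gaussOp ha' (hf.gauss ha), exp_gaussOp ha' hf]
    exact integral_gs_gs (F := fun x => Real.exp (a * f x)) hv hv'
      (have := hf.continuous; by fun_prop) (hf.bd_exp a) z
/-- Uniform continuity at zero variance: `-√v E|g| ≤ T f - f ≤ log E exp (√v |g|)`. -/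
lemma gaussOp_small (ε : ℝ) (hε : 0 < ε) : ∃ δ > 0, ∀ v, 0 ≤ v → v ≤ δ → ∀ a, 0 ≤ a → a ≤ 1 →
    ∀ f, Lip1 f → ∀ x, |gaussOp a v f x - f x| ≤ ε := by
  have i1 := integrable_exp_abs_gs 1
  obtain ⟨K, hK⟩ : ∃ K, K = ∫ y, Real.exp (1 * |y|) ∂gs := ⟨_, rfl⟩
  have hK0 : 0 < K := hK ▸ integral_exp_pos i1
  refine ⟨(min 1 (ε / K)) ^ 2, by positivity, fun v _ hv a ha ha1 f hf x => ?_⟩
  obtain ⟨t1, t2⟩ := le_min_iff.1 (Real.sqrt_le_iff.2 ⟨by positivity, hv⟩)
  rw [le_div_iff₀ hK0] at t2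
  have t0 := Real.sqrt_nonneg v
  have h1 : gaussOp 1 v (fun y => |y|) 0 ≤ ε := by
    rw [← Real.exp_le_exp, ← one_mul (gaussOp _ _ _ _), exp_gaussOp one_pos lip1_abs]
    refine (integral_mono (lip1_abs.integrable_exp _ _ _)
      ((integrable_const (1 : ℝ)).add (i1.const_mul √v)) fun y => ?_).trans ?_
    · have := convexOn_exp.2 (Set.mem_univ 0) (Set.mem_univ |y|) (sub_nonneg.2 t1) t0 (by ring)
      simp only [smul_eq_mul, mul_zero, zero_add, Real.exp_zero, one_mul, Pi.add_apply, abs_mul,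
        abs_of_nonneg t0] at this ⊢
      linarith
    · rw [integral_add' (integrable_const _) (i1.const_mul _), integral_const_mul, ← hK]
      simp only [integral_const, probReal_univ, one_smul]
      linarith [Real.add_one_le_exp ε]
  obtain ⟨h2, h3⟩ := ch_sandwich (v := v) ha hf x
  have h4 := gaussOp_mono_exp (v := v) le_rfl ha lip1_abs.neg 0
  have h5 := gaussOp_mono_exp (v := v) le_rfl zero_le_one lip1_abs 0
  have h6 := gaussOp_mono_exp (v := v) ha ha1 lip1_abs 0
  rw [gaussOp_zero_left, integral_neg] at h4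
  rw [gaussOp_zero_left] at h5
  exact abs_le.2 ⟨by linarith, by linarith⟩
lemma ch_avg (u w : ℝ) : Real.exp u + Real.exp w =
    2 * (Real.exp ((u + w) / 2) * Real.cosh ((u - w) / 2)) := by
  rw [Real.cosh_eq, ← mul_div_assoc, mul_add, ← Real.exp_add, ← Real.exp_add]
  ring_nf
/-- For `|h| ≤ 1`, with `Z = f (y ± h) - f y ∈ [-|h|, |h|]` and the tilted measure at `x`:
`T f (x ± h) - T f x = a⁻¹ log E exp (a Z) ≤ E Z + a h²` (`exp z ≤ 1 + z + z²` for `|z| ≤ 1`).
For `|h| ≥ 1` the second difference is at most `2 |h| ≤ 2 h²`. -/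
lemma SC.gauss {C : ℝ} (hC : 0 ≤ C) (ha : 0 ≤ a) (ha1 : a ≤ 1) (hf : Lip1 f) (h : SC C f) :
    SC (C + 2) (gaussOp a v f) := by
  intro x d
  have i1 := hf.integrable
  have i2 := hf.integrable_exp a
  have h0 : ∀ u, f (x + d + u) + f (x - d + u) ≤ 2 * f (x + u) + C * d ^ 2 := fun u => by
    have := h (x + u) d
    rw [add_right_comm x u, ← sub_add_eq_add_sub x d u] at this
    linarith
  have d2 := sq_nonneg d
  rcases ha.eq_or_lt with rfl | ha
  · have := integral_mono ((i1 _ √v).add (i1 _ √v))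
      (((i1 _ √v).const_mul _).add (integrable_const _)) fun u => h0 _
    rw [integral_add' (i1 _ _) (i1 _ _), integral_add' ((i1 _ _).const_mul _) (integrable_const _),
      integral_const_mul, integral_const, probReal_univ, one_smul] at this
    simp only [gaussOp_zero_left]
    linarith
  have h1 : ∀ u, Real.exp (a * f (x + d + u)) + Real.exp (a * f (x - d + u)) ≤
      2 * Real.exp (a * ((C + 1) * d ^ 2 / 2)) * Real.exp (a * f (x + u)) := fun u => by
    rw [ch_avg, mul_assoc 2]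
    refine mul_le_mul_of_nonneg_left ((mul_le_mul_of_nonneg_left (Real.cosh_le_exp_half_sq _)
      (Real.exp_pos _).le).trans ?_) zero_le_two
    rw [← Real.exp_add, ← Real.exp_add, Real.exp_le_exp]
    have h2 := sq_le_sq.2 ((hf (x + d + u) (x - d + u)).trans_eq (congrArg _ (by ring : _ = 2 * d)))
    have h3 := mul_le_mul_of_nonneg_left (h0 u) ha.le
    have h4 := mul_le_mul_of_nonneg_left h2 (sq_nonneg a)
    have h5 := mul_le_mul_of_nonneg_left ha1 (mul_nonneg ha.le d2)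
    linarith
  have h2 := integral_mono ((i2 _ √v).add (i2 _ √v)) ((i2 _ √v).const_mul _) fun u => h1 _
  rw [integral_add' (i2 _ _) (i2 _ _), integral_const_mul, ← exp_gaussOp ha hf, ← exp_gaussOp ha hf,
    ← exp_gaussOp ha hf, ch_avg, mul_assoc 2, ← Real.exp_add] at h2
  have h3 := (le_mul_of_one_le_right (Real.exp_pos _).le (Real.one_le_cosh _)).trans
    (le_of_mul_le_mul_left h2 two_pos)
  rw [Real.exp_le_exp] at h3
  refine le_of_mul_le_mul_left ?_ ha
  linarith [mul_nonneg ha.le d2]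

lemma exp_lc (x : ℝ) : Real.exp (lc x) = Real.cosh x := Real.exp_log (Real.cosh_pos x)
lemma ch_lc_le {x c : ℝ} (h : Real.exp x + Real.exp (-x) ≤ 2 * Real.exp c) : lc x ≤ c := by
  rw [← Real.exp_le_exp, exp_lc, Real.cosh_eq]; linarith
lemma ch_lc_bounds (x : ℝ) : |x| - Real.log 2 ≤ lc x ∧ lc x ≤ |x| := by
  refine ⟨?_, ch_lc_le (by
    linarith [Real.exp_le_exp.2 (le_abs_self x), Real.exp_le_exp.2 (neg_le_abs x)])⟩
  rw [← Real.exp_le_exp, exp_lc, ← Real.cosh_abs, Real.cosh_eq, Real.exp_sub, Real.exp_log two_pos]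
  linarith [Real.exp_pos (-|x|)]

lemma cl_lc : CL lc := by
  refine ⟨⟨convex_univ, fun x _ y _ p q hp hq hpq => ch_lc_le ?_⟩, ?_, Real.log 2, fun x => ?_⟩
  · have h1 := ch_holder hp hq hpq x y (lc x) (lc y)
    have h2 := ch_holder hp hq hpq (-x) (-y) (lc x) (lc y)
    have h3 : ∀ z, Real.exp (-lc z) * (Real.exp z + Real.exp (-z)) = 2 := fun z => by
      have := Real.cosh_pos z
      rw [Real.exp_neg (lc z), exp_lc, inv_mul_eq_div, div_eq_iff this.ne', Real.cosh_eq]; ring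
    simp only [smul_eq_mul]
    rw [show -(p * x + q * y) = p * -x + q * -y by ring]
    refine (add_le_add h1 h2).trans_eq ?_
    linear_combination Real.exp (p * lc x + q * lc y) * (p * h3 x + q * h3 y + 2 * hpq)
  · have key : ∀ x y, lc x - lc y ≤ |x - y| := fun x y => sub_le_iff_le_add.2 (ch_lc_le (by
      have h1 := Real.exp_le_exp.2 (show x ≤ |x - y| + y by linarith [le_abs_self (x - y)])
      have h2 := Real.exp_le_exp.2 (show -x ≤ |x - y| + -y by linarith [neg_le_abs (x - y)])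
      rw [Real.exp_add] at h1 h2 ⊢
      rw [exp_lc, Real.cosh_eq]; linarith))
    exact fun x y => abs_sub_le_iff.2 ⟨key x y, abs_sub_comm x y ▸ key y x⟩
  · have := ch_lc_bounds x
    exact abs_le.2 ⟨by linarith, by linarith [Real.log_nonneg one_le_two]⟩
lemma lc_even (x : ℝ) : lc (-x) = lc x := by rw [lc, Real.cosh_neg, lc]
lemma lc_bounds (x : ℝ) : |x| - Real.log 2 ≤ lc x ∧ lc x ≤ |x| := ch_lc_bounds x
/-- `cosh (x+h) cosh (x-h) = cosh² x + sinh² h ≤ cosh² x cosh² h` and `cosh h ≤ exp (h²/2)`. -/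
lemma sc_lc : SC 1 lc := by
  intro x h
  rw [sub_le_iff_le_add, ← Real.exp_le_exp, Real.exp_add, Real.exp_add, two_mul, Real.exp_add,
    exp_lc, exp_lc, exp_lc, Real.cosh_add, Real.cosh_sub, one_mul]
  have h1 : Real.cosh h ^ 2 ≤ Real.exp (h ^ 2) := by
    rw [← add_halves (h ^ 2), Real.exp_add, ← sq]
    exact pow_le_pow_left₀ (Real.cosh_pos h).le (Real.cosh_le_exp_half_sq h) 2
  linarith [mul_le_mul_of_nonneg_right h1 (sq_nonneg (Real.cosh x)),
    sq_nonneg (Real.sinh x * Real.sinh h)]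
lemma gaussOp_one_lc (hv : 0 ≤ v) : gaussOp 1 v lc = fun x => lc x + v / 2 := by
  funext x
  have h1 : ∀ t z : ℝ, t ^ 2 = v → ∫ y, Real.exp (z + t * y) ∂gs = Real.exp z * Real.exp (v / 2) :=
    fun t z ht => by
      have := congrFun (mgf_fun_id_gaussianReal (μ := 0) (v := 1)) t
      simp only [mgf, zero_mul, zero_add, NNReal.coe_one, one_mul, ht] at this
      simp only [Real.exp_add, integral_const_mul, this]
  have i1 : ∀ t z : ℝ, Integrable (fun y => Real.exp (z + t * y)) gs := fun t z => by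
    simpa using Lip1.integrable_exp (f := id) (fun _ _ => le_rfl) 1 z t
  apply Real.exp_injective
  rw [← one_mul (gaussOp _ _ _ _), exp_gaussOp one_pos cl_lc.lip, Real.exp_add]
  simp only [one_mul, exp_lc, Real.cosh_eq, neg_add, ← neg_mul]
  rw [integral_div, integral_add (i1 _ _) (i1 _ _), h1 _ _ (Real.sq_sqrt hv),
    h1 _ _ (by rw [neg_sq, Real.sq_sqrt hv])]
  ring

section chain
variable {a v v' : ℕ → ℝ} {n : ℕ}

lemma Ch_congr {a' : ℕ → ℝ} (ha : ∀ i < n, a i = a' i) (hv : ∀ i < n, v i = v' i) :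
    Ch a v n = Ch a' v' n := by
  induction n with
  | zero => rw [Ch_zero, Ch_zero]
  | succ n ih =>
    rw [Ch_succ, Ch_succ, ha n n.lt_succ_self, hv n n.lt_succ_self,
      ih (fun i hi => ha i (hi.trans n.lt_succ_self)) fun i hi => hv i (hi.trans n.lt_succ_self)]
lemma cl_Ch (ha : ∀ i < n, 0 ≤ a i) (v : ℕ → ℝ) : CL (Ch a v n) := by
  induction n with
  | zero => exact cl_lc
  | succ n ih =>
    exact (ih fun i hi => ha i (hi.trans n.lt_succ_self)).gauss (ha n n.lt_succ_self)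
lemma Ch_even (ha : ∀ i < n, 0 ≤ a i) (v : ℕ → ℝ) (x : ℝ) : Ch a v n (-x) = Ch a v n x := by
  induction n generalizing x with
  | zero => exact lc_even x
  | succ n ih =>
    have h := fun i (hi : i < n) => ha i (hi.trans n.lt_succ_self)
    exact gaussOp_even (cl_Ch h v).lip (ih h) x
lemma Ch_lower (ha : ∀ i < n, 0 ≤ a i) (v : ℕ → ℝ) (x : ℝ) : |x| - Real.log 2 ≤ Ch a v n x := by
  induction n with
  | zero => exact (lc_bounds x).1
  | succ n ih =>
    have h := fun i (hi : i < n) => ha i (hi.trans n.lt_succ_self)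
    exact (ih h).trans ((cl_Ch h v).le_gauss (ha n n.lt_succ_self) x)
lemma Ch_upper (ha : ∀ i < n, 0 ≤ a i ∧ a i ≤ 1) (hv : ∀ i < n, 0 ≤ v i) (x : ℝ) :
    Ch a v n x ≤ lc x + (∑ i ∈ range n, v i) / 2 := by
  induction n generalizing x with
  | zero => simp [Ch_zero]
  | succ n ih =>
    have h := fun i (hi : i < n) => ha i (hi.trans n.lt_succ_self)
    have h1 : gaussOp (a n) (v n) (Ch a v n) x ≤
        gaussOp (a n) (v n) lc x + (∑ i ∈ range n, v i) / 2 :=
      gaussOp_le_add (ha n n.lt_succ_self).1 (cl_Ch (fun i hi => (h i hi).1) v).lip cl_lc.lip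
        fun y => ih h (fun i hi => hv i (hi.trans n.lt_succ_self)) _
    have h2 : gaussOp (a n) (v n) lc x ≤ gaussOp 1 (v n) lc x :=
      gaussOp_mono_exp (ha n n.lt_succ_self).1 (ha n n.lt_succ_self).2 cl_lc.lip x
    rw [gaussOp_one_lc (hv n n.lt_succ_self)] at h2
    rw [Ch_succ, Finset.sum_range_succ]
    linarith
lemma Ch_mono_exp {a' : ℕ → ℝ} (ha : ∀ i < n, 0 ≤ a i ∧ a i ≤ a' i) (v : ℕ → ℝ) (x : ℝ) :
    Ch a v n x ≤ Ch a' v n x := by
  induction n generalizing x with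
  | zero => rw [Ch_zero, Ch_zero]
  | succ n ih =>
    have h := fun i (hi : i < n) => ha i (hi.trans n.lt_succ_self)
    have hl := (cl_Ch (fun i hi => (h i hi).1.trans (h i hi).2) v).lip
    have h1 : gaussOp (a n) (v n) (Ch a v n) x ≤ gaussOp (a n) (v n) (Ch a' v n) x + 0 :=
      gaussOp_le_add (ha n n.lt_succ_self).1 (cl_Ch (fun i hi => (h i hi).1) v).lip hl
        fun y => (ih h _).trans_eq (add_zero _).symm
    rw [Ch_succ, Ch_succ]
    exact (h1.trans_eq (add_zero _)).trans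
      (gaussOp_mono_exp (ha n n.lt_succ_self).1 (ha n n.lt_succ_self).2 hl x)

/-- `c⁻¹ log (exp (c x) + exp (-c x))` -/
noncomputable def chG (c x : ℝ) : ℝ := c⁻¹ * (lc (c * x) + Real.log 2)

lemma chG_eq (c x : ℝ) : chG c x = c⁻¹ * Real.log (Real.exp (c * x) + Real.exp (-(c * x))) := by
  rw [chG, lc, ← Real.log_mul (Real.cosh_pos _).ne' two_ne_zero, Real.cosh_eq,
    div_mul_cancel₀ _ two_ne_zero]

lemma chG_lip {c : ℝ} (hc : 0 < c) : Lip1 (chG c) := by
  intro x y
  have h := cl_lc.lip (c * x) (c * y)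
  rw [← mul_sub, abs_mul, abs_of_pos hc] at h
  rw [chG, chG, ← mul_sub, add_sub_add_right_eq_sub, abs_mul, abs_of_pos (inv_pos.2 hc),
    inv_mul_le_iff₀ hc]
  exact h

lemma chG_anti {c c' : ℝ} (hc : 0 < c) (h : c ≤ c') (x : ℝ) : chG c' x ≤ chG c x := by
  have h1 := Real.rpow_add_rpow_le (Real.exp_pos x).le (Real.exp_pos (-x)).le hc h
  simp only [← Real.exp_mul] at h1
  have h2 := Real.log_le_log (by positivity) h1
  rw [Real.log_rpow (by positivity), Real.log_rpow (by positivity), one_div, one_div] at h2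
  rw [chG_eq, chG_eq]
  simpa only [mul_comm, neg_mul, mul_neg] using h2

lemma chG_gauss {c w : ℝ} (hc : 0 < c) (hw : 0 ≤ w) (x : ℝ) :
    gaussOp c w (chG c) x = chG c x + c * w / 2 := by
  have h1 := congrFun (gaussOp_one_lc (mul_nonneg (sq_nonneg c) hw)) (c * x)
  rw [gaussOp_eq_PM one_ne_zero, Real.sqrt_mul (sq_nonneg c), Real.sqrt_sq hc.le] at h1
  have h2 := PM_add_const (ν := gs) one_pos (cl_lc.lip.integrable_exp 1 (c * x) (c * Real.sqrt w))
    (Real.log 2)
  rw [h1] at h2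
  rw [gaussOp_eq_PM hc.ne', PM]
  rw [PM, inv_one, one_mul] at h2
  simp only [chG, mul_inv_cancel_left₀ hc.ne', mul_add, one_mul, ← mul_assoc] at h2 ⊢
  rw [h2]
  field_simp
  ring

lemma ch_lc_zero : lc 0 = 0 := by simp [lc]

/-- Coercivity.  With `g_c x = c⁻¹ log (exp (c x) + exp (-c x))`: `lc ≤ g_1`, `g_{c'} ≤ g_c` for
`c ≤ c'` (`ℓ^p` norms, `Real.rpow_add_le_add_rpow`) and `gaussOp c v g_c = g_c + c v / 2`, so
`Ch (i+1) ≤ g_{a i} + Σ_{j ≤ i} a j v j / 2`. -/
lemma Ch_coercive {R : ℕ} (ha : Exps R a) (hR : 0 < R) (hv : ∀ i < R, 0 ≤ v i) :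
    Ch a v R 0 ≤ Real.log 2 / a (R - 1) + (∑ i ∈ range R, a i * v i) / 2 := by
  have key : ∀ i ≤ R, ∀ c, 0 < c → c ≤ 1 → (∀ j < i, c ≤ a j) → ∀ x,
      Ch a v i x ≤ chG c x + (∑ j ∈ range i, a j * v j) / 2 := by
    intro i
    induction i with
    | zero =>
      intro _ c hc hc1 _ x
      have h1 := chG_anti hc hc1 x
      rw [chG, inv_one, one_mul, one_mul] at h1
      have := Real.log_pos one_lt_two
      simp only [Ch_zero, range_zero, sum_empty, zero_div, add_zero]
      linarith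
    | succ i ih =>
      intro hi c hc _ hca x
      have hai := ha.pos i hi
      have h1 : gaussOp (a i) (v i) (Ch a v i) x ≤
          gaussOp (a i) (v i) (chG (a i)) x + (∑ j ∈ range i, a j * v j) / 2 :=
        gaussOp_le_add hai.le (cl_Ch (fun j hj => (ha.pos j (by omega)).le) v).lip (chG_lip hai)
          fun y => ih (by omega) _ hai (ha.zero ▸ ha.anti (Nat.zero_le i))
            (fun j hj => ha.anti hj.le) _
      rw [chG_gauss hai (hv i hi)] at h1
      rw [Ch_succ, Finset.sum_range_succ]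
      linarith [chG_anti hc (hca i i.lt_succ_self) x]
  have h := key R le_rfl (a (R - 1)) (ha.pos _ (by omega)) (ha.zero ▸ ha.anti (Nat.zero_le _))
    (fun j hj => ha.anti (by omega)) 0
  rwa [chG, mul_zero, ch_lc_zero, zero_add, inv_mul_eq_div] at h
/-- The innermost variance is immaterial when `a 0 = 1`. -/
lemma osv_update_zero (ha0 : a 0 = 1) (ha : ∀ i < n, 0 ≤ a i) (hn : 0 < n) (hv : 0 ≤ v 0) (b : ℝ) :
    osv a v n b = osv a (Function.update v 0 0) n b := by
  have key : ∀ k, k + 1 ≤ n →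
      Ch a v (k + 1) = fun x => Ch a (Function.update v 0 0) (k + 1) x + v 0 / 2 := by
    intro k
    induction k with
    | zero =>
      intro _
      rw [Ch_succ, Ch_succ, Ch_zero, Ch_zero, Function.update_self, gaussOp_zero_var, ha0,
        gaussOp_one_lc hv]
    | succ k ih =>
      intro hk
      rw [Ch_succ a v (k + 1), ih (by omega), Ch_succ a _ (k + 1),
        Function.update_of_ne (Nat.succ_ne_zero k),
        gaussOp_add_const (ha _ (by omega)) (cl_Ch (fun i hi => ha i (by omega)) _).lip]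
  obtain ⟨k, rfl⟩ : ∃ k, n = k + 1 := ⟨n - 1, by omega⟩
  simp only [osv]
  rw [key k le_rfl, Finset.sum_range_succ', Finset.sum_range_succ', Function.update_self]
  simp only [Function.update_of_ne (Nat.succ_ne_zero _)]
  ring

lemma osc_lower (ha : ∀ i < n, 0 ≤ a i) (v : ℕ → ℝ) (m b : ℝ) :
    (1 - |m|) * |b| - Real.log 2 - (∑ i ∈ range n, v i) / 2 ≤ osv a v n b - b * m := by
  have h1 := Ch_lower ha v b
  have h2 := le_abs_self (b * m)
  rw [abs_mul] at h2
  rw [osv]
  linarith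

lemma osc_lower' (ha : ∀ i < n, 0 ≤ a i) (v : ℕ → ℝ) {m : ℝ} (hm : |m| ≤ 1) (b : ℝ) :
    -Real.log 2 - (∑ i ∈ range n, v i) / 2 ≤ osv a v n b - b * m := by
  have := mul_nonneg (sub_nonneg.2 hm) (abs_nonneg b)
  linarith [osc_lower ha v m b]

lemma osv_zero_le (ha : ∀ i < n, 0 ≤ a i ∧ a i ≤ 1) (hv : ∀ i < n, 0 ≤ v i) : osv a v n 0 ≤ 0 := by
  have := Ch_upper ha hv 0
  rw [ch_lc_zero] at this
  rw [osv]
  linarith

lemma osc_le (ha : ∀ i < n, 0 ≤ a i) (v : ℕ → ℝ) {m : ℝ} (hm : |m| ≤ 1) (b : ℝ) :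
    osc a v n m ≤ osv a v n b - b * m :=
  ciInf_le (f := fun b => osv a v n b - b * m)
    ⟨_, by rintro _ ⟨b, rfl⟩; exact osc_lower' ha v hm b⟩ b
/-- A minimiser exists, may be taken with the sign of `m`, and is bounded
(`(1 - |m|) |b| - log 2 ≤ Ch b - b m ≤ Ch 0 ≤ Σ v / 2`). -/
lemma exists_osc (ha : ∀ i < n, 0 ≤ a i ∧ a i ≤ 1) (hv : ∀ i < n, 0 ≤ v i) {m : ℝ} (hm : |m| < 1) :
    ∃ b, osc a v n m = osv a v n b - b * m ∧ 0 ≤ b * m ∧ (m = 0 → b = 0) ∧
      (1 - |m|) * |b| ≤ Real.log 2 + (∑ i ∈ range n, v i) / 2 := by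
  have ha' : ∀ i < n, 0 ≤ a i := fun i hi => (ha i hi).1
  have hbd : ∀ b, osv a v n b - b * m ≤ osv a v n 0 - 0 * m →
      (1 - |m|) * |b| ≤ Real.log 2 + (∑ i ∈ range n, v i) / 2 := fun b hb => by
    linarith [osc_lower ha' v m b, osv_zero_le ha hv]
  have hfin : ∀ b, (∀ y, osv a v n b - b * m ≤ osv a v n y - y * m) →
      osc a v n m = osv a v n b - b * m := fun b hb =>
    le_antisymm (osc_le ha' v hm.le b) (le_ciInf hb)
  by_cases h0 : m = 0
  · refine ⟨0, hfin 0 fun y => ?_, by simp, fun _ => rfl, hbd 0 le_rfl⟩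
    have h1 := (cl_Ch ha' v).conv.2 (Set.mem_univ y) (Set.mem_univ (-y))
      (show (0 : ℝ) ≤ 1 / 2 by norm_num) (show (0 : ℝ) ≤ 1 / 2 by norm_num) (by norm_num)
    rw [Ch_even ha', smul_neg, add_neg_cancel, smul_eq_mul] at h1
    simp only [osv, h0, mul_zero, sub_zero]
    linarith
  · have hc : Continuous fun b => osv a v n b - b * m :=
      ((cl_Ch ha' v).lip.continuous.sub continuous_const).sub (continuous_id.mul continuous_const)
    have hm' : 0 < 1 - |m| := sub_pos.2 hm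
    obtain ⟨b, hb⟩ := hc.exists_forall_le_of_isBounded 0
      ((Metric.isBounded_closedBall (x := (0 : ℝ))
        (r := (Real.log 2 + (∑ i ∈ range n, v i) / 2) / (1 - |m|))).subset fun b hb => by
          rw [mem_closedBall_zero_iff, Real.norm_eq_abs, le_div_iff₀' hm']
          exact hbd b hb)
    refine ⟨b, hfin b hb, ?_, fun h => absurd h h0, hbd b (hb 0)⟩
    have := hb (-b)
    simp only [osv, Ch_even ha'] at this
    linarith
lemma abs_osc_le (ha : ∀ i < n, 0 ≤ a i ∧ a i ≤ 1) (hv : ∀ i < n, 0 ≤ v i) {m : ℝ} (hm : |m| ≤ 1) :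
    |osc a v n m| ≤ 1 + (∑ i ∈ range n, v i) / 2 := by
  have ha' : ∀ i < n, 0 ≤ a i := fun i hi => (ha i hi).1
  have h1 := osc_le ha' v hm 0
  have h2 : -Real.log 2 - (∑ i ∈ range n, v i) / 2 ≤ osc a v n m := le_ciInf (osc_lower' ha' v hm)
  have h3 : 0 ≤ ∑ i ∈ range n, v i := Finset.sum_nonneg fun i hi => hv i (Finset.mem_range.1 hi)
  have h4 := Real.log_le_sub_one_of_pos two_pos
  rw [abs_le]
  constructor <;> linarith [osv_zero_le ha hv]
/-- Uniform continuity in the variances (semigroup, `gaussOp_small`, `gaussOp_le_add`). -/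
lemma Ch_cont (n : ℕ) (ε : ℝ) (hε : 0 < ε) : ∃ δ > 0, ∀ a v v' : ℕ → ℝ,
    (∀ i < n, 0 ≤ a i ∧ a i ≤ 1) → (∀ i < n, 0 ≤ v i) → (∀ i < n, 0 ≤ v' i) →
    (∀ i < n, |v i - v' i| ≤ δ) → ∀ x, |Ch a v n x - Ch a v' n x| ≤ ε := by
  induction n generalizing ε with
  | zero => exact ⟨1, one_pos, fun a v v' _ _ _ _ x => by simp [Ch_zero, hε.le]⟩
  | succ n ih =>
    obtain ⟨δ₁, hδ₁, h₁⟩ := ih (ε / 2) (half_pos hε)
    obtain ⟨δ₂, hδ₂, h₂⟩ := gaussOp_small (ε / 2) (half_pos hε)
    refine ⟨min δ₁ δ₂, lt_min hδ₁ hδ₂, fun a v v' ha hv hv' hd x => ?_⟩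
    have hn := n.lt_succ_self
    have h := fun i (hi : i < n) => ha i (hi.trans hn)
    have hl := (cl_Ch (fun i hi => (h i hi).1) v).lip
    have hl' := (cl_Ch (fun i hi => (h i hi).1) v').lip
    have h3 := h₁ a v v' h (fun i hi => hv i (hi.trans hn)) (fun i hi => hv' i (hi.trans hn))
      fun i hi => (hd i (hi.trans hn)).trans (min_le_left _ _)
    have h4 : gaussOp (a n) (v n) (Ch a v n) x ≤ gaussOp (a n) (v n) (Ch a v' n) x + ε / 2 :=
      gaussOp_le_add (ha n hn).1 hl hl' fun y => by linarith [(abs_le.1 (h3 (x + y))).2]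
    have h5 : gaussOp (a n) (v n) (Ch a v' n) x ≤ gaussOp (a n) (v n) (Ch a v n) x + ε / 2 :=
      gaussOp_le_add (ha n hn).1 hl' hl fun y => by linarith [(abs_le.1 (h3 (x + y))).1]
    have key : ∀ w w' : ℝ, 0 ≤ w' → w' ≤ w → w - w' ≤ δ₂ →
        |gaussOp (a n) w (Ch a v' n) x - gaussOp (a n) w' (Ch a v' n) x| ≤ ε / 2 := by
      intro w w' h6 h7 h8
      have := h₂ (w - w') (sub_nonneg.2 h7) h8 (a n) (ha n hn).1 (ha n hn).2 _
        (hl'.gauss (v := w') (ha n hn).1) x
      rwa [gaussOp_gaussOp (ha n hn).1 (sub_nonneg.2 h7) h6 hl', sub_add_cancel] at this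
    have h9 := abs_le.1 ((hd n hn).trans (min_le_right _ _))
    have h10 : |gaussOp (a n) (v n) (Ch a v' n) x - gaussOp (a n) (v' n) (Ch a v' n) x| ≤ ε / 2 := by
      rcases le_total (v' n) (v n) with h11 | h11
      · exact key _ _ (hv' n hn) h11 h9.2
      · rw [abs_sub_comm]
        exact key _ _ (hv n hn) h11 (by linarith [h9.1])
    rw [Ch_succ, Ch_succ, abs_le]
    constructor <;> linarith [abs_le.1 h10]
lemma osc_cont (n : ℕ) (ε : ℝ) (hε : 0 < ε) : ∃ δ > 0, ∀ a v v' : ℕ → ℝ,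
    (∀ i < n, 0 ≤ a i ∧ a i ≤ 1) → (∀ i < n, 0 ≤ v i) → (∀ i < n, 0 ≤ v' i) →
    (∀ i < n, |v i - v' i| ≤ δ) → ∀ m, |m| ≤ 1 → |osc a v n m - osc a v' n m| ≤ ε := by
  obtain ⟨δ, hδ, h⟩ := Ch_cont n (ε / 2) (half_pos hε)
  refine ⟨min δ (ε / (n + 1)), lt_min hδ (by positivity), fun a v v' ha hv hv' hd m hm => ?_⟩
  have ha' : ∀ i < n, 0 ≤ a i := fun i hi => (ha i hi).1
  have h1 := h a v v' ha hv hv' fun i hi => (hd i hi).trans (min_le_left _ _)
  have h2 : |∑ i ∈ range n, v i - ∑ i ∈ range n, v' i| ≤ ε := by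
    rw [← Finset.sum_sub_distrib]
    refine (Finset.abs_sum_le_sum_abs _ _).trans ((Finset.sum_le_sum (g := fun _ => ε / (n + 1))
      fun i hi => (hd i (Finset.mem_range.1 hi)).trans (min_le_right _ _)).trans ?_)
    rw [Finset.sum_const, Finset.card_range, nsmul_eq_mul, mul_div_assoc', div_le_iff₀ (by positivity)]
    nlinarith
  have h3 : ∀ b, |osv a v n b - osv a v' n b| ≤ ε := fun b => by
    rw [osv, osv, abs_le]
    constructor <;> linarith [abs_le.1 (h1 b), abs_le.1 h2]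
  have h4 : osc a v n m - ε ≤ osc a v' n m :=
    le_ciInf fun b => by linarith [osc_le ha' v hm b, (abs_le.1 (h3 b)).2]
  have h5 : osc a v' n m - ε ≤ osc a v n m :=
    le_ciInf fun b => by linarith [osc_le ha' v' hm b, (abs_le.1 (h3 b)).1]
  rw [abs_le]
  constructor <;> linarith
end chain

end Crest.Agent.R164
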