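import Crest.Agent.R164.DualSM

/-!
# R164 / Concave: midpoint concavity of the constrained one-site value in the variances

Fix a mesh `δ > 0`.  A *time vector* is `t : ℕ → ℕ`, antitone on `[0,n]`; level `i < n` occupies the
cells `c ∈ [t (i+1), t i)`, the cells `c < t n` are pinned (absent), the cells `c ∈ [t 0, L)` have
exponent `1`.  `Ug a n δ s t = osc a (fun i => δ (t i - t (i+1))) n s`.
`Ug_supermod`: let `α t c` be the minimum of `1` and the `a i` with `i < n`, `c < t i`.  By downward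
induction `ExL [(α t c, δ) | c ∈ [t i, L)] = Ch a v i + (L - t 0) δ / 2` (`gaussOp_gaussOp`,
`gaussOp_zero_var`, `gaussOp_one_lc`, `gaussOp_add_const`; `List.range'`), so
`Ug t = DD (ExL [..| c ∈ [t n, L)]) s - (L - t n) δ / 2`.  `α (t ⊔ t') = min`, `α (t ⊓ t') = max`
(the index sets are initial segments).  With `t n ≥ t' n`, apply `exl_supermod` with
`Pf = [(α t' c, δ) | c ∈ [t' n, t n)]` (there `α (t ⊓ t') c = α t' c`, as `c < t n ≤ t i`).
`Ug_reflect`: apply it to `p` and `q + k`, and use translation invariance of `Ug`.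
`Ug_balance`: strong induction on `d = max |p i - q i|`; for `d ≥ 2` reflect with `k = (d+1)/2`
(differences `p - q` then lie in `[-d, k]`), swap and reflect again (in `[-k, k]`).
`osc_midpoint`: `p i = Σ_{i ≤ j < n} ⌊v j / δ⌋₊`, likewise `q`; `osc_cont`; let `δ → 0`.
-/

set_option autoImplicit false

open MeasureTheory ProbabilityTheory Finset Crest.ProbabilityR.InvariantGlass

namespace Crest.Agent.R164

/-- Constrained value on a grid. -/
noncomputable def Ug (a : ℕ → ℝ) (n : ℕ) (δ s : ℝ) (t : ℕ → ℕ) : ℝ :=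
  osc a (fun i => δ * ((t i : ℝ) - t (i + 1))) n s

variable {a : ℕ → ℝ} {n : ℕ} {δ s : ℝ}

/-- The exponent of the cell `c`. -/
noncomputable def conc_al (a : ℕ → ℝ) (t : ℕ → ℕ) (c : ℕ) : ℕ → ℝ
  | 0 => 1
  | n + 1 => if c < t n then a n else conc_al a t c n

lemma conc_al_zero (t : ℕ → ℕ) (c : ℕ) : conc_al a t c 0 = 1 := by simp only [conc_al]

lemma conc_al_succ (t : ℕ → ℕ) (c n : ℕ) :
    conc_al a t c (n + 1) = if c < t n then a n else conc_al a t c n := by simp only [conc_al]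

lemma conc_al_ge {x : ℝ} (hx : x ≤ 1) (h : ∀ i < n, x ≤ a i) (t : ℕ → ℕ) (c : ℕ) :
    x ≤ conc_al a t c n := by
  induction n with
  | zero => rw [conc_al_zero]; exact hx
  | succ n ih =>
    rw [conc_al_succ]
    split_ifs
    · exact h n n.lt_succ_self
    · exact ih fun i hi => h i (hi.trans n.lt_succ_self)

lemma conc_al_le_one (ha : ∀ i < n, 0 ≤ a i ∧ a i ≤ 1) (t : ℕ → ℕ) (c : ℕ) :
    conc_al a t c n ≤ 1 := by
  induction n with
  | zero => rw [conc_al_zero]
  | succ n ih =>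
    rw [conc_al_succ]
    split_ifs
    · exact (ha n n.lt_succ_self).2
    · exact ih fun i hi => ha i (hi.trans n.lt_succ_self)

lemma conc_al_nonneg (ha : ∀ i < n, 0 ≤ a i ∧ a i ≤ 1) (t : ℕ → ℕ) (c : ℕ) :
    0 ≤ conc_al a t c n := conc_al_ge zero_le_one (fun i hi => (ha i hi).1) t c

lemma conc_al_le_all (ha : ∀ i < n, 0 ≤ a i ∧ a i ≤ 1) (ha' : ∀ i j, i ≤ j → j < n → a j ≤ a i)
    {t : ℕ → ℕ} {c : ℕ} (h : ∀ i < n, c < t i) (t' : ℕ → ℕ) :
    conc_al a t c n ≤ conc_al a t' c n := by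
  cases n with
  | zero => rw [conc_al_zero, conc_al_zero]
  | succ n =>
    rw [conc_al_succ t, if_pos (h n n.lt_succ_self)]
    exact conc_al_ge (ha n n.lt_succ_self).2
      (fun i hi => ha' i n (Nat.lt_succ_iff.1 hi) n.lt_succ_self) t' c

lemma conc_anti {t : ℕ → ℕ} (ht : ∀ i < n, t (i + 1) ≤ t i) {i j : ℕ} (hij : i ≤ j) (hj : j ≤ n) :
    t j ≤ t i := by
  induction j, hij using Nat.le_induction with
  | base => exact le_rfl
  | succ j _ ih => exact (ht j hj).trans (ih (Nat.le_of_succ_le hj))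

lemma conc_al_max (ha : ∀ i < n, 0 ≤ a i ∧ a i ≤ 1) (ha' : ∀ i j, i ≤ j → j < n → a j ≤ a i)
    (t t' : ℕ → ℕ) (c : ℕ) :
    conc_al a (fun i => max (t i) (t' i)) c n = min (conc_al a t c n) (conc_al a t' c n) := by
  induction n with
  | zero => simp [conc_al_zero]
  | succ n ih =>
    have h1 : ∀ τ : ℕ → ℕ, a n ≤ conc_al a τ c n := fun τ =>
      conc_al_ge (ha n n.lt_succ_self).2
        (fun i hi => ha' i n hi.le n.lt_succ_self) τ c
    rw [conc_al_succ, conc_al_succ, conc_al_succ,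
      ih (fun i hi => ha i (hi.trans n.lt_succ_self))
        fun i j hij hj => ha' i j hij (hj.trans n.lt_succ_self)]
    by_cases h : c < t n <;> by_cases h' : c < t' n
    · rw [if_pos (lt_max_of_lt_left h), if_pos h, if_pos h', min_self]
    · rw [if_pos (lt_max_of_lt_left h), if_pos h, if_neg h', min_eq_left (h1 t')]
    · rw [if_pos (lt_max_of_lt_right h'), if_neg h, if_pos h', min_eq_right (h1 t)]
    · rw [if_neg (by omega), if_neg h, if_neg h']

lemma conc_al_min (ha : ∀ i < n, 0 ≤ a i ∧ a i ≤ 1) (ha' : ∀ i j, i ≤ j → j < n → a j ≤ a i)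
    {t t' : ℕ → ℕ} (ht : ∀ i < n, t (i + 1) ≤ t i) (ht' : ∀ i < n, t' (i + 1) ≤ t' i) (c : ℕ) :
    conc_al a (fun i => min (t i) (t' i)) c n = max (conc_al a t c n) (conc_al a t' c n) := by
  induction n with
  | zero => simp [conc_al_zero]
  | succ n ih =>
    have h1 : ∀ τ : ℕ → ℕ, a n ≤ conc_al a τ c n := fun τ =>
      conc_al_ge (ha n n.lt_succ_self).2
        (fun i hi => ha' i n hi.le n.lt_succ_self) τ c
    have ha1 := fun i (hi : i < n) => ha i (hi.trans n.lt_succ_self)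
    have ha2 := fun i j (hij : i ≤ j) (hj : j < n) => ha' i j hij (hj.trans n.lt_succ_self)
    rw [conc_al_succ, conc_al_succ, conc_al_succ,
      ih ha1 ha2 (fun i hi => ht i (hi.trans n.lt_succ_self))
        fun i hi => ht' i (hi.trans n.lt_succ_self)]
    by_cases h : c < t n <;> by_cases h' : c < t' n
    · rw [if_pos (lt_min h h'), if_pos h, if_pos h', max_self]
    · rw [if_neg (by omega), if_pos h, if_neg h', max_eq_right (h1 t'),
        max_eq_right (conc_al_le_all ha1 ha2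
          (fun i hi => h.trans_le (conc_anti ht hi.le n.le_succ)) t')]
    · rw [if_neg (by omega), if_neg h, if_pos h', max_eq_left (h1 t),
        max_eq_left (conc_al_le_all ha1 ha2
          (fun i hi => h'.trans_le (conc_anti ht' hi.le n.le_succ)) t)]
    · rw [if_neg (by omega), if_neg h, if_neg h']

lemma conc_al_top {t : ℕ → ℕ} (ht : ∀ i < n, t (i + 1) ≤ t i) {c : ℕ} (hc : t 0 ≤ c) :
    conc_al a t c n = 1 := by
  induction n with
  | zero => exact conc_al_zero t c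
  | succ n ih =>
    have := conc_anti ht (Nat.zero_le n) n.le_succ
    rw [conc_al_succ, if_neg (by omega), ih fun i hi => ht i (hi.trans n.lt_succ_self)]

lemma conc_al_block {t : ℕ → ℕ} (ht : ∀ i < n, t (i + 1) ≤ t i) {c i : ℕ} (hi : i < n)
    (hc : t (i + 1) ≤ c) (hc' : c < t i) : conc_al a t c n = a i := by
  induction n, hi using Nat.le_induction with
  | base => rw [conc_al_succ, if_pos hc']
  | succ n hn ih =>
    have := conc_anti ht hn n.le_succ
    rw [conc_al_succ, if_neg (by simp only [Nat.succ_eq_add_one] at this; omega),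
      ih fun i hi => ht i (hi.trans n.lt_succ_self)]

lemma conc_ExL_cons (p : ℝ × ℝ) (L : List (ℝ × ℝ)) :
    ExL (p :: L) = gaussOp p.1 p.2 (ExL L) := rfl

lemma conc_block (hδ : 0 ≤ δ) {α : ℝ} (hα : 0 ≤ α) (f : ℕ → ℝ) (rest : List (ℝ × ℝ))
    (hr : Lip1 (ExL rest)) (m : ℕ) : ∀ c : ℕ, (∀ c', c ≤ c' → c' < c + m → f c' = α) →
      ExL (((List.range' c m).map fun c => (f c, δ)) ++ rest) = gaussOp α (δ * m) (ExL rest) := by
  induction m with
  | zero => intro c _; simp [gaussOp_zero_var]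
  | succ m ih =>
    intro c h
    rw [List.range'_succ, List.map_cons, List.cons_append, conc_ExL_cons,
      ih (c + 1) fun c' h1 h2 => h c' (by omega) (by omega), h c le_rfl (by omega),
      gaussOp_gaussOp hα hδ (by positivity) hr]
    congr 1
    push_cast
    ring

lemma conc_split {x y z : ℕ} (h : x ≤ y) (h' : y ≤ z) :
    List.range' x (z - x) = List.range' x (y - x) ++ List.range' y (z - y) := by
  have h1 : List.range' x (y - x) ++ List.range' (x + (y - x)) (z - y) =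
      List.range' x ((y - x) + (z - y)) := List.range'_append_1
  rw [show x + (y - x) = y by omega, show (y - x) + (z - y) = z - x by omega] at h1
  exact h1.symm

lemma conc_chain (ha : ∀ i < n, 0 ≤ a i ∧ a i ≤ 1) (hδ : 0 ≤ δ) {t : ℕ → ℕ}
    (ht : ∀ i < n, t (i + 1) ≤ t i) {L : ℕ} (hL : t 0 ≤ L) (i : ℕ) (hi : i ≤ n) :
    ExL ((List.range' (t i) (L - t i)).map fun c => (conc_al a t c n, δ)) =
      fun x => Ch a (fun i => δ * ((t i : ℝ) - t (i + 1))) i x + δ * ((L : ℝ) - t 0) / 2 := by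
  induction i with
  | zero =>
    have h := conc_block hδ zero_le_one (fun c => conc_al a t c n) [] cl_lc.lip (L - t 0) (t 0)
      fun c' h1 _ => conc_al_top ht h1
    rw [List.append_nil] at h
    rw [h, Ch_zero, Nat.cast_sub hL]
    exact gaussOp_one_lc (mul_nonneg hδ (sub_nonneg.2 (Nat.cast_le.2 hL)))
  | succ i ih =>
    have hi' : i < n := hi
    have h0 : t i ≤ L := (conc_anti ht (Nat.zero_le i) hi'.le).trans hL
    have hcl : CL (Ch a (fun i => δ * ((t i : ℝ) - t (i + 1))) i) :=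
      cl_Ch (fun j hj => (ha j (hj.trans hi')).1) _
    rw [conc_split (ht i hi') h0, List.map_append,
      conc_block hδ (ha i hi').1 (fun c => conc_al a t c n) _
        (by rw [ih hi'.le]; exact (hcl.add_const _).lip) (t i - t (i + 1)) (t (i + 1))
        (fun c' h1 h2 => conc_al_block ht hi' h1 (by have := ht i hi'; omega)),
      ih hi'.le, gaussOp_add_const (ha i hi').1 hcl.lip, Ch_succ, Nat.cast_sub (ht i hi')]

lemma conc_Ug (ha : ∀ i < n, 0 ≤ a i ∧ a i ≤ 1) (hδ : 0 ≤ δ) (hs : |s| ≤ 1) {t : ℕ → ℕ}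
    (ht : ∀ i < n, t (i + 1) ≤ t i) {L : ℕ} (hL : t 0 ≤ L) :
    Ug a n δ s t = DD (ExL ((List.range' (t n) (L - t n)).map fun c => (conc_al a t c n, δ))) s
      - δ * ((L : ℝ) - t n) / 2 := by
  have hcl : CL (Ch a (fun i => δ * ((t i : ℝ) - t (i + 1))) n) :=
    cl_Ch (fun j hj => (ha j hj).1) _
  have hs' : s ∈ Set.Icc (-1 : ℝ) 1 := abs_le.1 hs
  have hsum : ∑ i ∈ range n, δ * ((t i : ℝ) - t (i + 1)) = δ * ((t 0 : ℝ) - t n) := by
    rw [← mul_sum, sum_range_sub' (fun i => (t i : ℝ))]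
  have h1 : Ug a n δ s t = DD (fun x => Ch a (fun i => δ * ((t i : ℝ) - t (i + 1))) n x +
      (-(δ * ((t 0 : ℝ) - t n) / 2))) s := by
    simp only [Ug, osc, osv, DD, hsum]
    rfl
  rw [conc_chain ha hδ ht hL n le_rfl, h1, DD_add_const hcl _ hs', DD_add_const hcl _ hs']
  ring

lemma conc_supermod (ha : ∀ i < n, 0 ≤ a i ∧ a i ≤ 1) (ha' : ∀ i j, i ≤ j → j < n → a j ≤ a i)
    (hδ : 0 ≤ δ) (hs : |s| ≤ 1) {t t' : ℕ → ℕ} (ht : ∀ i < n, t (i + 1) ≤ t i)
    (ht' : ∀ i < n, t' (i + 1) ≤ t' i) (hn : t' n ≤ t n) :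
    Ug a n δ s t + Ug a n δ s t' ≤
      Ug a n δ s (fun i => max (t i) (t' i)) + Ug a n δ s fun i => min (t i) (t' i) := by
  set L := max (t 0) (t' 0) with hLdef
  have hL : t 0 ≤ L := le_max_left _ _
  have hL' : t' 0 ≤ L := le_max_right _ _
  have hnL : t n ≤ L := (conc_anti ht (Nat.zero_le n) le_rfl).trans hL
  have hM : ∀ i < n, max (t (i + 1)) (t' (i + 1)) ≤ max (t i) (t' i) := fun i hi =>
    max_le_max (ht i hi) (ht' i hi)
  have hm : ∀ i < n, min (t (i + 1)) (t' (i + 1)) ≤ min (t i) (t' i) := fun i hi =>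
    min_le_min (ht i hi) (ht' i hi)
  rw [conc_Ug ha hδ hs ht hL, conc_Ug ha hδ hs ht' hL',
    conc_Ug (t := fun i => max (t i) (t' i)) ha hδ hs hM (L := L) le_rfl,
    conc_Ug (t := fun i => min (t i) (t' i)) ha hδ hs hm (L := L) ((min_le_left _ _).trans hL)]
  simp only [max_eq_left hn, min_eq_right hn]
  have key := exl_supermod ((List.range' (t' n) (t n - t' n)).map fun c => (conc_al a t' c n, δ))
    ((List.range' (t n) (L - t n)).map fun c => (conc_al a t c n, conc_al a t' c n, δ))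
    (by
      intro p hp
      obtain ⟨c, -, rfl⟩ := List.mem_map.1 hp
      exact ⟨conc_al_nonneg ha _ _, conc_al_le_one ha _ _, hδ⟩)
    (by
      intro p hp
      obtain ⟨c, -, rfl⟩ := List.mem_map.1 hp
      exact ⟨conc_al_nonneg ha _ _, conc_al_le_one ha _ _, conc_al_nonneg ha _ _,
        conc_al_le_one ha _ _, hδ⟩) (s := s) (abs_le.1 hs)
  simp only [List.map_map, Function.comp_def] at key
  have e1 : ((List.range' (t' n) (L - t' n)).map fun c => (conc_al a t' c n, δ)) =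
      ((List.range' (t' n) (t n - t' n)).map fun c => (conc_al a t' c n, δ)) ++
        (List.range' (t n) (L - t n)).map fun c => (conc_al a t' c n, δ) := by
    rw [conc_split hn hnL, List.map_append]
  have e2 : ((List.range' (t' n) (L - t' n)).map
        fun c => (conc_al a (fun i => min (t i) (t' i)) c n, δ)) =
      ((List.range' (t' n) (t n - t' n)).map fun c => (conc_al a t' c n, δ)) ++
        (List.range' (t n) (L - t n)).map
          fun c => (max (conc_al a t c n) (conc_al a t' c n), δ) := by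
    rw [conc_split hn hnL, List.map_append]
    congr 1
    · refine List.map_congr_left fun c hc => ?_
      have hc' : c < t n := by
        have := (List.mem_range'_1.1 hc).2
        omega
      rw [conc_al_min ha ha' ht ht', max_eq_right (conc_al_le_all ha ha'
        (fun i hi => hc'.trans_le (conc_anti ht hi.le le_rfl)) t')]
    · refine List.map_congr_left fun c _ => ?_
      rw [conc_al_min ha ha' ht ht']
  have e3 : ((List.range' (t n) (L - t n)).map
        fun c => (conc_al a (fun i => max (t i) (t' i)) c n, δ)) =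
      (List.range' (t n) (L - t n)).map
          fun c => (min (conc_al a t c n) (conc_al a t' c n), δ) := by
    refine List.map_congr_left fun c _ => ?_
    rw [conc_al_max ha ha']
  rw [e1, e2, e3]
  linarith

lemma conc_shift (t : ℕ → ℕ) (k : ℕ) : Ug a n δ s (fun i => t i + k) = Ug a n δ s t := by
  unfold Ug
  congr 1
  funext i
  push_cast
  ring

theorem Ug_supermod (ha : ∀ i < n, 0 ≤ a i ∧ a i ≤ 1) (ha' : ∀ i j, i ≤ j → j < n → a j ≤ a i)
    (hδ : 0 ≤ δ) (hs : |s| ≤ 1) {t t' : ℕ → ℕ} (ht : ∀ i < n, t (i + 1) ≤ t i)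
    (ht' : ∀ i < n, t' (i + 1) ≤ t' i) :
    Ug a n δ s t + Ug a n δ s t' ≤
      Ug a n δ s (fun i => max (t i) (t' i)) + Ug a n δ s fun i => min (t i) (t' i) := by
  rcases le_total (t' n) (t n) with h | h
  · exact conc_supermod ha ha' hδ hs ht ht' h
  · have := conc_supermod ha ha' hδ hs ht' ht h
    simp only [max_comm (t' _), min_comm (t' _)] at this
    linarith

theorem Ug_reflect (ha : ∀ i < n, 0 ≤ a i ∧ a i ≤ 1) (ha' : ∀ i j, i ≤ j → j < n → a j ≤ a i)
    (hδ : 0 ≤ δ) (hs : |s| ≤ 1) {p q : ℕ → ℕ} (hp : ∀ i < n, p (i + 1) ≤ p i)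
    (hq : ∀ i < n, q (i + 1) ≤ q i) (k : ℕ) :
    Ug a n δ s p + Ug a n δ s q ≤
      Ug a n δ s (fun i => min (p i) (q i + k)) + Ug a n δ s fun i => max (p i - k) (q i) := by
  have h := Ug_supermod ha ha' hδ hs (t' := fun i => q i + k) hp
    fun i hi => Nat.add_le_add_right (hq i hi) k
  have e : (fun i => max (p i) (q i + k)) = fun i => max (p i - k) (q i) + k := by
    funext i
    omega
  rw [e, conc_shift q k, conc_shift (fun i => max (p i - k) (q i)) k] at h
  linarith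

lemma conc_balance (ha : ∀ i < n, 0 ≤ a i ∧ a i ≤ 1) (ha' : ∀ i j, i ≤ j → j < n → a j ≤ a i)
    (hδ : 0 ≤ δ) (hs : |s| ≤ 1) (d : ℕ) : ∀ p q : ℕ → ℕ, (∀ i < n, p (i + 1) ≤ p i) →
    (∀ i < n, q (i + 1) ≤ q i) → (∀ i ≤ n, p i ≤ q i + (d + 1) ∧ q i ≤ p i + (d + 1)) →
    ∃ p' q' : ℕ → ℕ, (∀ i < n, p' (i + 1) ≤ p' i) ∧ (∀ i < n, q' (i + 1) ≤ q' i) ∧
      (∀ i, p' i + q' i = p i + q i) ∧ (∀ i ≤ n, p' i ≤ q' i + 1 ∧ q' i ≤ p' i + 1) ∧
      Ug a n δ s p + Ug a n δ s q ≤ Ug a n δ s p' + Ug a n δ s q' := by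
  induction d with
  | zero => exact fun p q hp hq h => ⟨p, q, hp, hq, fun _ => rfl, h, le_rfl⟩
  | succ d ih =>
    intro p q hp hq h
    have h1 := Ug_reflect ha ha' hδ hs hp hq (d + 1)
    set p₁ : ℕ → ℕ := fun i => min (p i) (q i + (d + 1)) with hp₁
    set q₁ : ℕ → ℕ := fun i => max (p i - (d + 1)) (q i) with hq₁
    have hp1 : ∀ i < n, p₁ (i + 1) ≤ p₁ i := fun i hi => by
      have := hp i hi; have := hq i hi; simp only [hp₁]; omega
    have hq1 : ∀ i < n, q₁ (i + 1) ≤ q₁ i := fun i hi => by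
      have := hp i hi; have := hq i hi; simp only [hq₁]; omega
    have hs1 : ∀ i, p₁ i + q₁ i = p i + q i := fun i => by simp only [hp₁, hq₁]; omega
    have hd1 : ∀ i ≤ n, p₁ i ≤ q₁ i + (d + 1) ∧ q₁ i ≤ p₁ i + (d + 1 + 1) := fun i hi => by
      have := h i hi; simp only [hp₁, hq₁]; omega
    have h2 := Ug_reflect ha ha' hδ hs hq1 hp1 (d + 1)
    clear_value p₁ q₁
    obtain ⟨p', q', a1, a2, a3, a4, a5⟩ := ih (fun i => max (q₁ i - (d + 1)) (p₁ i))
      (fun i => min (q₁ i) (p₁ i + (d + 1)))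
      (fun i hi => by have := hp1 i hi; have := hq1 i hi; omega)
      (fun i hi => by have := hp1 i hi; have := hq1 i hi; omega)
      (fun i hi => by have := hd1 i hi; omega)
    refine ⟨p', q', a1, a2, fun i => ?_, a4, by linarith⟩
    have := a3 i
    have := hs1 i
    omega

theorem Ug_balance (ha : ∀ i < n, 0 ≤ a i ∧ a i ≤ 1) (ha' : ∀ i j, i ≤ j → j < n → a j ≤ a i)
    (hδ : 0 ≤ δ) (hs : |s| ≤ 1) {p q : ℕ → ℕ} (hp : ∀ i < n, p (i + 1) ≤ p i)
    (hq : ∀ i < n, q (i + 1) ≤ q i) :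
    ∃ p' q' : ℕ → ℕ, (∀ i < n, p' (i + 1) ≤ p' i) ∧ (∀ i < n, q' (i + 1) ≤ q' i) ∧
      (∀ i, p' i + q' i = p i + q i) ∧ (∀ i ≤ n, p' i ≤ q' i + 1 ∧ q' i ≤ p' i + 1) ∧
      Ug a n δ s p + Ug a n δ s q ≤ Ug a n δ s p' + Ug a n δ s q' :=
  conc_balance ha ha' hδ hs (p 0 + q 0) p q hp hq fun i hi => by
    have := conc_anti hp (Nat.zero_le i) hi
    have := conc_anti hq (Nat.zero_le i) hi
    omega

lemma conc_grid {η : ℝ} (hη : 0 < η) {v : ℕ → ℝ} (hv : ∀ i < n, 0 ≤ v i) :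
    ∃ p : ℕ → ℕ, (∀ i < n, p (i + 1) ≤ p i) ∧
      ∀ i < n, η * ((p i : ℝ) - p (i + 1)) ≤ v i ∧ v i ≤ η * ((p i : ℝ) - p (i + 1)) + η := by
  have key : ∀ i < n, ∑ j ∈ Ico i n, ⌊v j / η⌋₊ = ⌊v i / η⌋₊ + ∑ j ∈ Ico (i + 1) n, ⌊v j / η⌋₊ :=
    fun i hi => sum_eq_sum_Ico_succ_bot hi _
  refine ⟨fun i => ∑ j ∈ Ico i n, ⌊v j / η⌋₊, fun i hi => ?_, fun i hi => ?_⟩
  · simp only [key i hi]
    omega
  · simp only [key i hi, Nat.cast_add, add_sub_cancel_right]
    have h1 : (⌊v i / η⌋₊ : ℝ) ≤ v i / η := Nat.floor_le (div_nonneg (hv i hi) hη.le)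
    have h2 : v i / η < ⌊v i / η⌋₊ + 1 := Nat.lt_floor_add_one _
    rw [le_div_iff₀ hη] at h1
    rw [div_lt_iff₀ hη] at h2
    constructor <;> linarith

lemma conc_arith {η x y P Q P' Q' p q p' q' : ℝ} (hη : 0 < η)
    (h1 : η * (P - p) ≤ x) (h2 : x ≤ η * (P - p) + η) (h3 : η * (Q - q) ≤ y)
    (h4 : y ≤ η * (Q - q) + η) (e1 : P' + Q' = P + Q) (e2 : p' + q' = p + q)
    (d1 : P' ≤ Q' + 1) (d2 : Q' ≤ P' + 1) (d3 : p' ≤ q' + 1) (d4 : q' ≤ p' + 1) :
    |η * (P' - p') - (x + y) / 2| ≤ 2 * η := by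
  have f1 : η * (P' - p') = (η * (P - p) + η * (Q - q)) / 2 + η * ((P' - Q') - (p' - q')) / 2 := by
    have : P' - p' = ((P - p) + (Q - q)) / 2 + ((P' - Q') - (p' - q')) / 2 := by linarith
    rw [this]; ring
  have f2 : η * ((P' - Q') - (p' - q')) ≤ η * 2 := mul_le_mul_of_nonneg_left (by linarith) hη.le
  have f3 : η * (-2) ≤ η * ((P' - Q') - (p' - q')) := mul_le_mul_of_nonneg_left (by linarith) hη.le
  rw [abs_le]
  constructor <;> linarith

theorem osc_midpoint (ha : ∀ i < n, 0 ≤ a i ∧ a i ≤ 1) (ha' : ∀ i j, i ≤ j → j < n → a j ≤ a i)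
    (hs : |s| ≤ 1) {v v' : ℕ → ℝ} (hv : ∀ i < n, 0 ≤ v i) (hv' : ∀ i < n, 0 ≤ v' i) :
    osc a v n s + osc a v' n s ≤ 2 * osc a (fun i => (v i + v' i) / 2) n s := by
  refine le_of_forall_pos_le_add fun ε hε => ?_
  obtain ⟨θ, hθ, hc⟩ := osc_cont n (ε / 4) (by positivity)
  have hη : 0 < θ / 2 := half_pos hθ
  obtain ⟨p, hp, hp'⟩ := conc_grid hη hv
  obtain ⟨q, hq, hq'⟩ := conc_grid hη hv'
  obtain ⟨p', q', a1, a2, a3, a4, a5⟩ := Ug_balance ha ha' hη.le hs hp hq
  have pos : ∀ t : ℕ → ℕ, (∀ i < n, t (i + 1) ≤ t i) →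
      ∀ i < n, 0 ≤ θ / 2 * ((t i : ℝ) - t (i + 1)) := fun t ht i hi =>
    mul_nonneg hη.le (sub_nonneg.2 (Nat.cast_le.2 (ht i hi)))
  have hm : ∀ i < n, 0 ≤ (v i + v' i) / 2 := fun i hi => by
    have := hv i hi; have := hv' i hi; positivity
  have b3 : ∀ i, (p' i : ℝ) + q' i = p i + q i := fun i => by exact_mod_cast a3 i
  have b4 : ∀ i ≤ n, (p' i : ℝ) ≤ q' i + 1 ∧ (q' i : ℝ) ≤ p' i + 1 := fun i hi => by
    exact_mod_cast a4 i hi
  have c1 := hc a _ v ha (pos p hp) hv (fun i hi => by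
    have := hp' i hi; rw [abs_le]; constructor <;> linarith) s hs
  have c2 := hc a _ v' ha (pos q hq) hv' (fun i hi => by
    have := hq' i hi; rw [abs_le]; constructor <;> linarith) s hs
  have c3 := hc a _ (fun i => (v i + v' i) / 2) ha (pos p' a1) hm (fun i hi => by
    have := conc_arith hη (hp' i hi).1 (hp' i hi).2 (hq' i hi).1 (hq' i hi).2 (b3 i) (b3 (i + 1))
      (b4 i hi.le).1 (b4 i hi.le).2 (b4 (i + 1) hi).1 (b4 (i + 1) hi).2
    linarith) s hs
  have c4 := hc a _ (fun i => (v i + v' i) / 2) ha (pos q' a2) hm (fun i hi => by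
    have := conc_arith (P' := q' i) (Q' := p' i) (p' := q' (i + 1)) (q' := p' (i + 1)) hη
      (hp' i hi).1 (hp' i hi).2 (hq' i hi).1 (hq' i hi).2
      ((add_comm _ _).trans (b3 i)) ((add_comm _ _).trans (b3 (i + 1)))
      (b4 i hi.le).2 (b4 i hi.le).1 (b4 (i + 1) hi).2 (b4 (i + 1) hi).1
    linarith) s hs
  unfold Ug at a5
  rw [abs_le] at c1 c2 c3 c4
  linarith [c1.1, c2.1, c3.2, c4.2]

/-- Iterated midpoint concavity. -/
theorem osc_dyadic (ha : ∀ i < n, 0 ≤ a i ∧ a i ≤ 1) (ha' : ∀ i j, i ≤ j → j < n → a j ≤ a i)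
    (hs : |s| ≤ 1) {v v' : ℕ → ℝ} (hv : ∀ i < n, 0 ≤ v i) (hv' : ∀ i < n, 0 ≤ v' i) (k : ℕ) :
    osc a v' n s - osc a v n s ≤
      2 ^ k * (osc a (fun i => v i + (1 / 2) ^ k * (v' i - v i)) n s - osc a v n s) := by
  induction k with
  | zero => simp
  | succ k ih =>
    have h0 : (0 : ℝ) ≤ (1 / 2) ^ k := by positivity
    have h1 : ((1 : ℝ) / 2) ^ k ≤ 1 := pow_le_one₀ (by norm_num) (by norm_num)
    have h := osc_midpoint ha ha' hs hv (v' := fun i => v i + (1 / 2) ^ k * (v' i - v i))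
      fun i hi => by
        have e : v i + (1 / 2) ^ k * (v' i - v i) = (1 - (1 / 2) ^ k) * v i + (1 / 2) ^ k * v' i := by
          ring
        rw [e]
        exact add_nonneg (mul_nonneg (sub_nonneg.2 h1) (hv i hi)) (mul_nonneg h0 (hv' i hi))
    have e : (fun i => (v i + (v i + (1 / 2) ^ k * (v' i - v i))) / 2) =
        fun i => v i + (1 / 2) ^ (k + 1) * (v' i - v i) := by
      funext i
      ring
    rw [e] at h
    refine ih.trans ?_
    rw [pow_succ, mul_assoc]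
    exact mul_le_mul_of_nonneg_left (by linarith) (by positivity)

end Crest.Agent.R164
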