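import Crest.Agent.R164.Ch

/-!
# R164 / Dual: Legendre duality between functions on `ℝ` and on `[-1,1]` (definitions, basics)

`DD g u = inf_b (g b - b u)`, `PP Λ x = max_{|u| ≤ 1} (x u + Λ u)`, `UU Λ x` a maximiser.
Hints.  `DD g` is an infimum of affine functions, bounded below by `-C` on `[-1,1]`; it is concave and
upper semicontinuous, which gives continuity also at the end points (concavity gives
`DD g ((1-t) + t·0) ≥ (1-t) DD g 1 + t DD g 0`; upper semicontinuity from an almost optimal `b`).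
`PP_DD`: `≤` is immediate; for `≥` take a subgradient `u` of `g` at `x` (e.g. the right derivative,
`ConvexOn.rightDeriv`/slope lemmas, or `u = sInf` of the slopes `(g y - g x)/(y - x)`, `y > x`),
`|u| ≤ 1` by `Lip1`.  `DD_PP`: `≥` is immediate; for `≤` at an interior point take a supporting
slope; at `±1` use continuity of both sides.
-/

set_option autoImplicit false

open MeasureTheory ProbabilityTheory Finset Set Crest.ProbabilityR.InvariantGlass

namespace Crest.Agent.R164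

/-- Dual function. -/
noncomputable def DD (g : ℝ → ℝ) (u : ℝ) : ℝ := ⨅ b : ℝ, (g b - b * u)

/-- Primal function. -/
noncomputable def PP (Λ : ℝ → ℝ) (x : ℝ) : ℝ := sSup ((fun u => x * u + Λ u) '' Icc (-1) 1)

open Classical in
/-- A maximiser in the definition of `PP`. -/
noncomputable def UU (Λ : ℝ → ℝ) (x : ℝ) : ℝ :=
  if h : ∃ u ∈ Icc (-1 : ℝ) 1, x * u + Λ u = PP Λ x then h.choose else 0

/-- Continuous and strictly concave on `[-1,1]`. -/
structure DC (Λ : ℝ → ℝ) : Prop where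
  cont : ContinuousOn Λ (Icc (-1) 1)
  conc : StrictConcaveOn ℝ (Icc (-1) 1) Λ

/-- The order: the difference is convex. -/
def Od (Λ Λ' : ℝ → ℝ) : Prop := ConvexOn ℝ (Icc (-1) 1) fun u => Λ' u - Λ u

/-- The primal form of the order. -/
def QC (f g : ℝ → ℝ) : Prop := ∀ c : ℝ, QuasiconvexOn ℝ univ fun x => g (x - c) - f x

/-- Heat step in dual form. -/
noncomputable def Hs (ε : ℝ) (Λ : ℝ → ℝ) : ℝ → ℝ := DD (gaussOp 0 ε (PP Λ))

/-- One step of the splitting scheme. -/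
noncomputable def Ss (a ε : ℝ) (Λ : ℝ → ℝ) : ℝ → ℝ := fun u => Hs ε Λ u + a * ε * u ^ 2 / 2

/-- Dual of the reference function `log cosh (2x) / 2`. -/
noncomputable def Λr : ℝ → ℝ := DD fun x => lc (2 * x) / 2

/-- The invariant of the scheme. -/
structure Iv (Λ : ℝ → ℝ) : Prop where
  cont : ContinuousOn Λ (Icc (-1) 1)
  od : Od Λ Λr

/-- Exact chain along a list of (exponent, variance), outermost first. -/
noncomputable def ExL (L : List (ℝ × ℝ)) : ℝ → ℝ := L.foldr (fun p f => gaussOp p.1 p.2 f) lc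

/-- The scheme along a list. -/
noncomputable def ScL (L : List (ℝ × ℝ)) : ℝ → ℝ := L.foldr (fun p Λ => Ss p.1 p.2 Λ) (DD lc)

variable {f g Λ Λ' : ℝ → ℝ} {u c : ℝ}

lemma dual_mul_le (hu : u ∈ Icc (-1 : ℝ) 1) (b : ℝ) : b * u ≤ |b| := by
  have h1 : |u| ≤ 1 := abs_le.2 hu
  calc b * u ≤ |b * u| := le_abs_self _
    _ = |b| * |u| := abs_mul _ _
    _ ≤ |b| := mul_le_of_le_one_right (abs_nonneg _) h1

lemma dual_one : (1 : ℝ) ∈ Icc (-1 : ℝ) 1 := ⟨by norm_num, le_rfl⟩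
lemma dual_neg_one : (-1 : ℝ) ∈ Icc (-1 : ℝ) 1 := ⟨le_rfl, by norm_num⟩

/-- A supporting line at an interior point. -/
lemma dual_support {S : Set ℝ} (hf : ConvexOn ℝ S f) {x : ℝ} (hx : x ∈ interior S) :
    ∃ ξ, ∀ y ∈ S, f x + ξ * (y - x) ≤ f y := by
  refine ⟨derivWithin f (Ioi x) x, fun y hy => ?_⟩
  rcases lt_trichotomy y x with h | rfl | h
  · have h1 := (hf.slope_le_leftDeriv_of_mem_interior hy hx h).trans
      (hf.leftDeriv_le_rightDeriv_of_mem_interior hx)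
    rw [slope_def_field, div_le_iff₀ (sub_pos.2 h)] at h1
    linarith
  · simp
  · have h1 := hf.rightDeriv_le_slope_of_mem_interior hx hy h
    rw [slope_def_field, le_div_iff₀ (sub_pos.2 h)] at h1
    linarith

/-- A concave function on `[-1,1]` lies above a cone at each point. -/
lemma dual_cone (hc : ConcaveOn ℝ (Icc (-1) 1) Λ) (hu : u ∈ Icc (-1 : ℝ) 1) :
    ∃ K, ∀ v ∈ Icc (-1 : ℝ) 1, Λ u - K * |v - u| ≤ Λ v := by
  have h1 : 0 ≤ |Λ u - Λ 1| / (1 - u) := div_nonneg (abs_nonneg _) (by linarith [hu.2])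
  have h2 : 0 ≤ |Λ u - Λ (-1)| / (1 + u) := div_nonneg (abs_nonneg _) (by linarith [hu.1])
  refine ⟨|Λ u - Λ 1| / (1 - u) + |Λ u - Λ (-1)| / (1 + u), fun v hv => ?_⟩
  rcases lt_trichotomy v u with h | rfl | h
  · have hp : 0 < 1 + u := by linarith [hv.1]
    have ht0 : 0 ≤ (u - v) / (1 + u) := div_nonneg (by linarith) hp.le
    have ht1 : (u - v) / (1 + u) ≤ 1 := (div_le_one hp).2 (by linarith [hv.1])
    have h3 := hc.2 hu dual_neg_one (sub_nonneg.2 ht1) ht0 (by ring)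
    have h4 : (1 - (u - v) / (1 + u)) • u + ((u - v) / (1 + u)) • (-1 : ℝ) = v := by
      simp only [smul_eq_mul]; field_simp; ring
    rw [h4] at h3
    simp only [smul_eq_mul] at h3
    have h5 := mul_le_mul_of_nonneg_left (le_abs_self (Λ u - Λ (-1))) ht0
    have h6 : |Λ u - Λ (-1)| / (1 + u) * (u - v) = (u - v) / (1 + u) * |Λ u - Λ (-1)| := by ring
    have h7 := mul_nonneg h1 (sub_nonneg.2 h.le)
    rw [abs_of_neg (sub_neg.2 h)]
    linarith
  · simp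
  · have hp : 0 < 1 - u := by linarith [hv.2]
    have ht0 : 0 ≤ (v - u) / (1 - u) := div_nonneg (by linarith) hp.le
    have ht1 : (v - u) / (1 - u) ≤ 1 := (div_le_one hp).2 (by linarith [hv.2])
    have h3 := hc.2 hu dual_one (sub_nonneg.2 ht1) ht0 (by ring)
    have h4 : (1 - (v - u) / (1 - u)) • u + ((v - u) / (1 - u)) • (1 : ℝ) = v := by
      simp only [smul_eq_mul]; field_simp; ring
    rw [h4] at h3
    simp only [smul_eq_mul] at h3
    have h5 := mul_le_mul_of_nonneg_left (le_abs_self (Λ u - Λ 1)) ht0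
    have h6 : |Λ u - Λ 1| / (1 - u) * (v - u) = (v - u) / (1 - u) * |Λ u - Λ 1| := by ring
    have h7 := mul_nonneg h2 (sub_nonneg.2 h.le)
    rw [abs_of_pos (sub_pos.2 h)]
    linarith

lemma CL.DD_le (hg : CL g) (hu : u ∈ Icc (-1 : ℝ) 1) (b : ℝ) : DD g u ≤ g b - b * u := by
  obtain ⟨C, hC⟩ := hg.near
  refine ciInf_le (f := fun b => g b - b * u) ⟨-C, ?_⟩ b
  rintro _ ⟨b, rfl⟩
  linarith [(abs_le.1 (hC b)).1, dual_mul_le hu b]
lemma le_DD (h : ∀ b, c ≤ g b - b * u) : c ≤ DD g u := le_ciInf h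
lemma CL.exists_DD (hg : CL g) (hu : u ∈ Ioo (-1 : ℝ) 1) : ∃ b, DD g u = g b - b * u := by
  obtain ⟨C, hC⟩ := hg.near
  have hc : Continuous fun b => g b - b * u := hg.lip.continuous.sub (by fun_prop)
  have hp : 0 < 1 - |u| := sub_pos.2 (abs_lt.2 hu)
  obtain ⟨b, hb⟩ := hc.exists_forall_le_of_isBounded 0 (by
    refine (Metric.isBounded_Icc (-((g 0 + C) / (1 - |u|))) ((g 0 + C) / (1 - |u|))).subset
      fun x hx => abs_le.1 ?_
    simp only [mem_ofPred_eq, zero_mul, sub_zero] at hx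
    rw [le_div_iff₀ hp]
    have h1 : x * u ≤ |x| * |u| := (le_abs_self _).trans (abs_mul x u).le
    linarith [(abs_le.1 (hC x)).1])
  exact ⟨b, le_antisymm (hg.DD_le (Ioo_subset_Icc_self hu) b) (le_DD hb)⟩
lemma CL.concave_DD (hg : CL g) : ConcaveOn ℝ (Icc (-1) 1) (DD g) := by
  refine ⟨convex_Icc _ _, fun u hu v hv a b ha hb hab => le_DD fun β => ?_⟩
  have h1 := mul_le_mul_of_nonneg_left (hg.DD_le hu β) ha
  have h2 := mul_le_mul_of_nonneg_left (hg.DD_le hv β) hb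
  have h3 : a * g β + b * g β = g β := by rw [← add_mul, hab, one_mul]
  simp only [smul_eq_mul]
  linarith
lemma CL.cont_DD (hg : CL g) : ContinuousOn (DD g) (Icc (-1) 1) := by
  intro u hu
  refine tendsto_order.2 ⟨fun a ha => ?_, fun a ha => ?_⟩
  · obtain ⟨K, hK⟩ := dual_cone hg.concave_DD hu
    have hc : Continuous fun v => DD g u - K * |v - u| := by fun_prop
    have h1 : ∀ᶠ v in nhds u, a < DD g u - K * |v - u| :=
      (hc.tendsto u).eventually (lt_mem_nhds (by simpa using ha))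
    filter_upwards [self_mem_nhdsWithin, mem_nhdsWithin_of_mem_nhds h1] with v hv hv'
    exact hv'.trans_le (hK v hv)
  · obtain ⟨b, hb⟩ := exists_lt_of_ciInf_lt ha
    have hc : Continuous fun v => g b - b * v := by fun_prop
    have h1 : ∀ᶠ v in nhds u, g b - b * v < a := (hc.tendsto u).eventually (gt_mem_nhds hb)
    filter_upwards [self_mem_nhdsWithin, mem_nhdsWithin_of_mem_nhds h1] with v hv hv'
    exact (hg.DD_le hv b).trans_lt hv'
lemma CL.exists_subgrad (hg : CL g) (x : ℝ) :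
    ∃ ξ ∈ Icc (-1 : ℝ) 1, ∀ y, g x + ξ * (y - x) ≤ g y := by
  obtain ⟨ξ, hξ⟩ := dual_support hg.conv (x := x) (by simp)
  refine ⟨ξ, ⟨?_, ?_⟩, fun y => hξ y (mem_univ y)⟩
  · have h1 := hξ (x - 1) (mem_univ _)
    have h2 := hg.lip (x - 1) x
    rw [show x - 1 - x = -1 by ring] at h1 h2
    rw [abs_neg, abs_one] at h2
    linarith [(abs_le.1 h2).2]
  · have h1 := hξ (x + 1) (mem_univ _)
    have h2 := hg.lip (x + 1) x
    rw [show x + 1 - x = 1 by ring] at h1 h2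
    rw [abs_one] at h2
    linarith [(abs_le.1 h2).2]
lemma CL.PP_DD (hg : CL g) : PP (DD g) = g := by
  funext x
  have h : ∀ y ∈ (fun u => x * u + DD g u) '' Icc (-1) 1, y ≤ g x := by
    rintro _ ⟨u, hu, rfl⟩
    linarith [hg.DD_le hu x]
  refine le_antisymm (csSup_le ⟨_, 1, dual_one, rfl⟩ h) ?_
  obtain ⟨ξ, hξ, h1⟩ := hg.exists_subgrad x
  refine le_trans ?_ (le_csSup ⟨g x, h⟩ ⟨ξ, hξ, rfl⟩)
  have : g x - x * ξ ≤ DD g ξ := le_DD fun b => by linarith [h1 b]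
  linarith
lemma DD_le_add (hf : CL f) (hg : CL g) (h : ∀ x, f x ≤ g x + c) (hu : u ∈ Icc (-1 : ℝ) 1) :
    DD f u ≤ DD g u + c := by
  have _ := hg
  have : DD f u - c ≤ DD g u := le_DD fun b => by linarith [hf.DD_le hu b, h b]
  linarith
lemma CL.add_const (hg : CL g) (c : ℝ) : CL fun x => g x + c := by
  obtain ⟨C, hC⟩ := hg.near
  refine ⟨hg.conv.add_const c, fun x y => by simpa using hg.lip x y, C + |c|, fun x => ?_⟩
  rw [show g x + c - |x| = g x - |x| + c by ring]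
  linarith [abs_add_le (g x - |x|) c, hC x]
lemma DD_add_const (hg : CL g) (c : ℝ) (hu : u ∈ Icc (-1 : ℝ) 1) :
    DD (fun x => g x + c) u = DD g u + c := by
  refine le_antisymm (DD_le_add (hg.add_const c) hg (fun _ => le_rfl) hu) ?_
  have := DD_le_add (c := -c) hg (hg.add_const c) (fun x => by linarith) hu
  linarith

lemma dual_cont (hΛ : ContinuousOn Λ (Icc (-1) 1)) (x : ℝ) :
    ContinuousOn (fun u => x * u + Λ u) (Icc (-1) 1) :=
  (continuousOn_const.mul continuousOn_id).add hΛ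

lemma le_PP (hΛ : ContinuousOn Λ (Icc (-1) 1)) (hu : u ∈ Icc (-1 : ℝ) 1) (x : ℝ) :
    x * u + Λ u ≤ PP Λ x :=
  le_csSup (isCompact_Icc.bddAbove_image (dual_cont hΛ x)) ⟨u, hu, rfl⟩
lemma UU_mem (Λ : ℝ → ℝ) (x : ℝ) : UU Λ x ∈ Icc (-1 : ℝ) 1 := by
  unfold UU
  split_ifs with h
  · exact h.choose_spec.1
  · norm_num
lemma PP_eq (hΛ : ContinuousOn Λ (Icc (-1) 1)) (x : ℝ) : PP Λ x = x * UU Λ x + Λ (UU Λ x) := by
  obtain ⟨u, hu, h⟩ := isCompact_Icc.exists_sSup_image_eq ⟨1, dual_one⟩ (dual_cont hΛ x)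
  have h1 : ∃ u ∈ Icc (-1 : ℝ) 1, x * u + Λ u = PP Λ x := ⟨u, hu, h.symm⟩
  unfold UU
  rw [dif_pos h1]
  exact h1.choose_spec.2.symm

lemma dual_bound (hΛ : ContinuousOn Λ (Icc (-1) 1)) :
    ∃ C, ∀ u ∈ Icc (-1 : ℝ) 1, -C ≤ Λ u ∧ Λ u ≤ C := by
  obtain ⟨C, hC⟩ := isCompact_Icc.exists_bound_of_continuousOn hΛ
  exact ⟨C, fun u hu => abs_le.1 (hC u hu)⟩

lemma cl_PP (hΛ : ContinuousOn Λ (Icc (-1) 1)) : CL (PP Λ) := by
  have hl : ∀ x y, PP Λ x - PP Λ y ≤ |x - y| := fun x y => by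
    have h1 := le_PP hΛ (UU_mem Λ x) y
    have h2 := dual_mul_le (UU_mem Λ x) (x - y)
    rw [PP_eq hΛ x]
    linarith
  refine ⟨⟨convex_univ, fun x _ y _ a b ha hb hab => ?_⟩, fun x y => abs_le.2 ⟨?_, hl x y⟩, ?_⟩
  · simp only [smul_eq_mul]
    rw [PP_eq hΛ (a * x + b * y)]
    have hU := UU_mem Λ (a * x + b * y)
    generalize UU Λ (a * x + b * y) = U at hU
    have h1 := mul_le_mul_of_nonneg_left (le_PP hΛ hU x) ha
    have h2 := mul_le_mul_of_nonneg_left (le_PP hΛ hU y) hb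
    have h3 : a * Λ U + b * Λ U = Λ U := by rw [← add_mul, hab, one_mul]
    linarith
  · have := hl y x
    rw [abs_sub_comm] at this
    linarith
  · obtain ⟨C, hC⟩ := dual_bound hΛ
    refine ⟨C, fun x => abs_le.2 ⟨?_, ?_⟩⟩
    · have h1 := le_PP hΛ dual_one x
      have h2 := le_PP hΛ dual_neg_one x
      have h3 := (hC 1 dual_one).1
      have h4 := (hC (-1) dual_neg_one).1
      rcases abs_cases x with h | h <;> linarith [h.1]
    · rw [PP_eq hΛ x]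
      linarith [dual_mul_le (UU_mem Λ x) x, (hC _ (UU_mem Λ x)).2]
lemma PP_le_add (hΛ : ContinuousOn Λ (Icc (-1) 1)) (hΛ' : ContinuousOn Λ' (Icc (-1) 1))
    (h : ∀ u ∈ Icc (-1 : ℝ) 1, Λ u ≤ Λ' u + c) (x : ℝ) : PP Λ x ≤ PP Λ' x + c := by
  rw [PP_eq hΛ x]
  linarith [le_PP hΛ' (UU_mem Λ x) x, h _ (UU_mem Λ x)]
lemma DD_PP (hΛ : ContinuousOn Λ (Icc (-1) 1)) (hc : ConcaveOn ℝ (Icc (-1) 1) Λ)
    (hu : u ∈ Icc (-1 : ℝ) 1) : DD (PP Λ) u = Λ u := by
  have h : EqOn (DD (PP Λ)) Λ (Ioo (-1) 1) := fun u hu => by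
    have hu' := Ioo_subset_Icc_self hu
    refine le_antisymm ?_ (le_DD fun b => by linarith [le_PP hΛ hu' b])
    obtain ⟨ξ, hξ⟩ := dual_support hc.neg (x := u) (by rwa [interior_Icc])
    have h1 := hξ _ (UU_mem Λ ξ)
    have h2 := (cl_PP hΛ).DD_le hu' ξ
    rw [PP_eq hΛ ξ] at h2
    simp only [Pi.neg_apply] at h1
    linarith
  exact h.of_subset_closure (cl_PP hΛ).cont_DD hΛ Ioo_subset_Icc_self
    (by rw [closure_Ioo (by norm_num)]) hu
lemma DC.lt_PP (hΛ : DC Λ) (hu : u ∈ Icc (-1 : ℝ) 1) {x : ℝ} (h : u ≠ UU Λ x) :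
    x * u + Λ u < PP Λ x := by
  have h2 : (0 : ℝ) < 1 / 2 := by norm_num
  have h1 := hΛ.conc.2 hu (UU_mem Λ x) h h2 h2 (by norm_num)
  have h3 := le_PP hΛ.cont (hΛ.conc.1 hu (UU_mem Λ x) h2.le h2.le (by norm_num)) x
  have h4 := PP_eq hΛ.cont x
  simp only [smul_eq_mul] at h1 h3
  linarith
lemma DC.monotone_UU (hΛ : DC Λ) : Monotone (UU Λ) := by
  intro x y hxy
  rcases hxy.eq_or_lt with rfl | h
  · exact le_rfl
  · have h1 := le_PP hΛ.cont (UU_mem Λ x) y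
    have h2 := le_PP hΛ.cont (UU_mem Λ y) x
    rw [PP_eq hΛ.cont] at h1 h2
    exact le_of_mul_le_mul_left (by linarith) (sub_pos.2 h)
/-- Uniqueness of the maximiser and compactness (or: monotone with closed graph). -/
lemma DC.continuous_UU (hΛ : DC Λ) : Continuous (UU Λ) := by
  have hconc : ∀ x : ℝ, ConcaveOn ℝ (Icc (-1) 1) fun u => x * u + Λ u := fun x =>
    ⟨convex_Icc _ _, fun u hu v hv a b ha hb hab => by
      have := hΛ.conc.concaveOn.2 hu hv ha hb hab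
      simp only [smul_eq_mul] at this ⊢
      linarith⟩
  have hev : ∀ x₀ : ℝ, ∀ a ∈ Icc (-1 : ℝ) 1, a ≠ UU Λ x₀ →
      ∀ᶠ x in nhds x₀, x * a + Λ a < x * UU Λ x₀ + Λ (UU Λ x₀) := fun x₀ a ha h => by
    have h1 := hΛ.lt_PP ha h
    rw [PP_eq hΛ.cont] at h1
    exact ContinuousAt.eventually_lt (by fun_prop) (by fun_prop) h1
  refine continuous_iff_continuousAt.2 fun x₀ => tendsto_order.2 ⟨fun a ha => ?_, fun a ha => ?_⟩
  · rcases lt_or_ge a (-1) with h | h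
    · exact Filter.Eventually.of_forall fun x => h.trans_le (UU_mem Λ x).1
    · filter_upwards [hev x₀ a ⟨h, ha.le.trans (UU_mem Λ x₀).2⟩ ha.ne] with x hx
      by_contra hcon
      have h1 := (hconc x).min_le_of_mem_Icc (UU_mem Λ x) (UU_mem Λ x₀) ⟨not_lt.1 hcon, ha.le⟩
      have h2 := le_PP hΛ.cont (UU_mem Λ x₀) x
      rw [PP_eq hΛ.cont] at h2
      rw [min_eq_right h2] at h1
      linarith
  · rcases lt_or_ge 1 a with h | h
    · exact Filter.Eventually.of_forall fun x => (UU_mem Λ x).2.trans_lt h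
    · filter_upwards [hev x₀ a ⟨(UU_mem Λ x₀).1.trans ha.le, h⟩ ha.ne'] with x hx
      by_contra hcon
      have h1 := (hconc x).min_le_of_mem_Icc (UU_mem Λ x₀) (UU_mem Λ x) ⟨ha.le, not_lt.1 hcon⟩
      have h2 := le_PP hΛ.cont (UU_mem Λ x₀) x
      rw [PP_eq hΛ.cont] at h2
      rw [min_eq_left h2] at h1
      linarith
/-- `x (1 - UU x) ≤ 2 sup |Λ|`. -/
lemma tendsto_UU_top (hΛ : ContinuousOn Λ (Icc (-1) 1)) :
    Filter.Tendsto (UU Λ) Filter.atTop (nhds 1) := by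
  obtain ⟨C, hC⟩ := dual_bound hΛ
  have h1 : Filter.Tendsto (fun x : ℝ => 1 - 2 * C / x) Filter.atTop (nhds 1) := by
    simpa using (Filter.tendsto_id.const_div_atTop (2 * C)).const_sub 1
  refine tendsto_of_tendsto_of_tendsto_of_le_of_le' h1 tendsto_const_nhds ?_
    (Filter.Eventually.of_forall fun x => (UU_mem Λ x).2)
  filter_upwards [Filter.eventually_gt_atTop 0] with x hx
  have h2 := le_PP hΛ dual_one x
  rw [PP_eq hΛ] at h2
  have h3 : 1 - UU Λ x ≤ 2 * C / x := by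
    rw [le_div_iff₀ hx]
    linarith [(hC 1 dual_one).1, (hC _ (UU_mem Λ x)).2]
  linarith
lemma tendsto_UU_bot (hΛ : ContinuousOn Λ (Icc (-1) 1)) :
    Filter.Tendsto (UU Λ) Filter.atBot (nhds (-1)) := by
  obtain ⟨C, hC⟩ := dual_bound hΛ
  have h1 : Filter.Tendsto (fun x : ℝ => -1 - 2 * C / x) Filter.atBot (nhds (-1)) := by
    simpa using (Filter.tendsto_id.const_div_atBot (2 * C)).const_sub (-1)
  refine tendsto_of_tendsto_of_tendsto_of_le_of_le' tendsto_const_nhds h1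
    (Filter.Eventually.of_forall fun x => (UU_mem Λ x).1) ?_
  filter_upwards [Filter.eventually_lt_atBot 0] with x hx
  have h2 := le_PP hΛ dual_neg_one x
  rw [PP_eq hΛ] at h2
  have h3 : 2 * C / x ≤ -1 - UU Λ x := by
    rw [div_le_iff_of_neg hx]
    linarith [(hC (-1) dual_neg_one).1, (hC _ (UU_mem Λ x)).2]
  linarith

lemma cont_Hs (hΛ : ContinuousOn Λ (Icc (-1) 1)) (ε : ℝ) : ContinuousOn (Hs ε Λ) (Icc (-1) 1) :=
  ((cl_PP hΛ).gauss le_rfl).cont_DD
lemma cont_Ss (hΛ : ContinuousOn Λ (Icc (-1) 1)) (a ε : ℝ) :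
    ContinuousOn (Ss a ε Λ) (Icc (-1) 1) :=
  (cont_Hs hΛ ε).add (by fun_prop)
lemma Hs_le_add (hΛ : ContinuousOn Λ (Icc (-1) 1)) (hΛ' : ContinuousOn Λ' (Icc (-1) 1))
    (h : ∀ u ∈ Icc (-1 : ℝ) 1, Λ u ≤ Λ' u + c) (ε : ℝ) (hu : u ∈ Icc (-1 : ℝ) 1) :
    Hs ε Λ u ≤ Hs ε Λ' u + c :=
  DD_le_add ((cl_PP hΛ).gauss le_rfl) ((cl_PP hΛ').gauss le_rfl)
    (fun _ => gaussOp_le_add le_rfl (cl_PP hΛ).lip (cl_PP hΛ').lip fun _ => PP_le_add hΛ hΛ' h _)
    hu

end Crest.Agent.R164
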