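import Crest.Agent.R164.Dual

/-!
# R164 / DualH: optimal control form of the heat step; pin lemma and four-function lemma

`Hs_rep`: `b ↦ E UU Λ (b + √ε g)` is continuous with limits `±1` (dominated convergence), so it
takes the value `s`.  With `U g = UU Λ (b + √ε g)`: for every `b'` and continuous `Λ'`,
`E PP Λ' (b' + √ε g) - b' s ≥ E [(b' + √ε g) U + Λ' U] - b' s = E [√ε g U + Λ' U]`, with equality
for `Λ' = Λ`, `b' = b`.
`Hs_pin`: `Hs Λ' s - Hs Λ s ≥ E (Λ' - Λ)(U) ≥ (Λ' - Λ) s` (Jensen); end points by continuity.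
`cx_order`: let `c = b' - b`, `Y u = Λ' u - Λ u + c u` (convex, continuous) with a minimiser `u₀` on
`[-1,1]`; `U' = UU Λ' (x + c)` maximises the concave function `x u + Λ u + Y u`.  If `U > u₀` then
`U' ≥ U` (otherwise some point `w ∈ [u₀, U)` — `w = max U' u₀` — has a value at least that at `U`
by concavity, but `x w + Λ w < x U + Λ U` and `Y w ≤ Y U`); if `U < u₀` then `U' ≤ U`.  If `u₀` is
interior take a subgradient `ξ` of `Z` at `u₀`: `Z u - ξ u` is monotone on both sides of `u₀`, so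
`Z U' - ξ U' ≥ Z U - ξ U` pointwise; integrate.  If `u₀ = ±1` then `U' - U` has a sign and mean zero,
so it vanishes a.e.
`Hs_four`: `Λ_θ = (1-θ) Λ₀₀ + θ Λ₁₀`, `Λ'_θ = (1-θ) Λ₀₁ + θ Λ₁₁` are in `DC`, `Od Λ_θ Λ'_θ`.  With
`X = Λ₁₀ - Λ₀₀` and `η = 1/n`: `Hs Λ'_{θ+η} - Hs Λ'_θ ≥ η E (Λ₁₁ - Λ₀₁)(U'_θ) ≥ η E X(U'_θ) ≥
η E X(U_θ) ≥ Hs Λ_θ - Hs Λ_{θ-η}` for `θ = η, …, 1 - η`; sum, and let `n → ∞` with `Hs_le_add`.
-/

set_option autoImplicit false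

open MeasureTheory ProbabilityTheory Finset Set Crest.ProbabilityR.InvariantGlass

namespace Crest.Agent.R164

variable {Λ Λ' : ℝ → ℝ} {s ε : ℝ}

lemma dh_cont (hΛ : DC Λ) (b t : ℝ) : Continuous fun y => UU Λ (b + t * y) :=
  hΛ.continuous_UU.comp (by fun_prop)

lemma dh_abs (Λ : ℝ → ℝ) (x : ℝ) : |UU Λ x| ≤ 1 := abs_le.2 (UU_mem Λ x)

lemma dh_int (hΛ : DC Λ) {Z : ℝ → ℝ} (hZ : ContinuousOn Z (Icc (-1) 1)) (b t : ℝ) :
    Integrable (fun y => Z (UU Λ (b + t * y))) gs := by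
  obtain ⟨C, hC⟩ := isCompact_Icc.exists_bound_of_continuousOn hZ
  exact Integrable.of_bound
    (hZ.comp_continuous (dh_cont hΛ b t) fun y => UU_mem _ _).aestronglyMeasurable C
    (Filter.Eventually.of_forall fun y => hC _ (UU_mem _ _))

lemma dh_int_U (hΛ : DC Λ) (b t : ℝ) : Integrable (fun y => UU Λ (b + t * y)) gs :=
  dh_int hΛ (Z := fun u => u) continuousOn_id b t

lemma dh_int_yU (hΛ : DC Λ) (b t : ℝ) : Integrable (fun y => t * y * UU Λ (b + t * y)) gs := by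
  have h1 : Integrable (fun y : ℝ => y) gs := (memLp_id_gaussianReal 1).integrable le_rfl
  refine (h1.const_mul t).norm.mono' ((by fun_prop : Continuous fun y : ℝ => t * y).mul
    (dh_cont hΛ b t)).aestronglyMeasurable (Filter.Eventually.of_forall fun y => ?_)
  rw [norm_mul (t * y)]
  exact mul_le_of_le_one_right (norm_nonneg _) (dh_abs _ _)

lemma dh_exists (hΛ : DC Λ) (hs : s ∈ Ioo (-1 : ℝ) 1) (t : ℝ) :
    ∃ b, ∫ y, UU Λ (b + t * y) ∂gs = s := by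
  have hc : Continuous fun b => ∫ y, UU Λ (b + t * y) ∂gs :=
    continuous_of_dominated (bound := fun _ => 1)
      (fun b => (dh_cont hΛ b t).aestronglyMeasurable)
      (fun b => Filter.Eventually.of_forall fun y => dh_abs _ _) (integrable_const _)
      (Filter.Eventually.of_forall fun y => hΛ.continuous_UU.comp (by fun_prop))
  have key : ∀ (l : Filter ℝ) [l.IsCountablyGenerated] (a : ℝ),
      (∀ y, Filter.Tendsto (fun b => UU Λ (b + t * y)) l (nhds a)) →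
      Filter.Tendsto (fun b => ∫ y, UU Λ (b + t * y) ∂gs) l (nhds a) := by
    intro l _ a h
    have := tendsto_integral_filter_of_dominated_convergence (μ := gs) (l := l)
      (F := fun b y => UU Λ (b + t * y)) (f := fun _ => a) (fun _ => 1)
      (Filter.Eventually.of_forall fun b => (dh_cont hΛ b t).aestronglyMeasurable)
      (Filter.Eventually.of_forall fun b => Filter.Eventually.of_forall fun y => dh_abs _ _)
      (integrable_const _) (Filter.Eventually.of_forall h)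
    simpa using this
  have h1 := key Filter.atBot (-1) fun y =>
    (tendsto_UU_bot hΛ.cont).comp (Filter.tendsto_atBot_add_const_right _ _ Filter.tendsto_id)
  have h2 := key Filter.atTop 1 fun y =>
    (tendsto_UU_top hΛ.cont).comp (Filter.tendsto_atTop_add_const_right _ _ Filter.tendsto_id)
  obtain ⟨b, -, hb⟩ := isPreconnected_univ.intermediate_value_Ioo (l₁ := Filter.atBot)
    (l₂ := Filter.atTop) (by simp) (by simp) hc.continuousOn h1 h2 hs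
  exact ⟨b, hb⟩

lemma dh_split (hΛ : DC Λ) {Z : ℝ → ℝ} (hZ : ContinuousOn Z (Icc (-1) 1)) (b b' t : ℝ) :
    ∫ y, ((b' + t * y) * UU Λ (b + t * y) + Z (UU Λ (b + t * y))) ∂gs =
      b' * ∫ y, UU Λ (b + t * y) ∂gs +
        ∫ y, (t * y * UU Λ (b + t * y) + Z (UU Λ (b + t * y))) ∂gs := by
  have h1 : Integrable (fun y => t * y * UU Λ (b + t * y) + Z (UU Λ (b + t * y))) gs :=
    (dh_int_yU hΛ b t).add (dh_int hΛ hZ b t)
  rw [← integral_const_mul, ← integral_add ((dh_int_U hΛ b t).const_mul b') h1]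
  exact integral_congr_ae (Filter.Eventually.of_forall fun y => by simp only; ring)

theorem Hs_rep (hΛ : DC Λ) (hs : s ∈ Ioo (-1 : ℝ) 1) (ε : ℝ) :
    ∃ b, ∫ y, UU Λ (b + Real.sqrt ε * y) ∂gs = s ∧
      Hs ε Λ s = ∫ y, (Real.sqrt ε * y * UU Λ (b + Real.sqrt ε * y) +
        Λ (UU Λ (b + Real.sqrt ε * y))) ∂gs ∧
      ∀ Λ' : ℝ → ℝ, ContinuousOn Λ' (Icc (-1) 1) →
        ∫ y, (Real.sqrt ε * y * UU Λ (b + Real.sqrt ε * y) +
          Λ' (UU Λ (b + Real.sqrt ε * y))) ∂gs ≤ Hs ε Λ' s := by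
  obtain ⟨b, hb⟩ := dh_exists hΛ hs (Real.sqrt ε)
  have h3 : ∀ Λ' : ℝ → ℝ, ContinuousOn Λ' (Icc (-1) 1) →
      ∫ y, (Real.sqrt ε * y * UU Λ (b + Real.sqrt ε * y) +
        Λ' (UU Λ (b + Real.sqrt ε * y))) ∂gs ≤ Hs ε Λ' s := by
    intro Λ' hΛ'
    refine le_DD fun b' => ?_
    have h1 := dh_split hΛ hΛ' b b' (Real.sqrt ε)
    have h2 : ∫ y, ((b' + Real.sqrt ε * y) * UU Λ (b + Real.sqrt ε * y) +
        Λ' (UU Λ (b + Real.sqrt ε * y))) ∂gs ≤ ∫ y, PP Λ' (b' + Real.sqrt ε * y) ∂gs := by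
      refine integral_mono ?_ ((cl_PP hΛ').lip.integrable _ _) fun y => le_PP hΛ' (UU_mem _ _) _
      refine (((dh_int_U hΛ b (Real.sqrt ε)).const_mul b').add
        ((dh_int_yU hΛ b (Real.sqrt ε)).add (dh_int hΛ hΛ' b (Real.sqrt ε)))).congr
        (Filter.Eventually.of_forall fun y => ?_)
      simp only [Pi.add_apply]; ring
    rw [gaussOp_zero_left]
    rw [hb] at h1
    linarith
  refine ⟨b, hb, le_antisymm ?_ (h3 Λ hΛ.cont), h3⟩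
  have h1 := dh_split hΛ hΛ.cont b b (Real.sqrt ε)
  have h2 := ((cl_PP hΛ.cont).gauss (a := 0) (v := ε) le_rfl).DD_le (Ioo_subset_Icc_self hs) b
  rw [gaussOp_zero_left] at h2
  simp only [PP_eq hΛ.cont] at h2
  rw [hb] at h1
  unfold Hs
  linarith

/-- the increment of `Hs` in the direction of a continuous function -/
lemma dh_incr (hΛ : DC Λ) (hs : s ∈ Ioo (-1 : ℝ) 1) (ε : ℝ) :
    ∃ b, ∫ y, UU Λ (b + Real.sqrt ε * y) ∂gs = s ∧
      ∀ Λ' : ℝ → ℝ, ContinuousOn Λ' (Icc (-1) 1) →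
        ∫ y, (Λ' (UU Λ (b + Real.sqrt ε * y)) - Λ (UU Λ (b + Real.sqrt ε * y))) ∂gs ≤
          Hs ε Λ' s - Hs ε Λ s := by
  obtain ⟨b, h1, h2, h3⟩ := Hs_rep hΛ hs ε
  refine ⟨b, h1, fun Λ' hΛ' => ?_⟩
  have h4 := h3 Λ' hΛ'
  rw [integral_add (dh_int_yU hΛ _ _) (dh_int hΛ hΛ' _ _)] at h4
  rw [integral_add (dh_int_yU hΛ _ _) (dh_int hΛ hΛ.cont _ _)] at h2
  rw [integral_sub (dh_int hΛ hΛ' _ _) (dh_int hΛ hΛ.cont _ _)]
  linarith

lemma dh_closure {f g : ℝ → ℝ} (hf : ContinuousOn f (Icc (-1) 1)) (hg : ContinuousOn g (Icc (-1) 1))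
    (h : ∀ s ∈ Ioo (-1 : ℝ) 1, f s ≤ g s) (hs : s ∈ Icc (-1 : ℝ) 1) : f s ≤ g s := by
  rw [← closure_Ioo (by norm_num : (-1 : ℝ) ≠ 1)] at hf hg hs
  exact le_on_closure h hf hg hs

theorem Hs_pin (hΛ : DC Λ) (hΛ' : ContinuousOn Λ' (Icc (-1) 1)) (h : Od Λ Λ')
    (hs : s ∈ Icc (-1 : ℝ) 1) (ε : ℝ) : Λ' s - Λ s ≤ Hs ε Λ' s - Hs ε Λ s := by
  refine dh_closure (f := fun s => Λ' s - Λ s) (g := fun s => Hs ε Λ' s - Hs ε Λ s)
    (hΛ'.sub hΛ.cont) ((cont_Hs hΛ' ε).sub (cont_Hs hΛ.cont ε)) (fun s hs => ?_) hs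
  obtain ⟨b, h1, h2⟩ := dh_incr hΛ hs ε
  refine le_trans ?_ (h2 Λ' hΛ')
  have := ConvexOn.map_integral_le (μ := gs) (f := fun y => UU Λ (b + Real.sqrt ε * y)) h
    (hΛ'.sub hΛ.cont) isClosed_Icc (Filter.Eventually.of_forall fun y => UU_mem _ _)
    (dh_int_U hΛ _ _) (dh_int hΛ (hΛ'.sub hΛ.cont) _ _)
  rwa [h1] at this

/-- the maximiser for `Λ` lies between the minimiser of the difference and the maximiser for `Λ'` -/
lemma dh_between (hΛ : DC Λ) (hΛ' : DC Λ') (h : Od Λ Λ') {c u₀ : ℝ} (hu : u₀ ∈ Icc (-1 : ℝ) 1)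
    (hmin : ∀ u ∈ Icc (-1 : ℝ) 1, Λ' u₀ - Λ u₀ + c * u₀ ≤ Λ' u - Λ u + c * u) (x : ℝ) :
    UU Λ x ∈ uIcc u₀ (UU Λ' (x + c)) := by
  by_contra hn
  obtain ⟨w, hw1, hw2, hw3⟩ : ∃ w, w ∈ uIcc (UU Λ' (x + c)) (UU Λ x) ∧ w ∈ uIcc u₀ (UU Λ x) ∧
      w ≠ UU Λ x := by
    rw [Set.mem_uIcc] at hn
    simp only [Set.mem_uIcc]
    rcases le_total u₀ (UU Λ' (x + c)) with h1 | h1
    · rcases lt_or_ge (UU Λ x) u₀ with h2 | h2
      · exact ⟨u₀, Or.inr ⟨h2.le, h1⟩, Or.inr ⟨h2.le, le_rfl⟩, h2.ne'⟩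
      · have h3 : UU Λ' (x + c) < UU Λ x := not_le.1 fun h3 => hn (Or.inl ⟨h2, h3⟩)
        exact ⟨_, Or.inl ⟨le_rfl, h3.le⟩, Or.inl ⟨h1, h3.le⟩, h3.ne⟩
    · rcases lt_or_ge u₀ (UU Λ x) with h2 | h2
      · exact ⟨u₀, Or.inl ⟨h1, h2.le⟩, Or.inl ⟨le_rfl, h2.le⟩, h2.ne⟩
      · have h3 : UU Λ x < UU Λ' (x + c) := not_le.1 fun h3 => hn (Or.inr ⟨h3, h2⟩)
        exact ⟨_, Or.inr ⟨h3.le, le_rfl⟩, Or.inr ⟨h3.le, h1⟩, h3.ne'⟩
  have hU := UU_mem Λ x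
  have hU' := UU_mem Λ' (x + c)
  have hw : w ∈ Icc (-1 : ℝ) 1 := uIcc_subset_Icc hu hU hw2
  have hlin : ∀ a : ℝ, ConvexOn ℝ (Icc (-1 : ℝ) 1) (fun u => a * u) ∧
      ConcaveOn ℝ (Icc (-1 : ℝ) 1) (fun u => a * u) := fun a =>
    ⟨⟨convex_Icc _ _, fun _ _ _ _ _ _ _ _ _ => le_of_eq (by simp only [smul_eq_mul]; ring)⟩,
      ⟨convex_Icc _ _, fun _ _ _ _ _ _ _ _ _ => le_of_eq (by simp only [smul_eq_mul]; ring)⟩⟩
  rw [← segment_eq_uIcc] at hw1 hw2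
  have h1 := ((hlin (x + c)).2.add hΛ'.conc.concaveOn).ge_on_segment hU' hU hw1
  have h2 := (ConvexOn.add h (hlin c).1).le_on_segment hu hU hw2
  have h3 := hΛ.lt_PP hw hw3
  have h4 := le_PP hΛ'.cont hU (x + c)
  have h5 := hmin _ hU
  rw [PP_eq hΛ.cont] at h3
  rw [PP_eq hΛ'.cont] at h4
  simp only [Pi.add_apply] at h1 h2
  rw [min_eq_right h4] at h1
  rw [max_eq_right h5] at h2
  linarith

lemma dh_subgrad {Z : ℝ → ℝ} (hZ : ConvexOn ℝ (Icc (-1) 1) Z) {u₀ : ℝ} (hu : u₀ ∈ Ioo (-1 : ℝ) 1) :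
    ∃ ξ, ∀ u ∈ Icc (-1 : ℝ) 1, Z u₀ - ξ * u₀ ≤ Z u - ξ * u := by
  obtain ⟨ξ, h1, h2⟩ := exists_between_of_forall_le
    (s := (fun a => (Z u₀ - Z a) / (u₀ - a)) '' Ico (-1) u₀)
    (t := (fun a => (Z a - Z u₀) / (a - u₀)) '' Ioc u₀ 1)
    ((Set.nonempty_Ico.2 hu.1).image _) ((Set.nonempty_Ioc.2 hu.2).image _) (by
      rintro _ ⟨a, ha, rfl⟩ _ ⟨b, hb, rfl⟩
      exact hZ.slope_mono_adjacent ⟨ha.1, (ha.2.trans hu.2).le⟩ ⟨(hu.1.trans hb.1).le, hb.2⟩ ha.2 hb.1)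
  refine ⟨ξ, fun u hu' => ?_⟩
  rcases lt_trichotomy u u₀ with h | h | h
  · have := h1 (mem_image_of_mem _ (⟨hu'.1, h⟩ : u ∈ Ico (-1) u₀))
    rw [div_le_iff₀ (by linarith)] at this
    linarith
  · rw [h]
  · have := h2 (mem_image_of_mem _ (⟨h, hu'.2⟩ : u ∈ Ioc u₀ 1))
    rw [le_div_iff₀ (by linarith)] at this
    linarith

theorem cx_order (hΛ : DC Λ) (hΛ' : DC Λ') (h : Od Λ Λ') {b b' t : ℝ}
    (hm : ∫ y, UU Λ (b + t * y) ∂gs = ∫ y, UU Λ' (b' + t * y) ∂gs) {Z : ℝ → ℝ}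
    (hZ : ConvexOn ℝ (Icc (-1) 1) Z) (hZ' : ContinuousOn Z (Icc (-1) 1)) :
    ∫ y, Z (UU Λ (b + t * y)) ∂gs ≤ ∫ y, Z (UU Λ' (b' + t * y)) ∂gs := by
  obtain ⟨u₀, hu, hmin⟩ := isCompact_Icc.exists_isMinOn (nonempty_Icc.2 (by norm_num : (-1 : ℝ) ≤ 1))
    (f := fun u => Λ' u - Λ u + (b' - b) * u) ((hΛ'.cont.sub hΛ.cont).add (by fun_prop))
  have hb : ∀ y, UU Λ (b + t * y) ∈ uIcc u₀ (UU Λ' (b' + t * y)) := fun y => by
    have := dh_between hΛ hΛ' h hu (fun u hu' => hmin hu') (b + t * y)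
    rwa [show b + t * y + (b' - b) = b' + t * y by ring] at this
  have i1 := dh_int_U hΛ b t
  have i2 := dh_int_U hΛ' b' t
  have key : (∀ᵐ y ∂gs, UU Λ (b + t * y) = UU Λ' (b' + t * y)) →
      ∫ y, Z (UU Λ (b + t * y)) ∂gs ≤ ∫ y, Z (UU Λ' (b' + t * y)) ∂gs := fun h1 =>
    le_of_eq (integral_congr_ae (h1.mono fun y hy => by simp only [hy]))
  rcases hu.1.eq_or_lt with h1 | h1
  · refine key ((integral_eq_iff_of_ae_le i1 i2 (Filter.Eventually.of_forall fun y => ?_)).1 hm)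
    have h2 := hb y
    rw [← h1, uIcc_of_le (UU_mem _ _).1] at h2
    exact h2.2
  rcases hu.2.eq_or_lt with h2 | h2
  · refine key (Filter.EventuallyEq.symm ((integral_eq_iff_of_ae_le i2 i1
      (Filter.Eventually.of_forall fun y => ?_)).1 hm.symm))
    have h3 := hb y
    rw [h2, uIcc_of_ge (UU_mem _ _).2] at h3
    exact h3.1
  obtain ⟨ξ, hξ⟩ := dh_subgrad hZ ⟨h1, h2⟩
  have hG : ConvexOn ℝ (Icc (-1 : ℝ) 1) fun u => Z u - ξ * u :=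
    ⟨convex_Icc _ _, fun x hx y hy a c ha hc hac => by
      have := hZ.2 hx hy ha hc hac
      simp only [smul_eq_mul] at this ⊢
      linarith⟩
  have h3 : ∫ y, (Z (UU Λ (b + t * y)) - ξ * UU Λ (b + t * y)) ∂gs ≤
      ∫ y, (Z (UU Λ' (b' + t * y)) - ξ * UU Λ' (b' + t * y)) ∂gs :=
    integral_mono ((dh_int hΛ hZ' b t).sub (i1.const_mul ξ))
      ((dh_int hΛ' hZ' b' t).sub (i2.const_mul ξ)) fun y => by
        have h5 := hb y
        rw [← segment_eq_uIcc] at h5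
        have h4 := hG.le_on_segment hu (UU_mem Λ' (b' + t * y)) h5
        rwa [max_eq_right (hξ _ (UU_mem _ _))] at h4
  rw [integral_sub (dh_int hΛ hZ' b t) (i1.const_mul ξ),
    integral_sub (dh_int hΛ' hZ' b' t) (i2.const_mul ξ), integral_const_mul, integral_const_mul,
    hm] at h3
  linarith

/-- affine interpolation -/
noncomputable def dhI (f g : ℝ → ℝ) (θ : ℝ) : ℝ → ℝ := fun u => (1 - θ) * f u + θ * g u

lemma dhI_zero (f g : ℝ → ℝ) : dhI f g 0 = f := by funext u; simp [dhI]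
lemma dhI_one (f g : ℝ → ℝ) : dhI f g 1 = g := by funext u; simp [dhI]

lemma dhI_cont {f g : ℝ → ℝ} (hf : ContinuousOn f (Icc (-1) 1)) (hg : ContinuousOn g (Icc (-1) 1))
    (θ : ℝ) : ContinuousOn (dhI f g θ) (Icc (-1) 1) :=
  (continuousOn_const.mul hf).add (continuousOn_const.mul hg)

lemma dhI_dc {f g : ℝ → ℝ} (hf : DC f) (hg : DC g) {θ : ℝ} (h0 : 0 ≤ θ) (h1 : θ ≤ 1) :
    DC (dhI f g θ) := by
  refine ⟨dhI_cont hf.cont hg.cont θ, convex_Icc _ _, fun x hx y hy hxy a b ha hb hab => ?_⟩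
  have h2 := sub_pos.2 (hf.conc.2 hx hy hxy ha hb hab)
  have h3 := sub_pos.2 (hg.conc.2 hx hy hxy ha hb hab)
  simp only [smul_eq_mul, dhI] at h2 h3 ⊢
  have h4 : 0 < (1 - θ) * (f (a * x + b * y) - (a * f x + b * f y)) +
      θ * (g (a * x + b * y) - (a * g x + b * g y)) := by
    rcases h0.eq_or_lt with h | h
    · rw [← h]; simpa using h2
    · exact add_pos_of_nonneg_of_pos (mul_nonneg (by linarith) h2.le) (mul_pos h h3)
  linarith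

lemma dhI_od {f g f' g' : ℝ → ℝ} (hf : Od f f') (hg : Od g g') {θ : ℝ} (h0 : 0 ≤ θ) (h1 : θ ≤ 1) :
    Od (dhI f g θ) (dhI f' g' θ) := by
  have := (ConvexOn.smul (sub_nonneg.2 h1) hf).add (ConvexOn.smul h0 hg)
  refine this.congr fun u _ => ?_
  simp only [dhI, Pi.add_apply, smul_eq_mul]
  ring

theorem Hs_four {Λ₀₀ Λ₁₀ Λ₀₁ Λ₁₁ : ℝ → ℝ} (h00 : DC Λ₀₀) (h10 : DC Λ₁₀) (h01 : DC Λ₀₁)
    (h11 : DC Λ₁₁) (o1 : Od Λ₀₀ Λ₁₀) (o2 : Od Λ₀₀ Λ₀₁) (o3 : Od Λ₁₀ Λ₁₁)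
    (h : ∀ u ∈ Icc (-1 : ℝ) 1, Λ₁₀ u + Λ₀₁ u ≤ Λ₁₁ u + Λ₀₀ u) (ε : ℝ) (hs : s ∈ Icc (-1 : ℝ) 1) :
    Hs ε Λ₁₀ s + Hs ε Λ₀₁ s ≤ Hs ε Λ₁₁ s + Hs ε Λ₀₀ s := by
  refine dh_closure (f := fun s => Hs ε Λ₁₀ s + Hs ε Λ₀₁ s) (g := fun s => Hs ε Λ₁₁ s + Hs ε Λ₀₀ s)
    ((cont_Hs h10.cont ε).add (cont_Hs h01.cont ε)) ((cont_Hs h11.cont ε).add (cont_Hs h00.cont ε))
    (fun s hs => ?_) hs
  have hX : ContinuousOn (fun u => Λ₁₀ u - Λ₀₀ u) (Icc (-1) 1) := h10.cont.sub h00.cont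
  have hX' : ContinuousOn (fun u => Λ₁₁ u - Λ₀₁ u) (Icc (-1) 1) := h11.cont.sub h01.cont
  have step : ∀ θ η : ℝ, 0 ≤ θ → θ ≤ 1 → 0 ≤ η →
      Hs ε (dhI Λ₀₀ Λ₁₀ θ) s - Hs ε (dhI Λ₀₀ Λ₁₀ (θ - η)) s ≤
        Hs ε (dhI Λ₀₁ Λ₁₁ (θ + η)) s - Hs ε (dhI Λ₀₁ Λ₁₁ θ) s := by
    intro θ η h0 h1 hη
    have d1 := dhI_dc h00 h10 h0 h1
    have d2 := dhI_dc h01 h11 h0 h1
    obtain ⟨b, hb, h2⟩ := dh_incr d1 hs ε
    obtain ⟨b', hb', h3⟩ := dh_incr d2 hs ε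
    have h4 := h2 _ (dhI_cont h00.cont h10.cont (θ - η))
    have h5 := h3 _ (dhI_cont h01.cont h11.cont (θ + η))
    have h6 := cx_order d1 d2 (dhI_od o2 o3 h0 h1) (hb.trans hb'.symm) o1 hX
    have e1 : ∀ u, dhI Λ₀₀ Λ₁₀ (θ - η) u - dhI Λ₀₀ Λ₁₀ θ u = -η * (Λ₁₀ u - Λ₀₀ u) := fun u => by
      simp only [dhI]; ring
    have e2 : ∀ u, dhI Λ₀₁ Λ₁₁ (θ + η) u - dhI Λ₀₁ Λ₁₁ θ u = η * (Λ₁₁ u - Λ₀₁ u) := fun u => by
      simp only [dhI]; ring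
    simp only [e1, integral_const_mul] at h4
    simp only [e2, integral_const_mul] at h5
    have h7 := integral_mono (dh_int d2 hX b' (Real.sqrt ε)) (dh_int d2 hX' b' (Real.sqrt ε))
      fun y => by have := h _ (UU_mem (dhI Λ₀₁ Λ₁₁ θ) (b' + Real.sqrt ε * y)); simp only; linarith
    have h8 := mul_le_mul_of_nonneg_left (h6.trans h7) hη
    linarith
  obtain ⟨C, hC⟩ := isCompact_Icc.exists_bound_of_continuousOn hX
  have main : ∀ n : ℕ, 0 < n → Hs ε Λ₁₀ s + Hs ε Λ₀₁ s - (Hs ε Λ₁₁ s + Hs ε Λ₀₀ s) ≤ 2 * C / n := by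
    intro n hn
    have hn' : (0 : ℝ) < n := by exact_mod_cast hn
    have hη : (0 : ℝ) ≤ 1 / n := by positivity
    have h1 : ∀ k : ℕ, k ≤ n →
        Hs ε (dhI Λ₀₀ Λ₁₀ (k * (1 / n) - 1 / n)) s - Hs ε (dhI Λ₀₀ Λ₁₀ (-(1 / n))) s ≤
          Hs ε (dhI Λ₀₁ Λ₁₁ (k * (1 / n))) s - Hs ε (dhI Λ₀₁ Λ₁₁ 0) s := by
      intro k
      induction k with
      | zero => simp
      | succ k ih =>
        intro hk
        have h2 := ih (by omega)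
        have h3 := step (k * (1 / n)) (1 / n) (by positivity) (by
          rw [mul_one_div, div_le_one hn']; exact_mod_cast (by omega : k ≤ n)) hη
        rw [show ((k + 1 : ℕ) : ℝ) * (1 / n) = k * (1 / n) + 1 / n by push_cast; ring,
          add_sub_cancel_right]
        linarith
    have h2 := h1 n le_rfl
    rw [mul_one_div_cancel hn'.ne', dhI_one, dhI_zero] at h2
    have h3 := Hs_le_add (c := 1 / n * C) h10.cont (dhI_cont h00.cont h10.cont (1 - 1 / n))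
      (fun u hu => by
        have := mul_le_mul_of_nonneg_left (abs_le.1 (hC u hu)).2 hη
        simp only [dhI]; linarith) ε (Ioo_subset_Icc_self hs)
    have h4 := Hs_le_add (c := 1 / n * C) (dhI_cont h00.cont h10.cont (-(1 / n))) h00.cont
      (fun u hu => by
        have := mul_le_mul_of_nonneg_left (abs_le.1 (hC u hu)).1 hη
        simp only [dhI]; linarith) ε (Ioo_subset_Icc_self hs)
    have e : 2 * C / n = 2 * (1 / n * C) := by ring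
    linarith
  exact sub_nonpos.1 (ge_of_tendsto (tendsto_const_div_atTop_nhds_zero_nat (2 * C))
    (Filter.eventually_atTop.2 ⟨1, fun n hn => main n hn⟩))

end Crest.Agent.R164
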