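import Crest.Agent.R164.Dual

/-!
# R164 / DualOd: the order is preserved by the heat step

`Od.qc`.  Fix `c`, `k`; put `Y u = Λ' u - Λ u - c u - k` (convex), `f = PP Λ`,
`F x = PP Λ' (x - c) - k = max (x u + Λ u + Y u)`.  Let `x₁ < x₂ < x₃` with `F ≤ f` at `x₁, x₃`
and suppose `F x₂ > f x₂`.  With `u_i = UU Λ x_i`: `Y u₁ ≤ 0`, `Y u₃ ≤ 0`; with `w` the maximiser
of `F x₂`: `Y w > 0`, so `w > max u₁ u₃` or `w < min u₁ u₃` by convexity.  If `w > u₃`:
`F x₃ ≥ F x₂ + (x₃ - x₂) w > f x₂ + (x₃ - x₂) u₃ ≥ f x₃`, a contradiction; symmetric otherwise.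

`QC.od`.  `Λ = DD f`, `Λ' = DD g` are continuous on `[-1,1]`, so it suffices to prove convexity of
`Λ' - Λ` on the open interval (then approximate).  If it fails there are `u₁ < u < u₃` in `(-1,1)`
and `c, k` with `Y = Λ' - Λ - c u - k` negative at `u₁, u₃`, positive at `u`; let `u₂` maximise `Y`
on `[u₁,u₃]` (interior).  `G x = g (x - c) - k` has `DD G = Λ + Y`.  Take minimisers `x₁, x₃` of
`G b - b u_i` and `x₂` of `f b - b u₂` (`CL.exists_DD`).  Then `G x_i < f x_i` for `i = 1,3`,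
`G x₂ > f x₂`, and `x₁ ≤ x₂ ≤ x₃`: `(Λ+Y) u₂ - (Λ+Y) u₁ ≤ -x₁ (u₂ - u₁)` and
`(Λ+Y) u₁ - (Λ+Y) u₂ ≤ Λ u₁ - Λ u₂ ≤ -x₂ (u₁ - u₂)`.  This contradicts quasi-convexity.

`QC.heat` (variation diminishing).  Let `h = g (· - c) - f - k`; `{h ≤ 0}` is an interval `A`
(closed).  `E h (x + t g) = exp (-x²/(2t²)) M x` with `M x = E [h (t g) exp (x g / t)]` for `t > 0`
(Cameron–Martin, `cm_real`).  Let `x₁ < x₂ < x₃`, `M x₁ ≤ 0`, `M x₃ ≤ 0`.  It suffices to find
`θ₁, θ₃ ≥ 0` such that `K y = e^{x₂ y} - θ₁ e^{x₁ y} - θ₃ e^{x₃ y}` is `≥ 0` on `A` and `≤ 0` off `A`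
(then `M x₂ ≤ θ₁ M x₁ + θ₃ M x₃ ≤ 0`).  `K e^{-x₂ y} = 1 - (convex)`.  If `A = [c₁, c₂]` with
`c₁ < c₂` solve `K c₁ = K c₂ = 0` (2×2 system with positive solution); if `A = (-∞, c₂]` take
`θ₁ = 0`, `K c₂ = 0`; symmetric; `A = ℝ` is trivial; if `A` is empty or a point then `h > 0` a.e.
and `M x₁ > 0`, impossible.
-/

set_option autoImplicit false

open MeasureTheory ProbabilityTheory Finset Set Crest.ProbabilityR.InvariantGlass

namespace Crest.Agent.R164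

variable {f g Λ Λ' Λ'' : ℝ → ℝ}

lemma Od.refl (Λ : ℝ → ℝ) : Od Λ Λ := by
  unfold Od
  simp only [sub_self]
  exact convexOn_const 0 (convex_Icc _ _)

lemma Od.trans (h : Od Λ Λ') (h' : Od Λ' Λ'') : Od Λ Λ'' :=
  (ConvexOn.add h' h).congr fun u _ => by simp

lemma od_qc_le {h : ℝ → ℝ} (H : QuasiconvexOn ℝ univ h) {k x₁ x₂ x₃ : ℝ} (h12 : x₁ ≤ x₂)
    (h23 : x₂ ≤ x₃) (h1 : h x₁ ≤ k) (h3 : h x₃ ≤ k) : h x₂ ≤ k :=
  ((H k).ordConnected.out ⟨mem_univ _, h1⟩ ⟨mem_univ _, h3⟩ ⟨h12, h23⟩).2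

lemma od_qc_of {h : ℝ → ℝ}
    (H : ∀ k x₁ x₂ x₃, x₁ < x₂ → x₂ < x₃ → h x₁ ≤ k → h x₃ ≤ k → h x₂ ≤ k) :
    QuasiconvexOn ℝ univ h := by
  refine fun k => convex_iff_ordConnected.2 ⟨fun x hx y hy z hz => ⟨mem_univ _, ?_⟩⟩
  rcases hz.1.eq_or_lt with rfl | h1
  · exact hx.2
  rcases hz.2.eq_or_lt with rfl | h2
  · exact hy.2
  exact H k x z y h1 h2 hx.2 hy.2

lemma od_convex_affine (c k : ℝ) {s : Set ℝ} (hs : Convex ℝ s) :
    ConvexOn ℝ s fun u => c * u + k :=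
  ⟨hs, fun x _ y _ a b _ _ hab => le_of_eq (by
    simp only [smul_eq_mul]
    linear_combination (-k) * hab)⟩

theorem Od.qc (hΛ : ContinuousOn Λ (Icc (-1) 1)) (hΛ' : ContinuousOn Λ' (Icc (-1) 1))
    (h : Od Λ Λ') : QC (PP Λ) (PP Λ') := by
  refine fun c => od_qc_of fun k x₁ x₂ x₃ h12 h23 h1 h3 => ?_
  by_contra h2
  rw [not_le] at h2
  have hY := ConvexOn.add h (od_convex_affine (-c) (-k) (convex_Icc _ _))
  have e1 := PP_eq hΛ x₁
  have e3 := PP_eq hΛ x₃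
  have e2 := PP_eq hΛ' (x₂ - c)
  have m1 := UU_mem Λ x₁
  have m3 := UU_mem Λ x₃
  have m2 := UU_mem Λ' (x₂ - c)
  generalize UU Λ x₁ = u₁ at e1 m1
  generalize UU Λ x₃ = u₃ at e3 m3
  generalize UU Λ' (x₂ - c) = w at e2 m2
  have a1 := le_PP hΛ' m1 (x₁ - c)
  have a3 := le_PP hΛ' m3 (x₃ - c)
  have a2 := le_PP hΛ m2 x₂
  have b1 := le_PP hΛ' m2 (x₁ - c)
  have b3 := le_PP hΛ' m2 (x₃ - c)
  have c1 := le_PP hΛ m1 x₂
  have c3 := le_PP hΛ m3 x₂
  rcases le_or_gt u₃ w with h4 | h4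
  · nlinarith [mul_le_mul_of_nonneg_left h4 (sub_nonneg.2 h23.le)]
  rcases le_or_gt w u₁ with h5 | h5
  · nlinarith [mul_le_mul_of_nonneg_left h5 (sub_nonneg.2 h12.le)]
  have h6 := hY.le_max_of_mem_Icc m1 m3 ⟨h5.le, h4.le⟩
  simp only [Pi.add_apply] at h6
  rcases le_max_iff.1 h6 with h7 | h7 <;> nlinarith

/-- convexity passes from the open to the closed interval -/
lemma od_convex_closure {Z : ℝ → ℝ} (hc : ContinuousOn Z (Icc (-1) 1))
    (h : ConvexOn ℝ (Ioo (-1) 1) Z) : ConvexOn ℝ (Icc (-1) 1) Z := by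
  have key : ∀ u ∈ Icc (-1 : ℝ) 1, ∀ t ∈ Ioo (0 : ℝ) 1, t * u ∈ Ioo (-1 : ℝ) 1 := by
    rintro u ⟨h1, h2⟩ t ⟨h3, h4⟩
    constructor <;> nlinarith
  have lim : ∀ u ∈ Icc (-1 : ℝ) 1,
      Filter.Tendsto (fun t => Z (t * u)) (nhdsWithin 1 (Ioo 0 1)) (nhds (Z u)) := by
    intro u hu
    refine (hc u hu).tendsto.comp (tendsto_nhdsWithin_iff.2 ⟨?_, ?_⟩)
    · have : Filter.Tendsto (fun t : ℝ => t * u) (nhds 1) (nhds (1 * u)) :=
        (continuous_id.mul continuous_const).tendsto 1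
      rw [one_mul] at this
      exact this.mono_left nhdsWithin_le_nhds
    · filter_upwards [self_mem_nhdsWithin] with t ht using Ioo_subset_Icc_self (key u hu t ht)
  refine ⟨convex_Icc _ _, fun x hx y hy a b ha hb hab => ?_⟩
  have := right_nhdsWithin_Ioo_neBot (show (0 : ℝ) < 1 by norm_num)
  refine le_of_tendsto_of_tendsto (lim _ (convex_Icc _ _ hx hy ha hb hab))
    (((lim x hx).const_smul a).add ((lim y hy).const_smul b)) ?_
  filter_upwards [self_mem_nhdsWithin] with t ht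
  have h1 := h.2 (key x hx t ht) (key y hy t ht) ha hb hab
  have e : a • (t * x) + b • (t * y) = t * (a • x + b • y) := by
    simp only [smul_eq_mul]; ring
  rwa [e] at h1

theorem QC.od (hf : CL f) (hg : CL g) (h : QC f g) : Od (DD f) (DD g) := by
  have key : ∀ c k u₁ u₂ u₃ : ℝ, u₁ ∈ Ioo (-1 : ℝ) 1 → u₃ ∈ Ioo (-1 : ℝ) 1 → u₁ < u₂ → u₂ < u₃ →
      DD g u₁ - DD f u₁ ≤ c * u₁ + k → DD g u₃ - DD f u₃ ≤ c * u₃ + k →
      DD g u₂ - DD f u₂ ≤ c * u₂ + k := by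
    intro c k u₁ u₂ u₃ m1 m3 h12 h23 h1 h3
    have m2 : u₂ ∈ Ioo (-1 : ℝ) 1 := ⟨m1.1.trans h12, h23.trans m3.2⟩
    by_contra h2
    rw [not_le] at h2
    obtain ⟨b₁, e1⟩ := hg.exists_DD m1
    obtain ⟨b₃, e3⟩ := hg.exists_DD m3
    obtain ⟨x₂, e2⟩ := hf.exists_DD m2
    have a1 := hf.DD_le (Ioo_subset_Icc_self m1) (b₁ + c)
    have a3 := hf.DD_le (Ioo_subset_Icc_self m3) (b₃ + c)
    have a2 := hg.DD_le (Ioo_subset_Icc_self m2) (x₂ - c)
    have b1 := hg.DD_le (Ioo_subset_Icc_self m2) b₁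
    have b3 := hg.DD_le (Ioo_subset_Icc_self m2) b₃
    have c1 := hf.DD_le (Ioo_subset_Icc_self m1) x₂
    have c3 := hf.DD_le (Ioo_subset_Icc_self m3) x₂
    have d1 : b₁ + c ≤ x₂ := le_of_mul_le_mul_right (a := u₂ - u₁) (by nlinarith) (by linarith)
    have d3 : x₂ ≤ b₃ + c := le_of_mul_le_mul_right (a := u₃ - u₂) (by nlinarith) (by linarith)
    have := od_qc_le (h c) (k := k) d1 d3 (by simp only [add_sub_cancel_right]; nlinarith)
      (by simp only [add_sub_cancel_right]; nlinarith)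
    nlinarith
  refine od_convex_closure (hg.cont_DD.sub hf.cont_DD)
    (LinearOrder.convexOn_of_lt (convex_Ioo _ _) fun x hx y hy hxy a b ha hb hab => ?_)
  simp only [smul_eq_mul]
  obtain ⟨c, hc⟩ : ∃ c, c * (y - x) = (DD g y - DD f y) - (DD g x - DD f x) :=
    ⟨_, div_mul_cancel₀ _ (sub_pos.2 hxy).ne'⟩
  obtain rfl : a = 1 - b := by linarith
  have := key c (DD g x - DD f x - c * x) x ((1 - b) * x + b * y) y hx hy (by nlinarith)
    (by nlinarith) (by linarith) (by linarith)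
  refine this.trans (le_of_eq ?_)
  linear_combination b * hc

lemma od_convex_exp (β : ℝ) : ConvexOn ℝ univ fun y => Real.exp (β * y) := by
  refine ⟨convex_univ, fun x _ y _ a b ha hb hab => ?_⟩
  have := convexOn_exp.2 (mem_univ (β * x)) (mem_univ (β * y)) ha hb hab
  simp only [smul_eq_mul] at this ⊢
  rwa [show β * (a * x + b * y) = a * (β * x) + b * (β * y) by ring]

lemma od_sign {F : ℝ → ℝ} (hF : Continuous F) (hq : QuasiconvexOn ℝ univ F) {α β : ℝ}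
    (hα : 0 < α) (hβ : 0 < β) : ∃ c₁ c₃ : ℝ, 0 ≤ c₁ ∧ 0 ≤ c₃ ∧
      ∀ y, F y ≤ (c₁ * Real.exp (-α * y) + c₃ * Real.exp (β * y)) * F y := by
  suffices H : ∃ c₁ c₃ : ℝ, 0 ≤ c₁ ∧ 0 ≤ c₃ ∧
      (∀ y, F y < 0 → c₁ * Real.exp (-α * y) + c₃ * Real.exp (β * y) ≤ 1) ∧
      ∀ y, 0 < F y → 1 ≤ c₁ * Real.exp (-α * y) + c₃ * Real.exp (β * y) by
    obtain ⟨c₁, c₃, h1, h3, H1, H2⟩ := H
    refine ⟨c₁, c₃, h1, h3, fun y => ?_⟩
    rcases lt_trichotomy (F y) 0 with h | h | h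
    · nlinarith [H1 y h]
    · simp [h]
    · nlinarith [H2 y h]
  set N := {y | F y < 0} with hN
  rcases N.eq_empty_or_nonempty with h0 | h0
  · refine ⟨1, 1, zero_le_one, zero_le_one, fun y hy => absurd (show y ∈ N from hy) (by simp [h0]),
      fun y _ => ?_⟩
    have h1 := Real.exp_pos (-α * y)
    have h2 := Real.exp_pos (β * y)
    rcases le_total 0 y with h | h
    · have := Real.one_le_exp (mul_nonneg hβ.le h)
      linarith
    · have := Real.one_le_exp (show 0 ≤ -α * y by nlinarith)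
      linarith
  have hsep : ∀ y, 0 < F y → y ∈ lowerBounds N ∨ y ∈ upperBounds N := by
    intro y hy
    by_contra hc
    simp only [mem_lowerBounds, mem_upperBounds, not_or, not_forall, not_le] at hc
    obtain ⟨⟨u, hu, h1⟩, w, hw, h2⟩ := hc
    exact absurd (od_qc_le hq h1.le h2.le (le_of_lt hu) (le_of_lt hw)) (not_le.2 hy)
  by_cases hb : BddBelow N <;> by_cases ha : BddAbove N
  · obtain ⟨p, hp⟩ := h0
    obtain ⟨ε, hε, hball⟩ := Metric.isOpen_iff.1 (isOpen_lt hF continuous_const) p hp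
    have hp' : p + ε / 2 ∈ N := hball (by
      rw [Metric.mem_ball, Real.dist_eq, add_sub_cancel_left, abs_of_pos (by linarith)]; linarith)
    have hab : sInf N < sSup N :=
      (csInf_le hb hp).trans_lt (lt_of_lt_of_le (by linarith) (le_csSup ha hp'))
    have hlo : ∀ y ∈ N, y ∈ Icc (sInf N) (sSup N) := fun y hy => ⟨csInf_le hb hy, le_csSup ha hy⟩
    have hout : ∀ y, 0 < F y → y ≤ sInf N ∨ sSup N ≤ y := fun y hy =>
      (hsep y hy).imp (le_csInf ⟨p, hp⟩) (csSup_le ⟨p, hp⟩)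
    generalize sInf N = a at hab hlo hout
    generalize sSup N = b at hab hlo hout
    have hpq : Real.exp (-α * b) < Real.exp (-α * a) := Real.exp_lt_exp.2 (by nlinarith)
    have hrs : Real.exp (β * a) < Real.exp (β * b) := Real.exp_lt_exp.2 (by nlinarith)
    have hq0 := Real.exp_pos (-α * b)
    have hr0 := Real.exp_pos (β * a)
    have hdet : 0 < Real.exp (-α * a) * Real.exp (β * b) - Real.exp (-α * b) * Real.exp (β * a) := by
      nlinarith
    obtain ⟨c₁, c₃, h1, h3, ea, eb⟩ : ∃ c₁ c₃ : ℝ, 0 ≤ c₁ ∧ 0 ≤ c₃ ∧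
        c₁ * Real.exp (-α * a) + c₃ * Real.exp (β * a) = 1 ∧
        c₁ * Real.exp (-α * b) + c₃ * Real.exp (β * b) = 1 := by
      refine ⟨_, _, div_nonneg (sub_pos.2 hrs).le hdet.le, div_nonneg (sub_pos.2 hpq).le hdet.le,
        ?_, ?_⟩ <;>
      rw [div_mul_eq_mul_div, div_mul_eq_mul_div, ← add_div, div_eq_one_iff_eq hdet.ne'] <;> ring
    have hψ : ConvexOn ℝ univ fun y => c₁ * Real.exp (-α * y) + c₃ * Real.exp (β * y) :=
      ((od_convex_exp (-α)).smul h1).add ((od_convex_exp β).smul h3)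
    refine ⟨c₁, c₃, h1, h3, fun y hy => ?_, fun y hy => ?_⟩
    · have := hψ.le_max_of_mem_Icc (mem_univ a) (mem_univ b) (hlo y hy)
      rwa [ea, eb, max_self] at this
    · rcases hout y hy with h | h
      · have := hψ.le_left_of_right_le'' (mem_univ y) (mem_univ b) h hab (by rw [ea, eb])
        rwa [ea] at this
      · have := hψ.le_right_of_left_le'' (mem_univ a) (mem_univ y) hab h (by rw [ea, eb])
        rwa [eb] at this
  · refine ⟨Real.exp (α * sInf N), 0, (Real.exp_pos _).le, le_rfl, fun y hy => ?_, fun y hy => ?_⟩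
    · rw [zero_mul, add_zero, ← Real.exp_add, Real.exp_le_one_iff]
      nlinarith [csInf_le hb hy]
    · rw [zero_mul, add_zero, ← Real.exp_add]
      have := le_csInf h0 ((hsep y hy).resolve_right fun h => ha ⟨y, h⟩)
      exact Real.one_le_exp (by nlinarith)
  · refine ⟨0, Real.exp (-β * sSup N), le_rfl, (Real.exp_pos _).le, fun y hy => ?_, fun y hy => ?_⟩
    · rw [zero_mul, zero_add, ← Real.exp_add, Real.exp_le_one_iff]
      nlinarith [le_csSup ha hy]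
    · rw [zero_mul, zero_add, ← Real.exp_add]
      have := csSup_le h0 ((hsep y hy).resolve_left fun h => hb ⟨y, h⟩)
      exact Real.one_le_exp (by nlinarith)
  · refine ⟨0, 0, le_rfl, le_rfl, fun y _ => by simp, fun y hy => ?_⟩
    rcases hsep y hy with h | h
    · exact absurd ⟨y, h⟩ hb
    · exact absurd ⟨y, h⟩ ha

lemma od_shift {F : ℝ → ℝ} {θ : ℝ} (h : Integrable (fun y => F (y + θ)) gs) :
    Integrable (fun y => gaussianPDFReal 0 1 (y - θ) * F y) ∧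
      ∫ y, gaussianPDFReal 0 1 (y - θ) * F y = ∫ y, F (y + θ) ∂gs := by
  constructor
  · unfold gs at h
    rw [gaussianReal_of_var_ne_zero _ one_ne_zero, integrable_withDensity_iff_integrable_smul'
      (measurable_gaussianPDF _ _) (ae_of_all _ fun _ => gaussianPDF_lt_top)] at h
    simpa only [toReal_gaussianPDF, smul_eq_mul, sub_add_cancel] using h.comp_sub_right θ
  · rw [integral_gaussianReal_eq_integral_smul one_ne_zero,
      ← integral_add_right_eq_self (fun y => gaussianPDFReal 0 1 (y - θ) * F y) θ]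
    simp only [add_sub_cancel_right, smul_eq_mul]

lemma od_pdf (θ θ' y : ℝ) : gaussianPDFReal 0 1 (y - θ) * Real.exp ((θ' - θ) * y) =
    Real.exp ((θ' ^ 2 - θ ^ 2) / 2) * gaussianPDFReal 0 1 (y - θ') := by
  simp only [gaussianPDFReal, NNReal.coe_one, mul_one, sub_zero]
  rw [mul_assoc, ← Real.exp_add, mul_left_comm, ← Real.exp_add]
  congr 2
  ring

/-- variation diminishing -/
lemma od_vd {F : ℝ → ℝ} (hF : Continuous F) (hq : QuasiconvexOn ℝ univ F)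
    (hi : ∀ θ, Integrable (fun y => F (y + θ)) gs) {θ₁ θ₂ θ₃ : ℝ} (h12 : θ₁ < θ₂) (h23 : θ₂ < θ₃)
    (h1 : ∫ y, F (y + θ₁) ∂gs ≤ 0) (h3 : ∫ y, F (y + θ₃) ∂gs ≤ 0) : ∫ y, F (y + θ₂) ∂gs ≤ 0 := by
  obtain ⟨c₁, c₃, hc₁, hc₃, H⟩ := od_sign hF hq (sub_pos.2 h12) (sub_pos.2 h23)
  obtain ⟨i1, e1⟩ := od_shift (hi θ₁)
  obtain ⟨i2, e2⟩ := od_shift (hi θ₂)
  obtain ⟨i3, e3⟩ := od_shift (hi θ₃)
  have key := integral_mono i2 ((i1.const_mul (c₁ * Real.exp ((θ₁ ^ 2 - θ₂ ^ 2) / 2))).add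
    (i3.const_mul (c₃ * Real.exp ((θ₃ ^ 2 - θ₂ ^ 2) / 2)))) fun y => by
      have a1 := od_pdf θ₂ θ₁ y
      have a3 := od_pdf θ₂ θ₃ y
      have a2 := mul_le_mul_of_nonneg_left (H y) (gaussianPDFReal_nonneg 0 1 (y - θ₂))
      rw [neg_sub] at a2
      refine a2.trans (le_of_eq ?_)
      simp only [Pi.add_apply]
      linear_combination c₁ * F y * a1 + c₃ * F y * a3
  rw [integral_add' (i1.const_mul _) (i3.const_mul _), integral_const_mul, integral_const_mul,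
    e1, e2, e3] at key
  have b1 := mul_nonpos_of_nonneg_of_nonpos
    (mul_nonneg hc₁ (Real.exp_pos ((θ₁ ^ 2 - θ₂ ^ 2) / 2)).le) h1
  have b3 := mul_nonpos_of_nonneg_of_nonpos
    (mul_nonneg hc₃ (Real.exp_pos ((θ₃ ^ 2 - θ₂ ^ 2) / 2)).le) h3
  linarith

theorem QC.heat (hf : Lip1 f) (hg : Lip1 g) (h : QC f g) (ε : ℝ) :
    QC (gaussOp 0 ε f) (gaussOp 0 ε g) := by
  intro c
  simp only [gaussOp_zero_left]
  rcases (Real.sqrt_nonneg ε).eq_or_lt with ht | ht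
  · simpa [← ht] using h c
  generalize Real.sqrt ε = t at ht
  refine od_qc_of fun k x₁ x₂ x₃ h12 h23 h1 h3 => ?_
  let F : ℝ → ℝ := fun y => g (t * y - c) - f (t * y) - k
  have hF : Continuous F := by
    have := hf.continuous
    have := hg.continuous
    fun_prop
  have hq : QuasiconvexOn ℝ univ F := od_qc_of fun k' y₁ y₂ y₃ a12 a23 a1 a3 => by
    have := od_qc_le (h c) (k := k' + k) (mul_le_mul_of_nonneg_left a12.le ht.le)
      (mul_le_mul_of_nonneg_left a23.le ht.le) (by simp only [F] at a1; linarith)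
      (by simp only [F] at a3; linarith)
    simp only [F]; linarith
  have e : ∀ θ, (fun y => F (y + θ)) =
      fun y => g (t * θ - c + t * y) - f (t * θ + t * y) - k := fun θ => funext fun y => by
    simp only [F]
    rw [show t * (y + θ) - c = t * θ - c + t * y by ring, show t * (y + θ) = t * θ + t * y by ring]
  have hi : ∀ θ, Integrable (fun y => F (y + θ)) gs := fun θ => by
    rw [e]
    exact ((hg.integrable _ _).sub (hf.integrable _ _)).sub (integrable_const k)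
  have e' : ∀ x, ∫ y, F (y + x / t) ∂gs =
      ∫ y, g (x - c + t * y) ∂gs - ∫ y, f (x + t * y) ∂gs - k := fun x => by
    have i1 : Integrable (fun y => g (x - c + t * y) - f (x + t * y)) gs :=
      (hg.integrable _ _).sub (hf.integrable _ _)
    rw [e, mul_div_cancel₀ _ ht.ne', integral_sub i1 (integrable_const k),
      integral_sub (hg.integrable _ _) (hf.integrable _ _)]
    simp
  have := od_vd hF hq hi (div_lt_div_of_pos_right h12 ht) (div_lt_div_of_pos_right h23 ht)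
    (by rw [e']; linarith) (by rw [e']; linarith)
  rw [e'] at this
  linarith

theorem Od.heat (hΛ : ContinuousOn Λ (Icc (-1) 1)) (hΛ' : ContinuousOn Λ' (Icc (-1) 1))
    (h : Od Λ Λ') (ε : ℝ) : Od (Hs ε Λ) (Hs ε Λ') :=
  QC.od ((cl_PP hΛ).gauss le_rfl) ((cl_PP hΛ').gauss le_rfl)
    ((h.qc hΛ hΛ').heat (cl_PP hΛ).lip (cl_PP hΛ').lip ε)

theorem Od.step (hΛ : ContinuousOn Λ (Icc (-1) 1)) (hΛ' : ContinuousOn Λ' (Icc (-1) 1))
    (h : Od Λ Λ') {a a' ε : ℝ} (hε : 0 ≤ ε) (ha : a ≤ a') : Od (Ss a ε Λ) (Ss a' ε Λ') := by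
  have h1 : ConvexOn ℝ (Icc (-1) 1) fun u : ℝ => ((a' - a) * ε / 2) • u ^ 2 :=
    ((Even.convexOn_pow (𝕜 := ℝ) even_two).subset (subset_univ _) (convex_Icc _ _)).smul
      (by have := mul_nonneg (sub_nonneg.2 ha) hε; linarith)
  refine (ConvexOn.add (h.heat hΛ hΛ' ε) h1).congr fun u _ => ?_
  simp only [Pi.add_apply, Ss, smul_eq_mul]
  ring

end Crest.Agent.R164
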