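import Crest.Agent.R164.DualOd

/-!
# R164 / DualRef: the reference function and the invariant of the scheme

`hasDerivAt_DD` (envelope theorem): if `g ∈ CL` has a continuous strictly increasing derivative
`g'` and `σ` is a continuous right inverse near `u`, then `DD g u = g (σ u) - σ u * u` and
`-σ u' (u' - u) ≤ DD g u' - DD g u ≤ -σ u (u' - u)`, so the derivative is `-σ u`.
For `r x = lc (2x)/2`: `r' = tanh (2x)`, `r'' = 2 (1 - tanh² (2x))`, the inverse of `r'` is
`artanh u / 2`.  Let `F = gaussOp 0 ε r` (so `Hs ε Λr = DD F` by `CL.PP_DD`), `F' x = E tanh (2(x+√ε g))`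
is a strictly increasing bijection onto `(-1,1)`, `σ = F'' = E r''(x + √ε g) ∈ (0,2]`.  Gaussian
integration by parts `E [g r'(x+√ε g)] = √ε σ` and Cauchy–Schwarz give `Var r' ≥ ε σ²`, so
`σ = 2 (1 - E r'²) ≤ 2 (1 - F'²) - 2 ε σ²`.  Hence `x ↦ x - artanh (F' x)/2 - ε F' x` has derivative
`1 - σ / (2 (1 - F'²)) - ε σ ≥ 1 - 1/(1 + 2 ε σ) - ε σ ≥ 0` as `ε σ ≤ 1/2`.  This is the derivative
of `Λr - Ss 1 ε Λr` at `u = F' x`; conclude with `MonotoneOn.convexOn_of_deriv`.
-/

set_option autoImplicit false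

open MeasureTheory ProbabilityTheory Finset Set Crest.ProbabilityR.InvariantGlass

namespace Crest.Agent.R164

variable {Λ : ℝ → ℝ} {a ε : ℝ}

lemma ref_tangent {g g' : ℝ → ℝ} (hg : CL g) (hd : ∀ x, HasDerivAt g (g' x) x) (x y : ℝ) :
    g x + g' x * (y - x) ≤ g y := by
  obtain ⟨ξ, -, h⟩ := hg.exists_subgrad x
  have h1 : IsLocalMin (fun y => g y - ξ * y) x :=
    Filter.Eventually.of_forall fun y => by have := h y; dsimp only; linarith
  have h2 := h1.hasDerivAt_eq_zero ((hd x).sub ((hasDerivAt_id x).const_mul ξ))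
  have h3 : g' x = ξ := by linarith
  rw [h3]
  exact h y

lemma ref_DD_eq {g g' : ℝ → ℝ} (hg : CL g) (hd : ∀ x, HasDerivAt g (g' x) x) {w x : ℝ}
    (hw : w ∈ Ioo (-1 : ℝ) 1) (hx : g' x = w) : DD g w = g x - x * w := by
  refine le_antisymm (hg.DD_le (Ioo_subset_Icc_self hw) x) (le_DD fun b => ?_)
  have := ref_tangent hg hd x b
  rw [hx] at this
  linarith

lemma ref_surj {g g' : ℝ → ℝ} (hg : CL g) (hd : ∀ x, HasDerivAt g (g' x) x) {w : ℝ}
    (hw : w ∈ Ioo (-1 : ℝ) 1) : ∃ x, g' x = w := by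
  obtain ⟨b, hb⟩ := hg.exists_DD hw
  have h1 : IsLocalMin (fun y => g y - y * w) b :=
    Filter.Eventually.of_forall fun y => by
      have := hg.DD_le (Ioo_subset_Icc_self hw) y
      dsimp only
      linarith
  have h2 := h1.hasDerivAt_eq_zero ((hd b).sub ((hasDerivAt_id b).mul_const w))
  exact ⟨b, by linarith⟩

lemma ref_cont_inv {A σ : ℝ → ℝ} (hA : StrictMono A) (hσ : ∀ w ∈ Ioo (-1 : ℝ) 1, A (σ w) = w)
    {u : ℝ} (hu : u ∈ Ioo (-1 : ℝ) 1) : ContinuousAt σ u := by
  refine tendsto_order.2 ⟨fun b hb => ?_, fun b hb => ?_⟩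
  · have h1 : A b < u := by rw [← hσ u hu]; exact hA hb
    filter_upwards [Ioo_mem_nhds hu.1 hu.2, lt_mem_nhds h1] with w hw hw'
    exact hA.lt_iff_lt.1 (by rwa [hσ w hw])
  · have h1 : u < A b := by rw [← hσ u hu]; exact hA hb
    filter_upwards [Ioo_mem_nhds hu.1 hu.2, gt_mem_nhds h1] with w hw hw'
    exact hA.lt_iff_lt.1 (by rwa [hσ w hw])

lemma ref_tanh (x : ℝ) : HasDerivAt Real.tanh (1 - Real.tanh x ^ 2) x := by
  have h := (Real.hasDerivAt_sinh x).div (Real.hasDerivAt_cosh x) (Real.cosh_pos x).ne'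
  have e : Real.tanh = Real.sinh / Real.cosh := funext fun y => Real.tanh_eq_sinh_div_cosh y
  have e' : 1 - Real.tanh x ^ 2 =
      (Real.cosh x * Real.cosh x - Real.sinh x * Real.sinh x) / Real.cosh x ^ 2 := by
    rw [Real.tanh_eq_sinh_div_cosh]
    field_simp
  rw [e', e]
  exact h

lemma ref_lc (x : ℝ) : HasDerivAt lc (Real.tanh x) x := by
  rw [Real.tanh_eq_sinh_div_cosh]
  exact (Real.hasDerivAt_cosh x).log (Real.cosh_pos x).ne'

lemma ref_r (x : ℝ) : HasDerivAt (fun x => lc (2 * x) / 2) (Real.tanh (2 * x)) x := by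
  have := ((ref_lc (2 * x)).comp x ((hasDerivAt_id x).const_mul 2)).div_const 2
  simpa using this

lemma ref_r' (x : ℝ) :
    HasDerivAt (fun x => Real.tanh (2 * x)) (2 * (1 - Real.tanh (2 * x) ^ 2)) x := by
  have := (ref_tanh (2 * x)).comp x ((hasDerivAt_id x).const_mul 2)
  rw [mul_one, mul_comm] at this
  exact this

lemma ref_cont_tanh : Continuous Real.tanh :=
  continuous_iff_continuousAt.2 fun x => (ref_tanh x).continuousAt

lemma ref_artanh {u : ℝ} (hu : u ∈ Ioo (-1 : ℝ) 1) : HasDerivAt Real.artanh (1 - u ^ 2)⁻¹ u := by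
  have h1 : 0 < 1 + u := by linarith [hu.1]
  have h2 : 0 < 1 - u := by linarith [hu.2]
  have h := ((((hasDerivAt_id u).const_add 1).div ((hasDerivAt_id u).const_sub 1) h2.ne').log
    (div_pos h1 h2).ne').const_mul (1 / 2)
  refine (h.congr_of_eventuallyEq ?_).congr_deriv ?_
  · filter_upwards [Ioo_mem_nhds hu.1 hu.2] with w hw
    exact Real.artanh_eq_half_log (Ioo_subset_Icc_self hw)
  · have h3 : 1 - u ^ 2 = (1 + u) * (1 - u) := by ring
    simp only [id, Pi.div_apply]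
    rw [h3]
    field_simp
    ring

lemma ref_deriv_int {f f' : ℝ → ℝ} (hd : ∀ z, HasDerivAt f (f' z) z) (hc : Continuous f') {C : ℝ}
    (hC : ∀ z, |f' z| ≤ C) (t x : ℝ) (hi : Integrable (fun y => f (x + t * y)) gs) :
    HasDerivAt (fun x => ∫ y, f (x + t * y) ∂gs) (∫ y, f' (x + t * y) ∂gs) x := by
  have hf : Continuous f := continuous_iff_continuousAt.2 fun z => (hd z).continuousAt
  refine (hasDerivAt_integral_of_dominated_loc_of_deriv_le (μ := gs) (s := univ)
    (F := fun x y => f (x + t * y)) (F' := fun x y => f' (x + t * y)) (bound := fun _ => C)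
    Filter.univ_mem (Filter.Eventually.of_forall fun x => ?_) hi ?_
    (Filter.Eventually.of_forall fun y x _ => hC _) (integrable_const C)
    (Filter.Eventually.of_forall fun y x _ => ?_)).2
  · exact (hf.comp (by fun_prop)).aestronglyMeasurable
  · exact (hc.comp (by fun_prop)).aestronglyMeasurable
  · exact (hd (x + t * y)).comp_add_const x (t * y)

lemma ME.ref_int {f : ℝ → ℝ} (hf : ME f) : Integrable f gs := hf.integrable

/-- Gaussian integration by parts. -/
lemma ref_stein {T T' : ℝ → ℝ} (hd : ∀ y, HasDerivAt T (T' y) y) (hT : ME T) (hT' : ME T') :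
    ∫ y, y * T y ∂gs = ∫ y, T' y ∂gs := by
  have key : ∀ f : ℝ → ℝ, ME f → Integrable fun y => gaussianPDFReal 0 1 y * f y := by
    intro f hf
    have h : Integrable f gs := hf.integrable
    rw [gs, gaussianReal_of_var_ne_zero _ one_ne_zero, integrable_withDensity_iff_integrable_smul'
      (measurable_gaussianPDF _ _) (ae_of_all _ fun _ => gaussianPDF_lt_top)] at h
    simpa [gaussianPDF, ENNReal.toReal_ofReal (gaussianPDFReal_nonneg _ _ _)] using h
  have hp : ∀ y, HasDerivAt (gaussianPDFReal 0 1) (-y * gaussianPDFReal 0 1 y) y := by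
    intro y
    have h := ((((hasDerivAt_id y).sub_const 0).pow 2).neg.div_const
      (2 * ((1 : NNReal) : ℝ))).exp.const_mul (√(2 * Real.pi * ((1 : NNReal) : ℝ)))⁻¹
    refine h.congr_deriv ?_
    simp [gaussianPDFReal]
    ring
  have h0 := integral_eq_zero_of_hasDerivAt_of_integrable
    (f := fun y => gaussianPDFReal 0 1 y * T y)
    (f' := fun y => gaussianPDFReal 0 1 y * (T' y - y * T y))
    (fun y => ((hp y).mul (hd y)).congr_deriv (by ring)) (key _ (hT'.sub (ml_id.me.mul hT))) (key _ hT)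
  have h1 : ∫ y, (T' y - y * T y) ∂gs = 0 := by
    rw [integral_gaussianReal_eq_integral_smul one_ne_zero]
    exact h0
  rw [integral_sub hT'.ref_int (ml_id.me.mul hT).ref_int] at h1
  linarith

lemma ref_var {T T' : ℝ → ℝ} (hd : ∀ y, HasDerivAt T (T' y) y) (hT : ME T) (hT' : ME T') :
    (∫ y, T y ∂gs) ^ 2 + (∫ y, T' y ∂gs) ^ 2 ≤ ∫ y, T y ^ 2 ∂gs := by
  have e1 := ref_stein hd hT hT'
  have e2 : ∫ y, y * y ∂gs = 1 := by
    simpa using ref_stein (T := fun y => y) (T' := fun _ => 1) (fun y => hasDerivAt_id y) ml_id.me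
      (ME.const 1)
  have e3 : ∫ y, y ∂gs = 0 := by simp
  set A := ∫ y, T y ∂gs
  set c := ∫ y, T' y ∂gs
  have i1 : Integrable (fun y => T y ^ 2) gs := (hT.pow 2).integrable
  have i2 : Integrable T gs := hT.integrable
  have i3 : Integrable (fun y => y * T y) gs := (ml_id.me.mul hT).integrable
  have i4 : Integrable (fun y : ℝ => y * y) gs := (ml_id.me.mul ml_id.me).integrable
  have i5 : Integrable (fun y : ℝ => y) gs := ml_id.me.integrable
  have j1 : Integrable (fun y : ℝ => -(2 * A * c) * y + -A ^ 2) gs :=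
    (i5.const_mul _).add (integrable_const _)
  have j2 : Integrable (fun y : ℝ => -c ^ 2 * (y * y) + (-(2 * A * c) * y + -A ^ 2)) gs :=
    (i4.const_mul _).add j1
  have j3 : Integrable
      (fun y : ℝ => 2 * c * (y * T y) + (-c ^ 2 * (y * y) + (-(2 * A * c) * y + -A ^ 2))) gs :=
    (i3.const_mul _).add j2
  have h := integral_mono
    (f := fun y => 2 * A * T y + (2 * c * (y * T y) + (-c ^ 2 * (y * y) + (-(2 * A * c) * y + -A ^ 2))))
    ((i2.const_mul _).add j3) i1 fun y => by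
        dsimp only
        nlinarith [sq_nonneg (T y - A - c * y)]
  rw [integral_add (i2.const_mul _) j3, integral_add (i3.const_mul _) j2,
    integral_add (i4.const_mul _) j1, integral_add (i5.const_mul _) (integrable_const _),
    integral_const_mul, integral_const_mul, integral_const_mul, integral_const_mul, e1, e2, e3] at h
  simp only [integral_const, probReal_univ, smul_eq_mul] at h
  nlinarith

lemma ref_key (t x : ℝ) : 0 < ∫ y, 2 * (1 - Real.tanh (2 * (x + t * y)) ^ 2) ∂gs ∧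
    ∫ y, 2 * (1 - Real.tanh (2 * (x + t * y)) ^ 2) ∂gs ≤
      2 * (1 - (∫ y, Real.tanh (2 * (x + t * y)) ∂gs) ^ 2) -
        2 * t ^ 2 * (∫ y, 2 * (1 - Real.tanh (2 * (x + t * y)) ^ 2) ∂gs) ^ 2 := by
  have hc : Continuous fun y => Real.tanh (2 * (x + t * y)) := ref_cont_tanh.comp (by fun_prop)
  have hT : ME fun y => Real.tanh (2 * (x + t * y)) :=
    ME.of_bdd hc.measurable 1 fun y => (Real.abs_tanh_lt_one _).le
  have hB : ME fun y => 2 * (1 - Real.tanh (2 * (x + t * y)) ^ 2) :=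
    ((ME.const 1).sub (hT.pow 2)).const_mul 2
  constructor
  · have hpos : ∀ y, 0 < 2 * (1 - Real.tanh (2 * (x + t * y)) ^ 2) := fun y => by
      linarith [Real.tanh_sq_lt_one (2 * (x + t * y))]
    rw [integral_pos_iff_support_of_nonneg (fun y => (hpos y).le) hB.ref_int]
    rw [show (Function.support fun y => 2 * (1 - Real.tanh (2 * (x + t * y)) ^ 2)) = univ from
      eq_univ_of_forall fun y => (hpos y).ne']
    simp
  · have h := ref_var (T := fun y => Real.tanh (2 * (x + t * y)))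
      (T' := fun y => t * (2 * (1 - Real.tanh (2 * (x + t * y)) ^ 2))) (fun y => by
        have := (ref_r' (x + t * y)).comp y (((hasDerivAt_id y).const_mul t).const_add x)
        rw [mul_one, mul_comm] at this
        exact this) hT (hB.const_mul t)
    rw [integral_const_mul] at h
    have e : ∫ y, 2 * (1 - Real.tanh (2 * (x + t * y)) ^ 2) ∂gs =
        2 * (1 - ∫ y, Real.tanh (2 * (x + t * y)) ^ 2 ∂gs) := by
      rw [integral_const_mul, integral_sub (integrable_const _) (hT.pow 2).ref_int]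
      simp
    rw [mul_pow] at h
    linarith

lemma hasDerivAt_DD {g g' σ : ℝ → ℝ} (hg : CL g) (hd : ∀ x, HasDerivAt g (g' x) x) {u : ℝ}
    (hu : u ∈ Ioo (-1 : ℝ) 1) (hσ : ∀ w ∈ Ioo (-1 : ℝ) 1, g' (σ w) = w) (hc : ContinuousAt σ u) :
    HasDerivAt (DD g) (-σ u) u := by
  rw [hasDerivAt_iff_isLittleO, Asymptotics.isLittleO_iff]
  intro c hc0
  filter_upwards [Ioo_mem_nhds hu.1 hu.2, Metric.tendsto_nhds.1 hc c hc0] with w hw hw'
  have h1 := hg.DD_le (Ioo_subset_Icc_self hw) (σ u)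
  have h2 := hg.DD_le (Ioo_subset_Icc_self hu) (σ w)
  have h3 := ref_DD_eq hg hd hu (hσ u hu)
  have h4 := ref_DD_eq hg hd hw (hσ w hw)
  rw [Real.dist_eq] at hw'
  have h5 : |(σ w - σ u) * (w - u)| ≤ c * |w - u| := by
    rw [abs_mul]
    exact mul_le_mul_of_nonneg_right hw'.le (abs_nonneg _)
  have h6 := le_abs_self ((σ w - σ u) * (w - u))
  have h7 := abs_nonneg ((σ w - σ u) * (w - u))
  rw [Real.norm_eq_abs, Real.norm_eq_abs, smul_eq_mul, abs_le]
  constructor <;> nlinarith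
lemma cl_ref : CL fun x => lc (2 * x) / 2 := by
  refine ⟨⟨convex_univ, fun x _ y _ p q hp hq hpq => ?_⟩, fun x y => ?_, ?_⟩
  · have := cl_lc.conv.2 (mem_univ (2 * x)) (mem_univ (2 * y)) hp hq hpq
    simp only [smul_eq_mul] at this ⊢
    rw [show 2 * (p * x + q * y) = p * (2 * x) + q * (2 * y) by ring]
    linarith
  · have := cl_lc.lip (2 * x) (2 * y)
    rw [← mul_sub, abs_mul, abs_two] at this
    rw [← sub_div, abs_div, abs_two]
    linarith
  · obtain ⟨C, hC⟩ := cl_lc.near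
    refine ⟨C / 2, fun x => ?_⟩
    have := hC (2 * x)
    rw [abs_mul, abs_two] at this
    rw [show lc (2 * x) / 2 - |x| = (lc (2 * x) - 2 * |x|) / 2 by ring, abs_div, abs_two]
    linarith
lemma ref_Λr {u : ℝ} (hu : u ∈ Ioo (-1 : ℝ) 1) : HasDerivAt Λr (-(Real.artanh u / 2)) u :=
  hasDerivAt_DD (σ := fun w => Real.artanh w / 2) cl_ref ref_r hu
    (fun w hw => by rw [mul_div_cancel₀ _ two_ne_zero, Real.tanh_artanh hw])
    ((ref_artanh hu).continuousAt.div_const 2)
lemma dc_Λr : DC Λr := by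
  refine ⟨cl_ref.cont_DD, StrictAntiOn.strictConcaveOn_of_deriv (convex_Icc _ _) cl_ref.cont_DD ?_⟩
  rw [interior_Icc]
  intro u hu w hw huw
  rw [(ref_Λr hu).deriv, (ref_Λr hw).deriv]
  linarith [Real.strictMonoOn_artanh hu hw huw]
/-- `DD lc = 2 Λr` on `[-1,1]` by scaling, so `Λr - DD lc = -Λr` is convex. -/
lemma iv_DD_lc : Iv (DD lc) := by
  refine ⟨cl_lc.cont_DD, dc_Λr.conc.concaveOn.neg.congr fun u hu => ?_⟩
  have h1 : DD lc u / 2 ≤ Λr u := le_DD fun b => by
    have := cl_lc.DD_le hu (2 * b)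
    linarith
  have h2 : 2 * Λr u ≤ DD lc u := le_DD fun b => by
    have : Λr u ≤ _ := cl_ref.DD_le hu (b / 2)
    rw [mul_div_cancel₀ _ two_ne_zero] at this
    linarith
  simp only [Pi.neg_apply]
  linarith
lemma Iv.dc (h : Iv Λ) : DC Λ := by
  refine ⟨h.cont, (dc_Λr.conc.add_concaveOn (ConvexOn.neg h.od)).congr fun u _ => ?_⟩
  simp
theorem od_step_ref (hε : 0 ≤ ε) (hε' : ε ≤ 1 / 4) : Od (Ss 1 ε Λr) Λr := by
  have hF : CL (gaussOp 0 ε fun x => lc (2 * x) / 2) := cl_ref.gauss le_rfl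
  have hH : Hs ε Λr = DD (gaussOp 0 ε fun x => lc (2 * x) / 2) := by
    rw [Hs, Λr, cl_ref.PP_DD]
  set t := Real.sqrt ε with ht
  have ht2 : t ^ 2 = ε := Real.sq_sqrt hε
  set A : ℝ → ℝ := fun x => ∫ y, Real.tanh (2 * (x + t * y)) ∂gs with hA
  set B : ℝ → ℝ := fun x => ∫ y, 2 * (1 - Real.tanh (2 * (x + t * y)) ^ 2) ∂gs with hB
  have hc : Continuous fun z => Real.tanh (2 * z) := ref_cont_tanh.comp (by fun_prop)
  have hdF : ∀ x, HasDerivAt (gaussOp 0 ε fun x => lc (2 * x) / 2) (A x) x := by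
    intro x
    rw [funext (gaussOp_zero_left ε fun x => lc (2 * x) / 2)]
    exact ref_deriv_int ref_r hc (fun z => (Real.abs_tanh_lt_one _).le) t x
      (cl_ref.lip.integrable x t)
  have hdA : ∀ x, HasDerivAt A (B x) x := by
    intro x
    refine ref_deriv_int ref_r' (by fun_prop) (C := 2) (fun z => ?_) t x ?_
    · rw [abs_le]
      constructor <;> nlinarith [Real.tanh_sq_lt_one (2 * z), sq_nonneg (Real.tanh (2 * z))]
    · exact (ME.of_bdd (hc.comp (by fun_prop)).measurable 1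
        fun y => (Real.abs_tanh_lt_one _).le).integrable
  have hkey : ∀ x, 0 < B x ∧ B x ≤ 2 * (1 - A x ^ 2) - 2 * ε * B x ^ 2 := fun x =>
    ht2 ▸ ref_key t x
  have hD : ∀ x, 0 < 1 - A x ^ 2 := fun x => by
    nlinarith [(hkey x).1, (hkey x).2, mul_nonneg hε (sq_nonneg (B x))]
  have hAm : ∀ x, A x ∈ Ioo (-1 : ℝ) 1 := fun x =>
    abs_lt.1 ((sq_lt_one_iff_abs_lt_one _).1 (by linarith [hD x]))
  have hmono : StrictMono A := strictMono_of_hasDerivAt_pos hdA fun x => (hkey x).1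
  choose! σ hσ using fun w (hw : w ∈ Ioo (-1 : ℝ) 1) => ref_surj hF hdF hw
  have hφ : Monotone fun x => x - Real.artanh (A x) / 2 - ε * A x := by
    refine monotone_of_hasDerivAt_nonneg (f' := fun x => 1 - (1 - A x ^ 2)⁻¹ * B x / 2 - ε * B x)
      (fun x => ((hasDerivAt_id x).sub (((ref_artanh (hAm x)).comp x (hdA x)).div_const 2)).sub
        ((hdA x).const_mul ε)) fun x => ?_
    obtain ⟨h1, h2⟩ := hkey x
    have h3 := hD x
    have h4 : 0 ≤ ε * B x := mul_nonneg hε h1.le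
    have h5 : B x ≤ 2 := by nlinarith [sq_nonneg (A x), mul_nonneg h4 h1.le]
    have h6 : ε * B x ≤ 1 / 2 := by nlinarith
    have h7 : (1 - A x ^ 2)⁻¹ * B x ≤ 2 * (1 - ε * B x) := by
      rw [inv_mul_le_iff₀ h3]
      have h8 : B x * (1 + 2 * (ε * B x)) ≤ 2 * (1 - A x ^ 2) := by linarith
      have h9 := mul_le_mul_of_nonneg_left h8 (show 0 ≤ 1 - ε * B x by linarith)
      nlinarith [mul_nonneg (mul_nonneg h1.le h4) (show 0 ≤ 1 - 2 * (ε * B x) by linarith)]
    simp only [Pi.zero_apply]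
    linarith
  have hder : ∀ u ∈ Ioo (-1 : ℝ) 1, HasDerivAt (fun u => Λr u - Ss 1 ε Λr u)
      (σ u - Real.artanh u / 2 - ε * u) u := by
    intro u hu
    have h1 := hasDerivAt_DD hF hdF hu hσ (ref_cont_inv hmono hσ hu)
    rw [← hH] at h1
    have h2 := (ref_Λr hu).sub (h1.add ((((hasDerivAt_id u).pow 2).const_mul (1 * ε)).div_const 2))
    refine h2.congr_deriv ?_
    simp
    ring
  refine MonotoneOn.convexOn_of_deriv (convex_Icc _ _)
    (dc_Λr.cont.sub (cont_Ss dc_Λr.cont 1 ε)) ?_ ?_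
  · rw [interior_Icc]
    exact fun u hu => (hder u hu).differentiableAt.differentiableWithinAt
  · rw [interior_Icc]
    intro u hu w hw huw
    rw [(hder u hu).deriv, (hder w hw).deriv]
    have h1 : σ u ≤ σ w := hmono.le_iff_le.1 (by rwa [hσ u hu, hσ w hw])
    have h2 := hφ h1
    simpa only [hσ u hu, hσ w hw] using h2
theorem Iv.step (h : Iv Λ) (ha1 : a ≤ 1) (hε : 0 ≤ ε) (hε' : ε ≤ 1 / 4) : Iv (Ss a ε Λ) :=
  ⟨cont_Ss h.cont a ε, (Od.step h.cont dc_Λr.cont h.od hε ha1).trans (od_step_ref hε hε')⟩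

end Crest.Agent.R164
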