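import Crest.Agent.R164.Dual

/-!
# R164 / DualTr: the splitting scheme converges to the exact chain

`SC.taylor`: for a subgradient `ξ` of `F` at `x`,
`0 ≤ F (x+h) - F x - ξ h ≤ F (x+h) + F (x-h) - 2 F x ≤ C h²`.
Local error.  Let `G = gaussOp 0 ε F` (in `CL`, `SC C`), `κ = a ε`, `t = √ε`, `ξ_F x`, `ξ_G x`
subgradients.  (i) `|ξ_G x - ξ_F x| ≤ C' t` (compare `G (x±t) - G x = E [F (x+tg±t) - F (x+tg)]`
with the Taylor bounds of `F` at `x`).  (ii) `|gaussOp a ε F x - G x - κ ξ_G² / 2| ≤ C' ε t`: with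
`Z = F (x+tg) - G x`, `E Z = 0`, `Z = ξ_F t g + O(C ε (1 + g²))`, `|Z| ≤ t (|g| + 1)`,
`|exp z - 1 - z - z²/2| ≤ |z|³ exp |z|`, `|log (1+w) - w| ≤ w²` for `w ≥ 0`; `a = 0` is trivial.
(iii) For `u ∈ [-1,1]` and any `b`, with `w = -(u + ξ_G b)/2`, `b' = b - κ w`:
`DD G u ≤ G b' - b' u ≤ G b + κ ξ_G² /2 - b u - κ u²/2 + C κ²`; conversely for `|u| < 1` a minimiser
`b` of `G b - b u` has `u` as a subgradient (and two subgradients at a point agree by `SC.taylor`),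
so `DD (T F) u ≤ DD G u + κ u²/2 + C' ε t`; end points by continuity (`CL.cont_DD`).
`trotter`: replace each `(a, v)` by `n` copies of `(a, v/n)`; induct on the list; for one entry
telescope (`Hs_le_add` is nonexpansiveness; `gaussOp_gaussOp`; the exact intermediate functions
`gaussOp a (j v / n) F` are `SC (C+2)` by `SC.gauss`).
-/

set_option autoImplicit false

open MeasureTheory ProbabilityTheory Finset Set Crest.ProbabilityR.InvariantGlass

namespace Crest.Agent.R164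

lemma SC.taylor {F : ℝ → ℝ} {C x ξ : ℝ} (h : SC C F) (hξ : ∀ y, F x + ξ * (y - x) ≤ F y) (t : ℝ) :
    0 ≤ F (x + t) - F x - ξ * t ∧ F (x + t) - F x - ξ * t ≤ C * t ^ 2 := by
  have h1 := hξ (x + t)
  have h2 := hξ (x - t)
  have h3 := h x t
  rw [show x + t - x = t by ring] at h1
  rw [show x - t - x = -t by ring] at h2
  constructor <;> linarith

lemma dtr_exp3 (z : ℝ) : |Real.exp z - 1 - z - z ^ 2 / 2| ≤ |z| ^ 3 * Real.exp |z| := by
  have h := Complex.norm_exp_sub_sum_le_norm_mul_exp (z : ℂ) 3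
  have e : Complex.exp (z : ℂ) - ∑ m ∈ range 3, (z : ℂ) ^ m / (m.factorial : ℂ) =
      ((Real.exp z - 1 - z - z ^ 2 / 2 : ℝ) : ℂ) := by
    simp only [Finset.sum_range_succ, Finset.sum_range_zero, Nat.factorial]
    push_cast
    ring
  rw [e, Complex.norm_real, Complex.norm_real, Real.norm_eq_abs, Real.norm_eq_abs] at h
  exact h

lemma dtr_cube (y : ℝ) : |y| ^ 3 ≤ 6 * Real.exp |y| := by
  have h := Real.pow_div_factorial_le_exp _ (abs_nonneg y) 3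
  simp only [Nat.factorial] at h
  norm_num at h
  linarith

lemma dtr_log {w : ℝ} (hw : 0 ≤ w) : |Real.log (1 + w) - w| ≤ w ^ 2 := by
  have h1 : Real.log (1 + w) ≤ w := by
    have := Real.log_le_sub_one_of_pos (show 0 < 1 + w by linarith); linarith
  have h2 : w - w ^ 2 ≤ Real.log (1 + w) := by
    have h3 := Real.one_sub_inv_le_log_of_pos (show 0 < 1 + w by linarith)
    refine le_trans ?_ h3
    have h4 : (1 + w)⁻¹ ≤ 1 - w + w ^ 2 := by
      rw [inv_le_iff_one_le_mul₀ (by linarith)]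
      nlinarith [pow_nonneg hw 3]
    linarith
  rw [abs_le]; constructor <;> nlinarith [sq_nonneg w]

lemma dtr_int_id : Integrable (fun y : ℝ => y) gs :=
  (memLp_id_gaussianReal (μ := 0) (v := 1) 1).integrable le_rfl

lemma dtr_int_sq : Integrable (fun y : ℝ => y ^ 2) gs :=
  (memLp_id_gaussianReal (μ := 0) (v := 1) 2).integrable_sq

lemma dtr_mean : ∫ y : ℝ, y ∂gs = 0 := integral_id_gaussianReal

lemma dtr_var : ∫ y : ℝ, y ^ 2 ∂gs = 1 := by
  have h := variance_fun_id_gaussianReal (μ := 0) (v := 1)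
  rw [variance_eq_integral (by fun_prop)] at h
  simpa [integral_id_gaussianReal] using h

lemma dtr_quad (α β γ : ℝ) : ∫ y : ℝ, α + β * y + γ * y ^ 2 ∂gs = α + γ := by
  have i1 : Integrable (fun y : ℝ => α + β * y) gs :=
    (integrable_const α).add (dtr_int_id.const_mul β)
  rw [integral_add i1 (dtr_int_sq.const_mul γ),
    integral_add (integrable_const α) (dtr_int_id.const_mul β), integral_const_mul,
    integral_const_mul, dtr_mean, dtr_var]
  simp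

lemma dtr_int_quad (α β γ : ℝ) : Integrable (fun y : ℝ => α + β * y + γ * y ^ 2) gs :=
  ((integrable_const α).add (dtr_int_id.const_mul β)).add (dtr_int_sq.const_mul γ)

/-- (i): subgradients of `F` and of its heat flow are close. -/
lemma dtr_sub {F : ℝ → ℝ} {C x ξ ζ ε : ℝ} (hF : Lip1 F) (h : SC C F)
    (hξ : ∀ y, F x + ξ * (y - x) ≤ F y)
    (hζ : ∀ y, gaussOp 0 ε F x + ζ * (y - x) ≤ gaussOp 0 ε F y) :
    |ζ - ξ| * Real.sqrt ε ≤ 2 * C * Real.sqrt ε ^ 2 := by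
  set t := Real.sqrt ε with ht
  have ht0 : 0 ≤ t := Real.sqrt_nonneg ε
  have key : ∀ s : ℝ, s ^ 2 = t ^ 2 → (ζ - ξ) * s ≤ 2 * C * t ^ 2 := by
    intro s hs
    have h1 := hζ (x + s)
    rw [gaussOp_zero_left, gaussOp_zero_left, ← ht, show x + s - x = s by ring] at h1
    have h2 : ∫ y, F (x + s + t * y) ∂gs - ∫ y, F (x + t * y) ∂gs ≤ ξ * s + 2 * C * t ^ 2 := by
      rw [← integral_sub (hF.integrable _ _) (hF.integrable _ _)]
      have h3 : ∫ y, (ξ * s + C * s ^ 2) + (2 * C * s * t) * y + (C * t ^ 2) * y ^ 2 ∂gs =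
          ξ * s + 2 * C * t ^ 2 := by
        rw [dtr_quad, hs]; ring
      rw [← h3]
      refine integral_mono ((hF.integrable _ _).sub (hF.integrable _ _)) (dtr_int_quad _ _ _)
        fun y => ?_
      have a1 := (h.taylor hξ (s + t * y)).2
      have a2 := (h.taylor hξ (t * y)).1
      rw [← add_assoc] at a1
      simp only
      nlinarith
    linarith
  rcases abs_cases (ζ - ξ) with h1 | h1
  · rw [h1.1]; exact key t rfl
  · rw [h1.1]; have := key (-t) (by ring); linarith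

/-- The constant `E exp (2 |g|)`. -/
noncomputable def dtrM : ℝ := ∫ y : ℝ, Real.exp (2 * |y|) ∂gs

lemma dtrM_nonneg : 0 ≤ dtrM := integral_nonneg fun _ => (Real.exp_pos _).le

/-- Pointwise third order bound. -/
lemma dtr_pt {C a t ξ y W : ℝ} (hC : 0 ≤ C) (ha : 0 ≤ a) (ha1 : a ≤ 1) (ht : 0 ≤ t) (ht1 : t ≤ 1)
    (hξ : |ξ| ≤ 1) (hW : |W| ≤ t * |y|) (hR0 : 0 ≤ W - ξ * (t * y))
    (hR : W - ξ * (t * y) ≤ C * (t * y) ^ 2) :
    |Real.exp (a * W) - (1 + a * W + (a ^ 2 * ξ ^ 2 * t ^ 2 / 2) * y ^ 2)| ≤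
      a * t ^ 3 * (6 + 6 * C) * Real.exp (2 * |y|) := by
  have hy := abs_nonneg y
  have hE := Real.exp_pos |y|
  have hE1 : 1 ≤ Real.exp |y| := Real.one_le_exp hy
  have hE2 : Real.exp (2 * |y|) = Real.exp |y| * Real.exp |y| := by
    rw [← Real.exp_add]; ring_nf
  have hc := dtr_cube y
  have h1 := dtr_exp3 (a * W)
  have haW : |a * W| ≤ a * (t * |y|) := by
    rw [abs_mul, abs_of_nonneg ha]; exact mul_le_mul_of_nonneg_left hW ha
  have haW' : |a * W| ≤ |y| := by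
    refine haW.trans ?_
    have : t * |y| ≤ |y| := mul_le_of_le_one_left hy ht1
    have : a * (t * |y|) ≤ t * |y| := mul_le_of_le_one_left (mul_nonneg ht hy) ha1
    linarith
  have ht3 : 0 ≤ t ^ 3 := pow_nonneg ht 3
  have ha3 : a ^ 3 ≤ a := by
    have : a ^ 2 ≤ 1 := pow_le_one₀ ha ha1
    nlinarith
  have ha2 : a ^ 2 ≤ a := by nlinarith
  have h2 : |a * W| ^ 3 * Real.exp |a * W| ≤ a * t ^ 3 * 6 * Real.exp (2 * |y|) := by
    calc |a * W| ^ 3 * Real.exp |a * W| ≤ (a * (t * |y|)) ^ 3 * Real.exp |y| := by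
          gcongr
      _ = a ^ 3 * (t ^ 3 * |y| ^ 3 * Real.exp |y|) := by ring
      _ ≤ a * (t ^ 3 * (6 * Real.exp |y|) * Real.exp |y|) := by gcongr
      _ = a * t ^ 3 * 6 * Real.exp (2 * |y|) := by rw [hE2]; ring
  have h3 : |W ^ 2 - (ξ * (t * y)) ^ 2| ≤ 2 * C * t ^ 3 * |y| ^ 3 := by
    have e : W ^ 2 - (ξ * (t * y)) ^ 2 = (W - ξ * (t * y)) * (W + ξ * (t * y)) := by ring
    have b1 : |ξ * (t * y)| ≤ t * |y| := by
      rw [abs_mul, abs_mul, abs_of_nonneg ht]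
      exact mul_le_of_le_one_left (mul_nonneg ht hy) hξ
    have b2 : |W + ξ * (t * y)| ≤ 2 * (t * |y|) := by
      have := abs_add_le W (ξ * (t * y)); linarith
    rw [e, abs_mul, abs_of_nonneg hR0]
    calc (W - ξ * (t * y)) * |W + ξ * (t * y)| ≤ C * (t * y) ^ 2 * (2 * (t * |y|)) := by gcongr
      _ = 2 * C * t ^ 3 * |y| ^ 3 := by rw [mul_pow, ← sq_abs y]; ring
  have h4 : |a ^ 2 / 2 * (W ^ 2 - (ξ * (t * y)) ^ 2)| ≤ a * t ^ 3 * (6 * C) * Real.exp (2 * |y|) := by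
    rw [abs_mul, abs_of_nonneg (by positivity : 0 ≤ a ^ 2 / 2)]
    calc a ^ 2 / 2 * |W ^ 2 - (ξ * (t * y)) ^ 2| ≤ a / 2 * (2 * C * t ^ 3 * (6 * Real.exp |y|)) := by
          gcongr
          exact h3.trans (by gcongr)
      _ = a * t ^ 3 * (6 * C) * (Real.exp |y| * 1) := by ring
      _ ≤ a * t ^ 3 * (6 * C) * (Real.exp |y| * Real.exp |y|) := by gcongr
      _ = _ := by rw [hE2]
  have e : Real.exp (a * W) - (1 + a * W + (a ^ 2 * ξ ^ 2 * t ^ 2 / 2) * y ^ 2) =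
      (Real.exp (a * W) - 1 - a * W - (a * W) ^ 2 / 2) +
        a ^ 2 / 2 * (W ^ 2 - (ξ * (t * y)) ^ 2) := by ring
  rw [e]
  have := abs_add_le (Real.exp (a * W) - 1 - a * W - (a * W) ^ 2 / 2)
    (a ^ 2 / 2 * (W ^ 2 - (ξ * (t * y)) ^ 2))
  nlinarith

/-- (ii): second order expansion of the power mean. -/
lemma dtr_exp (C : ℝ) (hC : 0 ≤ C) : ∃ K : ℝ, ∀ F : ℝ → ℝ, Lip1 F → SC C F →
    ∀ a ε x ξ : ℝ, 0 ≤ a → a ≤ 1 → 0 ≤ ε → ε ≤ 1 → |ξ| ≤ 1 → (∀ y, F x + ξ * (y - x) ≤ F y) →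
      |gaussOp a ε F x - gaussOp 0 ε F x - a * ε * ξ ^ 2 / 2| ≤ K * Real.sqrt ε ^ 3 := by
  have hM := dtrM_nonneg
  set K := (6 + 6 * C) * dtrM with hK
  have hK0 : 0 ≤ K := by positivity
  refine ⟨K + (C + 1 + K) ^ 2, fun F hF h a ε x ξ ha ha1 hε hε1 hξ1 hξ => ?_⟩
  set t := Real.sqrt ε with ht
  have ht0 : 0 ≤ t := Real.sqrt_nonneg ε
  have ht1 : t ≤ 1 := Real.sqrt_le_one.2 hε1
  have htt : t ^ 2 = ε := Real.sq_sqrt hε
  rcases ha.eq_or_lt with rfl | ha0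
  · simp only [sub_self, zero_mul, zero_div, abs_zero]; positivity
  set W : ℝ → ℝ := fun y => F (x + t * y) - F x with hW
  have iW : Integrable W gs := (hF.integrable x t).sub (integrable_const _)
  have iE0 := hF.integrable_exp a x t
  have eE : ∀ y, Real.exp (a * F (x + t * y)) = Real.exp (a * W y) * Real.exp (a * F x) := by
    intro y; rw [← Real.exp_add]; simp only [hW]; ring_nf
  have iE : Integrable (fun y => Real.exp (a * W y)) gs := by
    refine (iE0.mul_const (Real.exp (-(a * F x)))).congr (ae_of_all _ fun y => ?_)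
    simp only [eE]
    rw [mul_assoc, ← Real.exp_add]; simp
  set m := ∫ y, W y ∂gs with hm
  have hG : gaussOp 0 ε F x = F x + m := by
    rw [gaussOp_zero_left, ← ht, hm]
    simp only [hW]
    rw [integral_sub (hF.integrable x t) (integrable_const _)]
    simp
  set w := ∫ y, Real.exp (a * W y) ∂gs - 1 with hw
  have hm0 : 0 ≤ m := by
    have h1 : ∫ y, (0 : ℝ) + (ξ * t) * y + 0 * y ^ 2 ∂gs ≤ m :=
      integral_mono (dtr_int_quad _ _ _) iW fun y => by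
        have := (h.taylor hξ (t * y)).1
        simp only [hW]; nlinarith
    rw [dtr_quad] at h1; linarith
  have hm1 : m ≤ C * t ^ 2 := by
    have h1 : m ≤ ∫ y, (0 : ℝ) + (ξ * t) * y + (C * t ^ 2) * y ^ 2 ∂gs :=
      integral_mono iW (dtr_int_quad _ _ _) fun y => by
        have := (h.taylor hξ (t * y)).2
        simp only [hW]; nlinarith
    rw [dtr_quad] at h1; linarith
  have iQ : Integrable (fun y => 1 + a * W y + (a ^ 2 * ξ ^ 2 * t ^ 2 / 2) * y ^ 2) gs :=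
    ((integrable_const _).add (iW.const_mul a)).add (dtr_int_sq.const_mul _)
  have eQ : ∫ y, 1 + a * W y + (a ^ 2 * ξ ^ 2 * t ^ 2 / 2) * y ^ 2 ∂gs =
      1 + a * m + a ^ 2 * ξ ^ 2 * t ^ 2 / 2 := by
    have i1 : Integrable (fun y : ℝ => 1 + a * W y) gs :=
      (integrable_const _).add (iW.const_mul a)
    rw [integral_add i1 (dtr_int_sq.const_mul _),
      integral_add (integrable_const _) (iW.const_mul a), integral_const_mul,
      integral_const_mul, dtr_var]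
    simp [hm]
  have h1 : |w - a * m - a ^ 2 * ξ ^ 2 * t ^ 2 / 2| ≤ a * t ^ 3 * K := by
    have e : w - a * m - a ^ 2 * ξ ^ 2 * t ^ 2 / 2 = ∫ y, (Real.exp (a * W y) -
        (1 + a * W y + (a ^ 2 * ξ ^ 2 * t ^ 2 / 2) * y ^ 2)) ∂gs := by
      rw [integral_sub iE iQ, eQ, hw]; ring
    have e2 : a * t ^ 3 * K = ∫ y, a * t ^ 3 * (6 + 6 * C) * Real.exp (2 * |y|) ∂gs := by
      rw [integral_const_mul, hK, dtrM]; ring
    rw [e, e2]
    refine abs_integral_le_integral_abs.trans (integral_mono (iE.sub iQ).abs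
      ((integrable_exp_abs_gs 2).const_mul _) fun y => ?_)
    have b1 := h.taylor hξ (t * y)
    refine dtr_pt hC ha ha1 ht0 ht1 hξ1 ?_ b1.1 b1.2
    have := hF (x + t * y) x
    rwa [show x + t * y - x = t * y by ring, abs_mul t, abs_of_nonneg ht0] at this
  have hw0 : 0 ≤ w := by
    have h2 : ∫ y, 1 + a * W y ∂gs ≤ ∫ y, Real.exp (a * W y) ∂gs :=
      integral_mono ((integrable_const _).add (iW.const_mul a)) iE fun y => by
        have := Real.add_one_le_exp (a * W y); simp only; linarith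
    rw [integral_add (integrable_const _) (iW.const_mul a), integral_const_mul] at h2
    simp only [integral_const, probReal_univ, smul_eq_mul, mul_one] at h2
    have : 0 ≤ a * m := mul_nonneg ha hm0
    rw [hw]; linarith
  have hT : gaussOp a ε F x = F x + a⁻¹ * Real.log (1 + w) := by
    rw [gaussOp_eq_PM ha0.ne', PM, ← ht]
    simp only [eE]
    rw [integral_mul_const, show ∫ y, Real.exp (a * W y) ∂gs = 1 + w by rw [hw]; ring,
      Real.log_mul (by linarith) (Real.exp_pos _).ne', Real.log_exp]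
    field_simp
    ring
  have hξ2 : ξ ^ 2 ≤ 1 := by rw [← sq_abs]; exact pow_le_one₀ (abs_nonneg _) hξ1
  have ht2 : 0 ≤ t ^ 2 := sq_nonneg t
  have hw1 : w ≤ a * t ^ 2 * (C + 1 + K) := by
    have b1 := (abs_le.1 h1).2
    have b2 : a * m ≤ a * (C * t ^ 2) := by gcongr
    have b3 : a ^ 2 * ξ ^ 2 * t ^ 2 / 2 ≤ a * t ^ 2 := by
      have : a ^ 2 * ξ ^ 2 ≤ a * 1 := by
        have : a ^ 2 ≤ a := by nlinarith
        gcongr
      nlinarith
    have b4 : a * t ^ 3 * K ≤ a * t ^ 2 * K := by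
      have : t ^ 3 ≤ t ^ 2 := pow_le_pow_of_le_one ht0 ht1 (by norm_num)
      gcongr
    nlinarith
  have hw2 : w ^ 2 ≤ a * t ^ 3 * (C + 1 + K) ^ 2 := by
    calc w ^ 2 ≤ (a * t ^ 2 * (C + 1 + K)) ^ 2 := by gcongr
      _ = (a * t) * (a * t ^ 3 * (C + 1 + K) ^ 2) := by ring
      _ ≤ 1 * (a * t ^ 3 * (C + 1 + K) ^ 2) := by
          gcongr
          exact mul_le_one₀ ha1 ht0 ht1
      _ = _ := one_mul _
  have h2 := dtr_log hw0
  have e : gaussOp a ε F x - gaussOp 0 ε F x - a * ε * ξ ^ 2 / 2 =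
      a⁻¹ * ((Real.log (1 + w) - w) + (w - a * m - a ^ 2 * ξ ^ 2 * t ^ 2 / 2)) := by
    rw [hT, hG, ← htt]; field_simp; ring
  rw [e, abs_mul, abs_of_pos (inv_pos.2 ha0), inv_mul_le_iff₀ ha0]
  have := abs_add_le (Real.log (1 + w) - w) (w - a * m - a ^ 2 * ξ ^ 2 * t ^ 2 / 2)
  nlinarith

/-- (i) and (ii) together. -/
lemma dtr_both (C : ℝ) (hC : 0 ≤ C) : ∃ K : ℝ, ∀ F : ℝ → ℝ, CL F → SC C F →
    ∀ a ε x ζ : ℝ, 0 ≤ a → a ≤ 1 → 0 ≤ ε → ε ≤ 1 → |ζ| ≤ 1 →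
      (∀ y, gaussOp 0 ε F x + ζ * (y - x) ≤ gaussOp 0 ε F y) →
      |gaussOp a ε F x - gaussOp 0 ε F x - a * ε * ζ ^ 2 / 2| ≤ K * Real.sqrt ε ^ 3 := by
  obtain ⟨K, hK⟩ := dtr_exp C hC
  refine ⟨K + 2 * C, fun F hF h a ε x ζ ha ha1 hε hε1 hζ1 hζ => ?_⟩
  obtain ⟨ξ, hξ1, hξ⟩ := hF.exists_subgrad x
  have hξ2 : |ξ| ≤ 1 := abs_le.2 hξ1
  have h1 := hK F hF.lip h a ε x ξ ha ha1 hε hε1 hξ2 hξ
  have h2 := dtr_sub hF.lip h hξ hζ
  set t := Real.sqrt ε with ht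
  have ht0 : 0 ≤ t := Real.sqrt_nonneg ε
  have htt : t ^ 2 = ε := Real.sq_sqrt hε
  have h3 : |a * ε * ξ ^ 2 / 2 - a * ε * ζ ^ 2 / 2| ≤ 2 * C * t ^ 3 := by
    have e : a * ε * ξ ^ 2 / 2 - a * ε * ζ ^ 2 / 2 = (a * ε / 2) * (-(ζ - ξ) * (ζ + ξ)) := by ring
    have b : |ζ + ξ| ≤ 2 := by have := abs_add_le ζ ξ; linarith
    rw [e, abs_mul, abs_mul, abs_neg, abs_of_nonneg (by positivity : 0 ≤ a * ε / 2), ← htt]
    calc a * t ^ 2 / 2 * (|ζ - ξ| * |ζ + ξ|) ≤ 1 * t ^ 2 / 2 * (|ζ - ξ| * 2) := by gcongr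
      _ = t * (|ζ - ξ| * t) := by ring
      _ ≤ t * (2 * C * t ^ 2) := by gcongr
      _ = _ := by ring
  have := abs_add_le (gaussOp a ε F x - gaussOp 0 ε F x - a * ε * ξ ^ 2 / 2)
    (a * ε * ξ ^ 2 / 2 - a * ε * ζ ^ 2 / 2)
  rw [show gaussOp a ε F x - gaussOp 0 ε F x - a * ε * ξ ^ 2 / 2 +
    (a * ε * ξ ^ 2 / 2 - a * ε * ζ ^ 2 / 2) =
      gaussOp a ε F x - gaussOp 0 ε F x - a * ε * ζ ^ 2 / 2 by ring] at this
  linarith

theorem local_error (C : ℝ) (hC : 0 ≤ C) : ∃ C' : ℝ, ∀ F : ℝ → ℝ, CL F → SC C F →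
    ∀ a ε : ℝ, 0 ≤ a → a ≤ 1 → 0 ≤ ε → ε ≤ 1 → ∀ u ∈ Icc (-1 : ℝ) 1,
      |Ss a ε (DD F) u - DD (gaussOp a ε F) u| ≤ C' * (ε * Real.sqrt ε) := by
  obtain ⟨K, hK⟩ := dtr_both C hC
  refine ⟨K + (C + 2), fun F hF h a ε ha ha1 hε hε1 u hu => ?_⟩
  have hK' := fun x ζ => hK F hF h a ε x ζ ha ha1 hε hε1
  have hG : CL (gaussOp 0 ε F) := hF.gauss le_rfl
  have hT : CL (gaussOp a ε F) := hF.gauss ha
  have hS : SC (C + 2) (gaussOp 0 ε F) := SC.gauss hC le_rfl zero_le_one hF.lip h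
  simp only [Ss, Hs, hF.PP_DD]
  set G := gaussOp 0 ε F
  set T := gaussOp a ε F
  set t := Real.sqrt ε with ht
  have ht0 : 0 ≤ t := Real.sqrt_nonneg ε
  have ht1 : t ≤ 1 := Real.sqrt_le_one.2 hε1
  have htt : t ^ 2 = ε := Real.sq_sqrt hε
  have e3 : ε * t = t ^ 3 := by rw [← htt]; ring
  have ht3 : 0 ≤ t ^ 3 := pow_nonneg ht0 3
  rw [e3, abs_le]
  constructor
  · have key : ∀ u ∈ Ioo (-1 : ℝ) 1, DD T u ≤ DD G u + a * ε * u ^ 2 / 2 + K * t ^ 3 := by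
      intro u hu
      have hu' := Ioo_subset_Icc_self hu
      obtain ⟨b, hb⟩ := hG.exists_DD hu
      have h1 := hK' b u (abs_le.2 hu') fun y => by
        have := hG.DD_le hu' y
        rw [hb] at this
        linarith
      have h2 := hT.DD_le hu' b
      have := (abs_le.1 h1).2
      linarith
    have hcl : closure (Set.Ioo (-1 : ℝ) 1) = Set.Icc (-1) 1 := closure_Ioo (by norm_num)
    have h1 := le_on_closure key (by rw [hcl]; exact hT.cont_DD)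
      (by rw [hcl]; exact (hG.cont_DD.add (by fun_prop)).add continuousOn_const) (hcl ▸ hu)
    nlinarith
  · have key : DD G u + a * ε * u ^ 2 / 2 - (K + (C + 2)) * t ^ 3 ≤ DD T u := by
      refine le_DD fun b => ?_
      obtain ⟨ζ, hζ1, hζ⟩ := hG.exists_subgrad b
      have h1 := (abs_le.1 (hK' b ζ (abs_le.2 hζ1) hζ)).1
      have h2 := (hS.taylor hζ (a * ε * ((u + ζ) / 2))).2
      have h3 := hG.DD_le hu (b + a * ε * ((u + ζ) / 2))
      have h4 : (C + 2) * (a * ε * ((u + ζ) / 2)) ^ 2 ≤ (C + 2) * t ^ 3 := by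
        have b1 : ((u + ζ) / 2) ^ 2 ≤ 1 := by
          rw [← sq_abs]
          refine pow_le_one₀ (abs_nonneg _) (abs_le.2 ⟨?_, ?_⟩) <;>
            linarith [hu.1, hu.2, hζ1.1, hζ1.2]
        have b2 : a ^ 2 ≤ 1 := pow_le_one₀ ha ha1
        have b3 : (a * ε * ((u + ζ) / 2)) ^ 2 ≤ t ^ 3 := by
          calc (a * ε * ((u + ζ) / 2)) ^ 2 = a ^ 2 * ((u + ζ) / 2) ^ 2 * (t * t ^ 3) := by
                rw [← htt]; ring
            _ ≤ 1 * 1 * (1 * t ^ 3) := by gcongr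
            _ = _ := by ring
        gcongr
      nlinarith
    linarith

/-- Refinement of a list. -/
noncomputable def refine (n : ℕ) (L : List (ℝ × ℝ)) : List (ℝ × ℝ) :=
  L.flatMap fun p => List.replicate n (p.1, p.2 / n)

lemma cl_ExL (L : List (ℝ × ℝ)) (hL : ∀ p ∈ L, 0 ≤ p.1) : CL (ExL L) := by
  induction L with
  | nil => exact cl_lc
  | cons p L ih =>
    exact CL.gauss (hL p List.mem_cons_self) (ih fun q hq => hL q (List.mem_cons_of_mem _ hq))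

lemma cont_ScL (L : List (ℝ × ℝ)) : ContinuousOn (ScL L) (Icc (-1) 1) := by
  induction L with
  | nil => exact cl_lc.cont_DD
  | cons p L ih => exact cont_Ss ih _ _

lemma sc_ExL (L : List (ℝ × ℝ)) (hL : ∀ p ∈ L, 0 ≤ p.1 ∧ p.1 ≤ 1) :
    ∃ C, 0 ≤ C ∧ SC C (ExL L) := by
  induction L with
  | nil => exact ⟨1, zero_le_one, sc_lc⟩
  | cons p L ih =>
    have hL' : ∀ q ∈ L, 0 ≤ q.1 ∧ q.1 ≤ 1 := fun q hq => hL q (List.mem_cons_of_mem _ hq)
    obtain ⟨C, hC, h⟩ := ih hL'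
    have hp := hL p List.mem_cons_self
    exact ⟨C + 2, by linarith, SC.gauss hC hp.1 hp.2 (cl_ExL L fun q hq => (hL' q hq).1).lip h⟩

lemma Ss_close {Λ Λ' : ℝ → ℝ} {c : ℝ} (hΛ : ContinuousOn Λ (Icc (-1) 1))
    (hΛ' : ContinuousOn Λ' (Icc (-1) 1)) (h : ∀ u ∈ Icc (-1 : ℝ) 1, |Λ u - Λ' u| ≤ c) (a ε : ℝ)
    {u : ℝ} (hu : u ∈ Icc (-1 : ℝ) 1) : |Ss a ε Λ u - Ss a ε Λ' u| ≤ c := by
  have h1 := Hs_le_add (c := c) hΛ hΛ' (fun u hu => by have := (abs_le.1 (h u hu)).2; linarith) ε hu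
  have h2 := Hs_le_add (c := c) hΛ' hΛ (fun u hu => by have := (abs_le.1 (h u hu)).1; linarith) ε hu
  simp only [Ss]
  rw [abs_le]; constructor <;> linarith

lemma dtr_tele {C C' : ℝ} (hC : 0 ≤ C) (hC' : ∀ F : ℝ → ℝ, CL F → SC (C + 2) F →
    ∀ a ε : ℝ, 0 ≤ a → a ≤ 1 → 0 ≤ ε → ε ≤ 1 → ∀ u ∈ Icc (-1 : ℝ) 1,
      |Ss a ε (DD F) u - DD (gaussOp a ε F) u| ≤ C' * (ε * Real.sqrt ε))
    {F : ℝ → ℝ} (hF : CL F) (h : SC C F) {a ε c : ℝ} (ha : 0 ≤ a) (ha1 : a ≤ 1) (hε : 0 ≤ ε)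
    (hε1 : ε ≤ 1) (L : List (ℝ × ℝ)) (hL : ∀ u ∈ Icc (-1 : ℝ) 1, |ScL L u - DD F u| ≤ c) (j : ℕ) :
    ∀ u ∈ Icc (-1 : ℝ) 1, |ScL (List.replicate j (a, ε) ++ L) u - DD (gaussOp a (j * ε) F) u| ≤
      c + j * (C' * (ε * Real.sqrt ε)) := by
  induction j with
  | zero => intro u hu; simpa [gaussOp_zero_var] using hL u hu
  | succ j ih =>
    intro u hu
    have hj : CL (gaussOp a (j * ε) F) := hF.gauss ha
    have h1 := Ss_close (cont_ScL _) hj.cont_DD ih a ε hu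
    have h2 := hC' _ hj (SC.gauss hC ha ha1 hF.lip h) a ε ha ha1 hε hε1 u hu
    rw [gaussOp_gaussOp ha hε (by positivity) hF.lip] at h2
    have e1 : ScL (List.replicate (j + 1) (a, ε) ++ L) =
        Ss a ε (ScL (List.replicate j (a, ε) ++ L)) := by
      rw [List.replicate_succ, List.cons_append]; rfl
    rw [e1, show ((j + 1 : ℕ) : ℝ) * ε = ε + j * ε by push_cast; ring]
    have := abs_sub_le (Ss a ε (ScL (List.replicate j (a, ε) ++ L)) u)
      (Ss a ε (DD (gaussOp a (j * ε) F)) u) (DD (gaussOp a (ε + j * ε) F) u)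
    push_cast
    linarith

theorem trotter (L : List (ℝ × ℝ)) (hL : ∀ p ∈ L, 0 ≤ p.1 ∧ p.1 ≤ 1 ∧ 0 ≤ p.2) (η : ℝ)
    (hη : 0 < η) : ∀ᶠ n : ℕ in Filter.atTop, ∀ u ∈ Icc (-1 : ℝ) 1,
      |ScL (refine n L) u - DD (ExL L) u| ≤ η := by
  induction L generalizing η with
  | nil =>
    refine Filter.Eventually.of_forall fun n u _ => ?_
    simp [refine, ScL, ExL, hη.le]
  | cons p L ih =>
    have hL' : ∀ q ∈ L, 0 ≤ q.1 ∧ q.1 ≤ 1 ∧ 0 ≤ q.2 := fun q hq => hL q (List.mem_cons_of_mem _ hq)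
    obtain ⟨ha, ha1, hv⟩ := hL p List.mem_cons_self
    obtain ⟨C, hC, h⟩ := sc_ExL L fun q hq => ⟨(hL' q hq).1, (hL' q hq).2.1⟩
    have hF := cl_ExL L fun q hq => (hL' q hq).1
    obtain ⟨C', hC'⟩ := local_error (C + 2) (by linarith)
    have t1 : Filter.Tendsto (fun n : ℕ => p.2 / n) Filter.atTop (nhds 0) :=
      tendsto_const_div_atTop_nhds_zero_nat p.2
    have t2 : Filter.Tendsto (fun n : ℕ => C' * (p.2 * Real.sqrt (p.2 / n))) Filter.atTop
        (nhds 0) := by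
      have := ((t1.sqrt).const_mul p.2).const_mul C'
      simpa using this
    filter_upwards [ih hL' (η / 2) (by linarith), t1.eventually (ge_mem_nhds one_pos),
      t2.eventually (ge_mem_nhds (half_pos hη)), Filter.eventually_gt_atTop 0] with n h1 h2 h3 hn
    intro u hu
    have hn' : (n : ℝ) ≠ 0 := by exact_mod_cast hn.ne'
    have h4 := dtr_tele hC hC' hF h ha ha1 (by positivity) h2 (refine n L) h1 n u hu
    have e1 : refine n (p :: L) = List.replicate n (p.1, p.2 / n) ++ refine n L := by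
      simp [refine]
    have e2 : (n : ℝ) * (p.2 / n) = p.2 := by field_simp
    have e3 : (n : ℝ) * (C' * (p.2 / n * Real.sqrt (p.2 / n))) =
        C' * (p.2 * Real.sqrt (p.2 / n)) := by field_simp
    rw [e2, e3] at h4
    rw [e1, show ExL (p :: L) = gaussOp p.1 p.2 (ExL L) from rfl]
    linarith

end Crest.Agent.R164
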