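import Crest.Agent.R164.DualH
import Crest.Agent.R164.DualRef
import Crest.Agent.R164.DualTr

/-!
# R164 / DualSM: supermodularity in the exponents

`scl_supermod`: induction on `T` with the invariant (for the four functions `A, B, Mx, Mn` of the
lists with exponents `a, a', max, min`): all are `Iv`; `A + B ≤ Mx + Mn` on `[-1,1]` (`Hs_four`
with `Λ₀₀ = Mn, Λ₁₀ = A, Λ₀₁ = B, Λ₁₁ = Mx`; `max + min = a + a'`); `Od Mn A`, `Od Mn B`,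
`Od A Mx`, `Od B Mx` (`Od.step`).  Then induction on `Pf` with the invariant `Iv`, `Od B' Mx'` and
`A + B' ≤ Mx' + Mn` (`Hs_pin`).  `exl_supermod`: `trotter` for the four lists; `refine` commutes
with `++` and with the maps (use the refined triple list `T.flatMap (replicate n (a, a', v/n))`).
-/

set_option autoImplicit false

open MeasureTheory ProbabilityTheory Finset Set Crest.ProbabilityR.InvariantGlass

namespace Crest.Agent.R164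

lemma sm_ScL_cons (p : ℝ × ℝ) (L : List (ℝ × ℝ)) : ScL (p :: L) = Ss p.1 p.2 (ScL L) := rfl

/-- the invariant for the four functions -/
structure SmInv (A B Mx Mn : ℝ → ℝ) : Prop where
  iA : Iv A
  iB : Iv B
  iMx : Iv Mx
  iMn : Iv Mn
  le : ∀ u ∈ Icc (-1 : ℝ) 1, A u + B u ≤ Mx u + Mn u
  oA : Od Mn A
  oB : Od Mn B
  oA' : Od A Mx
  oB' : Od B Mx

lemma SmInv.step {A B Mx Mn : ℝ → ℝ} (h : SmInv A B Mx Mn) {a a' ε : ℝ} (ha : a ≤ 1) (ha' : a' ≤ 1)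
    (hε : 0 ≤ ε) (hε' : ε ≤ 1 / 4) :
    SmInv (Ss a ε A) (Ss a' ε B) (Ss (max a a') ε Mx) (Ss (min a a') ε Mn) where
  iA := h.iA.step ha hε hε'
  iB := h.iB.step ha' hε hε'
  iMx := h.iMx.step (max_le ha ha') hε hε'
  iMn := h.iMn.step (min_le_of_left_le ha) hε hε'
  le u hu := by
    have h1 := Hs_four h.iMn.dc h.iA.dc h.iB.dc h.iMx.dc h.oA h.oB h.oA' h.le ε hu
    have h2 : max a a' * ε * u ^ 2 / 2 + min a a' * ε * u ^ 2 / 2 =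
        a * ε * u ^ 2 / 2 + a' * ε * u ^ 2 / 2 := by
      have := max_add_min a a'
      linear_combination (ε * u ^ 2 / 2) * this
    simp only [Ss]
    linarith
  oA := h.oA.step h.iMn.cont h.iA.cont hε (min_le_left _ _)
  oB := h.oB.step h.iMn.cont h.iB.cont hε (min_le_right _ _)
  oA' := h.oA'.step h.iA.cont h.iMx.cont hε (le_max_left _ _)
  oB' := h.oB'.step h.iB.cont h.iMx.cont hε (le_max_right _ _)

lemma sm_inv (T : List (ℝ × ℝ × ℝ))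
    (hT : ∀ p ∈ T, p.1 ≤ 1 ∧ p.2.1 ≤ 1 ∧ 0 ≤ p.2.2 ∧ p.2.2 ≤ 1 / 4) :
    SmInv (ScL (T.map fun p => (p.1, p.2.2))) (ScL (T.map fun p => (p.2.1, p.2.2)))
      (ScL (T.map fun p => (max p.1 p.2.1, p.2.2))) (ScL (T.map fun p => (min p.1 p.2.1, p.2.2))) := by
  induction T with
  | nil =>
    exact ⟨iv_DD_lc, iv_DD_lc, iv_DD_lc, iv_DD_lc, fun _ _ => le_rfl, Od.refl _, Od.refl _,
      Od.refl _, Od.refl _⟩
  | cons p T ih =>
    obtain ⟨h1, h2, h3, h4⟩ := hT p List.mem_cons_self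
    exact (ih fun q hq => hT q (List.mem_cons_of_mem _ hq)).step h1 h2 h3 h4

lemma sm_pre (Pf : List (ℝ × ℝ)) (hP : ∀ p ∈ Pf, p.1 ≤ 1 ∧ 0 ≤ p.2 ∧ p.2 ≤ 1 / 4)
    {L L' : List (ℝ × ℝ)} (h : Iv (ScL L)) (h' : Iv (ScL L')) (ho : Od (ScL L) (ScL L')) :
    Iv (ScL (Pf ++ L)) ∧ Iv (ScL (Pf ++ L')) ∧ Od (ScL (Pf ++ L)) (ScL (Pf ++ L')) ∧
      ∀ u ∈ Icc (-1 : ℝ) 1, ScL L' u - ScL L u ≤ ScL (Pf ++ L') u - ScL (Pf ++ L) u := by
  induction Pf with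
  | nil => exact ⟨h, h', ho, fun _ _ => le_rfl⟩
  | cons p Pf ih =>
    obtain ⟨h1, h2, h3⟩ := hP p List.mem_cons_self
    obtain ⟨i1, i2, i3, i4⟩ := ih fun q hq => hP q (List.mem_cons_of_mem _ hq)
    rw [List.cons_append, List.cons_append, sm_ScL_cons, sm_ScL_cons]
    refine ⟨i1.step h1 h2 h3, i2.step h1 h2 h3, i3.step i1.cont i2.cont h2 le_rfl, fun u hu => ?_⟩
    have h4 := Hs_pin i1.dc i2.cont i3 hu p.2
    have h5 := i4 u hu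
    simp only [Ss]
    linarith

theorem scl_supermod (Pf : List (ℝ × ℝ)) (T : List (ℝ × ℝ × ℝ))
    (hP : ∀ p ∈ Pf, p.1 ≤ 1 ∧ 0 ≤ p.2 ∧ p.2 ≤ 1 / 4)
    (hT : ∀ p ∈ T, p.1 ≤ 1 ∧ p.2.1 ≤ 1 ∧ 0 ≤ p.2.2 ∧ p.2.2 ≤ 1 / 4) {s : ℝ}
    (hs : s ∈ Icc (-1 : ℝ) 1) :
    ScL (T.map fun p => (p.1, p.2.2)) s + ScL (Pf ++ T.map fun p => (p.2.1, p.2.2)) s ≤
      ScL (Pf ++ T.map fun p => (max p.1 p.2.1, p.2.2)) s +
        ScL (T.map fun p => (min p.1 p.2.1, p.2.2)) s := by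
  have h := sm_inv T hT
  have h1 := (sm_pre Pf hP h.iB h.iMx h.oB').2.2.2 s hs
  have h2 := h.le s hs
  linarith

/-- refinement of a list of triples -/
noncomputable def smRefine (n : ℕ) (T : List (ℝ × ℝ × ℝ)) : List (ℝ × ℝ × ℝ) :=
  T.flatMap fun p => List.replicate n (p.1, p.2.1, p.2.2 / n)

lemma sm_refine_map (φ : ℝ → ℝ → ℝ) (n : ℕ) (T : List (ℝ × ℝ × ℝ)) :
    refine n (T.map fun p => (φ p.1 p.2.1, p.2.2)) =
      (smRefine n T).map fun p => (φ p.1 p.2.1, p.2.2) := by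
  simp [refine, smRefine, List.flatMap_map, List.map_flatMap]

lemma sm_refine_append (n : ℕ) (L L' : List (ℝ × ℝ)) :
    refine n (L ++ L') = refine n L ++ refine n L' := List.flatMap_append

lemma sm_small {α : Type*} (L : List α) (v : α → ℝ) :
    ∀ᶠ n : ℕ in Filter.atTop, ∀ p ∈ L, v p / n ≤ 1 / 4 :=
  (Filter.eventually_all_finite (List.finite_toSet L)).2 fun p _ =>
    (tendsto_const_div_atTop_nhds_zero_nat (v p)).eventually_le_const (by norm_num)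

theorem exl_supermod (Pf : List (ℝ × ℝ)) (T : List (ℝ × ℝ × ℝ))
    (hP : ∀ p ∈ Pf, 0 ≤ p.1 ∧ p.1 ≤ 1 ∧ 0 ≤ p.2)
    (hT : ∀ p ∈ T, 0 ≤ p.1 ∧ p.1 ≤ 1 ∧ 0 ≤ p.2.1 ∧ p.2.1 ≤ 1 ∧ 0 ≤ p.2.2) {s : ℝ}
    (hs : s ∈ Icc (-1 : ℝ) 1) :
    DD (ExL (T.map fun p => (p.1, p.2.2))) s + DD (ExL (Pf ++ T.map fun p => (p.2.1, p.2.2))) s ≤
      DD (ExL (Pf ++ T.map fun p => (max p.1 p.2.1, p.2.2))) s +
        DD (ExL (T.map fun p => (min p.1 p.2.1, p.2.2))) s := by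
  have hm : ∀ φ : ℝ → ℝ → ℝ, (∀ a a', 0 ≤ a → a ≤ 1 → 0 ≤ a' → a' ≤ 1 → 0 ≤ φ a a' ∧ φ a a' ≤ 1) →
      ∀ q ∈ T.map fun p => (φ p.1 p.2.1, p.2.2), 0 ≤ q.1 ∧ q.1 ≤ 1 ∧ 0 ≤ q.2 := by
    intro φ hφ q hq
    obtain ⟨p, hp, rfl⟩ := List.mem_map.1 hq
    obtain ⟨h1, h2, h3, h4, h5⟩ := hT p hp
    exact ⟨(hφ _ _ h1 h2 h3 h4).1, (hφ _ _ h1 h2 h3 h4).2, h5⟩
  have ha : ∀ L : List (ℝ × ℝ), (∀ q ∈ L, 0 ≤ q.1 ∧ q.1 ≤ 1 ∧ 0 ≤ q.2) →
      ∀ q ∈ Pf ++ L, 0 ≤ q.1 ∧ q.1 ≤ 1 ∧ 0 ≤ q.2 := fun L hL q hq =>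
    (List.mem_append.1 hq).elim (hP q) (hL q)
  refine le_of_forall_pos_le_add fun η hη => ?_
  have hη' : 0 < η / 4 := by positivity
  obtain ⟨n, t1, t2, t3, t4, s1, s2⟩ :=
    ((trotter _ (hm (fun a _ => a) fun _ _ h1 h2 _ _ => ⟨h1, h2⟩) _ hη').and
    ((trotter _ (ha _ (hm (fun _ a => a) fun _ _ _ _ h1 h2 => ⟨h1, h2⟩)) _ hη').and
    ((trotter _ (ha _ (hm max fun _ _ h1 h2 _ h4 => ⟨le_max_of_le_left h1, max_le h2 h4⟩)) _ hη').and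
    ((trotter _ (hm min fun _ _ h1 h2 h3 _ => ⟨le_min h1 h3, min_le_of_left_le h2⟩) _ hη').and
    ((sm_small Pf fun p => p.2).and (sm_small T fun p => p.2.2)))))).exists
  have key := scl_supermod (refine n Pf) (smRefine n T) (fun q hq => by
    obtain ⟨p, hp, hq⟩ := List.mem_flatMap.1 hq
    rw [List.eq_of_mem_replicate hq]
    exact ⟨(hP p hp).2.1, div_nonneg (hP p hp).2.2 (Nat.cast_nonneg n), s1 p hp⟩) (fun q hq => by
    obtain ⟨p, hp, hq⟩ := List.mem_flatMap.1 hq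
    rw [List.eq_of_mem_replicate hq]
    obtain ⟨-, h2, -, h4, h5⟩ := hT p hp
    exact ⟨h2, h4, div_nonneg h5 (Nat.cast_nonneg n), s2 p hp⟩) hs
  have u1 := abs_le.1 (t1 s hs)
  have u2 := abs_le.1 (t2 s hs)
  have u3 := abs_le.1 (t3 s hs)
  have u4 := abs_le.1 (t4 s hs)
  rw [sm_refine_map fun a _ => a] at u1
  rw [sm_refine_append, sm_refine_map fun _ a => a] at u2
  rw [sm_refine_append, sm_refine_map max] at u3
  rw [sm_refine_map min] at u4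
  linarith [u1.1, u2.1, u3.2, u4.2]

end Crest.Agent.R164
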