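import Crest.Agent.R164.CasIBP

/-!
# R164 / GG: Ghirlanda–Guerra type consequences of the concentration of the perturbation fields

Notation `a = ua R`, `Δ = 1/R`, `M_i = E i X`, `Y_i = yo i = X · M_i`, `q_i = ov i`,
`φ_l = Σ_b γ_b (s l) X_b`.  For `Ψ` with `|Ψ| ≤ 1` put `G_l Ψ = EE (φ_l Ψ) / κ_l`; concentration gives
`|G_l Ψ - G_l 1 * EE Ψ| ≤ e`.  Integration by parts (`ibp`, test function `X_b Ψ`, `φ = κ_l X_b`;
`EE (E i (X_b Ψ) * E i X_b) = EE (Ψ X_b M_{i,b})` by `EE_tower_mul`) gives, when `Ψ₀,b` is the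
derivative of `Ψ` along flow `b` at level `l`,
`G_l Ψ = EE (Y_0 Ψ) - Σ_{i=1}^{l} Δ EE (Ψ Y_i) + Σ_b EE (X_b Ψ₀,b) / κ_l`, and
`G_l 1 = q_0 - Σ_{i=1}^l Δ q_i`.  For `Ψ = Y_j = Σ_c X_c E j X_c`: `Ψ₀,b = 0` if `l < j`
(`HasD.of_dep`) and `Ψ₀,b = κ_l Σ_c X_c Cv j X_c X_b` if `j ≤ l` (`HasD.cond`), so the last term is
`T_j = EE Σ_{b,c} E j (X_b X_c) Cv j X_b X_c` (tower), independent of `l`.
* `gg_zero`: `l = 0`, `Ψ = Y_0 - q_0`.
* `gg_hs`: subtract `l = j - 1` and `l = j`: `T_j = Δ EE Y_j² - Δ q_j² ± 2e ≤ 1/R + 2 e`, and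
  `UV.hs_le_sum_Cv`.
* `gg_var`: for `1 ≤ l < j`, subtracting `l - 1` and `l`: `|EE (Y_j Y_l) - q_j q_l| ≤ 2 e R`; for
  `l = 0` the error is `√e` by `gg_zero`.  With `l = j - 1`:
  `EE Y_j² ≤ EE (Y_j Y_{j-1}) + EE |Y_j - Y_{j-1}|`, `EE |Y_j - Y_{j-1}| ≤ √(q_{j-1} - q_j)`
  (`UV.EE_sq_sub`), and `q_{j-1} - q_j ≤ √(q_{j-1} - q_j)`.
-/

set_option autoImplicit false

open MeasureTheory ProbabilityTheory Finset

namespace Crest.Agent.R164

variable {Y : Type} [MeasurableSpace Y] [Lev Y] {R : ℕ} {β : Type} [Fintype β]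

/-- Hypotheses: Gaussian fields coupled to `Xv` at every level, concentrated up to `e`. -/
structure GGh (H : St R Y → ℝ) (Xv : β → St R Y → ℝ) (d : β → Dir Y) (κ : Fin R → ℝ) (e : ℝ) :
    Prop where
  pos : 0 < R
  ml : ML H
  uv : UV Xv
  κ_pos : ∀ l, 0 < κ l
  X_inv : ∀ l b c θ s, Xv c (act (d b) l θ s) = Xv c s
  H_act : ∀ l b θ s, H (act (d b) l θ s) = H s + θ * (κ l * Xv b s)
  conc : ∀ l : Fin R, EE (ua R) H (fun s => |∑ b, (d b).γ (s l) * Xv b s -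
    EE (ua R) H fun t => ∑ b, (d b).γ (t l) * Xv b t|) ≤ e * κ l

variable {H : St R Y → ℝ} {Xv : β → St R Y → ℝ} {d : β → Dir Y} {κ : Fin R → ℝ} {e : ℝ}

/-- `EE (Ψ Y_i)`. -/
noncomputable def ggA (H : St R Y → ℝ) (Xv : β → St R Y → ℝ) (Ψ : St R Y → ℝ) (i : ℕ) : ℝ :=
  EE (ua R) H fun s => Ψ s * yo (ua R) H Xv i s

/-- `B 0 - Σ_{i=1}^{l} Δ B i`. -/
noncomputable def ggS (R : ℕ) (B : ℕ → ℝ) (l : ℕ) : ℝ := B 0 - ∑ i ∈ range l, 1 / R * B (i + 1)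

lemma ggS_zero (B : ℕ → ℝ) : ggS R B 0 = B 0 := by simp [ggS]

lemma ggS_succ (B : ℕ → ℝ) (l : ℕ) : ggS R B (l + 1) = ggS R B l - 1 / R * B (l + 1) := by
  rw [ggS, ggS, sum_range_succ]; ring

lemma gg_tower (h : GGh H Xv d κ e) {Ψ : St R Y → ℝ} (hΨ : ME Ψ) {i : ℕ} (hi : i ≤ R) :
    ∑ b, EE (ua R) H (fun t => E (ua R) H i (fun s => Xv b s * Ψ s) t * E (ua R) H i (Xv b) t) =
      ggA H Xv Ψ i := by
  have ha := exps_ua h.pos
  have h1 : ∀ b, EE (ua R) H (fun t => E (ua R) H i (fun s => Xv b s * Ψ s) t *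
      E (ua R) H i (Xv b) t) = EE (ua R) H fun t => E (ua R) H i (Xv b) t * (Xv b t * Ψ t) := by
    intro b
    rw [← EE_tower_mul ha h.ml hi (dep_E (ua R) H (Xv b) i) fun t => Xv b t * Ψ t]
    simp only [mul_comm]
  simp only [h1]
  rw [← EE_sum _ ha h.ml fun b _ => ((h.uv.me b).cond ha h.ml hi).mul ((h.uv.me b).mul hΨ), ggA]
  congr 1
  funext t
  rw [yo, mul_sum]
  exact sum_congr rfl fun b _ => by ring

lemma gg_ibp (h : GGh H Xv d κ e) (l : Fin R) {Ψ : St R Y → ℝ} (hΨ : ME Ψ)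
    {Ψ₀ : β → St R Y → ℝ} (hD : ∀ b, HasD (d b) l Ψ (Ψ₀ b)) :
    EE (ua R) H (fun s => (∑ b, (d b).γ (s l) * Xv b s) * Ψ s) =
      ∑ b, EE (ua R) H (fun s => Xv b s * Ψ₀ b s) + κ l * ggS R (ggA H Xv Ψ) l := by
  have ha := exps_ua h.pos
  have h1 : ∀ b, EE (ua R) H (fun t => (d b).γ (t l) * (Xv b t * Ψ t)) =
      EE (ua R) H (fun s => Xv b s * Ψ₀ b s) +
        κ l * Ct (ua R) H l (fun t => Xv b t * Ψ t) (Xv b) := by
    intro b
    rw [← Ct_const_mul_right]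
    exact ibp ha h.ml (HasD.of_lin h.ml.me ((h.uv.me b).const_mul _) (h.H_act l b))
      (((HasD.of_inv (h.uv.me b) (h.X_inv l b b)).mul (hD b)).congr (fun _ => rfl)
        fun s => by simp)
  have h2 : (fun s => (∑ b, (d b).γ (s l) * Xv b s) * Ψ s) =
      fun s => ∑ b, (d b).γ (s l) * (Xv b s * Ψ s) := by
    funext s
    rw [sum_mul]
    exact sum_congr rfl fun b _ => by ring
  rw [h2, EE_sum _ ha h.ml fun b _ => (ml_γ (d b) l).me.mul ((h.uv.me b).mul hΨ)]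
  simp only [h1]
  rw [sum_add_distrib, ← mul_sum]
  congr 2
  simp only [Ct, ua_sub]
  rw [sum_sub_distrib, sum_comm, ggS, ← gg_tower h hΨ (Nat.zero_le R)]
  congr 1
  refine sum_congr rfl fun i hi => ?_
  rw [← mul_sum, gg_tower h hΨ (by have := mem_range.1 hi; have := l.2; omega)]

lemma gg_main (h : GGh H Xv d κ e) (l : Fin R) {Ψ : St R Y → ℝ} (hΨ : ME Ψ) (hb : ∀ s, |Ψ s| ≤ 1)
    {Ψ₀ : β → St R Y → ℝ} (hD : ∀ b, HasD (d b) l Ψ (Ψ₀ b)) {T : ℝ}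
    (hT : ∑ b, EE (ua R) H (fun s => Xv b s * Ψ₀ b s) = κ l * T) :
    |T + ggS R (ggA H Xv Ψ) l - ggS R (ov (ua R) H Xv) l * EE (ua R) H Ψ| ≤ e := by
  have ha := exps_ua h.pos
  have hφ : ME fun s => ∑ b, (d b).γ (s l) * Xv b s :=
    ME.sum _ fun b _ => (ml_γ (d b) l).me.mul (h.uv.me b)
  have h1 := gg_ibp h l hΨ hD
  have h2 := gg_ibp h l (ME.const 1) fun b => HasD.of_inv (ME.const 1) fun _ _ => rfl
  have h3 : ggS R (ggA H Xv fun _ => 1) l = ggS R (ov (ua R) H Xv) l := by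
    have h4 : ∀ i ≤ R, ggA H Xv (fun _ => 1) i = ov (ua R) H Xv i := fun i hi => by
      rw [ggA, ← h.uv.EE_yo ha h.ml hi]
      simp only [one_mul]
    rw [ggS, ggS, h4 0 (Nat.zero_le R)]
    congr 1
    exact sum_congr rfl fun i hi => by
      rw [h4 _ (by have := mem_range.1 hi; have := l.2; omega)]
  simp only [mul_one, mul_zero, EE_const ha h.ml, sum_const_zero, zero_add, h3] at h2
  have h5 := h.conc l
  set c := EE (ua R) H fun t => ∑ b, (d b).γ (t l) * Xv b t with hc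
  have h6 : EE (ua R) H (fun s => (∑ b, (d b).γ (s l) * Xv b s - c) * Ψ s) =
      κ l * (T + ggS R (ggA H Xv Ψ) l - ggS R (ov (ua R) H Xv) l * EE (ua R) H Ψ) := by
    simp only [sub_mul]
    rw [EE_sub ha h.ml (hφ.mul hΨ) (hΨ.const_mul c), EE_const_mul, h1, hT, h2]
    ring
  have h7 := (abs_EE_le ha h.ml ((hφ.sub (ME.const c)).mul hΨ)).trans
    ((EE_mono ha h.ml ((hφ.sub (ME.const c)).mul hΨ).abs (hφ.sub (ME.const c)).abs fun s => by
      rw [abs_mul]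
      exact mul_le_of_le_one_right (abs_nonneg _) (hb s)).trans h5)
  rw [h6, abs_mul, abs_of_pos (h.κ_pos l), mul_comm e] at h7
  exact le_of_mul_le_mul_left h7 (h.κ_pos l)

lemma gg_lt (h : GGh H Xv d κ e) {l j : ℕ} (hl : l < j) (hj : j ≤ R) :
    |ggS R (ggA H Xv (yo (ua R) H Xv j)) l - ggS R (ov (ua R) H Xv) l * ov (ua R) H Xv j| ≤ e := by
  have ha := exps_ua h.pos
  have h1 := gg_main h ⟨l, by omega⟩ (h.uv.me_yo ha h.ml hj) (h.uv.abs_yo_le ha h.ml hj)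
    (Ψ₀ := fun _ _ => 0) (T := 0) (fun b => (HasD.sum univ fun c _ =>
      (HasD.of_inv (h.uv.me c) (h.X_inv _ b c)).mul (HasD.of_dep (l := ⟨l, by omega⟩)
        ((h.uv.me c).cond ha h.ml hj) ((dep_E _ _ _ _).mono (Nat.succ_le_of_lt hl)))).congr
          (fun _ => rfl) fun s => by simp)
    (by simp [EE_const ha h.ml])
  rwa [zero_add, h.uv.EE_yo ha h.ml hj] at h1

lemma gg_ge (h : GGh H Xv d κ e) {l j : ℕ} (hj : j ≤ l) (hl : l < R) :
    |EE (ua R) H (fun s => ∑ b, ∑ c, E (ua R) H j (fun t => Xv b t * Xv c t) s *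
        Cv (ua R) H j (Xv b) (Xv c) s) + ggS R (ggA H Xv (yo (ua R) H Xv j)) l -
      ggS R (ov (ua R) H Xv) l * ov (ua R) H Xv j| ≤ e := by
  have ha := exps_ua h.pos
  have hjR : j ≤ R := by omega
  have hm := h.uv.me
  rw [← h.uv.EE_yo ha h.ml hjR]
  refine gg_main h ⟨l, hl⟩ (h.uv.me_yo ha h.ml hjR) (h.uv.abs_yo_le ha h.ml hjR)
    (Ψ₀ := fun b s => κ ⟨l, hl⟩ * ∑ c, Xv c s * Cv (ua R) H j (Xv b) (Xv c) s)
    (fun b => (HasD.sum univ fun c _ => (HasD.of_inv (hm c) (h.X_inv _ b c)).mul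
      (HasD.cond ha h.ml (HasD.of_lin h.ml.me ((hm b).const_mul _) (h.H_act _ b))
        (HasD.of_inv (hm c) (h.X_inv _ b c)) hj)).congr (fun _ => rfl) fun s => ?_) ?_
  · rw [mul_sum]
    refine sum_congr rfl fun c _ => ?_
    rw [E_const ha h.ml hjR, Cv_const_mul_right, Cv_comm _ _ (Xv c)]
    ring
  · rw [EE_sum _ ha h.ml fun b _ => ME.sum _ fun c _ => (((hm b).mul (hm c)).cond ha h.ml hjR).mul
      ((hm b).cv ha h.ml (hm c) hjR), mul_sum]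
    refine sum_congr rfl fun b _ => ?_
    have h1 : (fun s => Xv b s * (κ ⟨l, hl⟩ * ∑ c, Xv c s * Cv (ua R) H j (Xv b) (Xv c) s)) =
        fun s => κ ⟨l, hl⟩ * ∑ c, Cv (ua R) H j (Xv b) (Xv c) s * (Xv b s * Xv c s) := by
      funext s
      simp only [mul_sum]
      exact sum_congr rfl fun c _ => by ring
    rw [h1, EE_const_mul, EE_sum _ ha h.ml fun c _ => ((hm b).cv ha h.ml (hm c) hjR).mul
      ((hm b).mul (hm c)), EE_sum _ ha h.ml fun c _ => (((hm b).mul (hm c)).cond ha h.ml hjR).mul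
      ((hm b).cv ha h.ml (hm c) hjR)]
    congr 1
    refine sum_congr rfl fun c _ => ?_
    rw [← EE_tower_mul ha h.ml hjR (dep_Cv _ _ _ _ _)]
    simp only [mul_comm]

lemma gg_var_eq (h : GGh H Xv d κ e) {j : ℕ} (hj : j ≤ R) :
    EE (ua R) H (fun s => (yo (ua R) H Xv j s - ov (ua R) H Xv j) ^ 2) =
      ggA H Xv (yo (ua R) H Xv j) j - ov (ua R) H Xv j ^ 2 := by
  have ha := exps_ua h.pos
  have hy := h.uv.me_yo ha h.ml hj
  have h1 : (fun s => (yo (ua R) H Xv j s - ov (ua R) H Xv j) ^ 2) = fun s =>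
      yo (ua R) H Xv j s * yo (ua R) H Xv j s - 2 * ov (ua R) H Xv j * yo (ua R) H Xv j s +
        ov (ua R) H Xv j ^ 2 := by
    funext s; ring
  rw [h1, EE_add ha h.ml ((hy.mul hy).sub (hy.const_mul _)) (ME.const _),
    EE_sub ha h.ml (hy.mul hy) (hy.const_mul _), EE_const_mul, EE_const ha h.ml,
    h.uv.EE_yo ha h.ml hj, ggA]
  ring

theorem gg_zero (h : GGh H Xv d κ e) :
    EE (ua R) H (fun s => (yo (ua R) H Xv 0 s - ov (ua R) H Xv 0) ^ 2) ≤ e := by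
  have h1 := gg_ge h le_rfl h.pos
  simp only [Cv, range_zero, sum_empty, mul_zero, sum_const_zero, EE_const (exps_ua h.pos) h.ml,
    zero_add, ggS_zero] at h1
  rw [gg_var_eq h (Nat.zero_le R), sq]
  exact (le_abs_self _).trans h1

theorem gg_hs (h : GGh H Xv d κ e) {j : ℕ} (h1 : 1 ≤ j) (hj : j < R) :
    ua R j * EE (ua R) H (hs (ua R) H Xv j) ≤ 1 / R + 2 * e := by
  have ha := exps_ua h.pos
  have hm := h.uv.me
  obtain ⟨m, rfl⟩ : ∃ m, j = m + 1 := ⟨j - 1, by omega⟩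
  have h2 := (abs_le.1 (gg_lt h m.lt_succ_self hj.le)).1
  have h3 := (abs_le.1 (gg_ge h le_rfl hj)).2
  rw [ggS_succ, ggS_succ] at h3
  have h4 := EE_mono ha h.ml ((h.uv.me_hs ha h.ml hj.le).const_mul _)
    (ME.sum _ fun b _ => ME.sum _ fun c _ => (((hm b).mul (hm c)).cond ha h.ml hj.le).mul
      ((hm b).cv ha h.ml (hm c) hj.le)) (h.uv.hs_le_sum_Cv ha h.ml hj.le)
  rw [EE_const_mul] at h4
  have hy := h.uv.me_yo ha h.ml hj.le
  have h5 : ggA H Xv (yo (ua R) H Xv (m + 1)) (m + 1) ≤ 1 := by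
    refine (EE_mono ha h.ml (hy.mul hy) (ME.const 1) fun s => ?_).trans_eq (EE_const ha h.ml 1)
    have := abs_le.1 (h.uv.abs_yo_le ha h.ml hj.le s)
    nlinarith
  have h6 : (0 : ℝ) ≤ 1 / R := by positivity
  have h7 := mul_le_mul_of_nonneg_left h5 h6
  have h8 := mul_nonneg h6 (mul_self_nonneg (ov (ua R) H Xv (m + 1)))
  nlinarith

theorem gg_var (h : GGh H Xv d κ e) {j : ℕ} (hj : j + 1 < R) :
    EE (ua R) H (fun s => (yo (ua R) H Xv (j + 1) s - ov (ua R) H Xv (j + 1)) ^ 2) ≤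
      2 * Real.sqrt (ov (ua R) H Xv j - ov (ua R) H Xv (j + 1)) + 2 * e * R + Real.sqrt e := by
  have ha := exps_ua h.pos
  have hm := h.uv.me
  have hR : (1 : ℝ) ≤ R := by exact_mod_cast h.pos
  have hjR : j ≤ R := by omega
  have h1 : ggA H Xv (yo (ua R) H Xv (j + 1)) j ≤
      ov (ua R) H Xv j * ov (ua R) H Xv (j + 1) + 2 * e * R := by
    rcases j with _ | m
    · have h2 := gg_lt h (l := 0) (j := 0 + 1) (by omega) hj.le
      rw [ggS_zero, ggS_zero] at h2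
      have h3 := (abs_nonneg _).trans h2
      nlinarith [(abs_le.1 h2).2]
    · have h2 := (abs_le.1 (gg_lt h (l := m) (j := m + 1 + 1) (by omega) hj.le)).2
      have h3 := (abs_le.1 (gg_lt h (l := m + 1) (j := m + 1 + 1) (by omega) hj.le)).1
      rw [ggS_succ, ggS_succ] at h3
      have h4 : 1 / R * (ggA H Xv (yo (ua R) H Xv (m + 1 + 1)) (m + 1) -
          ov (ua R) H Xv (m + 1) * ov (ua R) H Xv (m + 1 + 1)) ≤ 2 * e := by nlinarith
      rw [one_div, inv_mul_le_iff₀ (by linarith)] at h4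
      linarith
  have hy := h.uv.me_yo ha h.ml hj.le
  have hy' := h.uv.me_yo ha h.ml hjR
  have h2 : ggA H Xv (yo (ua R) H Xv (j + 1)) (j + 1) ≤ ggA H Xv (yo (ua R) H Xv (j + 1)) j +
      EE (ua R) H fun s => |yo (ua R) H Xv j s - yo (ua R) H Xv (j + 1) s| := by
    rw [ggA, ggA, ← EE_add ha h.ml (hy.mul hy') (hy'.sub hy).abs]
    refine EE_mono ha h.ml (hy.mul hy) ((hy.mul hy').add (hy'.sub hy).abs) fun s => ?_
    have h3 := mul_le_of_le_one_left (abs_nonneg (yo (ua R) H Xv j s - yo (ua R) H Xv (j + 1) s))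
      (h.uv.abs_yo_le ha h.ml hj.le s)
    rw [← abs_mul] at h3
    have h4 := neg_abs_le (yo (ua R) H Xv (j + 1) s *
      (yo (ua R) H Xv j s - yo (ua R) H Xv (j + 1) s))
    linarith
  have h3 : (EE (ua R) H fun s => |yo (ua R) H Xv j s - yo (ua R) H Xv (j + 1) s|) ≤
      Real.sqrt (ov (ua R) H Xv j - ov (ua R) H Xv (j + 1)) := by
    refine (EE_abs_le_sqrt ha h.ml (hy'.sub hy)).trans (Real.sqrt_le_sqrt ?_)
    rw [← h.uv.EE_sq_sub ha h.ml j.le_succ hj.le]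
    refine EE_mono ha h.ml ((hy'.sub hy).pow 2) (ME.sum _ fun b _ =>
      (((hm b).cond ha h.ml hjR).sub ((hm b).cond ha h.ml hj.le)).pow 2) fun s => ?_
    rw [yo, yo, ← sum_sub_distrib]
    simp only [← mul_sub]
    exact (sum_mul_sq_le_sq_mul_sq _ _ _).trans (mul_le_of_le_one_left
      (sum_nonneg fun _ _ => sq_nonneg _) (h.uv.le_one s))
  have h4 := h.uv.ov_mem ha h.ml hjR
  have h5 := h.uv.ov_mem ha h.ml hj.le
  have h6 := h.uv.ov_anti ha h.ml j.le_succ hj.le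
  have h7 : ov (ua R) H Xv j - ov (ua R) H Xv (j + 1) ≤
      Real.sqrt (ov (ua R) H Xv j - ov (ua R) H Xv (j + 1)) :=
    Real.le_sqrt_of_sq_le (by nlinarith)
  rw [gg_var_eq h hj.le]
  nlinarith [Real.sqrt_nonneg e]

end Crest.Agent.R164
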