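import Crest.Agent.R164.Lev

/-!
# R164 / Haar: the orthogonal group as a level space

`Orth ι` is the orthogonal group with the Borel σ-algebra, `haar ι` its Haar probability measure
(left and right invariant).  All proved (helper18); do not edit.
-/

set_option autoImplicit false

open MeasureTheory ProbabilityTheory Matrix

namespace Crest.Agent.R164

/-- The orthogonal group on the index type `ι`. -/
abbrev Orth (ι : Type) [Fintype ι] [DecidableEq ι] : Type := ↥(Matrix.orthogonalGroup ι ℝ)

variable {ι : Type} [Fintype ι] [DecidableEq ι]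

noncomputable instance : MeasurableSpace (Orth ι) := borel _
instance : BorelSpace (Orth ι) := ⟨rfl⟩

instance : SecondCountableTopology (Orth ι) := by
  have : SecondCountableTopology (Matrix ι ι ℝ) :=
    inferInstanceAs (SecondCountableTopology (ι → ι → ℝ))
  exact TopologicalSpace.Subtype.secondCountableTopology
    (Matrix.orthogonalGroup ι ℝ : Set (Matrix ι ι ℝ))

lemma Orth.mul_transpose (U : Orth ι) : U.1 * U.1ᵀ = 1 :=
  (Matrix.mem_orthogonalGroup_iff ι ℝ).1 U.2

lemma Orth.transpose_mul (U : Orth ι) : U.1ᵀ * U.1 = 1 :=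
  (Matrix.mem_orthogonalGroup_iff' ι ℝ).1 U.2

lemma Orth.sum_sq_row (U : Orth ι) (a : ι) : ∑ r, U.1 a r ^ 2 = 1 := by
  have := congrFun (congrFun U.mul_transpose a) a
  simpa [Matrix.mul_apply, sq] using this

lemma Orth.abs_le_one (U : Orth ι) (a r : ι) : |U.1 a r| ≤ 1 := by
  have h := U.sum_sq_row a
  have h2 : U.1 a r ^ 2 ≤ 1 := h ▸ Finset.single_le_sum (f := fun r => U.1 a r ^ 2)
    (fun _ _ => sq_nonneg _) (Finset.mem_univ r)
  exact abs_le_one_iff_mul_self_le_one.2 (by nlinarith)

/-- An orthogonal matrix preserves the Euclidean inner product. -/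
lemma Orth.dot_mulVec (U : Orth ι) (v w : ι → ℝ) : (U.1 *ᵥ v) ⬝ᵥ (U.1 *ᵥ w) = v ⬝ᵥ w := by
  rw [Matrix.dotProduct_mulVec, Matrix.vecMul_mulVec, U.transpose_mul, Matrix.vecMul_one]

lemma Orth.sum_sq_mulVec (U : Orth ι) (v : ι → ℝ) : ∑ a, (U.1 *ᵥ v) a ^ 2 = ∑ r, v r ^ 2 := by
  simpa [dotProduct, sq] using U.dot_mulVec v v

/-- Build an element of `Orth ι` from `Uᵀ U = 1`. -/
def Orth.mk' (U : Matrix ι ι ℝ) (h : Uᵀ * U = 1) : Orth ι :=
  ⟨U, (Matrix.mem_orthogonalGroup_iff' ι ℝ).2 h⟩

@[simp] lemma Orth.mk'_val (U : Matrix ι ι ℝ) (h : Uᵀ * U = 1) : (Orth.mk' U h).1 = U := rfl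

instance : CompactSpace (Orth ι) := by
  refine isCompact_iff_compactSpace.1 ?_
  have hK : IsCompact (Set.univ.pi fun _ : ι => Set.univ.pi fun _ : ι => Set.Icc (-1 : ℝ) 1) :=
    isCompact_univ_pi fun _ => isCompact_univ_pi fun _ => isCompact_Icc
  have hc : IsClosed (Matrix.orthogonalGroup ι ℝ : Set (Matrix ι ι ℝ)) :=
    isClosed_unitary (R := Matrix ι ι ℝ)
  refine IsCompact.of_isClosed_subset (X := Matrix ι ι ℝ) hK hc fun U hU a _ r _ => ?_
  exact abs_le.1 (Orth.abs_le_one ⟨U, hU⟩ a r)

lemma Orth.continuous_entry (a r : ι) : Continuous fun U : Orth ι => U.1 a r :=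
  (continuous_apply r).comp ((continuous_apply a).comp continuous_subtype_val)

@[fun_prop] lemma Orth.measurable_entry (a r : ι) : Measurable fun U : Orth ι => U.1 a r :=
  (Orth.continuous_entry a r).measurable

/-- A map into `Orth ι` is measurable when its entries are. -/
lemma Orth.measurable_of_entry {α : Type*} [MeasurableSpace α] {f : α → Orth ι}
    (h : ∀ a r, Measurable fun x => (f x).1 a r) : Measurable f := by
  let _ : MeasurableSpace (Matrix ι ι ℝ) := inferInstanceAs (MeasurableSpace (ι → ι → ℝ))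
  have : BorelSpace (Matrix ι ι ℝ) := inferInstanceAs (BorelSpace (ι → ι → ℝ))
  have e : (borel (Orth ι)) = Subtype.instMeasurableSpace :=
    (Subtype.borelSpace (Matrix.orthogonalGroup ι ℝ : Set (Matrix ι ι ℝ))).measurable_eq.symm
  have : @Measurable α (Orth ι) _ Subtype.instMeasurableSpace f :=
    Measurable.subtype_mk (measurable_pi_lambda _ fun a => measurable_pi_lambda _ fun r => h a r)
  rw [← e] at this
  exact this

/-- Haar probability measure on the orthogonal group. -/
noncomputable def haar (ι : Type) [Fintype ι] [DecidableEq ι] : Measure (Orth ι) :=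
  Measure.haarMeasure ⊤

instance : (haar ι).IsHaarMeasure := Measure.isHaarMeasure_haarMeasure _

instance : IsProbabilityMeasure (haar ι) :=
  ⟨by simpa [haar] using Measure.haarMeasure_self (G := Orth ι) (K₀ := ⊤)⟩

/-- A right-invariant probability measure is the Haar measure. -/
lemma eq_haar_of_right (ν : Measure (Orth ι)) [IsProbabilityMeasure ν]
    (h : ∀ O : Orth ι, ν.map (· * O) = ν) : ν = haar ι := by
  ext s hs
  have hm : Measurable fun p : Orth ι × Orth ι => s.indicator (1 : Orth ι → ENNReal) (p.1 * p.2) :=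
    (measurable_one.indicator hs).comp measurable_mul
  have h1 : ∫⁻ y, ∫⁻ x, s.indicator (1 : Orth ι → ENNReal) (x * y) ∂ν ∂haar ι = ν s := by
    have : ∀ y, ∫⁻ x, s.indicator (1 : Orth ι → ENNReal) (x * y) ∂ν = ν s := fun y => by
      rw [← lintegral_map (measurable_one.indicator hs) (measurable_mul_const y), h y,
        lintegral_indicator_one hs]
    simp [this]
  have h2 : ∫⁻ x, ∫⁻ y, s.indicator (1 : Orth ι → ENNReal) (x * y) ∂haar ι ∂ν = haar ι s := by
    have : ∀ x, ∫⁻ y, s.indicator (1 : Orth ι → ENNReal) (x * y) ∂haar ι = haar ι s := fun x => by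
      rw [lintegral_mul_left_eq_self, lintegral_indicator_one hs]
    simp [this]
  rw [← h1, ← h2]
  exact (lintegral_lintegral_swap hm.aemeasurable).symm

instance : (haar ι).IsMulRightInvariant := ⟨fun O => by
  have : IsProbabilityMeasure ((haar ι).map (· * O)) :=
    Measure.isProbabilityMeasure_map (measurable_mul_const O).aemeasurable
  exact Measure.isHaarMeasure_eq_of_isProbabilityMeasure _ _⟩

/-- A left-invariant probability measure is the Haar measure. -/
lemma eq_haar_of_left (ν : Measure (Orth ι)) [IsProbabilityMeasure ν]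
    (h : ∀ O : Orth ι, ν.map (O * ·) = ν) : ν = haar ι := by
  ext s hs
  have hm : Measurable fun p : Orth ι × Orth ι => s.indicator (1 : Orth ι → ENNReal) (p.1 * p.2) :=
    (measurable_one.indicator hs).comp measurable_mul
  have h1 : ∫⁻ x, ∫⁻ y, s.indicator (1 : Orth ι → ENNReal) (x * y) ∂ν ∂haar ι = ν s := by
    have : ∀ x, ∫⁻ y, s.indicator (1 : Orth ι → ENNReal) (x * y) ∂ν = ν s := fun x => by
      rw [← lintegral_map (measurable_one.indicator hs) (measurable_const_mul x), h x,
        lintegral_indicator_one hs]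
    simp [this]
  have h2 : ∫⁻ y, ∫⁻ x, s.indicator (1 : Orth ι → ENNReal) (x * y) ∂haar ι ∂ν = haar ι s := by
    have : ∀ y, ∫⁻ x, s.indicator (1 : Orth ι → ENNReal) (x * y) ∂haar ι = haar ι s := fun y => by
      rw [lintegral_mul_right_eq_self (fun x => s.indicator (1 : Orth ι → ENNReal) x),
        lintegral_indicator_one hs]
    simp [this]
  rw [← h1, ← h2]
  exact lintegral_lintegral_swap hm.aemeasurable

lemma mp_haar_mul_left (O : Orth ι) : MeasurePreserving (O * ·) (haar ι) (haar ι) :=
  measurePreserving_mul_left _ O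

lemma mp_haar_mul_right (O : Orth ι) : MeasurePreserving (· * O) (haar ι) (haar ι) :=
  measurePreserving_mul_right _ O

noncomputable instance : Lev (Orth ι) where
  μ := haar ι
  prob := inferInstance
  n := fun _ => 0
  n_nonneg := fun _ => le_rfl
  n_meas := measurable_const
  n_int := fun _ => integrable_const _
  pt := 1

lemma μ_orth : (Lev.μ : Measure (Orth ι)) = haar ι := rfl
lemma n_orth (U : Orth ι) : Lev.n U = 0 := rfl

/-- The standard Gaussian vector is invariant under an orthogonal matrix. -/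
lemma mp_gauss_mulVec (O : Orth ι) :
    MeasurePreserving (fun g : ι → ℝ => O.1 *ᵥ g) (Lev.μ : Measure (ι → ℝ)) Lev.μ := by
  let li : EuclideanSpace ℝ ι →ₗᵢ[ℝ] EuclideanSpace ℝ ι :=
    { toLinearMap := Matrix.toEuclideanLin O.1
      norm_map' := fun x => by
        rw [EuclideanSpace.norm_eq, EuclideanSpace.norm_eq]
        congr 1
        simp only [Real.norm_eq_abs, sq_abs]
        exact O.sum_sq_mulVec x.ofLp }
  let f := li.toLinearIsometryEquiv rfl
  have h1 := stdGaussian_map f
  have hm : Measurable fun g : ι → ℝ => O.1 *ᵥ g :=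
    (Continuous.matrix_mulVec continuous_const continuous_id).measurable
  refine ⟨hm, ?_⟩
  have h2 : (Lev.μ : Measure (ι → ℝ)).map (WithLp.toLp 2) = stdGaussian (EuclideanSpace ℝ ι) :=
    map_pi_eq_stdGaussian
  have h3 : (stdGaussian (EuclideanSpace ℝ ι)).map WithLp.ofLp = (Lev.μ : Measure (ι → ℝ)) := by
    rw [← h2, Measure.map_map (by fun_prop) (by fun_prop)]
    exact Measure.map_id
  calc (Lev.μ : Measure (ι → ℝ)).map (fun g => O.1 *ᵥ g)
      = (((Lev.μ : Measure (ι → ℝ)).map (WithLp.toLp 2)).map f).map WithLp.ofLp := by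
        rw [Measure.map_map (by fun_prop) (by fun_prop), Measure.map_map (by fun_prop) (by fun_prop)]
        rfl
    _ = _ := by rw [h2, h1, h3]

end Crest.Agent.R164
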