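import Crest.Agent.R164.Quad

/-!
# R164 / Ideal: values of the two ideal cavity cascades

`diag_PMP`: `e_k = √ρ_k`, `P = 1 - e eᵀ`, `M = diag μ`, `A = P M P` is symmetric positive
semidefinite; spectral theorem `A = Oᵀ diag α O`, `β = O P M e`.
`Σ μ_k (ε e_k + (Pτ)_k)² = ε² eᵀMe + 2 ε (PMe)·τ + τᵀ A τ`.
`Π (1 + d α_k) = det (1 + d A) = det (1 + d M P) = det (1 + d M) (1 - d eᵀ (1 + dM)⁻¹ M e)`
(`Matrix.det_one_add_mul_comm`, `P² = P`, rank-one update, e.g. `det_one_sub_mul_comm` with a column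
and a row) and `1 - Σ ρ d μ/(1+dμ) = γ := Σ ρ/(1+dμ)`.
For `d > 0`, `w = (e - (1+dM)⁻¹ e / γ)/d` satisfies `P w = w`, `(1 + d A) w = P M e`, so
`Σ β² d/(1 + dα) = d (PMe)·w = Σ ρ μ - (Σ ρ μ/(1+dμ))/γ = psi2 0 d - psi2 0 0`.
`ideal_A`, `ideal_B`: regroup `(C → Bool × ℝ) × (C × κ → ℝ)` as `C → (Bool × ℝ) × (κ → ℝ)`
(measure preserving; `val_pull`), `val_pi`, rotate by `O` at every level (`mp_gauss_mulVec`),
`val_add_const`, `val_qH`; `dd a dc l = yv (Dq l)` (`sum_dc_mul`), and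
`c_l / ((1+α d_l)(1+α d_{l+1})) = (d_{l+1}/(1+α d_{l+1}) - d_l/(1+α d_l)) / a_l`.
-/

set_option autoImplicit false

open MeasureTheory ProbabilityTheory Finset Matrix

namespace Crest.Agent.R164

variable {κ C : Type} [Fintype κ] [DecidableEq κ] [Fintype C] [DecidableEq C]

/-- Diagonalisation of a positive semidefinite real matrix. -/
lemma id_diag {A : Matrix κ κ ℝ} (hA : A.PosSemidef) : ∃ (O : Orth κ) (α : κ → ℝ),
    (∀ k, 0 ≤ α k) ∧ O.1 * A = diagonal α * O.1 := by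
  refine ⟨star hA.1.eigenvectorUnitary, hA.1.eigenvalues, hA.eigenvalues_nonneg, ?_⟩
  have h := hA.1.conjStarAlgAut_star_eigenvectorUnitary
  rw [Unitary.conjStarAlgAut_apply] at h
  have h2 : (RCLike.ofReal ∘ hA.1.eigenvalues : κ → ℝ) = hA.1.eigenvalues := by
    funext k; simp
  rw [h2] at h
  rw [← h, Matrix.mul_assoc, Matrix.mul_assoc]
  have h3 := (star hA.1.eigenvectorUnitary).2.1
  rw [h3, Matrix.mul_one]

section PMP
variable (S : Spec κ)

/-- The unit vector `√ρ`. -/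
noncomputable def idE (k : κ) : ℝ := Real.sqrt (S.ρ k)
/-- The projection onto the complement of `e`. -/
noncomputable def idP : Matrix κ κ ℝ := 1 - vecMulVec (idE S) (idE S)

omit [DecidableEq κ] in
lemma idE_sq (k : κ) : idE S k * idE S k = S.ρ k := Real.mul_self_sqrt (S.ρ_pos k).le

omit [DecidableEq κ] in
lemma idE_dot : idE S ⬝ᵥ idE S = 1 := by
  simp only [dotProduct, idE_sq, S.ρ_sum]

lemma idP_mulVec (v : κ → ℝ) : idP S *ᵥ v = v - (idE S ⬝ᵥ v) • idE S := by
  rw [idP, sub_mulVec, one_mulVec, vecMulVec_mulVec]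
  simp

lemma idP_apply (τ : κ → ℝ) (k : κ) : (idP S *ᵥ τ) k = ∑ k',
    ((if k = k' then 1 else 0) - Real.sqrt (S.ρ k) * Real.sqrt (S.ρ k')) * τ k' := by
  simp only [idP, mulVec, dotProduct, Matrix.sub_apply, Matrix.one_apply, vecMulVec_apply, idE]

lemma idP_transpose : (idP S)ᵀ = idP S := by
  rw [idP, transpose_sub, transpose_one, transpose_vecMulVec]

lemma idP_E : idP S *ᵥ idE S = 0 := by
  rw [idP_mulVec, idE_dot, one_smul, sub_self]

lemma idP_mul_self : idP S * idP S = idP S := by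
  have h : idP S * vecMulVec (idE S) (idE S) = 0 := by
    rw [mul_vecMulVec, idP_E, zero_vecMulVec]
  conv_lhs => enter [2]; rw [idP]
  rw [Matrix.mul_sub, h, Matrix.mul_one, sub_zero]

lemma idP_dot (v w : κ → ℝ) : v ⬝ᵥ (idP S *ᵥ w) = (idP S *ᵥ v) ⬝ᵥ w := by
  rw [dotProduct_mulVec, ← mulVec_transpose, idP_transpose]

lemma idA_psd : (idP S * diagonal S.mu * idP S).PosSemidef := by
  have h := (posSemidef_diagonal_iff.2 S.mu_nonneg).conjTranspose_mul_mul_same (idP S)
  rwa [conjTranspose_eq_transpose_of_trivial, idP_transpose] at h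

omit [DecidableEq κ] in
lemma id_gam_pos {d : ℝ} (hd : 0 ≤ d) : 0 < ∑ k, S.ρ k / (1 + S.mu k * d) :=
  sum_pos (fun k _ => div_pos (S.ρ_pos k) (S.sp_den_pos k hd)) ⟨S.k1, mem_univ _⟩

lemma id_det {d : ℝ} (hd : 0 ≤ d) : det (1 + d • (idP S * diagonal S.mu * idP S)) =
    (∏ k, (1 + S.mu k * d)) * ∑ k, S.ρ k / (1 + S.mu k * d) := by
  have h1 : d • (idP S * diagonal S.mu * idP S) = idP S * (d • (diagonal S.mu * idP S)) := by
    rw [Matrix.mul_smul, Matrix.mul_assoc]
  rw [h1, det_one_add_mul_comm, Matrix.smul_mul, Matrix.mul_assoc, idP_mul_self]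
  have h2 : 1 + d • (diagonal S.mu * idP S) = diagonal (fun k => 1 + S.mu k * d) *
      (1 + replicateCol Unit (fun k => -(d * S.mu k * idE S k / (1 + S.mu k * d))) *
        replicateRow Unit (idE S)) := by
    rw [← vecMulVec_eq]
    ext k k'
    have : 1 + d * S.mu k ≠ 0 := mul_comm (S.mu k) d ▸ (S.sp_den_pos k hd).ne'
    simp only [idP, Matrix.add_apply, Matrix.smul_apply, diagonal_mul, Matrix.sub_apply,
      Matrix.one_apply, vecMulVec_apply, smul_eq_mul]
    split_ifs <;> field_simp <;> ring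
  rw [h2, det_mul, det_diagonal, det_one_add_replicateCol_mul_replicateRow]
  congr 1
  have h3 : ∀ k, idE S k * -(d * S.mu k * idE S k / (1 + S.mu k * d)) =
      S.ρ k / (1 + S.mu k * d) - S.ρ k := fun k => by
    have := (S.sp_den_pos k hd).ne'
    have : 1 + d * S.mu k ≠ 0 := mul_comm (S.mu k) d ▸ (S.sp_den_pos k hd).ne'
    rw [← idE_sq S k]
    field_simp
    ring
  simp only [dotProduct, h3, sum_sub_distrib, S.ρ_sum]
  ring

omit [DecidableEq κ] in
lemma id_psi2 {d : ℝ} (hd : 0 ≤ d) : S.psi2 0 d = S.lam S.k1 -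
    (∑ k, S.ρ k * S.mu k / (1 + S.mu k * d)) / ∑ k, S.ρ k / (1 + S.mu k * d) := by
  have h := S.Rh_eq (S.sp_Gam_nonneg hd)
  rwa [Spec.Rh, S.yv_Gam hd] at h

end PMP

theorem diag_PMP (S : Spec κ) : ∃ (O : Orth κ) (α β : κ → ℝ), (∀ k, 0 ≤ α k) ∧
    (∀ (ε : ℝ) (τ : κ → ℝ), ∑ k, S.mu k * (Real.sqrt (S.ρ k) * ε + ∑ k',
        ((if k = k' then 1 else 0) - Real.sqrt (S.ρ k) * Real.sqrt (S.ρ k')) * τ k') ^ 2 =
      ε ^ 2 * ∑ k, S.ρ k * S.mu k + 2 * ε * ∑ k, β k * (O.1 *ᵥ τ) k +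
        ∑ k, α k * (O.1 *ᵥ τ) k ^ 2) ∧
    (∀ d, 0 ≤ d → ∑ k, Real.log (1 + α k * d) =
      ∑ k, Real.log (1 + S.mu k * d) + Real.log (∑ k, S.ρ k / (1 + S.mu k * d))) ∧
    ∀ d, 0 ≤ d → ∑ k, β k ^ 2 * (d / (1 + α k * d)) = S.psi2 0 d - S.psi2 0 0 := by
  obtain ⟨O, α, hα, hO⟩ := id_diag (idA_psd S)
  have hOA : ∀ v : κ → ℝ, ∀ k,
      (O.1 *ᵥ ((idP S * diagonal S.mu * idP S) *ᵥ v)) k = α k * (O.1 *ᵥ v) k := fun v k => by
    rw [mulVec_mulVec, hO, ← mulVec_mulVec, mulVec_diagonal]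
  refine ⟨O, α, O.1 *ᵥ (idP S *ᵥ fun k => S.mu k * idE S k), hα, fun ε τ => ?_, fun d hd => ?_,
    fun d hd => ?_⟩
  · have h1 : ∑ k, (O.1 *ᵥ (idP S *ᵥ fun k => S.mu k * idE S k)) k * (O.1 *ᵥ τ) k =
        ∑ k, S.mu k * idE S k * (idP S *ᵥ τ) k := by
      have := O.dot_mulVec (idP S *ᵥ fun k => S.mu k * idE S k) τ
      rw [← idP_dot] at this
      exact this
    have h2 : ∑ k, α k * (O.1 *ᵥ τ) k ^ 2 = ∑ k, S.mu k * (idP S *ᵥ τ) k ^ 2 := by
      have := O.dot_mulVec τ ((idP S * diagonal S.mu * idP S) *ᵥ τ)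
      conv at this => rhs; rw [← mulVec_mulVec, ← mulVec_mulVec, idP_dot]
      simp only [dotProduct, hOA, mulVec_diagonal] at this
      convert this using 2 <;> ring
    rw [h1, h2, mul_sum, mul_sum, ← sum_add_distrib, ← sum_add_distrib]
    refine sum_congr rfl fun k _ => ?_
    rw [← idP_apply]
    change S.mu k * (idE S k * ε + _) ^ 2 = _
    rw [← idE_sq S k]
    ring
  · have hdet : det (1 + d • (idP S * diagonal S.mu * idP S)) = ∏ k, (1 + α k * d) := by
      have h1 : O.1 * (1 + d • (idP S * diagonal S.mu * idP S)) =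
          diagonal (fun k => 1 + α k * d) * O.1 := by
        rw [Matrix.mul_add, Matrix.mul_one, Matrix.mul_smul, hO]
        ext k k'
        simp only [Matrix.add_apply, Matrix.smul_apply, diagonal_mul, smul_eq_mul]
        ring
      have h2 : det O.1 ≠ 0 := fun h => by
        have := congrArg det O.mul_transpose
        rw [det_mul, h, zero_mul, det_one] at this
        exact zero_ne_one this
      have h3 := congrArg det h1
      rw [det_mul, det_mul, det_diagonal, mul_comm] at h3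
      exact mul_right_cancel₀ h2 h3
    have hp : ∀ k, 0 < 1 + α k * d := fun k => by have := mul_nonneg (hα k) hd; linarith
    rw [← Real.log_prod fun k _ => (hp k).ne', ← hdet, id_det S hd,
      Real.log_mul (prod_pos fun k _ => S.sp_den_pos k hd).ne' (id_gam_pos S hd).ne',
      Real.log_prod fun k _ => (S.sp_den_pos k hd).ne']
  · have hg := id_gam_pos S hd
    set γ := ∑ k, S.ρ k / (1 + S.mu k * d) with hγ
    set w : κ → ℝ := fun k => idE S k - idE S k / (1 + S.mu k * d) / γ with hw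
    have hew : idE S ⬝ᵥ w = 0 := by
      have : ∀ k, idE S k * w k = S.ρ k - S.ρ k / (1 + S.mu k * d) / γ := fun k => by
        rw [← idE_sq S k]; simp only [hw]; ring
      simp only [dotProduct, this, sum_sub_distrib, ← sum_div, S.ρ_sum]
      rw [← hγ, div_self hg.ne', sub_self]
    have hPw : idP S *ᵥ w = w := by rw [idP_mulVec, hew, zero_smul, sub_zero]
    have hAw : w + d • ((idP S * diagonal S.mu * idP S) *ᵥ w) =
        d • (idP S *ᵥ fun k => S.mu k * idE S k) := by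
      rw [← mulVec_mulVec, ← mulVec_mulVec, hPw]
      conv_lhs => enter [1]; rw [← hPw]
      rw [← mulVec_smul, ← mulVec_add]
      have h1 : w + d • (diagonal S.mu *ᵥ w) =
          (1 - γ⁻¹) • idE S + d • fun k => S.mu k * idE S k := by
        funext k
        have := (S.sp_den_pos k hd).ne'
        simp only [Pi.add_apply, Pi.smul_apply, mulVec_diagonal, smul_eq_mul, hw]
        field_simp
        ring
      rw [h1, mulVec_add, mulVec_smul, idP_E, smul_zero, zero_add, mulVec_smul]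
    have h2 : ∀ k, (O.1 *ᵥ (idP S *ᵥ fun k => S.mu k * idE S k)) k ^ 2 * (d / (1 + α k * d)) =
        (O.1 *ᵥ (idP S *ᵥ fun k => S.mu k * idE S k)) k * (O.1 *ᵥ w) k := fun k => by
      have h3 := congrFun (congrArg (O.1 *ᵥ ·) hAw) k
      simp only [mulVec_add, mulVec_smul, Pi.add_apply, Pi.smul_apply, smul_eq_mul, hOA] at h3
      have hp : 1 + α k * d ≠ 0 := by have := mul_nonneg (hα k) hd; linarith
      rw [← mul_div_assoc, div_eq_iff hp]
      linear_combination -(O.1 *ᵥ (idP S *ᵥ fun k => S.mu k * idE S k)) k * h3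
    simp only [h2]
    have h4 := O.dot_mulVec (idP S *ᵥ fun k => S.mu k * idE S k) w
    rw [← idP_dot, hPw] at h4
    rw [id_psi2 S hd, id_psi2 S le_rfl]
    simp only [mul_zero, add_zero, div_one, S.ρ_sum]
    refine h4.trans ?_
    have : ∀ k, S.mu k * idE S k * w k =
        S.ρ k * S.mu k - S.ρ k * S.mu k / (1 + S.mu k * d) / γ := fun k => by
      rw [← idE_sq S k]; simp only [hw]; ring
    simp only [dotProduct, this, sum_sub_distrib, ← sum_div]
    ring

variable {R : ℕ} [NeZero R] {q : ℕ → ℝ}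

/-- `Σ_l (log (1 + μ_k y_{l+1}) - log (1 + μ_k y_l)) / a_l`. -/
noncomputable def lgs (S : Spec κ) (R : ℕ) (q : ℕ → ℝ) (k : κ) : ℝ :=
  ∑ l ∈ range R, (Real.log (1 + S.mu k * S.yv (Dq (ua R) q (l + 1))) -
    Real.log (1 + S.mu k * S.yv (Dq (ua R) q l))) / ua R l

/-- Regrouping of the cavity level space, with a rotation of the Gaussian block of each spin. -/
noncomputable def idT (O : Orth κ) (y : (C → Bool × ℝ) × (C × κ → ℝ)) (r : C) :
    (Bool × ℝ) × (κ → ℝ) := (y.1 r, O.1 *ᵥ fun k => y.2 (r, k))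

omit [DecidableEq κ] [DecidableEq C] in
lemma id_mp_curry : MeasurePreserving (MeasurableEquiv.curry C κ ℝ)
    (Lev.μ : Measure (C × κ → ℝ)) (Lev.μ : Measure (C → κ → ℝ)) := by
  refine ⟨(MeasurableEquiv.curry C κ ℝ).measurable, ?_⟩
  have h := Measure.infinitePi_map_curry (ι := C) (κ := κ) (fun _ _ => gs)
  simp only [Measure.infinitePi_eq_pi] at h
  exact h

omit [DecidableEq C] in
lemma id_mp_T (O : Orth κ) : MeasurePreserving (idT (C := C) O) Lev.μ Lev.μ := by
  have h1 : MeasurePreserving (Prod.map id (MeasurableEquiv.curry C κ ℝ))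
      (Lev.μ : Measure ((C → Bool × ℝ) × (C × κ → ℝ)))
      (Lev.μ : Measure ((C → Bool × ℝ) × (C → κ → ℝ))) :=
    (MeasurePreserving.id _).prod id_mp_curry
  have h2 : MeasurePreserving (MeasurableEquiv.arrowProdEquivProdArrow (Bool × ℝ) (κ → ℝ) C).symm
      (Lev.μ : Measure ((C → Bool × ℝ) × (C → κ → ℝ)))
      (Lev.μ : Measure (C → (Bool × ℝ) × (κ → ℝ))) :=
    (measurePreserving_arrowProdEquivProdArrow (Bool × ℝ) (κ → ℝ) C (fun _ => Lev.μ)
      (fun _ => Lev.μ)).symm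
  have h3 : MeasurePreserving (Prod.map id fun g : κ → ℝ => O.1 *ᵥ g)
      (Lev.μ : Measure ((Bool × ℝ) × (κ → ℝ))) Lev.μ :=
    (MeasurePreserving.id _).prod (mp_gauss_mulVec O)
  have h4 : MeasurePreserving
      (fun (y : C → (Bool × ℝ) × (κ → ℝ)) r => Prod.map id (fun g : κ → ℝ => O.1 *ᵥ g) (y r))
      (Lev.μ : Measure (C → (Bool × ℝ) × (κ → ℝ))) Lev.μ :=
    measurePreserving_pi _ _ fun _ => h3
  exact h4.comp (h2.comp h1)

omit [NeZero R] [Fintype C] [DecidableEq C] in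
lemma id_tau (O : Orth κ) (c : ℕ → ℝ) (s : St R ((C → Bool × ℝ) × (C × κ → ℝ))) (r : C) (k : κ) :
    tau c (fun i => idT O (s i) r) k = (O.1 *ᵥ fun k' => tau c s (r, k')) k := by
  simp only [tau, idT, mulVec, dotProduct, mul_sum]
  rw [sum_comm]
  exact sum_congr rfl fun _ _ => sum_congr rfl fun _ _ => by ring

omit [DecidableEq C] in
/-- The value of a sum of independent one-spin quadratic cascades, read through `idT`. -/
lemma id_val {a : ℕ → ℝ} (ha : Exps R a) (O : Orth κ) (b : C → ℝ) (uu : C → ℕ → ℝ)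
    {α : C → κ → ℝ} (hα : ∀ r k, 0 ≤ α r k) (β : κ → ℝ) (c : ℕ → ℝ) (K : ℝ) :
    val a (fun s : St R ((C → Bool × ℝ) × (C × κ → ℝ)) =>
      ∑ r, qH (b r) (uu r) (α r) β c (fun i => idT O (s i) r) + K) =
      ∑ r, val a (qH (R := R) (b r) (uu r) (α r) β c) + K := by
  have hG : ∀ r, MU (qH (R := R) (b r) (uu r) (α r) β c) := fun r => mu_qH _ _ (hα r) _ _
  have hH : MU fun t : St R (C → (Bool × ℝ) × (κ → ℝ)) =>
      ∑ r, qH (b r) (uu r) (α r) β c fun i => t i r :=
    MU.sum _ fun r _ => (hG r).comp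
      (Gro.lift (τ := fun _ (y : C → (Bool × ℝ) × (κ → ℝ)) => y r) fun _ => Gro.apply r)
  rw [← val_pi ha hG, ← val_add_const ha hH K]
  exact val_pull (τ := fun _ => idT O) (fun _ => id_mp_T O) (hH.me.meas.add_const K) a

omit [NeZero R] [DecidableEq κ] in
lemma id_dd (S : Spec κ) (hR : 0 < R) (q : ℕ → ℝ) {l : ℕ} (hl : l ≤ R) :
    dd (ua R) (S.dc (ua R) q) l = S.yv (Dq (ua R) q l) := S.sum_dc_mul hR q hl

omit [NeZero R] [DecidableEq κ] in
lemma id_sum_lgs (S : Spec κ) (R : ℕ) (q : ℕ → ℝ) (w : κ → ℝ) : ∑ k, w k * lgs S R q k =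
    ∑ l ∈ range R, (∑ k, w k * (Real.log (1 + S.mu k * S.yv (Dq (ua R) q (l + 1))) -
      Real.log (1 + S.mu k * S.yv (Dq (ua R) q l)))) / ua R l := by
  simp only [lgs, mul_sum, sum_div]
  rw [sum_comm]
  exact sum_congr rfl fun _ _ => sum_congr rfl fun _ _ => by ring

theorem ideal_A (S : Spec κ) (hq : IsOv R q) (b : C → ℝ) (uu : C → ℕ → ℝ)
    (huu : ∀ r l, 0 ≤ uu r l) :
    val (ua R) (HI (R := R) id (CF b uu) (fun α : C × κ => S.mu α.2) (uY (Ys S.ρ)) (PY (Ys S.ρ))
        (S.dc (ua R) q)) + Fintype.card C * S.lam S.k1 / 2 =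
      ∑ r, Ch (ua R) (fun l => S.dv (ua R) q l + uu r l) R (b r) + Fintype.card C *
        (S.Rh 0 / 2 - (∑ l ∈ range R, (S.Lg (Dq (ua R) q (l + 1)) - S.Lg (Dq (ua R) q l)) / ua R l) / 2
          - (∑ k, (1 - S.ρ k) * lgs S R q k) / 2) := by
  have hR : 0 < R := NeZero.pos R
  have ha := exps_ua hR
  obtain ⟨O, α, β, hα, hQ, hL, hB⟩ := diag_PMP S
  have hy : ∀ l ≤ R, 0 ≤ S.yv (Dq (ua R) q l) := fun l hl => S.yv_nonneg (hq.Dq_mem hR hl).1
  have e1 : HI (R := R) id (CF b uu) (fun α : C × κ => S.mu α.2) (uY (Ys S.ρ)) (PY (Ys S.ρ))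
      (S.dc (ua R) q) = fun s => ∑ r, qH (b r) (uu r) α β (S.dc (ua R) q)
        (fun i => idT O (s i) r) + -(Fintype.card C * (∑ k, S.ρ k * S.mu k) / 2) := by
    funext s
    have hu : ∀ r k, uY (Ys S.ρ) (fS s) (r, k) = Real.sqrt (S.ρ k) * cε (fS s) r := fun r k => by
      simp [uY, Ys]
    have hP : ∀ r k, ∑ β, PY (Ys S.ρ) (r, k) β * tau (S.dc (ua R) q) s β =
        ∑ k', ((if k = k' then 1 else 0) - Real.sqrt (S.ρ k) * Real.sqrt (S.ρ k')) *
          tau (S.dc (ua R) q) s (r, k') := fun r k => by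
      rw [Fintype.sum_prod_type, sum_eq_single r]
      · refine sum_congr rfl fun k' _ => ?_
        simp [PY, Ys]
      · intro r' _ hr
        refine sum_eq_zero fun k' _ => ?_
        simp [PY, Ys, hr.symm]
      · simp
    have hW : Wq (fun α : C × κ => S.mu α.2) (uY (Ys S.ρ) (fS s)) (PY (Ys S.ρ))
        (tau (S.dc (ua R) q) s) = -(∑ r, (∑ k, S.ρ k * S.mu k + 2 * cε (fS s) r *
          ∑ k, β k * (O.1 *ᵥ fun k' => tau (S.dc (ua R) q) s (r, k')) k +
          ∑ k, α k * (O.1 *ᵥ fun k' => tau (S.dc (ua R) q) s (r, k')) k ^ 2)) / 2 := by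
      rw [Wq, Fintype.sum_prod_type]
      congr 2
      refine sum_congr rfl fun r _ => ?_
      simp only [hu, hP]
      rw [hQ, show cε (fS s) r ^ 2 = 1 from sp_sq _, one_mul]
    have hc : (Fintype.card C : ℝ) * (∑ k, S.ρ k * S.mu k) = ∑ _r : C, ∑ k, S.ρ k * S.mu k := by
      simp
    rw [HI, id, hW, CF, hc, neg_div, sum_div, sum_div, ← sum_neg_distrib, ← sum_neg_distrib,
      ← sum_add_distrib, ← sum_add_distrib]
    refine sum_congr rfl fun r _ => ?_
    simp only [qH, id_tau]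
    have h1 : osH (b r) (uu r) (fS fun i => idT O (s i) r) = osH (b r) (uu r) fun i => fS s i r :=
      rfl
    have h2 : osε (fS fun i => idT O (s i) r) = cε (fS s) r := rfl
    rw [h1, h2]
    ring
  rw [e1, id_val ha O b uu (α := fun _ => α) (fun _ => hα)]
  have e2 : ∀ r, val (ua R) (qH (R := R) (b r) (uu r) α β (S.dc (ua R) q)) =
      Ch (ua R) (fun l => S.dv (ua R) q l + uu r l) R (b r) -
        ((∑ l ∈ range R, (S.Lg (Dq (ua R) q (l + 1)) - S.Lg (Dq (ua R) q l)) / ua R l) / 2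
          + (∑ k, (1 - S.ρ k) * lgs S R q k) / 2) := fun r => by
    rw [val_qH ha _ (fun l _ => huu r l) (fun l hl => S.dc_nonneg hR hq hl) hα]
    congr 1
    · refine congrFun (Ch_congr (fun _ _ => rfl) fun l hl => ?_) _
      have hal := (ha.pos l hl).ne'
      rw [qv, add_comm, id_dd S hR q hl.le, id_dd S hR q hl, Spec.dv, Spec.Rh, Spec.Rh]
      congr 1
      have h1 := hB _ (hy l hl.le)
      have h2 := hB _ (hy (l + 1) hl)
      rw [← sub_sub_sub_cancel_right _ _ (S.psi2 0 0), ← h1, ← h2, ← sum_sub_distrib, sum_div]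
      refine sum_congr rfl fun k _ => ?_
      have p1 : 1 + α k * S.yv (Dq (ua R) q l) ≠ 0 := by
        have := mul_nonneg (hα k) (hy l hl.le); linarith
      have p2 : 1 + α k * S.yv (Dq (ua R) q (l + 1)) ≠ 0 := by
        have := mul_nonneg (hα k) (hy (l + 1) hl); linarith
      rw [Spec.dc]
      have key : ∀ y y' A B : ℝ, A ≠ 0 → B ≠ 0 → y' * A - y * B = y' - y →
          β k ^ 2 * ((y' - y) / ua R l) / (A * B) =
            (β k ^ 2 * (y' / B) - β k ^ 2 * (y / A)) / ua R l := by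
        intro y y' A B hA hB h
        rw [← h]
        field_simp
      exact key _ _ _ _ p1 p2 (by ring)
    · rw [← add_div, id_sum_lgs, ← sum_add_distrib]
      congr 1
      refine sum_congr rfl fun l hl => ?_
      have hl := mem_range.1 hl
      rw [← add_div, id_dd S hR q hl.le, id_dd S hR q hl, sum_sub_distrib, hL _ (hy l hl.le),
        hL _ (hy (l + 1) hl), Spec.Lg, Spec.Lg]
      simp only [sub_mul, one_mul, mul_sub, sum_sub_distrib]
      ring
  have e3 : S.Rh 0 = S.lam S.k1 - ∑ k, S.ρ k * S.mu k := by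
    rw [S.Rh_zero]
    simp only [Spec.mu, mul_sub, sum_sub_distrib, ← sum_mul, S.ρ_sum]
    ring
  simp only [e2, sum_sub_distrib, sum_const, card_univ, nsmul_eq_mul, e3]
  ring

theorem ideal_B (S : Spec κ) (hq : IsOv R q) (lC : C → κ)
    (hC : ∀ k, (ct lC k : ℝ) = S.ρ k * Fintype.card C) :
    val (ua R) (HI (R := R) id (CF (fun _ : C => 0) fun _ _ => 0)
        (fun α : C × κ => S.mu (if lC α.1 = α.2 then S.k1 else α.2)) (fun _ _ => 0)
        (fun α β => if α = β then 1 else 0) (S.dc (ua R) q)) =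
      -(Fintype.card C * (∑ k, (1 - S.ρ k) * lgs S R q k) / 2) := by
  have hR : 0 < R := NeZero.pos R
  have ha := exps_ua hR
  have e1 : HI (R := R) id (CF (fun _ : C => 0) fun _ _ => 0)
      (fun α : C × κ => S.mu (if lC α.1 = α.2 then S.k1 else α.2)) (fun _ _ => 0)
      (fun α β => if α = β then 1 else 0) (S.dc (ua R) q) =
      fun s => ∑ r, qH 0 (fun _ => 0) (fun k => S.mu (if lC r = k then S.k1 else k)) (fun _ => 0)
        (S.dc (ua R) q) (fun i => idT 1 (s i) r) + 0 := by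
    funext s
    simp only [HI, id, Wq, ite_mul, one_mul, zero_mul, sum_ite_eq, mem_univ, if_true]
    simp only [CF, qH, id_tau, osH, Real.sqrt_zero, zero_mul, sum_const_zero, add_zero,
      mul_zero, zero_add, sub_zero, zero_sub,
      Fintype.sum_prod_type (α₁ := C), OneMemClass.coe_one, one_mulVec, sum_neg_distrib, neg_div,
      sum_div]
  rw [e1, id_val ha 1 (fun _ => 0) (fun _ _ => 0)
    (α := fun r k => S.mu (if lC r = k then S.k1 else k)) (fun _ _ => S.mu_nonneg _), add_zero]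
  have hCh : ∀ n, Ch (ua R) (fun _ => 0) n 0 = 0 := fun n => by
    have : Ch (ua R) (fun _ => 0) n = lc := by
      induction n with
      | zero => exact Ch_zero _ _
      | succ n ih => rw [Ch_succ, gaussOp_zero_var, ih]
    simp [this, lc]
  have e2 : ∀ r, val (ua R) (qH (R := R) 0 (fun _ => 0)
      (fun k => S.mu (if lC r = k then S.k1 else k)) (fun _ => 0) (S.dc (ua R) q)) =
      -((∑ k, lgs S R q k - lgs S R q (lC r)) / 2) := fun r => by
    rw [val_qH ha _ (fun l _ => le_rfl) (fun l hl => S.dc_nonneg hR hq hl) fun _ => S.mu_nonneg _,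
      show qv (ua R) (fun _ => 0) (fun k => S.mu (if lC r = k then S.k1 else k)) (fun _ => 0)
        (S.dc (ua R) q) = fun _ => 0 from funext fun l => by simp [qv], hCh, zero_sub]
    congr 2
    have h1 : ∑ k, lgs S R q k - lgs S R q (lC r) =
        ∑ k, (1 - if lC r = k then 1 else 0) * lgs S R q k := by
      simp [sub_mul, sum_sub_distrib]
    rw [h1, id_sum_lgs]
    refine sum_congr rfl fun l hl => ?_
    have hl := mem_range.1 hl
    rw [id_dd S hR q hl.le, id_dd S hR q hl]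
    congr 1
    refine sum_congr rfl fun k _ => ?_
    split_ifs <;> simp [S.mu_k1]
  have e3 : ∑ r, lgs S R q (lC r) = ∑ k, S.ρ k * Fintype.card C * lgs S R q k := by
    rw [← sum_fiberwise univ lC]
    refine sum_congr rfl fun k _ => ?_
    rw [← hC, ct, sum_congr rfl fun r hr => by rw [(mem_filter.1 hr).2], sum_const, nsmul_eq_mul]
  simp only [e2, sum_neg_distrib, ← sum_div, sum_sub_distrib, e3, sum_const, card_univ,
    nsmul_eq_mul, sub_mul, one_mul, mul_sub, mul_sum]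
  congr 3
  exact sum_congr rfl fun _ _ => by ring

end Crest.Agent.R164
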