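import Crest.Agent.R164.Cav

/-!
# R164 / InterpB: the error estimate of the cavity interpolation (helper31)
-/

set_option autoImplicit false

open MeasureTheory ProbabilityTheory Finset

namespace Crest.Agent.R164

variable {Y : Type} [MeasurableSpace Y] [Lev Y] {R : ℕ} {a : ℕ → ℝ} {β : Type} [Fintype β]
  {H φ F F2 : St R Y → ℝ} {Xv : β → St R Y → ℝ} {n : ℕ}

/-- Pointwise factorisation. -/
lemma it_fact (ha : Exps R a) (hH : ML H) (hX : UV Xv) (hn : n ≤ R) {f : St R Y → ℝ} (hf : ME f)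
    {K : ℝ} (hK : ∀ s, f s ^ 2 ≤ K) (s : St R Y) :
    E a H n f s ^ 2 ≤ K ∧
    |∑ b, E a H n (fun t => Xv b t * f t) s ^ 2 - (∑ b, E a H n (Xv b) s ^ 2) * E a H n f s ^ 2| ≤
      3 * K * Real.sqrt (Real.sqrt (hs a H Xv n s)) := by
  have h1 : E a H n (fun t => f t ^ 2) s ≤ K := by
    have := E_mono ha hH hn (hf.pow 2) (ME.const K) hK s
    rwa [E_const ha hH hn] at this
  have hm : E a H n f s ^ 2 ≤ K := (E_sq_le ha hH hn hf s).trans h1
  refine ⟨hm, ?_⟩
  have hK0 : 0 ≤ K := (sq_nonneg _).trans hm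
  obtain ⟨h2, h3⟩ := hX.hs_mem ha hH hn s
  have h4 : ∑ b, Cov a H n (Xv b) f s ^ 2 ≤ Real.sqrt (hs a H Xv n s) * K :=
    (hX.sum_cov_sq_le ha hH hn hf s).trans (mul_le_mul_of_nonneg_left h1 (Real.sqrt_nonneg _))
  have h5 : ∑ b, E a H n (Xv b) s ^ 2 ≤ 1 := (hX.cond ha hH hn).le_one s
  have h6 := Finset.sum_mul_sq_le_sq_mul_sq univ (fun b => E a H n (Xv b) s)
    fun b => Cov a H n (Xv b) f s
  have h7 : ∑ b, E a H n (fun t => Xv b t * f t) s ^ 2 -
      (∑ b, E a H n (Xv b) s ^ 2) * E a H n f s ^ 2 = ∑ b, Cov a H n (Xv b) f s ^ 2 +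
        2 * (E a H n f s * ∑ b, E a H n (Xv b) s * Cov a H n (Xv b) f s) := by
    rw [Finset.sum_mul, Finset.mul_sum, Finset.mul_sum, ← Finset.sum_sub_distrib,
      ← Finset.sum_add_distrib]
    refine Finset.sum_congr rfl fun b _ => ?_
    unfold Cov
    ring
  rw [h7]
  have hr0 := Real.sqrt_nonneg (Real.sqrt (hs a H Xv n s))
  have hr2 : Real.sqrt (Real.sqrt (hs a H Xv n s)) ^ 2 = Real.sqrt (hs a H Xv n s) :=
    Real.sq_sqrt (Real.sqrt_nonneg _)
  have hr1 : Real.sqrt (Real.sqrt (hs a H Xv n s)) ≤ 1 :=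
    Real.sqrt_le_one.2 (Real.sqrt_le_one.2 h3)
  rw [← hr2] at h4
  have h8 : 0 ≤ ∑ b, Cov a H n (Xv b) f s ^ 2 := Finset.sum_nonneg fun _ _ => sq_nonneg _
  generalize Real.sqrt (Real.sqrt (hs a H Xv n s)) = r at *
  generalize ∑ b, Cov a H n (Xv b) f s ^ 2 = C at *
  generalize ∑ b, E a H n (Xv b) s * Cov a H n (Xv b) f s = p at *
  generalize ∑ b, E a H n (Xv b) s ^ 2 = M at *
  generalize E a H n f s = m at *
  have h9 : p ^ 2 ≤ r ^ 2 * K := by nlinarith
  have h10 : (m * p) ^ 2 ≤ (K * r) ^ 2 := by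
    rw [mul_pow]
    calc m ^ 2 * p ^ 2 ≤ K * (r ^ 2 * K) := mul_le_mul hm h9 (sq_nonneg _) hK0
      _ = (K * r) ^ 2 := by ring
  have h11 := abs_le.1 (abs_le_of_sq_le_sq h10 (mul_nonneg hK0 hr0))
  have h12 : r ^ 2 * K ≤ K * r := by nlinarith [mul_nonneg hK0 hr0]
  refine abs_le.2 ⟨?_, ?_⟩ <;> nlinarith [mul_nonneg hK0 hr0]

lemma it_me_lvl (ha : Exps R a) (hH : ML H) (hX : UV Xv) (hn : n ≤ R) (c : ℝ) :
    ME fun s => |∑ b, E a H n (Xv b) s ^ 2 - c| + Real.sqrt (Real.sqrt (hs a H Xv n s)) :=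
  ((ME.sum univ fun b _ => ((hX.me b).cond ha hH hn).pow 2).sub (ME.const c)).abs.add
    (hX.me_hs ha hH hn).sqrt.sqrt

/-- One level. -/
lemma it_level (ha : Exps R a) (hH : ML H) (hφ : Measurable φ) {L : ℝ}
    (hb : ∀ s, -L - 1 ≤ φ s ∧ φ s ≤ 0) (hX : UV Xv) (hn : n ≤ R) (hF : ME F) {K : ℝ}
    (hK : ∀ s, F s ^ 2 ≤ K) {w B c c' e : ℝ} (hw0 : 0 ≤ w) (hw : w ≤ B) (he : |w * c - c'| ≤ e) :
    |w * ∑ b, EE a (fun t => H t + φ t) (fun t =>
          E a (fun t => H t + φ t) n (fun t => Xv b t * F t) t *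
            E a (fun t => H t + φ t) n (fun t => Xv b t * F t) t) -
        c' * EE a (fun t => H t + φ t) fun t =>
          E a (fun t => H t + φ t) n F t * E a (fun t => H t + φ t) n F t| ≤
      3 * B * K * Real.exp (L + 1) ^ 3 * (EE a H fun s =>
        |∑ b, E a H n (Xv b) s ^ 2 - c| + Real.sqrt (Real.sqrt (hs a H Xv n s))) +
        K * Real.exp (L + 1) ^ 2 * e := by
  have hφ' : ML φ := ML.of_bdd hφ (L + 1) fun s => abs_le.2 ⟨by linarith [(hb s).1], by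
    linarith [(hb s).1, (hb s).2]⟩
  have hH' : ML fun t => H t + φ t := hH.add hφ'
  have hD : ∀ s, dens a H φ n s ≤ Real.exp (L + 1) := fun s =>
    (dens_le ha hH hφ' hn (fun s => (hb s).1) s).trans
      (Real.exp_le_exp.2 (by linarith [(hb s).2]))
  have hf : ME fun t => F t * dens a H φ n t :=
    hF.mul (ME.of_bdd (measurable_dens a hH.meas hφ n) _ fun s => by
      rw [abs_of_pos (dens_pos a H φ n s)]; exact hD s)
  have hK0 : 0 ≤ K := (sq_nonneg _).trans (hK Lev.pt)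
  have hfK : ∀ s, (F s * dens a H φ n s) ^ 2 ≤ K * Real.exp (L + 1) ^ 2 := fun s => by
    rw [mul_pow]
    exact mul_le_mul (hK s) (pow_le_pow_left₀ (dens_pos a H φ n s).le (hD s) 2) (sq_nonneg _) hK0
  have hg := it_me_lvl ha hH hX hn c
  have m1 : ∀ b, ME fun t => E a (fun t => H t + φ t) n (fun t => Xv b t * F t) t *
      E a (fun t => H t + φ t) n (fun t => Xv b t * F t) t := fun b =>
    (((hX.me b).mul hF).cond ha hH' hn).mul (((hX.me b).mul hF).cond ha hH' hn)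
  have m2 : ME fun t => E a (fun t => H t + φ t) n F t * E a (fun t => H t + φ t) n F t :=
    (hF.cond ha hH' hn).mul (hF.cond ha hH' hn)
  have m3 := ((ME.sum univ fun b _ => m1 b).const_mul w).sub (m2.const_mul c')
  rw [← EE_sum univ ha hH' fun b _ => m1 b, ← EE_const_mul, ← EE_const_mul,
    ← EE_sub ha hH' ((ME.sum univ fun b _ => m1 b).const_mul w) (m2.const_mul c')]
  refine (abs_EE_le ha hH' m3).trans ?_
  have hK3 : 0 ≤ K * Real.exp (L + 1) ^ 2 := by positivity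
  have hB : 0 ≤ B := hw0.trans hw
  refine (EE_mono ha hH' m3.abs ((hg.const_mul (3 * B * (K * Real.exp (L + 1) ^ 2))).add
    (ME.const (K * Real.exp (L + 1) ^ 2 * e))) fun s => ?_).trans ?_
  · obtain ⟨h1, h2⟩ := it_fact ha hH hX hn hf hfK s
    simp only [E_dens, ← sq, mul_assoc] at h1 h2 ⊢
    have hr0 := Real.sqrt_nonneg (Real.sqrt (hs a H Xv n s))
    generalize Real.sqrt (Real.sqrt (hs a H Xv n s)) = r at *
    generalize ∑ b, E a H n (fun t => Xv b t * (F t * dens a H φ n t)) s ^ 2 = p at *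
    generalize ∑ b, E a H n (Xv b) s ^ 2 = M at *
    have h0 := sq_nonneg (E a H n (fun t => F t * dens a H φ n t) s)
    generalize E a H n (fun t => F t * dens a H φ n t) s ^ 2 = m at *
    have hE : K * (Real.exp (L + 1) ^ 2 * e) = K * Real.exp (L + 1) ^ 2 * e := by ring
    have hE' : K * (Real.exp (L + 1) ^ 2 * r) = K * Real.exp (L + 1) ^ 2 * r := by ring
    have hE'' : K * (Real.exp (L + 1) ^ 2 * (|M - c| + r)) =
      K * Real.exp (L + 1) ^ 2 * (|M - c| + r) := by ring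
    rw [hE, hE'']
    rw [hE'] at h2
    generalize K * Real.exp (L + 1) ^ 2 = K' at *
    have e1 : w * p - c' * m = w * (p - M * m) + (w * (M - c) + (w * c - c')) * m := by ring
    rw [e1]
    refine (abs_add_le _ _).trans ?_
    rw [abs_mul, abs_mul, abs_of_nonneg hw0, abs_of_nonneg h0]
    have h3 : |w * (M - c) + (w * c - c')| ≤ B * |M - c| + e := by
      refine (abs_add_le _ _).trans (add_le_add ?_ he)
      rw [abs_mul, abs_of_nonneg hw0]
      exact mul_le_mul_of_nonneg_right hw (abs_nonneg _)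
    have h4 := mul_le_mul h3 h1 h0 ((abs_nonneg _).trans h3)
    have h5 := mul_le_mul hw h2 (abs_nonneg _) hB
    have h6 : 0 ≤ B * K' * |M - c| := by positivity
    nlinarith
  · rw [EE_add ha hH' (hg.const_mul _) (ME.const _), EE_const ha hH', EE_const_mul]
    have h1 := EE_le_of_bdd ha hH hφ hb hg fun s => by positivity
    have h2 := mul_le_mul_of_nonneg_left h1 (show 0 ≤ 3 * B * (K * Real.exp (L + 1) ^ 2) by
      positivity)
    rw [show 0 - (-L - 1) = L + 1 by ring] at h2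
    nlinarith

/-- The level `0` term. -/
lemma it_zero (ha : Exps R a) (hH : ML H) (hφ : Measurable φ) {L : ℝ}
    (hb : ∀ s, -L - 1 ≤ φ s ∧ φ s ≤ 0) (hX : UV Xv) (hF : ME F) (hF2 : ME F2) {K : ℝ}
    (hK : ∀ s, |F2 s + F s ^ 2| ≤ K) {w B c c' e : ℝ} (hw0 : 0 ≤ w) (hw : w ≤ B)
    (he : |w * c - c'| ≤ e) :
    |w * ∑ b, (EE a (fun t => H t + φ t) (fun t => Xv b t * (Xv b t * F2 t)) +
          EE a (fun t => H t + φ t) fun t => Xv b t * F t * (Xv b t * F t)) -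
        c' * (EE a (fun t => H t + φ t) F2 + EE a (fun t => H t + φ t) fun t => F t * F t)| ≤
      B * K * Real.exp (L + 1) * (EE a H fun s => |∑ b, Xv b s ^ 2 - c|) + K * e := by
  have hφ' : ML φ := ML.of_bdd hφ (L + 1) fun s => abs_le.2 ⟨by linarith [(hb s).1], by
    linarith [(hb s).1, (hb s).2]⟩
  have hH' : ML fun t => H t + φ t := hH.add hφ'
  have hg : ME fun s => |∑ b, Xv b s ^ 2 - c| :=
    ((ME.sum univ fun b _ => (hX.me b).pow 2).sub (ME.const c)).abs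
  have m1 : ∀ b, ME fun t => Xv b t * (Xv b t * F2 t) := fun b => (hX.me b).mul ((hX.me b).mul hF2)
  have m2 : ∀ b, ME fun t => Xv b t * F t * (Xv b t * F t) := fun b =>
    ((hX.me b).mul hF).mul ((hX.me b).mul hF)
  have m3 := (ME.sum univ fun b _ => (m1 b).add (m2 b)).const_mul w
  have m4 := (hF2.add (hF.mul hF)).const_mul c'
  have hK0 : 0 ≤ K := (abs_nonneg _).trans (hK Lev.pt)
  have hB : 0 ≤ B := hw0.trans hw
  rw [Finset.sum_congr rfl fun b _ => (EE_add ha hH' (m1 b) (m2 b)).symm,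
    ← EE_add ha hH' hF2 (hF.mul hF), ← EE_sum univ ha hH' fun b _ => (m1 b).add (m2 b),
    ← EE_const_mul, ← EE_const_mul, ← EE_sub ha hH' m3 m4]
  refine (abs_EE_le ha hH' (m3.sub m4)).trans ?_
  refine (EE_mono ha hH' (m3.sub m4).abs ((hg.const_mul (B * K)).add
    (ME.const (K * e))) fun s => ?_).trans ?_
  · have e1 : w * ∑ b, (Xv b s * (Xv b s * F2 s) + Xv b s * F s * (Xv b s * F s)) -
        c' * (F2 s + F s * F s) =
        (w * (∑ b, Xv b s ^ 2 - c) + (w * c - c')) * (F2 s + F s ^ 2) := by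
      have : ∑ b, (Xv b s * (Xv b s * F2 s) + Xv b s * F s * (Xv b s * F s)) =
          (∑ b, Xv b s ^ 2) * (F2 s + F s ^ 2) := by
        rw [Finset.sum_mul]
        exact Finset.sum_congr rfl fun b _ => by ring
      rw [this]
      ring
    rw [e1, abs_mul]
    have h3 : |w * (∑ b, Xv b s ^ 2 - c) + (w * c - c')| ≤ B * |∑ b, Xv b s ^ 2 - c| + e := by
      refine (abs_add_le _ _).trans (add_le_add ?_ he)
      rw [abs_mul, abs_of_nonneg hw0]
      exact mul_le_mul_of_nonneg_right hw (abs_nonneg _)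
    have h4 := mul_le_mul h3 (hK s) (abs_nonneg _) ((abs_nonneg _).trans h3)
    linarith
  · rw [EE_add ha hH' (hg.const_mul _) (ME.const _), EE_const ha hH', EE_const_mul]
    have h1 := EE_le_of_bdd ha hH hφ hb hg fun s => abs_nonneg _
    have h2 := mul_le_mul_of_nonneg_left h1 (mul_nonneg hB hK0)
    rw [show 0 - (-L - 1) = L + 1 by ring] at h2
    nlinarith

lemma it_swap (dc Q : ℕ → ℝ) (R : ℕ) :
    ∑ l ∈ range R, dc l * ∑ i ∈ range l, Q i =
      ∑ i ∈ range (R - 1), (∑ l ∈ Ico (i + 1) R, dc l) * Q i := by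
  induction R with
  | zero => simp
  | succ R ih =>
    have h : ∀ i ∈ range R, (∑ l ∈ Ico (i + 1) (R + 1), dc l) * Q i =
        (∑ l ∈ Ico (i + 1) R, dc l) * Q i + dc R * Q i := fun i hi => by
      rw [Finset.sum_Ico_succ_top (show i + 1 ≤ R from Finset.mem_range.1 hi), add_mul]
    rw [Finset.sum_range_succ, ih, Nat.add_sub_cancel, Finset.mul_sum, Finset.sum_congr rfl h,
      Finset.sum_add_distrib]
    congr 1
    rcases R with _ | R
    · simp
    · rw [Nat.add_sub_cancel, Finset.sum_range_succ]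
      simp

lemma it_alg (dc Δ q : ℕ → ℝ) (R : ℕ) (w u v : ℝ) (U V : β → ℝ) (Q : β → ℕ → ℝ) :
    w * ∑ b, (U b + (V b - ∑ i ∈ range (R - 1), Δ i * Q b i)) -
        ∑ l ∈ range R, dc l * (u + (v - ∑ i ∈ range l, Δ i * q i)) =
      (w * ∑ b, (U b + V b) - (∑ l ∈ Ico 0 R, dc l) * (u + v)) -
        ∑ i ∈ range (R - 1), Δ i * (w * ∑ b, Q b i - (∑ l ∈ Ico (i + 1) R, dc l) * q i) := by
  have h1 : ∑ l ∈ range R, dc l * (u + (v - ∑ i ∈ range l, Δ i * q i)) =
      (∑ l ∈ Ico 0 R, dc l) * (u + v) - ∑ l ∈ range R, dc l * ∑ i ∈ range l, Δ i * q i := by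
    rw [← Finset.range_eq_Ico, Finset.sum_mul, ← Finset.sum_sub_distrib]
    exact Finset.sum_congr rfl fun _ _ => by ring
  have h2 : ∑ b, (U b + (V b - ∑ i ∈ range (R - 1), Δ i * Q b i)) =
      ∑ b, (U b + V b) - ∑ i ∈ range (R - 1), Δ i * ∑ b, Q b i := by
    simp only [Finset.mul_sum]
    rw [Finset.sum_comm, ← Finset.sum_sub_distrib]
    exact Finset.sum_congr rfl fun _ _ => by ring
  have h3 : ∑ i ∈ range (R - 1), Δ i * (w * ∑ b, Q b i - (∑ l ∈ Ico (i + 1) R, dc l) * q i) =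
      w * ∑ i ∈ range (R - 1), Δ i * ∑ b, Q b i -
        ∑ i ∈ range (R - 1), (∑ l ∈ Ico (i + 1) R, dc l) * (Δ i * q i) := by
    rw [Finset.mul_sum (s := range (R - 1)), ← Finset.sum_sub_distrib]
    exact Finset.sum_congr rfl fun _ _ => by ring
  rw [h1, h2, h3, it_swap]
  ring

lemma cavErr_nonneg (ha : Exps R a) (H : St R Y → ℝ) (Xv : β → St R Y → ℝ) (c : ℕ → ℝ) :
    0 ≤ cavErr a H Xv c :=
  add_nonneg (EE_nonneg a H fun _ => abs_nonneg _) (Finset.sum_nonneg fun i _ =>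
    mul_nonneg (sub_nonneg.2 (ha.anti (Nat.le_succ i))) (EE_nonneg a H fun _ => by positivity))

/-- The estimate of `I - J`. -/
lemma it_est (hR : 0 < R) (ha : Exps R a) (hH : ML H) (hφ : Measurable φ) {L : ℝ} (hL : 0 ≤ L)
    (hb : ∀ s, -L - 1 ≤ φ s ∧ φ s ≤ 0) (hX : UV Xv) (hF : ME F) (hF2 : ME F2) {K : ℝ}
    (hK : ∀ s, F s ^ 2 ≤ K) (hK' : ∀ s, |F2 s + F s ^ 2| ≤ K) {w B e : ℝ} {c dc : ℕ → ℝ}
    (hw0 : 0 ≤ w) (hw : w ≤ B) (hB : 1 ≤ B)
    (he : ∀ i < R, |w * c i - ∑ l ∈ Ico i R, dc l| ≤ e) :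
    |w * ∑ b, (EE a (fun t => H t + φ t) (fun t => Xv b t * (Xv b t * F2 t)) +
          Ct a (fun t => H t + φ t) (R - 1) (fun t => Xv b t * F t) fun t => Xv b t * F t) -
        ∑ l ∈ range R, dc l * (EE a (fun t => H t + φ t) F2 + Ct a (fun t => H t + φ t) l F F)| ≤
      3 * B * K * Real.exp (L + 1) ^ 3 * (cavErr a H Xv c + e) := by
  have h0 := it_zero ha hH hφ hb hX hF hF2 hK' hw0 hw (he 0 hR)
  have h1 := fun i (hi : i ∈ range (R - 1)) => it_level ha hH hφ hb hX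
    (show i + 1 ≤ R by have := Finset.mem_range.1 hi; omega) hF hK hw0 hw
    (he (i + 1) (by have := Finset.mem_range.1 hi; omega))
  have hΔ : ∀ i, 0 ≤ a i - a (i + 1) := fun i => sub_nonneg.2 (ha.anti (Nat.le_succ i))
  have h2 := Finset.sum_le_sum fun i hi => mul_le_mul_of_nonneg_left (h1 i hi) (hΔ i)
  have h3 := tay_weights ha (Nat.sub_le R 1)
  have hK0 : 0 ≤ K := (sq_nonneg _).trans (hK Lev.pt)
  have he0 : 0 ≤ e := (abs_nonneg _).trans (he 0 hR)
  have hD : 1 ≤ Real.exp (L + 1) := Real.one_le_exp (by linarith)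
  have hg0 : 0 ≤ EE a H fun s => |∑ b, Xv b s ^ 2 - c 0| := EE_nonneg a H fun _ => abs_nonneg _
  unfold Ct
  rw [it_alg]
  refine (abs_sub _ _).trans ?_
  have h5 : ∀ G : ℕ → ℝ, |∑ i ∈ range (R - 1), (a i - a (i + 1)) * G i| ≤
      ∑ i ∈ range (R - 1), (a i - a (i + 1)) * |G i| := fun G =>
    (Finset.abs_sum_le_sum_abs _ _).trans_eq
      (Finset.sum_congr rfl fun i _ => by rw [abs_mul, abs_of_nonneg (hΔ i)])
  refine (add_le_add h0 ((h5 _).trans h2)).trans ?_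
  have h6 : ∀ (G : ℕ → ℝ) (x y : ℝ), ∑ i ∈ range (R - 1), (a i - a (i + 1)) * (x * G i + y) =
      x * ∑ i ∈ range (R - 1), (a i - a (i + 1)) * G i +
        y * ∑ i ∈ range (R - 1), (a i - a (i + 1)) := fun G x y => by
    rw [Finset.mul_sum, Finset.mul_sum, ← Finset.sum_add_distrib]
    exact Finset.sum_congr rfl fun _ _ => by ring
  rw [h6, cavErr]
  generalize (EE a H fun s => |∑ b, Xv b s ^ 2 - c 0|) = g0 at *
  generalize ∑ i ∈ range (R - 1), (a i - a (i + 1)) = t at *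
  generalize Real.exp (L + 1) = D at *
  have hD2 : D ≤ D ^ 3 := le_self_pow₀ hD (by norm_num)
  have hD3 : D ^ 2 ≤ D ^ 3 := pow_le_pow_right₀ hD (by norm_num)
  have hD4 : D ^ 3 ≤ B * D ^ 3 := le_mul_of_one_le_left (by positivity) hB
  have h7 : B * K * D * g0 ≤ 3 * B * K * D ^ 3 * g0 := by
    refine mul_le_mul_of_nonneg_right ?_ hg0
    nlinarith [mul_le_mul_of_nonneg_left hD2 (show 0 ≤ B * K by positivity),
      show 0 ≤ B * K * D ^ 3 by positivity]
  have h8 : K * D ^ 2 * e * t ≤ K * D ^ 2 * e := mul_le_of_le_one_right (by positivity) h3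
  have h9 : K * e * (1 + D ^ 2) ≤ K * e * (3 * (B * D ^ 3)) :=
    mul_le_mul_of_nonneg_left (by nlinarith) (by positivity)
  nlinarith

end Crest.Agent.R164
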