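import Crest.Agent.R164.InterpA
import Crest.Agent.R164.InterpB

/-!
# R164 / Interp: Gaussian interpolation between the real and the ideal cavity fields

Work on `Y = ((A → β → ℝ) × (Y₀ × Y₁)) × (A → ℝ)` with
`τ^θ_α = sin θ ζ_α + cos θ τ_α`, `ζ_α = ω Σ_b G_{αb} X_b` (`G` read at level `lst`),
`τ_α = Σ_l √(dc l) z_{l,α}`, `H_θ = H₀ + H₁ + χ (W τ^θ)`.  At `θ = π/2` the value is that of `HG`
(`val_fS`), at `θ = 0` it is `val H₀ + val (HI χ …)` (`val_pull` along the measure preserving map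
`((G,(y₀,y₁)),z) ↦ (y₀,(y₁,z))`, `val_prod`).
Let `w_γ = u_γ + Σ P_{γβ} τ^θ_β`, `W_α = ∂W/∂τ_α = -Σ_γ μ_γ w_γ P_{γα}`, `W_{αα} = -Σ_γ μ_γ P_{γα}²`,
`F_α = χ'(W) W_α`, `F_{αα} = χ''(W) W_α² + χ'(W) W_{αα}`.  As `W_α² ≤ 2 |W| Σ μ P² ≤ 2 B⁴ |W|` and
`χ', χ''` vanish for `W ≤ -L-1`, both are bounded by a constant `K(L,B)`.
`hasDerivAt_val` on `Ioo (-1) 2`: derivative `Σ_α EE (F_α (cos θ ζ_α - sin θ τ_α))`.  `ibp` along
`G_{αb}` (level `lst`, derivative of `τ^θ_α` is `sin θ ω X_b`) and along `z_{l,α}` (derivative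
`cos θ √(dc l)`) gives `sin θ cos θ Σ_α (I_α - J_α)` with
`I_α = ω² (EE (|X|² (F_{αα} + F_α²)) - Σ_{i=1}^{R-1} Δ_i Σ_b EE (E i (X_b F_α))²)`,
`J_α = c'_0 EE (F_{αα} + F_α²) - Σ_{i=1}^{R-1} Δ_i c'_i EE (E i F_α)²`, `c'_i = Σ_{l ≥ i} dc l`
(exchange the sums over `l` and `i`).  Pass to the base cascade `H₀ + H₁` by `E_dens`, `dens_le`,
`EE_le_of_bdd` (densities `≤ exp (L+1)`): with `f = F_α * dens`, `E i (X_b f) = M_b E i f + Cov`,
`|Σ_b (E i (X_b f))² - |M|² (E i f)²| ≤ 3 ‖f‖² √√hs` (`UV.sum_cov_sq_le`, `hs ≤ 1`).  In the base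
cascade `E i X_b`, `hs` and the `EE` of functions of them are those of `H₀` (`E_pull`,
`E_prod_fst`).  Finish with the mean value inequality on `[0, π/2]`.
-/

set_option autoImplicit false

open MeasureTheory ProbabilityTheory Finset Matrix

namespace Crest.Agent.R164

/-- Gaussian cavity coordinates built from the observable `Xv`. -/
noncomputable def zG {Y₀ A β : Type} [Fintype β] {R : ℕ} (ω : ℝ) (Xv : β → St R Y₀ → ℝ)
    (G : A → β → ℝ) (s : St R Y₀) (α : A) : ℝ := ω * ∑ b, G α b * Xv b s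

section aux
variable {Y₀ Y₁ A β : Type} [MeasurableSpace Y₀] [Lev Y₀] [MeasurableSpace Y₁] [Lev Y₁] [Fintype A]
  [DecidableEq A] [Fintype β] [DecidableEq β] {R : ℕ} {a : ℕ → ℝ}

/-- The level space of the interpolation. -/
abbrev ItY (Y₀ Y₁ A β : Type) : Type := ((A → β → ℝ) × (Y₀ × Y₁)) × (A → ℝ)

/-- The base components. -/
def itP (s : St R (ItY Y₀ Y₁ A β)) : St R (Y₀ × Y₁) := lift (fun _ y => y.1.2) s

/-- Translation of `G α b`. -/
noncomputable def itdG (Y₀ Y₁ : Type) [MeasurableSpace Y₀] [Lev Y₀] [MeasurableSpace Y₁] [Lev Y₁]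
    (α : A) (b : β) : Dir (ItY Y₀ Y₁ A β) :=
  Dir.fst (Dir.fst (Dir.pi α (Dir.pi b Dir.real)) _) _

/-- Translation of `z α`. -/
noncomputable def itdz (Y₀ Y₁ β : Type) [MeasurableSpace Y₀] [Lev Y₀] [MeasurableSpace Y₁] [Lev Y₁]
    [Fintype β] (α : A) : Dir (ItY Y₀ Y₁ A β) := Dir.snd _ (Dir.pi α Dir.real)

omit [DecidableEq A] [DecidableEq β] in
lemma gro_itP : Gro (itP : St R (ItY Y₀ Y₁ A β) → St R (Y₀ × Y₁)) :=
  Gro.lift (τ := fun _ (y : ItY Y₀ Y₁ A β) => y.1.2) fun _ => Gro.snd.comp Gro.fst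

lemma itP_dG (α : A) (b : β) (l : Fin R) (θ : ℝ) (s : St R (ItY Y₀ Y₁ A β)) :
    itP (act (itdG Y₀ Y₁ α b) l θ s) = itP s := by
  funext i
  by_cases h : i = l
  · subst h; simp only [itP, lift, act_self]; rfl
  · simp only [itP, lift, act_ne _ h]

lemma tau_dG (dc : ℕ → ℝ) (α : A) (b : β) (l : Fin R) (θ : ℝ) (s : St R (ItY Y₀ Y₁ A β)) :
    tau dc (act (itdG Y₀ Y₁ α b) l θ s) = tau dc s := by
  funext γ
  refine Finset.sum_congr rfl fun i _ => ?_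
  by_cases h : i = l
  · subst h; rw [act_self]; rfl
  · rw [act_ne _ h]

lemma zG_dG (ω : ℝ) (Xv : β → St R Y₀ → ℝ) (α : A) (b : β) (l : Fin R) (θ : ℝ)
    (s : St R (ItY Y₀ Y₁ A β)) (t : St R Y₀) (γ : A) :
    zG ω Xv (act (itdG Y₀ Y₁ α b) l θ s l).1.1 t γ =
      zG ω Xv (s l).1.1 t γ + θ * if γ = α then ω * Xv b t else 0 := by
  rw [act_self]
  change ω * ∑ c, Function.update (s l).1.1 α
    (Function.update ((s l).1.1 α) b ((s l).1.1 α b + θ)) γ c * Xv c t = _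
  by_cases h : γ = α
  · subst h
    have : ∀ c, Function.update ((s l).1.1 γ) b ((s l).1.1 γ b + θ) c * Xv c t =
        (s l).1.1 γ c * Xv c t + if c = b then θ * Xv b t else 0 := fun c => by
      by_cases hc : c = b
      · subst hc; simp [add_mul]
      · simp [hc]
    simp only [Function.update_self, this, Finset.sum_add_distrib, Finset.sum_ite_eq',
      Finset.mem_univ, if_true, zG]
    ring
  · simp [h, zG]

omit [DecidableEq β] in
lemma fst_dz (α : A) (l i : Fin R) (θ : ℝ) (s : St R (ItY Y₀ Y₁ A β)) :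
    (act (itdz Y₀ Y₁ β α) l θ s i).1 = (s i).1 := by
  by_cases h : i = l
  · subst h; rw [act_self]; rfl
  · rw [act_ne _ h]

omit [DecidableEq β] in
lemma itP_dz (α : A) (l : Fin R) (θ : ℝ) (s : St R (ItY Y₀ Y₁ A β)) :
    itP (act (itdz Y₀ Y₁ β α) l θ s) = itP s := by
  funext i
  simp only [itP, lift, fst_dz]

omit [DecidableEq β] in
lemma tau_dz (dc : ℕ → ℝ) (α : A) (l : Fin R) (θ : ℝ) (s : St R (ItY Y₀ Y₁ A β)) (γ : A) :
    tau dc (act (itdz Y₀ Y₁ β α) l θ s) γ =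
      tau dc s γ + θ * if γ = α then Real.sqrt (dc l) else 0 := by
  have : ∀ i : Fin R, Real.sqrt (dc i) * (act (itdz Y₀ Y₁ β α) l θ s i).2 γ =
      Real.sqrt (dc i) * (s i).2 γ +
        if i = l then θ * if γ = α then Real.sqrt (dc l) else 0 else 0 := fun i => by
    by_cases h : i = l
    · subst h
      rw [act_self]
      change _ * Function.update (s i).2 α ((s i).2 α + θ) γ = _
      by_cases hγ : γ = α
      · subst hγ; simp; ring
      · simp [hγ]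
    · simp [act_ne _ h, h]
  simp only [tau, this, Finset.sum_add_distrib, Finset.sum_ite_eq', Finset.mem_univ, if_true]

variable {H₀ : St R Y₀ → ℝ} {H₁ : St R Y₁ → ℝ} {Xv : β → St R Y₀ → ℝ}

omit [DecidableEq A] [DecidableEq β] in
lemma it_ml_base (h₀ : ML H₀) (h₁ : ML H₁) :
    ML fun s : St R (ItY Y₀ Y₁ A β) => H₀ (fS (itP s)) + H₁ (sS (itP s)) :=
  (h₀.comp (gro_fS.comp gro_itP)).add (h₁.comp (gro_sS.comp gro_itP))

omit [DecidableEq A] [DecidableEq β] in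
lemma it_E_base (ha : Exps R a) (h₀ : ML H₀) (h₁ : ML H₁) {n : ℕ} (hn : n ≤ R) {ψ : St R Y₀ → ℝ}
    (hψ : Measurable ψ) (s : St R (ItY Y₀ Y₁ A β)) :
    E a (fun s => H₀ (fS (itP s)) + H₁ (sS (itP s))) n (fun s => ψ (fS (itP s))) s =
      E a H₀ n ψ (fS (itP s)) := by
  have hτ : ∀ _ : Fin R, MeasurePreserving (fun y : ItY Y₀ Y₁ A β => y.1.2) Lev.μ Lev.μ := fun _ =>
    measurePreserving_snd.comp measurePreserving_fst
  rw [← E_prod_fst ha h₀.mu h₁.mu hn ψ]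
  exact E_pull (H := fun t => H₀ (fS t) + H₁ (sS t)) (ψ := fun t => ψ (fS t)) hτ
    ((h₀.comp gro_fS).add (h₁.comp gro_sS)).meas (hψ.comp gro_fS.meas) a n s

omit [DecidableEq A] [DecidableEq β] in
lemma it_EE_base (ha : Exps R a) (h₀ : ML H₀) (h₁ : ML H₁) {ψ : St R Y₀ → ℝ} (hψ : Measurable ψ) :
    EE a (fun s : St R (ItY Y₀ Y₁ A β) => H₀ (fS (itP s)) + H₁ (sS (itP s)))
      (fun s => ψ (fS (itP s))) = EE a H₀ ψ := by
  rw [EE, it_E_base ha h₀ h₁ le_rfl hψ, E_top]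

omit [DecidableEq A] [DecidableEq β] in
lemma it_cavErr (ha : Exps R a) (h₀ : ML H₀) (h₁ : ML H₁) (hX : UV Xv) (c : ℕ → ℝ) :
    cavErr a (fun s : St R (ItY Y₀ Y₁ A β) => H₀ (fS (itP s)) + H₁ (sS (itP s)))
      (fun b s => Xv b (fS (itP s))) c = cavErr a H₀ Xv c := by
  unfold cavErr
  congr 1
  · exact it_EE_base ha h₀ h₁ (ψ := fun s => |∑ b, Xv b s ^ 2 - c 0|)
      ((ME.sum univ fun b _ => (hX.me b).pow 2).sub (ME.const _)).abs.meas
  · refine Finset.sum_congr rfl fun i hi => ?_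
    have hi' : i + 1 ≤ R := by have := Finset.mem_range.1 hi; omega
    rw [← it_EE_base (A := A) (β := β) ha h₀ h₁ (it_me_lvl ha h₀ hX hi' (c (i + 1))).meas]
    congr 2
    funext s
    simp only [hs, Cov, it_E_base ha h₀ h₁ hi' (hX.meas _),
      it_E_base ha h₀ h₁ hi' (ψ := fun t => Xv _ t * Xv _ t) ((hX.meas _).mul (hX.meas _))]

variable [NeZero R]

/-- The interpolating cavity field. -/
noncomputable def itT (ω : ℝ) (Xv : β → St R Y₀ → ℝ) (dc : ℕ → ℝ) (θ : ℝ)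
    (s : St R (ItY Y₀ Y₁ A β)) (α : A) : ℝ :=
  Real.sin θ * zG ω Xv (s (lst R)).1.1 (fS (itP s)) α + Real.cos θ * tau dc s α

omit [DecidableEq A] [DecidableEq β] in
lemma it_me_G (α : A) (b : β) : ME fun s : St R (ItY Y₀ Y₁ A β) => (s (lst R)).1.1 α b :=
  (ml_id.comp ((Gro.apply b).comp ((Gro.apply α).comp
    (Gro.fst.comp (Gro.fst.comp (Gro.apply (lst R))))))).me

omit [DecidableEq A] [DecidableEq β] in
lemma it_me_zG (hX : UV Xv) (ω : ℝ) (α : A) :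
    ME fun s : St R (ItY Y₀ Y₁ A β) => zG ω Xv (s (lst R)).1.1 (fS (itP s)) α :=
  (ME.sum univ fun b _ => (it_me_G α b).mul ((hX.me b).comp (gro_fS.comp gro_itP))).const_mul ω

omit [DecidableEq β] in
lemma it_df_T (hX : UV Xv) (ω : ℝ) (dc : ℕ → ℝ) (α : A) :
    DF Set.univ (fun θ (s : St R (ItY Y₀ Y₁ A β)) => itT ω Xv dc θ s α) fun θ s =>
      Real.cos θ * zG ω Xv (s (lst R)).1.1 (fS (itP s)) α - Real.sin θ * tau dc s α := by
  have h1 : DF Set.univ (fun θ (_ : St R (ItY Y₀ Y₁ A β)) => Real.cos θ) fun θ _ => -Real.sin θ :=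
    DF.scalar 1 (fun θ _ => Real.abs_cos_le_one θ)
      (fun θ _ => by rw [abs_neg]; exact Real.abs_sin_le_one θ) fun θ _ => Real.hasDerivAt_cos θ
  have h2 : DF Set.univ (fun θ (_ : St R (ItY Y₀ Y₁ A β)) => Real.sin θ) fun θ _ => Real.cos θ :=
    DF.scalar 1 (fun θ _ => Real.abs_sin_le_one θ) (fun θ _ => Real.abs_cos_le_one θ)
      fun θ _ => Real.hasDerivAt_sin θ
  refine ((h2.mul (DF.const (it_me_zG hX ω α))).add (h1.mul (DF.const (ml_tau dc α).me))).congr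
    isOpen_univ (fun _ _ => rfl) fun θ _ => ?_
  funext s
  ring

variable {L B ω e : ℝ} {χ χ' χ'' : ℝ → ℝ} {mu : A → ℝ} {u : St R Y₁ → A → ℝ} {P : A → A → ℝ}
  {dc c : ℕ → ℝ}

lemma it_deriv_le (hL : 0 ≤ L) (hB : 1 ≤ B) (hχ : IsChi L χ χ' χ'') (ha : Exps R a) (h₀ : ML H₀)
    (h₁ : ML H₁) (hX : UV Xv) (hW : WB B mu P) (hu : UB B u) (hω : ω ^ 2 ≤ B)
    (hdc : ∀ l < R, 0 ≤ dc l) (he : ∀ i < R, |ω ^ 2 * c i - ∑ l ∈ Ico i R, dc l| ≤ e) (θ : ℝ)
    (α : A) :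
    |EE a (fun s : St R (ItY Y₀ Y₁ A β) => H₀ (fS (itP s)) + H₁ (sS (itP s)) +
        χ (Wq mu (u (sS (itP s))) P (itT ω Xv dc θ s))) fun s =>
      itF1 χ' mu (u (sS (itP s))) P (itT ω Xv dc θ s) α *
        (Real.cos θ * zG ω Xv (s (lst R)).1.1 (fS (itP s)) α - Real.sin θ * tau dc s α)| ≤
      3 * B * (7 * (L + 1) * B ^ 4) * Real.exp (L + 1) ^ 3 * (cavErr a H₀ Xv c + e) := by
  have hb := it_ml_base (A := A) (β := β) h₀ h₁
  have mu' : ∀ γ, ME fun s : St R (ItY Y₀ Y₁ A β) => u (sS (itP s)) γ := fun γ =>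
    (ME.of_bdd (hu.meas γ) B fun s => hu.le s γ).comp (gro_sS.comp gro_itP)
  have mT : ∀ γ, ME fun s : St R (ItY Y₀ Y₁ A β) => itT ω Xv dc θ s γ := fun γ =>
    (it_df_T hX ω dc γ).ge.me (Set.mem_univ θ)
  have mW := me_wq mu P mu' mT
  have hW0 := fun s : St R (ItY Y₀ Y₁ A β) =>
    wq_nonpos (fun α => (hW.mu_mem α).1) (u (sS (itP s))) P (itT ω Xv dc θ s)
  have mχ := hχ.ml hL mW.meas hW0
  have hH := hb.add mχ
  have hX' : UV fun b (s : St R (ItY Y₀ Y₁ A β)) => Xv b (fS (itP s)) :=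
    ⟨fun b => (hX.meas b).comp (gro_fS.comp gro_itP).meas, fun s => hX.le_one _⟩
  obtain ⟨mF, mF2⟩ := it_me hχ mu P mu' mT α
  have i1 := fun b : β => it_ibp (d := itdG Y₀ Y₁ α b) (l := lst R) (α := α)
    (c := Real.sin θ * ω) ha hχ mu P hb.me (fun _ _ => by rw [itP_dG]) hH mu'
    (fun _ _ => by rw [itP_dG]) mT (hX'.me b) (fun _ _ => by rw [itP_dG]) fun t s γ => by
      simp only [itT, itP_dG, tau_dG, zG_dG]
      split_ifs <;> ring
  have i2 := fun l : Fin R => it_ibp (d := itdz Y₀ Y₁ β α) (l := l) (α := α)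
    (c := Real.cos θ * Real.sqrt (dc l)) ha hχ mu P hb.me (fun _ _ => by rw [itP_dz]) hH mu'
    (fun _ _ => by rw [itP_dz]) mT (ME.const 1) (fun _ _ => rfl) fun t s γ => by
      simp only [itT, itP_dz, tau_dz, fst_dz]
      split_ifs <;> ring
  have est := it_est (Nat.pos_of_ne_zero (NeZero.ne R)) ha hb mχ.meas hL
    (fun s => ⟨hχ.ge _, hχ.nonpos hL (hW0 s)⟩) hX' mF mF2
    (fun s => (it_bounds hχ hL hB hW _ _ α).1) (fun s => (it_bounds hχ hL hB hW _ _ α).2)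
    (sq_nonneg ω) hω hB he
  rw [it_cavErr ha h₀ h₁ hX] at est
  simp only [one_mul] at i2
  have m1 : ∀ b, ME fun t : St R (ItY Y₀ Y₁ A β) => (itdG Y₀ Y₁ α b).γ (t (lst R)) *
      (Xv b (fS (itP t)) * itF1 χ' mu (u (sS (itP t))) P (itT ω Xv dc θ t) α) := fun b =>
    (ml_γ _ _).me.mul ((hX'.me b).mul mF)
  have m2 : ∀ l : Fin R, ME fun t : St R (ItY Y₀ Y₁ A β) => (itdz Y₀ Y₁ β α).γ (t l) *
      itF1 χ' mu (u (sS (itP t))) P (itT ω Xv dc θ t) α := fun l => (ml_γ _ _).me.mul mF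
  have e1 : (fun s : St R (ItY Y₀ Y₁ A β) => itF1 χ' mu (u (sS (itP s))) P (itT ω Xv dc θ s) α *
      (Real.cos θ * zG ω Xv (s (lst R)).1.1 (fS (itP s)) α - Real.sin θ * tau dc s α)) =
      fun t => Real.cos θ * ω * ∑ b, (itdG Y₀ Y₁ α b).γ (t (lst R)) *
        (Xv b (fS (itP t)) * itF1 χ' mu (u (sS (itP t))) P (itT ω Xv dc θ t) α) -
        Real.sin θ * ∑ l : Fin R, Real.sqrt (dc l) * ((itdz Y₀ Y₁ β α).γ (t l) *
          itF1 χ' mu (u (sS (itP t))) P (itT ω Xv dc θ t) α) := by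
    funext t
    generalize itF1 χ' mu (u (sS (itP t))) P (itT ω Xv dc θ t) α = F
    simp only [← mul_assoc, ← Finset.sum_mul]
    change F * (_ * (ω * ∑ b, (itdG Y₀ Y₁ α b).γ (t (lst R)) * Xv b (fS (itP t))) -
      _ * ∑ l : Fin R, Real.sqrt (dc l) * (itdz Y₀ Y₁ β α).γ (t l)) = _
    ring
  rw [e1, EE_sub ha hH ((ME.sum univ fun b _ => m1 b).const_mul _)
    ((ME.sum univ fun l _ => (m2 l).const_mul _).const_mul _), EE_const_mul, EE_const_mul,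
    EE_sum univ ha hH fun b _ => m1 b, EE_sum univ ha hH fun l _ => (m2 l).const_mul _]
  simp only [EE_const_mul, i1, i2]
  rw [← Fin.sum_univ_eq_sum_range] at est
  refine le_trans ?_ est
  have hsc : |Real.sin θ * Real.cos θ| ≤ 1 := by
    rw [abs_mul]
    exact mul_le_one₀ (Real.abs_sin_le_one θ) (abs_nonneg _) (Real.abs_cos_le_one θ)
  refine le_trans (le_of_eq ?_) (mul_le_of_le_one_left (abs_nonneg _) hsc)
  rw [← abs_mul, ← Finset.mul_sum]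
  congr 1
  have h3 : ∀ (l : Fin R) (x : ℝ), Real.sqrt (dc l) * (Real.cos θ * Real.sqrt (dc l) * x) =
      Real.cos θ * (dc l * x) := fun l x => by
    have := Real.mul_self_sqrt (hdc l l.2)
    linear_combination (Real.cos θ * x) * this
  simp only [h3, ← Finset.mul_sum]
  change _ * (_ * ∑ b, (_ + Ct a _ (R - 1) _ _)) - _ = _
  ring

omit [DecidableEq A] [DecidableEq β] in
lemma it_val_one (hL : 0 ≤ L) (hχ : IsChi L χ χ' χ'') (h₀ : ML H₀) (h₁ : ML H₁) (hX : UV Xv)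
    (hW : WB B mu P) (hu : UB B u) (a : ℕ → ℝ) :
    val a (fun s : St R (ItY Y₀ Y₁ A β) => H₀ (fS (itP s)) + H₁ (sS (itP s)) +
        χ (Wq mu (u (sS (itP s))) P (itT ω Xv dc (Real.pi / 2) s))) =
      val a (par fun G : A → β → ℝ => HR χ H₀ H₁ mu u P (zG ω Xv G)) := by
  have g : Gro fun s : St R ((A → β → ℝ) × (Y₀ × Y₁)) => (sS s : St R (Y₀ × Y₁)) := gro_sS
  have m : ME fun s : St R ((A → β → ℝ) × (Y₀ × Y₁)) =>
      Wq mu (u (sS (sS s))) P (zG ω Xv (s (lst R)).1 (fS (sS s))) :=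
    me_wq mu P (fun γ => (ME.of_bdd (hu.meas γ) B fun s => hu.le s γ).comp (gro_sS.comp g))
      fun γ => (ME.sum univ fun b _ => (ml_id.comp ((Gro.apply b).comp ((Gro.apply γ).comp
        (Gro.fst.comp (Gro.apply (lst R)))))).me.mul ((hX.me b).comp (gro_fS.comp g))).const_mul ω
  have hm : ML (par fun G : A → β → ℝ => HR χ H₀ H₁ mu u P (zG ω Xv G)) :=
    ((h₀.comp (gro_fS.comp g)).add (h₁.comp (gro_sS.comp g))).add
      (hχ.ml hL m.meas fun s => wq_nonpos (fun α => (hW.mu_mem α).1) _ _ _)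
  rw [← val_fS (Y' := A → ℝ) hm.meas a]
  congr 1
  funext s
  have : itT ω Xv dc (Real.pi / 2) s = zG ω Xv (s (lst R)).1.1 (fS (itP s)) := by
    funext α
    simp [itT]
  rw [this]
  rfl

omit [DecidableEq β] in
lemma it_val_zero (hL : 0 ≤ L) (hχ : IsChi L χ χ' χ'') (ha : Exps R a) (h₀ : ML H₀) (h₁ : ML H₁)
    (hW : WB B mu P) (hu : UB B u) :
    val a (fun s : St R (ItY Y₀ Y₁ A β) => H₀ (fS (itP s)) + H₁ (sS (itP s)) +
        χ (Wq mu (u (sS (itP s))) P (itT ω Xv dc 0 s))) =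
      val a H₀ + val a (HI χ H₁ mu u P dc) := by
  have m : ME fun s : St R (Y₁ × (A → ℝ)) => Wq mu (u (fS s)) P (tau dc s) :=
    me_wq mu P (fun γ => (ME.of_bdd (hu.meas γ) B fun s => hu.le s γ).comp gro_fS)
      fun γ => (ml_tau dc γ).me
  have hm : ML (HI χ H₁ mu u P dc) := (h₁.comp gro_fS).add
    (hχ.ml hL m.meas fun s => wq_nonpos (fun α => (hW.mu_mem α).1) _ _ _)
  have hτ : ∀ _ : Fin R, MeasurePreserving
      (fun y : ItY Y₀ Y₁ A β => ((y.1.2.1, y.1.2.2, y.2) : Y₀ × Y₁ × (A → ℝ))) Lev.μ Lev.μ :=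
    fun _ => (measurePreserving_prodAssoc _ _ _).comp
      (measurePreserving_snd.prod (MeasurePreserving.id _))
  rw [← val_prod ha h₀.mu hm.mu, ← val_pull hτ ((h₀.comp gro_fS).add (hm.comp gro_sS)).meas a]
  congr 1
  funext s
  have : itT ω Xv dc 0 s = tau dc s := by
    funext α
    simp [itT]
  rw [this, add_assoc]
  rfl

end aux

theorem interp (L B : ℝ) (hL : 0 ≤ L) (hB : 1 ≤ B) : ∃ C : ℝ, 0 ≤ C ∧
    ∀ (χ χ' χ'' : ℝ → ℝ), IsChi L χ χ' χ'' →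
    ∀ (R : ℕ) [NeZero R] (a : ℕ → ℝ), Exps R a →
    ∀ (Y₀ Y₁ A β : Type) [MeasurableSpace Y₀] [Lev Y₀] [MeasurableSpace Y₁] [Lev Y₁] [Fintype A]
      [DecidableEq A] [Fintype β] [DecidableEq β] (H₀ : St R Y₀ → ℝ) (H₁ : St R Y₁ → ℝ)
      (Xv : β → St R Y₀ → ℝ) (mu : A → ℝ) (u : St R Y₁ → A → ℝ) (P : A → A → ℝ) (ω e : ℝ)
      (dc c : ℕ → ℝ), ML H₀ → ML H₁ → UV Xv → WB B mu P → UB B u → ω ^ 2 ≤ B →
      (∀ l < R, 0 ≤ dc l) → (∀ i < R, |ω ^ 2 * c i - ∑ l ∈ Ico i R, dc l| ≤ e) →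
      |val a (par fun G : A → β → ℝ => HR χ H₀ H₁ mu u P (zG ω Xv G)) - val a H₀ -
        val a (HI χ H₁ mu u P dc)| ≤ C * (cavErr a H₀ Xv c + e) := by
  refine ⟨B * (3 * B * (7 * (L + 1) * B ^ 4) * Real.exp (L + 1) ^ 3) * (Real.pi / 2),
    by positivity, ?_⟩
  intro χ χ' χ'' hχ R _ a ha Y₀ Y₁ A β _ _ _ _ _ _ _ _ H₀ H₁ Xv mu u P ω e dc c h₀ h₁ hX hW hu hω
    hdc he
  have hb := it_ml_base (A := A) (β := β) h₀ h₁
  have mu' : ∀ γ, ME fun s : St R (ItY Y₀ Y₁ A β) => u (sS (itP s)) γ := fun γ =>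
    (ME.of_bdd (hu.meas γ) B fun s => hu.le s γ).comp (gro_sS.comp gro_itP)
  have hT := it_df_T (Y₁ := Y₁) (A := A) hX ω dc
  have hD := it_df_chi hχ isOpen_univ mu P (u := fun _ s => u (sS (itP s)))
    (fun γ => DF.const (mu' γ)) hT
  have hFL : FL Set.univ fun θ (s : St R (ItY Y₀ Y₁ A β)) => H₀ (fS (itP s)) + H₁ (sS (itP s)) +
      χ (Wq mu (u (sS (itP s))) P (itT ω Xv dc θ s)) :=
    (FL.const hb).add (FL.of_bdd hD.ge.meas (L + 1) fun θ _ s => abs_le.2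
      ⟨by linarith [hχ.ge (Wq mu (u (sS (itP s))) P (itT ω Xv dc θ s))], by
        linarith [hχ.nonpos hL (wq_nonpos (fun α => (hW.mu_mem α).1) (u (sS (itP s))) P
          (itT ω Xv dc θ s))]⟩)
  have he0 : 0 ≤ e := (abs_nonneg _).trans (he 0 (Nat.pos_of_ne_zero (NeZero.ne R)))
  have hc0 := cavErr_nonneg ha H₀ Xv c
  have key := tay_mvt (y := Real.pi / 2)
    (C := B * (3 * B * (7 * (L + 1) * B ^ 4) * Real.exp (L + 1) ^ 3 * (cavErr a H₀ Xv c + e)))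
    (by positivity)
    (fun θ _ => hasDerivAt_val isOpen_univ ha hFL ((DF.const hb.me).add hD) (Set.mem_univ θ))
    fun θ _ => by
      have mT := fun γ => (hT γ).ge.me (Set.mem_univ θ)
      simp only [zero_add]
      rw [EE_sum univ ha (hFL.ml (Set.mem_univ θ)) fun α _ =>
        (it_me hχ mu P mu' mT α).1.mul ((hT α).ge'.me (Set.mem_univ θ))]
      refine (Finset.abs_sum_le_sum_abs _ _).trans ((Finset.sum_le_card_nsmul _ _ _ fun α _ =>
        it_deriv_le hL hB hχ ha h₀ h₁ hX hW hu hω hdc he θ α).trans ?_)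
      rw [nsmul_eq_mul, Finset.card_univ]
      exact mul_le_mul_of_nonneg_right hW.card (by positivity)
  rw [it_val_one hL hχ h₀ h₁ hX hW hu, it_val_zero hL hχ ha h₀ h₁ hW hu, ← sub_sub] at key
  refine key.trans (le_of_eq ?_)
  ring

end Crest.Agent.R164
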