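import Crest.Agent.R164.Cav

/-!
# R164 / InterpA: calculus for the truncated quadratic cavity term (helper31)
-/

set_option autoImplicit false

open MeasureTheory ProbabilityTheory Finset

namespace Crest.Agent.R164

section defs
variable {A : Type} [Fintype A]

/-- `∂ W / ∂ τ_α`. -/
noncomputable def itW1 (mu u : A → ℝ) (P : A → A → ℝ) (τ : A → ℝ) (α : A) : ℝ :=
  -∑ γ, mu γ * ((u γ + ∑ β, P γ β * τ β) * P γ α)
/-- `∂² W / ∂ τ_α²`. -/
noncomputable def itW2 (mu : A → ℝ) (P : A → A → ℝ) (α : A) : ℝ := -∑ γ, mu γ * P γ α ^ 2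
/-- `∂ χ(W) / ∂ τ_α`. -/
noncomputable def itF1 (χ' : ℝ → ℝ) (mu u : A → ℝ) (P : A → A → ℝ) (τ : A → ℝ) (α : A) : ℝ :=
  χ' (Wq mu u P τ) * itW1 mu u P τ α
/-- `∂² χ(W) / ∂ τ_α²`. -/
noncomputable def itF2 (χ' χ'' : ℝ → ℝ) (mu u : A → ℝ) (P : A → A → ℝ) (τ : A → ℝ) (α : A) : ℝ :=
  χ'' (Wq mu u P τ) * itW1 mu u P τ α ^ 2 + χ' (Wq mu u P τ) * itW2 mu P α

variable {B L : ℝ} {mu u : A → ℝ} {P : A → A → ℝ} {χ χ' χ'' : ℝ → ℝ}

lemma it_sumP (hB : 1 ≤ B) (h : WB B mu P) (α : A) :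
    0 ≤ ∑ γ, mu γ * P γ α ^ 2 ∧ ∑ γ, mu γ * P γ α ^ 2 ≤ B ^ 4 := by
  refine ⟨Finset.sum_nonneg fun γ _ => mul_nonneg (h.mu_mem γ).1 (sq_nonneg _), ?_⟩
  have h1 : ∀ γ ∈ (univ : Finset A), mu γ * P γ α ^ 2 ≤ B ^ 3 := fun γ _ => by
    have h2 : P γ α ^ 2 ≤ B ^ 2 := by
      rw [← sq_abs]; exact pow_le_pow_left₀ (abs_nonneg _) (h.P_le γ α) 2
    calc mu γ * P γ α ^ 2 ≤ B * B ^ 2 :=
          mul_le_mul (h.mu_mem γ).2 h2 (sq_nonneg _) (by linarith)
      _ = B ^ 3 := by ring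
  have h2 := Finset.sum_le_card_nsmul _ _ _ h1
  rw [nsmul_eq_mul, Finset.card_univ] at h2
  calc _ ≤ _ := h2
    _ ≤ B * B ^ 3 := mul_le_mul_of_nonneg_right h.card (by positivity)
    _ = B ^ 4 := by ring

lemma it_W1_sq (hB : 1 ≤ B) (h : WB B mu P) (u τ : A → ℝ) (α : A) :
    itW1 mu u P τ α ^ 2 ≤ -2 * Wq mu u P τ * B ^ 4 := by
  have h1 := Finset.sum_sq_le_sum_mul_sum_of_sq_le_mul (univ : Finset A)
    (r := fun γ => mu γ * ((u γ + ∑ β, P γ β * τ β) * P γ α))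
    (f := fun γ => mu γ * (u γ + ∑ β, P γ β * τ β) ^ 2) (g := fun γ => mu γ * P γ α ^ 2)
    (fun γ _ => mul_nonneg (h.mu_mem γ).1 (sq_nonneg _))
    (fun γ _ => mul_nonneg (h.mu_mem γ).1 (sq_nonneg _)) (fun γ _ => le_of_eq (by ring))
  have h2 : 0 ≤ ∑ γ, mu γ * (u γ + ∑ β, P γ β * τ β) ^ 2 :=
    Finset.sum_nonneg fun γ _ => mul_nonneg (h.mu_mem γ).1 (sq_nonneg _)
  have h3 := mul_le_mul_of_nonneg_left (it_sumP hB h α).2 h2
  unfold itW1 Wq
  rw [neg_sq]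
  linarith

lemma it_bounds (hχ : IsChi L χ χ' χ'') (hL : 0 ≤ L) (hB : 1 ≤ B) (h : WB B mu P) (u τ : A → ℝ)
    (α : A) : itF1 χ' mu u P τ α ^ 2 ≤ 7 * (L + 1) * B ^ 4 ∧
      |itF2 χ' χ'' mu u P τ α + itF1 χ' mu u P τ α ^ 2| ≤ 7 * (L + 1) * B ^ 4 := by
  have hB4 : 0 ≤ B ^ 4 := by positivity
  have hLB : 0 ≤ L * B ^ 4 := mul_nonneg hL hB4
  by_cases hW : Wq mu u P τ ≤ -L - 1
  · obtain ⟨h1, h2⟩ := hχ.flat _ hW
    simp only [itF1, itF2, h1, h2, zero_mul, add_zero, ne_eq, OfNat.ofNat_ne_zero,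
      not_false_eq_true, zero_pow, abs_zero]
    constructor <;> nlinarith
  · push Not at hW
    have h1 := it_W1_sq hB h u τ α
    have h2 : itW1 mu u P τ α ^ 2 ≤ 2 * (L + 1) * B ^ 4 := by nlinarith
    obtain ⟨h3, h4⟩ := hχ.d1 (Wq mu u P τ)
    have h5 := abs_le.1 (hχ.d2 (Wq mu u P τ))
    obtain ⟨h6, h7⟩ := it_sumP hB h α
    have h8 : itF1 χ' mu u P τ α ^ 2 ≤ itW1 mu u P τ α ^ 2 := by
      unfold itF1
      rw [mul_pow]
      exact mul_le_of_le_one_left (sq_nonneg _) (pow_le_one₀ h3 h4)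
    have h9 := sq_nonneg (itF1 χ' mu u P τ α)
    have h10 := sq_nonneg (itW1 mu u P τ α)
    refine ⟨by nlinarith, abs_le.2 ⟨?_, ?_⟩⟩
    · unfold itF2 itW2
      nlinarith [mul_le_mul_of_nonneg_right h5.1 h10, mul_le_mul_of_nonneg_right h4 h6]
    · unfold itF2 itW2
      nlinarith [mul_le_mul_of_nonneg_right h5.2 h10, mul_nonneg h3 h6]

end defs

section DF
variable {S A : Type} [MeasurableSpace S] [Lev S] [Fintype A] {I : Set ℝ} {L : ℝ}
  {χ χ' χ'' : ℝ → ℝ}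

lemma it_df_w (hI : IsOpen I) (P : A → A → ℝ) {u T T' : ℝ → S → A → ℝ}
    (hu : ∀ γ, DF I (fun θ s => u θ s γ) fun _ _ => 0)
    (hT : ∀ β, DF I (fun θ s => T θ s β) fun θ s => T' θ s β) (γ : A) :
    DF I (fun θ s => u θ s γ + ∑ β, P γ β * T θ s β) fun θ s => ∑ β, P γ β * T' θ s β :=
  ((hu γ).add (DF.sum univ fun β _ => (hT β).const_mul (P γ β))).congr hI (fun _ _ => rfl)
    fun _ _ => by funext s; simp

lemma it_df_W (hI : IsOpen I) (mu : A → ℝ) (P : A → A → ℝ) {u T T' : ℝ → S → A → ℝ}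
    (hu : ∀ γ, DF I (fun θ s => u θ s γ) fun _ _ => 0)
    (hT : ∀ β, DF I (fun θ s => T θ s β) fun θ s => T' θ s β) :
    DF I (fun θ s => Wq mu (u θ s) P (T θ s))
      fun θ s => ∑ α, itW1 mu (u θ s) P (T θ s) α * T' θ s α := by
  refine ((DF.sum univ fun γ _ => ((it_df_w hI P hu hT γ).mul
    (it_df_w hI P hu hT γ)).const_mul (mu γ)).const_mul (-1 / 2)).congr hI (fun _ _ => ?_)
    fun θ _ => ?_
  · funext s
    simp only [Wq, sq]
    ring
  · funext s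
    rw [Finset.mul_sum]
    simp only [itW1, neg_mul]
    simp_rw [Finset.sum_mul (s := univ) (f := fun γ => mu γ * _)]
    rw [Finset.sum_neg_distrib, Finset.sum_comm, ← Finset.sum_neg_distrib]
    refine Finset.sum_congr rfl fun γ _ => ?_
    generalize u θ s γ + ∑ β, P γ β * T θ s β = w
    have : ∑ x, mu γ * (w * P γ x) * T' θ s x = mu γ * w * ∑ β, P γ β * T' θ s β := by
      rw [Finset.mul_sum]
      exact Finset.sum_congr rfl fun β _ => by ring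
    rw [this]
    ring

lemma it_df_W1 (hI : IsOpen I) (mu : A → ℝ) (P : A → A → ℝ) {u T T' : ℝ → S → A → ℝ}
    (hu : ∀ γ, DF I (fun θ s => u θ s γ) fun _ _ => 0)
    (hT : ∀ β, DF I (fun θ s => T θ s β) fun θ s => T' θ s β) (α : A) :
    DF I (fun θ s => itW1 mu (u θ s) P (T θ s) α)
      fun θ s => -∑ γ, mu γ * P γ α * ∑ β, P γ β * T' θ s β := by
  refine ((DF.sum univ fun γ _ => (it_df_w hI P hu hT γ).const_mul (mu γ * P γ α)).neg).congr hI
    (fun _ _ => ?_) fun _ _ => rfl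
  funext s
  simp only [itW1]
  congr 1
  exact Finset.sum_congr rfl fun γ _ => by ring

lemma it_df_chi (hχ : IsChi L χ χ' χ'') (hI : IsOpen I) (mu : A → ℝ) (P : A → A → ℝ)
    {u T T' : ℝ → S → A → ℝ} (hu : ∀ γ, DF I (fun θ s => u θ s γ) fun _ _ => 0)
    (hT : ∀ β, DF I (fun θ s => T θ s β) fun θ s => T' θ s β) :
    DF I (fun θ s => χ (Wq mu (u θ s) P (T θ s)))
      fun θ s => ∑ α, itF1 χ' mu (u θ s) P (T θ s) α * T' θ s α := by
  refine ((it_df_W hI mu P hu hT).comp hχ.der 1 fun w => ?_).congr hI (fun _ _ => rfl) fun _ _ => ?_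
  · rw [abs_of_nonneg (hχ.d1 w).1]; exact (hχ.d1 w).2
  · funext s
    simp only [itF1, Finset.mul_sum, mul_assoc]

end DF

section flow
variable {Y A : Type} [MeasurableSpace Y] [Lev Y] [Fintype A] [DecidableEq A] {R : ℕ} {a : ℕ → ℝ}
  {L : ℝ} {χ χ' χ'' : ℝ → ℝ} {d : Dir Y} {l : Fin R} {u T : St R Y → A → ℝ} {v : St R Y → ℝ} {α : A}

lemma it_hasD (hχ : IsChi L χ χ' χ'') (mu : A → ℝ) (P : A → A → ℝ) (hu : ∀ γ, ME fun s => u s γ)
    (hu' : ∀ θ s, u (act d l θ s) = u s) (hT : ∀ β, ME fun s => T s β) (hv : ME v)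
    (hT' : ∀ θ s β, T (act d l θ s) β = T s β + θ * if β = α then v s else 0) :
    HasD d l (fun s => χ (Wq mu (u s) P (T s))) (fun s => itF1 χ' mu (u s) P (T s) α * v s) ∧
    HasD d l (fun s => itF1 χ' mu (u s) P (T s) α) fun s => itF2 χ' χ'' mu (u s) P (T s) α * v s := by
  have h1 : ∀ γ, DF (Set.Ioo (-1 : ℝ) 1) (fun θ s => u (act d l θ s) γ) fun _ _ => 0 := fun γ =>
    (DF.const (hu γ)).congr isOpen_Ioo (fun θ _ => funext fun s => by rw [hu']) fun _ _ => rfl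
  have h2 : ∀ β, DF (Set.Ioo (-1 : ℝ) 1) (fun θ s => T (act d l θ s) β)
      fun _ s => if β = α then v s else 0 := fun β => by
    have hm : ME fun s => if β = α then v s else 0 := by
      by_cases h : β = α
      · simpa [h] using hv
      · simpa [h] using ME.const (S := St R Y) 0
    exact (DF.linear 1 (fun _ => ibp_abs_le) (hT β) hm).congr isOpen_Ioo
      (fun θ _ => funext fun s => hT' θ s β) fun _ _ => rfl
  have h3 := it_df_W isOpen_Ioo mu P h1 h2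
  refine ⟨⟨_, it_df_chi hχ isOpen_Ioo mu P h1 h2, ?_⟩, ⟨_, ((h3.comp hχ.der' 2 hχ.d2).mul
    (it_df_W1 isOpen_Ioo mu P h1 h2 α)), ?_⟩⟩
  · funext s
    simp [act_zero]
  · funext s
    simp only [act_zero, mul_ite, mul_zero, Finset.sum_ite_eq', Finset.mem_univ, if_true, itF2,
      itW2]
    have : ∑ γ, mu γ * P γ α * (P γ α * v s) = (∑ γ, mu γ * P γ α ^ 2) * v s := by
      rw [Finset.sum_mul]
      exact Finset.sum_congr rfl fun γ _ => by ring
    rw [this]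
    ring

/-- Integration by parts against the cavity term. -/
lemma it_ibp (ha : Exps R a) (hχ : IsChi L χ χ' χ'') (mu : A → ℝ) (P : A → A → ℝ)
    {Hb x : St R Y → ℝ} {c : ℝ} (hHb : ME Hb) (hHb' : ∀ θ s, Hb (act d l θ s) = Hb s)
    (hH : ML fun s => Hb s + χ (Wq mu (u s) P (T s))) (hu : ∀ γ, ME fun s => u s γ)
    (hu' : ∀ θ s, u (act d l θ s) = u s) (hT : ∀ β, ME fun s => T s β) (hx : ME x)
    (hx' : ∀ θ s, x (act d l θ s) = x s)
    (hT' : ∀ θ s β, T (act d l θ s) β = T s β + θ * if β = α then c * x s else 0) :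
    EE a (fun s => Hb s + χ (Wq mu (u s) P (T s)))
        (fun t => d.γ (t l) * (x t * itF1 χ' mu (u t) P (T t) α)) =
      c * (EE a (fun s => Hb s + χ (Wq mu (u s) P (T s)))
          (fun t => x t * (x t * itF2 χ' χ'' mu (u t) P (T t) α)) +
        Ct a (fun s => Hb s + χ (Wq mu (u s) P (T s))) l (fun t => x t * itF1 χ' mu (u t) P (T t) α)
          fun t => x t * itF1 χ' mu (u t) P (T t) α) := by
  obtain ⟨h1, h2⟩ := it_hasD hχ mu P hu hu' hT (hx.const_mul c) hT'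
  have h3 : HasD d l (fun s => Hb s + χ (Wq mu (u s) P (T s)))
      fun t => c * (x t * itF1 χ' mu (u t) P (T t) α) :=
    ((HasD.of_inv hHb hHb').add h1).congr (fun _ => rfl) fun s => by ring
  have h4 : HasD d l (fun t => x t * itF1 χ' mu (u t) P (T t) α)
      fun t => c * (x t * (x t * itF2 χ' χ'' mu (u t) P (T t) α)) :=
    ((HasD.of_inv hx hx').mul h2).congr (fun _ => rfl) fun s => by ring
  rw [ibp ha hH h3 h4, EE_const_mul, Ct_const_mul_right, mul_add]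

omit [DecidableEq A] in
lemma it_me (hχ : IsChi L χ χ' χ'') (mu : A → ℝ) (P : A → A → ℝ) (hu : ∀ γ, ME fun s => u s γ)
    (hT : ∀ β, ME fun s => T s β) (α : A) :
    ME (fun s => itF1 χ' mu (u s) P (T s) α) ∧ ME fun s => itF2 χ' χ'' mu (u s) P (T s) α := by
  have hW := me_wq mu P hu hT
  have hc : Continuous χ' := continuous_iff_continuousAt.2 fun w => (hχ.der' w).continuousAt
  have h1 : ME fun s => χ' (Wq mu (u s) P (T s)) :=
    ME.of_bdd (hc.measurable.comp hW.meas) 1 fun s => by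
      rw [abs_of_nonneg (hχ.d1 _).1]; exact (hχ.d1 _).2
  have h2 : ME fun s => χ'' (Wq mu (u s) P (T s)) :=
    ME.of_bdd (hχ.cont.measurable.comp hW.meas) 2 fun s => hχ.d2 _
  have h3 : ME fun s => itW1 mu (u s) P (T s) α :=
    (ME.sum univ fun γ _ => (((hu γ).add (ME.sum univ fun β _ =>
      (hT β).const_mul (P γ β))).mul (ME.const (P γ α))).const_mul (mu γ)).neg
  exact ⟨h1.mul h3, (h2.mul (h3.pow 2)).add (h1.mul (ME.const _))⟩

end flow

end Crest.Agent.R164
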