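import Crest.Agent.R164.Path

/-!
# R164 / Step: step fields versus the chain `Ch`; the variational value in real terms

`revA w j = leftEnd w (k-1-j)`, `revV hv j = increment hv (k-1-j)`.  `fieldValueAt_eq`: induct on
`List.finRange`/`foldr` (for instance prove `foldr … (drop (k - j) (finRange k)) = Ch … j`), and
`Σ increments = last value` (telescoping).  `stepFn w hv s = Σ_i increment i * 1{leftEnd i < s}` for
`s ∈ (0,1)`.  `exists_grid`: `w = 1/R`, `hv i = Σ_{l ∈ Ico (R - i) R} v l`; then `revA j = ua (j+1)`,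
`revV j = v (j+1)` for `j + 1 < R`, `revV (R-1) = 0`; use `osv_update_zero`, `gaussOp_zero_var`.
-/

set_option autoImplicit false

open MeasureTheory ProbabilityTheory Finset Crest.ProbabilityR.InvariantGlass

namespace Crest.Agent.R164

noncomputable def revA {k : ℕ} (w : Fin k → ℝ) (j : ℕ) : ℝ :=
  if h : j < k then leftEnd w (Fin.rev ⟨j, h⟩) else 0
noncomputable def revV {k : ℕ} (hv : Fin k → ℝ) (j : ℕ) : ℝ :=
  if h : j < k then increment hv (Fin.rev ⟨j, h⟩) else 0

variable {k : ℕ} {w hv : Fin k → ℝ} {p : ℝ → ℝ}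

/-- extension by zero -/
def st_ext (f : Fin k → ℝ) (n : ℕ) : ℝ := if h : n < k then f ⟨n, h⟩ else 0
/-- the endpoints -/
def st_Z (w : Fin k → ℝ) (n : ℕ) : ℝ := ∑ l ∈ range n, st_ext w l
/-- the previous value -/
def st_P (hv : Fin k → ℝ) (n : ℕ) : ℝ := ∑ l : Fin k, if l.val + 1 = n then hv l else 0

lemma st_ext_coe (f : Fin k → ℝ) (i : Fin k) : st_ext f i = f i := by simp [st_ext]

lemma st_ext_lt (f : Fin k → ℝ) {n : ℕ} (h : n < k) : st_ext f n = f ⟨n, h⟩ := dif_pos h

lemma st_P_zero (hv : Fin k → ℝ) : st_P hv 0 = 0 := by simp [st_P]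

lemma st_P_succ (hv : Fin k → ℝ) {n : ℕ} (h : n < k) : st_P hv (n + 1) = hv ⟨n, h⟩ := by
  unfold st_P
  rw [Finset.sum_eq_single ⟨n, h⟩]
  · simp
  · intro l _ hl
    exact if_neg fun e => hl (Fin.ext (by simpa using e))
  · simp

lemma st_leftEnd (w : Fin k → ℝ) (i : Fin k) : leftEnd w i = st_Z w i := by
  unfold leftEnd st_Z
  have e : ∀ l : Fin k, (if l < i then w l else 0) =
      (fun n : ℕ => if n < i.val then st_ext w n else 0) l := fun l => by
    simp only [st_ext_coe, Fin.lt_def]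
  rw [Finset.sum_congr rfl fun l _ => e l, Fin.sum_univ_eq_sum_range
    (fun n : ℕ => if n < i.val then st_ext w n else 0) k, ← Finset.sum_filter]
  congr 1
  ext n
  have := i.2
  simp only [mem_filter, mem_range]
  omega

lemma st_increment (hv : Fin k → ℝ) (i : Fin k) :
    increment hv i = st_P hv (i + 1) - st_P hv i := by
  rw [st_P_succ hv i.2]
  rfl

lemma st_Z_succ (w : Fin k → ℝ) {n : ℕ} (h : n < k) : st_Z w (n + 1) = st_Z w n + w ⟨n, h⟩ := by
  rw [st_Z, Finset.sum_range_succ, st_ext_lt w h]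
  rfl

lemma st_Z_top (h : IsStepField w hv) : st_Z w k = 1 := by
  rw [← h.2.2.1, st_Z, ← Fin.sum_univ_eq_sum_range]
  exact Finset.sum_congr rfl fun i _ => st_ext_coe w i

lemma st_Z_nonneg (h : IsStepField w hv) (n : ℕ) : 0 ≤ st_Z w n :=
  Finset.sum_nonneg fun l _ => by
    unfold st_ext
    split_ifs
    · exact (h.2.1 _).le
    · exact le_rfl

lemma st_Z_lt (h : IsStepField w hv) {m n : ℕ} (hmn : m < n) (hn : n ≤ k) :
    st_Z w m < st_Z w n := by
  induction n, hmn using Nat.le_induction with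
  | base => rw [st_Z_succ w hn]; linarith [h.2.1 ⟨m, hn⟩]
  | succ n _ ih =>
    rw [st_Z_succ w hn]
    linarith [h.2.1 ⟨n, hn⟩, ih (by omega)]

lemma st_revA (w : Fin k → ℝ) {j : ℕ} (hj : j < k) : revA w j = st_Z w (k - 1 - j) := by
  rw [revA, dif_pos hj, st_leftEnd, Fin.val_rev]
  congr 1
  dsimp only
  omega

lemma st_revV (hv : Fin k → ℝ) {j : ℕ} (hj : j < k) :
    revV hv j = st_P hv (k - 1 - j + 1) - st_P hv (k - 1 - j) := by
  have e : (Fin.rev (⟨j, hj⟩ : Fin k)).val = k - 1 - j := by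
    rw [Fin.val_rev]
    dsimp only
    omega
  rw [revV, dif_pos hj, st_increment, e]

lemma revA_mem (h : IsStepField w hv) (j : ℕ) : 0 ≤ revA w j ∧ revA w j < 1 := by
  by_cases hj : j < k
  · rw [st_revA w hj]
    refine ⟨st_Z_nonneg h _, ?_⟩
    rw [← st_Z_top h]
    exact st_Z_lt h (by omega) le_rfl
  · simp [revA, hj]

lemma revA_lt (h : IsStepField w hv) {i j : ℕ} (hij : i < j) (hj : j < k) : revA w j < revA w i := by
  rw [st_revA w hj, st_revA w (hij.trans hj)]
  exact st_Z_lt h (by omega) (by omega)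

lemma revA_last (h : IsStepField w hv) : revA w (k - 1) = 0 := by
  rw [st_revA w (Nat.sub_one_lt h.1.ne'), Nat.sub_self]
  rfl

lemma revV_nonneg (h : IsStepField w hv) (j : ℕ) : 0 ≤ revV hv j := by
  by_cases hj : j < k
  · rw [st_revV hv hj, sub_nonneg]
    have h1 : k - 1 - j < k := by omega
    generalize k - 1 - j = n at h1
    rw [st_P_succ hv h1]
    cases n with
    | zero => rw [st_P_zero]; exact h.2.2.2.2 _
    | succ n => rw [st_P_succ hv (by omega : n < k)]; exact h.2.2.2.1 (by simp [Fin.le_def])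
  · simp [revV, hj]

lemma st_Ch (a v : ℕ → ℝ) (n : ℕ) :
    Ch a v n = (List.range n).reverse.foldr (fun j acc => gaussOp (a j) (v j) acc) lc := by
  induction n with
  | zero => simp [Ch_zero]
  | succ n ih => rw [Ch_succ, ih, List.range_succ, List.reverse_append]; rfl

lemma fieldValueAt_eq (w hv : Fin k → ℝ) (b : ℝ) :
    fieldValueAt b w hv = osv (revA w) (revV hv) k b := by
  unfold fieldValueAt osv
  have e1 : (List.finRange k).map (fun i => (Fin.rev i).val) = (List.range k).reverse := by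
    refine List.ext_getElem (by simp) fun i h1 h2 => ?_
    simp only [List.getElem_map, List.getElem_finRange, Fin.val_rev, Fin.val_cast,
      List.getElem_reverse, List.length_range, List.getElem_range]
    omega
  have e2 : ∑ i ∈ range k, revV hv i = st_P hv k := by
    rw [Finset.sum_congr rfl fun j hj => st_revV hv (mem_range.1 hj),
      Finset.sum_range_reflect (fun n => st_P hv (n + 1) - st_P hv n), Finset.sum_range_sub,
      st_P_zero, sub_zero]
  rw [e2, st_Ch, ← e1, List.foldr_map]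
  simp only [revA, revV, Fin.is_lt, dif_pos, Fin.eta, Fin.rev_rev]
  rfl

lemma cfv_eq (w hv : Fin k → ℝ) (m : ℝ) : cfv m w hv = osc (revA w) (revV hv) k m := by
  simp only [cfv, osc, fieldValueAt_eq]

lemma st_abel (P χ : ℕ → ℝ) (n : ℕ) : ∑ i ∈ range n, P (i + 1) * (χ i - χ (i + 1)) =
    ∑ i ∈ range n, (P (i + 1) - P i) * χ i + P 0 * χ 0 - P n * χ n := by
  induction n with
  | zero => simp
  | succ n ih => rw [Finset.sum_range_succ, Finset.sum_range_succ, ih]; ring

lemma st_stepFn (h : IsStepField w hv) {s : ℝ} (hs : s < 1) :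
    stepFn w hv s = ∑ i ∈ range k, (st_P hv (i + 1) - st_P hv i) *
      if st_Z w i < s then 1 else 0 := by
  have e := st_abel (st_P hv) (fun i => if st_Z w i < s then 1 else 0) k
  rw [st_P_zero, st_Z_top h, if_neg (not_lt.2 hs.le), zero_mul, mul_zero, add_zero, sub_zero] at e
  rw [← e, ← Fin.sum_univ_eq_sum_range (fun i => st_P hv (i + 1) *
    ((if st_Z w i < s then 1 else 0) - if st_Z w (i + 1) < s then 1 else 0))]
  refine Finset.sum_congr rfl fun i _ => ?_
  have h1 := h.2.1 i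
  rw [st_leftEnd, st_P_succ hv i.2, st_Z_succ w i.2]
  by_cases h2 : st_Z w i < s
  · by_cases h3 : st_Z w i + w i < s
    · rw [if_neg fun h4 => absurd h3 (not_lt.2 h4.2), if_pos h2, if_pos h3]
      ring
    · rw [if_pos ⟨h2, not_lt.1 h3⟩, if_pos h2, if_neg h3]
      simp
  · rw [if_neg fun h4 => h2 h4.1, if_neg h2, if_neg fun h3 => h2 (by linarith)]
    ring

lemma integral_stepFn (h : IsStepField w hv) (hp : IsTrialPath p) :
    ∫ s in Set.Ioo (0 : ℝ) 1, p s * stepFn w hv s = ∑ j ∈ range k, revV hv j * tl p (revA w j) := by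
  have hint : IntegrableOn p (Set.Ioo (0 : ℝ) 1) := by
    refine Measure.integrableOn_of_bounded (M := 1) (by simp) hp.1.aestronglyMeasurable ?_
    refine (ae_restrict_iff' measurableSet_Ioo).2 (Filter.Eventually.of_forall fun s hs => ?_)
    rw [Real.norm_of_nonneg (hp.2.2 s hs).1]
    exact (hp.2.2 s hs).2
  have e1 : ∫ s in Set.Ioo (0 : ℝ) 1, p s * stepFn w hv s = ∫ s in Set.Ioo (0 : ℝ) 1,
      ∑ i ∈ range k, (st_P hv (i + 1) - st_P hv i) * (Set.Ioi (st_Z w i)).indicator p s := by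
    refine setIntegral_congr_fun measurableSet_Ioo fun s hs => ?_
    rw [st_stepFn h hs.2, Finset.mul_sum]
    refine Finset.sum_congr rfl fun i _ => ?_
    by_cases h1 : st_Z w i < s
    · rw [if_pos h1, Set.indicator_of_mem (show s ∈ Set.Ioi (st_Z w i) from h1)]
      ring
    · rw [if_neg h1, Set.indicator_of_notMem (show s ∉ Set.Ioi (st_Z w i) from h1)]
      ring
  have e2 : ∑ j ∈ range k, revV hv j * tl p (revA w j) =
      ∑ n ∈ range k, (st_P hv (n + 1) - st_P hv n) * tl p (st_Z w n) := by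
    rw [← Finset.sum_range_reflect (fun n => (st_P hv (n + 1) - st_P hv n) * tl p (st_Z w n))]
    exact Finset.sum_congr rfl fun j hj => by
      rw [st_revV hv (mem_range.1 hj), st_revA w (mem_range.1 hj)]
  rw [e1, e2, integral_finsetSum _ fun i _ => (hint.indicator measurableSet_Ioi).const_mul _]
  refine Finset.sum_congr rfl fun i _ => ?_
  rw [integral_const_mul, setIntegral_indicator measurableSet_Ioi, Set.Ioo_inter_Ioi,
    max_eq_right (st_Z_nonneg h i), tl]

lemma st_Ch_shift (a v : ℕ → ℝ) (h : v 0 = 0) (n : ℕ) :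
    Ch a v (n + 1) = Ch (fun j => a (j + 1)) (fun j => v (j + 1)) n := by
  induction n with
  | zero => rw [Ch_succ, h, gaussOp_zero_var, Ch_zero, Ch_zero]
  | succ n ih => rw [Ch_succ, ih, Ch_succ]

lemma exists_grid {R : ℕ} (hR : 0 < R) {v : ℕ → ℝ} (hv : ∀ i < R, 0 ≤ v i) :
    ∃ w hv : Fin R → ℝ, IsStepField w hv ∧ (∀ m, cfv m w hv = osc (ua R) v R m) ∧
      ∀ p, IsTrialPath p → ∫ s in Set.Ioo (0 : ℝ) 1, p s * stepFn w hv s =
        ∑ l ∈ range R, v l * tl p (ua R l) := by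
  obtain ⟨n, rfl⟩ : ∃ n, R = n + 1 := ⟨R - 1, by omega⟩
  have hR' : (0 : ℝ) < ((n + 1 : ℕ) : ℝ) := by positivity
  let w : Fin (n + 1) → ℝ := fun _ => 1 / ((n + 1 : ℕ) : ℝ)
  let g : Fin (n + 1) → ℝ := fun i => ∑ l ∈ Ico (n + 1 - i.val) (n + 1), v l
  have hZ : ∀ j ≤ n + 1, st_Z w j = j / ((n + 1 : ℕ) : ℝ) := by
    intro j hj
    induction j with
    | zero => simp [st_Z]
    | succ j ih =>
      rw [st_Z_succ w (by omega : j < n + 1), ih (by omega)]
      simp only [w]
      push_cast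
      ring
  have hA : ∀ j < n + 1, revA w j = ua (n + 1) (j + 1) := by
    intro j hj
    rw [st_revA w hj, hZ _ (by omega), ua, Nat.add_sub_cancel, Nat.cast_sub (by omega)]
    field_simp
    push_cast
    ring
  have hV : ∀ j < n, revV g j = v (j + 1) := by
    intro j hj
    obtain ⟨i, rfl⟩ : ∃ i, n = j + 1 + i := ⟨n - (j + 1), by omega⟩
    have e : j + 1 + i + 1 - 1 - j = i + 1 := by omega
    rw [st_revV g (by omega), e, st_P_succ g (by omega : i + 1 < j + 1 + i + 1),
      st_P_succ g (by omega : i < j + 1 + i + 1)]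
    have e1 : j + 1 + i + 1 - (i + 1) = j + 1 := by omega
    have e2 : j + 1 + i + 1 - i = j + 1 + 1 := by omega
    simp only [g, e1, e2]
    rw [Finset.sum_eq_sum_Ico_succ_bot (by omega : j + 1 < j + 1 + i + 1), add_sub_cancel_right]
  have hV' : revV g n = 0 := by
    rw [st_revV g (Nat.lt_succ_self n), Nat.add_sub_cancel, Nat.sub_self,
      st_P_succ g (Nat.succ_pos n), st_P_zero]
    simp [g]
  have hst : IsStepField w g := by
    refine ⟨hR, fun _ => by positivity, ?_, fun i j hij => ?_, fun i => ?_⟩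
    · simp only [w, Finset.sum_const, card_univ, Fintype.card_fin, nsmul_eq_mul]
      field_simp
    · refine Finset.sum_le_sum_of_subset_of_nonneg (Finset.Ico_subset_Ico_left ?_)
        fun l hl _ => hv l (mem_Ico.1 hl).2
      have : i.val ≤ j.val := hij
      omega
    · exact Finset.sum_nonneg fun l hl => hv l (mem_Ico.1 hl).2
  refine ⟨w, g, hst, fun m => ?_, fun p hp => ?_⟩
  · rw [cfv_eq]
    unfold osc
    congr 1
    funext b
    congr 1
    rw [osv_update_zero (exps_ua hR).zero (fun i hi => ((exps_ua hR).pos i hi).le) hR (hv 0 hR)]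
    unfold osv
    rw [st_Ch_shift _ _ (Function.update_self _ _ _), Ch_succ, hV', gaussOp_zero_var,
      Finset.sum_range_succ, Finset.sum_range_succ', hV', Function.update_self,
      Ch_congr (a' := fun j => ua (n + 1) (j + 1)) (v' := fun j => Function.update v 0 0 (j + 1))
        (fun j hj => hA j (by omega))
        (fun j hj => by rw [hV j hj, Function.update_of_ne (Nat.succ_ne_zero j)]),
      Finset.sum_congr rfl fun j hj => hV j (mem_range.1 hj)]
    simp only [Function.update_of_ne (Nat.succ_ne_zero _)]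
  · rw [integral_stepFn hst hp, Finset.sum_range_succ, Finset.sum_range_succ', hV', zero_mul]
    have e : tl p (ua (n + 1) 0) = 0 := by simp [tl, ua]
    rw [e, mul_zero]
    congr 1
    refine Finset.sum_congr rfl fun j hj => ?_
    rw [hV j (mem_range.1 hj), hA j (by have := mem_range.1 hj; omega)]

lemma st_cfv_le (h : IsStepField w hv) {m : ℝ} (hm : |m| ≤ 1) (b : ℝ) :
    cfv m w hv ≤ fieldValueAt b w hv - b * m := by
  rw [cfv_eq, fieldValueAt_eq]
  exact osc_le (fun i _ => (revA_mem h i).1) _ hm b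

lemma constrainedFieldValue_eq (h : IsStepField w hv) {m : ℝ} (hm : |m| ≤ 1) :
    constrainedFieldValue m w hv = (cfv m w hv : EReal) := by
  refine (Monotone.map_ciInf_of_continuousAt continuous_coe_real_ereal.continuousAt
    EReal.coe_strictMono.monotone ⟨cfv m w hv, ?_⟩).symm
  rintro _ ⟨b, rfl⟩
  exact st_cfv_le h hm b

lemma cfv_zero (h : IsStepField w hv) : cfv 0 w hv = fieldValue w hv := by
  obtain ⟨b, h1, -, h2, -⟩ := exists_osc (a := revA w) (v := revV hv) (n := k)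
    (fun i _ => ⟨(revA_mem h i).1, (revA_mem h i).2.le⟩) (fun i _ => revV_nonneg h i)
    (m := 0) (by simp)
  rw [cfv_eq, h1, h2 rfl, ← fieldValueAt_eq, mul_zero, sub_zero]
  rfl

lemma cfv_le_fieldValue (h : IsStepField w hv) {m : ℝ} (hm : |m| ≤ 1) :
    cfv m w hv ≤ fieldValue w hv := by
  have := st_cfv_le h hm 0
  rwa [zero_mul, sub_zero] at this

/-- The variational value is at most `F`, in real terms. -/
def UBh {J : Type} [Fintype J] (G : (ℝ → ℝ) → ℝ) (c γ : J → ℝ) (F : ℝ) : Prop :=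
  ∀ m : J → ℚ, (∀ j, -1 < m j ∧ m j < 1) → ∃ p, IsTrialPath p ∧
    ∀ R : ℕ, 0 < R → ∀ v : ℕ → ℝ, (∀ i < R, 0 ≤ v i) →
      ∑ j, γ j * c j * m j + ∑ j, γ j * osc (ua R) v R (m j) +
        (∑ l ∈ range R, v l * tl p (ua R l)) / 2 + G p ≤ F

/-- The variational value at magnetisation `m` is at least `F`, in real terms. -/
def LBh {J : Type} [Fintype J] (G : (ℝ → ℝ) → ℝ) (c γ m : J → ℝ) (F : ℝ) : Prop :=
  ∀ p, IsTrialPath p → ∀ B : ℝ,
    (∀ (k : ℕ) (w hv : Fin k → ℝ), IsStepField w hv →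
      ∑ j, γ j * cfv (m j) w hv + (∫ s in Set.Ioo (0 : ℝ) 1, p s * stepFn w hv s) / 2 ≤ B) →
    F ≤ ∑ j, γ j * c j * m j + B + G p

lemma UBh.mono {J : Type} [Fintype J] {G G' : (ℝ → ℝ) → ℝ} {c γ : J → ℝ} {F e : ℝ}
    (h : UBh G c γ F) (hG : ∀ p, IsTrialPath p → G' p ≤ G p + e) : UBh G' c γ (F + e) := by
  intro m hm
  obtain ⟨p, hp, h1⟩ := h m hm
  refine ⟨p, hp, fun R hR v hv => ?_⟩
  linarith [h1 R hR v hv, hG p hp]

lemma LBh.mono {J : Type} [Fintype J] {G G' : (ℝ → ℝ) → ℝ} {c γ m : J → ℝ} {F e : ℝ}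
    (h : LBh G c γ m F) (hG : ∀ p, IsTrialPath p → G p ≤ G' p + e) : LBh G' c γ m (F - e) := by
  intro p hp B hB
  linarith [h p hp B hB, hG p hp]

lemma st_coe_sum {ι : Type} (s : Finset ι) (f : ι → ℝ) :
    ((∑ i ∈ s, f i : ℝ) : EReal) = ∑ i ∈ s, (f i : EReal) := by
  classical
  induction s using Finset.induction_on with
  | empty => simp
  | insert i s hi ih => rw [Finset.sum_insert hi, Finset.sum_insert hi, EReal.coe_add, ih]

lemma st_abs_le {x : ℚ} (h : -1 < x ∧ x < 1) : |(x : ℝ)| ≤ 1 :=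
  abs_le.2 ⟨by exact_mod_cast h.1.le, by exact_mod_cast h.2.le⟩

lemma st_group {J : ℕ} (γ : Fin J → ℚ) {m : Fin J → ℚ} (hm : ∀ j, -1 < m j ∧ m j < 1)
    (p : ℝ → ℝ) (h : IsStepField w hv) :
    groupFieldValue γ m w hv +
      (((1 / 2) * ∫ s in Set.Ioo (0 : ℝ) 1, p s * stepFn w hv s : ℝ) : EReal) =
    ((∑ j, (γ j : ℝ) * cfv (m j) w hv +
      (∫ s in Set.Ioo (0 : ℝ) 1, p s * stepFn w hv s) / 2 : ℝ) : EReal) := by
  rw [EReal.coe_add, st_coe_sum, groupFieldValue, one_div, ← div_eq_inv_mul]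
  congr 1
  refine Finset.sum_congr rfl fun j _ => ?_
  rw [constrainedFieldValue_eq h (st_abs_le (hm j)), EReal.coe_mul]

lemma st_le_cep {J : ℕ} (γ : Fin J → ℚ) {m : Fin J → ℚ} (hm : ∀ j, -1 < m j ∧ m j < 1)
    (p : ℝ → ℝ) (h : IsStepField w hv) :
    ((∑ j, (γ j : ℝ) * cfv (m j) w hv +
      (∫ s in Set.Ioo (0 : ℝ) 1, p s * stepFn w hv s) / 2 : ℝ) : EReal) ≤
      constrainedEntropyPart γ m p := by
  rw [← st_group γ hm p h]
  exact le_iSup_of_le k (le_iSup_of_le w (le_iSup_of_le hv (le_iSup_of_le h le_rfl)))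

theorem ubh_of_lt (μ : Measure ℝ) (lamPlus : ℝ) {J : ℕ} (c : Fin J → ℝ) (γ : Fin J → ℚ) {F : ℝ}
    (h : magneticValue μ lamPlus c γ < (F : EReal)) :
    UBh (spectralPart μ lamPlus) c (fun j => (γ j : ℝ)) F := by
  intro m hm
  have h1 : ((∑ j : Fin J, ((γ j : ℚ) : ℝ) * c j * ((m j : ℚ) : ℝ) : ℝ) : EReal) +
      ⨅ (p : ℝ → ℝ) (_ : IsTrialPath p),
        constrainedEntropyPart γ m p + ((spectralPart μ lamPlus p : ℝ) : EReal) < F :=
    lt_of_le_of_lt (le_iSup₂_of_le (f := fun (m : Fin J → ℚ)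
      (_ : ∀ j, (-1 : ℚ) < m j ∧ m j < 1) =>
        ((∑ j : Fin J, ((γ j : ℚ) : ℝ) * c j * ((m j : ℚ) : ℝ) : ℝ) : EReal) +
          ⨅ (p : ℝ → ℝ) (_ : IsTrialPath p),
            constrainedEntropyPart γ m p + ((spectralPart μ lamPlus p : ℝ) : EReal)) m hm le_rfl) h
  generalize (∑ j : Fin J, ((γ j : ℚ) : ℝ) * c j * ((m j : ℚ) : ℝ) : ℝ) = A at h1 ⊢
  have h2 : ⨅ (p : ℝ → ℝ) (_ : IsTrialPath p), constrainedEntropyPart γ m p +
      ((spectralPart μ lamPlus p : ℝ) : EReal) < ((F - A : ℝ) : EReal) := by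
    by_contra h3
    have h4 := add_le_add_right (not_lt.1 h3) (A : EReal)
    rw [← EReal.coe_add, add_sub_cancel] at h4
    exact absurd h1 (not_lt.2 h4)
  obtain ⟨p, h3⟩ := iInf_lt_iff.1 h2
  obtain ⟨hp, h4⟩ := iInf_lt_iff.1 h3
  refine ⟨p, hp, fun R hR v hv => ?_⟩
  obtain ⟨w, g, hst, h5, h6⟩ := exists_grid hR hv
  have h7 := (add_le_add_left (st_le_cep γ hm p hst) _).trans_lt h4
  rw [← EReal.coe_add, EReal.coe_lt_coe_iff, h6 p hp] at h7
  simp only [h5] at h7
  linarith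

theorem lbh_of_lt (μ : Measure ℝ) (lamPlus : ℝ) {J : ℕ} (c : Fin J → ℝ) (γ : Fin J → ℚ) {F : ℝ}
    (h : (F : EReal) < magneticValue μ lamPlus c γ) :
    ∃ m : Fin J → ℚ, (∀ j, -1 < m j ∧ m j < 1) ∧
      LBh (spectralPart μ lamPlus) c (fun j => (γ j : ℝ)) (fun j => (m j : ℝ)) F := by
  obtain ⟨m, h1⟩ := lt_iSup_iff.1 h
  obtain ⟨hm, h2⟩ := lt_iSup_iff.1 h1
  refine ⟨m, hm, fun p hp B hB => ?_⟩
  have h3 : constrainedEntropyPart γ m p ≤ (B : EReal) :=
    iSup_le fun k => iSup_le fun w => iSup_le fun g => iSup_le fun hst => by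
      rw [st_group γ hm p hst, EReal.coe_le_coe_iff]
      exact hB k w g hst
  have h4 := h2.trans_le (add_le_add_right ((iInf₂_le p hp).trans (add_le_add_left h3 _)) _)
  rw [← EReal.coe_add, ← EReal.coe_add, EReal.coe_lt_coe_iff] at h4
  linarith

/-- Zero field, one group: the supremum over `m` is attained at `m = 0`. -/
theorem magneticValue_zero (μ : Measure ℝ) (lamPlus : ℝ) :
    magneticValue μ lamPlus (fun _ : Fin 1 => 0) (fun _ => 1) = variationalValue μ lamPlus := by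
  have h0 : ∀ j : Fin 1, (-1 : ℚ) < (fun _ => 0 : Fin 1 → ℚ) j ∧
      (fun _ => 0 : Fin 1 → ℚ) j < 1 := fun _ => by norm_num
  apply le_antisymm
  · refine iSup₂_le fun m hm => ?_
    simp only [mul_zero, zero_mul, Finset.sum_const_zero, EReal.coe_zero, zero_add]
    refine iInf₂_mono fun p _ => add_le_add_left ?_ _
    refine iSup_mono fun k => iSup_mono fun w => iSup_mono fun g => iSup_mono fun hst => ?_
    rw [st_group _ hm p hst, EReal.coe_le_coe_iff]
    have := cfv_le_fieldValue hst (st_abs_le (hm 0))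
    simp only [Fin.sum_univ_one, Rat.cast_one, one_mul]
    linarith
  · refine le_iSup₂_of_le (fun _ => 0) h0 ?_
    simp only [mul_zero, zero_mul, Finset.sum_const_zero, EReal.coe_zero, zero_add]
    refine iInf₂_mono fun p _ => add_le_add_left ?_ _
    refine iSup_mono fun k => iSup_mono fun w => iSup_mono fun g => iSup_mono fun hst => ?_
    rw [st_group _ h0 p hst, EReal.coe_le_coe_iff]
    simp only [Fin.sum_univ_one, Rat.cast_one, one_mul, Rat.cast_zero, cfv_zero hst]
    linarith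

end Crest.Agent.R164
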