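import Crest.Agent.R164.Pen
import Crest.Agent.R164.Step

/-!
# R164 / Prp: approximate proportions
-/

set_option autoImplicit false

namespace Crest.Agent.R164

/-- The proportions of the labels are within `e` of `ρ`. -/
def Prp {ι α : Type} [Fintype ι] [DecidableEq α] (lab : ι → α) (ρ : α → ℝ) (e : ℝ) : Prop :=
  ∀ k, |(ct lab k : ℝ) / Fintype.card ι - ρ k| ≤ e

lemma Prp.mono {ι α : Type} [Fintype ι] [DecidableEq α] {lab : ι → α} {ρ : α → ℝ} {e e' : ℝ}
    (h : Prp lab ρ e) (he : e ≤ e') : Prp lab ρ e' := fun k => (h k).trans he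

end Crest.Agent.R164
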