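import Crest.Agent.R164.Rcmp
import Crest.Agent.R164.Prp

/-!
# R164 / Labels: finite spectra above and below the eigenvalues

`SpH` collects the spectral hypotheses.  Take `τ` from `spectralPart_le`, a grid
`t 0 < t 1 < … < t K` of continuity points of `μ` (atoms are countable) of mesh `≤ τ/2`,
`λ₋ - τ/2 ≤ t 0 < λ₋`, `λ₊ < t K ≤ λ₊ + τ/2`, cells `I k = (t k, t (k+1)]`, `μ_k = μ (I k)`.
`cell_tendsto`: the proportion of eigenvalues in a cell tends to `μ_k`.  Labels: `Option {k // 0 < μ_k}`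
(or any finite type; transport along `Fintype.equivFin` is not needed), rational
`ρ_k ∈ (μ_k - τ/K, μ_k)`, `ρ_k > 0`, `ρ none = 1 - Σ ρ_k ∈ (0, τ]`.  In each cell keep `⌊ρ_k N⌋` indices
with label `k`, all the others get label `none`.  Upper spectrum: values `t (k+1)`, and `t K` for `none`
(which is `k1`).  Lower spectrum: values `t k`, and `t 0` for `none`; `k1` is the highest charged cell,
`t k1 ≥ λ₊ - τ` by `edge`.
-/

set_option autoImplicit false

open MeasureTheory ProbabilityTheory Finset Filter Crest.ProbabilityR.InvariantGlass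

namespace Crest.Agent.R164

/-- The spectral hypotheses of the statements. -/
structure SpH (μ : Measure ℝ) (lamMinus lamPlus : ℝ) (eig : (N : ℕ) → Fin N → ℝ) : Prop where
  le : lamMinus ≤ lamPlus
  supp : μ (Set.Icc lamMinus lamPlus) = 1
  edge : ∀ ε : ℝ, 0 < ε →
    0 < μ (Set.Icc lamMinus (lamMinus + ε)) ∧ 0 < μ (Set.Icc (lamPlus - ε) lamPlus)
  weak : ∀ φ : ℝ → ℝ, Continuous φ → (∃ C : ℝ, ∀ x, |φ x| ≤ C) →
    Tendsto (fun N : ℕ => (1 / (N : ℝ)) * ∑ i : Fin N, φ (eig N i)) atTop (nhds (∫ x, φ x ∂μ))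
  ext : ∀ ε : ℝ, 0 < ε → ∀ᶠ N : ℕ in atTop, ∀ i : Fin N,
    lamMinus - ε ≤ eig N i ∧ eig N i ≤ lamPlus + ε

variable {μ : Measure ℝ} [IsProbabilityMeasure μ] {lamMinus lamPlus : ℝ} {eig : (N : ℕ) → Fin N → ℝ}

/-- The empirical law of `N + 1` points. -/
noncomputable def labEmp {N : ℕ} (c : Fin (N + 1) → ℝ) : ProbabilityMeasure ℝ :=
  ⟨((N + 1 : ℕ) : ENNReal)⁻¹ • ∑ i, Measure.dirac (c i), ⟨by
    simp only [Measure.smul_apply, Measure.coe_finsetSum, Finset.sum_apply, measure_univ,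
      Finset.sum_const, card_univ, Fintype.card_fin, nsmul_eq_mul, mul_one, smul_eq_mul]
    exact ENNReal.inv_mul_cancel (by simp) (by simp)⟩⟩

lemma lab_integral_emp {N : ℕ} (c : Fin (N + 1) → ℝ) (f : ℝ → ℝ) :
    ∫ x, f x ∂(labEmp c : Measure ℝ) = (1 / ((N + 1 : ℕ) : ℝ)) * ∑ i, f (c i) := by
  change ∫ x, f x ∂(((N + 1 : ℕ) : ENNReal)⁻¹ • ∑ i, Measure.dirac (c i)) = _
  rw [integral_smul_measure, integral_finsetSum_measure fun i _ => integrable_dirac (by simp)]
  simp only [integral_dirac, ENNReal.toReal_inv, ENNReal.toReal_natCast, smul_eq_mul, one_div]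

lemma cell_tendsto (h : SpH μ lamMinus lamPlus eig) {s t : ℝ} (hs : μ {s} = 0) (ht : μ {t} = 0) :
    Tendsto (fun N : ℕ => ((univ.filter fun i : Fin N => s < eig N i ∧ eig N i ≤ t).card : ℝ) / N)
      atTop (nhds (μ.real (Set.Ioc s t))) := by
  let μ' : ProbabilityMeasure ℝ := ⟨μ, inferInstance⟩
  have h1 : Tendsto (fun N => labEmp (eig (N + 1))) atTop (nhds μ') := by
    rw [ProbabilityMeasure.tendsto_iff_forall_integral_tendsto]
    intro f
    simp only [lab_integral_emp]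
    exact (tendsto_add_atTop_iff_nat (f := fun N : ℕ => (1 / (N : ℝ)) * ∑ i : Fin N, f (eig N i))
      1).2 (h.weak f f.continuous ⟨‖f‖, fun x => f.norm_coe_le_norm x⟩)
  have hf : (μ' : Measure ℝ) (frontier (Set.Ioc s t)) = 0 := by
    change μ _ = 0
    rcases lt_or_ge s t with hst | hst
    · rw [frontier_Ioc hst]
      exact measure_union_null hs ht
    · rw [Set.Ioc_eq_empty (not_lt.2 hst), frontier_empty, measure_empty]
  have h2 := (ENNReal.tendsto_toReal (measure_ne_top _ _)).comp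
    (ProbabilityMeasure.tendsto_measure_of_null_frontier_of_tendsto' h1 hf)
  rw [← tendsto_add_atTop_iff_nat 1]
  refine h2.congr fun N => ?_
  change (labEmp (eig (N + 1)) : Measure ℝ).real (Set.Ioc s t) = _
  rw [← integral_indicator_one measurableSet_Ioc, lab_integral_emp, Finset.card_filter, one_div,
    inv_mul_eq_div]
  push_cast
  congr 1
  refine Finset.sum_congr rfl fun i _ => ?_
  simp only [Set.indicator_apply, Set.mem_Ioc, Pi.one_apply]

/-- Choice of labels with prescribed proportions inside disjoint sets. -/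
lemma lab_choose {κ : Type} [Fintype κ] [DecidableEq κ] {N : ℕ} (hN : 0 < N)
    (C : κ → Finset (Fin N)) (hC : ∀ k l i, i ∈ C k → i ∈ C l → k = l) (ρ : κ → ℝ)
    (hρ : ∀ k, 0 ≤ ρ k) (hρC : ∀ k, ρ k * N ≤ (C k).card) {e : ℝ}
    (he : ((Fintype.card κ : ℝ) + 1) / N ≤ e) :
    ∃ lab : Fin N → Option κ, Prp lab (fun o => o.elim (1 - ∑ k, ρ k) ρ) e ∧
      ∀ i k, lab i = some k → i ∈ C k := by
  have hN' : (0 : ℝ) < N := Nat.cast_pos.2 hN
  have hT : ∀ k, ∃ T ⊆ C k, T.card = ⌊ρ k * N⌋₊ := fun k =>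
    Finset.exists_subset_card_eq (Nat.floor_le_of_le (hρC k))
  choose T hTC hT using hT
  classical
  let lab : Fin N → Option κ := fun i => if h : ∃ k, i ∈ T k then some h.choose else none
  have hlab : ∀ i k, lab i = some k ↔ i ∈ T k := fun i k => by
    constructor
    · intro h
      by_cases h' : ∃ k, i ∈ T k
      · simp only [lab, dif_pos h', Option.some.injEq] at h
        exact h ▸ h'.choose_spec
      · simp [lab, dif_neg h'] at h
    · intro h
      have h' : ∃ k, i ∈ T k := ⟨k, h⟩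
      simp only [lab, dif_pos h', Option.some.injEq]
      exact hC _ _ i (hTC _ h'.choose_spec) (hTC _ h)
  have hct : ∀ k, ct lab (some k) = ⌊ρ k * N⌋₊ := fun k => by
    rw [← hT k, ct]
    congr 1
    ext i
    simp [hlab]
  have h1 : ∀ k, 0 ≤ ρ k - (ct lab (some k) : ℝ) / N ∧ ρ k - (ct lab (some k) : ℝ) / N ≤ 1 / N :=
    fun k => by
      have e1 : ρ k - (ct lab (some k) : ℝ) / N = (ρ k * N - ⌊ρ k * N⌋₊) / N := by
        rw [hct]; field_simp
      have h2 := Nat.floor_le (a := ρ k * N) (mul_nonneg (hρ k) hN'.le)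
      have h3 := Nat.lt_floor_add_one (ρ k * N)
      rw [e1]
      exact ⟨div_nonneg (by linarith) hN'.le, div_le_div_of_nonneg_right (by linarith) hN'.le⟩
  have hc0 : (0 : ℝ) ≤ Fintype.card κ := Nat.cast_nonneg _
  refine ⟨lab, fun o => ?_, fun i k h => hTC _ ((hlab i k).1 h)⟩
  rw [Fintype.card_fin]
  refine le_trans ?_ he
  cases o with
  | none =>
    have h2 : (ct lab none : ℝ) + ∑ k, (ct lab (some k) : ℝ) = N := by
      have := sum_ct lab
      rw [Fintype.sum_option, Fintype.card_fin] at this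
      exact_mod_cast this
    have e1 : (ct lab none : ℝ) / N - (1 - ∑ k, ρ k) = ∑ k, (ρ k - (ct lab (some k) : ℝ) / N) := by
      rw [Finset.sum_sub_distrib, ← Finset.sum_div, eq_sub_of_add_eq h2]
      field_simp
      ring
    simp only [Option.elim]
    rw [e1, abs_of_nonneg (Finset.sum_nonneg fun k _ => (h1 k).1)]
    refine (Finset.sum_le_sum fun k _ => (h1 k).2).trans ?_
    rw [Finset.sum_const, card_univ, nsmul_eq_mul, mul_one_div]
    exact div_le_div_of_nonneg_right (by linarith) hN'.le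
  | some k =>
    simp only [Option.elim]
    rw [abs_sub_comm, abs_of_nonneg (h1 k).1]
    exact (h1 k).2.trans (div_le_div_of_nonneg_right (by linarith) hN'.le)

/-- A grid of continuity points. -/
lemma lab_grid (μ : Measure ℝ) [IsProbabilityMeasure μ] (x h : ℝ) (hh : 0 < h) :
    ∃ a : ℝ, x - h < a ∧ a < x ∧ ∀ j : ℕ, μ {a + j * h} = 0 := by
  have h1 : ∀ j : ℕ, Set.Countable {a : ℝ | 0 < μ {y | y - j * h = a}} := fun j =>
    Measure.countable_meas_level_set_pos (by fun_prop)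
  have h2 := (Set.countable_iUnion h1).dense_compl ℝ
  obtain ⟨a, ha, ha'⟩ := h2.inter_open_nonempty (Set.Ioo (x - h) x) isOpen_Ioo
    (Set.nonempty_Ioo.2 (by linarith))
  refine ⟨a, ha.1, ha.2, fun j => ?_⟩
  by_contra hne
  refine ha' (Set.mem_iUnion.2 ⟨j, ?_⟩)
  have e : {y : ℝ | y - j * h = a} = {a + j * h} := by
    ext y
    simp [sub_eq_iff_eq_add]
  change 0 < μ _
  rw [e]
  exact pos_iff_ne_zero.2 hne

/-- Cells, weights and labels. -/
lemma lab_core (h : SpH μ lamMinus lamPlus eig) {τ : ℝ} (hτ : 0 < τ) :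
    ∃ (κ : Type) (_ : Fintype κ) (_ : DecidableEq κ) (s t : κ → ℝ) (a b : ℝ) (ρ : κ → ℚ),
      (∀ k, 0 < (ρ k : ℝ)) ∧ 0 < 1 - ∑ k, (ρ k : ℝ) ∧ lamMinus - τ ≤ a ∧ b ≤ lamPlus + τ ∧ a ≤ b ∧
      (∀ k, a ≤ s k ∧ s k ≤ t k ∧ t k ≤ b ∧ t k ≤ s k + τ) ∧ (∃ k, lamPlus ≤ s k + τ) ∧
      (∀ (P : Finset κ) (D : Set ℝ), (∀ k ∈ P, Set.Ioc (s k) (t k) ⊆ D) →
        ∑ k ∈ P, (ρ k : ℝ) ≤ μ.real D) ∧ 1 - ∑ k, (ρ k : ℝ) ≤ τ ∧
      ∀ e : ℝ, 0 < e → ∀ᶠ N : ℕ in atTop, ∃ lab : Fin N → Option κ,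
        Prp lab (fun o => o.elim (1 - ∑ k, (ρ k : ℝ)) fun k => ρ k) e ∧
        (∀ i, a ≤ eig N i ∧ eig N i ≤ b) ∧ ∀ i k, lab i = some k → s k ≤ eig N i ∧ eig N i ≤ t k := by
  set w := τ / 2 with hw
  have hw0 : 0 < w := by positivity
  obtain ⟨a, ha1, ha2, ha⟩ := lab_grid μ lamMinus w hw0
  have hle := h.le
  set M := ⌊(lamPlus - a) / w⌋₊ + 1 with hM
  have hM0 : (0 : ℝ) < M := by positivity
  have hb1 : lamPlus < a + M * w := by
    have := Nat.lt_floor_add_one ((lamPlus - a) / w)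
    rw [div_lt_iff₀ hw0] at this
    push_cast [hM]
    linarith
  have hb2 : a + M * w ≤ lamPlus + w := by
    have := Nat.floor_le (a := (lamPlus - a) / w) (div_nonneg (by linarith) hw0.le)
    rw [le_div_iff₀ hw0] at this
    push_cast [hM]
    linarith
  let I : Fin M → Set ℝ := fun j => Set.Ioc (a + (j : ℕ) * w) (a + ((j : ℕ) + 1 : ℕ) * w)
  have hdis : ∀ j l x, x ∈ I j → x ∈ I l → j = l := fun j l x hj hl => by
    have h1 : ((j : ℕ) : ℝ) < ((l : ℕ) + 1 : ℕ) :=
      lt_of_mul_lt_mul_right (by linarith [hj.1, hl.2]) hw0.le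
    have h2 : ((l : ℕ) : ℝ) < ((j : ℕ) + 1 : ℕ) :=
      lt_of_mul_lt_mul_right (by linarith [hj.2, hl.1]) hw0.le
    have h3 := Nat.cast_lt.1 h1
    have h4 := Nat.cast_lt.1 h2
    exact Fin.ext (by omega)
  have hcov : ∀ x ∈ Set.Icc lamMinus lamPlus, ∃ j, x ∈ I j := fun x hx => by
    have h0 : 0 < (x - a) / w := div_pos (by linarith [hx.1]) hw0
    have h1 : 0 < ⌈(x - a) / w⌉₊ := Nat.ceil_pos.2 h0
    have h2 : ⌈(x - a) / w⌉₊ ≤ M := Nat.ceil_le.2 (by rw [div_le_iff₀ hw0]; linarith [hx.2])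
    refine ⟨⟨⌈(x - a) / w⌉₊ - 1, by omega⟩, ?_, ?_⟩
    · have h3 := Nat.ceil_lt_add_one h0.le
      have h4 : ((⌈(x - a) / w⌉₊ - 1 : ℕ) : ℝ) < (x - a) / w := by
        rw [Nat.cast_sub h1]; push_cast; linarith
      rw [lt_div_iff₀ hw0] at h4
      linarith
    · have h3 := Nat.le_ceil ((x - a) / w)
      rw [div_le_iff₀ hw0] at h3
      change x ≤ a + ((⌈(x - a) / w⌉₊ - 1 + 1 : ℕ) : ℝ) * w
      rw [Nat.sub_add_cancel h1]
      linarith
  let κ : Type := {j : Fin M // 0 < μ.real (I j)}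
  have hρ : ∀ k : κ, ∃ q : ℚ, max 0 (μ.real (I k.1) - τ / M) < q ∧ (q : ℝ) < μ.real (I k.1) :=
    fun k => exists_rat_btwn (max_lt k.2 (by linarith [div_pos hτ hM0]))
  choose ρ hρ1 hρ2 using hρ
  -- every set of positive measure inside the support is charged through `κ`
  have hch : ∀ D : Set ℝ, D ⊆ Set.Icc lamMinus lamPlus →
      μ.real D ≤ ∑ k : κ, μ.real (I k.1 ∩ D) := fun D hD => by
    calc μ.real D ≤ μ.real (⋃ j, I j ∩ D) := measureReal_mono fun x hx => by
          obtain ⟨j, hj⟩ := hcov x (hD hx)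
          exact Set.mem_iUnion.2 ⟨j, hj, hx⟩
      _ ≤ ∑ j, μ.real (I j ∩ D) := measureReal_iUnion_fintype_le _
      _ = ∑ j ∈ univ.filter fun j => 0 < μ.real (I j), μ.real (I j ∩ D) := by
          refine (Finset.sum_filter_of_ne fun j _ hj => ?_).symm
          exact lt_of_lt_of_le (lt_of_le_of_ne measureReal_nonneg hj.symm)
            (measureReal_mono Set.inter_subset_left)
      _ = _ := Finset.sum_subtype _ (by simp) _
  have hsum : ∀ (P : Finset κ) (D : Set ℝ), (∀ k ∈ P, I k.1 ⊆ D) →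
      ∑ k ∈ P, μ.real (I k.1) ≤ μ.real D := fun P D hD => by
    rw [← measureReal_biUnion_finset (fun k _ l _ hkl => Set.disjoint_left.2 fun x hk hl =>
      hkl (Subtype.ext (hdis _ _ x hk hl))) fun k _ => measurableSet_Ioc]
    exact measureReal_mono (Set.iUnion₂_subset hD)
  have hone : 1 ≤ ∑ k : κ, μ.real (I k.1) := by
    have h1 := hch _ subset_rfl
    rw [measureReal_def, h.supp, ENNReal.toReal_one] at h1
    exact h1.trans (Finset.sum_le_sum fun k _ => measureReal_mono Set.inter_subset_left)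
  have hone' : ∑ k : κ, μ.real (I k.1) ≤ 1 := by
    simpa using hsum univ Set.univ fun _ _ => Set.subset_univ _
  have hne : (univ : Finset κ).Nonempty := by
    by_contra hn
    rw [Finset.not_nonempty_iff_eq_empty.1 hn, Finset.sum_empty] at hone
    linarith
  have hcard : (Fintype.card κ : ℝ) ≤ M := by
    exact_mod_cast (Fintype.card_subtype_le _).trans (Fintype.card_fin M).le
  refine ⟨κ, inferInstance, inferInstance, fun k => a + (k.1 : ℕ) * w,
    fun k => a + ((k.1 : ℕ) + 1 : ℕ) * w, a, a + M * w, ρ, fun k => (le_max_left _ _).trans_lt (hρ1 k),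
    ?_, by linarith, by linarith, by linarith, fun k => ?_, ?_, fun P D hD => ?_, ?_, fun e he => ?_⟩
  · linarith [Finset.sum_lt_sum_of_nonempty hne fun k _ => hρ2 k]
  · have h1 : (((k.1 : ℕ) + 1 : ℕ) : ℝ) ≤ M := Nat.cast_le.2 k.1.2
    have h2 : (0 : ℝ) ≤ (k.1 : ℕ) := Nat.cast_nonneg _
    push_cast at h1 ⊢
    refine ⟨?_, ?_, ?_, ?_⟩ <;> nlinarith
  · by_contra hn
    push Not at hn
    have h1 := hch (Set.Icc (lamPlus - w) lamPlus ∩ Set.Icc lamMinus lamPlus)
      Set.inter_subset_right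
    have h2 : ∀ k : κ,
        I k.1 ∩ (Set.Icc (lamPlus - w) lamPlus ∩ Set.Icc lamMinus lamPlus) = ∅ := fun k => by
      refine Set.eq_empty_of_forall_notMem fun x hx => ?_
      have h3 := hn k
      have h4 := hx.1.2
      have h5 := hx.2.1.1
      push_cast at h4
      linarith
    simp only [h2, measureReal_empty, Finset.sum_const_zero] at h1
    rw [measureReal_def, measure_inter_conull
      ((prob_compl_eq_zero_iff measurableSet_Icc).2 h.supp)] at h1
    exact absurd (ENNReal.toReal_pos (h.edge w hw0).2.ne' (measure_ne_top _ _)) (not_lt.2 h1)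
  · exact (Finset.sum_le_sum fun k _ => (hρ2 k).le).trans (hsum P D hD)
  · have h1 : ∑ k : κ, (μ.real (I k.1) - τ / M) ≤ ∑ k, (ρ k : ℝ) :=
      Finset.sum_le_sum fun k _ => ((le_max_right _ _).trans_lt (hρ1 k)).le
    rw [Finset.sum_sub_distrib, Finset.sum_const, card_univ, nsmul_eq_mul] at h1
    have h2 : (Fintype.card κ : ℝ) * (τ / M) ≤ M * (τ / M) :=
      mul_le_mul_of_nonneg_right hcard (by positivity)
    have h3 : (M : ℝ) * (τ / M) = τ := by field_simp
    linarith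
  · have e1 : ∀ᶠ N : ℕ in atTop, ∀ k : κ, (ρ k : ℝ) <
        ((univ.filter fun i : Fin N => a + (k.1 : ℕ) * w < eig N i ∧
          eig N i ≤ a + ((k.1 : ℕ) + 1 : ℕ) * w).card : ℝ) / N :=
      eventually_all.2 fun k => (cell_tendsto h (ha _) (ha _)).eventually (lt_mem_nhds (hρ2 k))
    have e2 : ∀ᶠ N : ℕ in atTop, ((Fintype.card κ : ℝ) + 1) / N ≤ e :=
      (tendsto_const_div_atTop_nhds_zero_nat _).eventually (ge_mem_nhds he)
    filter_upwards [e1, e2, eventually_gt_atTop 0,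
      h.ext (min (lamMinus - a) (a + M * w - lamPlus)) (lt_min (by linarith) (by linarith))]
      with N h1 h2 h3 h4
    obtain ⟨lab, hl1, hl2⟩ := lab_choose h3 (fun k : κ => univ.filter fun i : Fin N =>
        a + (k.1 : ℕ) * w < eig N i ∧ eig N i ≤ a + ((k.1 : ℕ) + 1 : ℕ) * w)
      (fun k l i hk hl => Subtype.ext (hdis _ _ (eig N i) (mem_filter.1 hk).2 (mem_filter.1 hl).2))
      (fun k => (ρ k : ℝ)) (fun k => ((le_max_left _ _).trans_lt (hρ1 k)).le)
      (fun k => ((lt_div_iff₀ (Nat.cast_pos.2 h3)).1 (h1 k)).le) h2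
    refine ⟨lab, hl1, fun i => ⟨?_, ?_⟩, fun i k hk => ?_⟩
    · linarith [(h4 i).1, min_le_left (lamMinus - a) (a + M * w - lamPlus)]
    · linarith [(h4 i).2, min_le_right (lamMinus - a) (a + M * w - lamPlus)]
    · exact ⟨(mem_filter.1 (hl2 i k hk)).2.1.le, (mem_filter.1 (hl2 i k hk)).2.2⟩

open Classical in
lemma lab_meas_real {κ : Type} [Fintype κ] (S : Spec κ) {C : Set ℝ} (hC : MeasurableSet C) :
    S.meas.real C = ∑ k, if S.lam k ∈ C then S.ρ k else 0 := by
  have := S.isProb_meas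
  rw [← integral_indicator_one hC]
  unfold Spec.meas
  rw [integral_finsetSum_measure fun k _ =>
    (integrable_dirac (by simp)).smul_measure ENNReal.ofReal_ne_top]
  refine Finset.sum_congr rfl fun k _ => ?_
  rw [integral_smul_measure, integral_dirac, ENNReal.toReal_ofReal (S.ρ_pos k).le, smul_eq_mul,
    Set.indicator_apply]
  simp

lemma lab_meas_Icc {κ : Type} [Fintype κ] (S : Spec κ) {lo : ℝ} (h : ∀ k, lo ≤ S.lam k) :
    S.meas (Set.Icc lo (S.lam S.k1)) = 1 := by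
  have := S.isProb_meas
  rw [← ENNReal.toReal_eq_one_iff, ← measureReal_def, lab_meas_real S measurableSet_Icc,
    ← S.ρ_sum]
  exact Finset.sum_congr rfl fun k _ => if_pos ⟨h k, S.lam_le k⟩

lemma lab_meas_le {κ : Type} [Fintype κ] (S : Spec (Option κ)) {C : Set ℝ} (hC : MeasurableSet C)
    {m τ : ℝ} (hτ : S.ρ none ≤ τ)
    (h : ∀ P : Finset κ, (∀ k ∈ P, S.lam (some k) ∈ C) → ∑ k ∈ P, S.ρ (some k) ≤ m) :
    S.meas.real C ≤ m + τ := by
  classical
  rw [lab_meas_real S hC, Fintype.sum_option, ← Finset.sum_filter]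
  have h1 := h (univ.filter fun k => S.lam (some k) ∈ C) fun k hk => (mem_filter.1 hk).2
  have h2 : (if S.lam none ∈ C then S.ρ none else 0) ≤ τ := by
    split_ifs
    · exact hτ
    · exact (S.ρ_pos none).le.trans hτ
  linarith

/-- Transport of a finite spectrum to `Fin K`. -/
lemma lab_fin {κ : Type} [Fintype κ] [DecidableEq κ] (S : Spec κ) :
    ∃ (K : ℕ) (S' : Spec (Fin K)) (e : κ ≃ Fin K), (∀ k, S'.ρ k = S.ρ (e.symm k)) ∧
      (∀ k, S'.lam (e k) = S.lam k) ∧ (∀ p, S'.G p = S.G p) ∧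
      ∀ (N : ℕ) (lab : Fin N → κ) (ε : ℝ), Prp lab S.ρ ε → Prp (fun i => e (lab i)) S'.ρ ε := by
  let e := Fintype.equivFin κ
  let S' : Spec (Fin (Fintype.card κ)) :=
    { ρ := fun k => S.ρ (e.symm k)
      lam := fun k => S.lam (e.symm k)
      k1 := e S.k1
      ρ_pos := fun k => S.ρ_pos _
      ρ_sum := (e.symm.sum_comp S.ρ).trans S.ρ_sum
      lam_le := fun k => by rw [e.symm_apply_apply]; exact S.lam_le _ }
  refine ⟨_, S', e, fun _ => rfl, fun k => congrArg S.lam (e.symm_apply_apply k), fun p => ?_,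
    fun N lab ε h k => ?_⟩
  · have e1 : S'.meas = S.meas :=
      e.symm.sum_comp fun k => ENNReal.ofReal (S.ρ k) • Measure.dirac (S.lam k)
    have e2 : S'.lam S'.k1 = S.lam S.k1 := congrArg S.lam (e.symm_apply_apply _)
    unfold Spec.G
    rw [e1, e2]
  · have e1 : ct (fun i => e (lab i)) k = ct lab (e.symm k) := by
      simp only [ct, Equiv.eq_symm_apply]
    rw [e1]
    exact h (e.symm k)

theorem exists_spec_upper (h : SpH μ lamMinus lamPlus eig) {ε : ℝ} (hε : 0 < ε) :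
    ∃ (K : ℕ) (S : Spec (Fin K)), (∀ p, IsTrialPath p → S.G p ≤ spectralPart μ lamPlus p + ε) ∧
      ∀ e : ℝ, 0 < e → ∀ᶠ N : ℕ in atTop, ∃ lab : Fin N → Fin K, Prp lab S.ρ e ∧
        ∀ i, eig N i ≤ S.lam (lab i) := by
  obtain ⟨τ₀, hτ₀, H⟩ := spectralPart_le (lamMinus - 1) lamPlus ε hε
  obtain ⟨κ, _, _, s, t, a, b, ρ, hρ, hρ0, ha, hb, hab, hst, -, hP, hτ, hlab⟩ :=
    lab_core h (lt_min hτ₀ one_pos)
  have m1 := min_le_left τ₀ 1
  have m2 := min_le_right τ₀ 1
  let S : Spec (Option κ) :=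
    { ρ := fun o => o.elim (1 - ∑ k, (ρ k : ℝ)) fun k => ρ k
      lam := fun o => o.elim b t
      k1 := none
      ρ_pos := fun o => by cases o; exacts [hρ0, hρ _]
      ρ_sum := by simp
      lam_le := fun o => by cases o; exacts [le_rfl, (hst _).2.2.1] }
  have := S.isProb_meas
  obtain ⟨K, S', e, -, hlam, hG, hPrp⟩ := lab_fin S
  refine ⟨K, S', fun p hp => ?_, fun e' he' => ?_⟩
  · rw [hG]
    refine H μ S.meas lamPlus b ?_ (lab_meas_Icc S fun o => ?_) le_rfl (by linarith) (fun x => ?_)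
      p hp
    · exact le_antisymm prob_le_one (h.supp.ge.trans
        (measure_mono (Set.Icc_subset_Icc (by linarith) le_rfl)))
    · cases o with
      | none => change lamMinus - 1 ≤ b; linarith
      | some k => change lamMinus - 1 ≤ t k; linarith [(hst k).1, (hst k).2.1]
    · refine lab_meas_le S measurableSet_Ioi (hτ.trans m1) fun P hPC => hP P _ fun k hk y hy => ?_
      have h1 : x + τ₀ < t k := hPC k hk
      change x < y
      linarith [hy.1, (hst k).2.2.2]
  · filter_upwards [hlab e' he'] with N ⟨lab, h1, h2, h3⟩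
    refine ⟨fun i => e (lab i), hPrp N lab e' h1, fun i => ?_⟩
    rw [hlam]
    cases hi : lab i with
    | none => exact (h2 i).2
    | some k => exact (h3 i k hi).2

theorem exists_spec_lower (h : SpH μ lamMinus lamPlus eig) {ε : ℝ} (hε : 0 < ε) :
    ∃ (K : ℕ) (S : Spec (Fin K)) (ρ : Fin K → ℚ), (∀ k, S.ρ k = ρ k) ∧
      (∀ p, IsTrialPath p → spectralPart μ lamPlus p ≤ S.G p + ε) ∧
      ∀ e : ℝ, 0 < e → ∀ᶠ N : ℕ in atTop, ∃ lab : Fin N → Fin K, Prp lab S.ρ e ∧
        ∀ i, S.lam (lab i) ≤ eig N i := by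
  obtain ⟨τ₀, hτ₀, H⟩ := spectralPart_le (lamMinus - 1) (lamPlus + 1) ε hε
  obtain ⟨κ, _, _, s, t, a, b, ρ, hρ, hρ0, ha, hb, hab, hst, ⟨k₀, hk₀⟩, hP, hτ, hlab⟩ :=
    lab_core h (lt_min hτ₀ one_pos)
  have m1 := min_le_left τ₀ 1
  have m2 := min_le_right τ₀ 1
  obtain ⟨k₁, -, hk₁⟩ := Finset.exists_max_image univ s ⟨k₀, mem_univ _⟩
  let S : Spec (Option κ) :=
    { ρ := fun o => o.elim (1 - ∑ k, (ρ k : ℝ)) fun k => ρ k
      lam := fun o => o.elim a s
      k1 := some k₁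
      ρ_pos := fun o => by cases o; exacts [hρ0, hρ _]
      ρ_sum := by simp
      lam_le := fun o => by cases o; exacts [(hst _).1, hk₁ _ (mem_univ _)] }
  have := S.isProb_meas
  obtain ⟨K, S', e, hρ', hlam, hG, hPrp⟩ := lab_fin S
  refine ⟨K, S', fun k => (e.symm k).elim (1 - ∑ k, ρ k) ρ, fun k => ?_, fun p hp => ?_,
    fun e' he' => ?_⟩
  · rw [hρ']
    beta_reduce
    cases e.symm k <;> simp [S]
  · rw [hG]
    refine H S.meas μ (s k₁) lamPlus (lab_meas_Icc S fun o => ?_) ?_ ?_ ?_ (fun x => ?_) p hp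
    · cases o with
      | none => change lamMinus - 1 ≤ a; linarith
      | some k => change lamMinus - 1 ≤ s k; linarith [(hst k).1]
    · exact le_antisymm prob_le_one (h.supp.ge.trans
        (measure_mono (Set.Icc_subset_Icc (by linarith) le_rfl)))
    · linarith [(hst k₁).2.1, (hst k₁).2.2.1]
    · linarith [hk₁ k₀ (mem_univ _)]
    · have h1 : S.meas.real (Set.Iic x) ≤ μ.real (Set.Iic (x + τ₀)) + τ₀ := by
        refine lab_meas_le S measurableSet_Iic (hτ.trans m1) fun P hPC => hP P _ fun k hk y hy => ?_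
        have h1 : s k ≤ x := hPC k hk
        change y ≤ x + τ₀
        linarith [hy.2, (hst k).2.2.2]
      rw [← Set.compl_Iic, ← Set.compl_Iic, probReal_compl_eq_one_sub measurableSet_Iic,
        probReal_compl_eq_one_sub measurableSet_Iic]
      linarith
  · filter_upwards [hlab e' he'] with N ⟨lab, h1, h2, h3⟩
    refine ⟨fun i => e (lab i), hPrp N lab e' h1, fun i => ?_⟩
    rw [hlam]
    cases hi : lab i with
    | none => exact (h2 i).1
    | some k => exact (h3 i k hi).1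

end Crest.Agent.R164
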