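import Mathlib

/-!
# R164 / Lev: level spaces (probability space + growth function) and flows (`Dir`)

`Lev Y`: a probability measure `μ` on `Y`, a growth function `n ≥ 0` with all exponential moments
and a base point.  Instances: `ℝ` (standard Gaussian), `Bool` (uniform), products, finite powers.
`Dir Y`: a flow `τ` on `Y` under which `μ` is quasi-invariant with density
`exp (-θ γ - θ² c / 2)` (Cameron–Martin for a Gaussian coordinate; `γ = 0, c = 0` for a rotation of
a Haar matrix).  All proved (helper18); do not edit.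
-/

set_option autoImplicit false

open MeasureTheory ProbabilityTheory

namespace Crest.Agent.R164

/-- A level space. -/
class Lev (Y : Type) [MeasurableSpace Y] where
  μ : Measure Y
  prob : IsProbabilityMeasure μ
  n : Y → ℝ
  n_nonneg : ∀ y, 0 ≤ n y
  n_meas : Measurable n
  n_int : ∀ C : ℝ, Integrable (fun y => Real.exp (C * n y)) μ
  pt : Y

instance (Y : Type) [MeasurableSpace Y] [Lev Y] : IsProbabilityMeasure (Lev.μ : Measure Y) :=
  Lev.prob

/-- The standard Gaussian measure. -/
noncomputable abbrev gs : Measure ℝ := gaussianReal 0 1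

lemma integrable_exp_abs_gs (C : ℝ) : Integrable (fun y : ℝ => Real.exp (C * |y|)) gs := by
  have h1 : Integrable (fun y : ℝ => Real.exp (C * y)) gs := integrable_exp_mul_gaussianReal C
  have h2 : Integrable (fun y : ℝ => Real.exp (-C * y)) gs := integrable_exp_mul_gaussianReal (-C)
  refine (h1.add h2).mono' (by fun_prop) (Filter.Eventually.of_forall fun y => ?_)
  rw [Real.norm_of_nonneg (Real.exp_pos _).le]
  simp only [Pi.add_apply]
  rcases abs_cases y with h | h
  · rw [h.1]; linarith [Real.exp_pos (-C * y)]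
  · rw [h.1, show C * -y = -C * y by ring]; linarith [Real.exp_pos (C * y)]

noncomputable instance : Lev ℝ where
  μ := gs
  prob := inferInstance
  n := fun y => |y|
  n_nonneg := abs_nonneg
  n_meas := by fun_prop
  n_int := integrable_exp_abs_gs
  pt := 0

/-- The uniform measure on `Bool`. -/
noncomputable def ub : Measure Bool :=
  (2⁻¹ : ENNReal) • Measure.dirac true + (2⁻¹ : ENNReal) • Measure.dirac false

instance : IsProbabilityMeasure ub := ⟨by
  simp [ub, ENNReal.inv_two_add_inv_two]⟩

lemma integral_ub (f : Bool → ℝ) : ∫ b, f b ∂ub = (f true + f false) / 2 := by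
  rw [integral_fintype Integrable.of_finite]
  simp [ub, Measure.real]
  ring

noncomputable instance : Lev Bool where
  μ := ub
  prob := inferInstance
  n := fun _ => 0
  n_nonneg := fun _ => le_rfl
  n_meas := measurable_const
  n_int := fun _ => integrable_const _
  pt := true

noncomputable instance (Y Y' : Type) [MeasurableSpace Y] [MeasurableSpace Y'] [Lev Y] [Lev Y'] :
    Lev (Y × Y') where
  μ := (Lev.μ : Measure Y).prod (Lev.μ : Measure Y')
  prob := inferInstance
  n := fun y => Lev.n y.1 + Lev.n y.2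
  n_nonneg := fun y => add_nonneg (Lev.n_nonneg _) (Lev.n_nonneg _)
  n_meas := (Lev.n_meas.comp measurable_fst).add (Lev.n_meas.comp measurable_snd)
  n_int := fun C => by
    simp_rw [mul_add, Real.exp_add]
    exact (Lev.n_int C).mul_prod (Lev.n_int C)
  pt := (Lev.pt, Lev.pt)

noncomputable instance (ι Y : Type) [Fintype ι] [MeasurableSpace Y] [Lev Y] : Lev (ι → Y) where
  μ := Measure.pi fun _ => (Lev.μ : Measure Y)
  prob := inferInstance
  n := fun y => ∑ a, Lev.n (y a)
  n_nonneg := fun y => Finset.sum_nonneg fun _ _ => Lev.n_nonneg _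
  n_meas := Finset.measurable_sum _ fun a _ => Lev.n_meas.comp (measurable_pi_apply a)
  n_int := fun C => by
    simp_rw [Finset.mul_sum, Real.exp_sum]
    exact Integrable.fintype_prod (f := fun _ y => Real.exp (C * Lev.n y)) fun _ => Lev.n_int C
  pt := fun _ => Lev.pt

section simps
variable {ι Y Y' : Type} [Fintype ι] [MeasurableSpace Y] [MeasurableSpace Y'] [Lev Y] [Lev Y']
lemma μ_real : (Lev.μ : Measure ℝ) = gs := rfl
lemma n_real (y : ℝ) : Lev.n y = |y| := rfl
lemma μ_bool : (Lev.μ : Measure Bool) = ub := rfl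
lemma n_bool (y : Bool) : Lev.n y = 0 := rfl
lemma μ_prod : (Lev.μ : Measure (Y × Y')) = (Lev.μ : Measure Y).prod (Lev.μ : Measure Y') := rfl
lemma n_prod (y : Y × Y') : Lev.n y = Lev.n y.1 + Lev.n y.2 := rfl
lemma μ_pi : (Lev.μ : Measure (ι → Y)) = Measure.pi fun _ => (Lev.μ : Measure Y) := rfl
lemma n_pi (y : ι → Y) : Lev.n y = ∑ a, Lev.n (y a) := rfl
end simps

/-- The spin value `±1` of a Boolean. -/
def sp (b : Bool) : ℝ := if b then 1 else -1

@[simp] lemma sp_true : sp true = 1 := rfl
@[simp] lemma sp_false : sp false = -1 := rfl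
@[simp] lemma sp_sq (b : Bool) : sp b ^ 2 = 1 := by cases b <;> simp
@[simp] lemma sp_mul_self (b : Bool) : sp b * sp b = 1 := by cases b <;> simp
@[simp] lemma abs_sp (b : Bool) : |sp b| = 1 := by cases b <;> simp
@[fun_prop] lemma measurable_sp : Measurable sp := measurable_from_top

/-- A flow on a level space under which the measure is quasi-invariant with the Cameron–Martin
density `exp (-θ γ - θ² c / 2)`. -/
structure Dir (Y : Type) [MeasurableSpace Y] [Lev Y] where
  τ : ℝ → Y → Y
  γ : Y → ℝ
  c : ℝ
  τ_meas : ∀ θ, Measurable (τ θ)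
  τ_zero : ∀ y, τ 0 y = y
  γ_meas : Measurable γ
  γ_le : ∀ y, |γ y| ≤ Lev.n y
  n_le : ∀ θ y, Lev.n (τ θ y) ≤ Lev.n y + |θ|
  cm : ∀ (θ : ℝ) (f : Y → ENNReal), Measurable f →
    ∫⁻ y, f (τ θ y) * ENNReal.ofReal (Real.exp (-(θ * γ y) - θ ^ 2 * c / 2)) ∂Lev.μ =
      ∫⁻ y, f y ∂Lev.μ

lemma cm_real (θ : ℝ) (f : ℝ → ENNReal) (hf : Measurable f) :
    ∫⁻ y, f (y + θ) * ENNReal.ofReal (Real.exp (-(θ * y) - θ ^ 2 * 1 / 2)) ∂gs = ∫⁻ y, f y ∂gs := by
  have h1 : (1 : NNReal) ≠ 0 := one_ne_zero
  simp only [gs]
  rw [gaussianReal_of_var_ne_zero _ h1,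
    lintegral_withDensity_eq_lintegral_mul _ (measurable_gaussianPDF _ _) (by fun_prop),
    lintegral_withDensity_eq_lintegral_mul _ (measurable_gaussianPDF _ _) hf,
    ← lintegral_add_right_eq_self (μ := volume) (gaussianPDF 0 1 * f) θ]
  refine lintegral_congr fun y => ?_
  simp only [Pi.mul_apply, gaussianPDF, gaussianPDFReal]
  rw [mul_comm (f _), ← mul_assoc, ← ENNReal.ofReal_mul (by positivity), mul_assoc,
    ← Real.exp_add]
  congr 3
  push_cast
  ring_nf

/-- Translation of a Gaussian coordinate. -/
noncomputable def Dir.real : Dir ℝ where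
  τ := fun θ y => y + θ
  γ := fun y => y
  c := 1
  τ_meas := fun θ => by fun_prop
  τ_zero := fun y => add_zero y
  γ_meas := measurable_id
  γ_le := fun _ => le_rfl
  n_le := fun θ y => abs_add_le y θ
  cm := cm_real

section lift
variable {ι Y Y' : Type} [Fintype ι] [DecidableEq ι] [MeasurableSpace Y] [MeasurableSpace Y']
  [Lev Y] [Lev Y']

lemma Dir.meas_dens (d : Dir Y) (θ : ℝ) :
    Measurable fun y => ENNReal.ofReal (Real.exp (-(θ * d.γ y) - θ ^ 2 * d.c / 2)) := by
  have := d.γ_meas
  fun_prop

/-- A flow acting on the first factor. -/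
noncomputable def Dir.fst (d : Dir Y) (Y' : Type) [MeasurableSpace Y'] [Lev Y'] : Dir (Y × Y') where
  τ := fun θ y => (d.τ θ y.1, y.2)
  γ := fun y => d.γ y.1
  c := d.c
  τ_meas := fun θ => ((d.τ_meas θ).comp measurable_fst).prodMk measurable_snd
  τ_zero := fun y => by rw [d.τ_zero]
  γ_meas := d.γ_meas.comp measurable_fst
  γ_le := fun y => (d.γ_le _).trans (le_add_of_nonneg_right (Lev.n_nonneg _))
  n_le := fun θ y => by have := d.n_le θ y.1; simp only [n_prod]; linarith
  cm := fun θ f hf => by
    have hm : Measurable fun y : Y × Y' => f (d.τ θ y.1, y.2) *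
        ENNReal.ofReal (Real.exp (-(θ * d.γ y.1) - θ ^ 2 * d.c / 2)) :=
      (hf.comp (((d.τ_meas θ).comp measurable_fst).prodMk measurable_snd)).mul
        ((d.meas_dens θ).comp measurable_fst)
    rw [μ_prod, lintegral_prod_symm _ hm.aemeasurable,
      lintegral_prod_symm _ hf.aemeasurable]
    exact lintegral_congr fun z => d.cm θ (fun x => f (x, z)) (hf.comp measurable_prodMk_right)

/-- A flow acting on the second factor. -/
noncomputable def Dir.snd (Y : Type) [MeasurableSpace Y] [Lev Y] (d : Dir Y') : Dir (Y × Y') where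
  τ := fun θ y => (y.1, d.τ θ y.2)
  γ := fun y => d.γ y.2
  c := d.c
  τ_meas := fun θ => measurable_fst.prodMk ((d.τ_meas θ).comp measurable_snd)
  τ_zero := fun y => by rw [d.τ_zero]
  γ_meas := d.γ_meas.comp measurable_snd
  γ_le := fun y => (d.γ_le _).trans (le_add_of_nonneg_left (Lev.n_nonneg _))
  n_le := fun θ y => by have := d.n_le θ y.2; simp only [n_prod]; linarith
  cm := fun θ f hf => by
    have hm : Measurable fun y : Y × Y' => f (y.1, d.τ θ y.2) *
        ENNReal.ofReal (Real.exp (-(θ * d.γ y.2) - θ ^ 2 * d.c / 2)) :=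
      (hf.comp (measurable_fst.prodMk ((d.τ_meas θ).comp measurable_snd))).mul
        ((d.meas_dens θ).comp measurable_snd)
    rw [μ_prod, lintegral_prod _ hm.aemeasurable,
      lintegral_prod _ hf.aemeasurable]
    exact lintegral_congr fun z => d.cm θ (fun x => f (z, x)) (hf.comp measurable_prodMk_left)

/-- A flow acting on one coordinate of a finite power. -/
noncomputable def Dir.pi (a : ι) (d : Dir Y) : Dir (ι → Y) where
  τ := fun θ y => Function.update y a (d.τ θ (y a))
  γ := fun y => d.γ (y a)
  c := d.c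
  τ_meas := fun θ => measurable_update'.comp
    (measurable_id.prodMk ((d.τ_meas θ).comp (measurable_pi_apply a)))
  τ_zero := fun y => by rw [d.τ_zero, Function.update_eq_self]
  γ_meas := d.γ_meas.comp (measurable_pi_apply a)
  γ_le := fun y => (d.γ_le _).trans
    (Finset.single_le_sum (f := fun b => Lev.n (y b)) (fun _ _ => Lev.n_nonneg _) (Finset.mem_univ a))
  n_le := fun θ y => by
    have := d.n_le θ (y a)
    simp only [n_pi]
    rw [← Finset.add_sum_erase _ _ (Finset.mem_univ a), ← Finset.add_sum_erase _ (fun b => Lev.n (y b))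
      (Finset.mem_univ a), Function.update_self,
      Finset.sum_congr rfl fun b hb => by rw [Function.update_of_ne (Finset.ne_of_mem_erase hb)]]
    linarith
  cm := fun θ f hf => by
    have hτ : Measurable fun y : ι → Y => Function.update y a (d.τ θ (y a)) :=
      measurable_update'.comp (measurable_id.prodMk ((d.τ_meas θ).comp (measurable_pi_apply a)))
    have hm := (hf.comp hτ).mul ((d.meas_dens θ).comp (measurable_pi_apply a))
    rw [μ_pi]
    refine lintegral_eq_of_lmarginal_eq {a} hm hf ?_
    funext x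
    simp only [lmarginal_singleton, Function.update_self, Function.update_idem]
    exact d.cm θ (fun y => f (Function.update x a y)) (hf.comp (measurable_update x))

end lift

end Crest.Agent.R164
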