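import Crest.Agent.R164.Haar
import Crest.Agent.R164.CasTay
import Crest.Agent.R164.CasProd
import Crest.Agent.R164.CasDens

/-!
# R164 / Model: the enriched spin system as a cascade (definitions and basic facts)

Level space `YS ι = Orth ι × (ι → Bool × ℝ) × (ι → ℝ)`: the Haar matrix is read at the outermost
level, the spins at level `0`, the Gaussian fields `z` (on spins) and `g` (on eigen-coordinates
`x = U σ`) at every level.
-/

set_option autoImplicit false

open MeasureTheory ProbabilityTheory Finset Matrix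

namespace Crest.Agent.R164

/-- Level space of the spin system. -/
abbrev YS (ι : Type) [Fintype ι] [DecidableEq ι] : Type := Orth ι × (ι → Bool × ℝ) × (ι → ℝ)

variable {ι ι' κ : Type} [Fintype ι] [DecidableEq ι] [Fintype ι'] [DecidableEq ι'] [Fintype κ]
  [DecidableEq κ] {R : ℕ} [NeZero R]

/-- Spin vector. -/
def spn (σ : ι → Bool) : ι → ℝ := fun r => sp (σ r)
/-- The spin configuration (level `0`). -/
def cfg (s : St R (YS ι)) : ι → Bool := fun r => ((s 0).2.1 r).1
/-- Eigen-coordinates `U σ`. -/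
noncomputable def xs (s : St R (YS ι)) : ι → ℝ := (s (lst R)).1.1 *ᵥ spn (cfg s)
/-- The enriched Hamiltonian. -/
noncomputable def Ham (lamv : ι → ℝ) (V : (ι → Bool) → ℝ) (hy px : Fin R → ι → ℝ)
    (s : St R (YS ι)) : ℝ :=
  (∑ a, lamv a * xs s a ^ 2) / 2 + V (cfg s) +
    ∑ l, ∑ r, hy l r * (((s l).2.1 r).2 * spn (cfg s) r) + ∑ l, ∑ a, px l a * ((s l).2.2 a * xs s a)
/-- The logarithm of the partition function. -/
noncomputable def logZ (lamv : ι → ℝ) (V : (ι → Bool) → ℝ) (U : Orth ι) : ℝ :=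
  Real.log ((1 / 2) ^ Fintype.card ι *
    ∑ σ : ι → Bool, Real.exp ((∑ a, lamv a * (U.1 *ᵥ spn σ) a ^ 2) / 2 + V σ))
/-- Number of indices with a given label. -/
def ct {α : Type} [DecidableEq α] (lab : ι → α) (k : α) : ℕ := (univ.filter fun a => lab a = k).card
/-- Normalised block of eigen-coordinates. -/
noncomputable def Xb (lab : ι → κ) (k : κ) (a : {a // lab a = k}) (s : St R (YS ι)) : ℝ :=
  xs s a / Real.sqrt (Fintype.card ι)
/-- Normalised spins. -/
noncomputable def Sv (r : ι) (s : St R (YS ι)) : ℝ := spn (cfg s) r / Real.sqrt (Fintype.card ι)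
/-- Total overlaps with the convention `q R = 0`. -/
noncomputable def qt (a : ℕ → ℝ) (H : St R (YS ι) → ℝ) (i : ℕ) : ℝ :=
  if i < R then ov a H Sv i else 0
/-- The perturbation field of block `k` at level `l`. -/
noncomputable def pf (lab : ι → κ) (k : κ) (l : Fin R) (s : St R (YS ι)) : ℝ :=
  ∑ a : {a // lab a = k}, (s l).2.2 a * xs s a
/-- Translation of the spin field. -/
noncomputable def dz (r : ι) : Dir (YS ι) :=
  Dir.snd _ (Dir.fst (Dir.pi r (Dir.snd Bool Dir.real)) _)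
/-- Translation of the perturbation field. -/
noncomputable def dg (a : ι) : Dir (YS ι) := Dir.snd _ (Dir.snd _ (Dir.pi a Dir.real))

lemma orth_of_sum_sq (M : Matrix ι ι ℝ) (h : ∀ v : ι → ℝ, ∑ a, (M *ᵥ v) a ^ 2 = ∑ r, v r ^ 2) :
    Mᵀ * M = 1 := by
  have h1 : ∀ i, ∑ a, M a i ^ 2 = 1 := fun i => by
    simpa [Pi.single_apply] using h (Pi.single i 1)
  ext i j
  rw [Matrix.mul_apply]
  simp only [Matrix.transpose_apply]
  by_cases hij : i = j
  · subst hij
    simpa [sq] using h1 i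
  · have h2 := h (Pi.single i 1 + Pi.single j 1)
    have e1 : ∑ r, (Pi.single i (1 : ℝ) + Pi.single j (1 : ℝ) : ι → ℝ) r ^ 2 = 2 := by
      have : ∀ r, (Pi.single i (1 : ℝ) + Pi.single j (1 : ℝ) : ι → ℝ) r ^ 2 =
          (Pi.single i (1 : ℝ) : ι → ℝ) r + (Pi.single j (1 : ℝ) : ι → ℝ) r := fun r => by
        simp only [Pi.add_apply, Pi.single_apply]
        split_ifs with h3 h4
        · exact absurd (h3.symm.trans h4) hij
        all_goals norm_num
      simp only [this, Finset.sum_add_distrib, Finset.sum_pi_single', mem_univ, if_true]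
      norm_num
    have e2 : ∑ a, (M *ᵥ (Pi.single i 1 + Pi.single j 1)) a ^ 2 =
        ∑ a, M a i ^ 2 + 2 * ∑ a, M a i * M a j + ∑ a, M a j ^ 2 := by
      rw [Finset.mul_sum, ← Finset.sum_add_distrib, ← Finset.sum_add_distrib]
      refine Finset.sum_congr rfl fun a _ => ?_
      simp only [Matrix.mulVec_add, Matrix.mulVec_single_one, Pi.add_apply, Matrix.col_apply]
      ring
    rw [e1, e2, h1, h1] at h2
    rw [Matrix.one_apply_ne hij]
    linarith

lemma exists_rot {a b : ι} (h : a ≠ b) (θ : ℝ) : ∃ O : Orth ι, ∀ v : ι → ℝ, O.1 *ᵥ v = fun i =>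
    if i = a then Real.cos θ * v a + Real.sin θ * v b
    else if i = b then Real.cos θ * v b - Real.sin θ * v a else v i := by
  let f : (ι → ℝ) →ₗ[ℝ] (ι → ℝ) :=
    { toFun := fun v i => if i = a then Real.cos θ * v a + Real.sin θ * v b
        else if i = b then Real.cos θ * v b - Real.sin θ * v a else v i
      map_add' := fun v w => by
        funext i
        simp only [Pi.add_apply]
        split_ifs <;> ring
      map_smul' := fun c v => by
        funext i
        simp only [Pi.smul_apply, smul_eq_mul, RingHom.id_apply]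
        split_ifs <;> ring }
  have hs : ∀ g : ι → ℝ, ∑ i, g i = g a + (g b + ∑ i ∈ (univ.erase a).erase b, g i) := fun g => by
    rw [Finset.add_sum_erase _ _ (mem_erase.2 ⟨h.symm, mem_univ b⟩),
      Finset.add_sum_erase _ _ (mem_univ a)]
  refine ⟨Orth.mk' (LinearMap.toMatrix' f) (orth_of_sum_sq _ fun v => ?_),
    fun v => LinearMap.toMatrix'_mulVec f v⟩
  rw [LinearMap.toMatrix'_mulVec, hs, hs fun r => v r ^ 2]
  have e : ∑ i ∈ (univ.erase a).erase b, f v i ^ 2 = ∑ i ∈ (univ.erase a).erase b, v i ^ 2 :=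
    Finset.sum_congr rfl fun i hi => by
      have h1 := (mem_erase.1 hi).1
      have h2 := (mem_erase.1 (mem_erase.1 hi).2).1
      simp [f, h1, h2]
  have ea : f v a = Real.cos θ * v a + Real.sin θ * v b := by simp [f]
  have eb : f v b = Real.cos θ * v b - Real.sin θ * v a := by simp [f, h.symm]
  rw [e, ea, eb]
  linear_combination (v a ^ 2 + v b ^ 2) * Real.sin_sq_add_cos_sq θ

/-- Rotation in the plane `(a, b)`. -/
noncomputable def rot {a b : ι} (h : a ≠ b) (θ : ℝ) : Orth ι := (exists_rot h θ).choose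
lemma rot_zero {a b : ι} (h : a ≠ b) : rot h 0 = 1 := by
  have h1 : ∀ v : ι → ℝ, (rot h 0).1 *ᵥ v = v := fun v => by
    rw [rot, (exists_rot h 0).choose_spec v]
    funext i
    simp only [Real.cos_zero, Real.sin_zero, one_mul, zero_mul, add_zero, sub_zero]
    split_ifs with h1 h2
    · rw [h1]
    · rw [h2]
    · rfl
  refine Subtype.ext (Matrix.ext fun i j => ?_)
  have := congrFun (h1 (Pi.single j 1)) i
  rw [Matrix.mulVec_single_one, Matrix.col_apply] at this
  rw [this, Pi.single_apply]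
  exact Matrix.one_apply.symm

/-- Rotation of the Haar matrix. -/
noncomputable def dU {a b : ι} (h : a ≠ b) : Dir (Orth ι) where
  τ := fun θ U => rot h θ * U
  γ := fun _ => 0
  c := 0
  τ_meas := fun θ => measurable_const_mul _
  τ_zero := fun U => by rw [rot_zero, one_mul]
  γ_meas := measurable_const
  γ_le := fun _ => by simp [n_orth]
  n_le := fun θ _ => by simp [n_orth]
  cm := fun θ f hf => by
    simp only [mul_zero, neg_zero, zero_div, sub_zero, Real.exp_zero, ENNReal.ofReal_one, mul_one]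
    exact (mp_haar_mul_left (rot h θ)).lintegral_comp hf
noncomputable def dr {a b : ι} (h : a ≠ b) : Dir (YS ι) := Dir.fst (dU h) _

/-- Simultaneous left rotation of the Haar matrix and of the perturbation field. -/
noncomputable def lrot (B : Orth ι) (y : YS ι) : YS ι := (B * y.1, y.2.1, B.1 *ᵥ y.2.2)
lemma reindex_orth (e₁ e₂ : ι ≃ ι') (U : Orth ι) :
    (Matrix.reindex e₁ e₂ U.1)ᵀ * Matrix.reindex e₁ e₂ U.1 = 1 := by
  rw [Matrix.reindex_apply, Matrix.transpose_submatrix, Matrix.submatrix_mul_equiv,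
    U.transpose_mul, Matrix.submatrix_one_equiv]

/-- Relabelling of eigen-coordinates (`e₁`) and of spins (`e₂`). -/
noncomputable def rel (e₁ e₂ : ι ≃ ι') (y : YS ι) : YS ι' :=
  (Orth.mk' (Matrix.reindex e₁ e₂ y.1.1) (reindex_orth e₁ e₂ y.1), fun r => y.2.1 (e₂.symm r),
    fun a => y.2.2 (e₁.symm a))

variable {lamv : ι → ℝ} {V : (ι → Bool) → ℝ} {hy px : Fin R → ι → ℝ} {a : ℕ → ℝ}

lemma sum_ct {α : Type} [Fintype α] [DecidableEq α] (lab : ι → α) :
    ∑ k, ct lab k = Fintype.card ι := by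
  exact (Finset.card_eq_sum_card_fiberwise (f := lab) (s := univ) (t := univ)
    fun _ _ => mem_univ _).symm

lemma card_block {α : Type} [DecidableEq α] (lab : ι → α) (k : α) :
    Fintype.card {a // lab a = k} = ct lab k := by
  exact Fintype.card_subtype _

lemma sum_blocks {α : Type} [Fintype α] [DecidableEq α] (lab : ι → α) (f : ι → ℝ) :
    ∑ k, ∑ a : {a // lab a = k}, f a = ∑ a, f a := by
  exact Fintype.sum_fiberwise lab f

lemma exists_equiv_of_ct {α : Type} [DecidableEq α] {lab : ι → α} {lab' : ι' → α}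
    (h : ∀ k, ct lab k = ct lab' k) : ∃ e : ι ≃ ι', ∀ a, lab' (e a) = lab a := by
  exact ⟨Equiv.ofFiberEquiv fun k => Fintype.equivOfCardEq (by rw [card_block, card_block, h k]),
    fun a => Equiv.ofFiberEquiv_map _ a⟩

lemma exists_lab {α : Type} [Fintype α] [DecidableEq α] (n : α → ℕ) (h : ∑ k, n k = Fintype.card ι) :
    ∃ lab : ι → α, ∀ k, ct lab k = n k := by
  let e : ι ≃ Σ k, Fin (n k) := Fintype.equivOfCardEq (by simp [h])
  refine ⟨fun a => (e a).1, fun k => ?_⟩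
  rw [← card_block, Fintype.card_congr
    ((Equiv.subtypeEquiv (q := fun x : Σ k, Fin (n k) => x.1 = k) e fun _ => Iff.rfl).trans
      (Equiv.sigmaSubtype k)), Fintype.card_fin]

lemma sum_sq_spn (σ : ι → Bool) : ∑ r, spn σ r ^ 2 = Fintype.card ι := by
  simp [spn]

lemma sum_sq_xs (s : St R (YS ι)) : ∑ a, xs s a ^ 2 = Fintype.card ι := by
  rw [xs, Orth.sum_sq_mulVec, sum_sq_spn]

lemma mdl_xs_sq_le (s : St R (YS ι)) (a : ι) : xs s a ^ 2 ≤ Fintype.card ι := by
  rw [← sum_sq_xs s]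
  exact Finset.single_le_sum (f := fun a => xs s a ^ 2) (fun _ _ => sq_nonneg _) (mem_univ a)

lemma abs_xs_le (s : St R (YS ι)) (a : ι) : |xs s a| ≤ Real.sqrt (Fintype.card ι) := by
  exact Real.abs_le_sqrt (mdl_xs_sq_le s a)

lemma measurable_cfg_comp (f : (ι → Bool) → ℝ) : Measurable fun s : St R (YS ι) => f (cfg s) := by
  refine (Measurable.of_discrete (f := f)).comp (measurable_pi_lambda _ fun r => ?_)
  unfold cfg
  fun_prop

lemma measurable_xs (a : ι) : Measurable fun s : St R (YS ι) => xs s a := by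
  refine Finset.measurable_sum univ fun r _ => Measurable.mul ?_
    (measurable_cfg_comp fun σ => spn σ r)
  exact (Orth.measurable_entry a r).comp (measurable_fst.comp (measurable_pi_apply _))

lemma ml_cfg (f : (ι → Bool) → ℝ) : ML fun s : St R (YS ι) => f (cfg s) := by
  exact ML.of_bdd (measurable_cfg_comp f) (∑ σ, |f σ|) fun s =>
    Finset.single_le_sum (f := fun σ => |f σ|) (fun _ _ => abs_nonneg _) (mem_univ _)

lemma ml_xs (a : ι) : ML fun s : St R (YS ι) => xs s a := by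
  exact ML.of_bdd (measurable_xs a) _ fun s => abs_xs_le s a

lemma ml_xs_sq (c : ι → ℝ) : ML fun s : St R (YS ι) => ∑ a, c a * xs s a ^ 2 := by
  refine ML.sum _ fun a _ => ML.const_mul _
    (ML.of_bdd ((measurable_xs a).pow_const 2) (Fintype.card ι) fun s => ?_)
  rw [abs_of_nonneg (sq_nonneg _)]
  exact mdl_xs_sq_le s a

omit [NeZero R] in
lemma mdl_ml_g (l : Fin R) (a : ι) : ML fun s : St R (YS ι) => (s l).2.2 a :=
  ml_id.comp ((Gro.apply a).comp (Gro.snd.comp (Gro.snd.comp (Gro.apply l))))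

omit [NeZero R] in
lemma mdl_ml_z (l : Fin R) (r : ι) : ML fun s : St R (YS ι) => ((s l).2.1 r).2 :=
  ml_id.comp (Gro.snd.comp ((Gro.apply r).comp (Gro.fst.comp (Gro.snd.comp (Gro.apply l)))))

lemma ml_pf (lab : ι → κ) (k : κ) (l : Fin R) : ML (pf (R := R) lab k l) := by
  exact ML.sum _ fun a _ => (mdl_ml_g l a.1).mul_bdd (measurable_xs a.1) _ fun s => abs_xs_le s a.1

lemma ml_Ham (lamv : ι → ℝ) (V : (ι → Bool) → ℝ) (hy px : Fin R → ι → ℝ) :
    ML (Ham lamv V hy px) := by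
  have h1 : ML fun s : St R (YS ι) => (∑ a, lamv a * xs s a ^ 2) / 2 := by
    simpa only [div_eq_inv_mul] using (ml_xs_sq lamv).const_mul 2⁻¹
  refine ((h1.add (ml_cfg V)).add (ML.sum _ fun l _ => ML.sum _ fun r _ => ML.const_mul _ ?_)).add
    (ML.sum _ fun l _ => ML.sum _ fun a _ => ML.const_mul _ ?_)
  · exact (mdl_ml_z l r).mul_bdd (measurable_cfg_comp fun σ => spn σ r) 1 fun s => (abs_sp _).le
  · exact (mdl_ml_g l a).mul_bdd (measurable_xs a) _ fun s => abs_xs_le s a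

lemma uv_Xb (lab : ι → κ) (k : κ) : UV (Xb (R := R) lab k) := by
  refine ⟨fun b => (measurable_xs b.1).div_const _, fun s => ?_⟩
  simp only [Xb, div_pow, ← Finset.sum_div, Real.sq_sqrt (Nat.cast_nonneg _)]
  refine div_le_one_of_le₀ ?_ (Nat.cast_nonneg _)
  rw [← sum_sq_xs s, ← sum_blocks lab]
  exact Finset.single_le_sum (f := fun k => ∑ a : {a // lab a = k}, xs s a ^ 2)
    (fun _ _ => Finset.sum_nonneg fun _ _ => sq_nonneg _) (mem_univ k)

lemma uv_Sv : UV (Sv (R := R) (ι := ι)) := by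
  refine ⟨fun r => (measurable_cfg_comp fun σ => spn σ r).div_const _, fun s => ?_⟩
  simp only [Sv, div_pow, ← Finset.sum_div, Real.sq_sqrt (Nat.cast_nonneg _)]
  exact div_le_one_of_le₀ (sum_sq_spn _).le (Nat.cast_nonneg _)

lemma measurable_logZ (lamv : ι → ℝ) (V : (ι → Bool) → ℝ) : Measurable (logZ lamv V) := by
  unfold logZ
  simp only [Matrix.mulVec, dotProduct]
  fun_prop

lemma logZ_mono {lamv' : ι → ℝ} {V' : (ι → Bool) → ℝ} {c : ℝ} (h : ∀ a, lamv a ≤ lamv' a)
    (hV : ∀ σ, V σ ≤ V' σ + c) (U : Orth ι) : logZ lamv V U ≤ logZ lamv' V' U + c := by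
  unfold logZ
  rw [← Real.log_exp c, ← Real.log_mul (by positivity) (Real.exp_pos c).ne', mul_assoc,
    Finset.sum_mul]
  refine Real.log_le_log (by positivity) (mul_le_mul_of_nonneg_left
    (Finset.sum_le_sum fun σ _ => ?_) (by positivity))
  rw [← Real.exp_add, Real.exp_le_exp]
  have : ∑ a, lamv a * (U.1 *ᵥ spn σ) a ^ 2 ≤ ∑ a, lamv' a * (U.1 *ᵥ spn σ) a ^ 2 :=
    Finset.sum_le_sum fun a _ => mul_le_mul_of_nonneg_right (h a) (sq_nonneg _)
  linarith [hV σ]

lemma mdl_abs_quad {Λ : ℝ} (h : ∀ a, |lamv a| ≤ Λ) (σ : ι → Bool) (U : Orth ι) :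
    |∑ a, lamv a * (U.1 *ᵥ spn σ) a ^ 2| ≤ Fintype.card ι * Λ := by
  rw [← sum_sq_spn σ, ← U.sum_sq_mulVec, Finset.sum_mul]
  refine (Finset.abs_sum_le_sum_abs _ _).trans (Finset.sum_le_sum fun a _ => ?_)
  rw [abs_mul, abs_of_nonneg (sq_nonneg ((U.1 *ᵥ spn σ) a)), mul_comm]
  exact mul_le_mul_of_nonneg_left (h a) (sq_nonneg _)

lemma logZ_le {Λ B : ℝ} (h : ∀ a, |lamv a| ≤ Λ) (hV : ∀ σ, V σ ≤ B) (U : Orth ι) :
    logZ lamv V U ≤ B + Fintype.card ι * Λ / 2 := by
  unfold logZ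
  rw [Real.log_le_iff_le_exp (by positivity)]
  have h1 : ∑ σ : ι → Bool, Real.exp ((∑ a, lamv a * (U.1 *ᵥ spn σ) a ^ 2) / 2 + V σ) ≤
      ∑ _σ : ι → Bool, Real.exp (B + Fintype.card ι * Λ / 2) :=
    Finset.sum_le_sum fun σ _ => Real.exp_le_exp.2 (by
      linarith [hV σ, (abs_le.1 (mdl_abs_quad h σ U)).2])
  refine (mul_le_mul_of_nonneg_left h1 (by positivity)).trans (le_of_eq ?_)
  rw [Finset.sum_const, card_univ, Fintype.card_fun, Fintype.card_bool, nsmul_eq_mul, ← mul_assoc]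
  push_cast
  rw [← mul_pow]
  norm_num

lemma le_logZ {Λ : ℝ} (h : ∀ a, |lamv a| ≤ Λ) (σ : ι → Bool) (U : Orth ι) :
    V σ - Fintype.card ι * (Λ / 2 + 1) ≤ logZ lamv V U := by
  unfold logZ
  have h1 : Real.exp ((∑ a, lamv a * (U.1 *ᵥ spn σ) a ^ 2) / 2 + V σ) ≤
      ∑ σ : ι → Bool, Real.exp ((∑ a, lamv a * (U.1 *ᵥ spn σ) a ^ 2) / 2 + V σ) :=
    Finset.single_le_sum
      (f := fun σ : ι → Bool => Real.exp ((∑ a, lamv a * (U.1 *ᵥ spn σ) a ^ 2) / 2 + V σ))
      (fun _ _ => (Real.exp_pos _).le) (mem_univ σ)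
  refine le_trans ?_ (Real.log_le_log (by positivity)
    (mul_le_mul_of_nonneg_left h1 (by positivity)))
  rw [Real.log_mul (by positivity) (Real.exp_pos _).ne', Real.log_exp, Real.log_pow, one_div,
    Real.log_inv]
  have h2 : Real.log 2 ≤ 1 := by linarith [Real.log_two_lt_d9]
  have h3 := (abs_le.1 (mdl_abs_quad h σ U)).1
  have h4 := mul_le_mul_of_nonneg_left h2 (Nat.cast_nonneg (α := ℝ) (Fintype.card ι))
  linarith

lemma mp_lrot (B : Orth ι) : MeasurePreserving (lrot B) Lev.μ Lev.μ := by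
  exact (mp_haar_mul_left B).prod ((MeasurePreserving.id _).prod (mp_gauss_mulVec B))

lemma xs_lrot (B : Orth ι) (s : St R (YS ι)) : xs (lift (fun _ => lrot B) s) = B.1 *ᵥ xs s := by
  rw [xs, xs, Matrix.mulVec_mulVec]
  rfl

lemma cfg_lrot (B : Orth ι) (s : St R (YS ι)) : cfg (lift (fun _ => lrot B) s) = cfg s := rfl
/-- For a diagonal `D` commuting with `B`: `Σ D (B u)(B w) = Σ D u w`. -/
lemma sum_mul_mulVec (B : Orth ι) {c : ι → ℝ} (h : ∀ a b, B.1 a b ≠ 0 → c a = c b) (u w : ι → ℝ) :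
    ∑ a, c a * ((B.1 *ᵥ u) a * (B.1 *ᵥ w) a) = ∑ a, c a * (u a * w a) := by
  have e : ∀ a, c a * (B.1 *ᵥ u) a = (B.1 *ᵥ fun b => c b * u b) a := fun a => by
    simp only [Matrix.mulVec, dotProduct, Finset.mul_sum]
    refine Finset.sum_congr rfl fun b _ => ?_
    by_cases hb : B.1 a b = 0
    · simp [hb]
    · rw [h a b hb]; ring
  simp only [← mul_assoc, e]
  exact B.dot_mulVec (fun b => c b * u b) w

lemma Ham_lrot (B : Orth ι) (h : ∀ a b, B.1 a b ≠ 0 → lamv a = lamv b ∧ ∀ l, px l a = px l b)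
    (s : St R (YS ι)) : Ham lamv V hy px (lift (fun _ => lrot B) s) = Ham lamv V hy px s := by
  unfold Ham
  rw [xs_lrot, cfg_lrot]
  simp only [sq]
  rw [sum_mul_mulVec B fun a b hab => (h a b hab).1]
  congr 1
  exact Finset.sum_congr rfl fun l _ => sum_mul_mulVec B (fun a b hab => (h a b hab).2 l) _ _

/-- Relabelling of an orthogonal matrix. -/
noncomputable def relO (e₁ e₂ : ι ≃ ι') (U : Orth ι) : Orth ι' :=
  Orth.mk' (Matrix.reindex e₁ e₂ U.1) (reindex_orth e₁ e₂ U)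

lemma mdl_mp_relO (e₁ e₂ : ι ≃ ι') : MeasurePreserving (relO e₁ e₂) (haar ι) (haar ι') := by
  have hm : Measurable (relO e₁ e₂) :=
    Orth.measurable_of_entry fun a r => Orth.measurable_entry (e₁.symm a) (e₂.symm r)
  have : IsProbabilityMeasure ((haar ι).map (relO e₁ e₂)) :=
    Measure.isProbabilityMeasure_map hm.aemeasurable
  refine ⟨hm, eq_haar_of_left _ fun O => ?_⟩
  have e : (O * ·) ∘ relO e₁ e₂ = relO e₁ e₂ ∘ (relO e₁.symm e₁.symm O * ·) := by
    funext U
    refine Subtype.ext (Matrix.ext fun a r => ?_)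
    change ∑ j, O.1 a j * U.1 (e₁.symm j) (e₂.symm r) =
      ∑ j, O.1 (e₁ (e₁.symm a)) (e₁ j) * U.1 j (e₂.symm r)
    rw [← e₁.sum_comp]
    simp
  rw [Measure.map_map (measurable_const_mul O) hm, e, ← Measure.map_map hm (measurable_const_mul _),
    (mp_haar_mul_left _).map_eq]

omit [DecidableEq ι] [DecidableEq ι'] in
lemma mdl_mp_pi {Y : Type} [MeasurableSpace Y] [Lev Y] (e : ι ≃ ι') :
    MeasurePreserving (fun (y : ι → Y) r => y (e.symm r)) Lev.μ Lev.μ :=
  measurePreserving_arrowCongr' (fun _ => (Lev.μ : Measure Y)) (fun _ => (Lev.μ : Measure Y)) e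
    (MeasurableEquiv.refl Y) fun _ => MeasurePreserving.id _

lemma mdl_relO_mulVec (e₁ e₂ : ι ≃ ι') (U : Orth ι) (σ : ι → Bool) (a : ι) :
    ((relO e₁ e₂ U).1 *ᵥ spn fun r => σ (e₂.symm r)) (e₁ a) = (U.1 *ᵥ spn σ) a := by
  change ∑ r, U.1 (e₁.symm (e₁ a)) (e₂.symm r) * sp (σ (e₂.symm r)) = ∑ r, U.1 a r * sp (σ r)
  rw [e₁.symm_apply_apply]
  exact e₂.symm.sum_comp fun r => U.1 a r * sp (σ r)

/-- The push-forward of Haar measure is left invariant (`eq_haar_of_left`). -/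
lemma mp_rel (e₁ e₂ : ι ≃ ι') : MeasurePreserving (rel e₁ e₂) Lev.μ Lev.μ := by
  exact (mdl_mp_relO e₁ e₂).prod ((mdl_mp_pi e₂).prod (mdl_mp_pi e₁))

lemma Ham_rel (e₁ e₂ : ι ≃ ι') (lamv : ι' → ℝ) (V : (ι' → Bool) → ℝ) (hy px : Fin R → ι' → ℝ)
    (s : St R (YS ι)) :
    Ham lamv V hy px (lift (fun _ => rel e₁ e₂) s) =
      Ham (fun a => lamv (e₁ a)) (fun σ => V fun r => σ (e₂.symm r)) (fun l r => hy l (e₂ r))
        (fun l a => px l (e₁ a)) s := by
  have e1 : ∀ a, xs (lift (fun _ => rel e₁ e₂) s) (e₁ a) = xs s a := fun a =>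
    mdl_relO_mulVec e₁ e₂ (s (lst R)).1 (cfg s) a
  have e2 : cfg (lift (fun _ => rel e₁ e₂) s) = fun r => cfg s (e₂.symm r) := rfl
  unfold Ham
  congr 1
  congr 1
  congr 1
  · rw [← e₁.sum_comp]
    simp only [e1]
  · refine Finset.sum_congr rfl fun l _ => (e₂.sum_comp _).symm.trans ?_
    simp [lift, rel, spn, e2]
  · refine Finset.sum_congr rfl fun l _ => (e₁.sum_comp _).symm.trans ?_
    simp only [e1]
    simp [lift, rel]

lemma val_rel (e₁ e₂ : ι ≃ ι') (lamv : ι' → ℝ) (V : (ι' → Bool) → ℝ) (hy px : Fin R → ι' → ℝ)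
    (a : ℕ → ℝ) :
    val a (Ham (fun a => lamv (e₁ a)) (fun σ => V fun r => σ (e₂.symm r)) (fun l r => hy l (e₂ r))
        fun l a => px l (e₁ a)) = val a (Ham lamv V hy px) := by
  rw [← val_pull (τ := fun _ => rel e₁ e₂) (fun _ => mp_rel e₁ e₂) (ml_Ham lamv V hy px).meas a]
  simp only [Ham_rel]

lemma PM_logZ_rel (e₁ e₂ : ι ≃ ι') (lamv : ι' → ℝ) (V : (ι' → Bool) → ℝ) (m : ℝ) :
    PM m (haar ι) (logZ (fun a => lamv (e₁ a)) fun σ => V fun r => σ (e₂.symm r)) =
      PM m (haar ι') (logZ lamv V) := by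
  have e : ∀ U, logZ (fun a => lamv (e₁ a)) (fun σ => V fun r => σ (e₂.symm r)) U =
      logZ lamv V (relO e₁ e₂ U) := fun U => by
    unfold logZ
    rw [Fintype.card_congr e₁, ← (Equiv.arrowCongr e₂ (Equiv.refl Bool)).sum_comp]
    congr 2
    refine Finset.sum_congr rfl fun σ _ => ?_
    rw [← e₁.sum_comp]
    simp only [← mdl_relO_mulVec e₁ e₂ U σ]
    rfl
  have hm : Measurable fun U => Real.exp (m * logZ lamv V U) :=
    ((measurable_logZ lamv V).const_mul m).exp
  unfold PM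
  simp only [e]
  rw [← (mdl_mp_relO e₁ e₂).map_eq,
    integral_map (mdl_mp_relO e₁ e₂).measurable.aemeasurable hm.aestronglyMeasurable]

/-- Exchangeability of two spins under a symmetry `π` of the system (`E_pull` with `rel 1 π`). -/
lemma spin_exch (π : ι ≃ ι) (hV : ∀ σ, V (fun r => σ (π.symm r)) = V σ)
    (hhy : ∀ l r, hy l (π r) = hy l r) (r : ι) (i : ℕ) (g : ℝ → ℝ) (hg : Measurable g) :
    EE a (Ham lamv V hy px) (fun s => g (E a (Ham lamv V hy px) i (fun t => spn (cfg t) (π r)) s)) =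
      EE a (Ham lamv V hy px) fun s => g (E a (Ham lamv V hy px) i (fun t => spn (cfg t) r) s) := by
  have hτ : ∀ _ : Fin R, MeasurePreserving (rel (Equiv.refl ι) π) Lev.μ Lev.μ :=
    fun _ => mp_rel _ _
  have hH := (ml_Ham lamv V hy px).meas
  have hψ : Measurable fun t : St R (YS ι) => spn (cfg t) (π r) :=
    measurable_cfg_comp fun σ => spn σ (π r)
  have e1 : (fun t => Ham lamv V hy px (lift (fun _ => rel (Equiv.refl ι) π) t)) =
      Ham lamv V hy px := by
    funext t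
    simp only [Ham_rel, hV, hhy, Equiv.refl_apply]
  have e2 : (fun t : St R (YS ι) => spn (cfg (lift (fun _ => rel (Equiv.refl ι) π) t)) (π r)) =
      fun t => spn (cfg t) r := by
    funext t
    simp [spn, cfg, lift, rel]
  rw [← EE_pull (ψ := fun s => g (E a (Ham lamv V hy px) i (fun t => spn (cfg t) (π r)) s)) hτ hH
    (hg.comp (measurable_E a hH hψ i)) a]
  simp only [← E_pull hτ hH hψ, e1, e2]

end Crest.Agent.R164
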