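import Crest.Agent.R164.Spec

/-!
# R164 / Path: step paths, tails, deficits, step fields

`pth R q s = q (i+1)` for `s ∈ (ua (i+1), ua i]`, `i < R`.
`deficit p r = 1 - r - ∫ (p - r)₊`.  For a trial path and every `ζ ∈ [0,1]`:
`deficit p r ≤ 1 - r ζ - tl p ζ` (as `∫ (p - r)₊ ≥ ∫_ζ^1 (p - r)`), with equality for
`ζ = sup {s | p s ≤ r}` (monotonicity).  `deficit_le`: take that `ζ` for `p`, and the grid point
`ua R l` (`l ≤ R - 1`) with `ζ ≤ ua l ≤ ζ + 1/R`; `Tq_zero`-level `l = 0` is trivial.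
`integral_deficit`: on `[q (i+1), q i]` the deficit is `Dq i + ua i (q i - r)`; change variables
(`intervalIntegral.integral_comp_mul_add`, `sum_integral_adjacent_intervals`).
-/

set_option autoImplicit false

open MeasureTheory ProbabilityTheory Finset Crest.ProbabilityR.InvariantGlass

namespace Crest.Agent.R164

/-- The step path with values `q 1 ≥ q 2 ≥ … ≥ q R` from right to left. -/
noncomputable def pth (R : ℕ) (q : ℕ → ℝ) (s : ℝ) : ℝ :=
  ∑ i ∈ range R, if ua R (i + 1) < s ∧ s ≤ ua R i then q (i + 1) else 0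

/-- Admissible overlap sequences. -/
structure IsOv (R : ℕ) (q : ℕ → ℝ) : Prop where
  zero : q 0 = 1
  anti : ∀ i < R, q (i + 1) ≤ q i
  last : 0 ≤ q R

variable {R : ℕ} {q : ℕ → ℝ} {p p' : ℝ → ℝ}

lemma pa_ua_zero (R : ℕ) : ua R 0 = 1 := by simp [ua]

lemma pa_ua_last (hR : 0 < R) : ua R R = 0 := by
  have : (R : ℝ) ≠ 0 := by exact_mod_cast hR.ne'
  simp [ua, this]

lemma pa_ua_anti (hR : 0 < R) {i j : ℕ} (h : i ≤ j) : ua R j ≤ ua R i := (exps_ua hR).anti h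

lemma pa_ua_nonneg (hR : 0 < R) {i : ℕ} (h : i ≤ R) : 0 ≤ ua R i :=
  (pa_ua_last hR).ge.trans (pa_ua_anti hR h)

lemma pa_ua_le_one (hR : 0 < R) (i : ℕ) : ua R i ≤ 1 :=
  (pa_ua_anti hR (Nat.zero_le i)).trans (pa_ua_zero R).le

lemma pa_pth_eq (hR : 0 < R) (q : ℕ → ℝ) {i : ℕ} (hi : i < R) {s : ℝ} (h1 : ua R (i + 1) < s)
    (h2 : s ≤ ua R i) : pth R q s = q (i + 1) := by
  rw [pth, Finset.sum_eq_single i, if_pos ⟨h1, h2⟩]
  · intro j _ hj
    rw [if_neg]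
    rintro ⟨h3, h4⟩
    rcases lt_or_gt_of_ne hj with h | h
    · linarith [pa_ua_anti hR (show j + 1 ≤ i from h)]
    · linarith [pa_ua_anti hR (show i + 1 ≤ j from h)]
  · intro h
    exact absurd (mem_range.2 hi) h

lemma pa_idx (hR : 0 < R) {s : ℝ} (h0 : 0 < s) (h1 : s ≤ 1) :
    ∃ i < R, ua R (i + 1) < s ∧ s ≤ ua R i := by
  have hR' : (0 : ℝ) < R := by exact_mod_cast hR
  have hn : 0 ≤ (1 - s) * R := mul_nonneg (by linarith) hR'.le
  refine ⟨⌊(1 - s) * R⌋₊, (Nat.floor_lt hn).2 (by nlinarith), ?_, ?_⟩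
  · have := Nat.lt_floor_add_one ((1 - s) * R)
    rw [← lt_div_iff₀ hR'] at this
    simp only [ua]
    push_cast
    linarith
  · have := Nat.floor_le hn
    rw [← div_le_iff₀ hR'] at this
    simp only [ua]
    linarith

lemma pa_idx' (hR : 0 < R) {s : ℝ} (h0 : 0 ≤ s) (h1 : s ≤ 1) :
    ∃ i < R, ua R (i + 1) ≤ s ∧ s ≤ ua R i := by
  rcases h0.eq_or_lt with rfl | h0
  · refine ⟨R - 1, by omega, ?_, pa_ua_nonneg hR (by omega)⟩
    rw [Nat.sub_add_cancel hR, pa_ua_last hR]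
  · obtain ⟨i, hi, h2, h3⟩ := pa_idx hR h0 h1
    exact ⟨i, hi, h2.le, h3⟩

lemma pa_pth_ind (R : ℕ) (q : ℕ → ℝ) : pth R q =
    fun s => ∑ i ∈ range R, (Set.Ioc (ua R (i + 1)) (ua R i)).indicator (fun _ => q (i + 1)) s := by
  funext s
  simp only [pth, Set.indicator_apply, Set.mem_Ioc]

lemma pa_pth_meas (R : ℕ) (q : ℕ → ℝ) : Measurable (pth R q) := by
  rw [pa_pth_ind]
  exact Finset.measurable_sum _ fun i _ => measurable_const.indicator measurableSet_Ioc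

lemma pa_pth_int (R : ℕ) (q : ℕ → ℝ) : Integrable (pth R q) := by
  rw [pa_pth_ind]
  exact integrable_finsetSum _ fun i _ =>
    (integrable_indicator_iff measurableSet_Ioc).2 (integrableOn_const (by simp))

lemma pa_tl_eq (p : ℝ → ℝ) {ζ : ℝ} (h : ζ ≤ 1) : tl p ζ = ∫ s in ζ..1, p s := by
  rw [tl, intervalIntegral.integral_of_le h, integral_Ioc_eq_integral_Ioo]

lemma pa_tl_one (p : ℝ → ℝ) : tl p 1 = 0 := by simp [tl]

lemma pa_piece (hR : 0 < R) (q : ℕ → ℝ) {l : ℕ} (hl : l < R) {ζ : ℝ} (h1 : ua R (l + 1) ≤ ζ)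
    (h2 : ζ ≤ ua R l) : ∫ s in ζ..ua R l, pth R q s = (ua R l - ζ) * q (l + 1) := by
  rw [← smul_eq_mul, ← intervalIntegral.integral_const, intervalIntegral.integral_of_le h2,
    intervalIntegral.integral_of_le h2]
  exact setIntegral_congr_fun measurableSet_Ioc fun s hs =>
    pa_pth_eq hR q hl (h1.trans_lt hs.1) hs.2

lemma IsOv.le (h : IsOv R q) {i j : ℕ} (hij : i ≤ j) (hj : j ≤ R) : q j ≤ q i := by
  induction hij with
  | refl => exact le_rfl
  | step _ ih => exact (h.anti _ hj).trans (ih (Nat.le_of_succ_le hj))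

lemma IsOv.mem (h : IsOv R q) {i : ℕ} (hi : i ≤ R) : 0 ≤ q i ∧ q i ≤ 1 :=
  ⟨h.last.trans (h.le hi le_rfl), (h.le (Nat.zero_le i) hi).trans h.zero.le⟩

lemma IsOv.trial (hR : 0 < R) (h : IsOv R q) : IsTrialPath (pth R q) := by
  refine ⟨pa_pth_meas R q, fun s hs t ht hst => ?_, fun s hs => ?_⟩
  · obtain ⟨i, hi, h1, h2⟩ := pa_idx hR hs.1 hs.2.le
    obtain ⟨j, hj, h3, h4⟩ := pa_idx hR ht.1 ht.2.le
    rw [pa_pth_eq hR q hi h1 h2, pa_pth_eq hR q hj h3 h4]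
    refine h.le (Nat.succ_le_succ ?_) hi
    by_contra hc
    linarith [pa_ua_anti hR (show i + 1 ≤ j by omega)]
  · obtain ⟨i, hi, h1, h2⟩ := pa_idx hR hs.1 hs.2.le
    rw [pa_pth_eq hR q hi h1 h2]
    exact h.mem hi

lemma Dq_eq {a : ℕ → ℝ} (ha : a 0 = 1) (q : ℕ → ℝ) (i : ℕ) :
    Dq a q i = q 0 - Tq a q i - a i * q i := by
  induction i with
  | zero => simp [Dq, Tq, ha]
  | succ i ih =>
    simp only [Dq, Tq, Finset.sum_range_succ] at ih ⊢
    rw [ih]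
    ring

lemma IsOv.Dq_mem (hR : 0 < R) (h : IsOv R q) {i : ℕ} (hi : i ≤ R) :
    0 ≤ Dq (ua R) q i ∧ Dq (ua R) q i ≤ 1 := by
  constructor
  · refine Finset.sum_nonneg fun j hj => ?_
    have := mem_range.1 hj
    exact mul_nonneg (pa_ua_nonneg hR (by omega)) (sub_nonneg.2 (h.anti j (by omega)))
  · rw [Dq_eq (pa_ua_zero R), h.zero]
    have h1 : 0 ≤ Tq (ua R) q i := by
      refine Finset.sum_nonneg fun j hj => ?_
      have := mem_range.1 hj
      exact mul_nonneg (sub_nonneg.2 (pa_ua_anti hR (Nat.le_succ j))) (h.mem (by omega)).1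
    linarith [mul_nonneg (pa_ua_nonneg hR hi) (h.mem hi).1]

lemma IsOv.Dq_mono (hR : 0 < R) (h : IsOv R q) {i j : ℕ} (hij : i ≤ j) (hj : j ≤ R) :
    Dq (ua R) q i ≤ Dq (ua R) q j := by
  refine Finset.sum_le_sum_of_subset_of_nonneg (Finset.range_subset_range.2 hij) fun k hk _ => ?_
  have := mem_range.1 hk
  exact mul_nonneg (pa_ua_nonneg hR (by omega)) (sub_nonneg.2 (h.anti k (by omega)))

lemma pa_tl_step (hR : 0 < R) (q : ℕ → ℝ) {l : ℕ} (hl : l < R) {ζ : ℝ} (h1 : ua R (l + 1) ≤ ζ)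
    (h2 : ζ ≤ ua R l) : tl (pth R q) ζ = tl (pth R q) (ua R l) + (ua R l - ζ) * q (l + 1) := by
  rw [pa_tl_eq _ (h2.trans (pa_ua_le_one hR l)), pa_tl_eq _ (pa_ua_le_one hR l),
    ← pa_piece hR q hl h1 h2, add_comm, intervalIntegral.integral_add_adjacent_intervals
      (pa_pth_int R q).intervalIntegrable (pa_pth_int R q).intervalIntegrable]

lemma tl_pth (hR : 0 < R) (q : ℕ → ℝ) {l : ℕ} (hl : l ≤ R) :
    tl (pth R q) (ua R l) = Tq (ua R) q l := by
  induction l with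
  | zero => rw [pa_ua_zero, pa_tl_one]; simp [Tq]
  | succ l ih =>
    rw [pa_tl_step hR q hl le_rfl (pa_ua_anti hR (Nat.le_succ l)), ih (Nat.le_of_succ_le hl)]
    simp only [Tq, Finset.sum_range_succ]

/-- Tail at an intermediate point. -/
lemma tl_pth' (hR : 0 < R) (q : ℕ → ℝ) {l : ℕ} (hl : l < R) {ζ : ℝ} (h1 : ua R (l + 1) ≤ ζ)
    (h2 : ζ ≤ ua R l) : tl (pth R q) ζ = Tq (ua R) q l + (ua R l - ζ) * q (l + 1) := by
  rw [pa_tl_step hR q hl h1 h2, tl_pth hR q hl.le]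

lemma pth_sum {J : Type} [Fintype J] (γ : J → ℝ) (Q : J → ℕ → ℝ) (s : ℝ) :
    pth R (fun i => ∑ j, γ j * Q j i) s = ∑ j, γ j * pth R (Q j) s := by
  simp only [pth, Finset.mul_sum]
  rw [Finset.sum_comm]
  refine Finset.sum_congr rfl fun i _ => ?_
  split_ifs <;> simp

lemma pa_int (hp : IsTrialPath p) : IntegrableOn p (Set.Ioo 0 1) := by
  refine Measure.integrableOn_of_bounded (M := 1) (by simp) hp.1.aestronglyMeasurable ?_
  refine (ae_restrict_iff' measurableSet_Ioo).2 (Filter.Eventually.of_forall fun s hs => ?_)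
  rw [Real.norm_of_nonneg (hp.2.2 s hs).1]
  exact (hp.2.2 s hs).2

lemma pa_ii {g : ℝ → ℝ} (hg : IntegrableOn g (Set.Ioo 0 1)) {x y : ℝ} (h0 : 0 ≤ x) (h : x ≤ y)
    (h1 : y ≤ 1) : IntervalIntegrable g volume x y :=
  (intervalIntegrable_iff_integrableOn_Ioo_of_le h).2 (hg.mono_set (Set.Ioo_subset_Ioo h0 h1))

lemma pa_int_pos (hp : IsTrialPath p) (r : ℝ) :
    IntegrableOn (fun s => max (p s - r) 0) (Set.Ioo 0 1) :=
  ((pa_int hp).sub (integrableOn_const (by simp))).pos_part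

lemma tl_sub (hp : IsTrialPath p) {ζ ζ' : ℝ} (h0 : 0 ≤ ζ) (h : ζ ≤ ζ') (h1 : ζ' ≤ 1) :
    0 ≤ tl p ζ - tl p ζ' ∧ tl p ζ - tl p ζ' ≤ ζ' - ζ := by
  have e : tl p ζ - tl p ζ' = ∫ s in Set.Ioo ζ ζ', p s := by
    rw [pa_tl_eq p (h.trans h1), pa_tl_eq p h1, ← intervalIntegral.integral_add_adjacent_intervals
      (pa_ii (pa_int hp) h0 h h1) (pa_ii (pa_int hp) (h0.trans h) h1 le_rfl), add_sub_cancel_right,
      intervalIntegral.integral_of_le h, integral_Ioc_eq_integral_Ioo]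
  have hs : Set.Ioo ζ ζ' ⊆ Set.Ioo 0 1 := Set.Ioo_subset_Ioo h0 h1
  rw [e]
  refine ⟨setIntegral_nonneg measurableSet_Ioo fun s hs' => (hp.2.2 s (hs hs')).1, ?_⟩
  have := setIntegral_mono_on ((pa_int hp).mono_set hs)
    (integrableOn_const (C := (1 : ℝ)) (by simp)) measurableSet_Ioo
    fun s hs' => (hp.2.2 s (hs hs')).2
  simpa [Measure.real, sub_nonneg.2 h] using this

lemma tl_mem (hp : IsTrialPath p) {ζ : ℝ} (h0 : 0 ≤ ζ) (h1 : ζ ≤ 1) :
    0 ≤ tl p ζ ∧ tl p ζ ≤ 1 - ζ := by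
  simpa only [pa_tl_one, sub_zero] using tl_sub hp h0 h1 le_rfl

lemma deficit_mem (hp : IsTrialPath p) {r : ℝ} (h0 : 0 ≤ r) (h1 : r ≤ 1) :
    0 ≤ deficit p r ∧ deficit p r ≤ 1 := by
  have h2 : 0 ≤ ∫ s in Set.Ioo (0 : ℝ) 1, max (p s - r) 0 :=
    integral_nonneg fun s => le_max_right _ _
  have h3 := setIntegral_mono_on (pa_int_pos hp r)
    (integrableOn_const (C := 1 - r) (by simp)) measurableSet_Ioo
    fun s hs => max_le (by linarith [(hp.2.2 s hs).2]) (by linarith)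
  simp only [integral_const, MeasurableSet.univ, measureReal_restrict_apply, Set.univ_inter,
    Real.volume_real_Ioo, sub_zero, zero_le_one, sup_of_le_left, one_smul] at h3
  simp only [deficit]
  constructor <;> linarith

lemma continuous_deficit (hp : IsTrialPath p) : Continuous (deficit p) := by
  have : LipschitzWith 1 fun r => ∫ s in Set.Ioo (0 : ℝ) 1, max (p s - r) 0 := by
    refine LipschitzWith.of_le_add fun x y => ?_
    have hc : IntegrableOn (fun _ : ℝ => dist x y) (Set.Ioo 0 1) := integrableOn_const (by simp)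
    have h3 := setIntegral_mono_on (pa_int_pos hp x) ((pa_int_pos hp y).add hc) measurableSet_Ioo
      fun s _ => by
        have h1 := le_max_left (p s - y) 0
        have h2 := le_max_right (p s - y) 0
        have h4 := neg_abs_le (x - y)
        have h5 := abs_nonneg (x - y)
        simp only [Pi.add_apply, Real.dist_eq]
        exact max_le (by linarith) (by linarith)
    simp only [Pi.add_apply] at h3
    rw [integral_add (pa_int_pos hp y) hc] at h3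
    simpa using h3
  exact (continuous_const.sub continuous_id).sub this.continuous

lemma pa_tl_sub_const (hp : IsTrialPath p) (r : ℝ) {ζ : ℝ} (h0 : 0 ≤ ζ) (h1 : ζ ≤ 1) :
    ∫ s in Set.Ioo ζ 1, (p s - r) = tl p ζ - r * (1 - ζ) := by
  rw [integral_sub ((pa_int hp).mono_set (Set.Ioo_subset_Ioo h0 le_rfl))
    (integrableOn_const (by simp)), tl]
  simp [Measure.real, sub_nonneg.2 h1, mul_comm]

lemma pa_deficit_le (hp : IsTrialPath p) (r : ℝ) {ζ : ℝ} (h0 : 0 ≤ ζ) (h1 : ζ ≤ 1) :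
    deficit p r ≤ 1 - r * ζ - tl p ζ := by
  have hs : Set.Ioo ζ 1 ⊆ Set.Ioo 0 1 := Set.Ioo_subset_Ioo h0 le_rfl
  have h2 := setIntegral_mono_set (pa_int_pos hp r)
    (Filter.Eventually.of_forall fun s => le_max_right _ _) hs.eventuallyLE
  have h3 := setIntegral_mono_on (f := fun s => p s - r)
    (((pa_int hp).sub (integrableOn_const (by simp))).mono_set hs)
    ((pa_int_pos hp r).mono_set hs) measurableSet_Ioo fun s _ => le_max_left _ _
  rw [pa_tl_sub_const hp r h0 h1] at h3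
  simp only [deficit]
  linarith

lemma pa_deficit_eq (hp : IsTrialPath p) (r : ℝ) :
    ∃ ζ, 0 ≤ ζ ∧ ζ ≤ 1 ∧ deficit p r = 1 - r * ζ - tl p ζ := by
  let A : Set ℝ := insert 0 {s | s ∈ Set.Ioo (0 : ℝ) 1 ∧ p s ≤ r}
  have hA : ∀ s ∈ A, s ≤ 1 := by
    rintro s (rfl | hs)
    · exact zero_le_one
    · exact hs.1.2.le
  have hb : BddAbove A := ⟨1, hA⟩
  have hne : A.Nonempty := ⟨0, Or.inl rfl⟩
  have h0 : 0 ≤ sSup A := le_csSup hb (Or.inl rfl)
  have h1 : sSup A ≤ 1 := csSup_le hne hA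
  refine ⟨sSup A, h0, h1, ?_⟩
  have e1 : ∫ s in Set.Ioo 0 (sSup A), max (p s - r) 0 = 0 := by
    refine setIntegral_eq_zero_of_forall_eq_zero fun s hs => ?_
    obtain ⟨t, ht, hst⟩ := exists_lt_of_lt_csSup hne hs.2
    rcases ht with rfl | ht
    · exact absurd hs.1 (not_lt.2 hst.le)
    · have := hp.2.1 ⟨hs.1, hs.2.trans_le h1⟩ ht.1 hst.le
      exact max_eq_right (by linarith [ht.2])
  have e2 : ∫ s in Set.Ioo (sSup A) 1, max (p s - r) 0 = ∫ s in Set.Ioo (sSup A) 1, (p s - r) := by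
    refine setIntegral_congr_fun measurableSet_Ioo fun s hs => max_eq_left ?_
    by_contra hc
    have : s ∈ A := Or.inr ⟨⟨h0.trans_lt hs.1, hs.2⟩, by linarith⟩
    exact absurd (le_csSup hb this) (not_le.2 hs.1)
  have e3 := intervalIntegral.integral_add_adjacent_intervals (pa_ii (pa_int_pos hp r) le_rfl h0 h1)
    (pa_ii (pa_int_pos hp r) h0 h1 le_rfl)
  rw [intervalIntegral.integral_of_le h0, intervalIntegral.integral_of_le h1,
    intervalIntegral.integral_of_le zero_le_one, integral_Ioc_eq_integral_Ioo,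
    integral_Ioc_eq_integral_Ioo, integral_Ioc_eq_integral_Ioo, e1, e2,
    pa_tl_sub_const hp r h0 h1] at e3
  simp only [deficit]
  linarith

theorem deficit_le (hR : 0 < R) (hp : IsTrialPath p) (hp' : IsTrialPath p') {e : ℝ} (he : 0 ≤ e)
    (h : ∀ l, 1 ≤ l → l < R → tl p (ua R l) ≤ tl p' (ua R l) + e) {r : ℝ} (h0 : 0 ≤ r)
    (h1 : r ≤ 1) : deficit p' r ≤ deficit p r + e + 1 / R := by
  obtain ⟨ζ, hζ0, hζ1, hζ⟩ := pa_deficit_eq hp r
  obtain ⟨l, hl, h2, h3⟩ := pa_idx' hR hζ0 hζ1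
  have h4 := pa_deficit_le hp' r (hζ0.trans h3) (pa_ua_le_one hR l)
  have h5 : tl p (ua R l) ≤ tl p' (ua R l) + e := by
    rcases Nat.eq_zero_or_pos l with rfl | hl0
    · rw [pa_ua_zero, pa_tl_one, pa_tl_one, zero_add]
      exact he
    · exact h l hl0 hl
  have h6 := (tl_sub hp hζ0 h3 (pa_ua_le_one hR l)).2
  have h7 := ua_sub (R := R) l
  have h8 := mul_le_mul_of_nonneg_left h3 h0
  linarith

lemma pa_deficit_pth (hR : 0 < R) (h : IsOv R q) {i : ℕ} (hi : i < R) {r : ℝ}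
    (h1 : q (i + 1) ≤ r) (h2 : r ≤ q i) :
    deficit (pth R q) r = Dq (ua R) q i + ua R i * q i - ua R i * r := by
  have e1 : ∫ s in Set.Ioo (0 : ℝ) 1, max (pth R q s - r) 0 =
      Tq (ua R) (fun j => max (q j - r) 0) R := by
    rw [← tl_pth hR _ le_rfl, pa_ua_last hR, tl]
    refine setIntegral_congr_fun measurableSet_Ioo fun s hs => ?_
    obtain ⟨j, hj, h3, h4⟩ := pa_idx hR hs.1 hs.2.le
    simp only [pa_pth_eq hR _ hj h3 h4]
  have e2 : Tq (ua R) (fun j => max (q j - r) 0) R = Tq (ua R) (fun j => q j - r) i := by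
    simp only [Tq]
    rw [← Finset.sum_subset (Finset.range_subset_range.2 hi.le)]
    · refine Finset.sum_congr rfl fun j hj => ?_
      have := h.le (show j + 1 ≤ i from mem_range.1 hj) hi.le
      rw [max_eq_left (by linarith)]
    · intro j hj hj'
      have := h.le (show i + 1 ≤ j + 1 by simpa using hj') (mem_range.1 hj)
      rw [max_eq_right (by linarith), mul_zero]
  have e3 : Tq (ua R) (fun j => q j - r) i = Tq (ua R) q i - r * (1 - ua R i) := by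
    simp only [Tq, mul_sub, Finset.sum_sub_distrib]
    rw [← Finset.sum_mul, Finset.sum_range_sub', pa_ua_zero]
    ring
  rw [deficit, e1, e2, e3, Dq_eq (pa_ua_zero R), h.zero]
  ring

theorem integral_deficit (hR : 0 < R) (h : IsOv R q) (hq : q R = 0) {f F : ℝ → ℝ}
    (hf : ContinuousOn f (Set.Icc 0 1))
    (hF : ∀ x x', 0 ≤ x → x ≤ x' → x' ≤ 1 → ∫ u in x..x', f u = F x' - F x) :
    ∫ r in Set.Ioo (0 : ℝ) 1, f (deficit (pth R q) r) =
      ∑ i ∈ range R, (F (Dq (ua R) q (i + 1)) - F (Dq (ua R) q i)) / ua R i := by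
  have hc : ContinuousOn (fun r => f (deficit (pth R q) r)) (Set.Icc 0 1) :=
    hf.comp (continuous_deficit (h.trial hR)).continuousOn
      fun r hr => deficit_mem (h.trial hR) hr.1 hr.2
  have h1 := intervalIntegral.sum_integral_adjacent_intervals (μ := volume) (a := q) (n := R)
    (f := fun r => f (deficit (pth R q) r)) fun k hk =>
      (hc.mono (Set.uIcc_subset_Icc (h.mem hk.le) (h.mem hk))).intervalIntegrable
  rw [hq, h.zero, intervalIntegral.integral_symm] at h1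
  rw [← integral_Ioc_eq_integral_Ioo, ← intervalIntegral.integral_of_le zero_le_one,
    ← neg_eq_iff_eq_neg.2 h1, ← Finset.sum_neg_distrib]
  refine Finset.sum_congr rfl fun i hi => ?_
  have hi' := mem_range.1 hi
  have ha := ((exps_ua hR).pos i hi').ne'
  rw [← intervalIntegral.integral_symm, intervalIntegral.integral_congr
    (g := fun r => f (Dq (ua R) q i + ua R i * q i - ua R i * r)),
    intervalIntegral.integral_comp_sub_mul f ha, add_sub_cancel_right,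
    show Dq (ua R) q i + ua R i * q i - ua R i * q (i + 1) = Dq (ua R) q (i + 1) by
      simp only [Dq, Finset.sum_range_succ]; ring,
    hF _ _ (h.Dq_mem hR hi'.le).1 (h.Dq_mono hR (Nat.le_succ i) hi') (h.Dq_mem hR hi').2,
    smul_eq_mul, div_eq_inv_mul]
  intro r hr
  rw [Set.uIcc_of_le (h.anti i hi')] at hr
  simp only [pa_deficit_pth hR h hi' hr.1 hr.2]

section spec
variable {κ : Type} [Fintype κ] (S : Spec κ) {Λ : ℝ}

lemma Spec.ps_contOn {f : ℝ → ℝ} {L : ℝ}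
    (h : ∀ x x', 0 ≤ x → 0 ≤ x' → |f x - f x'| ≤ L * |x - x'|) : ContinuousOn f (Set.Ici 0) := by
  refine (LipschitzOnWith.of_dist_le_mul (K := ⟨|L|, abs_nonneg L⟩) fun x hx y hy => ?_).continuousOn
  rw [Real.dist_eq, Real.dist_eq]
  exact (h x y hx hy).trans (mul_le_mul_of_nonneg_right (le_abs_self L) (abs_nonneg _))
lemma Spec.ps_bd (k : κ) : |S.lam k| ≤ ∑ l, |S.lam l| :=
  single_le_sum (f := fun l => |S.lam l|) (fun _ _ => abs_nonneg _) (mem_univ k)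
lemma Spec.ps_cont_Rh : ContinuousOn S.Rh (Set.Ici 0) :=
  Spec.ps_contOn fun _ _ hx hx' => S.Rh_lip S.ps_bd hx hx'
lemma Spec.ps_cont_psi : ContinuousOn S.psi (Set.Ici 0) :=
  Spec.ps_contOn fun _ _ hx hx' => S.psi_lip S.ps_bd hx hx'
lemma Spec.ps_int (hp : IsTrialPath p) :
    IntegrableOn (fun r => S.Rh (deficit p r)) (Set.Ioo (0 : ℝ) 1) :=
  ((S.ps_cont_Rh.comp (continuous_deficit hp).continuousOn fun _ hr =>
    (deficit_mem hp hr.1 hr.2).1).integrableOn_Icc).mono_set Set.Ioo_subset_Icc_self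
lemma Spec.ps_Dq_succ (a q : ℕ → ℝ) (i : ℕ) : Dq a q (i + 1) = Dq a q i + a i * (q i - q (i + 1)) :=
  sum_range_succ _ _

lemma Spec.G_eq (hp : IsTrialPath p) : S.G p = 1 / 2 * ∫ r in Set.Ioo (0 : ℝ) 1, S.Rh (deficit p r) := by
  rw [Spec.G, spectralPart]
  congr 1
  exact setIntegral_congr_fun measurableSet_Ioo fun r hr =>
    S.rTransform_eq (deficit_mem hp hr.1.le hr.2.le).1
lemma Spec.abs_G_le (hΛ : ∀ k, |S.lam k| ≤ Λ) (hp : IsTrialPath p) : |S.G p| ≤ Λ / 2 := by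
  have h1 := norm_setIntegral_le_of_norm_le_const (μ := volume) (s := Set.Ioo (0 : ℝ) 1)
    (f := fun r => S.Rh (deficit p r)) (C := Λ) (by simp) fun r hr =>
      S.abs_psi2_le hΛ le_rfl (S.yv_nonneg (deficit_mem hp hr.1.le hr.2.le).1)
  rw [Real.norm_eq_abs, Real.volume_real_Ioo_of_le zero_le_one, sub_zero, mul_one] at h1
  rw [S.G_eq hp, abs_mul, abs_of_pos (by norm_num : (0 : ℝ) < 1 / 2)]
  linarith
lemma Spec.G_le (hΛ : ∀ k, |S.lam k| ≤ Λ) (hp : IsTrialPath p) (hp' : IsTrialPath p') {e : ℝ}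
    (he : 0 ≤ e) (h : ∀ r, 0 ≤ r → r ≤ 1 → deficit p' r ≤ deficit p r + e) :
    S.G p' ≤ S.G p + 2 * Λ ^ 2 / S.ρ S.k1 ^ 2 * e := by
  have i0 : IntegrableOn (fun _ : ℝ => 4 * Λ ^ 2 / S.ρ S.k1 ^ 2 * e) (Set.Ioo (0 : ℝ) 1) :=
    integrableOn_const (by simp)
  have h1 := setIntegral_mono_on (S.ps_int hp') ((S.ps_int hp).add i0) measurableSet_Ioo
    fun r hr => by
      have h2 := (deficit_mem hp hr.1.le hr.2.le).1
      have h3 := S.Rh_mono (deficit_mem hp' hr.1.le hr.2.le).1 (h r hr.1.le hr.2.le)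
      have h4 := S.Rh_lip hΛ (add_nonneg h2 he) h2
      rw [add_sub_cancel_left, abs_of_nonneg he] at h4
      have h5 := le_abs_self (S.Rh (deficit p r + e) - S.Rh (deficit p r))
      change S.Rh (deficit p' r) ≤ S.Rh (deficit p r) + 4 * Λ ^ 2 / S.ρ S.k1 ^ 2 * e
      linarith
  rw [integral_add' (S.ps_int hp) i0, setIntegral_const,
    Real.volume_real_Ioo_of_le zero_le_one, sub_zero, one_smul] at h1
  rw [S.G_eq hp, S.G_eq hp']
  have e1 : 4 * Λ ^ 2 / S.ρ S.k1 ^ 2 * e = 2 * (2 * Λ ^ 2 / S.ρ S.k1 ^ 2 * e) := by ring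
  linarith
lemma Spec.dv_nonneg (hR : 0 < R) (h : IsOv R q) {i : ℕ} (hi : i < R) : 0 ≤ S.dv (ua R) q i :=
  div_nonneg (sub_nonneg.2 (S.Rh_mono (h.Dq_mem hR hi.le).1 (h.Dq_mono hR i.le_succ hi)))
    ((exps_ua hR).pos i hi).le
lemma Spec.dc_nonneg (hR : 0 < R) (h : IsOv R q) {i : ℕ} (hi : i < R) : 0 ≤ S.dc (ua R) q i :=
  div_nonneg (sub_nonneg.2 (S.yv_mono (h.Dq_mem hR hi.le).1 (h.Dq_mono hR i.le_succ hi)))
    ((exps_ua hR).pos i hi).le
lemma Spec.ps_sum_le {f : ℝ → ℝ} {L : ℝ} (hL : 0 ≤ L)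
    (hf : ∀ x x', 0 ≤ x → 0 ≤ x' → |f x - f x'| ≤ L * |x - x'|) (hR : 0 < R) (h : IsOv R q) :
    ∑ i ∈ range R, (f (Dq (ua R) q (i + 1)) - f (Dq (ua R) q i)) / ua R i ≤ L := by
  have h1 : ∀ i ∈ range R, (f (Dq (ua R) q (i + 1)) - f (Dq (ua R) q i)) / ua R i ≤
      L * (q i - q (i + 1)) := by
    intro i hi
    have hi := mem_range.1 hi
    have ha := (exps_ua hR).pos i hi
    have h2 := hf _ _ (h.Dq_mem hR hi).1 (h.Dq_mem hR hi.le).1
    have h3 : 0 ≤ ua R i * (q i - q (i + 1)) := mul_nonneg ha.le (sub_nonneg.2 (h.anti i hi))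
    rw [div_le_iff₀ ha]
    refine (le_abs_self _).trans (h2.trans_eq ?_)
    rw [Spec.ps_Dq_succ, add_sub_cancel_left, abs_of_nonneg h3]
    ring
  refine (sum_le_sum h1).trans ?_
  rw [← mul_sum, sum_range_sub', h.zero]
  nlinarith [h.last]
lemma Spec.sum_dv_le (hΛ : ∀ k, |S.lam k| ≤ Λ) (hR : 0 < R) (h : IsOv R q) :
    ∑ i ∈ range R, S.dv (ua R) q i ≤ 4 * Λ ^ 2 / S.ρ S.k1 ^ 2 :=
  Spec.ps_sum_le (by positivity) (fun _ _ hx hx' => S.Rh_lip hΛ hx hx') hR h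
lemma Spec.sum_dc_le (hR : 0 < R) (h : IsOv R q) :
    ∑ i ∈ range R, S.dc (ua R) q i ≤ 1 / S.ρ S.k1 :=
  Spec.ps_sum_le (have := S.ρ_pos S.k1; by positivity)
    (fun _ _ hx hx' => (S.yv_lip hx hx').trans_eq (by ring)) hR h
lemma Spec.ck_k1 (a q : ℕ → ℝ) (R i : ℕ) :
    S.ck a q R S.k1 i = S.ρ S.k1 * ∑ j ∈ Ico i R, S.dc a q j := by
  rw [Spec.ck, mul_sum]
  refine sum_congr rfl fun j _ => ?_
  rw [S.dk_k1, S.dk_k1, Spec.dc]
  ring
lemma Spec.sum_dc_mul (hR : 0 < R) (q : ℕ → ℝ) {i : ℕ} (hi : i ≤ R) :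
    ∑ j ∈ range i, ua R j * S.dc (ua R) q j = S.yv (Dq (ua R) q i) := by
  have h1 : ∀ j ∈ range i, ua R j * S.dc (ua R) q j =
      S.yv (Dq (ua R) q (j + 1)) - S.yv (Dq (ua R) q j) := fun j hj =>
    mul_div_cancel₀ _ ((exps_ua hR).pos j ((mem_range.1 hj).trans_le hi)).ne'
  rw [sum_congr rfl h1, sum_range_sub fun j => S.yv (Dq (ua R) q j)]
  simp [Dq, S.yv_zero]
/-- The energy at the scaled spectrum (`scale_dk`, `integral_psi`, `integral_deficit` with
`f u = psi (t u)`, `F u = En (t u) / t`). -/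
lemma Spec.energy_eq (hR : 0 < R) (h : IsOv R q) (hq : q R = 0) {t : ℝ} (ht : 0 < t) :
    ∑ k, S.lam k * (S.scale t ht.le).ck (ua R) q R k 0 =
      ∫ r in Set.Ioo (0 : ℝ) 1, S.psi (t * deficit (pth R q) r) := by
  rw [integral_deficit hR h hq (f := fun u => S.psi (t * u)) (F := fun u => S.En (t * u) / t)
    (S.ps_cont_psi.comp (by fun_prop) fun u hu => mul_nonneg ht.le hu.1) fun x x' hx hxx _ => by
      rw [intervalIntegral.integral_comp_mul_left S.psi ht.ne',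
        S.integral_psi (mul_nonneg ht.le hx) (mul_le_mul_of_nonneg_left hxx ht.le), smul_eq_mul]
      ring]
  simp only [Spec.ck, mul_sum, Nat.Ico_zero_eq_range]
  rw [sum_comm]
  refine sum_congr rfl fun j hj => ?_
  have hj := mem_range.1 hj
  simp only [S.scale_dk ht (h.Dq_mem hR hj).1, S.scale_dk ht (h.Dq_mem hR hj.le).1, Spec.En,
    sum_div, ← sum_sub_distrib]
  exact sum_congr rfl fun k _ => by ring
/-- The cavity identity.  With `D_i, R_i = Rh D_i, v_i = dv i`, `T_i = Tq i = 1 - a_i q_i - D_i`: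
`(D_{i+1} R_{i+1} - D_i R_i)/a_i = D_i v_i + (q_i - q_{i+1}) R_{i+1}`, `a_i v_i = R_{i+1} - R_i`, and
`Σ_{i<R} (q_i (R_{i+1} - R_i) - (q_i - q_{i+1}) R_{i+1}) = Σ (q_{i+1} R_{i+1} - q_i R_i) = - R_0`. -/
theorem Spec.cavity_identity (hR : 0 < R) (h : IsOv R q) (hq : q R = 0) :
    S.Rh 0 / 2 + (∑ i ∈ range R, S.dv (ua R) q i) / 2 -
        (∑ i ∈ range R, (S.Lg (Dq (ua R) q (i + 1)) - S.Lg (Dq (ua R) q i)) / ua R i) / 2 =
      (∑ i ∈ range R, S.dv (ua R) q i * Tq (ua R) q i) / 2 + S.G (pth R q) := by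
  rw [S.G_eq (h.trial hR), integral_deficit hR h hq (f := S.Rh) (F := fun u => S.En u - S.Lg u)
    (S.ps_cont_Rh.mono fun u hu => hu.1) fun x x' hx hxx _ => S.integral_Rh hx hxx]
  have h1 : ∀ i ∈ range R, S.dv (ua R) q i * Tq (ua R) q i +
      (S.En (Dq (ua R) q (i + 1)) - S.Lg (Dq (ua R) q (i + 1)) -
        (S.En (Dq (ua R) q i) - S.Lg (Dq (ua R) q i))) / ua R i =
      S.dv (ua R) q i - (S.Lg (Dq (ua R) q (i + 1)) - S.Lg (Dq (ua R) q i)) / ua R i +
        (q i * S.Rh (Dq (ua R) q i) - q (i + 1) * S.Rh (Dq (ua R) q (i + 1))) := by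
    intro i hi
    have hi := mem_range.1 hi
    have ha := ((exps_ua hR).pos i hi).ne'
    have h2 := Dq_eq (exps_ua hR).zero q i
    have h3 : Tq (ua R) q i = 1 - ua R i * q i - Dq (ua R) q i := by rw [h2, h.zero]; ring
    rw [S.En_eq (h.Dq_mem hR hi).1, S.En_eq (h.Dq_mem hR hi.le).1, h3, Spec.dv]
    have h4 := Spec.ps_Dq_succ (ua R) q i
    generalize S.Rh (Dq (ua R) q (i + 1)) = r1
    generalize S.Rh (Dq (ua R) q i) = r0
    generalize S.Lg (Dq (ua R) q (i + 1)) = l1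
    generalize S.Lg (Dq (ua R) q i) = l0
    rw [h4]
    field_simp
    ring
  have h2 := sum_congr rfl h1
  rw [sum_add_distrib, sum_add_distrib, sum_sub_distrib,
    sum_range_sub' fun i => q i * S.Rh (Dq (ua R) q i), hq, h.zero] at h2
  have h3 : Dq (ua R) q 0 = 0 := by simp [Dq]
  rw [h3] at h2
  linarith
end spec

end Crest.Agent.R164
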