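import Crest.Agent.R164.CasTay
import Crest.Agent.R164.CasProd
import Crest.Agent.R164.Path

/-!
# R164 / OS: the one-site cascade

`X_osH`: induction; at level `0` integrate the spin (`integral_prod`, `integral_ub`):
`∫ exp (ε x) = cosh x = exp (lc x)`; each step is `gaussOp_eq_PM`.
`hasDerivAt_b`: `hasDerivAt_val`, `DF.linear`; `osM' = Cv R ε ε` (`hasDerivAt_EE`).
`osQ_lip_b`: the derivative of `EE (E i ε)²` is bounded by `6` (`DF.cond`, `abs_Cv_le`).
`osM_strict`: `Cv R ε ε ≥ 1 - EE (E 1 ε)²` (`le_Cv_self'`), `E 1 ε = tanh x` with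
`x = b + τ`, `τ = Σ_{l ≥ 1} √(v l) z_l`, `1 - tanh² x ≥ exp (-2|x|)`, Jensen
(`exp (EE ·) ≤ EE exp`, from `EE_eq`), and `EE τ² = Σ_{l≥1} v l (1 + Ct l τ ε) ≤ Hb (1 + 2 √(EE τ²))`
(`ibp` with `Dir.snd Bool Dir.real`, `abs_Ct_le`), so `EE |τ| ≤ 1 + 3 Hb`.
-/

set_option autoImplicit false

open MeasureTheory ProbabilityTheory Finset

namespace Crest.Agent.R164

variable {R : ℕ} [NeZero R] {a v : ℕ → ℝ} {b b' : ℝ}

/-- The spin. -/
def osε (s : St R (Bool × ℝ)) : ℝ := sp (s 0).1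
/-- One-site Hamiltonian. -/
noncomputable def osH (b : ℝ) (v : ℕ → ℝ) (s : St R (Bool × ℝ)) : ℝ :=
  osε s * (b + ∑ l : Fin R, Real.sqrt (v l) * (s l).2)
/-- One-site overlaps. -/
noncomputable def osQ (R : ℕ) [NeZero R] (a : ℕ → ℝ) (b : ℝ) (v : ℕ → ℝ) (i : ℕ) : ℝ :=
  EE a (osH (R := R) b v) fun s => E a (osH b v) i osε s ^ 2
/-- One-site magnetisation. -/
noncomputable def osM (R : ℕ) [NeZero R] (a : ℕ → ℝ) (b : ℝ) (v : ℕ → ℝ) : ℝ :=
  EE a (osH (R := R) b v) osε

lemma os_meas : Measurable (osε (R := R)) :=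
  measurable_sp.comp (measurable_fst.comp (measurable_pi_apply 0))
lemma os_abs (s : St R (Bool × ℝ)) : |osε s| = 1 := abs_sp _
lemma os_add (b β : ℝ) (v : ℕ → ℝ) :
    osH (R := R) (b + β) v = fun s => osH b v s + β * osε s := by
  funext s
  simp only [osH]
  ring
omit [NeZero R] in
lemma os_sum (v : ℕ → ℝ) {n : ℕ} (hn : n < R) (s : St R (Bool × ℝ)) (y : Bool × ℝ) :
    (∑ l : Fin R, if n ≤ (l : ℕ) then Real.sqrt (v l) * (upd n s y l).2 else 0) =
      (∑ l : Fin R, if n + 1 ≤ (l : ℕ) then Real.sqrt (v l) * (s l).2 else 0) +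
        Real.sqrt (v n) * y.2 := by
  have e : ∀ l : Fin R, (if n ≤ (l : ℕ) then Real.sqrt (v l) * (upd n s y l).2 else 0) =
      (if n + 1 ≤ (l : ℕ) then Real.sqrt (v l) * (s l).2 else 0) +
        if l = ⟨n, hn⟩ then Real.sqrt (v n) * y.2 else 0 := by
    intro l
    rcases lt_trichotomy (l : ℕ) n with h | h | h
    · have h2 : l ≠ ⟨n, hn⟩ := fun e => h.ne (congrArg Fin.val e)
      rw [if_neg (by omega), if_neg (by omega), if_neg h2, add_zero]
    · have h2 : l = ⟨n, hn⟩ := Fin.ext h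
      rw [if_pos h.ge, if_neg (by omega), if_pos h2, zero_add, upd, if_pos h, h]
    · have h2 : l ≠ ⟨n, hn⟩ := fun e => h.ne' (congrArg Fin.val e)
      rw [if_pos h.le, if_pos (by omega), if_neg h2, add_zero, upd, if_neg h.ne']
  simp only [e, sum_add_distrib, sum_ite_eq', mem_univ, if_true]
omit [NeZero R] in
lemma os_fS_act (l : Fin R) (θ : ℝ) (s : St R ((Bool × ℝ) × ℝ)) :
    fS (act (Dir.snd (Bool × ℝ) Dir.real) l θ s) = fS s := by
  funext i
  by_cases hi : i = l
  · subst hi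
    simp only [fS, act_self]
    rfl
  · simp only [fS, act_ne _ hi]
lemma os_mp {w u : ℝ} (hw : 0 ≤ w) (hu : 0 < u) :
    MeasurePreserving (fun p : (Bool × ℝ) × ℝ =>
      (p.1.1, (Real.sqrt w * p.1.2 + Real.sqrt u * p.2) / Real.sqrt (w + u))) Lev.μ Lev.μ := by
  have hs : 0 < w + u := by linarith
  have m : ∀ c : ℝ, Measurable fun y : ℝ => c * y := fun c => by fun_prop
  have hg : MeasurePreserving (fun p : ℝ × ℝ =>
      (Real.sqrt w * p.1 + Real.sqrt u * p.2) / Real.sqrt (w + u)) (gs.prod gs) gs := by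
    refine ⟨by fun_prop, ?_⟩
    have h2 : gs.map (Real.sqrt w / Real.sqrt (w + u) * ·) ∗
        gs.map (Real.sqrt u / Real.sqrt (w + u) * ·) = gs := by
      simp only [gaussianReal_map_const_mul, gaussianReal_conv_gaussianReal, mul_zero, add_zero]
      congr 1
      ext
      simp [div_pow, Real.sq_sqrt hw, Real.sq_sqrt hu.le, Real.sq_sqrt hs.le]
      field_simp
    rw [Measure.conv, Measure.map_prod_map _ _ (m _) (m _),
      Measure.map_map measurable_add ((m _).prodMap (m _))] at h2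
    refine Eq.trans ?_ h2
    congr 1
    funext p
    simp only [Function.comp, Prod.map]
    ring
  exact ((MeasurePreserving.id ub).prod hg).comp (measurePreserving_prodAssoc ub gs gs)

lemma ml_osH (b : ℝ) (v : ℕ → ℝ) : ML (osH (R := R) b v) :=
  ML.bdd_mul os_meas 1 (fun s => (os_abs s).le) ((ML.const b).add (ML.sum univ fun l _ =>
    (ml_id.comp (Gro.snd.comp (Gro.apply l))).const_mul _))
lemma ml_osε : ML (osε (R := R)) := ML.of_bdd os_meas 1 fun s => (os_abs s).le
lemma X_osH (ha : Exps R a) {n : ℕ} (h1 : 1 ≤ n) (hn : n ≤ R) (s : St R (Bool × ℝ)) :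
    X a (osH b v) n s =
      Ch a v n (b + ∑ l : Fin R, if n ≤ (l : ℕ) then Real.sqrt (v l) * (s l).2 else 0) := by
  induction n, h1 using Nat.le_induction generalizing s with
  | base =>
    have h0 : (0 : ℕ) < R := hn
    rw [X_succ, Ch_succ, ha.zero, gaussOp_eq_PM one_ne_zero, X_zero, Ch_zero]
    have e : ∀ y : Bool × ℝ, osH b v (upd 0 s y) = sp y.1 * (b + (∑ l : Fin R,
        if 0 + 1 ≤ (l : ℕ) then Real.sqrt (v l) * (s l).2 else 0) + Real.sqrt (v 0) * y.2) := by
      intro y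
      have := os_sum v h0 s y
      simp only [zero_le, if_true] at this
      rw [osH, this, add_assoc]
      simp [osε, upd]
    simp only [e]
    generalize (b + ∑ l : Fin R, if 0 + 1 ≤ (l : ℕ) then Real.sqrt (v l) * (s l).2 else 0) = B
    have hi : Integrable (fun y : Bool × ℝ => Real.exp (sp y.1 * (B + Real.sqrt (v 0) * y.2)))
        Lev.μ := (ML.bdd_mul (measurable_sp.comp measurable_fst) 1 (fun y => (abs_sp _).le)
          ((ML.const B).add ((ml_id.comp Gro.snd).const_mul _))).exp.integrable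
    simp only [PM, one_mul]
    congr 2
    rw [μ_prod] at hi ⊢
    rw [integral_prod_symm _ hi]
    refine integral_congr_ae (Filter.Eventually.of_forall fun z => ?_)
    simp only [μ_bool, integral_ub, exp_lc, Real.cosh_eq, sp_true, sp_false, one_mul, neg_mul]
  | succ n h1 ih =>
    have hn' : n < R := hn
    rw [X_succ, Ch_succ, gaussOp_eq_PM (ha.pos n hn').ne']
    simp only [ih hn'.le, os_sum v hn' s, ← add_assoc]
    generalize (b + ∑ l : Fin R, if n + 1 ≤ (l : ℕ) then Real.sqrt (v l) * (s l).2 else 0) = B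
    simp only [PM]
    congr 2
    rw [μ_prod, integral_fun_snd fun z : ℝ => Real.exp (a n * Ch a v n (B + Real.sqrt (v n) * z))]
    rw [probReal_univ, one_smul, μ_real]
lemma val_osH (ha : Exps R a) (b : ℝ) (v : ℕ → ℝ) : val a (osH (R := R) b v) = Ch a v R b := by
  rw [val, X_osH ha (Nat.one_le_iff_ne_zero.2 (NeZero.ne R)) le_rfl]
  congr 1
  rw [sum_eq_zero fun l _ => if_neg (not_le.2 l.2), add_zero]
lemma isOv_osQ (ha : Exps R a) (b : ℝ) (v : ℕ → ℝ) : IsOv R (osQ R a b v) := by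
  refine ⟨?_, fun i hi => ?_, EE_nonneg _ _ fun t => sq_nonneg _⟩
  · simp only [osQ, E_zero, osε, sp_sq]
    exact EE_const ha (ml_osH b v) 1
  · have := Bq_anti ha (ml_osH b v) le_rfl ml_osε.me Lev.pt hi
    simp only [osQ, EE, sq]
    exact sub_nonneg.1 this
lemma Ct_osε (ha : Exps R a) {l : ℕ} (hl : l ≤ R) :
    Ct a (osH (R := R) b v) l osε osε = 1 - Tq a (osQ R a b v) l := by
  simp only [Ct, Tq, osQ, sq]
  congr 1
  simp only [osε, sp_mul_self]
  exact EE_const ha (ml_osH b v) 1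
lemma hasDerivAt_b (ha : Exps R a) (v : ℕ → ℝ) (b : ℝ) : HasDerivAt (Ch a v R) (osM R a b v) b := by
  have hI : ∀ θ ∈ Set.Ioo (b - 1) (b + 1), |θ| ≤ |b| + 1 := fun θ hθ =>
    abs_le.2 ⟨by linarith [hθ.1, neg_abs_le b], by linarith [hθ.2, le_abs_self b]⟩
  have hFL : FL (Set.Ioo (b - 1) (b + 1)) fun θ s => osH (R := R) 0 v s + θ * osε s :=
    (FL.const (ml_osH 0 v)).add (FL.smul (c := fun θ => θ) _ hI (FL.const ml_osε))
  have h := hasDerivAt_val isOpen_Ioo ha hFL (DF.linear _ hI (ml_osH 0 v).me ml_osε.me)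
    (θ := b) ⟨by linarith, by linarith⟩
  simp only [← os_add, zero_add, val_osH ha] at h
  exact h
lemma abs_osM_le (ha : Exps R a) (b : ℝ) (v : ℕ → ℝ) : |osM R a b v| ≤ 1 :=
  abs_E_le_const ha (ml_osH b v) le_rfl os_meas (fun s => (os_abs s).le) _
lemma osQ_lip_b (ha : Exps R a) {i : ℕ} (hi : i ≤ R) (v : ℕ → ℝ) (b b' : ℝ) :
    |osQ R a b v i - osQ R a b' v i| ≤ 6 * |b - b'| := by
  have hφ : ML fun s : St R (Bool × ℝ) => (b - b') * osε s := ml_osε.const_mul _
  have h := tay_Q ha (ml_osH b' v) hφ os_meas (fun s => (os_abs s).le) (K := |b - b'|)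
    (fun θ _ => by
      simp only [abs_mul, os_abs, mul_one]
      exact (EE_const ha ((ml_osH b' v).add (hφ.const_mul θ)) _).le) hi zero_le_one le_rfl
  simp only [one_mul, mul_one, ← os_add, add_sub_cancel] at h
  simpa only [osQ, sq] using h
lemma Ch_taylor_b (ha : Exps R a) (v : ℕ → ℝ) (b : ℝ) {β : ℝ} (hβ : |β| ≤ 1 / 2) :
    |Ch a v R (b + β) - Ch a v R b - β * osM R a b v| ≤ 4 * β ^ 2 := by
  have h := val_taylor_bdd ha (ml_osH (R := R) b v) (φ := fun s => β * osε s)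
    (os_meas.const_mul β) hβ fun s => by rw [abs_mul, os_abs, mul_one]
  simp only [← os_add, val_osH ha, EE_const_mul, sq_abs] at h
  exact h
lemma os2_lin (v : ℕ → ℝ) (t : ℝ) :
    osH (R := R) t v = fun s => osH 0 v s + t * osε s := by
  funext s
  simp only [osH]
  ring

lemma os2_fam (v : ℕ → ℝ) (b : ℝ) :
    FL (Set.Ioo (b - 1) (b + 1)) (fun t => osH (R := R) t v) ∧
      DF (Set.Ioo (b - 1) (b + 1)) (fun t => osH (R := R) t v) fun _ => osε := by
  have hI : ∀ θ ∈ Set.Ioo (b - 1) (b + 1), |θ| ≤ |b| + 1 := fun θ hθ =>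
    abs_le.2 ⟨by linarith [hθ.1, neg_abs_le b], by linarith [hθ.2, le_abs_self b]⟩
  have e : (fun t => osH (R := R) t v) = fun t s => osH 0 v s + t * osε s :=
    funext fun t => os2_lin v t
  rw [e]
  exact ⟨(FL.const (ml_osH 0 v)).add (FL.smul (c := fun t => t) _ hI (FL.const ml_osε)),
    DF.linear _ hI (ml_osH 0 v).me ml_osε.me⟩

lemma os2_mem (b : ℝ) : b ∈ Set.Ioo (b - 1) (b + 1) := ⟨by linarith, by linarith⟩

lemma os2_deriv (ha : Exps R a) (v : ℕ → ℝ) (b : ℝ) :
    HasDerivAt (fun t => osM R a t v) (Cv a (osH (R := R) b v) R osε osε Lev.pt) b := by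
  have h := hasDerivAt_EE isOpen_Ioo ha (os2_fam (R := R) v b).1 (os2_fam v b).2
    (DF.const ml_osε.me) (os2_mem b)
  rw [EE_const ha (ml_osH b v), zero_add] at h
  exact h

/-- the field seen by the spin after integrating level `0` -/
noncomputable def os2τ (v : ℕ → ℝ) (s : St R (Bool × ℝ)) : ℝ :=
  ∑ l : Fin R, (if 1 ≤ (l : ℕ) then Real.sqrt (v l) else 0) * (s l).2

omit [NeZero R] in
lemma os2_ml_z (l : Fin R) : ML fun s : St R (Bool × ℝ) => (s l).2 :=
  (ml_id.comp Gro.snd).comp (Gro.apply l)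

omit [NeZero R] in
lemma os2_ml_τ (v : ℕ → ℝ) : ML (os2τ (R := R) v) :=
  ML.sum _ fun l _ => ML.const_mul _ ((ml_id.comp Gro.snd).comp (Gro.apply l))

lemma os2_E1 (ha : Exps R a) (hv : 0 ≤ v 0) (b : ℝ) (s : St R (Bool × ℝ)) :
    E a (osH b v) 1 osε s = Real.sinh (b + os2τ v s) / Real.cosh (b + os2τ v s) := by
  have hR : 1 ≤ R := Nat.one_le_iff_ne_zero.2 (NeZero.ne R)
  have h := (DF.free isOpen_Ioo ha (os2_fam (R := R) v b).1 (os2_fam v b).2 hR).der b (os2_mem b) s
  have e : (fun t => X a (osH t v) 1 s) =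
      fun t => Real.log (Real.cosh (t + os2τ v s)) + v 0 / 2 := by
    funext t
    rw [X_osH ha le_rfl hR, Ch_succ, Ch_zero, ha.zero, gaussOp_one_lc hv]
    simp only [lc, os2τ, ite_mul, zero_mul]
  rw [e] at h
  have h2 := ((((hasDerivAt_id b).add_const (os2τ v s)).cosh).log
    (Real.cosh_pos _).ne').add_const (v 0 / 2)
  simpa using h.unique h2

lemma os2_sech (x : ℝ) : Real.exp (-2 * |x|) ≤ 1 - (Real.sinh x / Real.cosh x) ^ 2 := by
  have hc := Real.cosh_pos x
  have h1 : 1 - (Real.sinh x / Real.cosh x) ^ 2 = (Real.cosh x ^ 2)⁻¹ := by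
    field_simp
    exact Real.cosh_sq_sub_sinh_sq x
  have h2 : Real.cosh x ≤ Real.exp |x| := by
    rw [← exp_lc]
    exact Real.exp_le_exp.2 (lc_bounds x).2
  rw [h1, neg_mul, Real.exp_neg]
  refine inv_anti₀ (by positivity) ?_
  rw [two_mul, Real.exp_add, sq]
  exact mul_le_mul h2 h2 hc.le (Real.exp_pos _).le

omit [NeZero R] in
lemma os2_act (l : Fin R) (θ : ℝ) (s : St R (Bool × ℝ)) (w : Fin R → ℝ) :
    ∑ j, w j * (act (Dir.snd Bool Dir.real) l θ s j).2 = ∑ j, w j * (s j).2 + θ * w l := by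
  have : ∀ j, (act (Dir.snd Bool Dir.real) l θ s j).2 = (s j).2 + if j = l then θ else 0 := by
    intro j
    by_cases h : j = l
    · subst h; simp [act, Dir.snd, Dir.real]
    · simp [act, h]
  simp only [this, mul_add, Finset.sum_add_distrib, mul_ite, mul_zero, Finset.sum_ite_eq',
    Finset.mem_univ, if_true]
  ring

lemma os2_act_ε (l : Fin R) (θ : ℝ) (s : St R (Bool × ℝ)) :
    osε (act (Dir.snd Bool Dir.real) l θ s) = osε s := by
  by_cases h : 0 = l
  · subst h; simp [osε, act, Dir.snd]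
  · simp [osε, act, h]

lemma os2_τ_bound (ha : Exps R a) (hv : ∀ i < R, 0 ≤ v i) {Hb : ℝ} (hHb : 0 ≤ Hb)
    (hs : ∑ i ∈ range R, v i ≤ Hb) (b : ℝ) :
    EE a (osH (R := R) b v) (fun s => |os2τ v s|) ≤ 1 + 3 * Hb := by
  have hH := ml_osH (R := R) b v
  have hτ := os2_ml_τ (R := R) v
  refine (EE_abs_le_sqrt ha hH hτ.me).trans ?_
  set t := Real.sqrt (EE a (osH (R := R) b v) fun s => os2τ v s ^ 2) with ht
  have ht0 : 0 ≤ t := Real.sqrt_nonneg _
  have ht2 : t ^ 2 = EE a (osH (R := R) b v) fun s => os2τ v s ^ 2 :=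
    Real.sq_sqrt (EE_nonneg _ _ fun _ => sq_nonneg _)
  set w : Fin R → ℝ := fun l => if 1 ≤ (l : ℕ) then Real.sqrt (v l) else 0 with hw
  have hw0 : ∀ l, 0 ≤ w l ∧ w l ≤ Real.sqrt (v l) := fun l => by
    simp only [hw]
    split_ifs
    · exact ⟨Real.sqrt_nonneg _, le_rfl⟩
    · exact ⟨le_rfl, Real.sqrt_nonneg _⟩
  have hε : (EE a (osH (R := R) b v) fun s => osε s ^ 2) = 1 := by
    simp only [osε, sp_sq]
    exact EE_const ha hH 1
  have hl : ∀ l : Fin R, EE a (osH (R := R) b v) (fun s => w l * ((s l).2 * os2τ v s)) ≤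
      v l * (1 + 2 * t) := by
    intro l
    have hφ : HasD (Dir.snd Bool Dir.real) l (osH (R := R) b v)
        fun s => Real.sqrt (v l) * osε s := by
      refine HasD.of_lin hH.me (ml_osε.me.const_mul _) fun θ s => ?_
      simp only [osH]
      rw [os2_act_ε, os2_act l θ s fun j => Real.sqrt (v j)]
      ring
    have hψ : HasD (Dir.snd Bool Dir.real) l (os2τ (R := R) v) fun _ => w l :=
      HasD.of_lin hτ.me (ME.const _) fun θ s => os2_act l θ s w
    have h1 : EE a (osH (R := R) b v) (fun s => (s l).2 * os2τ v s) = _ := ibp ha hH hφ hψ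
    rw [EE_const ha hH, Ct_const_mul_right] at h1
    have h2 := abs_Ct_le ha hH l.2.le hτ.me ml_osε.me
    rw [hε, Real.sqrt_one, mul_one, ← ht] at h2
    rw [EE_const_mul, h1]
    have h3 := Real.mul_self_sqrt (hv l l.2)
    have h4 := Real.sqrt_nonneg (v l)
    calc w l * (w l + Real.sqrt (v l) * Ct a (osH b v) l (os2τ v) osε) ≤
          w l * (Real.sqrt (v l) + Real.sqrt (v l) * (2 * t)) := by
          refine mul_le_mul_of_nonneg_left (add_le_add (hw0 l).2 ?_) (hw0 l).1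
          exact mul_le_mul_of_nonneg_left ((le_abs_self _).trans h2) h4
      _ ≤ Real.sqrt (v l) * (Real.sqrt (v l) + Real.sqrt (v l) * (2 * t)) := by
          gcongr
          exact (hw0 l).2
      _ = Real.sqrt (v l) * Real.sqrt (v l) * (1 + 2 * t) := by ring
      _ = _ := by rw [h3]
  have h5 : t ^ 2 ≤ Hb * (1 + 2 * t) := by
    have e : (fun s => os2τ (R := R) v s ^ 2) =
        fun s => ∑ l : Fin R, w l * ((s l).2 * os2τ v s) := by
      funext s
      rw [sq]
      conv_lhs => rw [os2τ, Finset.sum_mul]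
      exact Finset.sum_congr rfl fun l _ => mul_assoc _ _ _
    rw [ht2, e, EE_sum _ ha hH fun l _ => ((os2_ml_z l).me.mul hτ.me).const_mul _]
    refine (Finset.sum_le_sum fun l _ => hl l).trans ?_
    rw [← Finset.sum_mul, Fin.sum_univ_eq_sum_range v R]
    exact mul_le_mul_of_nonneg_right hs (by linarith)
  by_contra hc
  rw [not_le] at hc
  nlinarith

lemma os2_lower (ha : Exps R a) (hv : ∀ i < R, 0 ≤ v i) {Hb : ℝ} (hHb : 0 ≤ Hb)
    (hs : ∑ i ∈ range R, v i ≤ Hb) (b : ℝ) :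
    Real.exp (-2 * (|b| + (1 + 3 * Hb))) ≤ Cv a (osH (R := R) b v) R osε osε Lev.pt := by
  have hR : 1 ≤ R := Nat.one_le_iff_ne_zero.2 (NeZero.ne R)
  have hH := ml_osH (R := R) b v
  have hτ := os2_ml_τ (R := R) v
  have hE : ME fun s => E a (osH (R := R) b v) 1 osε s ^ 2 := (ME.cond ha hH ml_osε.me hR).pow 2
  have hφ : ML fun s => -2 * |b + os2τ (R := R) v s| := (((ML.const b).add hτ).abs).const_mul _
  refine le_trans ?_ (le_Cv_self' ha hH le_rfl hR ml_osε.me Lev.pt)
  rw [← E_sub ha hH le_rfl (ml_osε.me.pow 2) hE]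
  refine le_trans ?_ ((ineq_EE_jensen ha hH hφ).trans
    (EE_mono ha hH hφ.exp ((ml_osε.me.pow 2).sub hE) fun s => ?_))
  · refine Real.exp_le_exp.2 ?_
    rw [EE_const_mul]
    have h1 : EE a (osH (R := R) b v) (fun s => |b + os2τ v s|) ≤
        EE a (osH (R := R) b v) (fun s => |b| + |os2τ v s|) :=
      EE_mono ha hH ((ML.const b).add hτ).abs.me ((ML.const _).add hτ.abs).me
        fun s => abs_add_le _ _
    rw [EE_add ha hH (ME.const _) hτ.abs.me, EE_const ha hH] at h1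
    linarith [os2_τ_bound ha hv hHb hs b]
  · rw [os2_E1 ha (hv 0 hR)]
    simp only [osε, sp_sq]
    exact os2_sech _

theorem osM_strict (B Hb : ℝ) (hHb : 0 ≤ Hb) : ∃ c > 0, ∀ (R : ℕ) [NeZero R] (a v : ℕ → ℝ),
    Exps R a → (∀ i < R, 0 ≤ v i) → ∑ i ∈ range R, v i ≤ Hb → ∀ b b', -B ≤ b → b ≤ b' → b' ≤ B →
      c * (b' - b) ≤ osM R a b' v - osM R a b v := by
  refine ⟨Real.exp (-2 * (B + (1 + 3 * Hb))), Real.exp_pos _,
    fun R _ a v ha hv hs b b' h1 h2 h3 => ?_⟩
  refine (convex_Icc (-B) B).mul_sub_le_image_sub_of_le_deriv (f := fun t => osM R a t v)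
    (fun x _ => (os2_deriv ha v x).continuousAt.continuousWithinAt)
    (fun x _ => (os2_deriv ha v x).differentiableAt.differentiableWithinAt) (fun x hx => ?_)
    b ⟨h1, h2.trans h3⟩ b' ⟨h1.trans h2, h3⟩ h2
  have hx' : |x| ≤ B := abs_le.2 (Set.mem_Icc.1 (interior_subset hx))
  rw [(os2_deriv ha v x).deriv]
  exact (Real.exp_le_exp.2 (by linarith)).trans (os2_lower ha hv hHb hs x)

/-- Taylor bound in the variance of level `l`.  On `(Bool × ℝ) × ℝ` apply `gf_taylor` (with `J = Unit`)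
to `osH b v ∘ fS`, the extra Gaussian `(s l).2` and `z = ε`, `y = √u`.  The perturbed cascade has the
value `Ch a (update v l (v l + u)) R b`: pull back along the level maps
`((ε, z), z') ↦ (ε, (√(v l) z + √u z') / √(v l + u))` at level `l` (measure preserving when
`v l + u > 0`) and `Prod.fst` at the other levels (`val_pull`, `E_pull`). -/
lemma Ch_taylor_v (ha : Exps R a) (hv : ∀ i < R, 0 ≤ v i) (l : Fin R) {u : ℝ} (hu : 0 ≤ u)
    (hu1 : u ≤ 1) :
    |Ch a (Function.update v l (v l + u)) R b - Ch a v R b - u / 2 * (1 - Tq a (osQ R a b v) l)| ≤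
      40 * (u * Real.sqrt u) := by
  rcases hu.eq_or_lt with rfl | hu0
  · simp
  have hvl := hv l l.2
  have hw : 0 < v l + u := by linarith
  have hGF : GF (J := Unit) (fun s : St R ((Bool × ℝ) × ℝ) => osH b v (fS s))
      (fun _ => Dir.snd (Bool × ℝ) Dir.real) (fun _ => l) fun _ s => osε (fS s) :=
    { ml := (ml_osH b v).comp gro_fS
      meas := fun _ => os_meas.comp gro_fS.meas
      bdd := ⟨1, fun _ s => (os_abs _).le⟩
      H_inv := fun _ θ s => by rw [os_fS_act]
      z_inv := fun _ _ θ s => by rw [os_fS_act]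
      γ_act := fun _ _ θ s => by rw [act_self, if_pos rfl]; rfl }
  have h := gf_taylor ha hGF (fun _ s => (os_abs _).le) (Real.sqrt_nonneg u)
    (Real.sqrt_le_one.2 hu1)
  have hf : ∀ _ : Fin R, MeasurePreserving (Prod.fst : (Bool × ℝ) × ℝ → Bool × ℝ) Lev.μ Lev.μ :=
    fun _ => measurePreserving_fst
  have hm := (ml_osH (R := R) b v).meas
  have e1 : Ct a (fun s : St R ((Bool × ℝ) × ℝ) => osH b v (fS s)) l (fun s => osε (fS s))
      (fun s => osε (fS s)) = 1 - Tq a (osQ R a b v) l := by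
    rw [← Ct_osε ha l.2.le]
    unfold Ct
    congr 1
    · exact EE_pull hf hm (os_meas.mul os_meas) a
    · refine sum_congr rfl fun i _ => ?_
      congr 1
      have m := measurable_E a hm os_meas (i + 1)
      refine Eq.trans ?_ (EE_pull hf hm (m.mul m) a)
      have e := E_pull hf hm os_meas a (i + 1)
      congr 1
      funext t
      exact congrArg₂ (· * ·) (e t) (e t)
  let τ : Fin R → (Bool × ℝ) × ℝ → Bool × ℝ := fun i p =>
    if i = l then (p.1.1, (Real.sqrt (v l) * p.1.2 + Real.sqrt u * p.2) / Real.sqrt (v l + u))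
    else p.1
  have hτ : ∀ i, MeasurePreserving (τ i) Lev.μ Lev.μ := fun i => by
    by_cases hi : i = l
    · simp only [τ, if_pos hi]
      exact os_mp hvl hu0
    · simp only [τ, if_neg hi]
      exact hf i
  have e2 : (fun s : St R ((Bool × ℝ) × ℝ) => osH b v (fS s) + ∑ _j : Unit, Real.sqrt u *
      ((Dir.snd (Bool × ℝ) Dir.real).γ (s l) * osε (fS s))) =
      fun s => osH b (Function.update v l (v l + u)) (lift τ s) := by
    funext s
    have e3 : osε (lift τ s) = osε (fS s) := by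
      simp only [osε, lift, fS, τ]
      split_ifs <;> rfl
    have e4 : ∀ i : Fin R, Real.sqrt (Function.update v l (v l + u) i) * (lift τ s i).2 =
        Real.sqrt (v i) * (fS s i).2 + if i = l then Real.sqrt u * (s l).2 else 0 := by
      intro i
      by_cases hi : i = l
      · subst hi
        have := (Real.sqrt_pos.2 hw).ne'
        simp only [lift, fS, τ, if_true, Function.update_self]
        field_simp
      · have hi' : (i : ℕ) ≠ l := fun h => hi (Fin.ext h)
        simp only [lift, fS, τ, if_neg hi, Function.update_of_ne hi', add_zero]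
    simp only [osH, e3, e4, sum_add_distrib, sum_ite_eq', mem_univ, if_true, univ_unique,
      sum_singleton]
    change _ + Real.sqrt u * ((s l).2 * _) = _
    ring
  rw [e2, val_pull hτ (ml_osH _ _).meas, val_fS hm, val_osH ha, val_osH ha] at h
  simp only [univ_unique, sum_singleton, e1, Fintype.card_unique, Real.sq_sqrt hu] at h
  refine h.trans (le_of_eq ?_)
  rw [pow_succ (Real.sqrt u) 2, Real.sq_sqrt hu]
  simp

/-- Close magnetisations give close overlaps.  `b = c - 2 A δ`, `|osM b - (m + δ/γ)| ≤ ε'`.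
If `δ ≥ 0` then `b ≤ c` and `osM b ≥ m - ε' ≥ -1 + η/2`; by convexity, for `b < 0`,
`osM b * (0 - b) ≤ Ch 0 - Ch b ≤ Hb/2 + log 2 - |b|`, so `|b|` is bounded by some `B(η, Hb, cb)`;
symmetric for `δ ≤ 0`.  Hence `|δ| ≤ (B + cb)/(2A)`.  A minimiser `b*` of `osv - b m`
(`exists_osc`) is bounded and has `osM b* = m` (`hasDerivAt_b`); use `osM_strict`, `osQ_lip_b`. -/
theorem os_close (η Hb cb γ₀ ε : ℝ) (hη : 0 < η) (hHb : 0 ≤ Hb) (hγ : 0 < γ₀) (hε : 0 < ε) :
    ∃ A₀ ε' : ℝ, 0 < A₀ ∧ 0 < ε' ∧ ∀ (R : ℕ) [NeZero R] (a v : ℕ → ℝ), Exps R a →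
      (∀ i < R, 0 ≤ v i) → ∑ i ∈ range R, v i ≤ Hb → ∀ A m c γ δ : ℝ, A₀ ≤ A → |m| ≤ 1 - η →
      |c| ≤ cb → γ₀ ≤ γ → |osM R a (c - 2 * A * δ) v - (m + δ / γ)| ≤ ε' →
      ∃ bs, osc a v R m = osv a v R bs - bs * m ∧
        ∀ i ≤ R, |osQ R a (c - 2 * A * δ) v i - osQ R a bs v i| ≤ ε := by
  have hB0 : 0 < (Hb + 2) / η := by positivity
  set B := |cb| + (Hb + 2) / η with hB
  have hBpos : 0 < B := by positivity
  obtain ⟨c₀, hc₀, hstrict⟩ := osM_strict B Hb hHb
  refine ⟨6 * (|cb| + B) / (γ₀ * c₀ * ε), min (η / 2) (c₀ * ε / 12), by positivity, by positivity,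
    fun R _ a v ha hv hs A m c γ δ hA hm hc hγ' hclose => ?_⟩
  have ha' : ∀ i < R, 0 ≤ a i ∧ a i ≤ 1 := fun i hi => ⟨(ha.pos i hi).le, ha.cov_le_one i⟩
  have ha0 : ∀ i < R, 0 ≤ a i := fun i hi => (ha' i hi).1
  have hlog : Real.log 2 ≤ 1 := by linarith [Real.log_two_lt_d9]
  have hApos : 0 < A := lt_of_lt_of_le (by positivity) hA
  have hγpos : 0 < γ := hγ.trans_le hγ'
  have hcb : |c| ≤ |cb| := hc.trans (le_abs_self _)
  obtain ⟨hm1, hm2⟩ := abs_le.1 hm
  obtain ⟨hc1, hc2⟩ := abs_le.1 hcb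
  set b := c - 2 * A * δ with hb
  obtain ⟨hq1, hq2⟩ := abs_le.1 (hclose.trans (min_le_left _ _))
  have hconv : -b * osM R a b v ≤ Hb / 2 + 1 - |b| := by
    have h1 := val_line ha (ml_osH (R := R) b v) ml_osε (-b)
    have e : (fun s => osH (R := R) b v s + -b * osε s) = osH 0 v := by
      funext s
      simp only [osH]
      ring
    rw [e, val_osH ha, val_osH ha] at h1
    have h2 := Ch_upper ha' hv 0
    rw [ch_lc_zero] at h2
    have h3 := Ch_lower ha0 v b
    change _ + -b * osM R a b v ≤ _ at h1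
    linarith
  have hbB : |b| ≤ B := by
    have key : η / 2 * |b| ≤ Hb / 2 + 1 → |b| ≤ B := fun h => by
      have : |b| ≤ (Hb + 2) / η := by rw [le_div_iff₀ hη]; linarith
      linarith [abs_nonneg cb]
    rcases le_total 0 δ with hδ | hδ
    · have h1 : 0 ≤ δ / γ := by positivity
      have h2 : 0 ≤ 2 * A * δ := by positivity
      rcases le_total 0 b with h0 | h0
      · rw [abs_of_nonneg h0]; linarith
      · refine key ?_
        rw [abs_of_nonpos h0] at hconv ⊢
        nlinarith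
    · have h1 : δ / γ ≤ 0 := div_nonpos_of_nonpos_of_nonneg hδ hγpos.le
      have h2 : 2 * A * δ ≤ 0 := mul_nonpos_of_nonneg_of_nonpos (by positivity) hδ
      rcases le_total 0 b with h0 | h0
      · refine key ?_
        rw [abs_of_nonneg h0] at hconv ⊢
        nlinarith
      · rw [abs_of_nonpos h0]; linarith
  have hδ : |δ / γ| ≤ c₀ * ε / 12 := by
    have h1 : 2 * A * |δ| ≤ |cb| + B := by
      have e : 2 * A * δ = c - b := by rw [hb]; ring
      have := abs_sub c b
      rw [← e, abs_mul, abs_of_pos (by positivity : 0 < 2 * A)] at this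
      linarith
    rw [div_le_iff₀ (by positivity)] at hA
    rw [abs_div, abs_of_pos hγpos, div_le_iff₀ hγpos]
    have h2 : A * (12 * |δ|) ≤ A * (γ₀ * c₀ * ε) := by linarith
    have h3 := le_of_mul_le_mul_left h2 hApos
    have h4 : γ₀ * (c₀ * ε) ≤ γ * (c₀ * ε) := mul_le_mul_of_nonneg_right hγ' (by positivity)
    linarith
  obtain ⟨bs, hbs, -, -, hbs'⟩ := exists_osc ha' hv (m := m) (by linarith)
  refine ⟨bs, hbs, fun i hi => (osQ_lip_b ha hi v _ _).trans ?_⟩
  have hbsB : |bs| ≤ B := by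
    have : |bs| ≤ (Hb + 2) / η := by
      rw [le_div_iff₀ hη]
      nlinarith [abs_nonneg bs]
    linarith [abs_nonneg cb]
  have hM : osM R a bs v = m := by
    have h1 : IsLocalMin (fun t => osv a v R t - t * m) bs :=
      Filter.Eventually.of_forall fun t => by
        have := osc_le ha0 v (m := m) (by linarith) t
        rw [hbs] at this
        exact this
    have h2 : HasDerivAt (fun t => osv a v R t - t * m) (osM R a bs v - 1 * m) bs :=
      ((hasDerivAt_b ha v bs).sub_const _).sub ((hasDerivAt_id bs).mul_const m)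
    have := h1.hasDerivAt_eq_zero h2
    linarith
  obtain ⟨hr1, hr2⟩ := abs_le.1 (hclose.trans (min_le_right _ _))
  obtain ⟨hd1, hd2⟩ := abs_le.1 hδ
  obtain ⟨hb1, hb2⟩ := abs_le.1 hbB
  obtain ⟨hs1, hs2⟩ := abs_le.1 hbsB
  have h6 : c₀ * |b - bs| ≤ c₀ * (ε / 6) := by
    rcases le_total b bs with h | h
    · have := hstrict R a v ha hv hs b bs hb1 h hs2
      rw [abs_sub_comm, abs_of_nonneg (sub_nonneg.2 h)]
      linarith
    · have := hstrict R a v ha hv hs bs b hs1 h hb2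
      rw [abs_of_nonneg (sub_nonneg.2 h)]
      linarith
  have := le_of_mul_le_mul_left h6 hc₀
  linarith

end Crest.Agent.R164
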