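import Crest.Agent.R164.Model
import Crest.Agent.R164.OS

/-!
# R164 / Model2: derivatives, integration by parts and values of the enriched system

The flows act on one coordinate of one slot; unfold `act`, `dz`, `dg`, `dr`, `Dir.fst/snd/pi`
(`Function.update`), treating separately whether the acted level equals `0` or `lst R` (the other
components of the slot do not move, so `cfg` and `xs` are unchanged by `dz`, `dg`, and `cfg` by `dr`).
`E_xs`: the matrix entries are `Dep i` for `i ≤ R - 1` (`Dep.slot`), `E_dep_mul`, `E_sum`.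
`val_Ham_zero`: `X 1 s = logZ (s lst).1` when `R ≥ 2` (integrate the spins: `integral_fintype` or
`integral_ub` coordinatewise), then the levels `1 … R-2` are trivial (`PM_const`); for `R = 1` use
`integral_prod`.  One may instead use `val_pull`/`val_split` with `P = Orth ι`.
The sandwich lemmas are `gf_lower`, `gf_upper` with `J = Fin R × ι`.
-/

set_option autoImplicit false

open MeasureTheory ProbabilityTheory Finset Matrix

namespace Crest.Agent.R164

variable {ι κ : Type} [Fintype ι] [DecidableEq ι] [Fintype κ] [DecidableEq κ] {R : ℕ} [NeZero R]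
  {lamv : ι → ℝ} {V : (ι → Bool) → ℝ} {hy px : Fin R → ι → ℝ} {a : ℕ → ℝ}

lemma m2_dz_fst (r : ι) (l l' : Fin R) (θ : ℝ) (s : St R (YS ι)) :
    (act (dz r) l θ s l').1 = (s l').1 := by
  by_cases h : l' = l
  · subst h; rw [act_self]; rfl
  · rw [act_ne _ h]
lemma m2_dz_spin (r r' : ι) (l l' : Fin R) (θ : ℝ) (s : St R (YS ι)) :
    ((act (dz r) l θ s l').2.1 r').1 = ((s l').2.1 r').1 := by
  by_cases h : l' = l
  · subst h
    rw [act_self]
    change (Function.update (s l').2.1 r (((s l').2.1 r).1, ((s l').2.1 r).2 + θ) r').1 = _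
    by_cases hr : r' = r
    · subst hr; rw [Function.update_self]
    · rw [Function.update_of_ne hr]
  · rw [act_ne _ h]
lemma m2_dg_fst (b : ι) (l l' : Fin R) (θ : ℝ) (s : St R (YS ι)) :
    (act (dg b) l θ s l').1 = (s l').1 := by
  by_cases h : l' = l
  · subst h; rw [act_self]; rfl
  · rw [act_ne _ h]
lemma m2_dg_snd (b : ι) (l l' : Fin R) (θ : ℝ) (s : St R (YS ι)) :
    (act (dg b) l θ s l').2.1 = (s l').2.1 := by
  by_cases h : l' = l
  · subst h; rw [act_self]; rfl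
  · rw [act_ne _ h]
lemma m2_dr_snd {b c : ι} (h : b ≠ c) (l l' : Fin R) (θ : ℝ) (s : St R (YS ι)) :
    (act (dr h) l θ s l').2 = (s l').2 := by
  by_cases h : l' = l
  · subst h; rw [act_self]; rfl
  · rw [act_ne _ h]
lemma m2_cfg_dr {b c : ι} (h : b ≠ c) (l : Fin R) (θ : ℝ) (s : St R (YS ι)) :
    cfg (act (dr h) l θ s) = cfg s := by
  funext r
  simp only [cfg, m2_dr_snd]
lemma m2_xs_dr {b c : ι} (h : b ≠ c) (θ : ℝ) (s : St R (YS ι)) :
    xs (act (dr h) (lst R) θ s) = fun i =>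
      if i = b then Real.cos θ * xs s b + Real.sin θ * xs s c
      else if i = c then Real.cos θ * xs s c - Real.sin θ * xs s b else xs s i := by
  have h1 : (act (dr h) (lst R) θ s (lst R)).1.1 = (rot h θ).1 * (s (lst R)).1.1 := by
    rw [act_self]; rfl
  rw [xs, m2_cfg_dr, h1, ← Matrix.mulVec_mulVec]
  exact (exists_rot h θ).choose_spec _
lemma m2_ml_z (l : Fin R) (r : ι) : ML fun s : St R (YS ι) => ((s l).2.1 r).2 := ml_γ (dz r) l
lemma m2_ml_g (l : Fin R) (b : ι) : ML fun s : St R (YS ι) => (s l).2.2 b := ml_γ (dg b) l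
lemma m2_ml_spn (r : ι) : ML fun s : St R (YS ι) => spn (cfg s) r := ml_cfg fun σ => spn σ r

lemma cfg_dz (r : ι) (l : Fin R) (θ : ℝ) (s : St R (YS ι)) : cfg (act (dz r) l θ s) = cfg s := by
  funext r'
  simp only [cfg, m2_dz_spin]
lemma xs_dz (r : ι) (l : Fin R) (θ : ℝ) (s : St R (YS ι)) : xs (act (dz r) l θ s) = xs s := by
  rw [xs, cfg_dz, m2_dz_fst, xs]
lemma cfg_dg (b : ι) (l : Fin R) (θ : ℝ) (s : St R (YS ι)) : cfg (act (dg b) l θ s) = cfg s := by
  funext r'
  simp only [cfg, m2_dg_snd]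
lemma xs_dg (b : ι) (l : Fin R) (θ : ℝ) (s : St R (YS ι)) : xs (act (dg b) l θ s) = xs s := by
  rw [xs, cfg_dg, m2_dg_fst, xs]
lemma γ_dz (r : ι) (y : YS ι) : (dz r).γ y = (y.2.1 r).2 := rfl
lemma γ_dg (b : ι) (y : YS ι) : (dg b).γ y = y.2.2 b := rfl
lemma γ_dr {b c : ι} (h : b ≠ c) (y : YS ι) : (dr h).γ y = 0 := rfl
lemma z_dz (r r' : ι) (l l' : Fin R) (θ : ℝ) (s : St R (YS ι)) :
    ((act (dz r) l θ s l').2.1 r').2 = ((s l').2.1 r').2 + if (l, r) = (l', r') then θ else 0 := by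
  by_cases h : l' = l
  · subst h
    rw [act_self]
    change (Function.update (s l').2.1 r (((s l').2.1 r).1, ((s l').2.1 r).2 + θ) r').2 = _
    by_cases hr : r' = r
    · subst hr; rw [Function.update_self, if_pos rfl]
    · rw [Function.update_of_ne hr, if_neg (fun e => hr (Prod.ext_iff.1 e).2.symm), add_zero]
  · rw [act_ne _ h, if_neg (fun e => h (Prod.ext_iff.1 e).1.symm), add_zero]
lemma g_dz (r b : ι) (l l' : Fin R) (θ : ℝ) (s : St R (YS ι)) :
    (act (dz r) l θ s l').2.2 b = (s l').2.2 b := by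
  by_cases h : l' = l
  · subst h; rw [act_self]; rfl
  · rw [act_ne _ h]
lemma g_dg (b b' : ι) (l l' : Fin R) (θ : ℝ) (s : St R (YS ι)) :
    (act (dg b) l θ s l').2.2 b' = (s l').2.2 b' + if (l, b) = (l', b') then θ else 0 := by
  by_cases h : l' = l
  · subst h
    rw [act_self]
    change Function.update (s l').2.2 b ((s l').2.2 b + θ) b' = _
    by_cases hr : b' = b
    · subst hr; rw [Function.update_self, if_pos rfl]
    · rw [Function.update_of_ne hr, if_neg (fun e => hr (Prod.ext_iff.1 e).2.symm), add_zero]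
  · rw [act_ne _ h, if_neg (fun e => h (Prod.ext_iff.1 e).1.symm), add_zero]
lemma z_dg (b r : ι) (l l' : Fin R) (θ : ℝ) (s : St R (YS ι)) :
    (act (dg b) l θ s l').2.1 r = (s l').2.1 r := by
  rw [m2_dg_snd]
lemma m2_sum_ite (f : Fin R → ι → ℝ) (u : ι → ℝ) (l : Fin R) (r : ι) (θ : ℝ) :
    ∑ l', ∑ r', f l' r' * ((if (l, r) = (l', r') then θ else 0) * u r') = θ * (f l r * u r) := by
  rw [Finset.sum_eq_single l, Finset.sum_eq_single r]
  · rw [if_pos rfl]; ring
  · intro r' _ hr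
    rw [if_neg (fun e => hr (Prod.ext_iff.1 e).2.symm), zero_mul, mul_zero]
  · simp
  · intro l' _ hl
    exact Finset.sum_eq_zero fun r' _ => by
      rw [if_neg (fun e => hl (Prod.ext_iff.1 e).1.symm), zero_mul, mul_zero]
  · simp
lemma Ham_dz (r : ι) (l : Fin R) (θ : ℝ) (s : St R (YS ι)) :
    Ham lamv V hy px (act (dz r) l θ s) = Ham lamv V hy px s + θ * (hy l r * spn (cfg s) r) := by
  simp only [Ham, cfg_dz, xs_dz, z_dz, g_dz, add_mul, mul_add, Finset.sum_add_distrib, m2_sum_ite]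
  ring
lemma Ham_dg (b : ι) (l : Fin R) (θ : ℝ) (s : St R (YS ι)) :
    Ham lamv V hy px (act (dg b) l θ s) = Ham lamv V hy px s + θ * (px l b * xs s b) := by
  simp only [Ham, cfg_dg, xs_dg, z_dg, g_dg, add_mul, mul_add, Finset.sum_add_distrib, m2_sum_ite]
  ring
lemma hasD_xs_left {b c : ι} (h : b ≠ c) :
    HasD (dr h) (lst R) (fun s => xs s b) fun s => xs s c :=
  HasD.of_rot (ml_xs b).me (ml_xs c).me fun θ s => by
    rw [m2_xs_dr]
    exact if_pos rfl
lemma hasD_xs_right {b c : ι} (h : b ≠ c) :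
    HasD (dr h) (lst R) (fun s => xs s c) fun s => -xs s b :=
  HasD.of_rot (ml_xs c).me (ml_xs b).me.neg fun θ s => by
    rw [m2_xs_dr]
    simp only [if_neg h.symm, if_true]
    ring
lemma m2_hasD_xs {b c : ι} (h : b ≠ c) (e : ι) :
    HasD (dr h) (lst R) (fun s => xs s e)
      fun s => (if e = b then xs s c else 0) - if e = c then xs s b else 0 := by
  by_cases hb : e = b
  · subst hb
    exact (hasD_xs_left h).congr (fun _ => rfl) fun s => by rw [if_pos rfl, if_neg h, sub_zero]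
  · by_cases hc : e = c
    · subst hc
      exact (hasD_xs_right h).congr (fun _ => rfl) fun s => by
        rw [if_neg hb, if_pos rfl, zero_sub]
    · refine (HasD.of_inv (ml_xs e).me fun θ s => ?_).congr (fun _ => rfl) fun s => by
        rw [if_neg hb, if_neg hc, sub_zero]
      rw [m2_xs_dr]
      simp only [if_neg hb, if_neg hc]
lemma hasD_Ham_dr {b c : ι} (h : b ≠ c) :
    HasD (dr h) (lst R) (Ham lamv V hy px) fun s => (lamv b - lamv c) * (xs s b * xs s c) +
      ∑ l, (px l b * ((s l).2.2 b * xs s c) - px l c * ((s l).2.2 c * xs s b)) := by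
  have h1 := (HasD.sum (univ : Finset ι) fun e _ =>
    ((m2_hasD_xs (R := R) h e).mul (m2_hasD_xs h e)).const_mul (lamv e)).const_mul (1 / 2)
  have h2 : HasD (dr h) (lst R) (fun s : St R (YS ι) => V (cfg s) +
      ∑ l, ∑ r, hy l r * (((s l).2.1 r).2 * spn (cfg s) r)) fun _ => 0 :=
    HasD.of_inv ((ml_cfg V).me.add (ME.sum _ fun l _ => ME.sum _ fun r _ =>
      ((m2_ml_z l r).me.mul (m2_ml_spn r).me).const_mul _)) fun θ s => by
        simp only [m2_cfg_dr, m2_dr_snd]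
  have h3 := HasD.sum (univ : Finset (Fin R)) fun l _ => HasD.sum (univ : Finset ι) fun e _ =>
    ((HasD.of_inv (d := dr h) (l := lst R) (m2_ml_g l e).me fun θ s => by
      simp only [m2_dr_snd]).mul (m2_hasD_xs h e)).const_mul (px l e)
  refine ((h1.add h2).add h3).congr (fun s => ?_) fun s => ?_
  · simp only [Ham, sq]
    ring
  · simp only [zero_mul, zero_add, add_zero, mul_sub, sub_mul, mul_add, mul_ite, ite_mul,
      mul_zero, Finset.sum_sub_distrib, Finset.sum_add_distrib, Finset.sum_ite_eq', mem_univ,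
      if_true]
    ring

lemma E_xs (ha : Exps R a) {H : St R (YS ι) → ℝ} (hH : ML H) {i : ℕ} (hi : i < R) (b : ι)
    (s : St R (YS ι)) : E a H i (fun t => xs t b) s =
      ((s (lst R)).1.1 *ᵥ fun r => E a H i (fun t => spn (cfg t) r) s) b := by
  have hm : ∀ r, Measurable fun t : St R (YS ι) => (t (lst R)).1.1 b r := fun r =>
    (Orth.measurable_entry b r).comp (measurable_fst.comp (measurable_pi_apply _))
  have h1 : (fun t : St R (YS ι) => xs t b) =
      fun t => ∑ r, (t (lst R)).1.1 b r * spn (cfg t) r := rfl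
  rw [h1, E_sum _ ha hH hi.le fun r _ =>
    (ME.of_bdd (hm r) 1 fun t => Orth.abs_le_one _ _ _).mul (m2_ml_spn r).me]
  refine Finset.sum_congr rfl fun r _ => ?_
  exact E_dep_mul a H _ ((Dep.slot (lst R) fun y : YS ι => y.1.1 b r).mono
    (Nat.le_sub_one_of_lt hi)) s
lemma m2_E_div (a : ℕ → ℝ) (H ψ : St R (YS ι) → ℝ) (i : ℕ) (s : St R (YS ι)) :
    E a H i (fun t => ψ t / Real.sqrt (Fintype.card ι)) s ^ 2 =
      (Fintype.card ι : ℝ)⁻¹ * E a H i ψ s ^ 2 := by
  simp only [div_eq_inv_mul]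
  rw [E_const_mul, mul_pow, inv_pow, Real.sq_sqrt (Nat.cast_nonneg _)]
lemma m2_ov_Xb (ha : Exps R a) {H : St R (YS ι) → ℝ} (hH : ML H) (lab : ι → κ) (k : κ) {i : ℕ}
    (hi : i ≤ R) : ov a H (Xb lab k) i = (Fintype.card ι : ℝ)⁻¹ *
      ∑ b : {b // lab b = k}, EE a H fun s => E a H i (fun t => xs t b) s ^ 2 := by
  rw [← EE_sum _ ha hH fun (b : {b // lab b = k}) _ => ((ml_xs b.1).me.cond ha hH hi).pow 2,
    ← EE_const_mul, ov]
  congr 1
  funext s
  rw [Finset.mul_sum]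
  exact Finset.sum_congr rfl fun b _ => m2_E_div a H _ i s
lemma m2_ov_Sv (ha : Exps R a) {H : St R (YS ι) → ℝ} (hH : ML H) {i : ℕ}
    (hi : i ≤ R) : ov a H Sv i = (Fintype.card ι : ℝ)⁻¹ *
      ∑ r, EE a H fun s => E a H i (fun t => spn (cfg t) r) s ^ 2 := by
  rw [← EE_sum _ ha hH fun r _ => ((m2_ml_spn r).me.cond ha hH hi).pow 2,
    ← EE_const_mul, ov]
  congr 1
  funext s
  rw [Finset.mul_sum]
  exact Finset.sum_congr rfl fun r _ => m2_E_div a H _ i s
lemma m2_card_mul {β : Type} [Fintype β] (j : β → ι) (f : β → ℝ) :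
    (Fintype.card ι : ℝ) * ((Fintype.card ι : ℝ)⁻¹ * ∑ b, f b) = ∑ b, f b := by
  rcases isEmpty_or_nonempty ι with h | h
  · have : IsEmpty β := ⟨fun b => h.false (j b)⟩
    simp
  · have : (Fintype.card ι : ℝ) ≠ 0 := by exact_mod_cast Fintype.card_ne_zero
    rw [mul_inv_cancel_left₀ this]
lemma ov_total (ha : Exps R a) {H : St R (YS ι) → ℝ} (hH : ML H) (lab : ι → κ) {i : ℕ}
    (hi : i < R) : qt a H i = ∑ k, ov a H (Xb lab k) i := by
  rw [qt, if_pos hi, m2_ov_Sv ha hH hi.le]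
  simp only [m2_ov_Xb ha hH lab _ hi.le]
  rw [← Finset.mul_sum,
    sum_blocks lab fun b => EE a H fun s => E a H i (fun t => xs t b) s ^ 2,
    ← EE_sum _ ha hH fun r _ => ((m2_ml_spn r).me.cond ha hH hi.le).pow 2,
    ← EE_sum _ ha hH fun b _ => ((ml_xs b).me.cond ha hH hi.le).pow 2]
  congr 2
  funext s
  simp only [E_xs ha hH hi]
  exact (Orth.sum_sq_mulVec _ _).symm
lemma qt_eq (ha : Exps R a) {H : St R (YS ι) → ℝ} (hH : ML H) {i : ℕ} (hi : i < R) :
    Fintype.card ι * qt a H i = ∑ r, EE a H fun s => E a H i (fun t => spn (cfg t) r) s ^ 2 := by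
  rw [qt, if_pos hi, m2_ov_Sv ha hH hi.le, m2_card_mul id]
lemma isOv_qt (ha : Exps R a) {H : St R (YS ι) → ℝ} (hH : ML H) [Nonempty ι] : IsOv R (qt a H) := by
  have hR : 0 < R := Nat.pos_of_ne_zero (NeZero.ne R)
  have hN : (Fintype.card ι : ℝ) ≠ 0 := by exact_mod_cast Fintype.card_ne_zero
  refine ⟨?_, fun i hi => ?_, by rw [qt, if_neg (lt_irrefl R)]⟩
  · rw [qt, if_pos hR, m2_ov_Sv ha hH hR.le]
    simp only [E_zero, spn, sp_sq, EE_const ha hH, Finset.sum_const, Finset.card_univ,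
      nsmul_eq_mul, mul_one]
    exact inv_mul_cancel₀ hN
  · rw [qt, qt, if_pos hi]
    split_ifs with h
    · exact uv_Sv.ov_anti ha hH (Nat.le_succ i) h.le
    · exact (uv_Sv.ov_mem ha hH hi.le).1
lemma qt_top (a : ℕ → ℝ) (H : St R (YS ι) → ℝ) : qt a H R = 0 := by
  rw [qt, if_neg (lt_irrefl R)]
lemma EE_energy (ha : Exps R a) {H : St R (YS ι) → ℝ} (hH : ML H) (lab : ι → κ) (lam : κ → ℝ) :
    EE a H (fun s => ∑ b, lam (lab b) * xs s b ^ 2) =
      Fintype.card ι * ∑ k, lam k * ov a H (Xb lab k) 0 := by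
  rw [EE_sum _ ha hH fun b _ => ((ml_xs b).me.pow 2).const_mul _,
    ← sum_blocks lab fun b => EE a H fun s => lam (lab b) * xs s b ^ 2, Finset.mul_sum]
  refine Finset.sum_congr rfl fun k _ => ?_
  rw [m2_ov_Xb ha hH lab k (Nat.zero_le R), mul_left_comm, m2_card_mul Subtype.val, Finset.mul_sum]
  refine Finset.sum_congr rfl fun b _ => ?_
  rw [EE_const_mul, b.2, E_zero]
lemma m2_sum_Ct {β : Type} [Fintype β] (a : ℕ → ℝ) (H : St R (YS ι) → ℝ) (l : ℕ)
    (ψ : β → St R (YS ι) → ℝ) :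
    ∑ b, Ct a H l (ψ b) (ψ b) = (∑ b, EE a H fun s => E a H 0 (ψ b) s ^ 2) -
      ∑ i ∈ range l, (a i - a (i + 1)) * ∑ b, EE a H fun s => E a H (i + 1) (ψ b) s ^ 2 := by
  simp only [Ct, E_zero, sq, Finset.sum_sub_distrib, Finset.mul_sum]
  rw [Finset.sum_comm]
lemma m2_hasD_dg (l : Fin R) (b : ι) :
    HasD (dg b) l (Ham lamv V hy px) fun s => px l b * xs s b :=
  HasD.of_lin (ml_Ham lamv V hy px).me ((ml_xs b).me.const_mul _) (Ham_dg b l)
lemma m2_hasD_dz (l : Fin R) (r : ι) :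
    HasD (dz r) l (Ham lamv V hy px) fun s => hy l r * spn (cfg s) r :=
  HasD.of_lin (ml_Ham lamv V hy px).me ((m2_ml_spn r).me.const_mul _) (Ham_dz r l)
lemma EE_pf (ha : Exps R a) (lab : ι → κ) (k : κ) (l : Fin R) {c : ℝ}
    (h : ∀ b, lab b = k → px l b = c) :
    EE a (Ham lamv V hy px) (pf lab k l) = c * Fintype.card ι *
      (ov a (Ham lamv V hy px) (Xb lab k) 0 - Tq a (ov a (Ham lamv V hy px) (Xb lab k)) l) := by
  have hH := ml_Ham lamv V hy px
  have h1 : ∀ b : {b // lab b = k},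
      EE a (Ham lamv V hy px) (fun s => (s l).2.2 b * xs s b) =
        c * Ct a (Ham lamv V hy px) l (fun s => xs s b) fun s => xs s b := fun b => by
    have := ibp ha hH (m2_hasD_dg l b.1) (HasD.of_inv (ml_xs b.1).me fun θ s => by rw [xs_dg])
    rw [EE_const ha hH, zero_add, Ct_const_mul_right, h b b.2] at this
    exact this
  have h2 : EE a (Ham lamv V hy px) (pf lab k l) =
      ∑ b : {b // lab b = k}, EE a (Ham lamv V hy px) fun s => (s l).2.2 b * xs s b :=
    EE_sum _ ha hH fun b _ => (m2_ml_g l b.1).me.mul (ml_xs b.1).me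
  rw [h2, Finset.sum_congr rfl fun b _ => h1 b, ← Finset.mul_sum, m2_sum_Ct, mul_assoc, mul_sub
    (Fintype.card ι : ℝ), m2_ov_Xb ha hH lab k (Nat.zero_le R), m2_card_mul Subtype.val, Tq,
    Finset.mul_sum]
  congr 2
  refine Finset.sum_congr rfl fun i hi => ?_
  rw [m2_ov_Xb ha hH lab k ((Nat.succ_le_of_lt (mem_range.1 hi)).trans l.2.le), mul_left_comm,
    m2_card_mul Subtype.val]
lemma EE_field (ha : Exps R a) [Nonempty ι] (l : Fin R) {y : ℝ} (h : ∀ r, hy l r = y) :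
    EE a (Ham lamv V hy px) (fun s => ∑ r, ((s l).2.1 r).2 * spn (cfg s) r) =
      y * Fintype.card ι * (1 - Tq a (qt a (Ham lamv V hy px)) l) := by
  have hH := ml_Ham lamv V hy px
  have hR : 0 < R := Nat.pos_of_ne_zero (NeZero.ne R)
  have h1 : ∀ r, EE a (Ham lamv V hy px) (fun s => ((s l).2.1 r).2 * spn (cfg s) r) =
      y * Ct a (Ham lamv V hy px) l (fun s => spn (cfg s) r) fun s => spn (cfg s) r := fun r => by
    have := ibp ha hH (m2_hasD_dz l r) (HasD.of_inv (m2_ml_spn r).me fun θ s => by rw [cfg_dz])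
    rw [EE_const ha hH, zero_add, Ct_const_mul_right, h r] at this
    exact this
  rw [EE_sum _ ha hH fun r _ => (m2_ml_z l r).me.mul (m2_ml_spn r).me,
    Finset.sum_congr rfl fun r _ => h1 r, ← Finset.mul_sum, m2_sum_Ct, mul_assoc, mul_sub
    (Fintype.card ι : ℝ), ← qt_eq ha hH hR, (isOv_qt ha hH).zero, Tq, Finset.mul_sum]
  congr 2
  refine Finset.sum_congr rfl fun i hi => ?_
  rw [← qt_eq ha hH ((Nat.succ_le_of_lt (mem_range.1 hi)).trans_lt l.2), mul_left_comm]
/-- `Σ_b EE g_b² = N + Σ_b Ct (g_b, px x_b) ≤ N + 2 B √(Σ EE g²) √N`. -/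
lemma EE_g_sq_le (ha : Exps R a) (l : Fin R) {B : ℝ} (hB : 0 ≤ B) (h : ∀ b, |px l b| ≤ B) :
    EE a (Ham lamv V hy px) (fun s => ∑ b, (s l).2.2 b ^ 2) ≤ (1 + 2 * B) ^ 2 * Fintype.card ι := by
  have hH := ml_Ham lamv V hy px
  have h1 : ∀ b, EE a (Ham lamv V hy px) (fun s => (s l).2.2 b ^ 2) ≤
      (1 + 2 * B) + (2 * B + 4 * B ^ 2) * EE a (Ham lamv V hy px) fun s => xs s b ^ 2 := fun b => by
    have h2 := EE_γ_sq_le ha hH (m2_hasD_dg (lamv := lamv) (V := V) (hy := hy) (px := px) l b)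
      fun θ y => by
        change Function.update y.2.2 b (y.2.2 b + θ) b = y.2.2 b + θ
        rw [Function.update_self]
    simp only [γ_dg, mul_pow, EE_const_mul] at h2
    have h3 : 0 ≤ EE a (Ham lamv V hy px) fun s => xs s b ^ 2 :=
      EE_nonneg _ _ fun _ => sq_nonneg _
    have h4 : 0 ≤ EE a (Ham lamv V hy px) fun s => (s l).2.2 b ^ 2 :=
      EE_nonneg _ _ fun _ => sq_nonneg _
    rw [Real.sqrt_mul (sq_nonneg _), Real.sqrt_sq_eq_abs] at h2
    have h5 := Real.sq_sqrt h3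
    have h6 := Real.sq_sqrt h4
    have h7 := Real.sqrt_nonneg (EE a (Ham lamv V hy px) fun s => xs s b ^ 2)
    have h8 := Real.sqrt_nonneg (EE a (Ham lamv V hy px) fun s => (s l).2.2 b ^ 2)
    rw [← h5, ← h6]
    generalize Real.sqrt (EE a (Ham lamv V hy px) fun s => xs s b ^ 2) = w at *
    generalize Real.sqrt (EE a (Ham lamv V hy px) fun s => (s l).2.2 b ^ 2) = u at *
    have h9 : u ≤ 1 + 2 * (B * w) := h2.trans (by gcongr; exact h b)
    have h10 : u ^ 2 ≤ (1 + 2 * (B * w)) ^ 2 := by gcongr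
    nlinarith [mul_nonneg hB (sq_nonneg (w - 1))]
  rw [EE_sum _ ha hH fun b _ => (m2_ml_g l b).me.pow 2]
  refine (Finset.sum_le_sum fun b _ => h1 b).trans (le_of_eq ?_)
  rw [Finset.sum_add_distrib, ← Finset.mul_sum, ← EE_sum _ ha hH fun b _ => (ml_xs b).me.pow 2]
  simp only [sum_sq_xs, EE_const ha hH, Finset.sum_const, Finset.card_univ, nsmul_eq_mul]
  ring

omit [Fintype κ] [DecidableEq κ] in
/-- A cascade depending only on the innermost slot. -/
lemma m2_val_slot0 {Y : Type} [MeasurableSpace Y] [Lev Y] (ha : Exps R a) (G : Y → ℝ) :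
    val a (fun t : St R Y => G (t 0)) = PM 1 Lev.μ G := by
  have key : ∀ n, n < R → ∀ s : St R Y, X a (fun t : St R Y => G (t 0)) (n + 1) s = PM 1 Lev.μ G := by
    intro n
    induction n with
    | zero =>
      intro _ s
      rw [X_succ, ha.zero]
      simp [X_zero, upd]
    | succ n ih =>
      intro hn s
      rw [X_succ]
      simp only [ih (by omega)]
      exact PM_const (ha.pos _ hn) _
  have hR : R = (R - 1) + 1 := (Nat.succ_pred_eq_of_pos (NeZero.pos R)).symm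
  have := key (R - 1) (by have := NeZero.pos R; omega) Lev.pt
  rw [← hR] at this
  exact this

omit [DecidableEq ι] in
lemma m2_mp_spins : MeasurePreserving
    (fun (y : (ι → Bool × ℝ) × (ι → ℝ)) (r : ι) => (y.1 r).1) Lev.μ (Measure.pi fun _ => ub) := by
  have h1 : MeasurePreserving (Prod.fst : (ι → Bool × ℝ) × (ι → ℝ) → ι → Bool × ℝ) Lev.μ Lev.μ :=
    measurePreserving_fst
  have h2 : MeasurePreserving (fun (y : ι → Bool × ℝ) (r : ι) => (y r).1) Lev.μ
      (Measure.pi fun _ => ub) :=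
    measurePreserving_pi (fun _ : ι => (Lev.μ : Measure (Bool × ℝ))) (fun _ => ub)
      (f := fun _ => Prod.fst) fun _ => measurePreserving_fst
  exact h2.comp h1

lemma m2_integral_spins (f : (ι → Bool) → ℝ) :
    ∫ y : (ι → Bool × ℝ) × (ι → ℝ), f (fun r => (y.1 r).1) ∂Lev.μ =
      (1 / 2) ^ Fintype.card ι * ∑ σ, f σ := by
  rw [← integral_map (m2_mp_spins (ι := ι)).measurable.aemeasurable
    (measurable_of_finite f).aestronglyMeasurable, (m2_mp_spins (ι := ι)).map_eq,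
    integral_fintype Integrable.of_finite, Finset.mul_sum]
  refine Finset.sum_congr rfl fun σ _ => ?_
  have h1 : ∀ b : Bool, ub {b} = 2⁻¹ := fun b => by cases b <;> simp [ub]
  simp [Measure.real, Measure.pi_singleton, h1]

lemma val_Ham_zero (ha : Exps R a) (lamv : ι → ℝ) (V : (ι → Bool) → ℝ) :
    val a (Ham (R := R) lamv V 0 0) = PM (a (R - 1)) (haar ι) (logZ lamv V) := by
  let G : Orth ι → (ι → Bool) → ℝ := fun U σ => (∑ b, lamv b * (U.1 *ᵥ spn σ) b ^ 2) / 2 + V σ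
  let H : Orth ι → St R ((ι → Bool × ℝ) × (ι → ℝ)) → ℝ := fun U t => G U fun r => ((t 0).1 r).1
  have e : Ham (R := R) lamv V 0 0 = par H := by
    funext s
    simp [Ham, par, H, G, xs]
    rfl
  have hH : ML fun q : Orth ι × St R ((ι → Bool × ℝ) × (ι → ℝ)) => H q.1 q.2 := by
    have hτ : Gro fun (q : Orth ι × St R ((ι → Bool × ℝ) × (ι → ℝ))) (i : Fin R) =>
        ((q.1, q.2 i) : YS ι) :=
      Gro.pi fun i => Gro.prodMk Gro.fst ((Gro.apply i).comp Gro.snd)
    have := (ml_Ham (R := R) lamv V 0 0).comp hτ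
    rw [e] at this
    exact this
  rw [e, val_split ha hH]
  congr 1
  funext U
  rw [m2_val_slot0 ha fun y : (ι → Bool × ℝ) × (ι → ℝ) => G U fun r => (y.1 r).1]
  simp only [PM, inv_one, one_mul]
  rw [m2_integral_spins fun σ => Real.exp (G U σ)]
  rfl

lemma val_Ham_mono (ha : Exps R a) {lamv' : ι → ℝ} {V' : (ι → Bool) → ℝ} {c : ℝ}
    (h : ∀ b, lamv b ≤ lamv' b) (hV : ∀ σ, V σ ≤ V' σ + c) :
    val a (Ham lamv V hy px) ≤ val a (Ham lamv' V' hy px) + c := by
  rw [← val_add_const ha (ml_Ham _ _ _ _).mu]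
  refine val_mono ha (ml_Ham _ _ _ _).mu ((ml_Ham _ _ _ _).add (ML.const c)).mu fun s => ?_
  have h1 : ∑ b, lamv b * xs s b ^ 2 ≤ ∑ b, lamv' b * xs s b ^ 2 :=
    Finset.sum_le_sum fun b _ => mul_le_mul_of_nonneg_right (h b) (sq_nonneg _)
  have h2 := hV (cfg s)
  simp only [Ham]
  linarith

lemma val_Ham_lam (ha : Exps R a) {lamv' : ι → ℝ} {c : ℝ} (h : ∀ b, lamv b ≤ lamv' b + c) :
    val a (Ham lamv V hy px) ≤ val a (Ham lamv' V hy px) + Fintype.card ι * c / 2 := by
  rw [← val_add_const ha (ml_Ham _ _ _ _).mu]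
  refine val_mono ha (ml_Ham _ _ _ _).mu ((ml_Ham _ _ _ _).add (ML.const _)).mu fun s => ?_
  have h1 : ∑ b, lamv b * xs s b ^ 2 ≤ ∑ b, (lamv' b + c) * xs s b ^ 2 :=
    Finset.sum_le_sum fun b _ => mul_le_mul_of_nonneg_right (h b) (sq_nonneg _)
  have h2 : ∑ b, (lamv' b + c) * xs s b ^ 2 = ∑ b, lamv' b * xs s b ^ 2 + Fintype.card ι * c := by
    rw [← sum_sq_xs s, Finset.sum_mul, ← Finset.sum_add_distrib]
    exact Finset.sum_congr rfl fun b _ => by ring
  simp only [Ham]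
  linarith

lemma m2_gf_px (lamv : ι → ℝ) (V : (ι → Bool) → ℝ) (hy : Fin R → ι → ℝ) :
    GF (J := Fin R × ι) (Ham lamv V hy 0) (fun j => dg j.2) (fun j => j.1) fun j s => xs s j.2 where
  ml := ml_Ham _ _ _ _
  meas := fun j => measurable_xs j.2
  bdd := ⟨_, fun j s => abs_xs_le s j.2⟩
  H_inv := fun j θ s => by rw [Ham_dg]; simp
  z_inv := fun j k θ s => by rw [xs_dg]
  γ_act := fun j k θ s => by rw [γ_dg, γ_dg, g_dg]

lemma m2_Ham_px (lamv : ι → ℝ) (V : (ι → Bool) → ℝ) (hy px : Fin R → ι → ℝ) :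
    Ham lamv V hy px = fun s => Ham lamv V hy 0 s +
      ∑ j : Fin R × ι, px j.1 j.2 * ((dg j.2).γ (s j.1) * xs s j.2) := by
  funext s
  simp [Ham, γ_dg, Fintype.sum_prod_type]

lemma val_Ham_px_lower (ha : Exps R a) : val a (Ham lamv V hy 0) ≤ val a (Ham lamv V hy px) := by
  rw [m2_Ham_px lamv V hy px]
  exact gf_lower ha (m2_gf_px lamv V hy) fun j => px j.1 j.2

lemma val_Ham_px_upper (ha : Exps R a) {B : ℝ} (h : ∀ l b, |px l b| ≤ B) :
    val a (Ham lamv V hy px) ≤ val a (Ham lamv V hy 0) + R * B ^ 2 * Fintype.card ι := by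
  rw [m2_Ham_px lamv V hy px]
  refine (gf_upper ha (m2_gf_px lamv V hy) fun j => px j.1 j.2).trans ?_
  rw [← val_add_const ha (ml_Ham _ _ _ _).mu]
  simp only [Fintype.sum_prod_type]
  refine val_mono ha ((ml_Ham _ _ _ _).add
    (ML.sum _ fun l _ => ml_xs_sq fun b => px l b ^ 2)).mu
    ((ml_Ham _ _ _ _).add (ML.const _)).mu fun s => ?_
  have h1 : ∀ l, ∑ b, px l b ^ 2 * xs s b ^ 2 ≤ B ^ 2 * Fintype.card ι := fun l => by
    rw [← sum_sq_xs s, Finset.mul_sum]
    refine Finset.sum_le_sum fun b _ => mul_le_mul_of_nonneg_right ?_ (sq_nonneg _)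
    rw [← sq_abs]
    exact pow_le_pow_left₀ (abs_nonneg _) (h l b) 2
  have h2 := Finset.sum_le_sum fun l (_ : l ∈ (univ : Finset (Fin R))) => h1 l
  simp only [Finset.sum_const, Finset.card_univ, Fintype.card_fin, nsmul_eq_mul] at h2
  linarith

lemma m2_gf_hy (lamv : ι → ℝ) (V : (ι → Bool) → ℝ) (px : Fin R → ι → ℝ) :
    GF (J := Fin R × ι) (Ham lamv V 0 px) (fun j => dz j.2) (fun j => j.1)
      fun j s => spn (cfg s) j.2 where
  ml := ml_Ham _ _ _ _
  meas := fun j => measurable_cfg_comp fun σ => spn σ j.2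
  bdd := ⟨1, fun j s => by simp [spn]⟩
  H_inv := fun j θ s => by rw [Ham_dz]; simp
  z_inv := fun j k θ s => by rw [cfg_dz]
  γ_act := fun j k θ s => by rw [γ_dz, γ_dz, z_dz]

lemma val_Ham_hy_lower (ha : Exps R a) : val a (Ham lamv V 0 px) ≤ val a (Ham lamv V hy px) := by
  have e : Ham lamv V hy px = fun s => Ham lamv V 0 px s +
      ∑ j : Fin R × ι, hy j.1 j.2 * ((dz j.2).γ (s j.1) * spn (cfg s) j.2) := by
    funext s
    simp only [Ham, γ_dz, Fintype.sum_prod_type, Pi.zero_apply, zero_mul, Finset.sum_const_zero]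
    ring
  rw [e]
  exact gf_lower ha (m2_gf_hy lamv V px) fun j => hy j.1 j.2

/-- Without interaction the system factorises (`val_pull` along `y ↦ y.2.1`, `val_pi`, `val_osH`). -/
lemma val_Ham_free (ha : Exps R a) (b : ι → ℝ) (v : ι → ℕ → ℝ) (hv : ∀ r i, 0 ≤ v r i) :
    val a (Ham (R := R) 0 (fun σ => ∑ r, b r * spn σ r) (fun l r => Real.sqrt (v r l)) 0) =
      ∑ r, Ch a (v r) R (b r) := by
  have hτ : MeasurePreserving (fun y : YS ι => y.2.1) Lev.μ Lev.μ := by
    have h1 : MeasurePreserving (Prod.snd : YS ι → (ι → Bool × ℝ) × (ι → ℝ)) Lev.μ Lev.μ :=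
      measurePreserving_snd
    have h2 : MeasurePreserving (Prod.fst : (ι → Bool × ℝ) × (ι → ℝ) → ι → Bool × ℝ) Lev.μ Lev.μ :=
      measurePreserving_fst
    exact h2.comp h1
  let K : St R (ι → Bool × ℝ) → ℝ := fun t => ∑ r, osH (b r) (v r) fun i => t i r
  have hK : Measurable K :=
    Finset.measurable_sum _ fun r _ => (ml_osH (b r) (v r)).meas.comp (by fun_prop)
  have e : Ham (R := R) 0 (fun σ => ∑ r, b r * spn σ r) (fun l r => Real.sqrt (v r l)) 0 =
      fun s => K (lift (fun _ (y : YS ι) => y.2.1) s) := by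
    funext s
    simp only [Ham, K, osH, osε, lift, Pi.zero_apply, zero_mul, Finset.sum_const_zero, zero_div,
      zero_add, add_zero, spn, cfg]
    rw [Finset.sum_comm, ← Finset.sum_add_distrib]
    refine Finset.sum_congr rfl fun r _ => ?_
    rw [mul_add, Finset.mul_sum]
    congr 1
    · ring
    · exact Finset.sum_congr rfl fun l _ => by ring
  rw [e, val_pull (fun _ => hτ) hK, val_pi ha fun r => (ml_osH (b r) (v r)).mu]
  exact Finset.sum_congr rfl fun r _ => val_osH ha _ _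

end Crest.Agent.R164
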