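import Crest.Agent.R164.Model2

/-!
# R164 / Pen: magnetisation penalty, penalised values, near maximisers

`px_lip`: `Ham_upd_px`, `val_line` in both directions, `EE_pf` with
`0 ≤ ov 0 - Tq ov l ≤ 1` (`UV.ov_mem`, `UV.ov_anti`).
`px_near_max`: compare with the point whose coordinate `(k,l)` is `3s/2`: with `d = |px k l - 3s/2|`,
`10 N d² ≤ (5s/2) N d + 1`, impossible for `d > s/3` when `N s² ≥ 4`.  Second differences: compare
with the two shifted points.  `y_near_max` is the same with Lipschitz constant `N`.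
`mag_bound`: per label, with `N Δ = S - m N_j`, `e' = e - m M_j`, `|Δ| ≤ 2`, `|e'| ≤ 2M`:
`(A/N)(NΔ)² - (A/(N+M))(NΔ + e')² = A Δ² N M/(N+M) - 2 A Δ e' N/(N+M) - A e'²/(N+M)`, which differs
from `A M δ² - 2 A δ e'` by at most `8 A M |Δ - δ| + 16 A M²/N`.
-/

set_option autoImplicit false

open MeasureTheory ProbabilityTheory Finset Matrix

namespace Crest.Agent.R164

variable {ι ι' κ J : Type} [Fintype ι] [DecidableEq ι] [Fintype ι'] [DecidableEq ι'] [Fintype κ]
  [DecidableEq κ] [Fintype J] [DecidableEq J]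

/-- Total spin of a group. -/
noncomputable def Sg (fld : ι → J) (j : J) (σ : ι → Bool) : ℝ := ∑ r ∈ univ.filter (fld · = j), spn σ r
/-- External field. -/
noncomputable def Vc (fld : ι → J) (c : J → ℝ) (σ : ι → Bool) : ℝ := ∑ r, c (fld r) * spn σ r
/-- Field, perturbation and soft magnetisation constraint. -/
noncomputable def Vm (fld : ι → J) (c m : J → ℝ) (A : ℝ) (y : J → ℝ) (σ : ι → Bool) : ℝ :=
  ∑ r, (c (fld r) + y (fld r)) * spn σ r -
    A / Fintype.card ι * ∑ j, (Sg fld j σ - m j * ct fld j) ^ 2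
/-- Penalty on the Gaussian perturbation parameters. -/
noncomputable def penx {R : ℕ} (s : ℝ) (px : κ → Fin R → ℝ) : ℝ := 10 * ∑ k, ∑ l, (px k l - 3 * s / 2) ^ 2
/-- Penalty on the magnetisation parameters. -/
noncomputable def peny (s : ℝ) (y : J → ℝ) : ℝ := 2 / s * ∑ j, y j ^ 2
/-- Box for the Gaussian perturbation parameters. -/
def Boxx {R : ℕ} (s : ℝ) (px : κ → Fin R → ℝ) : Prop := ∀ k l, s / 2 ≤ px k l ∧ px k l ≤ 5 * s / 2
/-- Shift of one perturbation parameter. -/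
def shx {R : ℕ} (px : κ → Fin R → ℝ) (k : κ) (l : Fin R) (t : ℝ) : κ → Fin R → ℝ :=
  fun k' l' => px k' l' + if k' = k ∧ l' = l then t else 0
/-- Shift of one magnetisation parameter. -/
def shy (y : J → ℝ) (j : J) (t : ℝ) : J → ℝ := fun j' => y j' + if j' = j then t else 0
/-- Labelled Hamiltonian. -/
noncomputable def HL {R : ℕ} [NeZero R] (lam : κ → ℝ) (lab : ι → κ) (V : (ι → Bool) → ℝ)
    (hy : Fin R → ι → ℝ) (px : κ → Fin R → ℝ) : St R (YS ι) → ℝ :=
  Ham (fun b => lam (lab b)) V hy fun l b => px (lab b) l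
/-- The penalised value used in the lower bound. -/
noncomputable def av (R : ℕ) [NeZero R] (s : ℝ) (lam : κ → ℝ) (c m : J → ℝ) (A : ℝ) (lab : ι → κ)
    (fld : ι → J) : ℝ :=
  sSup {z | ∃ (px : κ → Fin R → ℝ) (y : J → ℝ), Boxx s px ∧ (∀ j, |y j| ≤ s) ∧
    z = val (ua R) (HL lam lab (Vm fld c m A y) 0 px) - Fintype.card ι * (penx s px + peny s y)}

variable {R : ℕ} [NeZero R] {a : ℕ → ℝ} {lam : κ → ℝ} {lab : ι → κ} {fld : ι → J}
  {V : (ι → Bool) → ℝ} {hy : Fin R → ι → ℝ} {px : κ → Fin R → ℝ} {c m y : J → ℝ} {A s : ℝ}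

lemma ml_HL (lam : κ → ℝ) (lab : ι → κ) (V : (ι → Bool) → ℝ) (hy : Fin R → ι → ℝ)
    (px : κ → Fin R → ℝ) : ML (HL lam lab V hy px) := ml_Ham _ _ _ _
lemma abs_Sg_le (fld : ι → J) (j : J) (σ : ι → Bool) : |Sg fld j σ| ≤ ct fld j := by
  refine (Finset.abs_sum_le_sum_abs _ _).trans (le_of_eq ?_)
  simp [spn, abs_sp, ct]

lemma ct_le {α : Type} [DecidableEq α] (lab : ι → α) (k : α) : ct lab k ≤ Fintype.card ι := by
  exact Finset.card_filter_le _ _

lemma Vc_eq (fld : ι → J) (c : J → ℝ) (σ : ι → Bool) : Vc fld c σ = ∑ j, c j * Sg fld j σ := by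
  rw [Vc, ← Finset.sum_fiberwise univ fld]
  refine Finset.sum_congr rfl fun j _ => ?_
  rw [Sg, Finset.mul_sum]
  exact Finset.sum_congr rfl fun r hr => by rw [(mem_filter.1 hr).2]

lemma HL_shx (k : κ) (l : Fin R) (t : ℝ) :
    HL lam lab V hy (shx px k l t) = fun x => HL lam lab V hy px x + t * pf lab k l x := by
  funext x
  have e : ∑ l', ∑ b, (if lab b = k ∧ l' = l then t else 0) * ((x l').2.2 b * xs x b) =
      t * pf lab k l x := by
    rw [Finset.sum_eq_single l (fun l' _ h => by simp [h]) (by simp), pf,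
      ← Finset.sum_subtype (univ.filter fun b => lab b = k) (by simp)
        fun b => (x l).2.2 b * xs x b, Finset.sum_filter, Finset.mul_sum]
    exact Finset.sum_congr rfl fun b _ => by simp
  simp only [HL, Ham, shx, add_mul, Finset.sum_add_distrib, e]
  ring

lemma Vm_shy (j : J) (t : ℝ) (σ : ι → Bool) :
    Vm fld c m A (shy y j t) σ = Vm fld c m A y σ + t * Sg fld j σ := by
  have e : ∑ r, (if fld r = j then t else 0) * spn σ r = t * Sg fld j σ := by
    rw [Sg, Finset.sum_filter, Finset.mul_sum]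
    exact Finset.sum_congr rfl fun r _ => by simp
  simp only [Vm, shy, add_mul, Finset.sum_add_distrib, e]
  ring

lemma HL_add_V (W : (ι → Bool) → ℝ) :
    HL lam lab (fun σ => V σ + W σ) hy px = fun x => HL lam lab V hy px x + W (cfg x) := by
  funext x
  simp only [HL, Ham]
  ring

lemma pen_EE_pf (ha : Exps R a) (k : κ) (l : Fin R) {B : ℝ} (h1 : |px k l| ≤ B) :
    |EE a (HL lam lab V hy px) (pf lab k l)| ≤ B * Fintype.card ι := by
  have hH := ml_HL lam lab V hy px
  have h0 := (uv_Xb lab k).ov_mem ha hH (Nat.zero_le R)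
  have hd : ∀ i, 0 ≤ a i - a (i + 1) := fun i => sub_nonneg.2 (ha.anti i.le_succ)
  have h2 : 0 ≤ Tq a (ov a (HL lam lab V hy px) (Xb lab k)) l :=
    Finset.sum_nonneg fun i hi => mul_nonneg (hd i)
      ((uv_Xb lab k).ov_mem ha hH (by have := mem_range.1 hi; omega)).1
  have h3 : Tq a (ov a (HL lam lab V hy px) (Xb lab k)) l ≤ 1 := by
    refine (Finset.sum_le_sum fun i hi => mul_le_of_le_one_right (hd i)
      ((uv_Xb lab k).ov_mem ha hH (by have := mem_range.1 hi; omega)).2).trans ?_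
    rw [Finset.sum_range_sub', ha.zero]
    linarith [ha.pos l l.2]
  rw [HL, EE_pf ha lab k l (c := px k l) fun b hb => by rw [hb], abs_mul, abs_mul, Nat.abs_cast]
  refine (mul_le_of_le_one_right (by positivity) (abs_le.2 ⟨?_, ?_⟩)).trans
    (mul_le_mul_of_nonneg_right h1 (Nat.cast_nonneg _))
  · exact le_sub_iff_add_le.2 ((neg_add_nonpos_iff.2 h3).trans h0.1)
  · exact sub_le_iff_le_add.2 (h0.2.trans (le_add_of_nonneg_right h2))

lemma px_lip (ha : Exps R a) (k : κ) (l : Fin R) {t B : ℝ} (h1 : |px k l| ≤ B)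
    (h2 : |px k l + t| ≤ B) :
    |val a (HL lam lab V hy (shx px k l t)) - val a (HL lam lab V hy px)| ≤
      B * Fintype.card ι * |t| := by
  have h3 := val_line ha (ml_HL lam lab V hy px) (ml_pf lab k l) t
  have h4 := val_line ha (ml_HL lam lab V hy (shx px k l t)) (ml_pf lab k l) (-t)
  have h5 := pen_EE_pf ha (lam := lam) (lab := lab) (V := V) (hy := hy) k l h1
  have h6 := pen_EE_pf ha (lam := lam) (lab := lab) (V := V) (hy := hy) (px := shx px k l t) k l
    (by simpa [shx] using h2)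
  rw [← HL_shx] at h3
  have e : (fun x => HL lam lab V hy (shx px k l t) x + -t * pf lab k l x) =
      HL lam lab V hy px := by
    funext x
    simp only [HL_shx]
    ring
  rw [e] at h4
  have h7 := mul_le_mul_of_nonneg_right h5 (abs_nonneg t)
  have h8 := mul_le_mul_of_nonneg_right h6 (abs_nonneg t)
  rw [← abs_mul] at h7 h8
  rw [abs_le] at h7 h8 ⊢
  constructor <;> linarith [h7.1, h8.2]

omit [NeZero R] in
lemma penx_shx (k : κ) (l : Fin R) (t : ℝ) : penx s (shx px k l t) =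
    penx s px + 10 * ((px k l - 3 * s / 2 + t) ^ 2 - (px k l - 3 * s / 2) ^ 2) := by
  have e : ∀ k' l', (shx px k l t k' l' - 3 * s / 2) ^ 2 = (px k' l' - 3 * s / 2) ^ 2 +
      if k' = k then if l' = l then (px k l - 3 * s / 2 + t) ^ 2 - (px k l - 3 * s / 2) ^ 2 else 0
        else 0 := fun k' l' => by
    by_cases h1 : k' = k
    · by_cases h2 : l' = l
      · simp only [shx, h1, h2, and_self, if_true]; ring
      · simp [shx, h2]
    · simp [shx, h1]
  simp only [penx, e, Finset.sum_add_distrib, Finset.sum_ite_irrel, Finset.sum_ite_eq', mem_univ,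
    if_true, Finset.sum_const_zero]
  ring

lemma peny_shy (j : J) (t : ℝ) :
    peny s (shy y j t) = peny s y + 2 / s * ((y j + t) ^ 2 - y j ^ 2) := by
  have e : ∀ j', shy y j t j' ^ 2 = y j' ^ 2 + if j' = j then (y j + t) ^ 2 - y j ^ 2 else 0 :=
    fun j' => by by_cases h : j' = j <;> simp [shy, h]
  simp only [peny, e, Finset.sum_add_distrib, Finset.sum_ite_eq', mem_univ, if_true]
  ring

theorem px_near_max (ha : Exps R a) (hs : 0 < s) (hN : 4 ≤ Fintype.card ι * s ^ 2) (hb : Boxx s px)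
    (h : ∀ k l t, Boxx s (shx px k l t) →
      val a (HL lam lab V hy (shx px k l t)) - Fintype.card ι * penx s (shx px k l t) ≤
        val a (HL lam lab V hy px) - Fintype.card ι * penx s px + 1) :
    (∀ k l, |px k l - 3 * s / 2| ≤ s / 3) ∧ ∀ k l δ, |δ| ≤ s / 2 →
      val a (HL lam lab V hy (shx px k l δ)) + val a (HL lam lab V hy (shx px k l (-δ))) -
        2 * val a (HL lam lab V hy px) ≤ 20 * Fintype.card ι * δ ^ 2 + 2 := by
  have hbox : ∀ k l t, s / 2 ≤ px k l + t → px k l + t ≤ 5 * s / 2 → Boxx s (shx px k l t) := by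
    intro k l t h1 h2 k' l'
    by_cases h3 : k' = k ∧ l' = l
    · simpa [shx, h3] using ⟨h1, h2⟩
    · simpa [shx, h3] using hb k' l'
  have key : ∀ k l, |px k l - 3 * s / 2| ≤ s / 3 := fun k l => by
    have h1 := h k l (-(px k l - 3 * s / 2)) (hbox _ _ _ (by linarith) (by linarith))
    have h2 := px_lip ha (lam := lam) (lab := lab) (V := V) (hy := hy) (px := px) k l
      (t := -(px k l - 3 * s / 2)) (B := 5 * s / 2)
      (abs_le.2 ⟨by linarith [(hb k l).1], (hb k l).2⟩) (abs_le.2 ⟨by linarith, by linarith⟩)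
    rw [penx_shx, add_neg_cancel, ← sq_abs (px k l - 3 * s / 2)] at h1
    rw [abs_neg] at h2
    generalize |px k l - 3 * s / 2| = d at h1 h2 ⊢
    by_contra hd
    push Not at hd
    have h3 : s / 3 * (5 * s / 6) ≤ d * (10 * d - 5 * s / 2) :=
      mul_le_mul hd.le (by linarith) (by positivity) (by linarith)
    have h4 := mul_le_mul_of_nonneg_left h3 (Nat.cast_nonneg (α := ℝ) (Fintype.card ι))
    linarith [(abs_le.1 h2).1]
  refine ⟨key, fun k l δ hδ => ?_⟩
  have h0 := abs_le.1 (key k l)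
  have h0' := abs_le.1 hδ
  have h1 := h k l δ (hbox _ _ _ (by linarith) (by linarith))
  have h2 := h k l (-δ) (hbox _ _ _ (by linarith) (by linarith))
  rw [penx_shx] at h1 h2
  linarith

theorem y_near_max (ha : Exps R a) (hs : 0 < s) (hN : 5 ≤ Fintype.card ι * s) (hb : ∀ j, |y j| ≤ s)
    (h : ∀ j t, |y j + t| ≤ s →
      val a (HL lam lab (Vm fld c m A (shy y j t)) hy px) - Fintype.card ι * peny s (shy y j t) ≤
        val a (HL lam lab (Vm fld c m A y) hy px) - Fintype.card ι * peny s y + 1) :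
    (∀ j, |y j| ≤ 2 * s / 3) ∧ ∀ j δ, |δ| ≤ s / 3 →
      val a (HL lam lab (Vm fld c m A (shy y j δ)) hy px) +
        val a (HL lam lab (Vm fld c m A (shy y j (-δ))) hy px) -
        2 * val a (HL lam lab (Vm fld c m A y) hy px) ≤ 4 / s * Fintype.card ι * δ ^ 2 + 2 := by
  have key : ∀ j, |y j| ≤ 2 * s / 3 := fun j => by
    have h1 := h j (-y j) (by simpa using hs.le)
    have h2 : val a (HL lam lab (Vm fld c m A y) hy px) ≤
        val a (HL lam lab (Vm fld c m A (shy y j (-y j))) hy px) + |y j| * Fintype.card ι :=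
      val_Ham_mono ha (fun _ => le_rfl) fun σ => by
        have h3 : |y j * Sg fld j σ| ≤ |y j| * Fintype.card ι := by
          rw [abs_mul]
          exact mul_le_mul_of_nonneg_left ((abs_Sg_le fld j σ).trans
            (by exact_mod_cast ct_le fld j)) (abs_nonneg _)
        rw [Vm_shy]
        linarith [(abs_le.1 h3).2]
    rw [peny_shy, add_neg_cancel, ← sq_abs (y j)] at h1
    generalize |y j| = d at h1 h2 ⊢
    by_contra hd
    push Not at hd
    have h5 : 1 / 3 ≤ 2 / s * d - 1 := by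
      rw [le_sub_iff_add_le, div_mul_eq_mul_div, le_div_iff₀ hs]; linarith
    have h3 : 2 * s / 3 * (1 / 3) ≤ d * (2 / s * d - 1) :=
      mul_le_mul hd.le h5 (by positivity) (by linarith)
    have h4 := mul_le_mul_of_nonneg_left h3 (Nat.cast_nonneg (α := ℝ) (Fintype.card ι))
    linarith
  refine ⟨key, fun j δ hδ => ?_⟩
  have h0 := abs_le.1 (key j)
  have h0' := abs_le.1 hδ
  have h1 := h j δ (abs_le.2 ⟨by linarith, by linarith⟩)
  have h2 := h j (-δ) (abs_le.2 ⟨by linarith, by linarith⟩)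
  rw [peny_shy] at h1 h2
  have e : 4 / s = 2 * (2 / s) := by ring
  rw [e]
  linarith

lemma fv_le (hA : 0 ≤ A) (hs : 0 ≤ s) (hb : Boxx s px) (hy : ∀ j, |y j| ≤ s) :
    val (ua R) (HL lam lab (Vm fld c m A y) 0 px) ≤
      PM (1 / R) (haar ι) (logZ (fun b => lam (lab b)) (Vc fld c)) +
        Fintype.card ι * (7 * R * s ^ 2 + s) := by
  have hR : 0 < R := NeZero.pos R
  have ha := exps_ua hR
  have e : ua R (R - 1) = 1 / R := by
    have := ua_sub (R := R) (R - 1)
    rw [Nat.sub_add_cancel hR] at this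
    rw [← this]
    simp [ua, hR.ne']
  have h1 := val_Ham_px_upper ha (lamv := fun b => lam (lab b)) (V := Vm fld c m A y) (hy := 0)
    (px := fun l b => px (lab b) l) (B := 5 * s / 2)
    fun l b => abs_le.2 ⟨by linarith [(hb (lab b) l).1], (hb (lab b) l).2⟩
  have h2 := val_Ham_mono ha (lamv := fun b => lam (lab b)) (V := Vm fld c m A y) (hy := 0)
    (px := 0) (V' := Vc fld c) (c := Fintype.card ι * s) (fun _ => le_rfl) fun σ => by
      have h3 : ∑ r, y (fld r) * spn σ r ≤ ∑ _r : ι, s := Finset.sum_le_sum fun r _ =>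
        (le_abs_self _).trans (by rw [abs_mul, spn, abs_sp, mul_one]; exact hy _)
      have h4 : 0 ≤ A / Fintype.card ι * ∑ j, (Sg fld j σ - m j * ct fld j) ^ 2 := by positivity
      rw [Finset.sum_const, card_univ, nsmul_eq_mul] at h3
      simp only [Vm, Vc, add_mul, Finset.sum_add_distrib]
      linarith
  rw [val_Ham_zero ha _ (Vc fld c), e] at h2
  have h3 : 0 ≤ (Fintype.card ι : ℝ) * (R * s ^ 2) := by positivity
  rw [HL]
  linarith

omit [NeZero R] [DecidableEq κ] in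
lemma penx_nonneg (s : ℝ) (px : κ → Fin R → ℝ) : 0 ≤ penx s px := by
  unfold penx; positivity
omit [DecidableEq J] in
lemma peny_nonneg (hs : 0 ≤ s) (y : J → ℝ) : 0 ≤ peny s y := by
  unfold peny; positivity

lemma pen_le (hA : 0 ≤ A) (hs : 0 < s) (hb : Boxx s px) (hy : ∀ j, |y j| ≤ s) :
    val (ua R) (HL lam lab (Vm fld c m A y) 0 px) - Fintype.card ι * (penx s px + peny s y) ≤
      PM (1 / R) (haar ι) (logZ (fun b => lam (lab b)) (Vc fld c)) +
        Fintype.card ι * (7 * R * s ^ 2 + s) :=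
  (sub_le_self _ (mul_nonneg (Nat.cast_nonneg _)
    (add_nonneg (penx_nonneg _ _) (peny_nonneg hs.le _)))).trans (fv_le hA hs.le hb hy)

omit [NeZero R] [Fintype κ] [DecidableEq κ] in
lemma pen_box (hs : 0 < s) : Boxx s fun (_ : κ) (_ : Fin R) => 3 * s / 2 :=
  fun _ _ => ⟨by linarith, by linarith⟩

lemma le_av (hA : 0 ≤ A) (hs : 0 < s) (hb : Boxx s px) (hy : ∀ j, |y j| ≤ s) :
    val (ua R) (HL lam lab (Vm fld c m A y) 0 px) - Fintype.card ι * (penx s px + peny s y) ≤
      av R s lam c m A lab fld := by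
  exact le_csSup ⟨_, by rintro _ ⟨px', y', hb', hy', rfl⟩; exact pen_le hA hs hb' hy'⟩
    ⟨px, y, hb, hy, rfl⟩

lemma av_le (hA : 0 ≤ A) (hs : 0 < s) :
    av R s lam c m A lab fld ≤ PM (1 / R) (haar ι) (logZ (fun b => lam (lab b)) (Vc fld c)) +
      Fintype.card ι * (7 * R * s ^ 2 + s) := by
  refine csSup_le ⟨_, _, 0, pen_box hs, fun _ => by simpa using hs.le, rfl⟩ ?_
  rintro _ ⟨px', y', hb', hy', rfl⟩
  exact pen_le hA hs hb' hy'

lemma exists_near_av (hs : 0 < s) {ε : ℝ} (hε : 0 < ε) : ∃ (px : κ → Fin R → ℝ) (y : J → ℝ),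
    Boxx s px ∧ (∀ j, |y j| ≤ s) ∧ av R s lam c m A lab fld - ε ≤
      val (ua R) (HL lam lab (Vm fld c m A y) 0 px) - Fintype.card ι * (penx s px + peny s y) := by
  obtain ⟨_, ⟨px, y, h1, h2, rfl⟩, h3⟩ := exists_lt_of_lt_csSup
    (by exact ⟨_, _, 0, pen_box hs, fun _ => by simpa using hs.le, rfl⟩)
    (sub_lt_self (av R s lam c m A lab fld) hε)
  exact ⟨px, y, h1, h2, h3.le⟩

lemma pen_abs_dev (hm : ∀ j, |m j| ≤ 1) (fld : ι → J) (j : J) (σ : ι → Bool) :
    |Sg fld j σ - m j * ct fld j| ≤ 2 * ct fld j := by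
  have h1 : |m j * ct fld j| ≤ ct fld j := by
    rw [abs_mul, Nat.abs_cast]
    exact mul_le_of_le_one_left (Nat.cast_nonneg _) (hm j)
  linarith [abs_sub (Sg fld j σ) (m j * ct fld j), abs_Sg_le fld j σ]

lemma av_lower {Λ cb : ℝ} (hA : 0 ≤ A) (hs : 0 < s) (hΛ : ∀ k, |lam k| ≤ Λ) (hc : ∀ j, |c j| ≤ cb)
    (hm : ∀ j, |m j| ≤ 1) :
    -(Fintype.card ι * (cb + 4 * A + Λ / 2 + 1)) ≤ av R s lam c m A lab fld := by
  have ha := exps_ua (NeZero.pos R)
  refine le_trans ?_ (le_av (y := 0) hA hs (pen_box hs) fun _ => by simpa using hs.le)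
  simp only [penx, peny, sub_self, Pi.zero_apply, ne_eq, OfNat.ofNat_ne_zero, not_false_eq_true,
    zero_pow, sum_const_zero, mul_zero, add_zero, sub_zero]
  refine le_trans ?_ (val_Ham_px_lower ha)
  rw [← val_const (Y := YS ι) ha (-_)]
  refine val_mono ha (ML.const _).mu (ml_Ham _ _ _ _).mu fun x => ?_
  have h1 := (abs_le.1 (mdl_abs_quad (fun b => hΛ (lab b)) (cfg x) (x (lst R)).1)).1
  have h2 : ∑ _r : ι, -cb ≤ ∑ r, c (fld r) * spn (cfg x) r := Finset.sum_le_sum fun r _ =>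
    (abs_le.1 (by rw [abs_mul, spn, abs_sp, mul_one]; exact hc _)).1
  have h3 : ∑ j, (Sg fld j (cfg x) - m j * ct fld j) ^ 2 ≤
      ∑ j, 4 * Fintype.card ι * (ct fld j : ℝ) := Finset.sum_le_sum fun j _ => by
    have h4 : (ct fld j : ℝ) ≤ Fintype.card ι := by exact_mod_cast ct_le fld j
    have h5 := pow_le_pow_left₀ (abs_nonneg _) (pen_abs_dev hm fld j (cfg x)) 2
    rw [sq_abs] at h5
    nlinarith [Nat.cast_nonneg (α := ℝ) (ct fld j)]
  rw [← Finset.mul_sum, ← Nat.cast_sum, sum_ct] at h3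
  have h4 : A / Fintype.card ι * (4 * Fintype.card ι * Fintype.card ι) =
      4 * A * Fintype.card ι := by
    rcases eq_or_ne (Fintype.card ι : ℝ) 0 with h | h
    · simp [h]
    · field_simp
  have h5 := mul_le_mul_of_nonneg_left h3 (by positivity : 0 ≤ A / Fintype.card ι)
  rw [Finset.sum_const, card_univ, nsmul_eq_mul] at h2
  simp only [Ham, Vm, xs, Pi.zero_apply, zero_mul, sum_const_zero, add_zero]
  linarith [Nat.cast_nonneg (α := ℝ) (Fintype.card ι)]

lemma Vm_rel {fld' : ι' → J} (e : ι ≃ ι') (h : ∀ r, fld' (e r) = fld r) (σ : ι → Bool) :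
    Vm fld' c m A y (fun r => σ (e.symm r)) = Vm fld c m A y σ := by
  have e1 : ∀ j, Sg fld' j (fun r => σ (e.symm r)) = Sg fld j σ := fun j => by
    simp only [Sg, Finset.sum_filter]
    rw [← e.sum_comp]
    simp [h, spn]
  have e2 : ∀ j, ct fld' j = ct fld j := fun j => by
    simp only [ct, Finset.card_filter]
    rw [← e.sum_comp]
    simp [h]
  simp only [Vm, e1, e2, Fintype.card_congr e]
  rw [← e.sum_comp]
  simp [h, spn]

/-- `exists_equiv_of_ct`, `val_rel`. -/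
lemma av_rel {lab' : ι' → κ} {fld' : ι' → J} (h1 : ∀ k, ct lab k = ct lab' k)
    (h2 : ∀ j, ct fld j = ct fld' j) : av R s lam c m A lab fld = av R s lam c m A lab' fld' := by
  obtain ⟨e₁, he₁⟩ := exists_equiv_of_ct h1
  obtain ⟨e₂, he₂⟩ := exists_equiv_of_ct h2
  have e : ∀ (px : κ → Fin R → ℝ) (y : J → ℝ), val (ua R) (HL lam lab (Vm fld c m A y) 0 px) =
      val (ua R) (HL lam lab' (Vm fld' c m A y) 0 px) := fun px y => by
    rw [HL, HL, ← val_rel e₁ e₂]
    simp only [he₁, Vm_rel e₂ he₂]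
    rfl
  simp only [av, e, Fintype.card_congr e₁]

lemma Vm_perm (π : ι ≃ ι) (h : ∀ r, fld (π r) = fld r) (σ : ι → Bool) :
    Vm fld c m A y (fun r => σ (π.symm r)) = Vm fld c m A y σ := by
  exact Vm_rel π h σ

lemma pen_mag {N M D δ e : ℝ} (hA : 0 ≤ A) (hN : 0 < N) (hM : 0 ≤ M) (hD : |D| ≤ 2) (hδ : |δ| ≤ 2)
    (he : |e| ≤ 2 * M) :
    |A * (M * (D + δ) * (D - δ) - 2 * e * (D - δ) - (D * M - e) ^ 2 / (N + M))| ≤
      16 * A * (1 + M) ^ 2 * (|D - δ| + 1 / N) := by
  have h1 : |M * (D + δ) * (D - δ)| ≤ M * 4 * |D - δ| := by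
    rw [abs_mul, abs_mul, abs_of_nonneg hM]
    gcongr
    linarith [abs_add_le D δ]
  have h2 : |2 * e * (D - δ)| ≤ 2 * (2 * M) * |D - δ| := by
    rw [abs_mul, abs_mul, abs_two]
    gcongr
  have h3 : |(D * M - e) ^ 2 / (N + M)| ≤ (4 * M) ^ 2 / N := by
    have h4 : |D * M| ≤ 2 * M := by
      rw [abs_mul, abs_of_nonneg hM]
      gcongr
    rw [abs_of_nonneg (by positivity), ← sq_abs]
    gcongr
    · linarith [abs_sub (D * M) e]
    · linarith
  have h4 : M * 8 * |D - δ| ≤ 16 * (1 + M) ^ 2 * |D - δ| :=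
    mul_le_mul_of_nonneg_right (by nlinarith) (abs_nonneg _)
  have h5 : (4 * M) ^ 2 / N ≤ 16 * (1 + M) ^ 2 * (1 / N) := by
    rw [mul_one_div]
    gcongr
    nlinarith
  rw [abs_mul, abs_of_nonneg hA,
    show 16 * A * (1 + M) ^ 2 * (|D - δ| + 1 / N) =
      A * (16 * (1 + M) ^ 2 * |D - δ| + 16 * (1 + M) ^ 2 * (1 / N)) by ring]
  refine mul_le_mul_of_nonneg_left ?_ hA
  linarith [abs_sub (M * (D + δ) * (D - δ) - 2 * e * (D - δ)) ((D * M - e) ^ 2 / (N + M)),
    abs_sub (M * (D + δ) * (D - δ)) (2 * e * (D - δ))]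

theorem mag_bound {C : Type} [Fintype C] [DecidableEq C] [Nonempty ι] (fC : C → J) (hA : 0 ≤ A)
    (hm : ∀ j, |m j| ≤ 1) {δ : J → ℝ} (hδ : ∀ j, |δ j| ≤ 2) (σ : ι → Bool) (ε : C → Bool) :
    |Vm (Sum.elim fld fC) c m A y (Sum.elim σ ε) - Vm fld c m A y σ -
        ∑ r, (c (fC r) + y (fC r) - 2 * A * δ (fC r)) * sp (ε r) -
        ∑ j, (A * Fintype.card C * δ j ^ 2 + 2 * A * δ j * m j * ct fC j)| ≤
      16 * A * (1 + Fintype.card C) ^ 2 *
        ∑ j, (|(Sg fld j σ - m j * ct fld j) / Fintype.card ι - δ j| + 1 / Fintype.card ι) := by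
  have hN : (0 : ℝ) < Fintype.card ι := by exact_mod_cast Fintype.card_pos
  have e1 : ∀ j, Sg (Sum.elim fld fC) j (Sum.elim σ ε) = Sg fld j σ + Sg fC j ε := fun j => by
    simp only [Sg, Finset.sum_filter, Fintype.sum_sum_type]
    rfl
  have e2 : ∀ j, (ct (Sum.elim fld fC) j : ℝ) = ct fld j + ct fC j := fun j => by
    simp only [ct, Finset.card_filter, Fintype.sum_sum_type, Nat.cast_add]
    rfl
  have e3 := Vc_eq fC (fun j => 2 * A * δ j) ε
  have e4 : Vm (Sum.elim fld fC) c m A y (Sum.elim σ ε) - Vm fld c m A y σ -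
      ∑ r, (c (fC r) + y (fC r) - 2 * A * δ (fC r)) * sp (ε r) -
      ∑ j, (A * Fintype.card C * δ j ^ 2 + 2 * A * δ j * m j * ct fC j) =
      ∑ j, (A / Fintype.card ι * (Sg fld j σ - m j * ct fld j) ^ 2 -
        A / (Fintype.card ι + Fintype.card C) *
          (Sg fld j σ + Sg fC j ε - m j * (ct fld j + ct fC j)) ^ 2 + 2 * A * δ j * Sg fC j ε -
        (A * Fintype.card C * δ j ^ 2 + 2 * A * δ j * m j * ct fC j)) := by
    simp only [Vc, spn] at e3
    simp only [Vm, e1, e2, Fintype.sum_sum_type, Sum.elim_inl, Sum.elim_inr, spn, Fintype.card_sum,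
      Nat.cast_add, sub_mul, Finset.sum_sub_distrib, e3]
    simp only [Finset.sum_add_distrib, Finset.sum_sub_distrib, ← Finset.mul_sum]
    ring
  rw [e4, Finset.mul_sum]
  refine (Finset.abs_sum_le_sum_abs _ _).trans (Finset.sum_le_sum fun j _ => ?_)
  have h1 : |(Sg fld j σ - m j * ct fld j) / Fintype.card ι| ≤ 2 := by
    rw [abs_div, Nat.abs_cast, div_le_iff₀ hN]
    exact (pen_abs_dev hm fld j σ).trans (by gcongr; exact ct_le fld j)
  have h2 : |Sg fC j ε - m j * ct fC j| ≤ 2 * Fintype.card C :=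
    (pen_abs_dev hm fC j ε).trans (by gcongr; exact ct_le fC j)
  refine le_trans (le_of_eq ?_) (pen_mag hA hN (Nat.cast_nonneg _) h1 (hδ j) h2)
  congr 1
  field_simp
  ring

end Crest.Agent.R164
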