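import Crest.Agent.R164.Cav

/-!
# R164 / Quad: the explicit Gaussian–quadratic cascade

`gauss_quad_one`: complete the square,
`a α (τ + t z)²/2 + z²/2 = (1 + aαc)(z - z₀)²/2 + a α τ²/(2(1+aαc))`, `c = t²`; change variables in
the Lebesgue integral (`integral_gaussianReal_eq_integral_smul`, `integral_comp_mul_add`).
`gauss_quad`: induction on the index set (e.g. transfer to `Fin n`, `integral_fin_succ`/
`measurePreserving_piFinSuccAbove`), combining the Gaussians by `integral_gs_gs`.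
`X_qH`: induction on `n`; the spin is integrated at level `0` (`integral_ub`, `exp (lc x) = cosh x`),
the coordinate `(s l).1.2` adds the variance `uu l` (`integral_gs_gs` again).  With
`d_{n+1} = d_n + a_n c_n`: `α_{n+1} = α_n/(1 + a_n α_n c_n)`, `1 + a_n α_n c_n = (1+α d_{n+1})/(1+α d_n)`.
-/

set_option autoImplicit false

open MeasureTheory ProbabilityTheory Finset Matrix

namespace Crest.Agent.R164

lemma qd_one {m c : ℝ} (hm : 0 ≤ m) (hc : 0 ≤ c) (τ : ℝ) (F : ℝ → ℝ) :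
    ∫ z, F (τ + Real.sqrt c * z) * Real.exp (-(m * (τ + Real.sqrt c * z) ^ 2) / 2) ∂gs =
      (Real.sqrt (1 + m * c))⁻¹ * Real.exp (-(m * τ ^ 2 / (1 + m * c)) / 2) *
        ∫ z, F (τ / (1 + m * c) + Real.sqrt (c / (1 + m * c)) * z) ∂gs := by
  have hD : 0 < 1 + m * c := by positivity
  obtain ⟨t, ht, rfl⟩ : ∃ t : ℝ, 0 ≤ t ∧ c = t ^ 2 := ⟨√c, Real.sqrt_nonneg _, (Real.sq_sqrt hc).symm⟩
  obtain ⟨r, hr, hrD⟩ : ∃ r : ℝ, 0 < r ∧ 1 + m * t ^ 2 = r ^ 2 :=
    ⟨√(1 + m * t ^ 2), Real.sqrt_pos.2 hD, (Real.sq_sqrt hD.le).symm⟩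
  rw [hrD, ← div_pow, Real.sqrt_sq ht, Real.sqrt_sq hr.le, Real.sqrt_sq (by positivity),
    integral_gaussianReal_eq_integral_smul one_ne_zero,
    integral_gaussianReal_eq_integral_smul one_ne_zero]
  set h : ℝ → ℝ := fun z => gaussianPDFReal 0 1 z •
    (F (τ + t * z) * Real.exp (-(m * (τ + t * z) ^ 2) / 2)) with hh
  have h1 := Measure.integral_comp_inv_mul_left (fun z => h (z + -(m * τ * t / r ^ 2))) r
  rw [integral_add_right_eq_self h, abs_of_pos hr, smul_eq_mul] at h1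
  rw [← inv_mul_eq_iff_eq_mul₀ hr.ne'] at h1
  rw [← h1, mul_assoc r⁻¹]
  congr 1
  rw [← integral_const_mul]
  refine integral_congr_ae (ae_of_all _ fun w => ?_)
  have e1 : τ + t * (r⁻¹ * w + -(m * τ * t / r ^ 2)) = τ / r ^ 2 + t / r * w := by
    field_simp
    rw [← hrD]
    ring
  simp only [hh, e1, smul_eq_mul, gaussianPDFReal, NNReal.coe_one, mul_one, sub_zero]
  have e2 : Real.exp (-(r⁻¹ * w + -(m * τ * t / r ^ 2)) ^ 2 / 2) *
      Real.exp (-(m * (τ / r ^ 2 + t / r * w) ^ 2) / 2) =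
      Real.exp (-(m * τ ^ 2 / r ^ 2) / 2) * Real.exp (-w ^ 2 / 2) := by
    rw [← Real.exp_add, ← Real.exp_add]
    congr 1
    field_simp
    have : r ^ 2 = 1 + m * t ^ 2 := hrD.symm
    linear_combination (r ^ 2 * w ^ 2 + m * τ ^ 2) * this
  linear_combination (√(2 * Real.pi))⁻¹ * F (τ / r ^ 2 + t / r * w) * e2

lemma gauss_quad_one {m c : ℝ} (hm : 0 ≤ m) (hc : 0 ≤ c) (τ : ℝ) {F : ℝ → ℝ} (hF : Continuous F) :
    ∫ z, F (τ + Real.sqrt c * z) * Real.exp (-(m * (τ + Real.sqrt c * z) ^ 2) / 2) ∂gs =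
      (Real.sqrt (1 + m * c))⁻¹ * Real.exp (-(m * τ ^ 2 / (1 + m * c)) / 2) *
        ∫ z, F (τ / (1 + m * c) + Real.sqrt (c / (1 + m * c)) * z) ∂gs :=
  have _ := hF
  qd_one hm hc τ F

lemma qd_abs (G : ℝ → ℝ) (s : ℝ) : ∫ y, G (s * y) ∂gs = ∫ y, G (|s| * y) ∂gs := by
  rcases abs_choice s with h | h
  · rw [h]
  · rw [h, ← integral_neg_eq_self]
    simp only [mul_neg, neg_mul]

lemma qd_cons {n : ℕ} {G : (Fin (n + 1) → ℝ) → ℝ} (hG : Integrable G Lev.μ) :
    ∫ z, G z ∂Lev.μ = ∫ y, ∫ z : Fin n → ℝ, G (Fin.cons y z) ∂Lev.μ ∂gs := by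
  have h := (measurePreserving_piFinSuccAbove (fun _ : Fin (n + 1) => gs) 0).symm
  have e : ∀ p : ℝ × (Fin n → ℝ),
      (MeasurableEquiv.piFinSuccAbove (fun _ : Fin (n + 1) => ℝ) 0).symm p = Fin.cons p.1 p.2 := by
    intro p
    simp [MeasurableEquiv.piFinSuccAbove_symm_apply, Fin.insertNthEquiv, Fin.insertNth_zero']
  have h2 := (h.integrable_comp_emb (MeasurableEquiv.measurableEmbedding _)).2 hG
  rw [μ_pi, μ_real, ← h.integral_comp', ]
  refine (integral_prod _ h2).trans ?_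
  simp only [Function.comp, e]
  rfl

lemma qd_me {κ : Type} [Fintype κ] {m : κ → ℝ} (hm : ∀ k, 0 ≤ m k) (t : ℝ)
    (β τ : κ → ℝ) (x : ℝ) {F : ℝ → ℝ} (hF : Continuous F) {C : ℝ}
    (hC : ∀ y, |F y| ≤ Real.exp (C * (1 + |y|))) :
    ME fun z : κ → ℝ => F (x - ∑ k, β k * (τ k + t * z k)) *
        Real.exp (-(∑ k, m k * (τ k + t * z k) ^ 2) / 2) := by
  refine ME.mul ((⟨hF.measurable, C, hC⟩ : ME F).comp (Gro.of_ml ((ML.const x).sub
    (ML.sum _ fun k _ => ML.const_mul _ ((ML.const _).add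
      (ML.const_mul _ (ml_id.comp (Gro.apply k)))))))) (ME.of_bdd (by fun_prop) 1 fun z => ?_)
  rw [abs_of_pos (Real.exp_pos _), Real.exp_le_one_iff]
  have : 0 ≤ ∑ k, m k * (τ k + t * z k) ^ 2 :=
    Finset.sum_nonneg fun k _ => mul_nonneg (hm k) (sq_nonneg _)
  linarith

lemma qd_fin {c : ℝ} (hc : 0 ≤ c) {F : ℝ → ℝ} (hF : Continuous F) {C : ℝ}
    (hC : ∀ y, |F y| ≤ Real.exp (C * (1 + |y|))) (n : ℕ) : ∀ {m : Fin n → ℝ} (_ : ∀ k, 0 ≤ m k)
    (β τ : Fin n → ℝ) (x : ℝ),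
    ∫ z, F (x - ∑ k, β k * (τ k + Real.sqrt c * z k)) *
        Real.exp (-(∑ k, m k * (τ k + Real.sqrt c * z k) ^ 2) / 2) ∂(Lev.μ : Measure (Fin n → ℝ)) =
      (∏ k, (Real.sqrt (1 + m k * c))⁻¹) * Real.exp (-(∑ k, m k * τ k ^ 2 / (1 + m k * c)) / 2) *
        ∫ g, F (x - ∑ k, β k * τ k / (1 + m k * c) +
          Real.sqrt (∑ k, β k ^ 2 * c / (1 + m k * c)) * g) ∂gs := by
  induction n with
  | zero => intro m _ β τ x; simp
  | succ n ih =>
    intro m hm β τ x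
    rw [qd_cons (qd_me hm _ β τ x hF hC).integrable]
    simp only [Fin.sum_univ_succ, Fin.prod_univ_succ, Fin.cons_zero, Fin.cons_succ]
    set S' := ∑ k : Fin n, β k.succ * τ k.succ / (1 + m k.succ * c) with hS'
    set V' := ∑ k : Fin n, β k.succ ^ 2 * c / (1 + m k.succ * c) with hV'
    set Q' := ∑ k : Fin n, m k.succ * τ k.succ ^ 2 / (1 + m k.succ * c) with hQ'
    set K' := ∏ k : Fin n, (Real.sqrt (1 + m k.succ * c))⁻¹ with hK'
    have hD : 0 < 1 + m 0 * c := by have := hm 0; positivity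
    have hV0 : 0 ≤ V' := Finset.sum_nonneg fun k _ => by have := hm k.succ; positivity
    have h1 : ∀ y : ℝ, ∫ z : Fin n → ℝ, F (x - (β 0 * (τ 0 + √c * y) +
          ∑ k : Fin n, β k.succ * (τ k.succ + √c * z k))) *
        Real.exp (-(m 0 * (τ 0 + √c * y) ^ 2 +
          ∑ k : Fin n, m k.succ * (τ k.succ + √c * z k) ^ 2) / 2) ∂Lev.μ =
        K' * Real.exp (-Q' / 2) * ((∫ g, F (x - β 0 * (τ 0 + √c * y) - S' + √V' * g) ∂gs) *
          Real.exp (-(m 0 * (τ 0 + √c * y) ^ 2) / 2)) := by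
      intro y
      rw [← mul_assoc, ← ih (fun k => hm k.succ) (fun k => β k.succ) (fun k => τ k.succ)
        (x - β 0 * (τ 0 + √c * y)), ← integral_mul_const]
      refine integral_congr_ae (ae_of_all _ fun z => ?_)
      simp only [sub_sub, mul_assoc, ← Real.exp_add]
      congr 2
      ring
    simp only [h1]
    rw [integral_const_mul, qd_one (hm 0) hc (τ 0)
      fun u => ∫ g, F (x - β 0 * u - S' + √V' * g) ∂gs]
    have h2 : ∫ z, ∫ g, F (x - β 0 * (τ 0 / (1 + m 0 * c) + √(c / (1 + m 0 * c)) * z) - S' +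
          √V' * g) ∂gs ∂gs =
        ∫ g, F (x - (β 0 * τ 0 / (1 + m 0 * c) + S') +
          √(β 0 ^ 2 * c / (1 + m 0 * c) + V') * g) ∂gs := by
      have e : √(β 0 ^ 2 * c / (1 + m 0 * c)) = |(-(β 0 * √(c / (1 + m 0 * c))))| := by
        rw [mul_div_assoc, Real.sqrt_mul (sq_nonneg _), Real.sqrt_sq_eq_abs, abs_neg, abs_mul,
          abs_of_nonneg (Real.sqrt_nonneg _)]
      rw [← integral_gs_gs (by positivity) hV0 hF hC, e,
        ← qd_abs fun u => ∫ g, F (x - (β 0 * τ 0 / (1 + m 0 * c) + S') + u + √V' * g) ∂gs]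
      congr 1
      funext z
      congr 1
      funext g
      congr 1
      ring
    rw [h2, show -(m 0 * τ 0 ^ 2 / (1 + m 0 * c) + Q') / 2 =
      -Q' / 2 + -(m 0 * τ 0 ^ 2 / (1 + m 0 * c)) / 2 by ring, Real.exp_add]
    ring

lemma gauss_quad {κ : Type} [Fintype κ] {m : κ → ℝ} {c : ℝ} (hm : ∀ k, 0 ≤ m k) (hc : 0 ≤ c)
    (β τ : κ → ℝ) (x : ℝ) {F : ℝ → ℝ} (hF : Continuous F) {C : ℝ}
    (hC : ∀ y, |F y| ≤ Real.exp (C * (1 + |y|))) :
    ∫ z, F (x - ∑ k, β k * (τ k + Real.sqrt c * z k)) *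
        Real.exp (-(∑ k, m k * (τ k + Real.sqrt c * z k) ^ 2) / 2) ∂(Lev.μ : Measure (κ → ℝ)) =
      (∏ k, (Real.sqrt (1 + m k * c))⁻¹) * Real.exp (-(∑ k, m k * τ k ^ 2 / (1 + m k * c)) / 2) *
        ∫ g, F (x - ∑ k, β k * τ k / (1 + m k * c) +
          Real.sqrt (∑ k, β k ^ 2 * c / (1 + m k * c)) * g) ∂gs := by
  set e := (Fintype.equivFin κ).symm with he
  have h := measurePreserving_piCongrLeft (α := fun _ : κ => ℝ) (fun _ => gs) e
  have h1 := qd_fin hc hF hC _ (fun k => hm (e k)) (fun k => β (e k)) (fun k => τ (e k)) x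
  rw [μ_pi, μ_real, ← h.integral_comp']
  simp only [← e.sum_comp, ← e.prod_comp, MeasurableEquiv.piCongrLeft_apply_apply]
  exact h1

variable {κ : Type} [Fintype κ] {R : ℕ} [NeZero R]

/-- One cavity spin coupled to a diagonal Gaussian–quadratic term. -/
noncomputable def qH (b : ℝ) (uu : ℕ → ℝ) (α β : κ → ℝ) (c : ℕ → ℝ)
    (s : St R ((Bool × ℝ) × (κ → ℝ))) : ℝ :=
  osH b uu (fS s) - osε (fS s) * ∑ k, β k * tau c s k - (∑ k, α k * tau c s k ^ 2) / 2
/-- `d_i = Σ_{l<i} a_l c_l`. -/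
noncomputable def dd (a c : ℕ → ℝ) (i : ℕ) : ℝ := ∑ l ∈ range i, a l * c l
/-- Effective one-site variances. -/
noncomputable def qv (a uu : ℕ → ℝ) (α β : κ → ℝ) (c : ℕ → ℝ) (l : ℕ) : ℝ :=
  uu l + ∑ k, β k ^ 2 * c l / ((1 + α k * dd a c l) * (1 + α k * dd a c (l + 1)))

open Crest.ProbabilityR.InvariantGlass in
lemma qd_step {f : ℝ → ℝ} (hf : Lip1 f) {a u c : ℝ} (ha : 0 < a) (hu : 0 ≤ u) (hc : 0 ≤ c)
    {α : κ → ℝ} (hα : ∀ k, 0 ≤ α k) (β τ : κ → ℝ) (x K : ℝ) :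
    ∫ z, ∫ g, Real.exp (a * (f (x + √u * g - ∑ k, β k * (τ k + √c * z k)) -
        (∑ k, α k * (τ k + √c * z k) ^ 2) / 2 - K)) ∂gs ∂(Lev.μ : Measure (κ → ℝ)) =
      Real.exp (a * (gaussOp a (u + ∑ k, β k ^ 2 * c / (1 + a * α k * c)) f
        (x - ∑ k, β k * τ k / (1 + a * α k * c)) - (∑ k, α k * τ k ^ 2 / (1 + a * α k * c)) / 2 -
          (K + (∑ k, Real.log (1 + a * α k * c)) / a / 2))) := by
  have hg : Lip1 (gaussOp a u f) := hf.gauss ha.le
  have hD : ∀ k, 0 < 1 + a * α k * c := fun k => by have := hα k; positivity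
  have h1 : ∀ z : κ → ℝ, ∫ g, Real.exp (a * (f (x + √u * g - ∑ k, β k * (τ k + √c * z k)) -
        (∑ k, α k * (τ k + √c * z k) ^ 2) / 2 - K)) ∂gs =
      Real.exp (a * gaussOp a u f (x - ∑ k, β k * (τ k + √c * z k))) *
        Real.exp (-(∑ k, a * α k * (τ k + √c * z k) ^ 2) / 2) * Real.exp (-(a * K)) := by
    intro z
    rw [exp_gaussOp ha hf, ← integral_mul_const, ← integral_mul_const]
    refine integral_congr_ae (ae_of_all _ fun g => ?_)
    simp only [← Real.exp_add, mul_assoc, ← Finset.mul_sum]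
    rw [add_sub_right_comm]
    congr 1
    ring
  simp only [h1]
  have hV : 0 ≤ ∑ k, β k ^ 2 * c / (1 + a * α k * c) :=
    Finset.sum_nonneg fun k _ => by have := hD k; positivity
  rw [integral_mul_const, gauss_quad (m := fun k => a * α k) (fun k => mul_nonneg ha.le (hα k)) hc
    β τ x (F := fun y => Real.exp (a * gaussOp a u f y)) (have := hg.continuous; by fun_prop)
    (hg.bd_exp a), ← exp_gaussOp ha hg, gaussOp_gaussOp ha.le hV hu hf, add_comm u]
  have h2 : ∏ k, (√(1 + a * α k * c))⁻¹ =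
      Real.exp (-(∑ k, Real.log (1 + a * α k * c)) / 2) := by
    rw [← Finset.sum_neg_distrib, Finset.sum_div, Real.exp_sum]
    refine Finset.prod_congr rfl fun k _ => ?_
    rw [neg_div, Real.exp_neg, ← Real.log_sqrt (hD k).le,
      Real.exp_log (Real.sqrt_pos.2 (hD k))]
  have h3 : ∑ k, a * α k * τ k ^ 2 / (1 + a * α k * c) =
      a * ∑ k, α k * τ k ^ 2 / (1 + a * α k * c) := by
    rw [Finset.mul_sum]
    exact Finset.sum_congr rfl fun k _ => by ring
  rw [h2, h3]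
  simp only [← Real.exp_add]
  congr 1
  generalize ∑ k, Real.log (1 + a * α k * c) = L
  generalize ∑ k, α k * τ k ^ 2 / (1 + a * α k * c) = Q
  generalize gaussOp a _ f _ = T
  field_simp
  ring

lemma qd_fub {G : (Bool × ℝ) × (κ → ℝ) → ℝ} (hG : ME G) :
    ∫ y, G y ∂Lev.μ = ∫ z, ∫ g, (G ((true, g), z) + G ((false, g), z)) / 2 ∂gs ∂Lev.μ := by
  refine (integral_prod_symm _ hG.integrable).trans ?_
  refine integral_congr_ae (ae_of_all _ fun z => ?_)
  have h : ME fun p : Bool × ℝ => G (p, z) := hG.comp (Gro.prodMk Gro.id'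
    ⟨measurable_const, Lev.n z, fun s => le_mul_of_one_le_right (Lev.n_nonneg z) (cls_one_le s)⟩)
  refine (integral_prod_symm _ h.integrable).trans ?_
  exact integral_congr_ae (ae_of_all _ fun g => integral_ub _)

omit [NeZero R] in
lemma qd_tail {Y : Type} {n : ℕ} (hn : n < R) (w : ℕ → ℝ) (φ : Y → ℝ) (s : St R Y) (y : Y) :
    ∑ l : Fin R, (if n ≤ (l : ℕ) then w l * φ (upd n s y l) else 0) =
      ∑ l : Fin R, (if n + 1 ≤ (l : ℕ) then w l * φ (s l) else 0) + w n * φ y := by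
  have h : w n * φ y = ∑ l : Fin R, if l = ⟨n, hn⟩ then w n * φ y else 0 := by simp
  rw [h, ← Finset.sum_add_distrib]
  refine Finset.sum_congr rfl fun l _ => ?_
  simp only [upd, Fin.ext_iff]
  rcases lt_trichotomy (l : ℕ) n with h1 | h1 | h1
  · rw [if_neg (by omega), if_neg (by omega), if_neg (by omega), add_zero]
  · rw [if_pos h1.ge, if_pos h1, if_neg (by omega), if_pos h1, zero_add, h1]
  · rw [if_pos h1.le, if_neg h1.ne', if_pos (by omega), if_neg h1.ne', add_zero]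

/-- The explicit free energy as a function of the remaining fields. -/
noncomputable def qdF (a uu : ℕ → ℝ) (α β : κ → ℝ) (c : ℕ → ℝ) (n : ℕ) (x : ℝ) (τ : κ → ℝ) : ℝ :=
  Ch a (qv a uu α β c) n (x - ∑ k, β k / (1 + α k * dd a c n) * τ k) -
    (∑ k, α k / (1 + α k * dd a c n) * τ k ^ 2) / 2 -
    (∑ l ∈ range n, (∑ k, (Real.log (1 + α k * dd a c (l + 1)) -
        Real.log (1 + α k * dd a c l))) / a l) / 2

lemma qdF_step {a uu c : ℕ → ℝ} {n : ℕ} (ha : ∀ l ≤ n, 0 < a l) (huu : 0 ≤ uu n)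
    (hc : ∀ l ≤ n, 0 ≤ c l) {α : κ → ℝ} (hα : ∀ k, 0 ≤ α k) (β τ : κ → ℝ) (x : ℝ) :
    ∫ z, ∫ g, Real.exp (a n * qdF a uu α β c n (x + √(uu n) * g) fun k => τ k + √(c n) * z k)
      ∂gs ∂(Lev.μ : Measure (κ → ℝ)) = Real.exp (a n * qdF a uu α β c (n + 1) x τ) := by
  have hd : 0 ≤ dd a c n := Finset.sum_nonneg fun l hl =>
    mul_nonneg (ha l (Finset.mem_range.1 hl).le).le (hc l (Finset.mem_range.1 hl).le)
  have han := ha n le_rfl
  have hcn := hc n le_rfl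
  have hD : ∀ k, 0 < 1 + α k * dd a c n := fun k => by have := hα k; positivity
  have hd' : dd a c (n + 1) = dd a c n + a n * c n := Finset.sum_range_succ _ _
  have hD' : ∀ k, 0 < 1 + α k * dd a c (n + 1) := fun k => by
    have := hα k
    rw [hd']
    positivity
  have e : ∀ k, 1 + a n * (α k / (1 + α k * dd a c n)) * c n =
      (1 + α k * dd a c (n + 1)) / (1 + α k * dd a c n) := fun k => by
    have := (hD k).ne'
    rw [hd']
    field_simp
    ring
  simp only [qdF]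
  rw [qd_step (cl_Ch (fun i hi => (ha i hi.le).le) _).lip han huu hcn
    (fun k => div_nonneg (hα k) (hD k).le), Ch_succ, Finset.sum_range_succ, qv]
  simp only [e]
  have e1 : ∀ k, (β k / (1 + α k * dd a c n)) ^ 2 * c n /
      ((1 + α k * dd a c (n + 1)) / (1 + α k * dd a c n)) =
      β k ^ 2 * c n / ((1 + α k * dd a c n) * (1 + α k * dd a c (n + 1))) := fun k => by
    have := (hD k).ne'
    have := (hD' k).ne'
    field_simp
  have e2 : ∀ (k : κ) (p q : ℝ), p / (1 + α k * dd a c n) * q /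
      ((1 + α k * dd a c (n + 1)) / (1 + α k * dd a c n)) =
      p / (1 + α k * dd a c (n + 1)) * q := fun k p q => by
    have := (hD k).ne'
    have := (hD' k).ne'
    field_simp
  have e3 : ∀ k, Real.log ((1 + α k * dd a c (n + 1)) / (1 + α k * dd a c n)) =
      Real.log (1 + α k * dd a c (n + 1)) - Real.log (1 + α k * dd a c n) := fun k =>
    Real.log_div (hD' k).ne' (hD k).ne'
  simp only [e1, e2, e3]
  rw [add_div]

lemma mu_qH (b : ℝ) (uu : ℕ → ℝ) {α : κ → ℝ} (hα : ∀ k, 0 ≤ α k) (β : κ → ℝ) (c : ℕ → ℝ) :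
    MU (qH (R := R) b uu α β c) := by
  classical
  have hτ : ∀ k, ML fun s : St R ((Bool × ℝ) × (κ → ℝ)) => tau c s k := fun k => ml_tau c k
  have h1 : ML fun s : St R ((Bool × ℝ) × (κ → ℝ)) =>
      osH b uu (fS s) - osε (fS s) * ∑ k, β k * tau c s k :=
    ((ml_osH b uu).comp gro_fS).sub (ML.bdd_mul (ml_osε.comp gro_fS).meas 1
      (fun s => (abs_sp _).le) (ML.sum _ fun k _ => (hτ k).const_mul _))
  have h2 : MU fun s : St R ((Bool × ℝ) × (κ → ℝ)) => -(1 / 2) * ∑ k, α k * tau c s k ^ 2 :=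
    MU.of_nonpos (ME.const_mul _ (ME.sum _ fun k _ => ((hτ k).me.pow 2).const_mul _)) fun s =>
      mul_nonpos_of_nonpos_of_nonneg (by norm_num)
        (Finset.sum_nonneg fun k _ => mul_nonneg (hα k) (sq_nonneg _))
  have h3 := h1.mu.add h2
  convert h3 using 2 with s
  simp only [qH]
  ring

lemma X_qH {a : ℕ → ℝ} (ha : Exps R a) (b : ℝ) {uu c : ℕ → ℝ} (huu : ∀ l < R, 0 ≤ uu l)
    (hc : ∀ l < R, 0 ≤ c l) {α : κ → ℝ} (hα : ∀ k, 0 ≤ α k) (β : κ → ℝ) (n : ℕ) (hn : n < R)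
    (s : St R ((Bool × ℝ) × (κ → ℝ))) :
    X a (qH b uu α β c) (n + 1) s = qdF a uu α β c (n + 1)
      (b + ∑ l : Fin R, if n + 1 ≤ (l : ℕ) then √(uu l) * (s l).1.2 else 0)
      fun k => ∑ l : Fin R, if n + 1 ≤ (l : ℕ) then √(c l) * (s l).2 k else 0 := by
  have step : ∀ n < R, ∀ s : St R ((Bool × ℝ) × (κ → ℝ)), (∀ g z,
      (Real.exp (a n * X a (qH b uu α β c) n (upd n s ((true, g), z))) +
        Real.exp (a n * X a (qH b uu α β c) n (upd n s ((false, g), z)))) / 2 =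
      Real.exp (a n * qdF a uu α β c n
        (b + (∑ l : Fin R, if n + 1 ≤ (l : ℕ) then √(uu l) * (s l).1.2 else 0) + √(uu n) * g)
        fun k => (∑ l : Fin R, if n + 1 ≤ (l : ℕ) then √(c l) * (s l).2 k else 0) +
          √(c n) * z k)) →
      X a (qH b uu α β c) (n + 1) s = qdF a uu α β c (n + 1)
        (b + ∑ l : Fin R, if n + 1 ≤ (l : ℕ) then √(uu l) * (s l).1.2 else 0)
        fun k => ∑ l : Fin R, if n + 1 ≤ (l : ℕ) then √(c l) * (s l).2 k else 0 := by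
    intro n hn s h
    have han := ha.pos n hn
    rw [X_succ, PM, qd_fub ((((mu_qH b uu hα β c).free ha hn.le).exp han.le).comp (gro_upd n s))]
    simp only [h]
    rw [qdF_step (fun l hl => ha.pos l (hl.trans_lt hn)) (huu n hn)
      (fun l hl => hc l (hl.trans_lt hn)) hα, Real.log_exp, inv_mul_cancel_left₀ han.ne']
  induction n generalizing s with
  | zero =>
    refine step 0 hn s fun g z => ?_
    have h1 : ∀ ε : Bool, qH b uu α β c (upd 0 s ((ε, g), z)) = sp ε *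
        (b + (∑ l : Fin R, if 0 + 1 ≤ (l : ℕ) then √(uu l) * (s l).1.2 else 0) + √(uu 0) * g -
          ∑ k, β k * ((∑ l : Fin R, if 0 + 1 ≤ (l : ℕ) then √(c l) * (s l).2 k else 0) +
            √(c 0) * z k)) - (∑ k, α k * ((∑ l : Fin R, if 0 + 1 ≤ (l : ℕ) then
              √(c l) * (s l).2 k else 0) + √(c 0) * z k) ^ 2) / 2 := by
      intro ε
      have h2 := qd_tail hn (fun l => √(uu l)) (fun y => y.1.2) s ((ε, g), z)
      have h3 := fun k => qd_tail hn (fun l => √(c l)) (fun y => y.2 k) s ((ε, g), z)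
      simp only [Nat.zero_le, if_true] at h2 h3
      have h4 : (upd 0 s ((ε, g), z) 0).1.1 = ε := by simp [upd]
      simp only [qH, osH, osε, fS, tau, h2, h3, h4]
      ring
    simp only [X_zero, h1, ha.zero, one_mul, qdF, Ch_zero, dd, Finset.range_zero, Finset.sum_empty,
      mul_zero, add_zero, div_one, zero_div, sub_zero, sp_true, sp_false, Real.exp_sub, exp_lc,
      Real.cosh_eq, neg_mul]
    ring
  | succ n ih =>
    refine step (n + 1) hn s fun g z => ?_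
    have h2 := fun ε : Bool => qd_tail hn (fun l => √(uu l)) (fun y => y.1.2) s ((ε, g), z)
    have h3 := fun (ε : Bool) k => qd_tail hn (fun l => √(c l)) (fun y => y.2 k) s ((ε, g), z)
    simp only [ih (by omega), h2, h3, add_assoc]
    ring

theorem val_qH {a : ℕ → ℝ} (ha : Exps R a) (b : ℝ) {uu c : ℕ → ℝ} (huu : ∀ l < R, 0 ≤ uu l)
    (hc : ∀ l < R, 0 ≤ c l) {α : κ → ℝ} (hα : ∀ k, 0 ≤ α k) (β : κ → ℝ) :
    val a (qH (R := R) b uu α β c) = Ch a (qv a uu α β c) R b -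
      (∑ l ∈ range R, (∑ k, (Real.log (1 + α k * dd a c (l + 1)) -
        Real.log (1 + α k * dd a c l))) / a l) / 2 := by
  obtain ⟨n, rfl⟩ : ∃ n, R = n + 1 := Nat.exists_eq_succ_of_ne_zero (NeZero.ne R)
  have h : ∀ l : Fin (n + 1), ¬n + 1 ≤ (l : ℕ) := fun l => l.2.not_ge
  rw [val, X_qH ha b huu hc hα β n n.lt_succ_self]
  simp [h, qdF]

end Crest.Agent.R164
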