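import Crest.Agent.R164.Path

/-!
# R164 / Rcmp: comparison of R-transforms

Let `μ` be carried by `[lo, t]`, `g b = ∫ (b - λ)⁻¹ dμ` for `b > t`: continuous, strictly decreasing,
`(b - lo)⁻¹ ≤ g b ≤ (b - t)⁻¹`.  For `x > 0`, `resolventPoint μ t x = B x` satisfies `t ≤ B x` and, for
`b > t`, `B x ≤ b ↔ g b ≤ x` (`rp_le_iff`; intermediate value theorem when there is no solution).
So `B` is antitone (hence measurable) and `lo ≤ B x - 1/x ≤ t`.
Comparison: with `b = B_μ x`, shift `τ ≤ ε`: layer cake for the monotone function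
`φ λ = (b + 3ε - λ)⁻¹` on `[lo, tν]` gives
`g_ν (b + 3ε) ≤ g_μ (b + 2ε) + τ (φ tν - φ lo)`, `φ tν - φ lo ≤ D / (b - tμ + 2ε)²` (`D = hi - lo`), while
`g_μ (b + ε) - g_μ (b + 2ε) ≥ ε / (b + 2ε - lo)²` and `(b + 2ε - lo)/(b - tμ + 2ε) ≤ (D + 2ε)/(2ε)`.
So `g_ν (b + 3ε) ≤ g_μ (b + ε) ≤ x` when `τ D (D + 2ε)² ≤ 4 ε³`.  The means compare by layer cake too.
-/

set_option autoImplicit false

open MeasureTheory ProbabilityTheory Finset Set Crest.ProbabilityR.InvariantGlass

namespace Crest.Agent.R164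

variable {μ ν : Measure ℝ} [IsProbabilityMeasure μ] [IsProbabilityMeasure ν] {lo t : ℝ}

lemma rc_ae (h : μ (Icc lo t) = 1) : ∀ᵐ l ∂μ, l ∈ Icc lo t :=
  (mem_ae_iff_prob_eq_one measurableSet_Icc).2 h

lemma rc_le (h : μ (Icc lo t) = 1) : lo ≤ t := by
  obtain ⟨l, hl⟩ := (rc_ae h).exists
  exact hl.1.trans hl.2

lemma rc_int_id (h : μ (Icc lo t) = 1) : Integrable (fun l : ℝ => l) μ :=
  Integrable.of_mem_Icc lo t measurable_id.aemeasurable (rc_ae h)

lemma rc_mem {b l : ℝ} (hb : t < b) (hl : l ∈ Icc lo t) : (b - l)⁻¹ ∈ Icc (b - lo)⁻¹ (b - t)⁻¹ :=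
  ⟨inv_anti₀ (by linarith [hl.2]) (by linarith [hl.1]), inv_anti₀ (by linarith) (by linarith [hl.2])⟩

lemma rc_int (h : μ (Icc lo t) = 1) {b : ℝ} (hb : t < b) : Integrable (fun l => (b - l)⁻¹) μ :=
  Integrable.of_mem_Icc _ _ (by fun_prop) ((rc_ae h).mono fun _ hl => rc_mem hb hl)

lemma rc_bd (h : μ (Icc lo t) = 1) {b : ℝ} (hb : t < b) :
    (b - lo)⁻¹ ≤ ∫ l, (b - l)⁻¹ ∂μ ∧ ∫ l, (b - l)⁻¹ ∂μ ≤ (b - t)⁻¹ := by
  have h1 := integral_mono_ae (integrable_const _) (rc_int h hb)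
    ((rc_ae h).mono fun l hl => (rc_mem hb hl).1)
  have h2 := integral_mono_ae (rc_int h hb) (integrable_const _)
    ((rc_ae h).mono fun l hl => (rc_mem hb hl).2)
  simp only [integral_const, probReal_univ, one_smul] at h1 h2
  exact ⟨h1, h2⟩

lemma rc_diff (h : μ (Icc lo t) = 1) {b b' : ℝ} (hb : t < b) (hbb : b ≤ b') :
    (b' - b) / (b' - lo) ^ 2 ≤ ∫ l, (b - l)⁻¹ ∂μ - ∫ l, (b' - l)⁻¹ ∂μ ∧
      ∫ l, (b - l)⁻¹ ∂μ - ∫ l, (b' - l)⁻¹ ∂μ ≤ (b' - b) / (b - t) ^ 2 := by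
  have i1 := rc_int h hb
  have i2 := rc_int h (hb.trans_le hbb)
  have h0 : ∀ᵐ l ∂μ, (b' - b) / (b' - lo) ^ 2 ≤ (b - l)⁻¹ - (b' - l)⁻¹ ∧
      (b - l)⁻¹ - (b' - l)⁻¹ ≤ (b' - b) / (b - t) ^ 2 := (rc_ae h).mono fun l hl => by
    have h1 : 0 < b - l := by linarith [hl.2]
    have h2 : 0 < b' - l := by linarith
    have h3 : 0 < b - t := by linarith
    have h4 : 0 ≤ b' - b := by linarith
    have e : (b - l)⁻¹ - (b' - l)⁻¹ = (b' - b) / ((b - l) * (b' - l)) := by
      field_simp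
      ring
    rw [e, sq, sq]
    constructor <;> gcongr <;> linarith [hl.1, hl.2]
  have h1 := integral_mono_ae (integrable_const _) (i1.sub i2) (h0.mono fun l hl => hl.1)
  have h2 := integral_mono_ae (i1.sub i2) (integrable_const _) (h0.mono fun l hl => hl.2)
  simp only [integral_const, probReal_univ, one_smul, integral_sub' i1 i2] at h1 h2
  exact ⟨h1, h2⟩

lemma rc_anti (h : μ (Icc lo t) = 1) : StrictAntiOn (fun b => ∫ l, (b - l)⁻¹ ∂μ) (Ioi t) := by
  intro b hb b' _ hbb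
  have h1 : 0 < b' - lo := by linarith [rc_le h, mem_Ioi.1 hb]
  have h2 : 0 < (b' - b) / (b' - lo) ^ 2 := div_pos (sub_pos.2 hbb) (by positivity)
  exact sub_pos.1 (h2.trans_le (rc_diff h hb hbb.le).1)

lemma rc_cont (h : μ (Icc lo t) = 1) {a : ℝ} (ha : t < a) :
    ContinuousOn (fun b => ∫ l, (b - l)⁻¹ ∂μ) (Ici a) := by
  have h0 : 0 < a - t := sub_pos.2 ha
  refine (LipschitzOnWith.of_le_add_mul ⟨1 / (a - t) ^ 2, by positivity⟩
    fun b hb b' hb' => ?_).continuousOn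
  have hb : a ≤ b := hb
  change _ ≤ _ + 1 / (a - t) ^ 2 * dist b b'
  rcases le_total b b' with hbb | hbb
  · have h1 := (rc_diff h (ha.trans_le hb) hbb).2
    have h2 : (b' - b) / (b - t) ^ 2 ≤ (b' - b) / (a - t) ^ 2 := by
      gcongr
    rw [dist_comm, Real.dist_eq, abs_of_nonneg (sub_nonneg.2 hbb), one_div, ← div_eq_inv_mul]
    linarith
  · exact ((rc_anti h).antitoneOn (ha.trans_le hb') (ha.trans_le hb) hbb).trans
      (le_add_of_nonneg_right (by positivity))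

lemma rc_upper {τ : ℝ} (hτ : 0 ≤ τ) (h : ∀ s, ν.real (Ioi (s + τ)) ≤ μ.real (Ioi s) + τ) {U : Set ℝ}
    (hU : IsUpperSet U) : ν.real U ≤ μ.real {l | l + τ ∈ U} + τ := by
  rcases U.eq_empty_or_nonempty with rfl | hne
  · simpa using hτ
  by_cases hb : BddBelow U
  swap
  · have e : {l | l + τ ∈ U} = univ := eq_univ_of_forall fun l => by
      obtain ⟨u, hu, hl⟩ := not_bddBelow_iff.1 hb (l + τ)
      exact hU hl.le hu
    rw [e, probReal_univ]
    linarith [measureReal_le_one (μ := ν) (s := U)]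
  by_cases ha : sInf U ∈ U
  · have h1 := tendsto_measure_biInter_gt (μ := μ) (s := fun r => Ioi (sInf U - τ - r)) (a := 0)
      (fun _ _ => measurableSet_Ioi.nullMeasurableSet)
      (fun i j _ hij => Ioi_subset_Ioi (by linarith)) ⟨1, one_pos, measure_ne_top _ _⟩
    have h2 := ((ENNReal.tendsto_toReal (measure_ne_top _ _)).comp h1).add_const τ
    refine (ge_of_tendsto h2 (eventually_nhdsWithin_of_forall fun r hr => ?_)).trans ?_
    · refine le_trans (measureReal_mono fun u hu => ?_) (h _)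
      have := csInf_le hb hu
      have : 0 < r := hr
      rw [Set.mem_Ioi]
      linarith
    · refine add_le_add_left (measureReal_mono (μ := μ) (s₂ := {l | l + τ ∈ U})
        fun l hl => hU ?_ ha) _
      simp only [mem_iInter, Set.mem_Ioi] at hl
      exact le_of_forall_pos_le_add fun r hr => by linarith [hl r hr]
  · have h1 := h (sInf U - τ)
    rw [sub_add_cancel] at h1
    refine (measureReal_mono fun u hu => ?_).trans (h1.trans (add_le_add_left
      (measureReal_mono fun l hl => ?_) _))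
    · exact lt_of_le_of_ne (csInf_le hb hu) fun e => ha (e ▸ hu)
    · obtain ⟨u, hu, hl'⟩ := exists_lt_of_csInf_lt hne (sub_lt_iff_lt_add.1 hl)
      exact hU hl'.le hu

lemma rc_int_mono (μ : Measure ℝ) [IsProbabilityMeasure μ] {ψ : ℝ → ℝ} {M : ℝ} (hψ : Monotone ψ)
    (h0 : ∀ l, 0 ≤ ψ l) (h1 : ∀ l, ψ l ≤ M) : Integrable ψ μ :=
  Integrable.of_mem_Icc 0 M hψ.measurable.aemeasurable (ae_of_all _ fun l => ⟨h0 l, h1 l⟩)

lemma rc_layer {τ M : ℝ} (hτ : 0 ≤ τ) (h : ∀ s, ν.real (Ioi (s + τ)) ≤ μ.real (Ioi s) + τ)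
    {ψ : ℝ → ℝ} (hψ : Monotone ψ) (h0 : ∀ l, 0 ≤ ψ l) (h1 : ∀ l, ψ l ≤ M) :
    ∫ l, ψ l ∂ν ≤ ∫ l, ψ (l + τ) ∂μ + τ * M := by
  have i2 : Integrable (fun l => ψ (l + τ)) μ :=
    rc_int_mono μ (hψ.comp (monotone_id.add_const τ)) (fun _ => h0 _) fun _ => h1 _
  have e1 := (rc_int_mono ν hψ h0 h1).integral_eq_integral_Ioc_meas_le (M := M) (ae_of_all _ h0)
    (ae_of_all _ h1)
  have e2 := i2.integral_eq_integral_Ioc_meas_le (M := M) (ae_of_all _ fun l => h0 _)
    (ae_of_all _ fun l => h1 _)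
  have a3 : Antitone fun u => μ.real {l | u ≤ ψ (l + τ)} := fun u u' hu =>
    measureReal_mono fun l hl => le_trans hu hl
  have i3 : IntegrableOn (fun u => μ.real {l | u ≤ ψ (l + τ)}) (Ioc 0 M) :=
    ((a3.antitoneOn _).integrableOn_isCompact isCompact_Icc).mono_set Ioc_subset_Icc_self
  have i4 : IntegrableOn (fun _ : ℝ => τ) (Ioc 0 M) := integrableOn_const (by simp)
  have h3 : ∫ u in Ioc 0 M, ν.real {l | u ≤ ψ l} ≤
      ∫ u in Ioc 0 M, (μ.real {l | u ≤ ψ (l + τ)} + τ) :=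
    integral_mono_of_nonneg (ae_of_all _ fun _ => measureReal_nonneg) (i3.add i4)
      (ae_of_all _ fun u => rc_upper hτ h (U := {l | u ≤ ψ l}) fun l l' hl hu =>
        le_trans hu (hψ hl))
  rw [integral_add i3 i4, setIntegral_const, Real.volume_real_Ioc_of_le ((h0 0).trans (h1 0)),
    ← e1, ← e2, sub_zero, smul_eq_mul, mul_comm] at h3
  exact h3

lemma rp_ge (μ : Measure ℝ) (t x : ℝ) : t ≤ resolventPoint μ t x := by
  unfold resolventPoint
  split_ifs with h
  · exact le_csInf h fun b hb => hb.1.le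
  · exact le_rfl
lemma rp_le_iff (h : μ (Icc lo t) = 1) {x b : ℝ} (hx : 0 < x) (hb : t < b) :
    resolventPoint μ t x ≤ b ↔ ∫ l, (b - l)⁻¹ ∂μ ≤ x := by
  unfold resolventPoint
  split_ifs with h1
  · obtain ⟨c, hc, hcx⟩ := h1
    have e : {b : ℝ | t < b ∧ ∫ l, (b - l)⁻¹ ∂μ = x} = {c} := Set.eq_singleton_iff_unique_mem.2
      ⟨⟨hc, hcx⟩, fun b hb => (rc_anti h).injOn hb.1 hc (hb.2.trans hcx.symm)⟩
    rw [e, csInf_singleton, ← hcx]
    exact ((rc_anti h).le_iff_ge hb hc).symm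
  · refine iff_of_true hb.le (not_lt.1 fun hlt => h1 ?_)
    have h2 : t < max b (t + x⁻¹) := lt_max_of_lt_left hb
    have h3 : ∫ l, (max b (t + x⁻¹) - l)⁻¹ ∂μ ≤ x := (rc_bd h h2).2.trans
      (inv_le_of_inv_le₀ hx (by linarith [le_max_right b (t + x⁻¹)]))
    obtain ⟨c, hc, hcx⟩ := intermediate_value_Icc' (le_max_left b (t + x⁻¹))
      ((rc_cont h hb).mono Icc_subset_Ici_self) ⟨h3, hlt.le⟩
    exact ⟨c, hb.trans_le hc.1, hcx⟩
lemma rT_mem (h : μ (Icc lo t) = 1) (x : ℝ) : lo ≤ rTransform μ t x ∧ rTransform μ t x ≤ t := by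
  unfold rTransform
  split_ifs with hx
  · have h1 : t < t + x⁻¹ := lt_add_of_pos_right _ (inv_pos.2 hx)
    have h2 := (rp_le_iff h hx h1).2 ((rc_bd h h1).2.trans_eq (by rw [add_sub_cancel_left, inv_inv]))
    rw [one_div]
    refine ⟨not_lt.1 fun hlt => ?_, by linarith⟩
    obtain ⟨b, hb1, hb2⟩ := exists_between (sub_lt_iff_lt_add.1 hlt)
    have h3 := (rp_ge μ t x).trans_lt hb1
    have h4 := (rc_bd h h3).1.trans ((rp_le_iff h hx h3).1 hb1.le)
    have h5 := inv_le_of_inv_le₀ (by linarith [rc_le h]) h4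
    linarith
  · have h1 := integral_mono_ae (integrable_const lo) (rc_int_id h) ((rc_ae h).mono fun l hl => hl.1)
    have h2 := integral_mono_ae (rc_int_id h) (integrable_const t) ((rc_ae h).mono fun l hl => hl.2)
    simp only [integral_const, probReal_univ, one_smul] at h1 h2
    exact ⟨h1, h2⟩
lemma measurable_rT (h : μ (Icc lo t) = 1) : Measurable (rTransform μ t) := by
  have h1 : Antitone fun y => resolventPoint μ t (Real.exp y) := fun y y' hy =>
    le_of_forall_gt_imp_ge_of_dense fun b hb => by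
      have h2 := (rp_ge μ t _).trans_lt hb
      exact (rp_le_iff h (Real.exp_pos _) h2).2
        (((rp_le_iff h (Real.exp_pos _) h2).1 hb.le).trans (Real.exp_le_exp.2 hy))
  have e : rTransform μ t = fun x => if 0 < x then resolventPoint μ t (Real.exp (Real.log x)) - 1 / x
      else ∫ l, l ∂μ := by
    funext x
    unfold rTransform
    split_ifs with hx
    · rw [Real.exp_log hx]
    · rfl
  rw [e]
  exact Measurable.ite measurableSet_Ioi ((h1.measurable.comp Real.measurable_log).sub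
    (measurable_const.div measurable_id)) measurable_const
/-- Layer cake comparison for a function that is monotone on `[lo, hi]`. -/
lemma integral_le_of_tail {hi τ : ℝ} (hτ : 0 ≤ τ) (hμ : μ (Icc lo (hi - τ)) = 1)
    (hν : ν (Icc lo hi) = 1) (h : ∀ s, ν.real (Ioi (s + τ)) ≤ μ.real (Ioi s) + τ) {φ : ℝ → ℝ}
    (hφ : MonotoneOn φ (Icc lo hi)) (hm : Measurable φ) :
    ∫ l, φ l ∂ν ≤ ∫ l, φ (l + τ) ∂μ + τ * (φ hi - φ lo) := by
  have hlh := rc_le hν
  obtain ⟨ψ, hψ⟩ : ∃ ψ : ℝ → ℝ, ψ = fun l => φ (projIcc lo hi hlh l) - φ lo := ⟨_, rfl⟩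
  have hψm : Monotone ψ := fun l l' hl => by
    rw [hψ]
    exact sub_le_sub_right (hφ (Subtype.prop _) (Subtype.prop _) (monotone_projIcc hlh hl)) _
  have h0 : ∀ l, 0 ≤ ψ l := fun l => by
    rw [hψ]
    exact sub_nonneg.2 (hφ ⟨le_rfl, hlh⟩ (Subtype.prop _) (Subtype.prop (projIcc lo hi hlh l)).1)
  have h1 : ∀ l, ψ l ≤ φ hi - φ lo := fun l => by
    rw [hψ]
    exact sub_le_sub_right
      (hφ (Subtype.prop _) ⟨hlh, le_rfl⟩ (Subtype.prop (projIcc lo hi hlh l)).2) _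
  have h2 : ∀ l ∈ Icc lo hi, φ l = ψ l + φ lo := fun l hl => by
    simp only [hψ, projIcc_of_mem hlh hl, sub_add_cancel]
  have e1 : ∫ l, φ l ∂ν = ∫ l, (ψ l + φ lo) ∂ν := integral_congr_ae ((rc_ae hν).mono h2)
  have e2 : ∫ l, φ (l + τ) ∂μ = ∫ l, (ψ (l + τ) + φ lo) ∂μ := integral_congr_ae
    ((rc_ae hμ).mono fun l hl => h2 _ ⟨by linarith [hl.1], by linarith [hl.2]⟩)
  have i1 := rc_int_mono ν hψm h0 h1
  have i2 : Integrable (fun l => ψ (l + τ)) μ :=
    rc_int_mono μ (hψm.comp (monotone_id.add_const τ)) (fun _ => h0 _) fun _ => h1 _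
  have h3 := rc_layer hτ h hψm h0 h1
  rw [e1, e2, integral_add i1 (integrable_const _), integral_add i2 (integrable_const _)]
  simp only [integral_const, probReal_univ, one_smul]
  linarith

lemma rc_int_rT (h : μ (Icc lo t) = 1) {p : ℝ → ℝ} (hp : IsTrialPath p) :
    IntegrableOn (fun r => rTransform μ t (deficit p r)) (Ioo (0 : ℝ) 1) := by
  have : IsFiniteMeasure (volume.restrict (Ioo (0 : ℝ) 1)) := isFiniteMeasure_restrict.2 (by simp)
  exact Integrable.of_mem_Icc lo t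
    ((measurable_rT h).comp (continuous_deficit hp).measurable).aemeasurable
    (ae_of_all _ fun r => rT_mem h _)

theorem spectralPart_le (lo hi ε : ℝ) (hε : 0 < ε) : ∃ τ : ℝ, 0 < τ ∧
    ∀ (μ ν : Measure ℝ) [IsProbabilityMeasure μ] [IsProbabilityMeasure ν] (tμ tν : ℝ),
      μ (Icc lo tμ) = 1 → ν (Icc lo tν) = 1 → tμ ≤ hi → tν ≤ tμ + τ →
      (∀ s, ν.real (Ioi (s + τ)) ≤ μ.real (Ioi s) + τ) →
      ∀ p, IsTrialPath p → spectralPart ν tν p ≤ spectralPart μ tμ p + ε := by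
  obtain ⟨e, rfl⟩ : ∃ e, ε = 3 * e := ⟨ε / 3, by ring⟩
  have he : 0 < e := by linarith
  have hD1 : 1 ≤ |hi - lo| + e + 1 := by linarith [abs_nonneg (hi - lo)]
  have hD2 : hi - lo + e ≤ |hi - lo| + e + 1 := by linarith [le_abs_self (hi - lo)]
  generalize |hi - lo| + e + 1 = D at hD1 hD2
  obtain ⟨τ, hτ, hτ1, hτ2⟩ : ∃ τ : ℝ, 0 < τ ∧ τ * D ^ 2 ≤ e / 2 ∧ τ * D ^ 2 ≤ e ^ 2 :=
    ⟨min (e / 2) (e ^ 2) / D ^ 2, by positivity,
      by rw [div_mul_cancel₀ _ (by positivity)]; exact min_le_left _ _,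
      by rw [div_mul_cancel₀ _ (by positivity)]; exact min_le_right _ _⟩
  have hτ3 : τ * D ≤ e / 2 := le_trans (by gcongr; nlinarith) hτ1
  have hτ4 : τ ≤ e / 2 := (le_mul_of_one_le_right hτ.le hD1).trans hτ3
  refine ⟨τ, hτ, fun μ ν _ _ tμ tν hμ hν h1 h2 h p hp => ?_⟩
  have hμ' : μ (Icc lo (tμ + τ - τ)) = 1 := by rwa [add_sub_cancel_right]
  have hν' : ν (Icc lo (tμ + τ)) = 1 :=
    le_antisymm prob_le_one (hν.ge.trans (measure_mono (Icc_subset_Icc_right h2)))
  have hlo := rc_le hμ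
  have h3 : tμ + τ - lo ≤ D := by linarith
  have key : ∀ x, rTransform ν tν x ≤ rTransform μ tμ x + 3 * e := fun x => by
    unfold rTransform
    split_ifs with hx
    · have hb := rp_ge μ tμ x
      have hbx := (rp_le_iff hμ hx (b := resolventPoint μ tμ x + e) (by linarith)).1 (by linarith)
      rw [sub_add_eq_add_sub, sub_le_sub_iff_right, rp_le_iff hν hx (by linarith)]
      generalize resolventPoint μ tμ x = b at hb hbx
      have h4 := integral_le_of_tail hτ.le hμ' hν' h (φ := fun l => (b + 3 * e - l)⁻¹)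
        (fun l _ l' hl' hll => inv_anti₀ (by linarith [hl'.2]) (by linarith)) (by fun_prop)
      simp only [← sub_sub, sub_right_comm _ _ τ] at h4
      have h5 := (rc_anti hμ).antitoneOn (show tμ < b + 2 * e by linarith)
        (show tμ < b + 3 * e - τ by linarith) (by linarith)
      have h6 := (rc_diff hμ (b := b + e) (b' := b + 2 * e) (by linarith) (by linarith)).1
      have h7 : τ * ((b + 3 * e - τ - tμ)⁻¹ - (b + 3 * e - lo)⁻¹) ≤
          (b + 2 * e - (b + e)) / (b + 2 * e - lo) ^ 2 := by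
        obtain ⟨y, hy⟩ : ∃ y, y = b + 3 * e - τ - tμ := ⟨_, rfl⟩
        obtain ⟨d, hd⟩ : ∃ d, d = tμ + τ - lo := ⟨_, rfl⟩
        have hy1 : 2 * e ≤ y := by linarith
        have hy0 : 0 < y := by linarith
        have hd0 : 0 < d := by linarith
        have h8 : τ * d ≤ e / 2 := le_trans (by gcongr; linarith) hτ3
        have h9 : τ * d ^ 2 ≤ e ^ 2 := le_trans (by gcongr; linarith) hτ2
        calc _ = τ * d * (y + d) / (y * (y + d) ^ 2) := by
              rw [← hy, show b + 3 * e - lo = y + d by linarith]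
              field_simp
              ring
          _ ≤ e * y / (y * (y + d) ^ 2) :=
              div_le_div_of_nonneg_right (by nlinarith) (by positivity)
          _ = e / (y + d) ^ 2 := by field_simp
          _ ≤ _ := by
              have h10 : 0 < b + 2 * e - lo := by linarith
              rw [show b + 2 * e - (b + e) = e by ring]
              gcongr
              linarith
      linarith
    · have h4 := integral_le_of_tail hτ.le hμ' hν' h (φ := id) monotoneOn_id measurable_id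
      simp only [id] at h4
      rw [integral_add (rc_int_id hμ) (integrable_const _)] at h4
      simp only [integral_const, probReal_univ, one_smul] at h4
      have h5 : τ * (tμ + τ - lo) ≤ τ * D := by gcongr
      linarith
  have i0 : IntegrableOn (fun _ : ℝ => 3 * e) (Ioo (0 : ℝ) 1) := integrableOn_const (by simp)
  have h4 := integral_mono (rc_int_rT hν hp) ((rc_int_rT hμ hp).add i0) fun r => key _
  rw [integral_add' (rc_int_rT hμ hp) i0, setIntegral_const,
    Real.volume_real_Ioo_of_le zero_le_one, sub_zero, one_smul] at h4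
  unfold spectralPart
  linarith

end Crest.Agent.R164
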