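import Crest.Agent.R164.Path

/-!
# R164 / Solve: approximate Schwinger–Dyson relations determine the block overlaps

Data: `qk k i` (antitone in `i`, `≥ 0`, `Σ_k qk k 0 = 1`), total `q i = Σ_k qk k i` for `i < R`,
`q R = 0`.  Write `D^k_i = Dq a (qk k) i`, `1 = k1`, `a = ua R`, `r₀ ≤ ρ_k`.
(1) `a_i (Ŷ_i - Ŷ_{i+1}) = D¹D^l(i+1) - D¹D^l(i)` for `i < j0` (algebra with
`D_{i+1} = D_i + a_i (q_i - q_{i+1})`, `a_i - a_{i+1} = 1/R`), hence
`Σ_{i<j} a_i (S_i - S_{i+1}) = ρ₁ D^l_j - ρ_l D¹_j + μ_l D¹_j D^l_j` where `S_i` is the quantity in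
`hSD`; by Abel summation its modulus is at most `ed_j = err 0 + avg + err j`,
`avg = Σ_{i=1}^{j0} err i / R`.
(2) With `y_l = D^l_j / ρ_l`: `|y_l (1 + μ_l y₁) - y₁| ≤ ed/r₀²`, so `|D_j - Γ y₁| ≤ ed/r₀²`,
`|yv D_j - y₁| ≤ ed/r₀³` and `ε^l_j := D^l_j - dk l D_j` satisfies `|ε^l_j| ≤ 2 ed/r₀³`.
(3) `qk k i - qk k j0 - (ck k i - ck k j0) = Σ_{j=i}^{j0-1} (ε_{j+1} - ε_j)/a_j`; Abel summation
with `1/a_{j} - 1/a_{j-1} ≤ 1/(R a_{j0}²)`.
(4) Base: from `hSD` at `i = j0`, `|ρ₁ q^l - ρ_l q¹ + μ_l (D¹ q^l + D^l q¹)| ≤ err j0 + 4Λ a_{j0}`;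
with `z_l = q^l/ρ_l`, `y = yv D_{j0}`: `z_l ≈ z₁/(1+μ_l y)²`, `q ≈ z₁ Σ wt y y`, so
`q^k ≈ q · wt k y y / Σ wt y y`.  And `ck k j0 = Σ_{j ≥ j0} (q_j - q_{j+1}) wt k y_j y_{j+1}/Σ wt`
(`dk_sub`) with `D_{j0} ≤ D_j ≤ D_{j0} + a_{j0}`; use `yv_lip`, `wt_lip` twice.
-/

set_option autoImplicit false

open MeasureTheory ProbabilityTheory Finset

namespace Crest.Agent.R164

/-- The product term in the Schwinger–Dyson relation at level `i` (split at `j0`). -/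
noncomputable def Yh (a qX qZ : ℕ → ℝ) (j0 i : ℕ) : ℝ :=
  Dq a qX i * qZ i + Dq a qZ i * qX i + a i * (qX i * qZ i) -
    ∑ j ∈ Ico i j0, (a j - a (j + 1)) * (qX (j + 1) * qZ (j + 1))

lemma sv_Dq_succ (a q : ℕ → ℝ) (i : ℕ) : Dq a q (i + 1) = Dq a q i + a i * (q i - q (i + 1)) :=
  sum_range_succ _ _

lemma sv_Yh (a X Z : ℕ → ℝ) {j0 i : ℕ} (hi : i < j0) :
    a i * (Yh a X Z j0 i - Yh a X Z j0 (i + 1)) =
      Dq a X (i + 1) * Dq a Z (i + 1) - Dq a X i * Dq a Z i := by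
  unfold Yh
  rw [sum_eq_sum_Ico_succ_bot hi, sv_Dq_succ, sv_Dq_succ]
  ring

lemma sv_W (a X Z : ℕ → ℝ) (r₁ r μ L : ℝ) {j0 j : ℕ} (hj : j ≤ j0) (T : ℕ → ℝ)
    (hT : ∀ i, T i = r₁ * Z i - r * X i + μ * (Yh a X Z j0 i - L)) :
    r₁ * Dq a Z j - r * Dq a X j + μ * (Dq a X j * Dq a Z j) =
      a 0 * T 0 - a j * T j - ∑ i ∈ range j, (a i - a (i + 1)) * T (i + 1) := by
  induction j with
  | zero => simp [Dq]
  | succ j ih =>
    have h1 := ih (by omega)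
    have h2 := sv_Yh a X Z (show j < j0 by omega)
    rw [sum_range_succ]
    have h3 := sv_Dq_succ a X j
    have h4 := sv_Dq_succ a Z j
    linear_combination h1 - μ * h2 + r₁ * h4 - r * h3 + a j * hT (j + 1) - a j * hT j

lemma sv_ua_pos {R i : ℕ} (hi : i < R) : 0 < ua R i :=
  sub_pos.2 ((div_lt_one (by exact_mod_cast (by omega : 0 < R))).2 (by exact_mod_cast hi))

lemma sv_ua_anti (R : ℕ) {i j : ℕ} (h : i ≤ j) : ua R j ≤ ua R i :=
  sub_le_sub_left (div_le_div_of_nonneg_right (by exact_mod_cast h) (Nat.cast_nonneg _)) 1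

lemma sv_ua_zero (R : ℕ) : ua R 0 = 1 := by simp [ua]

lemma sv_ua_le (R i : ℕ) : ua R i ≤ 1 := (sv_ua_anti R (Nat.zero_le i)).trans_eq (sv_ua_zero R)

lemma sv_W_le {R j0 j : ℕ} (hj0 : j0 < R) (hj : j ≤ j0) (T err : ℕ → ℝ) (h0 : ∀ i, 0 ≤ err i)
    (hT : ∀ i ≤ j0, |T i| ≤ err i) :
    |ua R 0 * T 0 - ua R j * T j - ∑ i ∈ range j, (ua R i - ua R (i + 1)) * T (i + 1)| ≤
      err 0 + err j + (∑ i ∈ range j0, err (i + 1)) / R := by
  refine (abs_sub _ _).trans (add_le_add ((abs_sub _ _).trans (add_le_add ?_ ?_)) ?_)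
  · rw [sv_ua_zero, one_mul]; exact hT 0 (Nat.zero_le _)
  · rw [abs_mul, abs_of_pos (sv_ua_pos (by omega))]
    exact (mul_le_of_le_one_left (abs_nonneg _) (sv_ua_le _ _)).trans (hT j hj)
  · simp only [ua_sub]
    rw [← mul_sum, one_div, ← div_eq_inv_mul, abs_div, Nat.abs_cast]
    refine div_le_div_of_nonneg_right ((abs_sum_le_sum_abs _ _).trans ?_) (Nat.cast_nonneg _)
    exact (sum_le_sum fun i hi => hT _ (by have := mem_range.1 hi; omega)).trans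
      (sum_le_sum_of_subset_of_nonneg (range_subset_range.2 hj) fun i _ _ => h0 _)

lemma sv_abel {R j0 i : ℕ} (hj0 : j0 < R) (hi : i ≤ j0) (ε : ℕ → ℝ) :
    |∑ j ∈ Ico i j0, (ε (j + 1) - ε j) / ua R j| ≤
      (|ε j0| + |ε i| + (∑ j ∈ range j0, |ε (j + 1)|) / R) / ua R j0 ^ 2 := by
  have ha := sv_ua_pos hj0
  have e : ∑ j ∈ Ico i j0, (ε (j + 1) - ε j) / ua R j = ε j0 / ua R j0 - ε i / ua R i -
      ∑ j ∈ Ico i j0, ε (j + 1) / R / (ua R j * ua R (j + 1)) := by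
    rw [← sum_Ico_sub (fun j => ε j / ua R j) hi, ← sum_sub_distrib]
    refine sum_congr rfl fun j hj => ?_
    have h1 := sv_ua_pos (show j < R by have := mem_Ico.1 hj; omega)
    have h2 := sv_ua_pos (show j + 1 < R by have := mem_Ico.1 hj; omega)
    rw [div_eq_mul_one_div (ε (j + 1)) (R : ℝ), ← ua_sub j]
    field_simp
    ring
  have h1 : ∀ j ≤ j0, |ε j / ua R j| ≤ |ε j| / ua R j0 ^ 2 := fun j hj => by
    rw [abs_div, abs_of_pos (sv_ua_pos (by omega))]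
    refine div_le_div_of_nonneg_left (abs_nonneg _) (by positivity) ?_
    nlinarith [sv_ua_le R j0, sv_ua_anti R hj]
  rw [e, add_div, add_div]
  refine (abs_sub _ _).trans (add_le_add ((abs_sub _ _).trans (add_le_add (h1 _ le_rfl) (h1 _ hi))) ?_)
  rw [sum_div, sum_div]
  refine (abs_sum_le_sum_abs _ _).trans ((sum_le_sum fun j hj => ?_).trans
    (sum_le_sum_of_subset_of_nonneg (s := Ico i j0) (fun j hj => mem_range.2 (mem_Ico.1 hj).2)
      fun j _ _ => by positivity))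
  have h2 := (mem_Ico.1 hj).2
  have h3 := sv_ua_anti R h2.le
  have h4 := sv_ua_anti R (show j + 1 ≤ j0 from h2)
  rw [abs_div, abs_div, Nat.abs_cast, abs_of_pos (mul_pos (ha.trans_le h3) (ha.trans_le h4))]
  exact div_le_div_of_nonneg_left (by positivity) (by positivity)
    (by rw [sq]; exact mul_le_mul h3 h4 ha.le (ha.le.trans h3))

namespace Spec
variable {κ : Type} [Fintype κ] (S : Spec κ) {s Λ : ℝ}

lemma sv_sum (hs : ∀ k, 1 ≤ s * S.ρ k) {f : κ → ℝ} {e : ℝ} (he : 0 ≤ e) (h : ∀ k, |f k| ≤ e) :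
    |∑ k, f k| ≤ s * e := by
  refine (abs_sum_le_sum_abs _ _).trans ((sum_le_sum (g := fun k => s * e * S.ρ k) fun k _ => ?_).trans_eq ?_)
  · nlinarith [h k, hs k]
  · rw [← mul_sum, S.ρ_sum, mul_one]

lemma sv_om {y y' : ℝ} (hy : 0 ≤ y) (hy' : 0 ≤ y') (k : κ) :
    0 ≤ S.wt k y y' / ∑ l, S.wt l y y' ∧ S.wt k y y' / ∑ l, S.wt l y y' ≤ 1 := by
  have h : ∀ l, 0 ≤ S.wt l y y' := fun l => by
    have := S.ρ_pos l
    have := S.mu_nonneg l
    unfold wt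
    positivity
  exact ⟨div_nonneg (h k) (sum_nonneg fun l _ => h l),
    div_le_one_of_le₀ (single_le_sum (fun l _ => h l) (mem_univ k)) (sum_nonneg fun l _ => h l)⟩

lemma sv_one_le (hs : ∀ k, 1 ≤ s * S.ρ k) : 1 ≤ s := by
  have h1 := hs S.k1
  have h2 := S.ρ_le_one S.k1
  have h3 := S.ρ_pos S.k1
  nlinarith

lemma sv_div {u v c e : ℝ} (hs : ∀ k, 1 ≤ s * S.ρ k) (hc : 1 ≤ c) (h : |S.ρ S.k1 * (u * c - v)| ≤ e) :
    |u - v / c| ≤ s * e := by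
  have h1 : u - v / c = (u * c - v) / c := by field_simp
  rw [abs_mul, abs_of_pos (S.ρ_pos _)] at h
  rw [h1, abs_div, abs_of_pos (zero_lt_one.trans_le hc)]
  refine (div_le_self (abs_nonneg _) hc).trans ?_
  nlinarith [hs S.k1, abs_nonneg (u * c - v), S.sv_one_le hs]

lemma sv_eps (hs : ∀ k, 1 ≤ s * S.ρ k) {D : κ → ℝ} (hD : ∀ k, 0 ≤ D k) {e y : ℝ} (he : 0 ≤ e)
    (hy : D S.k1 = S.ρ S.k1 * y)
    (h : ∀ l, |S.ρ S.k1 * D l - S.ρ l * D S.k1 + S.mu l * (D S.k1 * D l)| ≤ e) :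
    (∀ l, |D l - S.ρ l * y / (1 + S.mu l * y)| ≤ s * e) ∧ |∑ l, D l - S.Gam y| ≤ s * (s * e) ∧
      ∀ l, |D l - S.dk l (∑ l, D l)| ≤ 2 * (s * (s * e)) := by
  have hy0 : 0 ≤ y := le_of_mul_le_mul_left (by rw [mul_zero, ← hy]; exact hD _) (S.ρ_pos S.k1)
  have hs1 := S.sv_one_le hs
  have hse : 0 ≤ s * e := by positivity
  have h1 : ∀ l, |D l - S.ρ l * y / (1 + S.mu l * y)| ≤ s * e := fun l =>
    S.sv_div hs (le_add_of_nonneg_right (mul_nonneg (S.mu_nonneg l) hy0))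
      (le_of_eq_of_le (congrArg abs (by rw [hy]; ring)) (h l))
  have h2 : |∑ l, D l - S.Gam y| ≤ s * (s * e) := by
    rw [Gam, ← sum_sub_distrib]
    exact S.sv_sum hs hse fun l => by rw [← mul_div_assoc]; exact h1 l
  refine ⟨h1, h2, fun l => ?_⟩
  have hG : 0 ≤ S.Gam y := sum_nonneg fun l _ => by
    have := S.ρ_pos l
    have := S.mu_nonneg l
    positivity
  have hD' : 0 ≤ ∑ l, D l := sum_nonneg fun l _ => hD l
  have h3 := S.dk_sub hG hD' l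
  have h4 := S.sv_om (S.yv_nonneg hG) (S.yv_nonneg hD') l
  have h5 : |S.dk l (∑ l, D l) - S.dk l (S.Gam y)| ≤ s * (s * e) := by
    rw [h3, abs_mul, abs_of_nonneg h4.1]
    exact (mul_le_of_le_one_right (abs_nonneg _) h4.2).trans h2
  have h6 : S.dk l (S.Gam y) = S.ρ l * y / (1 + S.mu l * y) := by rw [dk, S.yv_Gam hy0, mul_div_assoc]
  rw [h6, abs_sub_comm] at h5
  refine (abs_sub_le _ _ _).trans ((add_le_add (h1 l) h5).trans ?_)
  nlinarith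

lemma sv_mu_le (hΛ : ∀ k, |S.lam k| ≤ Λ) (k : κ) : S.mu k ≤ 2 * Λ := by
  unfold mu
  linarith [(abs_le.1 (hΛ k)).1, (abs_le.1 (hΛ S.k1)).2]

lemma sv_base (hs : ∀ k, 1 ≤ s * S.ρ k) (hΛ : ∀ k, |S.lam k| ≤ Λ) {D q : κ → ℝ} {e η y : ℝ}
    (hη : 0 ≤ η) (he : 0 ≤ e) (hy0 : 0 ≤ y) (hy : D S.k1 = S.ρ S.k1 * y) (hq0 : 0 ≤ q S.k1)
    (hq1 : q S.k1 ≤ 1) (h1 : ∀ l, |D l - S.ρ l * y / (1 + S.mu l * y)| ≤ e)
    (h : ∀ l, |S.ρ S.k1 * q l - S.ρ l * q S.k1 + S.mu l * (D S.k1 * q l + D l * q S.k1)| ≤ η) (k : κ) :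
    |q k - (∑ l, q l) * (S.wt k y y / ∑ l, S.wt l y y)| ≤ 2 * (s * (s * (η + 2 * Λ * e))) := by
  have hΛ0 : 0 ≤ Λ := (abs_nonneg _).trans (hΛ k)
  have hs1 := S.sv_one_le hs
  have hρ := S.ρ_pos S.k1
  have hθ : 0 ≤ s * (η + 2 * Λ * e) := by positivity
  have h2 : ∀ l, |q l - q S.k1 / S.ρ S.k1 * S.wt l y y| ≤ s * (η + 2 * Λ * e) := fun l => by
    have hc : 1 ≤ 1 + S.mu l * y := le_add_of_nonneg_right (mul_nonneg (S.mu_nonneg l) hy0)
    have h3 := S.sv_div (u := q l) (v := q S.k1 / S.ρ S.k1 * (S.ρ l / (1 + S.mu l * y)))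
      (e := η + 2 * Λ * e) hs hc (by
        have e1 : S.ρ S.k1 * (q l * (1 + S.mu l * y) - q S.k1 / S.ρ S.k1 * (S.ρ l / (1 + S.mu l * y))) =
            (S.ρ S.k1 * q l - S.ρ l * q S.k1 + S.mu l * (D S.k1 * q l + D l * q S.k1)) -
              S.mu l * (q S.k1 * (D l - S.ρ l * y / (1 + S.mu l * y))) := by
          rw [hy]; field_simp; ring
        rw [e1]
        refine (abs_sub _ _).trans (add_le_add (h l) ?_)
        rw [abs_mul, abs_mul, abs_of_nonneg (S.mu_nonneg l), abs_of_nonneg hq0]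
        exact mul_le_mul (S.sv_mu_le hΛ l) ((mul_le_of_le_one_left (abs_nonneg _) hq1).trans (h1 l))
          (by positivity) (by positivity))
    rwa [mul_div_assoc, div_div] at h3
  have h3 := S.sv_sum hs hθ h2
  rw [sum_sub_distrib, ← mul_sum] at h3
  have h4 := S.sv_om hy0 hy0 k
  have h5 : 0 < ∑ l, S.wt l y y := hρ.trans_le (S.sum_wt_mem hy0 hy0).1
  have e2 : q k - (∑ l, q l) * (S.wt k y y / ∑ l, S.wt l y y) =
      (q k - q S.k1 / S.ρ S.k1 * S.wt k y y) - (∑ l, q l - q S.k1 / S.ρ S.k1 * ∑ l, S.wt l y y) *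
        (S.wt k y y / ∑ l, S.wt l y y) := by
    field_simp; ring
  rw [e2]
  refine (abs_sub _ _).trans ?_
  rw [abs_mul, abs_of_nonneg h4.1]
  have h6 := (mul_le_of_le_one_right (abs_nonneg _) h4.2).trans h3
  nlinarith [h2 k]

lemma sv_lip (hs : ∀ k, 1 ≤ s * S.ρ k) (hΛ : ∀ k, |S.lam k| ≤ Λ) {y y' y'' δ : ℝ} (hy : 0 ≤ y)
    (hy' : 0 ≤ y') (hy'' : 0 ≤ y'') (h : |y' - y''| ≤ δ) (k : κ) :
    |S.wt k y y' / ∑ l, S.wt l y y' - S.wt k y y'' / ∑ l, S.wt l y y''| ≤ 4 * Λ * s * δ := by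
  have hΛ0 : 0 ≤ Λ := (abs_nonneg _).trans (hΛ k)
  have hs1 := S.sv_one_le hs
  refine ((single_le_sum (f := fun k => |S.wt k y y' / ∑ l, S.wt l y y' -
    S.wt k y y'' / ∑ l, S.wt l y y''|) (fun _ _ => abs_nonneg _) (mem_univ k)).trans
      (S.wt_lip hΛ hy hy' hy'')).trans (mul_le_mul ?_ h (abs_nonneg _) (by positivity))
  rw [div_le_iff₀ (S.ρ_pos _), mul_assoc (4 * Λ)]
  exact le_mul_of_one_le_right (by positivity) (hs _)

lemma sv_ck (hs : ∀ k, 1 ≤ s * S.ρ k) (hΛ : ∀ k, |S.lam k| ≤ Λ) {R j0 : ℕ} (hj0 : j0 < R) {q : ℕ → ℝ}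
    (hq : IsOv R q) (hR : q R = 0) {y δ : ℝ} (hy : 0 ≤ y) (hδ : |Dq (ua R) q j0 - S.Gam y| ≤ δ) (k : κ) :
    |q j0 * (S.wt k y y / ∑ l, S.wt l y y) - S.ck (ua R) q R k j0| ≤
      8 * Λ * s * (s * (ua R j0 + δ)) := by
  have hΛ0 : 0 ≤ Λ := (abs_nonneg _).trans (hΛ k)
  have hs1 := S.sv_one_le hs
  have hδ0 : 0 ≤ δ := (abs_nonneg _).trans hδ
  have ha := sv_ua_pos hj0
  have hD := fun j (hj : j ≤ R) => (hq.Dq_mem (by omega) hj).1
  have h1 : ∀ j, j0 ≤ j → j ≤ R → Dq (ua R) q j ≤ Dq (ua R) q j0 + ua R j0 * (q j0 - q j) := by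
    intro j hj
    induction j, hj using Nat.le_induction with
    | base => simp
    | succ j hj ih =>
      intro hjR
      have := mul_le_mul_of_nonneg_right (sv_ua_anti R hj) (sub_nonneg.2 (hq.anti j hjR))
      rw [sv_Dq_succ]
      linarith [ih (by omega)]
  have hG : 0 ≤ S.Gam y := sum_nonneg fun l _ => by
    have := S.ρ_pos l
    have := S.mu_nonneg l
    positivity
  have h2 : ∀ j, j0 ≤ j → j ≤ R → |y - S.yv (Dq (ua R) q j)| ≤ s * (ua R j0 + δ) := by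
    intro j hj hjR
    have h3 := S.yv_lip hG (hD j hjR)
    rw [S.yv_Gam hy] at h3
    have h4 : |S.Gam y - Dq (ua R) q j| ≤ ua R j0 + δ := by
      have h5 := hq.Dq_mono (by omega) hj hjR
      have h6 := h1 j hj hjR
      have h7 : ua R j0 * (q j0 - q j) ≤ ua R j0 :=
        mul_le_of_le_one_right ha.le (by linarith [(hq.mem hj0.le).2, (hq.mem hjR).1])
      rw [abs_le] at hδ ⊢
      constructor <;> linarith [hδ.1, hδ.2]
    refine h3.trans ?_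
    rw [div_le_iff₀ (S.ρ_pos _)]
    nlinarith [hs S.k1]
  have h3 : q j0 = ∑ j ∈ Ico j0 R, (q j - q (j + 1)) := by
    have := sum_Ico_sub q hj0.le
    simp only [← neg_sub (q (_ + 1)), sum_neg_distrib]
    rw [this, hR, zero_sub, neg_neg]
  have hB : 0 ≤ 8 * Λ * s * (s * (ua R j0 + δ)) := by positivity
  rw [h3, sum_mul, ck, ← sum_sub_distrib]
  refine (abs_sum_le_sum_abs _ _).trans ((sum_le_sum (g := fun j => (q j - q (j + 1)) *
    (8 * Λ * s * (s * (ua R j0 + δ)))) fun j hj => ?_).trans ?_)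
  · obtain ⟨hj1, hj2⟩ := mem_Ico.1 hj
    have ha' := sv_ua_pos hj2
    rw [S.dk_sub (hD j hj2.le) (hD (j + 1) hj2), sv_Dq_succ, add_sub_cancel_left, mul_assoc,
      mul_div_cancel_left₀ _ ha'.ne', ← mul_sub, abs_mul, abs_of_nonneg (sub_nonneg.2 (hq.anti j hj2)),
      ← sv_Dq_succ]
    refine mul_le_mul_of_nonneg_left ?_ (sub_nonneg.2 (hq.anti j hj2))
    have h4 := S.sv_lip hs hΛ hy hy (S.yv_nonneg (hD j hj2.le)) (h2 j hj1 hj2.le) k
    have h5 := S.sv_lip hs hΛ (S.yv_nonneg (hD j hj2.le)) hy (S.yv_nonneg (hD (j + 1) hj2))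
      (h2 (j + 1) (by omega) hj2) k
    have h6 : ∀ l, S.wt l y (S.yv (Dq (ua R) q j)) = S.wt l (S.yv (Dq (ua R) q j)) y := fun l => by
      unfold wt; rw [mul_comm]
    simp only [h6] at h4
    exact (abs_sub_le _ _ _).trans ((add_le_add h4 h5).trans_eq (by ring))
  · rw [← sum_mul, ← h3]
    exact mul_le_of_le_one_left hB (hq.mem hj0.le).2

end Spec

theorem solve (r₀ Λ : ℝ) (hr : 0 < r₀) : ∃ C : ℝ, 0 ≤ C ∧
    ∀ (κ : Type) [Fintype κ] (S : Spec κ), (∀ k, r₀ ≤ S.ρ k) → (∀ k, |S.lam k| ≤ Λ) →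
    ∀ (R j0 : ℕ), j0 < R → ∀ (qk : κ → ℕ → ℝ) (q : ℕ → ℝ),
      (∀ k, ∀ i, i + 1 < R → qk k (i + 1) ≤ qk k i) → (∀ k, ∀ i < R, 0 ≤ qk k i) →
      (∀ i < R, q i = ∑ k, qk k i) → q 0 = 1 → q R = 0 →
    ∀ (err : ℕ → ℝ) (Low : κ → ℝ), (∀ i, 0 ≤ err i) → (∀ l, |Low l| ≤ ua R j0) →
      (∀ l, l ≠ S.k1 → ∀ i ≤ j0, |S.ρ S.k1 * qk l i - S.ρ l * qk S.k1 i +
        S.mu l * (Yh (ua R) (qk S.k1) (qk l) j0 i - Low l)| ≤ err i) →
    ∀ k, ∀ i ≤ j0, |qk k i - S.ck (ua R) q R k i| ≤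
      C * (ua R j0 + (err 0 + err i + err j0 + (∑ j ∈ range j0, err (j + 1)) / R) / ua R j0 ^ 2) := by
  rcases lt_or_ge Λ 0 with hΛ0 | hΛ0
  · exact ⟨0, le_rfl, fun κ _ S _ hΛ => absurd ((abs_nonneg _).trans (hΛ S.k1)) (not_le.2 hΛ0)⟩
  obtain ⟨s, hsd⟩ : ∃ s, s = r₀⁻¹ := ⟨_, rfl⟩
  have hs0 : 0 < s := by rw [hsd]; positivity
  refine ⟨2 * (s * (s * (1 + 4 * Λ + 2 * Λ * s))) + 8 * Λ * s * (s * (1 + s * s)) + 8 * (s * s),
    by positivity, fun κ _ S hρ hΛ R j0 hj0 qk q hanti hpos hsum hq0 hqR err Low herr hLow hSD k i hi => ?_⟩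
  have hs : ∀ k, 1 ≤ s * S.ρ k := fun k => by
    rw [hsd, ← div_eq_inv_mul, one_le_div hr]; exact hρ k
  have hq : IsOv R q := ⟨hq0, fun i hi => by
    rcases (show i + 1 < R ∨ i + 1 = R by omega) with h | h
    · rw [hsum i hi, hsum _ h]; exact sum_le_sum fun k _ => hanti k i h
    · rw [h, hqR, hsum i hi]; exact sum_nonneg fun k _ => hpos k i hi, hqR.ge⟩
  have ha := sv_ua_pos hj0
  have ha1 := sv_ua_le R j0
  obtain ⟨av, hav⟩ : ∃ av, av = (∑ j ∈ range j0, err (j + 1)) / R := ⟨_, rfl⟩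
  have hav0 : 0 ≤ av := hav ▸ div_nonneg (sum_nonneg fun _ _ => herr _) (Nat.cast_nonneg _)
  have hD0 : ∀ j ≤ j0, ∀ l, 0 ≤ Dq (ua R) (qk l) j := fun j hj l => sum_nonneg fun m hm => by
    have := mem_range.1 hm
    exact mul_nonneg (sv_ua_pos (by omega)).le (sub_nonneg.2 (hanti l m (by omega)))
  have hDs : ∀ j ≤ j0, ∑ l, Dq (ua R) (qk l) j = Dq (ua R) q j := fun j hj => by
    unfold Dq
    rw [sum_comm]
    refine sum_congr rfl fun m hm => ?_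
    have := mem_range.1 hm
    rw [← mul_sum, sum_sub_distrib, ← hsum m (by omega), ← hsum (m + 1) (by omega)]
  have hy : ∀ j, Dq (ua R) (qk S.k1) j = S.ρ S.k1 * (Dq (ua R) (qk S.k1) j / S.ρ S.k1) := fun j =>
    (mul_div_cancel₀ _ (S.ρ_pos _).ne').symm
  have he0 : ∀ j, 0 ≤ err 0 + err j + av := fun j => add_nonneg (add_nonneg (herr 0) (herr j)) hav0
  have hE := fun j (hj : j ≤ j0) => S.sv_eps hs (hD0 j hj) (he0 j) (hy j) fun l => by
    by_cases hl : l = S.k1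
    · rw [hl, S.mu_k1, sub_self, zero_mul, add_zero, abs_zero]; exact he0 j
    · rw [sv_W (ua R) (qk S.k1) (qk l) _ _ _ (Low l) hj _ fun _ => rfl, hav]
      exact sv_W_le hj0 hj _ err herr (hSD l hl)
  have hq1 : ∀ l, qk l j0 ≤ 1 := fun l =>
    ((single_le_sum (fun l _ => hpos l j0 hj0) (mem_univ l)).trans_eq (hsum j0 hj0).symm).trans
      (hq.mem hj0.le).2
  have hy0 : 0 ≤ Dq (ua R) (qk S.k1) j0 / S.ρ S.k1 := div_nonneg (hD0 j0 le_rfl _) (S.ρ_pos _).le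
  have b1 := S.sv_base hs hΛ (q := fun l => qk l j0) (η := err j0 + 4 * Λ * ua R j0)
    (add_nonneg (herr _) (by positivity)) (mul_nonneg hs0.le (he0 j0)) hy0 (hy j0) (hpos _ _ hj0) (hq1 _)
    (hE j0 le_rfl).1 (fun l => by
      by_cases hl : l = S.k1
      · rw [hl, S.mu_k1, sub_self, zero_mul, add_zero, abs_zero]
        exact add_nonneg (herr _) (by positivity)
      · have h1 := hSD l hl j0 le_rfl
        rw [Yh, Ico_self, sum_empty, sub_zero] at h1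
        have h2 : |S.mu l * (ua R j0 * (qk S.k1 j0 * qk l j0) - Low l)| ≤ 4 * Λ * ua R j0 := by
          have h3 : |ua R j0 * (qk S.k1 j0 * qk l j0)| ≤ ua R j0 := by
            rw [abs_of_nonneg (mul_nonneg ha.le (mul_nonneg (hpos _ _ hj0) (hpos _ _ hj0)))]
            exact mul_le_of_le_one_right ha.le (mul_le_one₀ (hq1 _) (hpos _ _ hj0) (hq1 _))
          rw [abs_mul, abs_of_nonneg (S.mu_nonneg l)]
          exact (mul_le_mul (S.sv_mu_le hΛ l) ((abs_sub _ _).trans (add_le_add h3 (hLow l)))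
            (abs_nonneg _) (by positivity)).trans_eq (by ring)
        refine le_trans (le_of_eq (congrArg abs ?_)) ((abs_sub _ _).trans (add_le_add h1 h2))
        ring) k
  rw [← hsum j0 hj0] at b1
  have b2 := S.sv_ck hs hΛ hj0 hq hqR hy0 (hDs j0 le_rfl ▸ (hE j0 le_rfl).2.1) k
  have b3 := sv_abel hj0 hi fun j => Dq (ua R) (qk k) j - S.dk k (Dq (ua R) q j)
  have hε : ∀ j ≤ j0, |Dq (ua R) (qk k) j - S.dk k (Dq (ua R) q j)| ≤
      2 * (s * (s * (err 0 + err j + av))) := fun j hj => hDs j hj ▸ (hE j hj).2.2 k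
  have b4 : (∑ j ∈ range j0, |Dq (ua R) (qk k) (j + 1) - S.dk k (Dq (ua R) q (j + 1))|) / R ≤
      2 * (s * (s * (err 0 + av + av))) := by
    refine (div_le_div_of_nonneg_right (sum_le_sum fun j hj => hε (j + 1) (mem_range.1 hj))
      (Nat.cast_nonneg _)).trans ?_
    simp only [← mul_sum, sum_add_distrib, sum_const, card_range, nsmul_eq_mul, mul_div_assoc, add_div,
      ← hav]
    have h1 : ∀ x : ℝ, 0 ≤ x → (j0 : ℝ) * (x / R) ≤ x := fun x hx => by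
      rw [← mul_div_assoc, div_le_iff₀ (by exact_mod_cast (by omega : 0 < R)), mul_comm]
      exact mul_le_mul_of_nonneg_left (by exact_mod_cast hj0.le) hx
    gcongr
    exacts [h1 _ (herr 0), h1 _ hav0]
  have e : qk k i - S.ck (ua R) q R k i = (qk k j0 - S.ck (ua R) q R k j0) +
      ∑ j ∈ Ico i j0, ((Dq (ua R) (qk k) (j + 1) - S.dk k (Dq (ua R) q (j + 1))) -
        (Dq (ua R) (qk k) j - S.dk k (Dq (ua R) q j))) / ua R j := by
    have h1 := sum_Ico_sub (qk k) hi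
    have h2 : ∑ j ∈ Ico i j0, ((Dq (ua R) (qk k) (j + 1) - S.dk k (Dq (ua R) q (j + 1))) -
        (Dq (ua R) (qk k) j - S.dk k (Dq (ua R) q j))) / ua R j =
        -∑ j ∈ Ico i j0, (qk k (j + 1) - qk k j) - ∑ j ∈ Ico i j0,
          (S.dk k (Dq (ua R) q (j + 1)) - S.dk k (Dq (ua R) q j)) / ua R j := by
      rw [← sum_neg_distrib, ← sum_sub_distrib]
      refine sum_congr rfl fun j hj => ?_
      have := sv_ua_pos (show j < R by have := mem_Ico.1 hj; omega)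
      rw [sv_Dq_succ (ua R) (qk k)]
      field_simp
      ring
    rw [h2, h1, Spec.ck, Spec.ck, ← sum_Ico_consecutive _ hi hj0.le]
    ring
  rw [e, ← hav]
  obtain ⟨E, hE'⟩ : ∃ E, E = err 0 + err i + err j0 + av := ⟨_, rfl⟩
  have hE0 : 0 ≤ E := by rw [hE']; linarith [he0 i, herr j0]
  have hX : E ≤ E / ua R j0 ^ 2 := le_div_self hE0 (by positivity) (pow_le_one₀ ha.le ha1)
  have b5 : (|Dq (ua R) (qk k) j0 - S.dk k (Dq (ua R) q j0)| + |Dq (ua R) (qk k) i - S.dk k (Dq (ua R) q i)| +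
      (∑ j ∈ range j0, |Dq (ua R) (qk k) (j + 1) - S.dk k (Dq (ua R) q (j + 1))|) / R) / ua R j0 ^ 2 ≤
      8 * (s * s) * (E / ua R j0 ^ 2) := by
    rw [← mul_div_assoc]
    refine div_le_div_of_nonneg_right
      ((add_le_add (add_le_add (hε j0 le_rfl) (hε i hi)) b4).trans ?_) (by positivity)
    have : 0 ≤ s * s * (err 0 + 3 * err i + 3 * err j0) := by
      have := herr 0
      have := herr i
      have := herr j0
      positivity
    rw [hE']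
    nlinarith
  rw [← hE']
  generalize E / ua R j0 ^ 2 = X at hX b5
  have hX0 : 0 ≤ X := hE0.trans hX
  have c1 : err 0 + err j0 + av ≤ ua R j0 + X := by linarith [herr i]
  have c2 : err j0 ≤ ua R j0 + X := by linarith [he0 i]
  have c3 : ua R j0 ≤ ua R j0 + X := by linarith
  have c4 : X ≤ ua R j0 + X := by linarith
  generalize ua R j0 + X = Y at c1 c2 c3 c4
  refine (abs_add_le _ _).trans ((add_le_add ((abs_sub_le _ _ _).trans (add_le_add b1 b2))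
    (b3.trans b5)).trans ?_)
  calc _ ≤ 2 * (s * (s * (Y + 4 * Λ * Y + 2 * Λ * (s * Y)))) + 8 * Λ * s * (s * (Y + s * (s * Y))) +
        8 * (s * s) * Y := by gcongr
    _ = _ := by ring

end Crest.Agent.R164
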