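import Crest.Agent.R164.CasIBP
import Crest.Agent.R164.Solve

/-!
# R164 / SD: approximate Schwinger–Dyson relations

Notation `a = ua R`, `Δ = 1/R`, `M_i = E i X`, `M'_i = E i Z`, `φ_{bc} = ν μ X_b Z_c + r_{bc}`.
`Low = Σ_{i'=j0+1}^{R-1} Δ Σ_{bc} EE (E i' (M_{j0,b} M'_{j0,c}) * E i' (X_b Z_c))`; each inner sum is
at most `1` in modulus (Cauchy–Schwarz), so `|Low| ≤ (R-1-j0)/R ≤ a j0`.
Fix `i ≤ j0`, `ψ_{bc} = M_{i,b} M'_{i,c}`.  `ibp` at level `lst` with `γ = 0`: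
`0 = EE ψ₀ + Ct (R-1) ψ φ`, `ψ₀ = (M'_{i,c} + Cv i X_b φ) M'_{i,c} + M_{i,b} (-M_{i,b} + Cv i Z_c φ)`
(`HasD.cond`, `HasD.mul`).  Sum over `b, c` and divide by `ν`.
* Direct terms: `(card β/ν) q^Z_i - (card β'/ν) q^X_i`.
* `Σ EE (Cv i X_b (X_b Z_c) M'_{i,c}) = EE (Y^X_0 Y^Z_i) - Σ_{i'=1}^i Δ EE (Y^X_{i'} Y^Z_i) -
  a_i EE (Y^X_i Y^Z_i)` (`Cv_abel`, towers); replace `Y^X_{i'}` by `q^X_{i'}` at cost `vX i'`
  (`|Y^Z| ≤ 1`, `EE Y^Z_i = q^Z_i`); by `Dq_eq` the main term is `D^X_i q^Z_i`.  Symmetric for `Z`.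
* `Σ Ct (R-1) ψ (X_b Z_c)`: the levels `i' ≤ i` give `a_i EE (Y^X_i Y^Z_i)`; for `i < i' ≤ j0`
  write `E i' (X_b Z_c) = M_{i',b} M'_{i',c} + Cov`, the `Cov` part is at most
  `EE √√hs ≤ k0` (`UV.sum_cov_sq_le` with `u = Z_c`, summed over `c`), the main part is
  `EE ((M_i·M_{i'}) (M'_i·M'_{i'}))` with `M_i · M_{i'} = E i Y^X_{i'}`, within `vX i'` of
  `q^X_{i'} q^Z_{i'}`; for `i' > j0`, `E j0 ψ - M_{j0,b} M'_{j0,c} = Cov j0 X_b M'_{i,c}`, so the sum
  is within `k0` of `Low` (for `j0 = 0` it is equal).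
* The `r` terms: `Cv_dep_mul_left`, `abs_EE_Cv_le`, `abs_Ct_le` and Cauchy–Schwarz over `(b,c)`:
  three terms, each at most `2 e ν`.
-/

set_option autoImplicit false

open MeasureTheory ProbabilityTheory Finset

namespace Crest.Agent.R164

section real

variable {R : ℕ} {a : ℕ → ℝ}

lemma sd_tel (a : ℕ → ℝ) {m n : ℕ} (h : m ≤ n) : ∑ j ∈ Ico m n, (a j - a (j + 1)) = a m - a n := by
  rw [sum_Ico_eq_sub _ h, sum_range_sub', sum_range_sub']
  ring

lemma sd_wsum (ha : Exps R a) (T : Finset ℕ) {B v : ℕ → ℝ} (h : ∀ j ∈ T, |B j| ≤ v j) :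
    |∑ j ∈ T, (a j - a (j + 1)) * B j| ≤ ∑ j ∈ T, (a j - a (j + 1)) * v j := by
  refine (abs_sum_le_sum_abs _ _).trans (sum_le_sum fun j hj => ?_)
  have h1 : 0 ≤ a j - a (j + 1) := sub_nonneg.2 (ha.anti (Nat.le_succ j))
  rw [abs_mul, abs_of_nonneg h1]
  exact mul_le_mul_of_nonneg_left (h j hj) h1

lemma sd_mul_le (ha : Exps R a) {i : ℕ} (hi : i ≤ R) {x v : ℝ} (h : |x| ≤ v) : |a i * x| ≤ v := by
  rw [abs_mul, abs_of_nonneg (ha.cov_nonneg hi)]
  exact (mul_le_of_le_one_left (abs_nonneg _) (ha.cov_le_one i)).trans h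

lemma sd_abel (ha : Exps R a) {i : ℕ} (hi : i ≤ R) {B v : ℕ → ℝ} (h : ∀ j ≤ i, |B j| ≤ v j) :
    |∑ j ∈ range i, a j * (B j - B (j + 1))| ≤
      v 0 + ∑ j ∈ range i, (a j - a (j + 1)) * v (j + 1) + v i := by
  rw [cov_abel, ha.zero, one_mul]
  refine (abs_sub _ _).trans (add_le_add ((abs_sub _ _).trans (add_le_add (h 0 (Nat.zero_le i)) ?_))
    (sd_mul_le ha hi (h i le_rfl)))
  exact sd_wsum ha _ (B := fun j => B (j + 1)) fun j hj => h _ (mem_range.1 hj)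

end real

section aux

variable {Y : Type} [MeasurableSpace Y] [Lev Y] {R : ℕ} {β β' ι : Type} [Fintype β] [Fintype β']
  [Fintype ι] {a : ℕ → ℝ} {H : St R Y → ℝ} {Xv : β → St R Y → ℝ} {Zv : β' → St R Y → ℝ}
  {U V : ι → St R Y → ℝ} {n i j : ℕ}

omit [Lev Y] in
lemma sd_uv (hX : UV Xv) (hZ : UV Zv) : UV fun (p : β × β') s => Xv p.1 s * Zv p.2 s := by
  refine ⟨fun p => (hX.meas _).mul (hZ.meas _), fun s => ?_⟩
  simp only [Fintype.sum_prod_type, mul_pow, ← mul_sum, ← sum_mul]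
  exact mul_le_one₀ (hX.le_one s) (sum_nonneg fun _ _ => sq_nonneg _) (hZ.le_one s)

omit [Lev Y] in
lemma sd_uv' (hX : UV Xv) (hZ : UV Zv) : UV fun (p : β × β') s => Zv p.2 s * Xv p.1 s := by
  simpa only [mul_comm (Zv _ _)] using sd_uv hX hZ

lemma sd_dot {g : St R Y → ℝ} (ha : Exps R a) (hH : ML H) (hU : UV U) (hV : ∀ p, ME (V p))
    (hg : ME g) (h0 : ∀ s, 0 ≤ g s) (h : ∀ s, ∑ p, V p s ^ 2 ≤ g s ^ 2) :
    |∑ p, EE a H fun s => U p s * V p s| ≤ EE a H g := by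
  have hm : ∀ p ∈ univ, ME fun s => U p s * V p s := fun p _ => (hU.me p).mul (hV p)
  rw [← EE_sum univ ha hH hm]
  refine (abs_EE_le ha hH (ME.sum univ hm)).trans (EE_mono ha hH (ME.sum univ hm).abs hg fun s => ?_)
  refine abs_le_of_sq_le_sq ((sum_mul_sq_le_sq_mul_sq _ _ _).trans ?_) (h0 s)
  exact (mul_le_of_le_one_left (sum_nonneg fun _ _ => sq_nonneg _) (hU.le_one s)).trans (h s)

lemma sd_cov (ha : Exps R a) (hH : ML H) (hX : UV Xv) (hZ : UV Zv) {W : β × β' → St R Y → ℝ}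
    (hW : UV W) (hn : n ≤ R) :
    |∑ p, EE a H fun s => W p s * Cov a H n (Xv p.1) (Zv p.2) s| ≤
      EE a H fun s => Real.sqrt (Real.sqrt (hs a H Xv n s)) := by
  refine sd_dot ha hH hW (fun p => (hX.me _).cov ha hH (hZ.me _) hn) (hX.me_hs ha hH hn).sqrt.sqrt
    (fun _ => Real.sqrt_nonneg _) fun s => ?_
  rw [Real.sq_sqrt (Real.sqrt_nonneg _), Fintype.sum_prod_type_right]
  refine (sum_le_sum fun c _ => hX.sum_cov_sq_le ha hH hn (hZ.me c) s).trans ?_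
  rw [← mul_sum]
  exact mul_le_of_le_one_right (Real.sqrt_nonneg _) (hZ.sum_E_sq_le ha hH hn s)

lemma sd_near {u F : St R Y → ℝ} (ha : Exps R a) (hH : ML H) (hu : ME u) (hF : ME F)
    (h1 : ∀ s, |F s| ≤ 1) (q : ℝ) :
    |EE a H (fun s => u s * F s) - q * EE a H F| ≤ EE a H fun s => |u s - q| := by
  have hm := (hu.mul hF).sub (hF.const_mul q)
  rw [← EE_const_mul, ← EE_sub ha hH (hu.mul hF) (hF.const_mul q)]
  refine (abs_EE_le ha hH hm).trans (EE_mono ha hH hm.abs (hu.sub (ME.const q)).abs fun s => ?_)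
  rw [← sub_mul, abs_mul]
  exact mul_le_of_le_one_right (abs_nonneg _) (h1 s)

lemma sd_cs {e : ℝ} (ha : Exps R a) (hH : ML H) (hU : UV U) (he : 0 ≤ e)
    (h : ∑ p, EE a H (fun s => V p s ^ 2) ≤ e ^ 2) {T : ι → ℝ}
    (hT : ∀ p, |T p| ≤ 2 * (Real.sqrt (EE a H fun s => U p s ^ 2) *
      Real.sqrt (EE a H fun s => V p s ^ 2))) : |∑ p, T p| ≤ 2 * e := by
  refine (abs_sum_le_sum_abs _ _).trans ((sum_le_sum fun p _ => hT p).trans ?_)
  rw [← mul_sum]
  refine mul_le_mul_of_nonneg_left ((Real.sum_sqrt_mul_sqrt_le _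
    (fun _ => EE_nonneg a H fun _ => sq_nonneg _) fun _ => EE_nonneg a H fun _ => sq_nonneg _).trans
    ((mul_le_of_le_one_left (Real.sqrt_nonneg _) ?_).trans (Real.sqrt_le_iff.2 ⟨he, h⟩))) zero_le_two
  rw [Real.sqrt_le_one, ← EE_sum univ ha hH fun p _ => (hU.me p).pow 2, ← EE_const ha hH 1]
  exact EE_mono ha hH (ME.sum univ fun p _ => (hU.me p).pow 2) (ME.const 1) hU.le_one

/-- `Σ_p EE (E j U_p * E j V_p)` -/
noncomputable def sdG (a : ℕ → ℝ) (H : St R Y → ℝ) (U V : ι → St R Y → ℝ) (j : ℕ) : ℝ :=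
  ∑ p, EE a H fun t => E a H j (U p) t * E a H j (V p) t

lemma sd_Cv (ha : Exps R a) (hH : ML H) (hn : n ≤ R) (hU : UV U) (hV : UV V) :
    ∑ p, EE a H (Cv a H n (U p) (V p)) =
      ∑ j ∈ range n, a j * (sdG a H U V j - sdG a H U V (j + 1)) := by
  simp only [sdG, ← sum_sub_distrib, mul_sum]
  rw [sum_comm]
  refine sum_congr rfl fun p _ => ?_
  have hm : ∀ i ≤ n, ME fun s => Bq a H n (U p) (V p) s i := fun i hi =>
    (((hU.me p).cond ha hH (hi.trans hn)).mul ((hV.me p).cond ha hH (hi.trans hn))).cond ha hH hn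
  rw [show Cv a H n (U p) (V p) = fun s => ∑ i ∈ range n,
    a i * (Bq a H n (U p) (V p) s i - Bq a H n (U p) (V p) s (i + 1)) from rfl,
    EE_sum _ ha hH fun i hi =>
      ((hm i (mem_range.1 hi).le).sub (hm (i + 1) (mem_range.1 hi))).const_mul _]
  refine sum_congr rfl fun i hi => ?_
  rw [EE_const_mul, EE_sub ha hH (hm i (mem_range.1 hi).le) (hm (i + 1) (mem_range.1 hi))]
  exact congrArg _ (congrArg₂ _ (EE_tower ha hH hn _) (EE_tower ha hH hn _))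

lemma sd_Ct (a : ℕ → ℝ) (H : St R Y → ℝ) (U V : ι → St R Y → ℝ) (l : ℕ) :
    ∑ p, Ct a H l (U p) (V p) =
      sdG a H U V 0 - ∑ j ∈ range l, (a j - a (j + 1)) * sdG a H U V (j + 1) := by
  simp only [sdG, Ct, E_zero, sum_sub_distrib, mul_sum]
  rw [sum_comm]

lemma sd_abs_G (ha : Exps R a) (hH : ML H) (hj : j ≤ R) (hU : UV U) (hV : UV V) :
    |sdG a H U V j| ≤ 1 := by
  rw [← EE_const ha hH 1]
  exact sd_dot ha hH (hU.cond ha hH hj) (hV.cond ha hH hj).me (ME.const 1) (fun _ => zero_le_one)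
    fun s => ((hV.cond ha hH hj).le_one s).trans_eq (one_pow 2).symm

lemma sd_prod (ha : Exps R a) (hH : ML H) (hX : UV Xv) (hZ : UV Zv) {M : β → St R Y → ℝ}
    {M' : β' → St R Y → ℝ} (hM : UV M) (hM' : UV M') :
    ∑ p : β × β', EE a H (fun s => M p.1 s * M' p.2 s * (Xv p.1 s * Zv p.2 s)) =
      EE a H fun s => (∑ b, Xv b s * M b s) * ∑ c, Zv c s * M' c s := by
  rw [← EE_sum univ ha hH fun p _ => ((sd_uv hM hM').me p).mul ((sd_uv hX hZ).me p)]
  refine congrArg _ (funext fun s => ?_)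
  rw [Fintype.sum_prod_type, sum_mul_sum]
  exact sum_congr rfl fun b _ => sum_congr rfl fun c _ => by ring

/-- The `Cv` terms. -/
lemma sd_A (ha : Exps R a) (hH : ML H) (hX : UV Xv) (hZ : UV Zv) (hi : i ≤ R) {v : ℕ → ℝ}
    (hv : ∀ j ≤ i, EE a H (fun s => |yo a H Xv j s - ov a H Xv j|) ≤ v j) :
    |∑ p : β × β', EE a H (Cv a H i (fun t => E a H i (Zv p.2) t * Xv p.1 t)
        fun t => Xv p.1 t * Zv p.2 t) - Dq a (ov a H Xv) i * ov a H Zv i| ≤
      v 0 + ∑ j ∈ range i, (a j - a (j + 1)) * v (j + 1) + v i := by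
  rw [sd_Cv ha hH hi (sd_uv' hX (hZ.cond ha hH hi)) (sd_uv hX hZ), Dq, sum_mul, ← sum_sub_distrib]
  refine le_trans (le_of_eq (congrArg _ (sum_congr rfl fun j _ => ?_))) (sd_abel ha hi
    (B := fun j => sdG a H (fun (p : β × β') t => E a H i (Zv p.2) t * Xv p.1 t)
      (fun p t => Xv p.1 t * Zv p.2 t) j - ov a H Xv j * ov a H Zv i) fun j hj => ?_)
  · ring
  · have hj' := hj.trans hi
    refine le_trans (le_of_eq ?_) ((sd_near ha hH (hX.me_yo ha hH hj') (hZ.me_yo ha hH hi)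
      (hZ.abs_yo_le ha hH hi) _).trans (hv j hj))
    rw [hZ.EE_yo ha hH hi]
    congr 2
    refine Eq.trans (sum_congr rfl fun p _ => ?_)
      (sd_prod ha hH hX hZ (hX.cond ha hH hj') (hZ.cond ha hH hi))
    rw [EE_tower_mul ha hH hj' (dep_E a H _ j)]
    simp only [E_dep_mul a H _ ((dep_E a H (Zv p.2) i).mono hj)]
    simp only [mul_comm (E a H i (Zv p.2) _)]

/-- Levels below `i`. -/
lemma sd_G1 (ha : Exps R a) (hH : ML H) (hX : UV Xv) (hZ : UV Zv) (hi : i ≤ R) (hj : j ≤ i) :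
    sdG a H (fun (p : β × β') t => E a H i (Xv p.1) t * E a H i (Zv p.2) t)
      (fun p t => Xv p.1 t * Zv p.2 t) j = EE a H fun s => yo a H Xv i s * yo a H Zv i s := by
  refine Eq.trans (sum_congr rfl fun p _ => ?_)
    (sd_prod ha hH hX hZ (hX.cond ha hH hi) (hZ.cond ha hH hi))
  rw [EE_tower_mul ha hH (hj.trans hi) (dep_E a H _ j)]
  simp only [E_dep ha hH (hj.trans hi) (((dep_E a H _ i).comp₂ (dep_E a H _ i) (· * ·)).mono hj)]

/-- Levels above `i`. -/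
lemma sd_G2 (ha : Exps R a) (hH : ML H) (hX : UV Xv) (hZ : UV Zv) (hi : i ≤ j) (hj : j ≤ R) :
    |sdG a H (fun (p : β × β') t => E a H i (Xv p.1) t * E a H i (Zv p.2) t)
      (fun p t => Xv p.1 t * Zv p.2 t) j - ov a H Xv j * ov a H Zv j| ≤
      EE a H (fun s => |yo a H Xv j s - ov a H Xv j|) +
        EE a H fun s => Real.sqrt (Real.sqrt (hs a H Xv j s)) := by
  have hi' := hi.trans hj
  have hψ := sd_uv (hX.cond ha hH hi') (hZ.cond ha hH hi')
  have hM := sd_uv (hX.cond ha hH hj) (hZ.cond ha hH hj)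
  have h1 := sd_cov ha hH hX hZ (hψ.cond ha hH hj) hj
  have h2 := sd_near ha hH (hX.me_yo ha hH hj) ((hZ.me_yo ha hH hj).cond ha hH hi')
    (abs_E_le_const ha hH hi' (hZ.me_yo ha hH hj).meas (hZ.abs_yo_le ha hH hj)) (ov a H Xv j)
  rw [EE_tower ha hH hi', hZ.EE_yo ha hH hj] at h2
  refine le_trans (le_of_eq ?_) ((abs_add_le _ _).trans (add_le_add h2 h1))
  congr 1
  rw [sub_add_eq_add_sub]
  congr 1
  have e1 : ∀ s, E a H i (yo a H Zv j) s = ∑ c, E a H i (Zv c) s * E a H j (Zv c) s := fun s => by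
    refine (E_sum univ ha hH hi' (fun c _ => (hZ.me c).mul ((hZ.me c).cond ha hH hj)) s).trans
      (sum_congr rfl fun c _ => ?_)
    simp only [mul_comm _ (E a H j (Zv c) _)]
    exact E_dep_mul a H _ ((dep_E a H _ j).mono hi) s
  have e2 : EE a H (fun s => yo a H Xv j s * E a H i (yo a H Zv j) s) = ∑ p : β × β', EE a H fun s =>
      E a H j (Xv p.1) s * E a H j (Zv p.2) s * (Xv p.1 s * E a H i (Zv p.2) s) := by
    rw [sd_prod ha hH hX (hZ.cond ha hH hi') (hX.cond ha hH hj) (hZ.cond ha hH hj)]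
    simp only [e1, yo]
  rw [e2, sdG, ← sum_add_distrib]
  refine sum_congr rfl fun p _ => ?_
  have hd := (dep_E a H (Xv p.1) j).comp₂ (dep_E a H (Zv p.2) j) (· * ·)
  have e3 : EE a H (fun s => E a H j (Xv p.1) s * E a H j (Zv p.2) s *
      (Xv p.1 s * E a H i (Zv p.2) s)) = EE a H fun s => E a H j (Xv p.1) s * E a H j (Zv p.2) s *
        E a H j (fun t => E a H i (Xv p.1) t * E a H i (Zv p.2) t) s := by
    rw [EE_tower_mul ha hH hj hd]
    simp only [mul_comm _ (E a H i (Zv p.2) _), ← mul_assoc]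
    exact (EE_tower_mul ha hH hi' (((dep_E a H _ i).comp₂ ((dep_E a H _ j).mono hi) (· * ·)).comp₂
      ((dep_E a H _ j).mono hi) (· * ·)) _).symm
  rw [e3, ← EE_add ha hH ((hM.me p).mul ((hψ.cond ha hH hj).me p))
    (((hψ.cond ha hH hj).me p).mul ((hX.me _).cov ha hH (hZ.me _) hj))]
  refine congrArg _ (funext fun s => ?_)
  simp only [Cov]
  ring

/-- Levels above `n`. -/
lemma sd_G3 (ha : Exps R a) (hH : ML H) (hX : UV Xv) (hZ : UV Zv) (hi : i ≤ n) (hn : n ≤ j)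
    (hj : j ≤ R) :
    |sdG a H (fun (p : β × β') t => E a H i (Xv p.1) t * E a H i (Zv p.2) t)
        (fun p t => Xv p.1 t * Zv p.2 t) j -
      sdG a H (fun (p : β × β') t => E a H n (Xv p.1) t * E a H n (Zv p.2) t)
        (fun p t => Xv p.1 t * Zv p.2 t) j| ≤
      EE a H fun s => Real.sqrt (Real.sqrt (hs a H Xv n s)) := by
  have hn' := hn.trans hj
  have hi' := hi.trans hn'
  have hψ := sd_uv (hX.cond ha hH hi') (hZ.cond ha hH hi')
  have hM := sd_uv (hX.cond ha hH hn') (hZ.cond ha hH hn')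
  have hP := (sd_uv hX hZ).cond ha hH hj
  refine le_trans (le_of_eq ?_) (sd_cov ha hH hX (hZ.cond ha hH hi') hP hn')
  rw [sdG, sdG, ← sum_sub_distrib]
  refine congrArg _ (sum_congr rfl fun p _ => ?_)
  have hd := dep_E a H (fun t => Xv p.1 t * Zv p.2 t) j
  simp only [mul_comm _ (E a H j (fun t => Xv p.1 t * Zv p.2 t) _)]
  rw [EE_tower_mul ha hH hj hd, EE_tower_mul ha hH hj hd, ← EE_tower_mul ha hH hn' (hd.mono hn),
    ← EE_sub ha hH ((hP.me p).mul ((hψ.cond ha hH hn').me p)) ((hP.me p).mul (hM.me p))]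
  refine congrArg _ (funext fun s => ?_)
  have e := E_tower_mul ha hH hn' hi (dep_E a H (Zv p.2) i) (Xv p.1) s
  simp only [mul_comm (E a H i (Zv p.2) _)] at e
  simp only [Cov, E_tower ha hH hn' hi, e]
  ring

/-- The `Ct` term. -/
lemma sd_C (ha : Exps R a) (hH : ML H) (hX : UV Xv) (hZ : UV Zv) {l : ℕ} (hi : i ≤ n) (hn : n ≤ l)
    (hl : l ≤ R) {v : ℕ → ℝ} {k0 : ℝ} (hk : 0 ≤ k0)
    (hv : ∀ j ≤ n, EE a H (fun s => |yo a H Xv j s - ov a H Xv j|) ≤ v j)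
    (hh : ∀ j ≤ n, EE a H (fun s => Real.sqrt (Real.sqrt (hs a H Xv j s))) ≤ k0) :
    |∑ p : β × β', Ct a H l (fun t => E a H i (Xv p.1) t * E a H i (Zv p.2) t)
        (fun t => Xv p.1 t * Zv p.2 t) - (a i * (ov a H Xv i * ov a H Zv i) -
        ∑ j ∈ Ico i n, (a j - a (j + 1)) * (ov a H Xv (j + 1) * ov a H Zv (j + 1)) -
        ∑ j ∈ Ico n l, (a j - a (j + 1)) *
          sdG a H (fun (p : β × β') t => E a H n (Xv p.1) t * E a H n (Zv p.2) t)
            (fun p t => Xv p.1 t * Zv p.2 t) (j + 1))| ≤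
      v i + ∑ j ∈ Ico i n, (a j - a (j + 1)) * v (j + 1) + k0 := by
  have hn' := hn.trans hl
  have hi' := hi.trans hn'
  have h1 := (sd_near ha hH (hX.me_yo ha hH hi') (hZ.me_yo ha hH hi') (hZ.abs_yo_le ha hH hi')
    _).trans (hv i hi)
  rw [hZ.EE_yo ha hH hi'] at h1
  have h2 := sd_wsum ha (Ico i n) (v := fun j => v (j + 1) + k0) fun j hj =>
    (sd_G2 ha hH hX hZ ((mem_Ico.1 hj).1.trans (Nat.le_succ j))
      ((mem_Ico.1 hj).2.trans_le hn')).trans (add_le_add (hv _ (mem_Ico.1 hj).2) (hh _ (mem_Ico.1 hj).2))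
  have h3 := sd_wsum ha (Ico n l) (v := fun _ => k0) fun j hj =>
    (sd_G3 ha hH hX hZ hi ((mem_Ico.1 hj).1.trans (Nat.le_succ j))
      ((mem_Ico.1 hj).2.trans_le hl)).trans (hh n le_rfl)
  have h4 := abs_le.1 (sd_mul_le ha hi' h1)
  rw [sd_Ct, ← sum_range_add_sum_Ico _ hn, ← sum_range_add_sum_Ico _ hi,
    sd_G1 ha hH hX hZ hi' (Nat.zero_le i),
    sum_congr rfl fun j hj => by rw [sd_G1 ha hH hX hZ hi' (mem_range.1 hj)], ← sum_mul,
    sum_range_sub', ha.zero]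
  simp only [mul_sub, mul_add, sum_add_distrib, ← sum_mul, Nat.succ_eq_add_one, sd_tel a hi,
    sd_tel a hn] at h2 h3 h4
  rw [sum_sub_distrib] at h2 h3
  have h5 := mul_le_mul_of_nonneg_right (ha.cov_le_one i) hk
  have h6 := mul_nonneg (ha.cov_nonneg hl) hk
  rw [abs_le] at h2 h3 ⊢
  constructor <;> linarith [h2.1, h2.2, h3.1, h3.2, h4.1, h4.2]

/-- Integration by parts for one pair `(b, c)`. -/
lemma sd_ibp {d : Dir Y} {l : Fin R} {x z r : St R Y → ℝ} {c : ℝ} (ha : Exps R a) (hH : ML H)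
    (hγ : ∀ y, d.γ y = 0) (hr : ME r) (hx : HasD d l x z) (hz : HasD d l z fun s => -x s)
    (hd : HasD d l H fun s => c * (x s * z s) + r s) (hi : i ≤ l) :
    EE a H (fun s => E a H i z s ^ 2) - EE a H (fun s => E a H i x s ^ 2) +
      c * (EE a H (Cv a H i (fun t => E a H i z t * x t) fun t => x t * z t) +
        EE a H (Cv a H i (fun t => E a H i x t * z t) fun t => z t * x t) +
        Ct a H l (fun t => E a H i x t * E a H i z t) fun t => x t * z t) +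
      (EE a H (Cv a H i (fun t => E a H i z t * x t) r) +
        EE a H (Cv a H i (fun t => E a H i x t * z t) r) +
        Ct a H l (fun t => E a H i x t * E a H i z t) r) = 0 := by
  have hi' : i ≤ R := hi.trans l.2.le
  have h := ibp ha hH hd ((HasD.cond ha hH hd hx hi).mul (HasD.cond ha hH hd hz hi))
  have mx := hx.me
  have mz := hz.me
  have mX := mx.cond ha hH hi'
  have mZ := mz.cond ha hH hi'
  have mP := mx.mul mz
  have e : ∀ s, (E a H i z s + Cv a H i x (fun s => c * (x s * z s) + r s) s) * E a H i z s +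
      E a H i x s * (E a H i (fun s => -x s) s + Cv a H i z (fun s => c * (x s * z s) + r s) s) =
      E a H i z s ^ 2 - E a H i x s ^ 2 +
        (c * Cv a H i (fun t => E a H i z t * x t) (fun t => x t * z t) s +
          c * Cv a H i (fun t => E a H i x t * z t) (fun t => x t * z t) s) +
        (Cv a H i (fun t => E a H i z t * x t) r s + Cv a H i (fun t => E a H i x t * z t) r s) := by
    intro s
    simp only [Cv_add_right ha hH hi' mx (mP.const_mul c) hr,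
      Cv_add_right ha hH hi' mz (mP.const_mul c) hr, Cv_const_mul_right, E_neg,
      Cv_dep_mul_left a H _ _ (dep_E a H _ i)]
    ring
  have m1 := (mZ.mul mx).cv ha hH mP hi'
  have m2 := (mX.mul mz).cv ha hH mP hi'
  have m3 := (mZ.mul mx).cv ha hH hr hi'
  have m4 := (mX.mul mz).cv ha hH hr hi'
  simp only [hγ, zero_mul, EE_const ha hH, e] at h
  rw [EE_add ha hH (((mZ.pow 2).sub (mX.pow 2)).add ((m1.const_mul c).add (m2.const_mul c)))
      (m3.add m4), EE_add ha hH m3 m4,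
    EE_add ha hH ((mZ.pow 2).sub (mX.pow 2)) ((m1.const_mul c).add (m2.const_mul c)),
    EE_sub ha hH (mZ.pow 2) (mX.pow 2), EE_add ha hH (m1.const_mul c) (m2.const_mul c),
    EE_const_mul, EE_const_mul, Ct_add_right ha hH l.2.le (mX.mul mZ) (mP.const_mul c) hr,
    Ct_const_mul_right] at h
  simp only [mul_comm (z _) (x _)]
  linarith

end aux

variable {Y : Type} [MeasurableSpace Y] [Lev Y] {R : ℕ} [NeZero R] {β β' : Type} [Fintype β]
  [Fintype β']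

theorem sd {H : St R Y → ℝ} {Xv : β → St R Y → ℝ} {Zv : β' → St R Y → ℝ} (hH : ML H) (hX : UV Xv)
    (hZ : UV Zv) (d : β → β' → Dir Y) (hγ : ∀ b c y, (d b c).γ y = 0) {ν μ e k0 : ℝ} (hν : 0 < ν)
    (he : 0 ≤ e) (hk : 0 ≤ k0) (r : β → β' → St R Y → ℝ) (hr : ∀ b c, ME (r b c))
    (hdX : ∀ b c, HasD (d b c) (lst R) (Xv b) (Zv c))
    (hdZ : ∀ b c, HasD (d b c) (lst R) (Zv c) fun s => -Xv b s)
    (hdH : ∀ b c, HasD (d b c) (lst R) H fun s => ν * μ * (Xv b s * Zv c s) + r b c s)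
    (hre : ∑ b, ∑ c, EE (ua R) H (fun s => r b c s ^ 2) ≤ (e * ν) ^ 2) {j0 : ℕ} (hj0 : j0 < R)
    (vX vZ : ℕ → ℝ)
    (hvX : ∀ i ≤ j0, EE (ua R) H (fun s => |yo (ua R) H Xv i s - ov (ua R) H Xv i|) ≤ vX i)
    (hvZ : ∀ i ≤ j0, EE (ua R) H (fun s => |yo (ua R) H Zv i s - ov (ua R) H Zv i|) ≤ vZ i)
    (hhs : ∀ i, 1 ≤ i → i ≤ j0 →
      EE (ua R) H (fun s => Real.sqrt (Real.sqrt (hs (ua R) H Xv i s))) ≤ k0) :
    ∃ Low : ℝ, |Low| ≤ ua R j0 ∧ ∀ i ≤ j0,
      |Fintype.card β / ν * ov (ua R) H Zv i - Fintype.card β' / ν * ov (ua R) H Xv i +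
          μ * (Yh (ua R) (ov (ua R) H Xv) (ov (ua R) H Zv) j0 i - Low)| ≤
        |μ| * ((vX 0 + vZ 0) + 2 * (vX i + vZ i) +
          2 * (∑ j ∈ range j0, (vX (j + 1) + vZ (j + 1))) / R + 2 * k0) + 6 * e := by
  have ha := exps_ua (Nat.pos_of_ne_zero (NeZero.ne R))
  generalize hA : ua R = a at *
  have hΔ : ∀ j, a j - a (j + 1) = 1 / R := fun j => hA ▸ ua_sub j
  have hl : j0 ≤ lst R := Nat.le_sub_one_of_lt hj0
  have hlR : (lst R : ℕ) ≤ R := (lst R).2.le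
  have hh : ∀ j ≤ j0, EE a H (fun s => Real.sqrt (Real.sqrt (hs a H Xv j s))) ≤ k0 := by
    intro j hj
    rcases Nat.eq_zero_or_pos j with rfl | h
    · simpa [hs, Cov, E_zero, EE_const ha hH] using hk
    · exact hhs j h hj
  refine ⟨∑ j ∈ Ico j0 (lst R), (a j - a (j + 1)) *
    sdG a H (fun (p : β × β') t => E a H j0 (Xv p.1) t * E a H j0 (Zv p.2) t)
      (fun p t => Xv p.1 t * Zv p.2 t) (j + 1), ?_, fun i hi => ?_⟩
  · refine (sd_wsum ha _ (v := fun _ => 1) fun j hj => sd_abs_G ha hH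
      ((mem_Ico.1 hj).2.trans_le hlR) (sd_uv (hX.cond ha hH hj0.le) (hZ.cond ha hH hj0.le))
      (sd_uv hX hZ)).trans ?_
    simp only [mul_one, sd_tel a hl]
    linarith [ha.cov_nonneg hlR]
  have hi' : i ≤ R := hi.trans hj0.le
  have hXi := hX.cond ha hH hi'
  have hZi := hZ.cond ha hH hi'
  have h0 := sum_eq_zero fun (p : β × β') (_ : p ∈ univ) => sd_ibp ha hH (hγ p.1 p.2) (hr p.1 p.2)
    (hdX p.1 p.2) (hdZ p.1 p.2) (hdH p.1 p.2) (hi.trans hl)
  have e1 : ∑ p : β × β', EE a H (fun s => E a H i (Zv p.2) s ^ 2) =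
      Fintype.card β * ov a H Zv i := by
    rw [Fintype.sum_prod_type, ov, EE_sum univ ha hH fun c _ => (hZi.me c).pow 2]
    simp
  have e2 : ∑ p : β × β', EE a H (fun s => E a H i (Xv p.1) s ^ 2) =
      Fintype.card β' * ov a H Xv i := by
    rw [Fintype.sum_prod_type_right, ov, EE_sum univ ha hH fun c _ => (hXi.me c).pow 2]
    simp
  simp only [sum_add_distrib, sum_sub_distrib, ← mul_sum, e1, e2] at h0
  have a1 := sd_A ha hH hX hZ hi' fun j hj => hvX j (hj.trans hi)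
  have a2 := sd_A ha hH hZ hX hi' fun j hj => hvZ j (hj.trans hi)
  have a3 := sd_C ha hH hX hZ hi hl hlR hk hvX hh
  rw [← (Equiv.prodComm β β').sum_comp] at a2
  simp only [Equiv.prodComm_apply, Prod.fst_swap, Prod.snd_swap] at a2
  rw [← Fintype.sum_prod_type'] at hre
  have hen := mul_nonneg he hν.le
  have r1 := sd_cs ha hH (sd_uv' hX hZi) hen hre fun p =>
    abs_EE_Cv_le ha hH hi' ((sd_uv' hX hZi).me p) (hr p.1 p.2)
  have r2 := sd_cs ha hH (sd_uv hXi hZ) hen hre fun p =>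
    abs_EE_Cv_le ha hH hi' ((sd_uv hXi hZ).me p) (hr p.1 p.2)
  have r3 := sd_cs ha hH (sd_uv hXi hZi) hen hre fun p =>
    abs_Ct_le ha hH hlR ((sd_uv hXi hZi).me p) (hr p.1 p.2)
  have b1 := (abs_add_le _ _).trans (add_le_add ((abs_add_le _ _).trans (add_le_add a1 a2)) a3)
  have b2 := (abs_add_le _ _).trans (add_le_add ((abs_add_le _ _).trans (add_le_add r1 r2)) r3)
  have pX : ∀ j ≤ j0, 0 ≤ vX j := fun j hj => (EE_nonneg a H fun _ => abs_nonneg _).trans (hvX j hj)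
  have pZ : ∀ j ≤ j0, 0 ≤ vZ j := fun j hj => (EE_nonneg a H fun _ => abs_nonneg _).trans (hvZ j hj)
  have b3 := b1.trans (show _ ≤ (vX 0 + vZ 0) + 2 * (vX i + vZ i) +
      2 * (∑ j ∈ range j0, (vX (j + 1) + vZ (j + 1))) / R + 2 * k0 by
    have c1 := sum_range_add_sum_Ico (fun j => vX (j + 1)) hi
    have c2 : ∑ j ∈ range i, vZ (j + 1) ≤ ∑ j ∈ range j0, vZ (j + 1) :=
      sum_le_sum_of_subset_of_nonneg (range_mono hi) fun j hj _ => pZ _ (mem_range.1 hj)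
    have c3 : 0 ≤ ∑ j ∈ range j0, vX (j + 1) := sum_nonneg fun j hj => pX _ (mem_range.1 hj)
    have c4 : 0 ≤ ∑ j ∈ range j0, vZ (j + 1) := sum_nonneg fun j hj => pZ _ (mem_range.1 hj)
    have c5 : (0 : ℝ) ≤ 1 / R := by positivity
    simp only [hΔ, ← mul_sum, sum_add_distrib]
    rw [div_eq_mul_one_div (2 * _) (R : ℝ)]
    have c6 := congrArg (1 / (R : ℝ) * ·) c1
    linarith [mul_le_mul_of_nonneg_left c2 c5, mul_nonneg c5 c3, mul_nonneg c5 c4, pZ i hi])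
  have b4 := mul_le_mul_of_nonneg_left b3 (abs_nonneg μ)
  have b5 := (div_le_iff₀ hν).2 (b2.trans_eq (show _ = 6 * e * ν by ring))
  rw [← abs_mul] at b4
  rw [← abs_of_pos hν, ← abs_div] at b5
  rw [← abs_neg]
  refine le_trans (le_of_eq (congrArg _ ?_)) ((abs_add_le _ _).trans (add_le_add b4 b5))
  rw [Yh]
  field_simp
  linear_combination -h0

end Crest.Agent.R164
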