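import Crest.Agent.R164.GG
import Crest.Agent.R164.SD
import Crest.Agent.R164.Model2

/-!
# R164 / STAux: auxiliary lemmas for the structure theorem
-/

set_option autoImplicit false

open MeasureTheory ProbabilityTheory Finset

namespace Crest.Agent.R164

lemma st_sqrt_le {x τ : ℝ} (hx : 0 ≤ x) (hτ : 0 < τ) : Real.sqrt x ≤ τ + x / τ := by
  rw [Real.sqrt_le_left (by positivity)]
  have h1 : τ * (x / τ) = x := by field_simp
  have h2 : 0 ≤ x / τ := by positivity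
  nlinarith

lemma st_choose {R : ℕ} {η B : ℝ} (V : ℕ → ℝ) (hV : ∀ i, 0 ≤ V i) (hη0 : 0 < η) (hη : 3 * η ≤ 1)
    (hR : 2 ≤ η * R) (hB : ∑ j ∈ range (R - 1), V (j + 1) ≤ B * R) :
    ∃ j0, 1 ≤ j0 ∧ j0 < R ∧ η ≤ ua R j0 ∧ ua R j0 ≤ 3 * η ∧ V j0 ≤ B / η := by
  have hR0 : (0 : ℝ) < R := by
    by_contra h
    have : (R : ℝ) = 0 := le_antisymm (not_lt.1 h) (Nat.cast_nonneg _)
    rw [this] at hR; linarith
  set m := ⌈η * R⌉₊ with hm
  have h1 : η * R ≤ m := Nat.le_ceil _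
  have h2 : (m : ℝ) < η * R + 1 := Nat.ceil_lt_add_one (by positivity)
  have h3 : 2 * m ≤ R := by
    have : (2 * m : ℝ) ≤ R := by nlinarith
    exact_mod_cast this
  have h4 : 1 ≤ m := by
    have : (1 : ℝ) ≤ m := by linarith
    exact_mod_cast this
  have hs : ∑ j ∈ Ico (R - 2 * m + 1) (R - m + 1), V j ≤
      ∑ _j ∈ Ico (R - 2 * m + 1) (R - m + 1), B / η := by
    have e1 : ∑ j ∈ range (R - 1), V (j + 1) = ∑ j ∈ Ico 1 R, V j := by
      rw [sum_Ico_eq_sum_range]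
      exact sum_congr rfl fun j _ => by rw [add_comm]
    have hBR : 0 ≤ B * R := (sum_nonneg fun j _ => hV _).trans hB
    have hB0 : 0 ≤ B := nonneg_of_mul_nonneg_left hBR hR0
    refine (sum_le_sum_of_subset_of_nonneg (Ico_subset_Ico (by omega) (by omega))
      fun j _ _ => hV j).trans ((e1 ▸ hB).trans ?_)
    rw [sum_const, Nat.card_Ico, show R - m + 1 - (R - 2 * m + 1) = m by omega, nsmul_eq_mul,
      ← mul_div_assoc, le_div_iff₀ hη0]
    nlinarith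
  obtain ⟨j, hj, hjV⟩ := exists_le_of_sum_le ⟨R - m, mem_Ico.2 ⟨by omega, by omega⟩⟩ hs
  obtain ⟨hj1, hj2⟩ := mem_Ico.1 hj
  have h5 : (j : ℝ) + m ≤ R := by exact_mod_cast (by omega : j + m ≤ R)
  have h6 : (R : ℝ) ≤ j + 2 * m := by exact_mod_cast (by omega : R ≤ j + 2 * m)
  have e : ua R j = (R - j) / R := by rw [ua]; field_simp
  refine ⟨j, by omega, by omega, ?_, ?_, hjV⟩
  · rw [e, le_div_iff₀ hR0]; linarith
  · rw [e, div_le_iff₀ hR0]; nlinarith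

section general

variable {Y : Type} [MeasurableSpace Y] [Lev Y] {R : ℕ} {β : Type} [Fintype β]
  {H : St R Y → ℝ} {Xv : β → St R Y → ℝ} {d : β → Dir Y} {κ : Fin R → ℝ} {e : ℝ}

/-- the fluctuation of `Y_i` -/
noncomputable def stv (H : St R Y → ℝ) (Xv : β → St R Y → ℝ) (i : ℕ) : ℝ :=
  EE (ua R) H fun s => |yo (ua R) H Xv i s - ov (ua R) H Xv i|

lemma stv_nonneg (H : St R Y → ℝ) (Xv : β → St R Y → ℝ) (i : ℕ) : 0 ≤ stv H Xv i :=
  EE_nonneg _ _ fun _ => abs_nonneg _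

lemma stv_le_sqrt (h : GGh H Xv d κ e) {i : ℕ} (hi : i ≤ R) : stv H Xv i ≤
    Real.sqrt (EE (ua R) H fun s => (yo (ua R) H Xv i s - ov (ua R) H Xv i) ^ 2) :=
  EE_abs_le_sqrt (exps_ua h.pos) h.ml
    ((h.uv.me_yo (exps_ua h.pos) h.ml hi).sub (ME.const _))

lemma stv_zero (h : GGh H Xv d κ e) : stv H Xv 0 ≤ Real.sqrt e :=
  (stv_le_sqrt h (Nat.zero_le _)).trans (Real.sqrt_le_sqrt (gg_zero h))

lemma stv_sum (h : GGh H Xv d κ e) {τ : ℝ} (hτ : 0 < τ) (he : 0 ≤ e) (hR : 2 ≤ R * τ ^ 4)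
    (he1 : 2 * e * R + Real.sqrt e ≤ τ ^ 2) :
    ∑ j ∈ range (R - 1), stv H Xv (j + 1) ≤ 5 * τ * R := by
  have ha := exps_ua h.pos
  set q := ov (ua R) H Xv with hq
  have h1 : ∀ j ∈ range (R - 1),
      stv H Xv (j + 1) ≤ 4 * τ + 2 / τ ^ 3 * (q j - q (j + 1)) := by
    intro j hj
    have hj' : j + 1 < R := by have := mem_range.1 hj; omega
    have h2 : 0 ≤ q j - q (j + 1) := sub_nonneg.2 (h.uv.ov_anti ha h.ml (Nat.le_succ j) hj'.le)
    have h3 := st_sqrt_le h2 (pow_pos hτ 2)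
    refine (stv_le_sqrt h hj'.le).trans ((Real.sqrt_le_sqrt (gg_var h hj')).trans
      ((st_sqrt_le (by positivity) hτ).trans ?_))
    have h4 : (2 * Real.sqrt (q j - q (j + 1)) + 2 * e * R + Real.sqrt e) / τ ≤
        (3 * τ ^ 2 + 2 * ((q j - q (j + 1)) / τ ^ 2)) / τ :=
      div_le_div_of_nonneg_right (by linarith) hτ.le
    have h5 : (3 * τ ^ 2 + 2 * ((q j - q (j + 1)) / τ ^ 2)) / τ =
        3 * τ + 2 / τ ^ 3 * (q j - q (j + 1)) := by field_simp
    linarith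
  refine (sum_le_sum h1).trans ?_
  rw [sum_add_distrib, sum_const, card_range, nsmul_eq_mul, ← mul_sum, sum_range_sub']
  have h2 : q 0 - q (R - 1) ≤ 1 := by
    linarith [(h.uv.ov_mem ha h.ml (Nat.zero_le R)).2, (h.uv.ov_mem ha h.ml (Nat.sub_le R 1)).1]
  have h3 : 2 / τ ^ 3 ≤ τ * R := by
    rw [div_le_iff₀ (by positivity)]
    nlinarith
  have h4 : ((R - 1 : ℕ) : ℝ) ≤ R := by exact_mod_cast Nat.sub_le R 1
  have h5 : 2 / τ ^ 3 * (q 0 - q (R - 1)) ≤ 2 / τ ^ 3 := mul_le_of_le_one_right (by positivity) h2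
  nlinarith

lemma st_hs (h : GGh H Xv d κ e) {τ η : ℝ} (hτ : 0 < τ) (hη : 0 < η)
    (he2 : 1 / R + 2 * e ≤ η * τ ^ 4) {i : ℕ} (h1 : 1 ≤ i) (hi : i < R) (hη' : η ≤ ua R i) :
    EE (ua R) H (fun s => Real.sqrt (Real.sqrt (hs (ua R) H Xv i s))) ≤ τ := by
  have ha := exps_ua h.pos
  have hm := h.uv.me_hs ha h.ml hi.le
  have h0 := fun s => (h.uv.hs_mem ha h.ml hi.le s).1
  have h2 : EE (ua R) H (hs (ua R) H Xv i) ≤ τ ^ 4 := by
    have h3 := gg_hs h h1 hi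
    have h4 := mul_le_mul_of_nonneg_right hη' (EE_nonneg (ua R) H h0)
    exact le_of_mul_le_mul_left (by linarith) hη
  refine (EE_sqrt_le ha h.ml hm.sqrt fun _ => Real.sqrt_nonneg _).trans ?_
  rw [Real.sqrt_le_left hτ.le]
  refine (EE_sqrt_le ha h.ml hm h0).trans ?_
  rw [Real.sqrt_le_left (by positivity)]
  nlinarith

lemma st_sq_dev (hR : 0 < R) (hH : ML H) (hX : UV Xv) {i : ℕ} (hi : i ≤ R) (c : ℝ) :
    EE (ua R) H (fun s => |∑ b, E (ua R) H i (Xv b) s ^ 2 - c|) ≤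
      stv H Xv i + |ov (ua R) H Xv i - c| := by
  have ha := exps_ua hR
  have hy := hX.me_yo ha hH hi
  have hd : ME fun t => yo (ua R) H Xv i t - ov (ua R) H Xv i := hy.sub (ME.const _)
  have h1 : ∀ s, ∑ b, E (ua R) H i (Xv b) s ^ 2 = E (ua R) H i (yo (ua R) H Xv i) s := by
    intro s
    have := E_sum (univ : Finset β) (Ψ := fun b t => Xv b t * E (ua R) H i (Xv b) t) ha hH hi
      (fun b _ => (hX.me b).mul ((hX.me b).cond ha hH hi)) s
    unfold yo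
    rw [this]
    refine sum_congr rfl fun b _ => ?_
    simp only [mul_comm (Xv b _)]
    rw [E_dep_mul _ _ _ (dep_E _ _ _ _), sq]
  have h2 : ∀ s, |∑ b, E (ua R) H i (Xv b) s ^ 2 - c| ≤
      E (ua R) H i (fun t => |yo (ua R) H Xv i t - ov (ua R) H Xv i|) s +
        |ov (ua R) H Xv i - c| := by
    intro s
    refine (abs_sub_le _ (ov (ua R) H Xv i) _).trans (add_le_add ?_ le_rfl)
    refine le_trans (le_of_eq ?_) (abs_E_le ha hH hi hd s)
    rw [E_sub ha hH hi hy (ME.const _), E_const ha hH hi, h1]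
  refine (EE_mono ha hH ((ME.sum _ fun b _ => ((hX.me b).cond ha hH hi).pow 2).sub
    (ME.const _)).abs ((hd.abs.cond ha hH hi).add (ME.const _)) h2).trans (le_of_eq ?_)
  rw [EE_add ha hH (hd.abs.cond ha hH hi) (ME.const _), EE_const ha hH, EE_tower ha hH hi, stv]

lemma st_term_le (hR : 0 < R) (hH : ML H) (hX : UV Xv) {i : ℕ} (hi : i ≤ R) {c : ℝ} (h0 : 0 ≤ c)
    (h1 : c ≤ 1) : EE (ua R) H (fun s => |∑ b, E (ua R) H i (Xv b) s ^ 2 - c| +
      Real.sqrt (Real.sqrt (hs (ua R) H Xv i s))) ≤ 2 := by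
  have ha := exps_ua hR
  refine (EE_mono ha hH (((ME.sum _ fun b _ => ((hX.me b).cond ha hH hi).pow 2).sub
    (ME.const _)).abs.add (hX.me_hs ha hH hi).sqrt.sqrt) (ME.const 2) fun s => ?_).trans
      (EE_const ha hH 2).le
  have h2 := (hX.cond ha hH hi).le_one s
  have h3 : 0 ≤ ∑ b, E (ua R) H i (Xv b) s ^ 2 := sum_nonneg fun _ _ => sq_nonneg _
  have h4 : |∑ b, E (ua R) H i (Xv b) s ^ 2 - c| ≤ 1 := abs_le.2 ⟨by linarith, by linarith⟩
  have h5 : Real.sqrt (Real.sqrt (hs (ua R) H Xv i s)) ≤ 1 :=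
    Real.sqrt_le_one.2 (Real.sqrt_le_one.2 (hX.hs_mem ha hH hi s).2)
  linarith

end general

section model

variable {ι κ : Type} [Fintype ι] [DecidableEq ι] [Nonempty ι] [Fintype κ] [DecidableEq κ] {R : ℕ}
  [NeZero R] {lam : κ → ℝ} {lab : ι → κ} {V : (ι → Bool) → ℝ} {hy : Fin R → ι → ℝ}
  {px : κ → Fin R → ℝ} {s e : ℝ} {H : St R (YS ι) → ℝ}

omit [DecidableEq ι] in
lemma st_sqrtN_pos : 0 < Real.sqrt (Fintype.card ι) :=
  Real.sqrt_pos.2 (by exact_mod_cast Fintype.card_pos)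

lemma st_ggh (hs : 0 < s) (he : 0 ≤ e) (hpx : ∀ k l, s ≤ px k l)
    (hH : H = Ham (fun b => lam (lab b)) V hy fun l b => px (lab b) l) (k : κ)
    (hc : ∀ l, EE (ua R) H (fun t => |pf lab k l t - EE (ua R) H (pf lab k l)|) ≤
      e * s * Fintype.card ι) :
    GGh H (Xb lab k) (fun b => dg b.1) (fun l => px k l * Real.sqrt (Fintype.card ι)) e := by
  have hN := st_sqrtN_pos (ι := ι)
  refine ⟨Nat.pos_of_ne_zero (NeZero.ne R), hH ▸ ml_Ham _ _ _ _, uv_Xb lab k,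
    fun l => mul_pos (hs.trans_le (hpx k l)) hN, fun l b c θ t => ?_, fun l b θ t => ?_,
    fun l => ?_⟩
  · simp only [Xb, xs_dg]
  · rw [hH, Ham_dg, b.2, Xb]
    field_simp
  · have e1 : ∀ t : St R (YS ι), ∑ b : {a // lab a = k}, (dg b.1).γ (t l) * Xb lab k b t =
        (Real.sqrt (Fintype.card ι))⁻¹ * pf lab k l t := by
      intro t
      rw [pf, mul_sum]
      refine sum_congr rfl fun b _ => ?_
      rw [γ_dg, Xb]
      ring
    simp only [e1]
    rw [EE_const_mul]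
    simp only [← mul_sub, abs_mul, abs_of_pos (inv_pos.2 hN)]
    rw [EE_const_mul, inv_mul_le_iff₀ hN]
    refine (hc l).trans ?_
    have h1 : Real.sqrt (Fintype.card ι) * (e * (px k l * Real.sqrt (Fintype.card ι))) =
        e * px k l * Fintype.card ι := by
      rw [show Real.sqrt (Fintype.card ι) * (e * (px k l * Real.sqrt (Fintype.card ι))) =
        e * px k l * (Real.sqrt (Fintype.card ι) * Real.sqrt (Fintype.card ι)) by ring,
        Real.mul_self_sqrt (Nat.cast_nonneg _)]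
    rw [h1]
    have := hpx k l
    gcongr

/-- the remainder in the derivative of the Hamiltonian along a rotation -/
noncomputable def str (px : Fin R → ι → ℝ) (b c : ι) (t : St R (YS ι)) : ℝ :=
  ∑ l, (px l b * ((t l).2.2 b * xs t c) - px l c * ((t l).2.2 c * xs t b))

omit [Nonempty ι] [NeZero R] in
lemma st_me_g (l : Fin R) (b : ι) : ME fun t : St R (YS ι) => (t l).2.2 b := (ml_γ (dg b) l).me

omit [Nonempty ι] in
lemma st_me_str (px : Fin R → ι → ℝ) (b c : ι) : ME (str px b c) :=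
  ME.sum _ fun l _ => (((st_me_g l b).mul (ml_xs c).me).const_mul _).sub
    (((st_me_g l c).mul (ml_xs b).me).const_mul _)

omit [Nonempty ι] in
lemma st_str_sq {px : Fin R → ι → ℝ} {B : ℝ} (h : ∀ l b, |px l b| ≤ B) (b c : ι)
    (t : St R (YS ι)) : str px b c t ^ 2 ≤
      2 * R * B ^ 2 * ∑ l, ((t l).2.2 b ^ 2 * xs t c ^ 2 + xs t b ^ 2 * (t l).2.2 c ^ 2) := by
  refine sq_sum_le_card_mul_sum_sq.trans ?_
  rw [card_univ, Fintype.card_fin, mul_sum, mul_sum]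
  refine sum_le_sum fun l _ => ?_
  have h1 : px l b ^ 2 ≤ B ^ 2 := sq_le_sq' (abs_le.1 (h l b)).1 (abs_le.1 (h l b)).2
  have h2 : px l c ^ 2 ≤ B ^ 2 := sq_le_sq' (abs_le.1 (h l c)).1 (abs_le.1 (h l c)).2
  have h3 : (px l b * ((t l).2.2 b * xs t c) - px l c * ((t l).2.2 c * xs t b)) ^ 2 ≤
      2 * B ^ 2 * ((t l).2.2 b ^ 2 * xs t c ^ 2 + xs t b ^ 2 * (t l).2.2 c ^ 2) := by
    have h4 := mul_le_mul_of_nonneg_right h1 (sq_nonneg ((t l).2.2 b * xs t c))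
    have h5 := mul_le_mul_of_nonneg_right h2 (sq_nonneg ((t l).2.2 c * xs t b))
    nlinarith [sq_nonneg (px l b * ((t l).2.2 b * xs t c) + px l c * ((t l).2.2 c * xs t b))]
  calc (R : ℝ) * (px l b * ((t l).2.2 b * xs t c) - px l c * ((t l).2.2 c * xs t b)) ^ 2
      ≤ R * (2 * B ^ 2 * ((t l).2.2 b ^ 2 * xs t c ^ 2 + xs t b ^ 2 * (t l).2.2 c ^ 2)) := by
        gcongr
    _ = _ := by ring

omit [Nonempty ι] [DecidableEq ι] in
lemma st_block_le (lab : ι → κ) (k : κ) {f : ι → ℝ} (hf : ∀ a, 0 ≤ f a) :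
    ∑ a : {a // lab a = k}, f a ≤ ∑ a, f a := by
  classical
  rw [← sum_blocks lab f]
  exact single_le_sum (f := fun k => ∑ a : {a // lab a = k}, f a)
    (fun _ _ => sum_nonneg fun _ _ => hf _) (mem_univ k)

omit [Nonempty ι] in
lemma st_str_sum {lamv : ι → ℝ} {px : Fin R → ι → ℝ} {B : ℝ} (hB : 0 ≤ B) (hB2 : B ≤ 2)
    (h : ∀ l b, |px l b| ≤ B) (lab : ι → κ) (k k' : κ) :
    ∑ b : {a // lab a = k}, ∑ c : {a // lab a = k'},
      EE (ua R) (Ham lamv V hy px) (fun t => str px b c t ^ 2) ≤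
        (10 * R * B * Fintype.card ι) ^ 2 := by
  have ha := exps_ua (Nat.pos_of_ne_zero (NeZero.ne R))
  have hH := ml_Ham lamv V hy px
  have hG : ∀ l : Fin R, ME fun t : St R (YS ι) => ∑ a, (t l).2.2 a ^ 2 :=
    fun l => ME.sum _ fun a _ => (st_me_g l a).pow 2
  have h1 : ∀ t : St R (YS ι), ∑ b : {a // lab a = k}, ∑ c : {a // lab a = k'}, str px b c t ^ 2 ≤
      4 * R * B ^ 2 * Fintype.card ι * ∑ l, ∑ a, (t l).2.2 a ^ 2 := by
    intro t
    refine (sum_le_sum fun (b : {a // lab a = k}) _ => sum_le_sum fun (c : {a // lab a = k'}) _ =>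
      st_str_sq h b.1 c.1 t).trans ?_
    simp only [← mul_sum]
    have h2 : ∑ b : {a // lab a = k}, ∑ c : {a // lab a = k'},
        ∑ l, ((t l).2.2 b ^ 2 * xs t c ^ 2 + xs t b ^ 2 * (t l).2.2 c ^ 2) ≤
        ∑ l, 2 * Fintype.card ι * ∑ a, (t l).2.2 a ^ 2 := by
      have e1 : ∀ b : {a // lab a = k}, ∑ c : {a // lab a = k'},
          ∑ l, ((t l).2.2 b ^ 2 * xs t c ^ 2 + xs t b ^ 2 * (t l).2.2 c ^ 2) =
          ∑ l, ∑ c : {a // lab a = k'},
            ((t l).2.2 b ^ 2 * xs t c ^ 2 + xs t b ^ 2 * (t l).2.2 c ^ 2) := fun b => sum_comm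
      rw [sum_congr rfl fun b _ => e1 b, sum_comm]
      refine sum_le_sum fun l _ => ?_
      simp only [sum_add_distrib, ← mul_sum, ← sum_mul]
      have hx : ∀ k, ∑ a : {a // lab a = k}, xs t a ^ 2 ≤ Fintype.card ι := fun k =>
        (st_block_le lab k (f := fun a => xs t a ^ 2) fun _ => sq_nonneg _).trans (sum_sq_xs t).le
      have hg : ∀ k, ∑ a : {a // lab a = k}, (t l).2.2 a ^ 2 ≤ ∑ a, (t l).2.2 a ^ 2 := fun k =>
        st_block_le lab k (f := fun a => (t l).2.2 a ^ 2) fun _ => sq_nonneg _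
      have h0 : 0 ≤ ∑ a, (t l).2.2 a ^ 2 := sum_nonneg fun _ _ => sq_nonneg _
      have h3 := mul_le_mul (hg k) (hx k') (sum_nonneg fun _ _ => sq_nonneg _) h0
      have h4 := mul_le_mul (hx k) (hg k') (sum_nonneg fun _ _ => sq_nonneg _) (Nat.cast_nonneg _)
      linarith
    rw [← mul_sum] at h2
    refine (mul_le_mul_of_nonneg_left h2 (by positivity)).trans (le_of_eq (by ring))
  have h3 : ∑ b : {a // lab a = k}, ∑ c : {a // lab a = k'},
      EE (ua R) (Ham lamv V hy px) (fun t => str px b c t ^ 2) =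
      EE (ua R) (Ham lamv V hy px)
        (fun t => ∑ b : {a // lab a = k}, ∑ c : {a // lab a = k'}, str px b c t ^ 2) := by
    rw [EE_sum _ ha hH fun b _ => ME.sum _ fun c _ => (st_me_str px _ _).pow 2]
    exact sum_congr rfl fun b _ => (EE_sum _ ha hH fun c _ => (st_me_str px _ _).pow 2).symm
  rw [h3]
  refine (EE_mono ha hH (ME.sum _ fun b _ => ME.sum _ fun c _ => (st_me_str px _ _).pow 2)
    ((ME.sum _ fun l _ => hG l).const_mul _) h1).trans ?_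
  rw [EE_const_mul, EE_sum _ ha hH fun l _ => hG l]
  have h4 : ∑ l : Fin R, EE (ua R) (Ham lamv V hy px) (fun t => ∑ a, (t l).2.2 a ^ 2) ≤
      R * (25 * Fintype.card ι) := by
    refine (sum_le_sum (g := fun _ => 25 * (Fintype.card ι : ℝ)) fun l _ =>
      (EE_g_sq_le ha l hB (h l)).trans ?_).trans (by simp)
    have : (1 + 2 * B) ^ 2 ≤ 25 := by nlinarith
    gcongr
  refine (mul_le_mul_of_nonneg_left h4 (by positivity)).trans (le_of_eq (by ring))

lemma st_sd (S : Spec κ) {Λ τ : ℝ} (hΛ : ∀ k, |S.lam k| ≤ Λ) (hs0 : 0 < s) (hs1 : s ≤ 1)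
    (hτ : 0 ≤ τ) (hsτ : 20 * R * s ≤ τ) (hpx : ∀ k l, s ≤ px k l ∧ px k l ≤ 2 * s)
    (hct : ∀ k, |(ct lab k : ℝ) / Fintype.card ι - S.ρ k| ≤ e)
    (hH : H = Ham (fun b => S.lam (lab b)) V hy fun l b => px (lab b) l) {j0 : ℕ} (hj0 : j0 < R)
    (W : ℕ → ℝ) (hW : ∀ k i, stv H (Xb lab k) i ≤ W i)
    (hhs : ∀ i, 1 ≤ i → i ≤ j0 →
      EE (ua R) H (fun s => Real.sqrt (Real.sqrt (hs (ua R) H (Xb lab S.k1) i s))) ≤ τ)
    {l : κ} (hl : l ≠ S.k1) : ∃ Low : ℝ, |Low| ≤ ua R j0 ∧ ∀ i ≤ j0,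
      |S.ρ S.k1 * ov (ua R) H (Xb lab l) i - S.ρ l * ov (ua R) H (Xb lab S.k1) i +
        S.mu l * (Yh (ua R) (ov (ua R) H (Xb lab S.k1)) (ov (ua R) H (Xb lab l)) j0 i - Low)| ≤
      2 * Λ * (2 * W 0 + 4 * W i + 4 * ((∑ j ∈ range j0, W (j + 1)) / R) + 2 * τ) +
        6 * τ + 2 * e := by
  have hN := st_sqrtN_pos (ι := ι)
  have hN' : (0 : ℝ) < Fintype.card ι := by exact_mod_cast Fintype.card_pos
  have ha := exps_ua (Nat.pos_of_ne_zero (NeZero.ne R))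
  have hML : ML H := hH ▸ ml_Ham _ _ _ _
  have hne : ∀ (b : {a // lab a = S.k1}) (c : {a // lab a = l}), b.1 ≠ c.1 := fun b c h =>
    hl (by rw [← c.2, ← h, b.2])
  have hW0 : ∀ i, 0 ≤ W i := fun i => (stv_nonneg _ _ _).trans (hW l i)
  obtain ⟨Low, h1, h2⟩ := sd (ν := Fintype.card ι) (μ := S.mu l) (e := τ) (k0 := τ) hML
    (uv_Xb lab S.k1) (uv_Xb lab l) (fun b c => dr (hne b c)) (fun b c y => γ_dr _ y) hN' hτ hτ
    (fun b c => str (fun l b => px (lab b) l) b c) (fun b c => st_me_str _ _ _)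
    (fun b c => ((hasD_xs_left (hne b c)).const_mul (Real.sqrt (Fintype.card ι))⁻¹).congr
      (fun t => by rw [Xb, div_eq_inv_mul]) fun t => by rw [Xb, div_eq_inv_mul])
    (fun b c => ((hasD_xs_right (hne b c)).const_mul (Real.sqrt (Fintype.card ι))⁻¹).congr
      (fun t => by rw [Xb, div_eq_inv_mul]) fun t => by rw [Xb, div_eq_inv_mul, mul_neg])
    (fun b c => by
      rw [hH]
      refine (hasD_Ham_dr (hne b c)).congr (fun _ => rfl) fun t => ?_
      rw [Xb, Xb, div_mul_div_comm, Real.mul_self_sqrt hN'.le, str, Spec.mu]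
      congr 1
      rw [b.2, c.2]
      field_simp)
    (by
      rw [hH]
      refine (st_str_sum (B := 2 * s) (by positivity) (by linarith) (fun l b => ?_) lab _ _).trans ?_
      · rw [abs_of_pos (hs0.trans_le (hpx _ _).1)]
        exact (hpx _ _).2
      · have : 10 * R * (2 * s) ≤ τ := by linarith
        gcongr)
    hj0 W W (fun i _ => hW _ i) (fun i _ => hW _ i) hhs
  refine ⟨Low, h1, fun i hi => ?_⟩
  have h3 := h2 i hi
  rw [card_block, card_block, abs_of_nonneg (S.mu_nonneg l)] at h3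
  have hi' : i ≤ R := hi.trans hj0.le
  have h4 : ∀ k k', |((ct lab k : ℝ) / Fintype.card ι - S.ρ k) * ov (ua R) H (Xb lab k') i| ≤ e := by
    intro k k'
    have h5 := (uv_Xb lab k').ov_mem ha hML hi'
    rw [abs_mul, abs_of_nonneg h5.1]
    exact (mul_le_of_le_one_right (abs_nonneg _) h5.2).trans (hct k)
  have h5 := abs_le.1 (h4 S.k1 l)
  have h6 := abs_le.1 (h4 l S.k1)
  have h7 : 0 ≤ (∑ j ∈ range j0, W (j + 1)) / R :=
    div_nonneg (sum_nonneg fun _ _ => hW0 _) (Nat.cast_nonneg _)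
  have h8 : W 0 + W 0 + 2 * (W i + W i) + 2 * (∑ j ∈ range j0, (W (j + 1) + W (j + 1))) / R +
      2 * τ = 2 * W 0 + 4 * W i + 4 * ((∑ j ∈ range j0, W (j + 1)) / R) + 2 * τ := by
    rw [sum_add_distrib]; ring
  rw [h8] at h3
  have h9 := mul_le_mul_of_nonneg_right (S.sv_mu_le hΛ l)
    (show 0 ≤ 2 * W 0 + 4 * W i + 4 * ((∑ j ∈ range j0, W (j + 1)) / R) + 2 * τ by
      have := hW0 0; have := hW0 i; positivity)
  have h10 := abs_le.1 h3
  rw [abs_le]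
  constructor <;> linarith [h10.1, h10.2, h5.1, h5.2, h6.1, h6.2]

end model

end Crest.Agent.R164
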