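import Crest.Agent.R164.GG
import Crest.Agent.R164.SD
import Crest.Agent.R164.Model2
import Crest.Agent.R164.STAux

/-!
# R164 / ST: the structure theorem

For each block `k`, `GGh H (Xb lab k) (fun b => dg b) (fun l => px k l * √N) e` holds
(`Ham_dg`, `xs_dg`; `Σ γ X = pf / √N`, and `e s N / √N ≤ e * px * √N`).  Put
`vk k 0 = √e`, `vk k (j+1) = √(2 √(q^k_j - q^k_{j+1}) + 2 e R + √e)` (`gg_zero`, `gg_var`,
`EE_abs_le_sqrt`).  By concavity `Σ_{j<R-1} vk k (j+1) / R ≤ √(2/√R + 2 e R + √e) =: ω`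
(Cauchy–Schwarz twice, `Σ (q_j - q_{j+1}) ≤ 1`).  Let `η > 0` be small, `R` large; among the
`≥ η R / 2` indices `j` with `η ≤ ua R j ≤ 2η` choose `j0 ≥ 1` with `Σ_k vk k j0 ≤ 2 K ω / η`
(`K = card κ ≤ 1/r₀`).  For `1 ≤ i ≤ j0`, `EE √√hs ≤ ((1/R + 2e)/η)^{1/4}` (`gg_hs`, `EE_sqrt_le`).
Apply `sd` to `X = Xb lab k1`, `Z = Xb lab l`, `d b c = dr (b ≠ c)`, `ν = N`, `μ = S.mu l`,
`r b c = Σ_l (px g_b x_c - px g_c x_b)` (`hasD_Ham_dr`; `Σ EE r² ≤ (C R s N)²` by Cauchy–Schwarz,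
`sum_sq_xs`, `EE_g_sq_le`); replacing `card/N` by `ρ` costs `2 e`.  Then `solve` gives
`|q^k_i - ck k i| ≤ C (2η + (…)/η²)` for `i ≤ j0`.  For (ii): `Σ_b M_b² = E i (yo i)`
(`E_dep_mul`), so `EE |Σ M² - q_i| ≤ vk k1 i`; the levels `i > j0` have total weight `≤ 2η` and
bounded terms (`0 ≤ ck k1 i ≤ 1` by `ck_k1`, `sum_dc_le`).  Choose `η`, then `R₀`, then `s₀, e`.
-/

set_option autoImplicit false

open MeasureTheory ProbabilityTheory Finset

namespace Crest.Agent.R164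

/-- The error functional of the cavity interpolation. -/
noncomputable def cavErr {Y β : Type} [MeasurableSpace Y] [Lev Y] [Fintype β] {R : ℕ} (a : ℕ → ℝ)
    (H : St R Y → ℝ) (Xv : β → St R Y → ℝ) (c : ℕ → ℝ) : ℝ :=
  EE a H (fun s => |∑ b, Xv b s ^ 2 - c 0|) +
    ∑ i ∈ range (R - 1), (a i - a (i + 1)) * EE a H fun s =>
      |∑ b, E a H (i + 1) (Xv b) s ^ 2 - c (i + 1)| + Real.sqrt (Real.sqrt (hs a H Xv (i + 1) s))

lemma st_cav {Y β : Type} [MeasurableSpace Y] [Lev Y] [Fintype β] {R : ℕ} {H : St R Y → ℝ}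
    {Xv : β → St R Y → ℝ} (hR : 0 < R) (hH : ML H) (hX : UV Xv) {c W D : ℕ → ℝ} {τ : ℝ} {j0 : ℕ}
    (hj0 : j0 < R) (hτ : 0 ≤ τ) (hc : ∀ i, 0 ≤ c i ∧ c i ≤ 1) (hW : ∀ i, stv H Xv i ≤ W i)
    (hD0 : ∀ i, 0 ≤ D i) (hD : ∀ i ≤ j0, |ov (ua R) H Xv i - c i| ≤ D i)
    (hhs : ∀ i, 1 ≤ i → i ≤ j0 →
      EE (ua R) H (fun s => Real.sqrt (Real.sqrt (hs (ua R) H Xv i s))) ≤ τ) :
    cavErr (ua R) H Xv c ≤ W 0 + D 0 + (∑ i ∈ range (R - 1), W (i + 1)) / R +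
      (∑ i ∈ range (R - 1), D (i + 1)) / R + τ + 2 * ua R j0 := by
  have ha := exps_ua hR
  have hR' : (0 : ℝ) < R := by exact_mod_cast hR
  have h0 : EE (ua R) H (fun s => |∑ b, Xv b s ^ 2 - c 0|) ≤ W 0 + D 0 := by
    have := st_sq_dev hR hH hX (Nat.zero_le R) (c 0)
    simp only [E_zero] at this
    linarith [hW 0, hD 0 (Nat.zero_le _)]
  have h1 : ∀ i ∈ range (R - 1), (ua R i - ua R (i + 1)) * EE (ua R) H (fun s =>
      |∑ b, E (ua R) H (i + 1) (Xv b) s ^ 2 - c (i + 1)| +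
        Real.sqrt (Real.sqrt (hs (ua R) H Xv (i + 1) s))) ≤
      (W (i + 1) + D (i + 1) + τ + if j0 ≤ i then 2 else 0) / R := by
    intro i hi
    have hi' : i + 1 ≤ R := by have := mem_range.1 hi; omega
    rw [ua_sub, one_div, ← div_eq_inv_mul]
    refine div_le_div_of_nonneg_right ?_ hR'.le
    split_ifs with h
    · have := (stv_nonneg H Xv (i + 1)).trans (hW _)
      linarith [st_term_le hR hH hX hi' (hc (i + 1)).1 (hc (i + 1)).2, hD0 (i + 1)]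
    · rw [EE_add ha hH ((ME.sum _ fun b _ => ((hX.me b).cond ha hH hi').pow 2).sub
        (ME.const _)).abs (hX.me_hs ha hH hi').sqrt.sqrt]
      linarith [st_sq_dev hR hH hX hi' (c (i + 1)), hW (i + 1), hD (i + 1) (by omega),
        hhs (i + 1) (by omega) (by omega)]
  have h2 : ∑ i ∈ range (R - 1), (if j0 ≤ i then (2 : ℝ) else 0) ≤ 2 * (R - j0) := by
    rw [← sum_filter, sum_const, nsmul_eq_mul, mul_comm]
    have h3 : ((range (R - 1)).filter fun i => j0 ≤ i).card ≤ R - j0 := by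
      rw [← Nat.card_Ico j0 R]
      exact card_le_card fun i hi => by
        simp only [mem_filter, mem_range, mem_Ico] at hi ⊢
        omega
    have h4 : (((range (R - 1)).filter fun i => j0 ≤ i).card : ℝ) ≤ R - j0 := by
      rw [← Nat.cast_sub hj0.le]
      exact_mod_cast h3
    linarith
  have h3 : ((R - 1 : ℕ) : ℝ) * τ ≤ R * τ :=
    mul_le_mul_of_nonneg_right (by exact_mod_cast Nat.sub_le R 1) hτ
  have h4 := sum_le_sum h1
  rw [← sum_div, sum_add_distrib, sum_add_distrib, sum_add_distrib, sum_const, card_range,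
    nsmul_eq_mul] at h4
  have h5 : (∑ i ∈ range (R - 1), W (i + 1) + ∑ i ∈ range (R - 1), D (i + 1) + ((R - 1 : ℕ) : ℝ) * τ +
      ∑ i ∈ range (R - 1), (if j0 ≤ i then (2 : ℝ) else 0)) / R ≤
      (∑ i ∈ range (R - 1), W (i + 1) + ∑ i ∈ range (R - 1), D (i + 1) + R * τ +
        2 * (R - j0)) / R := div_le_div_of_nonneg_right (by linarith) hR'.le
  have h6 : (∑ i ∈ range (R - 1), W (i + 1) + ∑ i ∈ range (R - 1), D (i + 1) + R * τ +
        2 * (R - j0)) / R = (∑ i ∈ range (R - 1), W (i + 1)) / R +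
      (∑ i ∈ range (R - 1), D (i + 1)) / R + τ + 2 * ua R j0 := by
    rw [ua]; field_simp
  rw [cavErr]
  linarith

lemma st_err {A L K η τ w0 wi wj av : ℝ} (hA : 0 ≤ A) (hL : 0 ≤ L) (hK : 0 ≤ K) (hη : 0 < η)
    (hη1 : η ≤ 1) (hτ : 0 ≤ τ) (h0 : w0 ≤ K * τ) (hj : wj ≤ 5 * K * τ / η)
    (hav : av ≤ A * τ + L * (5 * K * τ)) :
    A * τ + L * w0 + (A * τ + L * wi) + (A * τ + L * wj) + av ≤
      (4 * A + 11 * L * K) * τ / η + L * wi := by
  have h1 : τ ≤ τ / η := le_div_self hτ hη hη1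
  have h2 := mul_le_mul_of_nonneg_left h0 hL
  have h3 := mul_le_mul_of_nonneg_left hj hL
  have h4 := mul_le_mul_of_nonneg_left h1 hA
  have h5 := mul_le_mul_of_nonneg_left h1 (mul_nonneg hL hK)
  have e1 : (4 * A + 11 * L * K) * τ / η = 4 * (A * (τ / η)) + 11 * (L * K * (τ / η)) := by ring
  have e2 : L * (5 * K * τ / η) = 5 * (L * K * (τ / η)) := by ring
  linarith

lemma st_main (r₀ Λ : ℝ) (hr : 0 < r₀) (hΛ0 : 0 ≤ Λ) : ∃ M : ℝ, 0 ≤ M ∧ ∀ (R : ℕ) [NeZero R]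
    (η e : ℝ), 0 < η → 3 * η ≤ 1 → 2 ≤ R * η ^ 17 → 0 ≤ e → 4 * e * R ≤ η ^ 17 →
    ∀ (κ : Type) [Fintype κ] [DecidableEq κ] (S : Spec κ), (∀ k, r₀ ≤ S.ρ k) →
      (∀ k, |S.lam k| ≤ Λ) →
    ∀ (ι : Type) [Fintype ι] [DecidableEq ι] [Nonempty ι] (lab : ι → κ) (V : (ι → Bool) → ℝ)
      (hy : Fin R → ι → ℝ) (px : κ → Fin R → ℝ) (s : ℝ), 0 < s → 20 * R * s ≤ η ^ 4 →
      (∀ k l, s ≤ px k l ∧ px k l ≤ 2 * s) →
      (∀ k, |(ct lab k : ℝ) / Fintype.card ι - S.ρ k| ≤ e) →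
      ∀ H : St R (YS ι) → ℝ, H = Ham (fun b => S.lam (lab b)) V hy (fun l b => px (lab b) l) →
      (∀ k l, EE (ua R) H (fun t => |pf lab k l t - EE (ua R) H (pf lab k l)|) ≤
        e * s * Fintype.card ι) →
      (∀ k, |ov (ua R) H (Xb lab k) 0 - S.ck (ua R) (qt (ua R) H) R k 0| ≤ M * η) ∧
        cavErr (ua R) H (Xb lab S.k1) (S.ck (ua R) (qt (ua R) H) R S.k1) ≤ M * η := by
  obtain ⟨C, hC, hsolve⟩ := solve r₀ Λ hr
  obtain ⟨K, hK⟩ : ∃ K, K = 1 / r₀ := ⟨_, rfl⟩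
  have hK0 : 0 ≤ K := by rw [hK]; positivity
  obtain ⟨A, hA⟩ : ∃ A, A = 2 * Λ * (22 * K + 2) + 8 := ⟨_, rfl⟩
  have hA0 : 0 ≤ A := by rw [hA]; positivity
  obtain ⟨B, hB⟩ : ∃ B, B = 4 * A + 11 * (8 * Λ) * K := ⟨_, rfl⟩
  have hB0 : 0 ≤ B := by rw [hB]; positivity
  refine ⟨6 * C + 6 + (6 * K + 1 + C * (2 * B + 48 * Λ * K)), by positivity, ?_⟩
  intro R _ η e hη hη3 hR he heR κ _ _ S hρ hΛ ι _ _ _ lab V hy px s hs0 hss hpx hct H hH hpf
  have hR0 : 0 < R := Nat.pos_of_ne_zero (NeZero.ne R)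
  have hR1 : (1 : ℝ) ≤ R := by exact_mod_cast hR0
  have hR' : (0 : ℝ) < R := by linarith
  have ha := exps_ua hR0
  have hML : ML H := hH ▸ ml_Ham _ _ _ _
  have hη1 : η ≤ 1 := by linarith
  have hpow : ∀ {m n : ℕ}, m ≤ n → η ^ n ≤ η ^ m := fun h => pow_le_pow_of_le_one hη.le hη1 h
  obtain ⟨τ, hτ⟩ : ∃ τ, τ = η ^ 4 := ⟨_, rfl⟩
  have hτ0 : 0 < τ := by rw [hτ]; positivity
  have he4 : 4 * e ≤ η ^ 17 := le_trans (le_mul_of_one_le_right (by positivity) hR1) heR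
  have hse : Real.sqrt e ≤ η ^ 8 / 2 := by
    rw [Real.sqrt_le_left (by positivity)]
    have := hpow (show 16 ≤ 17 by norm_num)
    linarith [show (η ^ 8 / 2) ^ 2 = η ^ 16 / 4 by ring]
  have hG : ∀ k, GGh H (Xb lab k) (fun b => dg b.1)
      (fun l => px k l * Real.sqrt (Fintype.card ι)) e :=
    fun k => st_ggh hs0 he (fun k l => (hpx k l).1) hH k (hpf k)
  have hcard : (Fintype.card κ : ℝ) ≤ K := by
    rw [hK, le_div_iff₀ hr, ← S.ρ_sum, ← nsmul_eq_mul, ← card_univ, ← sum_const]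
    exact sum_le_sum fun k _ => hρ k
  obtain ⟨W, hWd⟩ : ∃ W : ℕ → ℝ, W = fun i => ∑ k, stv H (Xb lab k) i := ⟨_, rfl⟩
  have hW : ∀ k i, stv H (Xb lab k) i ≤ W i := fun k i => by
    rw [hWd]
    exact single_le_sum (f := fun k => stv H (Xb lab k) i) (fun _ _ => stv_nonneg _ _ _)
      (mem_univ k)
  have hWn : ∀ i, 0 ≤ W i := fun i => (stv_nonneg _ _ _).trans (hW S.k1 i)
  have hW0 : W 0 ≤ K * τ := by
    rw [hWd]
    refine (sum_le_sum (g := fun _ => τ) fun k _ => (stv_zero (hG k)).trans ?_).trans ?_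
    · have := hpow (show 4 ≤ 8 by norm_num)
      have : 0 ≤ η ^ 8 := by positivity
      linarith
    · rw [sum_const, card_univ, nsmul_eq_mul]
      gcongr
  have hWs : ∑ j ∈ range (R - 1), W (j + 1) ≤ 5 * K * τ * R := by
    simp only [hWd]
    rw [sum_comm]
    refine (sum_le_sum (g := fun _ => 5 * τ * R) fun k _ => stv_sum (hG k) hτ0 he ?_ ?_).trans ?_
    · rw [hτ, ← pow_mul]
      exact hR.trans (mul_le_mul_of_nonneg_left (hpow (by norm_num)) hR'.le)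
    · rw [hτ, ← pow_mul]
      have := hpow (show 8 ≤ 17 by norm_num)
      have : 0 ≤ η ^ 8 := by positivity
      norm_num
      linarith
    · rw [sum_const, card_univ, nsmul_eq_mul]
      refine (mul_le_mul_of_nonneg_right hcard (by positivity)).trans (le_of_eq (by ring))
  have hWa : (∑ j ∈ range (R - 1), W (j + 1)) / R ≤ 5 * K * τ := by
    rwa [div_le_iff₀ hR']
  obtain ⟨j0, hj1, hj0, hj2, hj3, hj4⟩ := st_choose W hWn hη hη3 (by
    have := mul_le_mul_of_nonneg_left (hpow (show 1 ≤ 17 by norm_num)) hR'.le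
    rw [pow_one] at this
    linarith) hWs
  have hWj : (∑ j ∈ range j0, W (j + 1)) / R ≤ 5 * K * τ :=
    le_trans (div_le_div_of_nonneg_right (sum_le_sum_of_subset_of_nonneg
      (range_subset_range.2 (by omega)) fun _ _ _ => hWn _) hR'.le) hWa
  have hhs : ∀ i, 1 ≤ i → i ≤ j0 →
      EE (ua R) H (fun s => Real.sqrt (Real.sqrt (hs (ua R) H (Xb lab S.k1) i s))) ≤ τ := by
    intro i h1 h2
    refine st_hs (hG S.k1) hτ0 hη ?_ h1 (by omega) (hj2.trans (sv_ua_anti R h2))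
    have h3 : 1 / (R : ℝ) ≤ η ^ 17 / 2 := by
      rw [div_le_iff₀ hR']
      linarith
    rw [hτ]
    linarith [show η * (η ^ 4) ^ 4 = η ^ 17 by ring]
  have heτ : e ≤ τ := by
    have := hpow (show 4 ≤ 17 by norm_num)
    linarith
  have hs1 : s ≤ 1 := by
    have h1 := hpow (show 0 ≤ 4 by norm_num)
    rw [pow_zero] at h1
    nlinarith
  have hsd : ∀ l, ∃ Low : ℝ, |Low| ≤ ua R j0 ∧ (l ≠ S.k1 → ∀ i ≤ j0,
      |S.ρ S.k1 * ov (ua R) H (Xb lab l) i - S.ρ l * ov (ua R) H (Xb lab S.k1) i +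
        S.mu l * (Yh (ua R) (ov (ua R) H (Xb lab S.k1)) (ov (ua R) H (Xb lab l)) j0 i - Low)| ≤
      A * τ + 8 * Λ * W i) := by
    intro l
    by_cases hl : l = S.k1
    · exact ⟨0, by rw [abs_zero]; linarith, fun h => absurd hl h⟩
    obtain ⟨Low, h1, h2⟩ := st_sd S hΛ hs0 hs1 hτ0.le (hτ ▸ hss) hpx hct hH hj0 W hW hhs hl
    refine ⟨Low, h1, fun _ i hi => (h2 i hi).trans ?_⟩
    have h3 := mul_le_mul_of_nonneg_left hW0 hΛ0
    have h4 := mul_le_mul_of_nonneg_left hWj hΛ0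
    rw [hA]
    linarith
  choose Low hLow1 hLow2 using hsd
  have hq := isOv_qt ha hML
  have hD := hsolve κ S hρ hΛ R j0 hj0 (fun k => ov (ua R) H (Xb lab k)) (qt (ua R) H)
    (fun k i hi => (uv_Xb lab k).ov_anti ha hML (Nat.le_succ i) hi.le)
    (fun k i hi => ((uv_Xb lab k).ov_mem ha hML hi.le).1) (fun i hi => ov_total ha hML lab hi)
    hq.zero (qt_top _ _) (fun i => A * τ + 8 * Λ * W i) Low
    (fun i => by have := hWn i; positivity) hLow1 fun l hl i hi => hLow2 l hl i hi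
  obtain ⟨D, hDd⟩ : ∃ D : ℕ → ℝ, D = fun i => C * (3 * η + (B * τ / η + 8 * Λ * W i) / η ^ 2) :=
    ⟨_, rfl⟩
  have hDn : ∀ i, 0 ≤ D i := fun i => by rw [hDd]; have := hWn i; positivity
  have hD' : ∀ k, ∀ i ≤ j0,
      |ov (ua R) H (Xb lab k) i - S.ck (ua R) (qt (ua R) H) R k i| ≤ D i := by
    intro k i hi
    refine (hD k i hi).trans ?_
    rw [hDd]
    refine mul_le_mul_of_nonneg_left (add_le_add hj3 (div_le_div₀ (by have := hWn i; positivity)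
      ?_ (by positivity) (by gcongr))) hC
    rw [hB]
    refine st_err hA0 (by positivity) hK0 hη hη1 hτ0.le hW0 hj4 ?_
    rw [sum_add_distrib, sum_const, card_range, nsmul_eq_mul, ← mul_sum, add_div,
      mul_div_assoc (8 * Λ)]
    refine add_le_add ?_ (mul_le_mul_of_nonneg_left hWj (by positivity))
    rw [div_le_iff₀ hR', mul_comm]
    exact mul_le_mul_of_nonneg_left (by exact_mod_cast hj0.le) (by positivity)
  have hτη : τ ≤ η := by
    have := hpow (show 1 ≤ 4 by norm_num)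
    rwa [pow_one, ← hτ] at this
  have e1 : B * τ / η / η ^ 2 = B * η := by rw [hτ]; field_simp
  have e2 : τ / η ^ 2 ≤ η := by
    rw [div_le_iff₀ (by positivity), hτ]
    have := hpow (show 3 ≤ 4 by norm_num)
    linarith [show η * η ^ 2 = η ^ 3 by ring]
  have e3 : ∀ w c : ℝ, 0 ≤ c → w ≤ c * τ → C * (3 * η + (B * τ / η + 8 * Λ * w) / η ^ 2) ≤
      (3 * C + C * B + 8 * c * (C * Λ)) * η := by
    intro w c hc hw
    have h1 : 8 * Λ * w / η ^ 2 ≤ 8 * Λ * c * η := by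
      calc 8 * Λ * w / η ^ 2 ≤ 8 * Λ * (c * τ) / η ^ 2 := by gcongr
        _ = 8 * Λ * c * (τ / η ^ 2) := by ring
        _ ≤ _ := by gcongr
    rw [add_div, e1]
    have := mul_le_mul_of_nonneg_left h1 hC
    linarith
  have hD0 : D 0 ≤ (3 * C + C * B + 8 * K * (C * Λ)) * η := hDd ▸ e3 _ _ hK0 hW0
  have hDs : (∑ i ∈ range (R - 1), D (i + 1)) / R ≤ (3 * C + C * B + 8 * (5 * K) * (C * Λ)) * η := by
    refine le_trans ?_ (e3 _ _ (by positivity) hWa)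
    simp only [hDd]
    have e4 : ∀ i, C * (3 * η + (B * τ / η + 8 * Λ * W (i + 1)) / η ^ 2) =
        C * (3 * η + B * τ / η / η ^ 2) + C * (8 * Λ) / η ^ 2 * W (i + 1) := fun i => by ring
    simp only [e4]
    rw [sum_add_distrib, sum_const, card_range, nsmul_eq_mul, ← mul_sum, add_div]
    have h1 : ((R - 1 : ℕ) : ℝ) * (C * (3 * η + B * τ / η / η ^ 2)) / R ≤
        C * (3 * η + B * τ / η / η ^ 2) := by
      rw [div_le_iff₀ hR', mul_comm]
      exact mul_le_mul_of_nonneg_left (by exact_mod_cast Nat.sub_le R 1) (by positivity)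
    refine (add_le_add h1 le_rfl).trans (le_of_eq (by ring))
  have hKτ : K * τ ≤ K * η := by gcongr
  have p1 : 0 ≤ C * η := by positivity
  have p2 : 0 ≤ K * η := by positivity
  have p3 : 0 ≤ C * B * η := by positivity
  have p4 : 0 ≤ K * (C * Λ) * η := by positivity
  refine ⟨fun k => (hD' k 0 (Nat.zero_le _)).trans (by linarith), ?_⟩
  refine (st_cav hR0 hML (uv_Xb lab S.k1) hj0 hτ0.le (fun i => ?_) (hW S.k1) hDn (hD' S.k1)
    hhs).trans (by linarith)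
  have h1 : ∀ j ∈ range R, 0 ≤ S.dc (ua R) (qt (ua R) H) j :=
    fun j hj => S.dc_nonneg hR0 hq (mem_range.1 hj)
  have h2 : Ico i R ⊆ range R := fun j hj => mem_range.2 (mem_Ico.1 hj).2
  have h3 := S.ρ_pos S.k1
  rw [S.ck_k1]
  refine ⟨mul_nonneg h3.le (sum_nonneg fun j hj => h1 j (h2 hj)), ?_⟩
  rw [mul_comm, ← le_div_iff₀ h3]
  exact (sum_le_sum_of_subset_of_nonneg h2 fun j hj _ => h1 j hj).trans (S.sum_dc_le hR0 hq)

theorem structure_thm (r₀ Λ ε : ℝ) (hr : 0 < r₀) (hε : 0 < ε) : ∃ R₀ : ℕ, ∀ (R : ℕ) [NeZero R],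
    R₀ ≤ R → ∃ s₀ e : ℝ, 0 < s₀ ∧ 0 < e ∧
    ∀ (κ : Type) [Fintype κ] [DecidableEq κ] (S : Spec κ), (∀ k, r₀ ≤ S.ρ k) →
      (∀ k, |S.lam k| ≤ Λ) →
    ∀ (ι : Type) [Fintype ι] [DecidableEq ι] [Nonempty ι] (lab : ι → κ) (V : (ι → Bool) → ℝ)
      (hy : Fin R → ι → ℝ) (px : κ → Fin R → ℝ) (s : ℝ), 0 < s → s ≤ s₀ →
      (∀ k l, s ≤ px k l ∧ px k l ≤ 2 * s) →
      (∀ k, |(ct lab k : ℝ) / Fintype.card ι - S.ρ k| ≤ e) →
      ∀ H : St R (YS ι) → ℝ, H = Ham (fun b => S.lam (lab b)) V hy (fun l b => px (lab b) l) →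
      (∀ k l, EE (ua R) H (fun t => |pf lab k l t - EE (ua R) H (pf lab k l)|) ≤
        e * s * Fintype.card ι) →
      (∀ k, |ov (ua R) H (Xb lab k) 0 - S.ck (ua R) (qt (ua R) H) R k 0| ≤ ε) ∧
        cavErr (ua R) H (Xb lab S.k1) (S.ck (ua R) (qt (ua R) H) R S.k1) ≤ ε := by
  obtain ⟨M, hM, h⟩ := st_main r₀ |Λ| hr (abs_nonneg _)
  obtain ⟨η, hη⟩ : ∃ η, η = min (1 / 3) (ε / (M + 1)) := ⟨_, rfl⟩
  have hη0 : 0 < η := by rw [hη]; positivity
  have hη3 : 3 * η ≤ 1 := by linarith [show η ≤ 1 / 3 from hη ▸ min_le_left _ _]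
  have hε' : M * η ≤ ε := by
    have h1 : η ≤ ε / (M + 1) := hη ▸ min_le_right _ _
    rw [le_div_iff₀ (by positivity)] at h1
    linarith
  refine ⟨⌈2 / η ^ 17⌉₊, fun R _ hR => ?_⟩
  have hR' : (0 : ℝ) < R := by exact_mod_cast Nat.pos_of_ne_zero (NeZero.ne R)
  refine ⟨η ^ 4 / (20 * R), η ^ 17 / (4 * R), by positivity, by positivity,
    fun κ _ _ S hρ hΛ ι _ _ _ lab V hy px s hs0 hs hpx hct H hH hpf => ?_⟩
  have h1 := h R η (η ^ 17 / (4 * R)) hη0 hη3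
    (by rw [← div_le_iff₀ (by positivity)]; exact Nat.ceil_le.1 hR) (by positivity)
    (le_of_eq (by field_simp)) κ S hρ (fun k => (hΛ k).trans (le_abs_self _)) ι lab V hy px s hs0
    (by rwa [le_div_iff₀ (by positivity), mul_comm] at hs) hpx hct H hH hpf
  exact ⟨fun k => (h1.1 k).trans hε', h1.2.trans hε'⟩

end Crest.Agent.R164
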