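import Crest.Agent.R164.Ch

/-!
# R164 / Spec: finite spectra and their R-transform

Everything is parametrised by `y = 1/(b - λ₁) ≥ 0`: `x = Γ y = Σ ρ_k y / (1 + μ_k y)`, `μ_k = λ₁ - λ_k`.
Key identity: `y'/(1+μ y') - y/(1+μ y) = (y' - y) / ((1+μ y)(1+μ y'))`, so with
`wt k y y' = ρ_k / ((1+μ_k y)(1+μ_k y'))`, `Γ y' - Γ y = (y' - y) Σ wt`, and `Σ wt ≥ ρ₁` (the term
`k₁`), `Σ wt ≤ 1`.  The divided difference of `En` is `psi2 y y' = Σ λ wt / Σ wt`, which is monotone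
in each variable (Chebyshev / likelihood ratio: for `y₁ ≤ y₂` the ratio `(1+μ_k y₁)/(1+μ_k y₂)` is
antitone in `μ_k`, i.e. monotone in `λ_k`; expand `Σ_k Σ_l (λ_k - λ_l)(r_k - r_l) w_k w_l ≥ 0`).
`Rh x = psi2 0 (yv x)`, `psi x = psi2 (yv x) (yv x)`.
-/

set_option autoImplicit false

open MeasureTheory ProbabilityTheory Finset Crest.ProbabilityR.InvariantGlass

namespace Crest.Agent.R164

/-- A finite spectrum with positive weights and top atom `k1`. -/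
structure Spec (κ : Type) [Fintype κ] where
  ρ : κ → ℝ
  lam : κ → ℝ
  k1 : κ
  ρ_pos : ∀ k, 0 < ρ k
  ρ_sum : ∑ k, ρ k = 1
  lam_le : ∀ k, lam k ≤ lam k1

namespace Spec
variable {κ : Type} [Fintype κ] (S : Spec κ)

/-- Gap to the top atom. -/
def mu (k : κ) : ℝ := S.lam S.k1 - S.lam k
noncomputable def Gam (y : ℝ) : ℝ := ∑ k, S.ρ k * (y / (1 + S.mu k * y))
/-- Inverse of `Gam` on `[0, ∞)`. -/
noncomputable def yv (x : ℝ) : ℝ := Function.invFunOn S.Gam (Set.Ici 0) x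
noncomputable def dk (k : κ) (x : ℝ) : ℝ := S.ρ k * (S.yv x / (1 + S.mu k * S.yv x))
noncomputable def En (x : ℝ) : ℝ := ∑ k, S.lam k * S.dk k x
noncomputable def wt (k : κ) (y y' : ℝ) : ℝ := S.ρ k / ((1 + S.mu k * y) * (1 + S.mu k * y'))
noncomputable def psi2 (y y' : ℝ) : ℝ := (∑ k, S.lam k * S.wt k y y') / ∑ k, S.wt k y y'
/-- The R-transform. -/
noncomputable def Rh (x : ℝ) : ℝ := S.psi2 0 (S.yv x)
/-- The derivative of `x R(x)`. -/
noncomputable def psi (x : ℝ) : ℝ := S.psi2 (S.yv x) (S.yv x)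
noncomputable def Lg (x : ℝ) : ℝ :=
  ∑ k, S.ρ k * Real.log (1 + S.mu k * S.yv x) + Real.log (∑ k, S.ρ k / (1 + S.mu k * S.yv x))
/-- The spectral law. -/
noncomputable def meas : Measure ℝ := ∑ k, ENNReal.ofReal (S.ρ k) • Measure.dirac (S.lam k)
/-- The spectral part of the functional. -/
noncomputable def G (p : ℝ → ℝ) : ℝ := spectralPart S.meas (S.lam S.k1) p
/-- Scaling of the spectrum. -/
def scale (t : ℝ) (ht : 0 ≤ t) : Spec κ where
  ρ := S.ρ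
  lam := fun k => t * S.lam k
  k1 := S.k1
  ρ_pos := S.ρ_pos
  ρ_sum := S.ρ_sum
  lam_le := fun k => mul_le_mul_of_nonneg_left (S.lam_le k) ht
/-- Ideal block overlaps determined by the total overlaps `q` (with `q R = 0`). -/
noncomputable def ck (a q : ℕ → ℝ) (R : ℕ) (k : κ) (i : ℕ) : ℝ :=
  ∑ j ∈ Ico i R, (S.dk k (Dq a q (j + 1)) - S.dk k (Dq a q j)) / a j
/-- Variances of the ideal cavity field. -/
noncomputable def dc (a q : ℕ → ℝ) (j : ℕ) : ℝ := (S.yv (Dq a q (j + 1)) - S.yv (Dq a q j)) / a j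
/-- Variances of the one-site field. -/
noncomputable def dv (a q : ℕ → ℝ) (j : ℕ) : ℝ := (S.Rh (Dq a q (j + 1)) - S.Rh (Dq a q j)) / a j

variable {x x' y y' Λ : ℝ}

lemma mu_nonneg (k : κ) : 0 ≤ S.mu k := sub_nonneg.2 (S.lam_le k)
lemma mu_k1 : S.mu S.k1 = 0 := sub_self _
lemma ρ_le_one (k : κ) : S.ρ k ≤ 1 :=
  S.ρ_sum ▸ single_le_sum (fun l _ => (S.ρ_pos l).le) (mem_univ k)
lemma sp_one_le_den (k : κ) (hy : 0 ≤ y) : 1 ≤ 1 + S.mu k * y :=
  le_add_of_nonneg_right (mul_nonneg (S.mu_nonneg k) hy)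
lemma sp_den_pos (k : κ) (hy : 0 ≤ y) : 0 < 1 + S.mu k * y :=
  one_pos.trans_le (S.sp_one_le_den k hy)
lemma sp_wt_pos (k : κ) (hy : 0 ≤ y) (hy' : 0 ≤ y') : 0 < S.wt k y y' :=
  div_pos (S.ρ_pos k) (mul_pos (S.sp_den_pos k hy) (S.sp_den_pos k hy'))
lemma sp_term_sub (k : κ) (hy : 0 ≤ y) (hy' : 0 ≤ y') :
    S.ρ k * (y' / (1 + S.mu k * y')) - S.ρ k * (y / (1 + S.mu k * y)) = (y' - y) * S.wt k y y' := by
  have h1 := (S.sp_den_pos k hy).ne'
  have h2 := (S.sp_den_pos k hy').ne'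
  have key : ∀ A B : ℝ, A ≠ 0 → B ≠ 0 → y' * A - y * B = y' - y →
      S.ρ k * (y' / B) - S.ρ k * (y / A) = (y' - y) * (S.ρ k / (A * B)) := by
    intro A B hA hB h
    rw [← h]
    field_simp
  exact key _ _ h1 h2 (by ring)
lemma Gam_sub (hy : 0 ≤ y) (hy' : 0 ≤ y') : S.Gam y' - S.Gam y = (y' - y) * ∑ k, S.wt k y y' := by
  rw [Gam, Gam, ← sum_sub_distrib, mul_sum]
  exact sum_congr rfl fun k _ => S.sp_term_sub k hy hy'
lemma sum_wt_mem (hy : 0 ≤ y) (hy' : 0 ≤ y') :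
    S.ρ S.k1 ≤ ∑ k, S.wt k y y' ∧ ∑ k, S.wt k y y' ≤ 1 := by
  constructor
  · refine le_trans (le_of_eq ?_)
      (single_le_sum (fun l _ => (S.sp_wt_pos l hy hy').le) (mem_univ S.k1))
    simp [wt, mu_k1]
  · rw [← S.ρ_sum]
    exact sum_le_sum fun k _ => div_le_self (S.ρ_pos k).le
      (one_le_mul_of_one_le_of_one_le (S.sp_one_le_den k hy) (S.sp_one_le_den k hy'))
lemma sp_sum_wt_pos (hy : 0 ≤ y) (hy' : 0 ≤ y') : 0 < ∑ k, S.wt k y y' :=
  (S.ρ_pos _).trans_le (S.sum_wt_mem hy hy').1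
lemma sp_Gam_zero : S.Gam 0 = 0 := by simp [Gam]
lemma sp_Gam_nonneg (hy : 0 ≤ y) : 0 ≤ S.Gam y :=
  sum_nonneg fun k _ => mul_nonneg (S.ρ_pos k).le (div_nonneg hy (S.sp_den_pos k hy).le)
lemma sp_exists (hx : 0 ≤ x) : ∃ y ∈ Set.Ici (0 : ℝ), S.Gam y = x := by
  have hρ := S.ρ_pos S.k1
  have h0 : 0 ≤ x / S.ρ S.k1 := div_nonneg hx hρ.le
  have hc : ContinuousOn S.Gam (Set.Icc 0 (x / S.ρ S.k1)) :=
    continuousOn_finsetSum _ fun k _ => continuousOn_const.mul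
      (continuousOn_id.div (by fun_prop) fun y hy => (S.sp_den_pos k hy.1).ne')
  have h1 : x ≤ S.Gam (x / S.ρ S.k1) := by
    have h2 := S.Gam_sub le_rfl h0
    rw [sp_Gam_zero, sub_zero, sub_zero] at h2
    rw [h2]
    refine le_trans (le_of_eq ?_) (mul_le_mul_of_nonneg_left (S.sum_wt_mem le_rfl h0).1 h0)
    field_simp
  obtain ⟨y, hy, e⟩ := intermediate_value_Icc h0 hc (show x ∈ Set.Icc (S.Gam 0) _ from
    ⟨by rw [sp_Gam_zero]; exact hx, h1⟩)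
  exact ⟨y, hy.1, e⟩
lemma yv_nonneg (hx : 0 ≤ x) : 0 ≤ S.yv x := Function.invFunOn_mem (S.sp_exists hx)
lemma Gam_yv (hx : 0 ≤ x) : S.Gam (S.yv x) = x := Function.invFunOn_eq (S.sp_exists hx)
lemma sp_sub (hx : 0 ≤ x) (hx' : 0 ≤ x') :
    x' - x = (S.yv x' - S.yv x) * ∑ k, S.wt k (S.yv x) (S.yv x') := by
  rw [← S.Gam_sub (S.yv_nonneg hx) (S.yv_nonneg hx'), S.Gam_yv hx, S.Gam_yv hx']
lemma yv_Gam (hy : 0 ≤ y) : S.yv (S.Gam y) = y := by
  have h0 := S.sp_Gam_nonneg hy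
  have h1 := S.Gam_sub hy (S.yv_nonneg h0)
  rw [S.Gam_yv h0, sub_self] at h1
  exact sub_eq_zero.1
    ((mul_eq_zero.1 h1.symm).resolve_right (S.sp_sum_wt_pos hy (S.yv_nonneg h0)).ne')
lemma yv_zero : S.yv 0 = 0 := by
  have := S.yv_Gam le_rfl
  rwa [sp_Gam_zero] at this
lemma yv_mono (hx : 0 ≤ x) (h : x ≤ x') : S.yv x ≤ S.yv x' := by
  have hx' := hx.trans h
  have h1 := S.sp_sub hx hx'
  have h2 := S.sp_sum_wt_pos (S.yv_nonneg hx) (S.yv_nonneg hx')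
  exact sub_nonneg.1 (nonneg_of_mul_nonneg_left (h1 ▸ sub_nonneg.2 h) h2)
lemma yv_lip (hx : 0 ≤ x) (hx' : 0 ≤ x') : |S.yv x - S.yv x'| ≤ |x - x'| / S.ρ S.k1 := by
  rw [le_div_iff₀ (S.ρ_pos _), S.sp_sub hx' hx, abs_mul,
    abs_of_pos (S.sp_sum_wt_pos (S.yv_nonneg hx') (S.yv_nonneg hx))]
  exact mul_le_mul_of_nonneg_left (S.sum_wt_mem (S.yv_nonneg hx') (S.yv_nonneg hx)).1 (abs_nonneg _)
lemma dk_k1 (x : ℝ) : S.dk S.k1 x = S.ρ S.k1 * S.yv x := by simp [dk, mu_k1]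
lemma sum_dk (hx : 0 ≤ x) : ∑ k, S.dk k x = x := S.Gam_yv hx
lemma dk_sub (hx : 0 ≤ x) (hx' : 0 ≤ x') (k : κ) : S.dk k x' - S.dk k x =
    (x' - x) * (S.wt k (S.yv x) (S.yv x') / ∑ l, S.wt l (S.yv x) (S.yv x')) := by
  have h := (S.sp_sum_wt_pos (S.yv_nonneg hx) (S.yv_nonneg hx')).ne'
  rw [dk, dk, S.sp_term_sub k (S.yv_nonneg hx) (S.yv_nonneg hx'), S.sp_sub hx hx']
  field_simp
lemma En_sub (hx : 0 ≤ x) (hx' : 0 ≤ x') :
    S.En x' - S.En x = (x' - x) * S.psi2 (S.yv x) (S.yv x') := by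
  rw [En, En, psi2, ← sum_sub_distrib, sum_div, mul_sum]
  refine sum_congr rfl fun k _ => ?_
  rw [← mul_sub, S.dk_sub hx hx']
  ring
lemma En_eq (hx : 0 ≤ x) : S.En x = x * S.Rh x := by
  have h := S.En_sub le_rfl hx
  have h0 : S.En 0 = 0 := by simp [En, dk, yv_zero]
  rwa [h0, sub_zero, sub_zero, yv_zero] at h
lemma psi2_comm (y y' : ℝ) : S.psi2 y y' = S.psi2 y' y := by
  simp only [psi2, wt, mul_comm (1 + S.mu _ * y)]
lemma sp_cheb (a w w' : κ → ℝ) : ∑ k, ∑ l, (a k - a l) * (w' k * w l - w k * w' l) =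
    2 * ((∑ k, a k * w' k) * (∑ k, w k) - (∑ k, a k * w k) * ∑ k, w' k) := by
  have : ∀ k l, (a k - a l) * (w' k * w l - w k * w' l) =
      a k * w' k * w l - a k * w k * w' l - w' k * (a l * w l) + w k * (a l * w' l) :=
    fun k l => by ring
  simp only [this, sum_add_distrib, sum_sub_distrib, ← mul_sum, ← sum_mul]
  ring
lemma psi2_mono {y'' : ℝ} (hy : 0 ≤ y) (hy' : 0 ≤ y') (h : y' ≤ y'') :
    S.psi2 y y' ≤ S.psi2 y y'' := by
  have hy'' := hy'.trans h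
  rw [psi2, psi2, div_le_div_iff₀ (S.sp_sum_wt_pos hy hy') (S.sp_sum_wt_pos hy hy'')]
  have h1 := sp_cheb S.lam (fun k => S.wt k y y') fun k => S.wt k y y''
  have h2 : 0 ≤ ∑ k, ∑ l, (S.lam k - S.lam l) *
      (S.wt k y y'' * S.wt l y y' - S.wt k y y' * S.wt l y y'') := by
    refine sum_nonneg fun k _ => sum_nonneg fun l _ => ?_
    have a1 := S.sp_den_pos k hy
    have a2 := S.sp_den_pos k hy'
    have a3 := S.sp_den_pos k hy''
    have b1 := S.sp_den_pos l hy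
    have b2 := S.sp_den_pos l hy'
    have b3 := S.sp_den_pos l hy''
    have e : S.wt k y y'' * S.wt l y y' - S.wt k y y' * S.wt l y y'' =
        (S.mu l - S.mu k) * ((y'' - y') * (S.ρ k * S.ρ l) / ((1 + S.mu k * y) * (1 + S.mu k * y') *
          (1 + S.mu k * y'') * ((1 + S.mu l * y) * (1 + S.mu l * y') * (1 + S.mu l * y'')))) := by
      have key : ∀ A1 A2 A3 B1 B2 B3 c : ℝ, 0 < A1 → 0 < A2 → 0 < A3 → 0 < B1 → 0 < B2 → 0 < B3 →
          A2 * B3 - A3 * B2 = c * (y'' - y') →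
          S.ρ k / (A1 * A3) * (S.ρ l / (B1 * B2)) - S.ρ k / (A1 * A2) * (S.ρ l / (B1 * B3)) =
            c * ((y'' - y') * (S.ρ k * S.ρ l) / (A1 * A2 * A3 * (B1 * B2 * B3))) := by
        intro A1 A2 A3 B1 B2 B3 c _ _ _ _ _ _ h
        rw [← mul_div_assoc c, ← mul_assoc c, ← h]
        field_simp
      exact key _ _ _ _ _ _ _ a1 a2 a3 b1 b2 b3 (by ring)
    have e' : S.mu l - S.mu k = S.lam k - S.lam l := by unfold mu; ring
    rw [e, e', ← mul_assoc]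
    have := S.ρ_pos k
    have := S.ρ_pos l
    have := sub_nonneg.2 h
    exact mul_nonneg (mul_self_nonneg _) (by positivity)
  linarith
lemma abs_psi2_le (hΛ : ∀ k, |S.lam k| ≤ Λ) (hy : 0 ≤ y) (hy' : 0 ≤ y') : |S.psi2 y y'| ≤ Λ := by
  have h := S.sp_sum_wt_pos hy hy'
  rw [psi2, abs_div, abs_of_pos h, div_le_iff₀ h, mul_sum]
  refine (abs_sum_le_sum_abs _ _).trans (sum_le_sum fun k _ => ?_)
  rw [abs_mul, abs_of_pos (S.sp_wt_pos k hy hy')]
  exact mul_le_mul_of_nonneg_right (hΛ k) (S.sp_wt_pos k hy hy').le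
lemma sp_wt_sub {y'' : ℝ} (hΛ : ∀ k, |S.lam k| ≤ Λ) (hy : 0 ≤ y) (hy' : 0 ≤ y') (hy'' : 0 ≤ y'')
    (k : κ) : |S.wt k y y' - S.wt k y y''| ≤ S.ρ k * (2 * Λ * |y' - y''|) := by
  have a1 := S.sp_den_pos k hy
  have a2 := S.sp_den_pos k hy'
  have a3 := S.sp_den_pos k hy''
  have e : S.wt k y y' - S.wt k y y'' = S.ρ k * (S.mu k * (y'' - y')) /
      ((1 + S.mu k * y) * (1 + S.mu k * y') * (1 + S.mu k * y'')) := by
    unfold wt
    field_simp
    ring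
  have hμ : S.mu k ≤ 2 * Λ := by
    unfold mu
    linarith [(abs_le.1 (hΛ k)).1, (abs_le.1 (hΛ S.k1)).2]
  rw [e, abs_div, abs_mul, abs_mul, abs_of_pos (S.ρ_pos k), abs_of_nonneg (S.mu_nonneg k),
    abs_of_pos (mul_pos (mul_pos a1 a2) a3), abs_sub_comm]
  refine (div_le_self (mul_nonneg (S.ρ_pos k).le (mul_nonneg (S.mu_nonneg k) (abs_nonneg _)))
    (one_le_mul_of_one_le_of_one_le (one_le_mul_of_one_le_of_one_le (S.sp_one_le_den k hy)
      (S.sp_one_le_den k hy')) (S.sp_one_le_den k hy''))).trans ?_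
  exact mul_le_mul_of_nonneg_left (mul_le_mul_of_nonneg_right hμ (abs_nonneg _)) (S.ρ_pos k).le
/-- The normalised weights are Lipschitz (`μ ≤ 2Λ`, `|wt y y' - wt y y''| ≤ ρ μ |y' - y''|`). -/
lemma wt_lip {y'' : ℝ} (hΛ : ∀ k, |S.lam k| ≤ Λ) (hy : 0 ≤ y) (hy' : 0 ≤ y') (hy'' : 0 ≤ y'') :
    ∑ k, |S.wt k y y' / ∑ l, S.wt l y y' - S.wt k y y'' / ∑ l, S.wt l y y''| ≤
      4 * Λ / S.ρ S.k1 * |y' - y''| := by
  have hW := S.sp_sum_wt_pos hy hy'
  have hW' := S.sp_sum_wt_pos hy hy''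
  have hΛ0 : 0 ≤ Λ := (abs_nonneg _).trans (hΛ S.k1)
  have hD : ∑ k, |S.wt k y y' - S.wt k y y''| ≤ 2 * Λ * |y' - y''| := by
    refine (sum_le_sum fun k _ => S.sp_wt_sub hΛ hy hy' hy'' k).trans (le_of_eq ?_)
    rw [← sum_mul, S.ρ_sum, one_mul]
  have hD' : |∑ l, S.wt l y y'' - ∑ l, S.wt l y y'| ≤ 2 * Λ * |y' - y''| := by
    rw [abs_sub_comm, ← sum_sub_distrib]
    exact (abs_sum_le_sum_abs _ _).trans hD
  have hρ := (S.sum_wt_mem hy hy').1
  have hsum : ∑ k, S.wt k y y'' / ∑ l, S.wt l y y'' = 1 := by rw [← sum_div, div_self hW'.ne']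
  generalize ∑ l, S.wt l y y' = W at hW hD' hρ ⊢
  generalize ∑ l, S.wt l y y'' = W' at hW' hD' hsum ⊢
  have h1 : ∀ k, |S.wt k y y' / W - S.wt k y y'' / W'| ≤
      |S.wt k y y' - S.wt k y y''| / W + S.wt k y y'' / W' * (|W' - W| / W) := by
    intro k
    have e : S.wt k y y' / W - S.wt k y y'' / W' =
        (S.wt k y y' - S.wt k y y'') / W + S.wt k y y'' / W' * ((W' - W) / W) := by
      field_simp
      ring
    rw [e]
    refine (abs_add_le _ _).trans (le_of_eq ?_)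
    rw [abs_div, abs_mul, abs_div (W' - W), abs_of_pos hW,
      abs_of_pos (div_pos (S.sp_wt_pos k hy hy'') hW')]
  refine (sum_le_sum fun k _ => h1 k).trans ?_
  rw [sum_add_distrib, ← sum_div, ← sum_mul, hsum, one_mul, ← add_div, div_mul_eq_mul_div]
  exact div_le_div₀ (by positivity) (by linarith) (S.ρ_pos _) hρ
lemma sp_psi2_lip {y'' : ℝ} (hΛ : ∀ k, |S.lam k| ≤ Λ) (hy : 0 ≤ y) (hy' : 0 ≤ y') (hy'' : 0 ≤ y'') :
    |S.psi2 y y' - S.psi2 y y''| ≤ 4 * Λ ^ 2 / S.ρ S.k1 * |y' - y''| := by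
  have hΛ0 : 0 ≤ Λ := (abs_nonneg _).trans (hΛ S.k1)
  have h := mul_le_mul_of_nonneg_left (S.wt_lip hΛ hy hy' hy'') hΛ0
  rw [psi2, psi2, sum_div, sum_div, ← sum_sub_distrib]
  refine (abs_sum_le_sum_abs _ _).trans (le_trans ?_ (h.trans (le_of_eq (by ring))))
  rw [mul_sum]
  refine sum_le_sum fun k _ => ?_
  rw [mul_div_assoc, mul_div_assoc, ← mul_sub, abs_mul]
  exact mul_le_mul_of_nonneg_right (hΛ k) (abs_nonneg _)
lemma sp_psi2_yv_lip (hΛ : ∀ k, |S.lam k| ≤ Λ) (hy : 0 ≤ y) (hx : 0 ≤ x) (hx' : 0 ≤ x') :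
    |S.psi2 y (S.yv x) - S.psi2 y (S.yv x')| ≤ 4 * Λ ^ 2 / S.ρ S.k1 ^ 2 * |x - x'| := by
  have hρ := S.ρ_pos S.k1
  refine (S.sp_psi2_lip hΛ hy (S.yv_nonneg hx) (S.yv_nonneg hx')).trans
    ((mul_le_mul_of_nonneg_left (S.yv_lip hx hx') (by positivity)).trans (le_of_eq ?_))
  field_simp
lemma Rh_mono (hx : 0 ≤ x) (h : x ≤ x') : S.Rh x ≤ S.Rh x' :=
  S.psi2_mono le_rfl (S.yv_nonneg hx) (S.yv_mono hx h)
lemma Rh_lip (hΛ : ∀ k, |S.lam k| ≤ Λ) (hx : 0 ≤ x) (hx' : 0 ≤ x') :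
    |S.Rh x - S.Rh x'| ≤ 4 * Λ ^ 2 / S.ρ S.k1 ^ 2 * |x - x'| :=
  S.sp_psi2_yv_lip hΛ le_rfl hx hx'
lemma psi_mono (hx : 0 ≤ x) (h : x ≤ x') : S.psi x ≤ S.psi x' := by
  refine (S.psi2_mono (S.yv_nonneg hx) (S.yv_nonneg hx) (S.yv_mono hx h)).trans ?_
  rw [psi2_comm]
  exact S.psi2_mono (S.yv_nonneg (hx.trans h)) (S.yv_nonneg hx) (S.yv_mono hx h)
lemma psi_lip (hΛ : ∀ k, |S.lam k| ≤ Λ) (hx : 0 ≤ x) (hx' : 0 ≤ x') :
    |S.psi x - S.psi x'| ≤ 8 * Λ ^ 2 / S.ρ S.k1 ^ 2 * |x - x'| := by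
  have h1 := S.sp_psi2_yv_lip hΛ (S.yv_nonneg hx) hx hx'
  have h2 := S.sp_psi2_yv_lip hΛ (S.yv_nonneg hx') hx hx'
  rw [S.psi2_comm (S.yv x') (S.yv x)] at h2
  refine (abs_sub_le _ (S.psi2 (S.yv x) (S.yv x')) _).trans ((add_le_add h1 h2).trans (le_of_eq ?_))
  ring
lemma Rh_zero : S.Rh 0 = ∑ k, S.ρ k * S.lam k := by
  simp [Rh, psi2, wt, yv_zero, S.ρ_sum, mul_comm]
lemma Lg_zero : S.Lg 0 = 0 := by
  simp [Lg, yv_zero, S.ρ_sum]
/-- `Rh x = λ₁ - (Σ ρ μ/(1+μ y)) / (Σ ρ/(1+μ y))`. -/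
lemma Rh_eq (hx : 0 ≤ x) : S.Rh x = S.lam S.k1 -
    (∑ k, S.ρ k * S.mu k / (1 + S.mu k * S.yv x)) / ∑ k, S.ρ k / (1 + S.mu k * S.yv x) := by
  have h := S.sp_sum_wt_pos le_rfl (S.yv_nonneg hx)
  have e : ∀ k, S.wt k 0 (S.yv x) = S.ρ k / (1 + S.mu k * S.yv x) := fun k => by simp [wt]
  rw [Rh, psi2]
  simp only [e] at h ⊢
  rw [eq_sub_iff_add_eq, ← add_div, div_eq_iff h.ne', mul_sum, ← sum_add_distrib]
  refine sum_congr rfl fun k _ => ?_
  have : S.lam S.k1 = S.lam k + S.mu k := by unfold mu; ring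
  rw [this]
  ring

section FTC

private lemma one_add_pos (k : κ) (hy : 0 ≤ y) : 0 < 1 + S.mu k * y := by
  have := mul_nonneg (S.mu_nonneg k) hy
  linarith

private lemma hasDerivAt_of_sub {f g : ℝ → ℝ} {x : ℝ} (hx : 0 < x)
    (h : ∀ x', 0 ≤ x' → f x' - f x = (x' - x) * g x') (hg : ContinuousAt g x) :
    HasDerivAt f (g x) x := by
  rw [hasDerivAt_iff_tendsto_slope]
  have h1 : Filter.Tendsto g (nhdsWithin x {x}ᶜ) (nhds (g x)) :=
    hg.tendsto.mono_left nhdsWithin_le_nhds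
  refine h1.congr' ?_
  have h2 : ∀ᶠ x' in nhdsWithin x {x}ᶜ, 0 < x' :=
    (lt_mem_nhds hx).filter_mono nhdsWithin_le_nhds
  filter_upwards [h2, self_mem_nhdsWithin] with x' h3 h4
  have h5 : x' - x ≠ 0 := sub_ne_zero.2 h4
  rw [slope_def_field, h x' h3.le]
  field_simp

private lemma yv_contOn : ContinuousOn S.yv (Set.Ici 0) := by
  have hρ := S.ρ_pos S.k1
  have : LipschitzOnWith (Real.toNNReal (1 / S.ρ S.k1)) S.yv (Set.Ici 0) := by
    refine LipschitzOnWith.of_dist_le' fun a ha b hb => ?_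
    rw [Real.dist_eq, Real.dist_eq]
    have := S.yv_lip ha hb
    calc |S.yv a - S.yv b| ≤ |a - b| / S.ρ S.k1 := this
      _ = 1 / S.ρ S.k1 * |a - b| := by ring
  exact this.continuousOn

private lemma yv_contAt (hx : 0 < x) : ContinuousAt S.yv x :=
  S.yv_contOn.continuousAt (Ici_mem_nhds hx)

private lemma sum_wt_pos (hy : 0 ≤ y) (hy' : 0 ≤ y') : 0 < ∑ k, S.wt k y y' :=
  lt_of_lt_of_le (S.ρ_pos _) (S.sum_wt_mem hy hy').1

private lemma hasDerivAt_yv (hx : 0 < x) :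
    HasDerivAt S.yv (∑ k, S.wt k (S.yv x) (S.yv x))⁻¹ x := by
  have hy := S.yv_nonneg hx.le
  refine hasDerivAt_of_sub (g := fun x' => (∑ k, S.wt k (S.yv x) (S.yv x'))⁻¹) hx ?_ ?_
  · intro x' hx'
    have hy' := S.yv_nonneg hx'
    have h1 := S.Gam_sub hy hy'
    rw [S.Gam_yv hx.le, S.Gam_yv hx'] at h1
    have h2 := S.sum_wt_pos hy hy'
    rw [h1]
    field_simp
  · refine ContinuousAt.inv₀ ?_ (S.sum_wt_pos hy hy).ne'
    refine tendsto_finsetSum _ fun k _ => ?_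
    have h3 : ContinuousAt (fun y' => S.wt k (S.yv x) y') (S.yv x) := by
      unfold wt
      refine ContinuousAt.div continuousAt_const (by fun_prop) ?_
      exact (mul_pos (S.one_add_pos k hy) (S.one_add_pos k hy)).ne'
    exact (h3.comp (S.yv_contAt hx)).tendsto

private lemma hasDerivAt_F (hy : 0 ≤ y) :
    HasDerivAt (fun y => ∑ k, S.lam k * (S.ρ k * (y / (1 + S.mu k * y))))
      (∑ k, S.lam k * S.wt k y y) y := by
  refine HasDerivAt.fun_sum fun k _ => ?_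
  have h0 := S.one_add_pos k hy
  have h1 : HasDerivAt (fun y => 1 + S.mu k * y) (S.mu k) y := by
    simpa using ((hasDerivAt_id y).const_mul (S.mu k)).const_add 1
  have h2 := (((hasDerivAt_id y).div h1 h0.ne').const_mul (S.ρ k)).const_mul (S.lam k)
  refine HasDerivAt.congr_deriv h2 ?_
  simp only [wt, id]
  field_simp
  ring

private lemma sum_div_pos (hy : 0 ≤ y) : 0 < ∑ k, S.ρ k / (1 + S.mu k * y) :=
  Finset.sum_pos (fun k _ => div_pos (S.ρ_pos k) (S.one_add_pos k hy)) ⟨S.k1, Finset.mem_univ _⟩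

private lemma hasDerivAt_L (hy : 0 ≤ y) :
    HasDerivAt (fun y => ∑ k, S.ρ k * Real.log (1 + S.mu k * y) +
        Real.log (∑ k, S.ρ k / (1 + S.mu k * y)))
      (∑ k, S.ρ k * S.mu k / (1 + S.mu k * y) +
        (∑ k, -(S.mu k * S.wt k y y)) / ∑ k, S.ρ k / (1 + S.mu k * y)) y := by
  have h1 : ∀ k, HasDerivAt (fun y => 1 + S.mu k * y) (S.mu k) y := fun k => by
    simpa using ((hasDerivAt_id y).const_mul (S.mu k)).const_add 1
  refine HasDerivAt.add (HasDerivAt.fun_sum fun k _ => ?_) (HasDerivAt.log ?_ (S.sum_div_pos hy).ne')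
  · have h2 := ((h1 k).log (S.one_add_pos k hy).ne').const_mul (S.ρ k)
    refine HasDerivAt.congr_deriv h2 ?_
    ring
  · refine HasDerivAt.fun_sum fun k _ => ?_
    have h0 := S.one_add_pos k hy
    have h2 := (hasDerivAt_const y (S.ρ k)).div (h1 k) h0.ne'
    refine HasDerivAt.congr_deriv h2 ?_
    simp only [wt]
    field_simp
    ring

private lemma En_contOn : ContinuousOn S.En (Set.Ici 0) := fun x hx =>
  ContinuousAt.comp_continuousWithinAt (f := S.yv)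
    (S.hasDerivAt_F (S.yv_nonneg hx)).continuousAt (S.yv_contOn x hx)

private lemma Lg_contOn : ContinuousOn S.Lg (Set.Ici 0) := fun x hx =>
  ContinuousAt.comp_continuousWithinAt (f := S.yv)
    (S.hasDerivAt_L (S.yv_nonneg hx)).continuousAt (S.yv_contOn x hx)

private lemma hasDerivAt_En (hx : 0 < x) : HasDerivAt S.En (S.psi x) x := by
  have h := (S.hasDerivAt_F (S.yv_nonneg hx.le)).comp x (S.hasDerivAt_yv hx)
  rw [← div_eq_mul_inv] at h
  exact h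

private lemma hasDerivAt_En_sub_Lg (hx : 0 < x) :
    HasDerivAt (fun u => S.En u - S.Lg u) (S.Rh x) x := by
  have hy := S.yv_nonneg hx.le
  have h := ((S.hasDerivAt_F hy).sub (S.hasDerivAt_L hy)).comp x (S.hasDerivAt_yv hx)
  refine HasDerivAt.congr_deriv h ?_
  rw [S.Rh_eq hx.le]
  have hW := S.sum_wt_pos hy hy
  have hγ := S.sum_div_pos hy
  generalize S.yv x = y at hy hW hγ ⊢
  have e1 : ∑ k, S.lam k * S.wt k y y =
      S.lam S.k1 * ∑ k, S.wt k y y - ∑ k, S.mu k * S.wt k y y := by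
    rw [Finset.mul_sum, ← Finset.sum_sub_distrib]
    refine Finset.sum_congr rfl fun k _ => ?_
    unfold mu; ring
  have e2 : ∑ k, S.ρ k / (1 + S.mu k * y) = ∑ k, S.wt k y y + y * ∑ k, S.mu k * S.wt k y y := by
    rw [Finset.mul_sum, ← Finset.sum_add_distrib]
    refine Finset.sum_congr rfl fun k _ => ?_
    have h0 := S.one_add_pos k hy
    simp only [wt]
    field_simp
  have e3 : (∑ k, S.ρ k * S.mu k / (1 + S.mu k * y)) * y = 1 - ∑ k, S.ρ k / (1 + S.mu k * y) := by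
    rw [eq_sub_iff_add_eq, Finset.sum_mul, ← Finset.sum_add_distrib]
    refine Eq.trans ?_ S.ρ_sum
    refine Finset.sum_congr rfl fun k _ => ?_
    have h0 := S.one_add_pos k hy
    field_simp
    ring
  rw [e1, Finset.sum_neg_distrib]
  generalize ∑ k, S.ρ k / (1 + S.mu k * y) = γ at *
  generalize ∑ k, S.ρ k * S.mu k / (1 + S.mu k * y) = A at *
  generalize ∑ k, S.mu k * S.wt k y y = B at *
  generalize ∑ k, S.wt k y y = W at *
  field_simp
  linear_combination -A * e2 - B * e3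

end FTC

/-- Fundamental theorem of calculus: `En` is continuous on `[0,∞)` with derivative `psi` on `(0,∞)`
(`En_sub` and continuity of `psi2 (yv x) (yv ·)`). -/
lemma integral_psi (hx : 0 ≤ x) (h : x ≤ x') : ∫ u in x..x', S.psi u = S.En x' - S.En x := by
  refine intervalIntegral.integral_eq_sub_of_hasDerivAt_of_le h
    (S.En_contOn.mono fun u hu => hx.trans hu.1)
    (fun u hu => S.hasDerivAt_En (hx.trans_lt hu.1)) (MonotoneOn.intervalIntegrable ?_)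
  rw [Set.uIcc_of_le h]
  exact fun u hu v _ huv => S.psi_mono (hx.trans hu.1) huv

/-- `(En - Lg)' = Rh` on `(0,∞)`: `yv' = 1 / Σ wt y y`, `Lg' = x Rh'`; e.g. write everything as a
function of `y`: with `γ = Σ ρ/(1+μ y)`, `x = y γ`, `En = λ₁ x - 1 + γ`... check:
`Σ ρ μ y/(1+μ y) = 1 - γ`, so `En = λ₁ y γ - 1 + γ`, and
`d/dy (En - Lg) = λ₁ Γ' + γ' - (1-γ)/y - γ'/γ = Γ' (λ₁ - (1-γ)/(y γ))` with `Γ' = γ + y γ'`. -/
lemma integral_Rh (hx : 0 ≤ x) (h : x ≤ x') :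
    ∫ u in x..x', S.Rh u = (S.En x' - S.Lg x') - (S.En x - S.Lg x) := by
  refine intervalIntegral.integral_eq_sub_of_hasDerivAt_of_le (f := fun u => S.En u - S.Lg u) h
    ((S.En_contOn.sub S.Lg_contOn).mono fun u hu => hx.trans hu.1)
    (fun u hu => S.hasDerivAt_En_sub_Lg (hx.trans_lt hu.1)) (MonotoneOn.intervalIntegrable ?_)
  rw [Set.uIcc_of_le h]
  exact fun u hu v _ huv => S.Rh_mono (hx.trans hu.1) huv

lemma isProb_meas : IsProbabilityMeasure S.meas := by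
  constructor
  simp only [meas, Measure.coe_finsetSum, Finset.sum_apply, Measure.smul_apply, measure_univ,
    smul_eq_mul, mul_one]
  rw [← ENNReal.ofReal_sum_of_nonneg fun k _ => (S.ρ_pos k).le, S.ρ_sum, ENNReal.ofReal_one]

private lemma integral_meas (f : ℝ → ℝ) : ∫ l, f l ∂S.meas = ∑ k, S.ρ k * f (S.lam k) := by
  unfold meas
  rw [integral_finsetSum_measure fun k _ =>
    (integrable_dirac (by simp)).smul_measure ENNReal.ofReal_ne_top]
  refine Finset.sum_congr rfl fun k _ => ?_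
  rw [integral_smul_measure, integral_dirac, ENNReal.toReal_ofReal (S.ρ_pos k).le, smul_eq_mul]

private lemma resolvent_eq_Gam {b : ℝ} (hb : S.lam S.k1 < b) :
    ∫ l, (b - l)⁻¹ ∂S.meas = S.Gam (b - S.lam S.k1)⁻¹ := by
  rw [S.integral_meas]
  refine Finset.sum_congr rfl fun k _ => ?_
  have h1 : 0 < b - S.lam S.k1 := sub_pos.2 hb
  have h2 : 0 < b - S.lam k := sub_pos.2 ((S.lam_le k).trans_lt hb)
  have h3 : 1 + S.mu k * (b - S.lam S.k1)⁻¹ = (b - S.lam k) / (b - S.lam S.k1) := by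
    unfold mu
    field_simp
    ring
  rw [h3]
  field_simp

/-- For `x > 0` the unique solution of the resolvent equation is `b = λ₁ + 1 / yv x`. -/
lemma rTransform_eq (hx : 0 ≤ x) : rTransform S.meas (S.lam S.k1) x = S.Rh x := by
  rcases hx.eq_or_lt with rfl | hx0
  · rw [rTransform, if_neg (lt_irrefl _), S.Rh_zero]
    exact S.integral_meas fun l => l
  have hy := S.yv_nonneg hx
  have hG := S.Gam_yv hx
  have hy0 : 0 < S.yv x := by
    rcases hy.eq_or_lt with h | h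
    · rw [← h] at hG
      simp [Gam] at hG
      exact absurd hG hx0.ne
    · exact h
  have hset : {b : ℝ | S.lam S.k1 < b ∧ ∫ l, (b - l)⁻¹ ∂S.meas = x} =
      {S.lam S.k1 + (S.yv x)⁻¹} := by
    ext b
    simp only [Set.mem_ofPred_eq, Set.mem_singleton_iff]
    constructor
    · rintro ⟨hb, h⟩
      rw [S.resolvent_eq_Gam hb] at h
      rw [← h, S.yv_Gam (inv_nonneg.2 (sub_pos.2 hb).le), inv_inv]
      ring
    · rintro rfl
      have hb : S.lam S.k1 < S.lam S.k1 + (S.yv x)⁻¹ := lt_add_of_pos_right _ (inv_pos.2 hy0)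
      refine ⟨hb, ?_⟩
      rw [S.resolvent_eq_Gam hb, add_sub_cancel_left, inv_inv, hG]
  have hex : ∃ b : ℝ, S.lam S.k1 < b ∧ ∫ l, (b - l)⁻¹ ∂S.meas = x := by
    have : S.lam S.k1 + (S.yv x)⁻¹ ∈ {b : ℝ | S.lam S.k1 < b ∧ ∫ l, (b - l)⁻¹ ∂S.meas = x} := by
      rw [hset]; rfl
    exact ⟨_, this⟩
  rw [rTransform, if_pos hx0, resolventPoint, if_pos hex, hset, csInf_singleton, S.Rh_eq hx]
  have hγ := S.sum_div_pos hy
  have e1 : x = S.yv x * ∑ k, S.ρ k / (1 + S.mu k * S.yv x) := by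
    conv_lhs => rw [← hG]
    rw [Gam, Finset.mul_sum]
    refine Finset.sum_congr rfl fun k _ => ?_
    ring
  have e3 : (∑ k, S.ρ k * S.mu k / (1 + S.mu k * S.yv x)) * S.yv x =
      1 - ∑ k, S.ρ k / (1 + S.mu k * S.yv x) := by
    rw [eq_sub_iff_add_eq, Finset.sum_mul, ← Finset.sum_add_distrib]
    refine Eq.trans ?_ S.ρ_sum
    refine Finset.sum_congr rfl fun k _ => ?_
    have h0 := S.one_add_pos k hy
    field_simp
    ring
  generalize ∑ k, S.ρ k / (1 + S.mu k * S.yv x) = γ at *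
  generalize ∑ k, S.ρ k * S.mu k / (1 + S.mu k * S.yv x) = A at *
  generalize S.yv x = y at *
  subst e1
  field_simp
  linear_combination e3

lemma scale_yv {t : ℝ} (ht : 0 < t) (hx : 0 ≤ x) : (S.scale t ht.le).yv x = S.yv (t * x) / t := by
  have htx : 0 ≤ t * x := mul_nonneg ht.le hx
  have h1 : (S.scale t ht.le).Gam (S.yv (t * x) / t) = x := by
    have h2 := S.Gam_yv htx
    rw [← mul_right_inj' ht.ne']
    refine Eq.trans ?_ h2
    rw [Gam, Gam, mul_sum]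
    refine sum_congr rfl fun k _ => ?_
    have e : (S.scale t ht.le).mu k * (S.yv (t * x) / t) = S.mu k * S.yv (t * x) := by
      simp only [mu, scale]
      field_simp
    rw [e]
    simp only [scale]
    field_simp
  have h3 := (S.scale t ht.le).yv_Gam (div_nonneg (S.yv_nonneg htx) ht.le)
  rwa [h1] at h3
lemma scale_dk {t : ℝ} (ht : 0 < t) (hx : 0 ≤ x) (k : κ) :
    (S.scale t ht.le).dk k x = S.dk k (t * x) / t := by
  have e : (S.scale t ht.le).mu k * (S.yv (t * x) / t) = S.mu k * S.yv (t * x) := by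
    simp only [mu, scale]
    field_simp
  rw [dk, dk, S.scale_yv ht hx, e]
  simp only [scale]
  ring
/-- Convexity of `En`: `t Rh (t x) - t' Rh (t' x) = (En (t x) - En (t' x)) / x`. -/
lemma scale_Rh_sub {t t' : ℝ} (ht' : 0 ≤ t') (h : t' ≤ t) (hx : 0 ≤ x) :
    (t - t') * S.psi (t' * x) ≤ t * S.Rh (t * x) - t' * S.Rh (t' * x) := by
  rcases hx.eq_or_lt with rfl | hx0
  · simp only [mul_zero, psi, Rh, yv_zero]
    exact le_of_eq (by ring)
  have h1 : 0 ≤ t' * x := mul_nonneg ht' hx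
  have h2 : t' * x ≤ t * x := mul_le_mul_of_nonneg_right h hx
  have h3 := S.En_sub h1 (h1.trans h2)
  rw [S.En_eq h1, S.En_eq (h1.trans h2)] at h3
  have h4 := mul_le_mul_of_nonneg_left
    (S.psi2_mono (S.yv_nonneg h1) (S.yv_nonneg h1) (S.yv_mono h1 h2)) (sub_nonneg.2 h2)
  refine le_of_mul_le_mul_left ?_ hx0
  unfold psi
  linarith

end Spec

end Crest.Agent.R164
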