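import Crest.Agent.R164.OS
import Crest.Agent.R164.Step
import Crest.Agent.R164.Concave

/-!
# R164 / Super: the one-site overlap path is a supergradient

`osv_dir`: directional derivative.  Let `v_θ = v + θ (v' - v)`, `f θ = Ch a v_θ n b = val (osH b v_θ)`.
Move one coordinate at a time (or use `Ch_taylor_v` both ways): for `u ≥ 0` small,
`Ch (update w l (w l + u)) - Ch w = u/2 (1 - Tq (osQ b w) l) ± 40 u√u`; for a decrease apply it at the
decreased point.  So `f θ - f 0 = θ/2 Σ_l (v' l - v l)(1 - Tq (osQ b w_l) l) + O(θ√θ)` where the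
intermediate points `w_l` tend to `v` as `θ → 0`; `osQ_cont` finishes.
`osQ_cont`: Lipschitz in `y_l = √(v l)`: along the line `y_l ↦ osH`, the derivative of
`EE (E i ε)²` is bounded by `6 EE |z_l| ≤ 6 (1 + 2 y_l)` (`hasDerivAt_EE`, `DF.cond`, `abs_Cv_le`,
`EE_γ_sq_le`).
`super_merged`: `osc_dyadic`, `osc_le` at `bs`, and `osv_dir` with `θ = 2^{-k}`, `k → ∞`.
`exists_merge`: sort the `R + k` numbers `ua R j` (`j < R`) and `a' i` (`i < k`) decreasingly
(`Tuple.sort` on `Fin (R + k)` through `finSumFinEquiv`); both families are strictly decreasing so the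
position maps are strictly monotone; `1 = ua R 0` is the unique maximum.
`supergradient`: given `η > 0` small replace the last exponent `revA w (k-1) = 0` by `η`
(`Ch_mono_exp`; tails change by at most `η`, `tl_sub`).  In the merged cascade put the variances `v`
on the grid levels and `revV hv` on the others (zero elsewhere); `Ch_emb` identifies the values,
`E_emb` gives `osQ` (merged) `i' = osQ (cnt e i')`, and `Tq` (merged) at position `i'` equals
`tl (pth R Q) (A i')` (induction on `i'`, `tl_pth'`).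
-/

set_option autoImplicit false

open MeasureTheory ProbabilityTheory Finset Crest.ProbabilityR.InvariantGlass

namespace Crest.Agent.R164

section sup1
variable {R : ℕ} [NeZero R] {a : ℕ → ℝ}

lemma sup1_z (ha : Exps R a) (b : ℝ) (u : ℕ → ℝ) (l : Fin R) :
    EE a (osH (R := R) b u) (fun s => |(s l).2|) ≤ 1 + 2 * Real.sqrt (u l) := by
  have hH := ml_osH (R := R) b u
  have hφ : HasD (Dir.snd Bool Dir.real) l (osH (R := R) b u)
      fun s => Real.sqrt (u l) * osε s := by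
    refine HasD.of_lin hH.me (ml_osε.me.const_mul _) fun θ s => ?_
    simp only [osH]
    rw [os2_act_ε, os2_act l θ s fun j => Real.sqrt (u j)]
    ring
  have h1 : Real.sqrt (EE a (osH (R := R) b u) fun s => (s l).2 ^ 2) ≤ _ :=
    EE_γ_sq_le ha hH hφ fun _ _ => rfl
  have e : (fun t : St R (Bool × ℝ) => (Real.sqrt (u l) * osε t) ^ 2) =
      fun _ => Real.sqrt (u l) ^ 2 := by
    funext t
    simp only [osε, mul_pow, sp_sq, mul_one]
  rw [e, EE_const ha hH, Real.sqrt_sq (Real.sqrt_nonneg _)] at h1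
  exact (EE_abs_le_sqrt ha hH (os2_ml_z l).me).trans h1

lemma sup1_lip (ha : Exps R a) (b : ℝ) (v w : ℕ → ℝ) {i : ℕ} (hi : i ≤ R) :
    |osQ R a b w i - osQ R a b v i| ≤ 6 * ∑ l : Fin R, |Real.sqrt (w l) - Real.sqrt (v l)| *
      (1 + 2 * (Real.sqrt (v l) + Real.sqrt (w l))) := by
  set φ : St R (Bool × ℝ) → ℝ := fun s =>
    osε s * ∑ l : Fin R, (Real.sqrt (w l) - Real.sqrt (v l)) * (s l).2 with hφd
  have hφ : ML φ := ML.bdd_mul os_meas 1 (fun s => (os_abs s).le)
    (ML.sum univ fun l _ => (os2_ml_z l).const_mul _)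
  have hy : ∀ θ ∈ Set.Icc (0 : ℝ) 1, ∀ l : ℕ,
      0 ≤ Real.sqrt (v l) + θ * (Real.sqrt (w l) - Real.sqrt (v l)) ∧
        Real.sqrt (v l) + θ * (Real.sqrt (w l) - Real.sqrt (v l)) ≤
          Real.sqrt (v l) + Real.sqrt (w l) := fun θ hθ l => by
    have h1 := mul_nonneg hθ.1 (Real.sqrt_nonneg (w l))
    have h2 := mul_nonneg hθ.1 (Real.sqrt_nonneg (v l))
    have h3 := mul_nonneg (sub_nonneg.2 hθ.2) (Real.sqrt_nonneg (w l))
    have h4 := mul_nonneg (sub_nonneg.2 hθ.2) (Real.sqrt_nonneg (v l))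
    constructor <;> linarith
  have e : ∀ θ ∈ Set.Icc (0 : ℝ) 1, (fun s => osH b v s + θ * φ s) =
      osH b fun l => (Real.sqrt (v l) + θ * (Real.sqrt (w l) - Real.sqrt (v l))) ^ 2 := by
    intro θ hθ
    funext s
    simp only [osH, hφd, Real.sqrt_sq (hy θ hθ _).1, add_mul, sum_add_distrib, mul_assoc θ,
      ← mul_sum]
    ring
  have h := tay_Q ha (ml_osH b v) hφ os_meas (fun s => (os_abs s).le)
    (K := ∑ l : Fin R, |Real.sqrt (w l) - Real.sqrt (v l)| *
      (1 + 2 * (Real.sqrt (v l) + Real.sqrt (w l)))) (fun θ hθ => by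
      rw [e θ hθ]
      have hH := ml_osH (R := R) b
        fun l => (Real.sqrt (v l) + θ * (Real.sqrt (w l) - Real.sqrt (v l))) ^ 2
      have hz : ∀ l : Fin R, ME fun s : St R (Bool × ℝ) =>
          |Real.sqrt (w l) - Real.sqrt (v l)| * |(s l).2| := fun l =>
        (os2_ml_z l).abs.me.const_mul _
      refine (EE_mono ha hH hφ.abs.me (ME.sum univ fun l _ => hz l) fun s => ?_).trans ?_
      · simp only [hφd, abs_mul, os_abs, one_mul]
        refine (abs_sum_le_sum_abs _ _).trans_eq ?_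
        simp only [abs_mul]
      · rw [EE_sum _ ha hH fun l _ => hz l]
        refine sum_le_sum fun l _ => ?_
        rw [EE_const_mul]
        refine mul_le_mul_of_nonneg_left ((sup1_z ha b _ l).trans ?_) (abs_nonneg _)
        rw [Real.sqrt_sq (hy θ hθ _).1]
        linarith [(hy θ hθ l).2]) hi zero_le_one le_rfl
  have e1 : (fun s => osH b v s + 1 * φ s) = osH b w := by
    funext s
    simp only [osH, hφd, sub_mul, sum_sub_distrib]
    ring
  rw [e1, mul_one] at h
  simpa only [osQ, sq] using h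

omit [NeZero R] in
lemma sup1_Tq (ha : Exps R a) {q q' : ℕ → ℝ} {η : ℝ} (h : ∀ i ≤ R, |q i - q' i| ≤ η) {l : ℕ}
    (hl : l ≤ R) : |Tq a q l - Tq a q' l| ≤ η := by
  have hη : 0 ≤ η := (abs_nonneg _).trans (h 0 (Nat.zero_le _))
  rw [Tq, Tq, ← sum_sub_distrib]
  refine (abs_sum_le_sum_abs _ _).trans ?_
  calc ∑ i ∈ range l, |(a i - a (i + 1)) * q (i + 1) - (a i - a (i + 1)) * q' (i + 1)| ≤
        ∑ i ∈ range l, (a i - a (i + 1)) * η := by
        refine sum_le_sum fun i hi => ?_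
        have h0 : 0 ≤ a i - a (i + 1) := sub_nonneg.2 (ha.anti (Nat.le_succ i))
        rw [← mul_sub, abs_mul, abs_of_nonneg h0]
        exact mul_le_mul_of_nonneg_left (h _ (by have := mem_range.1 hi; omega)) h0
    _ ≤ η := by
        rw [← sum_mul, sum_range_sub', ha.zero]
        have := ha.last.trans (ha.anti hl)
        nlinarith

lemma sup1_step (ha : Exps R a) (b : ℝ) {q w : ℕ → ℝ} (hw : ∀ i < R, 0 ≤ w i) {l : ℕ} (hl : l < R)
    {t η : ℝ} (ht : 0 ≤ w l + t) (ht1 : |t| ≤ 1) (hη : Real.sqrt |t| ≤ η)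
    (h1 : ∀ i ≤ R, |osQ R a b w i - q i| ≤ η)
    (h2 : ∀ i ≤ R, |osQ R a b (Function.update w l (w l + t)) i - q i| ≤ η) :
    Ch a (Function.update w l (w l + t)) R b - Ch a w R b ≤ t / 2 * (1 - Tq a q l) + 41 * (|t| * η) := by
  have hη0 : 0 ≤ η := (Real.sqrt_nonneg _).trans hη
  rcases le_total 0 t with h | h
  · rw [abs_of_nonneg h] at *
    have h3 := (abs_le.1 (Ch_taylor_v (b := b) ha hw ⟨l, hl⟩ h ht1)).2
    have h4 := (abs_le.1 (sup1_Tq ha h1 hl.le)).1
    have h5 := mul_le_mul_of_nonneg_left hη h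
    have h6 := mul_le_mul_of_nonneg_left h4 h
    have h7 := mul_nonneg h hη0
    simp only at h3
    linarith
  · rw [abs_of_nonpos h] at *
    have h' : 0 ≤ -t := neg_nonneg.2 h
    have hw' : ∀ i < R, 0 ≤ Function.update w l (w l + t) i := fun i hi => by
      by_cases e : i = l
      · rw [e, Function.update_self]; exact ht
      · rw [Function.update_of_ne e]; exact hw i hi
    have h3 := (abs_le.1 (Ch_taylor_v (b := b) ha hw' ⟨l, hl⟩ h' ht1)).1
    have h4 := (abs_le.1 (sup1_Tq ha h2 hl.le)).1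
    have h5 := mul_le_mul_of_nonneg_left hη h'
    have h6 := mul_le_mul_of_nonneg_left (abs_le.1 (sup1_Tq ha h2 hl.le)).2 h'
    have h7 := mul_nonneg h' hη0
    simp only [Function.update_idem, Function.update_self, add_neg_cancel_right,
      Function.update_eq_self] at h3
    linarith

end sup1

theorem osQ_cont {R : ℕ} [NeZero R] {a : ℕ → ℝ} (ha : Exps R a) (b : ℝ) {v : ℕ → ℝ}
    (hv : ∀ i < R, 0 ≤ v i) (ε : ℝ) (hε : 0 < ε) : ∃ δ > 0, ∀ w : ℕ → ℝ, (∀ i < R, 0 ≤ w i) →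
      (∀ i < R, |w i - v i| ≤ δ) → ∀ i ≤ R, |osQ R a b w i - osQ R a b v i| ≤ ε := by
  have hc : Continuous fun x : Fin R → ℝ => 6 * ∑ l : Fin R, |Real.sqrt (x l) - Real.sqrt (v l)| *
      (1 + 2 * (Real.sqrt (v l) + Real.sqrt (x l))) := by fun_prop
  obtain ⟨δ, hδ, h⟩ := Metric.continuous_iff.1 hc (fun l => v l) ε hε
  refine ⟨δ / 2, half_pos hδ, fun w _ hw i hi => (sup1_lip ha b v w hi).trans ?_⟩
  have h1 := h (fun l => w l) ((dist_pi_lt_iff hδ).2 fun l =>
    (hw l l.2).trans_lt (half_lt_self hδ))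
  simp only [sub_self, abs_zero, zero_mul, sum_const_zero, mul_zero, Real.dist_eq, sub_zero] at h1
  exact (le_abs_self _).trans h1.le

theorem osv_dir {R : ℕ} [NeZero R] {a : ℕ → ℝ} (ha : Exps R a) (b : ℝ) {v v' : ℕ → ℝ}
    (hv : ∀ i < R, 0 ≤ v i) (hv' : ∀ i < R, 0 ≤ v' i) (ε : ℝ) (hε : 0 < ε) :
    ∃ θ₀ > 0, ∀ θ, 0 ≤ θ → θ ≤ θ₀ →
      osv a (fun i => v i + θ * (v' i - v i)) R b - osv a v R b ≤
        θ * (-(∑ l ∈ range R, (v' l - v l) * Tq a (osQ R a b v) l) / 2 + ε) := by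
  set D := ∑ l ∈ range R, |v' l - v l| with hD
  have hD0 : 0 ≤ D := sum_nonneg fun _ _ => abs_nonneg _
  have hDl : ∀ l < R, |v' l - v l| ≤ D := fun l hl =>
    single_le_sum (f := fun l => |v' l - v l|) (fun _ _ => abs_nonneg _) (mem_range.2 hl)
  set η := ε / (41 * (D + 1)) with hη
  have hη0 : 0 < η := by positivity
  obtain ⟨δ, hδ, hc⟩ := osQ_cont ha b hv η hη0
  set κ := min δ (min 1 (η ^ 2)) with hκ
  have hκ0 : 0 < κ := by positivity
  refine ⟨min 1 (κ / (D + 1)), by positivity, fun θ h0 hθ => ?_⟩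
  have hθ1 : θ ≤ 1 := hθ.trans (min_le_left _ _)
  have hθ2 : ∀ l < R, |θ * (v' l - v l)| ≤ κ := fun l hl => by
    have := (le_div_iff₀ (by positivity)).1 (hθ.trans (min_le_right _ _))
    rw [abs_mul, abs_of_nonneg h0]
    nlinarith [mul_le_mul_of_nonneg_left (hDl l hl) h0]
  have hpos : ∀ l < R, 0 ≤ v l + θ * (v' l - v l) := fun l hl => by
    nlinarith [mul_nonneg h0 (hv' l hl), mul_nonneg (sub_nonneg.2 hθ1) (hv l hl)]
  set W : ℕ → ℕ → ℝ := fun k i => if i < k then v i + θ * (v' i - v i) else v i with hW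
  have hW0 : ∀ k, ∀ i < R, 0 ≤ W k i := fun k i hi => by
    simp only [hW]
    split_ifs
    · exact hpos i hi
    · exact hv i hi
  have hWc : ∀ k, ∀ i ≤ R, |osQ R a b (W k) i - osQ R a b v i| ≤ η := fun k =>
    hc _ (hW0 k) fun i hi => by
      simp only [hW]
      split_ifs
      · rw [add_sub_cancel_left]
        exact (hθ2 i hi).trans (min_le_left _ _)
      · rw [sub_self, abs_zero]
        exact hδ.le
  have hWk : ∀ k, W k k = v k := fun k => if_neg (lt_irrefl k)
  have hWs : ∀ k, Function.update (W k) k (W k k + θ * (v' k - v k)) = W (k + 1) := fun k => by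
    funext i
    by_cases e : i = k
    · rw [e, Function.update_self, hWk]
      exact (if_pos k.lt_succ_self).symm
    · rw [Function.update_of_ne e]
      simp only [hW, show i < k + 1 ↔ i < k by omega]
  have key : ∀ k ≤ R, Ch a (W k) R b - Ch a v R b ≤ ∑ l ∈ range k,
      (θ * (v' l - v l) / 2 * (1 - Tq a (osQ R a b v) l) + 41 * (|θ * (v' l - v l)| * η)) := by
    intro k hk
    induction k with
    | zero => simp [hW]
    | succ k ih =>
      have h1 := sup1_step ha b (q := osQ R a b v) (hW0 k) hk (t := θ * (v' k - v k)) (η := η)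
        (by rw [hWk]; exact hpos k hk)
        ((hθ2 k hk).trans ((min_le_right _ _).trans (min_le_left _ _)))
        (Real.sqrt_le_iff.2 ⟨hη0.le, (hθ2 k hk).trans
          ((min_le_right _ _).trans (min_le_right _ _))⟩) (hWc k) (by rw [hWs]; exact hWc _)
      rw [hWs] at h1
      rw [sum_range_succ]
      linarith [ih (Nat.le_of_succ_le hk)]
  have h1 := key R le_rfl
  rw [Ch_congr (a' := a) (v' := fun i => v i + θ * (v' i - v i)) (fun _ _ => rfl)
    fun i hi => if_pos hi] at h1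
  have e1 : ∑ l ∈ range R,
      (θ * (v' l - v l) / 2 * (1 - Tq a (osQ R a b v) l) + 41 * (|θ * (v' l - v l)| * η)) =
      (∑ l ∈ range R, θ * (v' l - v l)) / 2 -
        θ * (∑ l ∈ range R, (v' l - v l) * Tq a (osQ R a b v) l) / 2 + θ * (41 * D * η) := by
    simp only [hD, mul_sum, sum_mul, sum_div, ← sum_sub_distrib, ← sum_add_distrib]
    refine sum_congr rfl fun l _ => ?_
    rw [abs_mul, abs_of_nonneg h0]
    ring
  have h2 : 41 * D * η ≤ ε := by
    rw [hη, ← mul_div_assoc, div_le_iff₀ (by positivity)]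
    nlinarith
  have h3 := mul_le_mul_of_nonneg_left h2 h0
  rw [e1] at h1
  simp only [osv, sum_add_distrib]
  linarith

theorem super_merged {R : ℕ} [NeZero R] {a : ℕ → ℝ} (ha : Exps R a) {v v' : ℕ → ℝ}
    (hv : ∀ i < R, 0 ≤ v i) (hv' : ∀ i < R, 0 ≤ v' i) {m bs : ℝ} (hm : |m| ≤ 1)
    (hb : osc a v R m = osv a v R bs - bs * m) :
    osc a v' R m + (∑ l ∈ range R, v' l * Tq a (osQ R a bs v) l) / 2 ≤
      osc a v R m + (∑ l ∈ range R, v l * Tq a (osQ R a bs v) l) / 2 := by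
  refine le_of_forall_pos_le_add fun ε hε => ?_
  obtain ⟨θ₀, hθ₀, h⟩ := osv_dir ha bs hv hv' ε hε
  obtain ⟨k, hk⟩ := exists_pow_lt_of_lt_one hθ₀ (show (1 : ℝ) / 2 < 1 by norm_num)
  have h1 := h _ (by positivity) hk.le
  have h2 := osc_dyadic (a := a) (n := R)
    (fun i hi => ⟨(ha.pos i hi).le, (ha.anti (Nat.zero_le i)).trans ha.zero.le⟩)
    (fun i j hij _ => ha.anti hij) hm hv hv' k
  have h3 := osc_le (fun i hi => (ha.pos i hi).le)
    (fun i => v i + (1 / 2) ^ k * (v' i - v i)) hm bs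
  have h4 : (2 : ℝ) ^ k * (1 / 2) ^ k = 1 := by rw [← mul_pow]; norm_num
  have h5 := mul_le_mul_of_nonneg_left (show osc a (fun i => v i + (1 / 2) ^ k * (v' i - v i)) R m -
    osc a v R m ≤ _ from le_trans (by linarith) h1) (show (0 : ℝ) ≤ 2 ^ k by positivity)
  rw [← mul_assoc, h4, one_mul] at h5
  simp only [sub_mul, sum_sub_distrib] at h5
  linarith

/-- Levels with zero variance may be removed from a chain. -/
lemma Ch_emb {n n' : ℕ} {e : Fin n → Fin n'} (he : StrictMono e) {a v A w : ℕ → ℝ}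
    (hA : ∀ j : Fin n, A (e j) = a j) (hw : ∀ j : Fin n, w (e j) = v j)
    (h0 : ∀ i < n', (∀ j, (e j : ℕ) ≠ i) → w i = 0) {i : ℕ} (hi : i ≤ n') :
    Ch A w i = Ch a v (cnt e i) := by
  induction i with
  | zero => rw [cnt_zero, Ch_zero, Ch_zero]
  | succ i ih =>
    rw [Ch_succ, ih (Nat.le_of_succ_le hi)]
    by_cases h : ∃ j, (e j : ℕ) = i
    · obtain ⟨j, rfl⟩ := h
      rw [cnt_apply he, cnt_apply_succ he, Ch_succ, hA, hw]
    · push Not at h
      rw [cnt_succ_of_ne h, h0 i hi h, gaussOp_zero_var]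

lemma exists_merge {R k : ℕ} (hR : 0 < R) {a' : ℕ → ℝ} (h1 : ∀ i < k, 0 < a' i ∧ a' i < 1)
    (h2 : ∀ i j, i < j → j < k → a' j < a' i) :
    ∃ (A : ℕ → ℝ) (e : Fin R → Fin (R + k)) (e' : Fin k → Fin (R + k)), Exps (R + k) A ∧
      StrictMono e ∧ StrictMono e' ∧ (∀ j : Fin R, A (e j) = ua R j) ∧ (∀ j : Fin k, A (e' j) = a' j) ∧
      (∀ j j', e j ≠ e' j') ∧ (∀ i, (∃ j, e j = i) ∨ ∃ j, e' j = i) ∧ (e ⟨0, hR⟩ : ℕ) = 0 := by
  have hR' : (0 : ℝ) < R := by exact_mod_cast hR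
  let f : Fin (R + k) → ℝ := Fin.append (fun j : Fin R => -ua R j) fun j : Fin k => -a' j
  let σ := Tuple.sort f
  have hm : Monotone (f ∘ σ) := Tuple.monotone_sort f
  let e : Fin R → Fin (R + k) := fun j => σ.symm (Fin.castAdd k j)
  let e' : Fin k → Fin (R + k) := fun j => σ.symm (Fin.natAdd R j)
  have hf : ∀ j, (f ∘ σ) (e j) = -ua R j := fun j => by
    simp only [e, f, Function.comp, Equiv.apply_symm_apply, Fin.append_left]
  have hf' : ∀ j, (f ∘ σ) (e' j) = -a' j := fun j => by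
    simp only [e', f, Function.comp, Equiv.apply_symm_apply, Fin.append_right]
  have he : StrictMono e := fun j j' hj => hm.reflect_lt (by
    have : ((j : ℕ) : ℝ) / R < (j' : ℕ) / R := by
      gcongr
      exact hj
    rw [hf, hf]
    simp only [ua]
    linarith)
  have he' : StrictMono e' := fun j j' hj => hm.reflect_lt (by
    rw [hf', hf']
    exact neg_lt_neg (h2 j j' hj j'.2))
  have hc : ∀ i, (∃ j, e j = i) ∨ ∃ j, e' j = i := fun i => by
    obtain ⟨i, rfl⟩ := σ.symm.surjective i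
    induction i using Fin.addCases with
    | left j => exact Or.inl ⟨j, rfl⟩
    | right j => exact Or.inr ⟨j, rfl⟩
  have hp : ∀ i, (f ∘ σ) i < 0 := fun i => by
    rcases hc i with ⟨j, rfl⟩ | ⟨j, rfl⟩
    · rw [hf]; exact neg_neg_of_pos ((exps_ua hR).pos j j.2)
    · rw [hf']; exact neg_neg_of_pos (h1 j j.2).1
  have h0 : e ⟨0, hR⟩ = ⟨0, by omega⟩ := by
    rcases hc ⟨0, by omega⟩ with ⟨j, hj⟩ | ⟨j, hj⟩
    · exact le_antisymm (hj ▸ he.monotone (Nat.zero_le _)) (Nat.zero_le _)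
    · have := hm (show e' j ≤ e ⟨0, hR⟩ by rw [hj]; exact Nat.zero_le _)
      rw [hf, hf', pa_ua_zero] at this
      linarith [(h1 j j.2).2]
  let A : ℕ → ℝ := fun i => if h : i < R + k then -(f ∘ σ) ⟨i, h⟩ else 0
  have hA : ∀ i : Fin (R + k), A i = -(f ∘ σ) i := fun i => dif_pos i.2
  refine ⟨A, e, e', ⟨fun i hi => ?_, ?_, fun i j hij => ?_, ?_⟩, he, he', fun j => ?_, fun j => ?_,
    fun j j' h => ?_, hc, by rw [h0]⟩
  · rw [hA ⟨i, hi⟩]
    exact neg_pos.2 (hp _)
  · rw [hA ⟨0, by omega⟩, ← h0, hf, neg_neg, pa_ua_zero]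
  · by_cases hj : j < R + k
    · rw [hA ⟨j, hj⟩, hA ⟨i, hij.trans_lt hj⟩]
      exact neg_le_neg (hm hij)
    · simp only [A, dif_neg hj]
      split_ifs
      · exact (neg_pos.2 (hp _)).le
      · exact le_rfl
  · simp only [A, lt_irrefl, dif_neg, not_false_eq_true, le_rfl]
  · rw [hA, hf, neg_neg]
  · rw [hA, hf', neg_neg]
  · have := congrArg Fin.val (σ.symm.injective h)
    simp only [Fin.val_castAdd, Fin.val_natAdd] at this
    omega

section sup2
variable {n N : ℕ} {e : Fin n → Fin N} {a A v : ℕ → ℝ}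

/-- Variances placed on the levels `e j`. -/
noncomputable def sup2V (e : Fin n → Fin N) (v : ℕ → ℝ) (i : ℕ) : ℝ :=
  ∑ j : Fin n, if (e j : ℕ) = i then v j else 0

lemma sup2V_apply (he : StrictMono e) (v : ℕ → ℝ) (j : Fin n) : sup2V e v (e j) = v j := by
  simp only [sup2V, Fin.val_inj, he.injective.eq_iff, sum_ite_eq', mem_univ, if_true]

lemma sup2V_zero (v : ℕ → ℝ) {i : ℕ} (h : ∀ j, (e j : ℕ) ≠ i) : sup2V e v i = 0 :=
  sum_eq_zero fun j _ => if_neg (h j)

lemma sup2V_nonneg (hv : ∀ i < n, 0 ≤ v i) (i : ℕ) : 0 ≤ sup2V e v i :=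
  sum_nonneg fun j _ => by
    split_ifs
    · exact hv j j.2
    · exact le_rfl

lemma sup2V_sum (e : Fin n → Fin N) (v g : ℕ → ℝ) :
    ∑ i ∈ range N, sup2V e v i * g i = ∑ j : Fin n, v j * g (e j) := by
  simp only [sup2V, sum_mul]
  rw [sum_comm]
  refine sum_congr rfl fun j _ => ?_
  simp only [ite_mul, zero_mul, sum_ite_eq, mem_range, Fin.is_lt, if_true]

lemma sup2_osv (he : StrictMono e) (hA : ∀ j : Fin n, A (e j) = a j) (v : ℕ → ℝ) :
    osv A (sup2V e v) N = osv a v n := by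
  funext b
  have h := sup2V_sum e v fun _ => 1
  simp only [mul_one] at h
  rw [osv, osv, Ch_emb he hA (sup2V_apply he v) (fun i _ h => sup2V_zero v h) le_rfl, cnt_top, h,
    Fin.sum_univ_eq_sum_range v n]

lemma sup2_osQ [NeZero n] [NeZero N] (he : StrictMono e) (hA : ∀ j : Fin n, A (e j) = a j)
    (hA0 : ∀ i < N, 0 < A i) (h0 : e 0 = 0) (b : ℝ) (v : ℕ → ℝ) {i : ℕ} (hi : i ≤ N) :
    osQ N A b (sup2V e v) i = osQ n a b v (cnt e i) := by
  have e1 : osε (R := N) = fun t => osε fun j => t (e j) := by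
    funext t
    simp only [osε, h0]
  have e2 : osH (R := N) b (sup2V e v) = fun t => osH b v fun j => t (e j) := by
    funext t
    rw [osH, osH, e1]
    congr 2
    refine (sum_subset (subset_univ (univ.map ⟨e, he.injective⟩)) fun l _ hl => ?_).symm.trans ?_
    · rw [sup2V_zero (e := e) v fun j hj => hl (mem_map.2 ⟨j, mem_univ _, Fin.ext hj⟩), Real.sqrt_zero,
        zero_mul]
    · rw [sum_map]
      exact sum_congr rfl fun j _ => by
        simp only [Function.Embedding.coeFn_mk, sup2V_apply he]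
  rw [osQ, e2, e1]
  simp only [E_emb he hA hA0 _ _ hi]
  have h := E_emb he hA hA0 (osH b v) (fun s => E a (osH b v) (cnt e i) osε s ^ 2) le_rfl Lev.pt
  rw [cnt_top] at h
  exact h

lemma sup2_Tq (hn : 0 < n) (he : StrictMono e) (hA : ∀ j : Fin n, A (e j) = ua n j)
    (hE : Exps N A) (h0 : (e ⟨0, hn⟩ : ℕ) = 0) (Q : ℕ → ℝ) {i : ℕ} (hi : i ≤ N) :
    Tq A (fun i => Q (cnt e i)) i = tl (pth n Q) (A i) := by
  induction i with
  | zero => rw [hE.zero, pa_tl_one]; simp [Tq]
  | succ i ih =>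
    have h1 : 0 < cnt e (i + 1) := (lt_cnt_iff he ⟨0, hn⟩ (i + 1)).2 (by omega)
    obtain ⟨l, hl⟩ : ∃ l, cnt e (i + 1) = l + 1 := ⟨_, (Nat.sub_add_cancel h1).symm⟩
    have hl' : l < n := by have := cnt_le e (i + 1); omega
    have h2 : A i ≤ ua n l := by
      have := (lt_cnt_iff he ⟨l, hl'⟩ (i + 1)).1 (by simp only [hl]; omega)
      exact (hE.anti (Nat.lt_succ_iff.1 this)).trans_eq (hA ⟨l, hl'⟩)
    have h3 : ua n (l + 1) ≤ A (i + 1) := by
      by_cases h : l + 1 < n
      · have := (lt_cnt_iff he ⟨l + 1, h⟩ (i + 1)).not.1 (by simp only [hl]; omega)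
        exact (hA ⟨l + 1, h⟩).symm.trans_le (hE.anti (not_lt.1 this))
      · rw [show l + 1 = n by omega, pa_ua_last hn]
        exact hE.last.trans (hE.anti hi)
    have h4 := hE.anti (Nat.le_succ i)
    have h5 := ih (Nat.le_of_succ_le hi)
    rw [tl_pth' hn Q hl' (h3.trans h4) h2] at h5
    rw [tl_pth' hn Q hl' h3 (h4.trans h2), Tq, sum_range_succ, ← Tq.eq_1 A fun i => Q (cnt e i), h5, hl]
    ring

lemma sup2_osc_mono {a' : ℕ → ℝ} (ha : ∀ i < n, 0 ≤ a i ∧ a i ≤ a' i) (v : ℕ → ℝ) {m : ℝ}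
    (hm : |m| ≤ 1) : osc a v n m ≤ osc a' v n m :=
  le_ciInf fun b => (osc_le (fun i hi => (ha i hi).1) v hm b).trans (by
    simp only [osv]
    linarith [Ch_mono_exp ha v b])

end sup2

theorem supergradient {R : ℕ} [NeZero R] {v : ℕ → ℝ} (hv : ∀ i < R, 0 ≤ v i) {m bs : ℝ}
    (hm : |m| ≤ 1) (hb : osc (ua R) v R m = osv (ua R) v R bs - bs * m) {k : ℕ} {w hv' : Fin k → ℝ}
    (h : IsStepField w hv') :
    cfv m w hv' + (∫ s in Set.Ioo (0 : ℝ) 1, pth R (osQ R (ua R) bs v) s * stepFn w hv' s) / 2 ≤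
      osc (ua R) v R m + (∑ l ∈ range R, v l * Tq (ua R) (osQ R (ua R) bs v) l) / 2 := by
  have hR : 0 < R := NeZero.pos R
  have hp := (isOv_osQ (exps_ua hR) bs v).trial hR
  rw [cfv_eq, integral_stepFn h hp]
  set S := ∑ j ∈ range k, revV hv' j with hS
  have hS0 : 0 ≤ S := sum_nonneg fun j _ => revV_nonneg h j
  refine le_of_forall_pos_le_add fun ε hε => ?_
  have hA1 := (revA_mem h 0).2
  set η := min ((1 - revA w 0) / 2) (ε / (S + 1)) with hη
  have hη0 : 0 < η := lt_min (by linarith) (by positivity)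
  have hη1 : ∀ j < k, revA w j + η < 1 := fun j hj => by
    have h1 : revA w j ≤ revA w 0 := by
      rcases Nat.eq_zero_or_pos j with rfl | h0
      · exact le_rfl
      · exact (revA_lt h h0 hj).le
    linarith [min_le_left ((1 - revA w 0) / 2) (ε / (S + 1))]
  have hη2 : S * η ≤ ε := by
    have := (le_div_iff₀ (by positivity)).1 (min_le_right ((1 - revA w 0) / 2) (ε / (S + 1)))
    nlinarith
  obtain ⟨A, e, e', hE, he, he', hA, hA', -, -, h0⟩ := exists_merge (k := k) hR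
    (a' := fun j => revA w j + η) (fun j hj => ⟨by linarith [(revA_mem h j).1], hη1 j hj⟩)
    fun i j hij hj => by linarith [revA_lt h hij hj]
  have : NeZero (R + k) := ⟨by omega⟩
  have e1 := sup2_osv he hA v
  have e2 := sup2_osv (a := fun j => revA w j + η) he' hA' (revV hv')
  have h1 := super_merged hE (v := sup2V e v) (v' := sup2V e' (revV hv'))
    (fun i _ => sup2V_nonneg hv i) (fun i _ => sup2V_nonneg (fun j _ => revV_nonneg h j) i) hm
    (bs := bs) (by rw [osc, e1]; exact hb)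
  have hT : ∀ l : Fin (R + k), Tq A (osQ (R + k) A bs (sup2V e v)) l =
      tl (pth R (osQ R (ua R) bs v)) (A l) := fun l => by
    rw [← sup2_Tq hR he hA hE h0 _ l.2.le]
    refine sum_congr rfl fun i hi => ?_
    rw [sup2_osQ he hA hE.pos (Fin.ext h0) bs v (by have := mem_range.1 hi; omega)]
  rw [sup2V_sum, sup2V_sum, osc, osc, e1, e2] at h1
  simp only [hT, hA, hA'] at h1
  have h2 := sup2_osc_mono (n := k) (a := revA w) (a' := fun j => revA w j + η)
    (fun j _ => ⟨(revA_mem h j).1, by linarith⟩) (revV hv') hm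
  have h3 : ∑ j ∈ range k, revV hv' j * tl (pth R (osQ R (ua R) bs v)) (revA w j) ≤
      ∑ j : Fin k, revV hv' j * tl (pth R (osQ R (ua R) bs v)) (revA w j + η) + S * η := by
    rw [Fin.sum_univ_eq_sum_range
      (fun j => revV hv' j * tl (pth R (osQ R (ua R) bs v)) (revA w j + η)), hS, sum_mul,
      ← sum_add_distrib]
    refine sum_le_sum fun j hj => ?_
    rw [← mul_add]
    refine mul_le_mul_of_nonneg_left ?_ (revV_nonneg h j)
    linarith [(tl_sub hp (revA_mem h j).1 (le_add_of_nonneg_right hη0.le)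
      (hη1 j (mem_range.1 hj)).le).2]
  have h4 : ∑ j : Fin R, v j * tl (pth R (osQ R (ua R) bs v)) (ua R j) =
      ∑ l ∈ range R, v l * Tq (ua R) (osQ R (ua R) bs v) l := by
    rw [← Fin.sum_univ_eq_sum_range (fun l => v l * Tq (ua R) (osQ R (ua R) bs v) l)]
    exact sum_congr rfl fun j _ => by rw [tl_pth hR _ j.2.le]
  rw [h4] at h1
  unfold osc at h2 ⊢
  linarith

end Crest.Agent.R164
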