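import Crest.Agent.R164.Prp
import Crest.Agent.R164.ST

/-!
# R164 / UB1: the interpolating functional of the upper bound

`Gt_sub`: `scale_Rh_sub`, `psi_lip`, `deficit_mem`, integrability from `ps_cont_Rh`, `ps_cont_psi`,
`continuous_deficit`.  `psi_upper`: `val_Ham_lam`, `val_Ham_px_upper`, `val_Ham_mono`, `val_Ham_free`
(`b = 0`, `v = y²`, `√(y²) = y`), `Ch_coercive` (`ua R (R-1) = 1/R`, `log 2 ≤ 1`), `tl_mem`.
`psi_ref`: `val_Ham_zero`, `val_Ham_hy_lower`, `val_Ham_px_lower`.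
`foc_y`: `val_line`, `EE_field`.  `foc_t`: `val_line` with step `-h`, `EE_energy`, `Gt_sub`.
`pf_conc`: `px_near_max`, `HL_shx`, `conc_of_second_diff` with step `N^{-1/2}`, `m = 1/R`.
-/

set_option autoImplicit false

open MeasureTheory ProbabilityTheory Finset Matrix Crest.ProbabilityR.InvariantGlass

namespace Crest.Agent.R164

variable {κ ι : Type} [Fintype κ] [DecidableEq κ] [Fintype ι] [DecidableEq ι]

/-- The spectral part for the spectrum scaled by `t`. -/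
noncomputable def Gt (S : Spec κ) (p : ℝ → ℝ) (t : ℝ) : ℝ :=
  1 / 2 * ∫ r in Set.Ioo (0 : ℝ) 1, t * S.Rh (t * deficit p r)
/-- The interpolating Hamiltonian. -/
noncomputable def HT {R : ℕ} [NeZero R] (S : Spec κ) (lab : ι → κ) (V : (ι → Bool) → ℝ) (t : ℝ)
    (y : Fin R → ℝ) (px : κ → Fin R → ℝ) : St R (YS ι) → ℝ :=
  HL (fun k => t * S.lam k) lab V (fun l _ => y l) px
/-- The penalised interpolating functional. -/
noncomputable def Psi {R : ℕ} [NeZero R] (S : Spec κ) (p : ℝ → ℝ) (δ δ' s : ℝ) (lab : ι → κ)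
    (V : (ι → Bool) → ℝ) (t : ℝ) (y : Fin R → ℝ) (px : κ → Fin R → ℝ) : ℝ :=
  val (ua R) (HT S lab V t y px) - Fintype.card ι *
    (∑ l, y l ^ 2 * ((1 - tl p (ua R l)) / 2 + δ) + Gt S p t + δ' * t + penx s px)

variable {S : Spec κ} {p : ℝ → ℝ} {Λ δ δ' s t h η : ℝ} {R : ℕ} [NeZero R] {lab : ι → κ}
  {V : (ι → Bool) → ℝ} {y : Fin R → ℝ} {px : κ → Fin R → ℝ}

omit [DecidableEq κ] in
lemma ub1_int {f : ℝ → ℝ} (hf : ContinuousOn f (Set.Ici 0)) (hp : IsTrialPath p) (ht : 0 ≤ t) :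
    IntegrableOn (fun r => f (t * deficit p r)) (Set.Ioo (0 : ℝ) 1) :=
  ((hf.comp (continuous_const.mul (continuous_deficit hp)).continuousOn fun _ hr =>
    mul_nonneg ht (deficit_mem hp hr.1 hr.2).1).integrableOn_Icc).mono_set Set.Ioo_subset_Icc_self

lemma ub1_ua_last (R : ℕ) [NeZero R] : ua R (R - 1) = 1 / R := by
  have hR : 0 < R := NeZero.pos R
  have := ua_sub (R := R) (R - 1)
  rw [Nat.sub_add_cancel hR, pa_ua_last hR, sub_zero] at this
  exact this

lemma Gt_one (S : Spec κ) (hp : IsTrialPath p) : Gt S p 1 = S.G p := by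
  simp only [Gt, S.G_eq hp, one_mul]
lemma abs_Gt_le (hΛ : ∀ k, |S.lam k| ≤ Λ) (hp : IsTrialPath p) (ht : 0 ≤ t) :
    |Gt S p t| ≤ t * Λ / 2 := by
  have h1 := norm_setIntegral_le_of_norm_le_const (μ := volume) (s := Set.Ioo (0 : ℝ) 1)
    (f := fun r => t * S.Rh (t * deficit p r)) (C := t * Λ) (by simp) fun r hr => by
      rw [Real.norm_eq_abs, abs_mul, abs_of_nonneg ht]
      exact mul_le_mul_of_nonneg_left (S.abs_psi2_le hΛ le_rfl
        (S.yv_nonneg (mul_nonneg ht (deficit_mem hp hr.1.le hr.2.le).1))) ht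
  rw [Real.norm_eq_abs, Real.volume_real_Ioo_of_le zero_le_one, sub_zero, mul_one] at h1
  rw [Gt, abs_mul, abs_of_pos (by norm_num : (0 : ℝ) < 1 / 2)]
  linarith
lemma Gt_sub (hΛ : ∀ k, |S.lam k| ≤ Λ) (hp : IsTrialPath p) (hh : 0 ≤ h) (ht : h ≤ t) :
    h / 2 * ((∫ r in Set.Ioo (0 : ℝ) 1, S.psi (t * deficit p r)) -
      8 * Λ ^ 2 / S.ρ S.k1 ^ 2 * h) ≤ Gt S p t - Gt S p (t - h) := by
  have ht0 : 0 ≤ t := hh.trans ht
  have ht' : 0 ≤ t - h := sub_nonneg.2 ht
  obtain ⟨L, hL⟩ : ∃ L, L = 8 * Λ ^ 2 / S.ρ S.k1 ^ 2 := ⟨_, rfl⟩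
  have hL0 : 0 ≤ L := by rw [hL]; positivity
  have i0 : IntegrableOn (fun _ : ℝ => L * h) (Set.Ioo (0 : ℝ) 1) := integrableOn_const (by simp)
  have i1 := ub1_int S.ps_cont_psi hp ht0
  have i2 := (ub1_int S.ps_cont_Rh hp ht0).const_mul t
  have i3 := (ub1_int S.ps_cont_Rh hp ht').const_mul (t - h)
  have h1 := setIntegral_mono_on ((i1.sub i0).const_mul h) (i2.sub i3) measurableSet_Ioo
    fun r hr => by
      obtain ⟨h0, h1⟩ := deficit_mem hp hr.1.le hr.2.le
      have h2 := S.scale_Rh_sub ht' (sub_le_self t hh) h0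
      have h3 := S.psi_lip hΛ (mul_nonneg ht0 h0) (mul_nonneg ht' h0)
      rw [← hL, ← sub_mul, sub_sub_cancel, abs_of_nonneg (mul_nonneg hh h0)] at h3
      have h4 := mul_le_mul_of_nonneg_left (mul_le_of_le_one_right hh h1) hL0
      rw [sub_sub_cancel] at h2
      simp only [Pi.sub_apply]
      refine le_trans (mul_le_mul_of_nonneg_left ?_ hh) h2
      linarith [(abs_le.1 h3).2]
  simp only [Pi.sub_apply] at h1
  rw [integral_const_mul, integral_sub i1 i0, integral_sub i2 i3, setIntegral_const,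
    Real.volume_real_Ioo_of_le zero_le_one, sub_zero, one_smul] at h1
  rw [Gt, Gt, ← hL]
  linarith
lemma psi_int_le (hΛ : ∀ k, |S.lam k| ≤ Λ) {p' : ℝ → ℝ} (hp : IsTrialPath p) (hp' : IsTrialPath p')
    (ht : 0 ≤ t) (ht1 : t ≤ 1) {e : ℝ} (he : 0 ≤ e)
    (h : ∀ r, 0 ≤ r → r ≤ 1 → deficit p' r ≤ deficit p r + e) :
    ∫ r in Set.Ioo (0 : ℝ) 1, S.psi (t * deficit p' r) ≤
      (∫ r in Set.Ioo (0 : ℝ) 1, S.psi (t * deficit p r)) + 8 * Λ ^ 2 / S.ρ S.k1 ^ 2 * e := by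
  obtain ⟨L, hL⟩ : ∃ L, L = 8 * Λ ^ 2 / S.ρ S.k1 ^ 2 := ⟨_, rfl⟩
  have hL0 : 0 ≤ L := by rw [hL]; positivity
  have i0 : IntegrableOn (fun _ : ℝ => L * e) (Set.Ioo (0 : ℝ) 1) := integrableOn_const (by simp)
  have i1 := ub1_int S.ps_cont_psi hp ht
  have h1 := setIntegral_mono_on (ub1_int S.ps_cont_psi hp' ht) (i1.add i0) measurableSet_Ioo
    fun r hr => by
      have h0 := (deficit_mem hp hr.1.le hr.2.le).1
      have h0' := (deficit_mem hp' hr.1.le hr.2.le).1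
      have h2 := S.psi_mono (mul_nonneg ht h0')
        (mul_le_mul_of_nonneg_left (h r hr.1.le hr.2.le) ht)
      have h3 := S.psi_lip hΛ (mul_nonneg ht (add_nonneg h0 he)) (mul_nonneg ht h0)
      rw [← hL, ← mul_sub, add_sub_cancel_left, abs_of_nonneg (mul_nonneg ht he)] at h3
      have h4 := mul_le_mul_of_nonneg_left (mul_le_of_le_one_left he ht1) hL0
      simp only [Pi.add_apply]
      linarith [(abs_le.1 h3).2]
  simp only [Pi.add_apply] at h1
  rw [integral_add i1 i0, setIntegral_const, Real.volume_real_Ioo_of_le zero_le_one, sub_zero,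
    one_smul] at h1
  rw [← hL]
  exact h1

lemma psi_end (hΛ : ∀ k, |S.lam k| ≤ Λ) (hp : IsTrialPath p) (hδ' : 0 ≤ δ') (hs : 0 ≤ s) (ht : 0 ≤ t)
    (hb : Boxx s px) :
    Psi S p δ δ' s lab V t y px ≤ val (ua R) (Ham (R := R) 0 V (fun l _ => y l) 0) -
      Fintype.card ι * (∑ l, y l ^ 2 * ((1 - tl p (ua R l)) / 2 + δ)) +
      Fintype.card ι * (t * Λ + 7 * R * s ^ 2) := by
  have ha := exps_ua (NeZero.pos R)
  have h1 := val_Ham_lam ha (lamv := fun b => t * S.lam (lab b)) (V := V) (hy := fun l _ => y l)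
    (px := fun l b => px (lab b) l) (lamv' := 0) (c := t * Λ) fun b => by
      rw [Pi.zero_apply, zero_add]
      exact mul_le_mul_of_nonneg_left (abs_le.1 (hΛ _)).2 ht
  have h2 := val_Ham_px_upper ha (lamv := 0) (V := V) (hy := fun l _ => y l)
    (px := fun l b => px (lab b) l) (B := 5 * s / 2)
    fun l b => abs_le.2 ⟨by linarith [(hb (lab b) l).1], (hb (lab b) l).2⟩
  have hN : (0 : ℝ) ≤ Fintype.card ι := Nat.cast_nonneg _
  have h3 := mul_le_mul_of_nonneg_left (abs_le.1 (abs_Gt_le hΛ hp ht)).1 hN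
  have h4 := mul_nonneg hN (mul_nonneg hδ' ht)
  have h5 := mul_nonneg hN (penx_nonneg s px)
  have h6 : 0 ≤ (Fintype.card ι : ℝ) * (R * s ^ 2) := by positivity
  rw [Psi, HT, HL]
  linarith
lemma psi_upper (hΛ : ∀ k, |S.lam k| ≤ Λ) (hp : IsTrialPath p) (hδ' : 0 ≤ δ') (hs : 0 ≤ s) (ht : 0 ≤ t)
    (ht1 : t ≤ 1) (hy : ∀ l, 0 ≤ y l) (hb : Boxx s px) (hV : ∀ σ, V σ ≤ 0) :
    Psi S p δ δ' s lab V t y px ≤ Fintype.card ι * (R + Λ + 7 * R * s ^ 2 - δ * ∑ l, y l ^ 2) := by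
  have hR := NeZero.pos R
  have ha := exps_ua hR
  have hN : (0 : ℝ) ≤ Fintype.card ι := Nat.cast_nonneg _
  have h1 := psi_end (δ := δ) (lab := lab) (V := V) (y := y) hΛ hp hδ' hs ht hb
  obtain ⟨v, hv⟩ : ∃ v : ℕ → ℝ, v = fun i => if h : i < R then y ⟨i, h⟩ ^ 2 else 0 := ⟨_, rfl⟩
  have hv0 : ∀ i, 0 ≤ v i := fun i => by
    rw [hv]
    beta_reduce
    split_ifs <;> positivity
  have hv1 : ∀ l : Fin R, v l = y l ^ 2 := fun l => by simp [hv]
  have h2 := val_Ham_mono ha (lamv := 0) (lamv' := 0) (V := V) (hy := fun l _ => y l) (px := 0)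
    (V' := fun σ => ∑ r, (0 : ℝ) * spn σ r) (c := 0) (fun _ => le_rfl) fun σ => by simpa using hV σ
  have h3 := val_Ham_free ha (fun _ : ι => 0) (fun _ => v) fun _ => hv0
  simp only [hv1, Real.sqrt_sq (hy _), sum_const, card_univ, nsmul_eq_mul] at h3
  have h4 := Ch_coercive ha hR fun i _ => hv0 i
  rw [ub1_ua_last, ← Fin.sum_univ_eq_sum_range (fun i => ua R i * v i), div_div_eq_mul_div,
    div_one] at h4
  have h5 : Real.log 2 * R ≤ R :=
    mul_le_of_le_one_left (Nat.cast_nonneg _) (by linarith [Real.log_two_lt_d9])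
  have h6 : (∑ l : Fin R, ua R l * v l) / 2 + δ * ∑ l, y l ^ 2 ≤
      ∑ l, y l ^ 2 * ((1 - tl p (ua R l)) / 2 + δ) := by
    rw [sum_div, mul_sum, ← sum_add_distrib]
    refine sum_le_sum fun l _ => ?_
    have := (tl_mem hp (pa_ua_nonneg hR l.2.le) (pa_ua_le_one hR l)).2
    rw [hv1]
    nlinarith [sq_nonneg (y l)]
  have h7 : t * Λ ≤ Λ := mul_le_of_le_one_left ((abs_nonneg _).trans (hΛ S.k1)) ht1
  have h8 := mul_le_mul_of_nonneg_left (show Ch (ua R) v R 0 -
    ∑ l, y l ^ 2 * ((1 - tl p (ua R l)) / 2 + δ) + (t * Λ + 7 * R * s ^ 2) ≤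
      R + Λ + 7 * R * s ^ 2 - δ * ∑ l, y l ^ 2 by linarith) hN
  linarith
lemma psi_ref (S : Spec κ) (hp : IsTrialPath p) (δ δ' s η : ℝ) (lab : ι → κ)
    (V : (ι → Bool) → ℝ) :
    PM (1 / R) (haar ι) (logZ (fun b => S.lam (lab b)) V) -
        Fintype.card ι * (R * η ^ 2 * (1 / 2 + δ) + S.G p + δ') ≤
      Psi (R := R) S p δ δ' s lab V 1 (fun _ => η) fun _ _ => 3 * s / 2 := by
  have hR := NeZero.pos R
  have ha := exps_ua hR
  have hN : (0 : ℝ) ≤ Fintype.card ι := Nat.cast_nonneg _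
  have h1 := val_Ham_zero ha (fun b => S.lam (lab b)) V
  rw [ub1_ua_last] at h1
  have h2 := val_Ham_hy_lower ha (lamv := fun b => S.lam (lab b)) (V := V) (hy := fun _ _ => η)
    (px := 0)
  have h3 := val_Ham_px_lower ha (lamv := fun b => S.lam (lab b)) (V := V) (hy := fun _ _ => η)
    (px := fun _ _ => 3 * s / 2)
  have h4 : ∑ l : Fin R, η ^ 2 * ((1 - tl p (ua R l)) / 2 + δ) ≤ R * η ^ 2 * (1 / 2 + δ) := by
    refine (sum_le_sum (g := fun _ => η ^ 2 * (1 / 2 + δ)) fun l _ => ?_).trans (le_of_eq ?_)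
    · have := (tl_mem hp (pa_ua_nonneg hR l.2.le) (pa_ua_le_one hR l)).1
      nlinarith [sq_nonneg η]
    · simp [mul_assoc]
  have h5 := mul_le_mul_of_nonneg_left h4 hN
  simp only [Psi, HT, HL, Gt_one S hp, penx, one_mul, mul_one, sub_self, ne_eq, OfNat.ofNat_ne_zero,
    not_false_eq_true, zero_pow, sum_const_zero, mul_zero, add_zero]
  linarith

lemma foc_y [Nonempty ι] (hp : IsTrialPath p) (hδ : 0 ≤ δ) (hh : 0 < h) (hη : 0 < η) (l : Fin R)
    (hy : η ≤ y l)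
    (hm : Psi S p δ δ' s lab V t (Function.update y l (y l + h)) px ≤ Psi S p δ δ' s lab V t y px + 1) :
    tl p (ua R l) ≤ Tq (ua R) (qt (ua R) (HT S lab V t y px)) l + 2 * δ + h * (1 + 2 * δ) / (2 * η) +
      1 / (h * η * Fintype.card ι) := by
  have hR : 0 < R := NeZero.pos R
  have ha := exps_ua hR
  have hN : (0 : ℝ) < Fintype.card ι := by exact_mod_cast Fintype.card_pos
  have hφ : ML fun u : St R (YS ι) => ∑ r, ((u l).2.1 r).2 * spn (cfg u) r :=
    ML.sum _ fun r _ =>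
      (mdl_ml_z l r).mul_bdd (measurable_cfg_comp fun σ => spn σ r) 1 fun _ => (abs_sp _).le
  have h1 := val_line ha (ml_HL (fun k => t * S.lam k) lab V (fun l _ => y l) px) hφ h
  have e1 : (fun u => HL (fun k => t * S.lam k) lab V (fun l _ => y l) px u +
      h * ∑ r, ((u l).2.1 r).2 * spn (cfg u) r) =
      HT S lab V t (Function.update y l (y l + h)) px := by
    funext u
    have e : ∑ l', ∑ r, Function.update y l (y l + h) l' * (((u l').2.1 r).2 * spn (cfg u) r) =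
        ∑ l', ∑ r, y l' * (((u l').2.1 r).2 * spn (cfg u) r) +
          h * ∑ r, ((u l).2.1 r).2 * spn (cfg u) r := by
      simp only [← Finset.mul_sum]
      rw [← Finset.add_sum_erase _ _ (mem_univ l), ← Finset.add_sum_erase _
        (fun l' => y l' * ∑ r, ((u l').2.1 r).2 * spn (cfg u) r) (mem_univ l), Function.update_self,
        Finset.sum_congr (s₁ := univ.erase l) rfl fun b hb => by
          rw [Function.update_of_ne (Finset.ne_of_mem_erase hb)]]
      ring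
    simp only [HT, HL, Ham, e]
    ring
  have e2 : EE (ua R) (HL (fun k => t * S.lam k) lab V (fun l _ => y l) px)
      (fun u => ∑ r, ((u l).2.1 r).2 * spn (cfg u) r) =
      y l * Fintype.card ι * (1 - Tq (ua R) (qt (ua R) (HT S lab V t y px)) l) :=
    EE_field ha l fun _ => rfl
  rw [e1, e2] at h1
  have e3 : ∑ l', Function.update y l (y l + h) l' ^ 2 * ((1 - tl p (ua R l')) / 2 + δ) =
      ∑ l', y l' ^ 2 * ((1 - tl p (ua R l')) / 2 + δ) +
        (2 * y l * h + h ^ 2) * ((1 - tl p (ua R l)) / 2 + δ) := by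
    rw [← Finset.add_sum_erase _ _ (mem_univ l), ← Finset.add_sum_erase _
      (fun l' : Fin R => y l' ^ 2 * ((1 - tl p (ua R l')) / 2 + δ)) (mem_univ l),
      Function.update_self,
      Finset.sum_congr rfl fun b hb => by rw [Function.update_of_ne (Finset.ne_of_mem_erase hb)]]
    ring
  have hu1 : ua R l ≤ 1 := ha.zero ▸ ha.anti (Nat.zero_le _)
  have hτ := tl_mem hp (ha.pos l l.2).le hu1
  have hu0 := ha.pos l l.2
  unfold Psi at hm
  rw [e3] at hm
  change val (ua R) (HT S lab V t y px) + _ ≤ _ at h1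
  set T := Tq (ua R) (qt (ua R) (HT S lab V t y px)) l
  set τ := tl p (ua R l)
  set N : ℝ := (Fintype.card ι : ℝ)
  have hy0 : 0 < y l := hη.trans_le hy
  have k1 : h * y l * N * (τ - T - 2 * δ) ≤ 1 + N * h ^ 2 * ((1 - τ) / 2 + δ) := by nlinarith
  have k2 : τ - T - 2 * δ ≤ 1 / (h * y l * N) + h * ((1 - τ) / 2 + δ) / y l := by
    rw [← le_div_iff₀' (by positivity)] at k1
    refine k1.trans (le_of_eq ?_)
    field_simp
  have k3 : 1 / (h * y l * N) ≤ 1 / (h * η * N) := by gcongr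
  have k4 : h * ((1 - τ) / 2 + δ) / y l ≤ h * (1 + 2 * δ) / (2 * η) := by
    calc h * ((1 - τ) / 2 + δ) / y l ≤ h * (1 / 2 + δ) / η := by
          gcongr
          linarith [hτ.1]
      _ = h * (1 + 2 * δ) / (2 * η) := by field_simp
  linarith
lemma foc_t [Nonempty ι] (hΛ : ∀ k, |S.lam k| ≤ Λ) (hp : IsTrialPath p) (hh : 0 < h) (ht : h ≤ t)
    (hm : Psi S p δ δ' s lab V (t - h) y px ≤ Psi S p δ δ' s lab V t y px + 1) :
    (∫ r in Set.Ioo (0 : ℝ) 1, S.psi (t * deficit p r)) - 8 * Λ ^ 2 / S.ρ S.k1 ^ 2 * h + 2 * δ' -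
      2 / (h * Fintype.card ι) ≤ ∑ k, S.lam k * ov (ua R) (HT S lab V t y px) (Xb lab k) 0 := by
  have hR : 0 < R := NeZero.pos R
  have ha := exps_ua hR
  have hN : (0 : ℝ) < Fintype.card ι := by exact_mod_cast Fintype.card_pos
  have hH : ML (HT S lab V t y px) := ml_HL _ _ _ _ _
  have h1 := val_line ha hH (ml_xs_sq fun b => S.lam (lab b)) (-h / 2)
  have e1 : (fun u => HT S lab V t y px u + -h / 2 * ∑ b, S.lam (lab b) * xs u b ^ 2) =
      HT S lab V (t - h) y px := by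
    funext u
    simp only [HT, HL, Ham, sub_mul, mul_assoc, Finset.sum_sub_distrib, ← Finset.mul_sum]
    ring
  rw [e1, EE_energy ha hH] at h1
  have h2 := Gt_sub hΛ hp hh.le ht
  unfold Psi at hm
  set I := ∫ r in Set.Ioo (0 : ℝ) 1, S.psi (t * deficit p r)
  set Q := ∑ k, S.lam k * ov (ua R) (HT S lab V t y px) (Xb lab k) 0
  set c := 8 * Λ ^ 2 / S.ρ S.k1 ^ 2 * h
  set N : ℝ := (Fintype.card ι : ℝ)
  have h3 := mul_le_mul_of_nonneg_left h2 hN.le
  have k1 : h * N * (I - c + 2 * δ' - Q) ≤ 2 := by nlinarith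
  rw [← le_div_iff₀' (by positivity)] at k1
  linarith
lemma pf_conc (hs : 0 < s) (hN : 4 ≤ Fintype.card ι * s ^ 2) (hb : Boxx s px)
    (hm : ∀ px', Boxx s px' → Psi S p δ δ' s lab V t y px' ≤ Psi S p δ δ' s lab V t y px + 1) :
    (∀ k l, s ≤ px k l ∧ px k l ≤ 2 * s) ∧ ∀ k l, EE (ua R) (HT S lab V t y px)
      (fun u => |pf lab k l u - EE (ua R) (HT S lab V t y px) (pf lab k l)|) ≤
        (22 + R) * Real.sqrt (Fintype.card ι) := by
  have hR : 0 < R := NeZero.pos R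
  have hR' : (0 : ℝ) < R := by exact_mod_cast hR
  have ha := exps_ua hR
  obtain ⟨h1, h2⟩ := px_near_max ha (lam := fun k => t * S.lam k) (lab := lab) (V := V)
    (hy := fun l _ => y l) hs hN hb fun k l θ hb' => by
      have := hm _ hb'
      unfold Psi HT at this
      linarith
  refine ⟨fun k l => ?_, fun k l => ?_⟩
  · have := abs_le.1 (h1 k l)
    constructor <;> linarith [this.1, this.2]
  · have hN0 : (0 : ℝ) < Fintype.card ι := by
      by_contra hc
      have : (Fintype.card ι : ℝ) * s ^ 2 ≤ 0 :=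
        mul_nonpos_of_nonpos_of_nonneg (not_lt.1 hc) (sq_nonneg s)
      linarith
    have hq : 0 < Real.sqrt (Fintype.card ι) := Real.sqrt_pos.2 hN0
    have hq2 : Real.sqrt (Fintype.card ι) ^ 2 = Fintype.card ι := Real.sq_sqrt hN0.le
    set q := Real.sqrt (Fintype.card ι)
    have hθ : |1 / q| ≤ s / 2 := by
      rw [abs_of_pos (by positivity), div_le_div_iff₀ hq two_pos]
      refine (pow_le_pow_iff_left₀ (by norm_num) (by positivity) two_ne_zero).1 ?_
      rw [mul_pow s, hq2]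
      linarith
    have h3 := h2 k l (1 / q) hθ
    have e : 20 * (Fintype.card ι : ℝ) * (1 / q) ^ 2 + 2 = 22 := by
      rw [← hq2]
      field_simp
      norm_num
    rw [e, HL_shx, HL_shx] at h3
    simp only [neg_mul, ← sub_eq_add_neg] at h3
    have h4 := conc_of_second_diff ha (ml_HL (fun k => t * S.lam k) lab V (fun l _ => y l) px)
      ((ml_pf lab k l).const_mul (1 / q)) (m := 1 / R) (by positivity) (fun i hi => by
        have h5 : (i : ℝ) + 1 ≤ R := by exact_mod_cast hi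
        have h6 := ua_sub (R := R) i
        have h7 : 0 ≤ ua R (i + 1) := ha.last.trans (ha.anti hi)
        linarith) h3
    rw [EE_const_mul] at h4
    simp only [← mul_sub, abs_mul, abs_of_pos (by positivity : 0 < 1 / q)] at h4
    rw [EE_const_mul, one_div, one_div, inv_inv, ← div_eq_inv_mul, div_le_iff₀ hq] at h4
    refine h4.trans (mul_le_mul_of_nonneg_right ?_ hq.le)
    have h2 : Real.log 2 ≤ 1 := by linarith [Real.log_two_lt_d9]
    nlinarith

end Crest.Agent.R164
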