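import Crest.Agent.R164.UB1

/-!
# R164 / UB2: the upper bound for one constrained system

Constants: `Λ = Σ |lam k|`, `L = 8Λ²/ρ₁²`, `δ' = ε/8`; `δ ≤ 1` and `ε₁` small with `2 L δ ≤ δ'/4`,
`|κ| Λ ε₁ ≤ δ'/4`; `structure_thm (min ρ) Λ ε₁` gives `R₀`; `R ≥ R₀` with `L/R ≤ δ'/4`; then `s₀, e`;
`s ≤ s₀`, `7 R s² ≤ ε/8`, `2 R η² ≤ ε/8`, `h ≤ 1` small (`h Λ ≤ ε/8`, `L h`, `L h (1+2δ)/(2η)` small against `δ'`).
`Psi` is bounded above on `{0 ≤ t ≤ 1, η ≤ y, Boxx s px}` (`psi_upper`); take a point within `1` of the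
supremum.  If `h ≤ t`: `pf_conc` and `structure_thm` for `S.scale t` (`HT … = Ham …` by `rfl`) give
`Σ_k lam k ov_k 0 ≤ Σ_k lam k ck_k + |κ| Λ ε₁`, `energy_eq` (`isOv_qt`, `qt_top`) turns the sum into
`∫ ψ(t D_q)`; `foc_y`, `tl_pth`, `deficit_le`, `psi_int_le` bound it by `∫ ψ(t D_p) + small`; this
contradicts `foc_t`.  So `t < h`; `psi_ref`, `psi_end` give the bound with `v l = y l ²` (`0` for `l ≥ R`),
and `psi_ref`, `psi_upper`, `le_logZ`, `PM_mono`, `PM_const`, `abs_G_le` bound `δ Σ y²`.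
-/

set_option autoImplicit false

open MeasureTheory ProbabilityTheory Finset Matrix Crest.ProbabilityR.InvariantGlass

namespace Crest.Agent.R164

lemma ub2_small {C a b : ℝ} (hC : 0 ≤ C) (ha : 0 < a) (hb : 0 < b) :
    ∃ x, 0 < x ∧ x ≤ b ∧ C * x ≤ a := by
  refine ⟨min b (a / (C + 1)), by positivity, min_le_left _ _, ?_⟩
  refine (mul_le_mul_of_nonneg_left (min_le_right _ _) hC).trans ?_
  rw [← mul_div_assoc, div_le_iff₀ (by positivity)]
  nlinarith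

section
variable {κ ι : Type} [Fintype κ] [DecidableEq κ] [Fintype ι] [DecidableEq ι]
  {S : Spec κ} {p : ℝ → ℝ} {Λ δ δ' s t h η : ℝ} {R : ℕ} [NeZero R] {lab : ι → κ}
  {V : (ι → Bool) → ℝ} {y : Fin R → ℝ} {px : κ → Fin R → ℝ}

/-- The first order conditions at an interior near maximiser. -/
lemma ub2_foc [Nonempty ι] (hΛ : ∑ k, |S.lam k| ≤ Λ) (hp : IsTrialPath p) (hδ : 0 ≤ δ) (hh : 0 < h)
    (hη : 0 < η) (ht : h ≤ t) (ht1 : t ≤ 1) (hy : ∀ l, η ≤ y l) {ε₁ : ℝ}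
    (hm : ∀ t' y', 0 ≤ t' → t' ≤ 1 → (∀ l, η ≤ y' l) →
      Psi S p δ δ' s lab V t' y' px ≤ Psi S p δ δ' s lab V t y px + 1)
    (hs : ∀ k, |ov (ua R) (HT S lab V t y px) (Xb lab k) 0 -
      (S.scale t (hh.le.trans ht)).ck (ua R) (qt (ua R) (HT S lab V t y px)) R k 0| ≤ ε₁) :
    2 * δ' ≤ 8 * Λ ^ 2 / S.ρ S.k1 ^ 2 * h + 2 / (h * Fintype.card ι) + Λ * ε₁ +
      8 * Λ ^ 2 / S.ρ S.k1 ^ 2 *
        (2 * δ + h * (1 + 2 * δ) / (2 * η) + 1 / (h * η * Fintype.card ι) + 1 / R) := by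
  have hR : 0 < R := NeZero.pos R
  have hΛ' : ∀ k, |S.lam k| ≤ Λ := fun k =>
    (single_le_sum (f := fun k => |S.lam k|) (fun _ _ => abs_nonneg _) (mem_univ k)).trans hΛ
  have hq := isOv_qt (exps_ua hR) (ml_HL (fun k => t * S.lam k) lab V (fun l _ => y l) px)
  have h1 := foc_t hΛ' hp hh ht (hm _ _ (by linarith) (by linarith) hy)
  have h2 := S.energy_eq hR hq (qt_top _ _) (hh.trans_le ht)
  have h3 := psi_int_le hΛ' hp (hq.trial hR) (hh.le.trans ht) ht1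
    (e := 2 * δ + h * (1 + 2 * δ) / (2 * η) + 1 / (h * η * Fintype.card ι) + 1 / R)
    (by positivity) fun r h0 h1 => by
      rw [← add_assoc]
      refine deficit_le hR hp (hq.trial hR) (by positivity) (fun l _ hl => ?_) h0 h1
      have := foc_y hp hδ hh hη ⟨l, hl⟩ (hy _) (hm t _ (hh.le.trans ht) ht1 fun l' => by
        rcases eq_or_ne l' ⟨l, hl⟩ with rfl | hl'
        · rw [Function.update_self]; linarith [hy ⟨l, hl⟩]
        · rw [Function.update_of_ne hl']; exact hy l')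
      rw [tl_pth hR _ hl.le]
      exact this.trans (le_of_eq (by simp only [HT]; ring))
  have h4 : ∑ k, S.lam k * (ov (ua R) (HT S lab V t y px) (Xb lab k) 0 -
      (S.scale t (hh.le.trans ht)).ck (ua R) (qt (ua R) (HT S lab V t y px)) R k 0) ≤ Λ * ε₁ := by
    refine le_trans ?_ (mul_le_mul_of_nonneg_right hΛ ((abs_nonneg _).trans (hs S.k1)))
    rw [sum_mul]
    refine sum_le_sum fun k _ => (le_abs_self _).trans ?_
    rw [abs_mul]
    exact mul_le_mul_of_nonneg_left (hs k) (abs_nonneg _)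
  simp only [mul_sub, sum_sub_distrib] at h4
  simp only [HT] at h1 h4
  linarith

lemma ub2_PM (hΛ : ∀ k, |S.lam k| ≤ Λ) (hV : ∀ σ, V σ ≤ 0) {σ : ι → Bool} (hσ : V σ = 0) :
    -(Fintype.card ι * (Λ / 2 + 1)) ≤ PM (1 / R) (haar ι) (logZ (fun b => S.lam (lab b)) V) := by
  have hm : (0 : ℝ) < 1 / R := by have := NeZero.pos R; positivity
  rw [← PM_const (ν := haar ι) hm (-_)]
  refine PM_mono hm (integrable_const _) (Integrable.of_bound
    ((measurable_logZ _ _).const_mul _).exp.aestronglyMeasurable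
    (Real.exp (1 / R * (0 + Fintype.card ι * Λ / 2))) (ae_of_all _ fun U => ?_)) fun U => ?_
  · rw [Real.norm_of_nonneg (Real.exp_pos _).le, Real.exp_le_exp]
    exact mul_le_mul_of_nonneg_left (logZ_le (fun b => hΛ _) hV U) hm.le
  · have := le_logZ (V := V) (fun b => hΛ (lab b)) σ U
    rwa [hσ, zero_sub] at this

end

set_option maxHeartbeats 400000 in
theorem ub_main {κ : Type} [Fintype κ] [DecidableEq κ] (S : Spec κ) {ε : ℝ} (hε : 0 < ε) :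
    ∃ (R : ℕ) (_ : NeZero R) (Hb e : ℝ) (N₀ : ℕ), 0 < e ∧ 0 ≤ Hb ∧ ∀ p, IsTrialPath p →
    ∀ (ι : Type) [Fintype ι] [DecidableEq ι] (lab : ι → κ) (V : (ι → Bool) → ℝ),
      N₀ ≤ Fintype.card ι → Prp lab S.ρ e → (∀ σ, V σ ≤ 0) → (∃ σ, V σ = 0) →
      ∃ v : ℕ → ℝ, (∀ i, 0 ≤ v i) ∧ ∑ l ∈ range R, v l ≤ Hb ∧
        PM (1 / R) (haar ι) (logZ (fun b => S.lam (lab b)) V) ≤
          val (ua R) (Ham (R := R) 0 V (fun l _ => Real.sqrt (v l)) 0) -
            Fintype.card ι * (∑ l ∈ range R, v l) / 2 +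
            Fintype.card ι * ((∑ l ∈ range R, v l * tl p (ua R l)) / 2 + S.G p + ε) := by
  obtain ⟨Λ, hΛe⟩ : ∃ Λ, Λ = ∑ k, |S.lam k| := ⟨_, rfl⟩
  have hΛ0 : 0 ≤ Λ := hΛe ▸ sum_nonneg fun _ _ => abs_nonneg _
  have hΛ : ∀ k, |S.lam k| ≤ Λ := fun k =>
    hΛe ▸ single_le_sum (f := fun k => |S.lam k|) (fun _ _ => abs_nonneg _) (mem_univ k)
  obtain ⟨L, hL⟩ : ∃ L, L = 8 * Λ ^ 2 / S.ρ S.k1 ^ 2 := ⟨_, rfl⟩
  have hL0 : 0 ≤ L := by rw [hL]; positivity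
  obtain ⟨δ', hδ', rfl⟩ : ∃ δ', 0 < δ' ∧ ε = 8 * δ' := ⟨ε / 8, by positivity, by ring⟩
  obtain ⟨δ, hδ, hδ1, hδ2⟩ := ub2_small (C := 8 * L) (by positivity) hδ' one_pos
  obtain ⟨ε₁, hε₁, -, hε₂⟩ := ub2_small (C := 4 * Λ) (by positivity) hδ' one_pos
  obtain ⟨k₀, -, hk₀⟩ := exists_min_image univ S.ρ ⟨S.k1, mem_univ _⟩
  obtain ⟨R₀, hR₀⟩ := structure_thm (S.ρ k₀) Λ ε₁ (S.ρ_pos _) hε₁
  obtain ⟨R, hR⟩ : ∃ R, R = R₀ + ⌈4 * L / δ'⌉₊ + 1 := ⟨_, rfl⟩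
  have : NeZero R := ⟨by omega⟩
  have hR0 : (0 : ℝ) < R := by exact_mod_cast NeZero.pos R
  have hR1 : L * (1 / R) ≤ δ' / 4 := by
    have h1 : 4 * L / δ' ≤ R := Nat.ceil_le.1 (by omega)
    rw [div_le_iff₀ hδ'] at h1
    rw [mul_one_div, div_le_iff₀ hR0]
    linarith
  obtain ⟨s₀, e, hs₀, he, hst⟩ := hR₀ R (by omega)
  obtain ⟨s, hs, hs1, hs2⟩ := ub2_small (C := 7 * R) (by positivity) hδ' (lt_min hs₀ one_pos)
  obtain ⟨η, hη, hη1, hη2⟩ := ub2_small (C := 2 * R) (by positivity) hδ' one_pos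
  obtain ⟨h, hh, hh1, hh2⟩ :=
    ub2_small (C := 8 * (Λ + L + L * (3 / (2 * η)))) (by positivity) hδ' one_pos
  have hs3 : 7 * R * s ^ 2 ≤ δ' := by
    have : s ^ 2 ≤ s := by nlinarith [hs1.trans (min_le_right _ _)]
    exact (mul_le_mul_of_nonneg_left this (by positivity)).trans hs2
  have hη3 : R * η ^ 2 * (1 / 2 + δ) ≤ δ' := by
    have : η ^ 2 * (1 / 2 + δ) ≤ η * 2 := by
      rw [sq, mul_assoc]
      exact mul_le_mul_of_nonneg_left (by nlinarith) hη.le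
    rw [mul_assoc]
    exact (mul_le_mul_of_nonneg_left this hR0.le).trans (by linarith)
  refine ⟨R, this, (R + 2 * Λ + 2 + 8 * δ') / δ, e, ⌈4 / s ^ 2 + ((22 + R) / (e * s)) ^ 2 +
    16 / (h * δ') + 8 * L / (h * η * δ') + 1 / δ' + 1⌉₊, he, by positivity,
    fun p hp ι _ _ lab V hN hP hV ⟨σ, hσ⟩ => ?_⟩
  rw [Nat.ceil_le] at hN
  have p1 : 0 < 4 / s ^ 2 := by positivity
  have p2 : 0 < ((22 + R) / (e * s)) ^ 2 := by positivity
  have p3 : 0 < 16 / (h * δ') := by positivity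
  have p4 : 0 ≤ 8 * L / (h * η * δ') := by positivity
  have p5 : 0 < 1 / δ' := by positivity
  have hN1 : (1 : ℝ) ≤ Fintype.card ι := by linarith
  have : Nonempty ι := Fintype.card_pos_iff.1 (by exact_mod_cast one_pos.trans_le hN1)
  have n1 : 4 ≤ Fintype.card ι * s ^ 2 := (div_le_iff₀ (by positivity)).1 (by linarith)
  have n2 : (22 + R) * Real.sqrt (Fintype.card ι) ≤ e * s * Fintype.card ι := by
    have h1 : (22 + R) / (e * s) ≤ Real.sqrt (Fintype.card ι) :=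
      Real.le_sqrt_of_sq_le (by linarith)
    rw [div_le_iff₀ (by positivity)] at h1
    refine (mul_le_mul_of_nonneg_right h1 (Real.sqrt_nonneg _)).trans (le_of_eq ?_)
    rw [mul_comm _ (e * s), mul_assoc (e * s), Real.mul_self_sqrt (Nat.cast_nonneg _)]
  have n3 : 2 / (h * Fintype.card ι) ≤ δ' / 8 := by
    have h1 : 16 ≤ Fintype.card ι * (h * δ') := (div_le_iff₀ (by positivity)).1 (by linarith)
    rw [div_le_iff₀ (by positivity)]
    linarith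
  have n4 : L * (1 / (h * η * Fintype.card ι)) ≤ δ' / 8 := by
    have h1 : 8 * L ≤ Fintype.card ι * (h * η * δ') :=
      (div_le_iff₀ (by positivity)).1 (by linarith)
    rw [mul_one_div, div_le_iff₀ (by positivity)]
    linarith
  have n5 : 1 ≤ Fintype.card ι * δ' := (div_le_iff₀ hδ').1 (by linarith)
  have hup : ∀ t (y : Fin R → ℝ) px, 0 ≤ t → t ≤ 1 → (∀ l, η ≤ y l) → Boxx s px →
      Psi S p δ δ' s lab V t y px ≤ Fintype.card ι * (R + Λ + 7 * R * s ^ 2 - δ * ∑ l, y l ^ 2) :=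
    fun t y px h0 h1 hy hb =>
      psi_upper hΛ hp hδ'.le hs.le h0 h1 (fun l => hη.le.trans (hy l)) hb hV
  obtain ⟨t, y, px, ht0, ht1, hy, hb, hm⟩ : ∃ (t : ℝ) (y : Fin R → ℝ) (px : κ → Fin R → ℝ),
      0 ≤ t ∧ t ≤ 1 ∧ (∀ l, η ≤ y l) ∧ Boxx s px ∧ ∀ t' y' px', 0 ≤ t' → t' ≤ 1 → (∀ l, η ≤ y' l) →
        Boxx s px' → Psi S p δ δ' s lab V t' y' px' ≤ Psi S p δ δ' s lab V t y px + 1 := by
    let Z : Set ℝ := {z | ∃ (t : ℝ) (y : Fin R → ℝ) (px : κ → Fin R → ℝ),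
      0 ≤ t ∧ t ≤ 1 ∧ (∀ l, η ≤ y l) ∧ Boxx s px ∧ z = Psi S p δ δ' s lab V t y px}
    have hZ : BddAbove Z := ⟨Fintype.card ι * (R + Λ + 7 * R * s ^ 2), by
      rintro _ ⟨t, y, px, h0, h1, hy, hb, rfl⟩
      exact (hup t y px h0 h1 hy hb).trans (mul_le_mul_of_nonneg_left
        (sub_le_self _ (by positivity)) (Nat.cast_nonneg _))⟩
    obtain ⟨_, ⟨t, y, px, h0, h1, hy, hb, rfl⟩, h2⟩ := exists_lt_of_lt_csSup (s := Z)
      ⟨_, 0, fun _ => η, _, le_rfl, zero_le_one, fun _ => le_rfl, pen_box hs, rfl⟩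
      (sub_one_lt (sSup Z))
    exact ⟨t, y, px, h0, h1, hy, hb, fun t' y' px' h0' h1' hy' hb' =>
      (le_csSup hZ ⟨t', y', px', h0', h1', hy', hb', rfl⟩).trans (by linarith)⟩
  have q1 : 0 ≤ Λ * h := by positivity
  have q2 : 0 ≤ L * h := by positivity
  have q3 : 0 ≤ L * (3 / (2 * η)) * h := by positivity
  have hth : t < h := by
    by_contra! hth
    obtain ⟨c1, c2⟩ := pf_conc hs n1 hb fun px' hb' => hm t y px' ht0 ht1 hy hb'
    have h1 := (hst κ (S.scale t ht0) (fun k => hk₀ k (mem_univ k))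
      (fun k => by
        change |t * S.lam k| ≤ Λ
        rw [abs_mul, abs_of_nonneg ht0]
        exact (mul_le_of_le_one_left (abs_nonneg _) ht1).trans (hΛ k))
      ι lab V (fun l _ => y l) px s hs (hs1.trans (min_le_left _ _)) c1 hP (HT S lab V t y px) rfl
      fun k l => (c2 k l).trans n2).1
    have h2 := ub2_foc hΛe.ge hp hδ.le hh hη hth ht1 hy
      (fun t' y' h0 h1 hy' => hm t' y' px h0 h1 hy' hb) h1
    have h3 : L * (h * (1 + 2 * δ) / (2 * η)) ≤ L * (3 / (2 * η)) * h := by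
      rw [mul_assoc]
      refine mul_le_mul_of_nonneg_left ?_ hL0
      rw [mul_div_assoc, mul_comm]
      gcongr
      linarith
    rw [← hL] at h2
    linarith only [h2, h3, n3, n4, hR1, hε₂, hδ2, hh2, q1, q2, q3, hδ']
  have r1 := (psi_ref S hp δ δ' s η lab V).trans
    (hm 1 (fun _ => η) _ zero_le_one le_rfl (fun _ => le_rfl) (pen_box hs))
  have r2 := psi_end (δ := δ) (lab := lab) (V := V) (y := y) hΛ hp hδ'.le hs.le ht0 hb
  have r3 := hup t y px ht0 ht1 hy hb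
  have r4 := ub2_PM (R := R) (lab := lab) hΛ hV hσ
  have r5 := (abs_le.1 (S.abs_G_le hΛ hp)).2
  have r6 : t * Λ ≤ δ' := by
    linarith only [mul_le_mul_of_nonneg_right hth.le hΛ0, hh2, q1, q2, q3]
  have hN0 : (0 : ℝ) ≤ Fintype.card ι := Nat.cast_nonneg _
  have m1 := mul_le_mul_of_nonneg_left hη3 hN0
  have m2 := mul_le_mul_of_nonneg_left hs3 hN0
  have m3 := mul_le_mul_of_nonneg_left r5 hN0
  have m4 := mul_le_mul_of_nonneg_left r6 hN0
  have m5 : 0 ≤ Fintype.card ι * (δ * ∑ l, y l ^ 2) := by positivity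
  let v : ℕ → ℝ := fun l => if h : l < R then y ⟨l, h⟩ ^ 2 else 0
  have hv : ∀ l : Fin R, v l = y l ^ 2 := fun l => dif_pos l.2
  refine ⟨v, fun i => by simp only [v]; split_ifs <;> positivity, ?_, ?_⟩
  · rw [sum_range, le_div_iff₀ hδ]
    simp only [hv]
    refine le_of_mul_le_mul_left ?_ (one_pos.trans_le hN1)
    linarith only [r1, r3, r4, m1, m2, m3, n5, hN1]
  · have e1 : ∑ l, y l ^ 2 * ((1 - tl p (ua R l)) / 2 + δ) =
        (∑ l, y l ^ 2) / 2 - (∑ l, y l ^ 2 * tl p (ua R l)) / 2 + δ * ∑ l, y l ^ 2 := by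
      simp only [sum_div, mul_sum, ← sum_sub_distrib, ← sum_add_distrib]
      exact sum_congr rfl fun l _ => by ring
    rw [e1] at r2
    simp only [sum_range, hv, fun l => Real.sqrt_sq (hη.le.trans (hy l))]
    linarith only [r1, r2, m1, m2, m4, m5, n5]

end Crest.Agent.R164
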