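import Crest.Agent.R164.UB2

/-!
# R164 / UpperMain: the upper bound for finite spectra

`class_bound`: for a set `P` of configurations put `V = 0` on `P`, `-L N` off `P`.  With `b j` from `exists_osc`
at `m j` (`|b j| ≤ (1 + Hb/2)/η`), `V σ ≤ Σ_r b (fld r) σ r - Σ_j b j m j N_j` for all `σ` (on `P` by the sign
hypothesis, off `P` when `L ≥ 2 max |b|`).  `ub_main`, `val_Ham_mono`, `val_Ham_free`, `abs_osc_le`, and
`UBh` give the bound.  (`V` must be fixed before `v`: take `L = 2 (1 + Hb/2)/η`.)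
`upper_main`: classes are indexed by maps `J → T` (`exists_grid_m`, applied to `Sg fld j σ / ct fld j`);
`Z ≤ Σ_{nonempty classes} e^{Σ c m N_j + cb η N} Z_class`, `(Σ z)^m ≤ Σ z^m` for `m ≤ 1` (`PM_log_sum`).
-/

set_option autoImplicit false

open MeasureTheory ProbabilityTheory Finset Matrix

namespace Crest.Agent.R164

lemma exists_grid_m {η : ℝ} (hη : 0 < η) : ∃ (T : Finset ℚ) (η' : ℝ), 0 < η' ∧
    (∀ q ∈ T, |(q : ℝ)| ≤ 1 - η') ∧ ∀ x : ℝ, |x| ≤ 1 → ∃ q ∈ T, |x - q| ≤ η ∧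
      ∀ b : ℝ, 0 ≤ b * q → ((q : ℝ) = 0 → b = 0) → b * q ≤ b * x := by
  obtain ⟨n, hn⟩ := exists_nat_one_div_lt (half_pos hη)
  have hn0 : (0 : ℝ) < (n : ℝ) + 1 := by positivity
  let T₀ : Finset ℚ := (range (n + 1)).image fun k : ℕ => (k : ℚ) / (n + 1)
  have h0 : ∀ q ∈ T₀, 0 ≤ (q : ℝ) ∧ (q : ℝ) ≤ 1 - 1 / ((n : ℝ) + 1) := fun q hq => by
    obtain ⟨k, hk, rfl⟩ := Finset.mem_image.1 hq
    have h1 : (k : ℝ) ≤ n := Nat.cast_le.2 (Nat.lt_succ_iff.1 (mem_range.1 hk))
    push_cast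
    refine ⟨by positivity, ?_⟩
    rw [le_sub_iff_add_le, ← add_div, div_le_one hn0]
    linarith
  have h1 : ∀ x : ℝ, 0 ≤ x → x ≤ 1 → ∃ q ∈ T₀, (q : ℝ) ≤ x ∧ x - q ≤ η := fun x hx hx1 => by
    have h2 : ⌊x * n⌋₊ ≤ n := Nat.floor_le_of_le (by nlinarith [Nat.cast_nonneg (α := ℝ) n])
    refine ⟨_, Finset.mem_image_of_mem _ (mem_range.2 (Nat.lt_succ_of_le h2)), ?_, ?_⟩
    · push_cast
      rw [div_le_iff₀ hn0]
      linarith [Nat.floor_le (a := x * n) (by positivity), mul_add x n 1]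
    · push_cast
      rw [div_lt_iff₀ hn0] at hn
      rw [sub_le_comm, le_div_iff₀ hn0]
      linarith [Nat.lt_floor_add_one (x * n), mul_add x n 1, sub_mul x η (n + 1)]
  refine ⟨T₀ ∪ T₀.image (fun q => -q), 1 / ((n : ℝ) + 1), by positivity, fun q hq => ?_,
    fun x hx => ?_⟩
  · rcases Finset.mem_union.1 hq with hq | hq
    · rw [abs_of_nonneg (h0 q hq).1]
      exact (h0 q hq).2
    · obtain ⟨q', hq', rfl⟩ := Finset.mem_image.1 hq
      rw [Rat.cast_neg, abs_neg, abs_of_nonneg (h0 q' hq').1]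
      exact (h0 q' hq').2
  · rcases le_total 0 x with h | h
    · obtain ⟨q, hq, h2, h3⟩ := h1 x h (abs_le.1 hx).2
      refine ⟨q, Finset.mem_union_left _ hq, by rwa [abs_of_nonneg (by linarith)],
        fun b hb hb0 => ?_⟩
      rcases (h0 q hq).1.eq_or_lt with h4 | h4
      · simp [hb0 h4.symm]
      · exact mul_le_mul_of_nonneg_left h2 (nonneg_of_mul_nonneg_left hb h4)
    · obtain ⟨q, hq, h2, h3⟩ := h1 (-x) (by linarith) (by linarith [(abs_le.1 hx).1])
      refine ⟨-q, Finset.mem_union_right _ (Finset.mem_image_of_mem _ hq), ?_, fun b hb hb0 => ?_⟩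
      · rw [Rat.cast_neg, abs_of_nonpos (by linarith)]
        linarith
      · rw [Rat.cast_neg] at hb hb0 ⊢
        rcases (h0 q hq).1.eq_or_lt with h4 | h4
        · simp [hb0 (by rw [← h4, neg_zero])]
        · have h5 : 0 ≤ -b := nonneg_of_mul_nonneg_left (by linarith) h4
          nlinarith

lemma PM_log_sum {P α : Type} [MeasurableSpace P] {ν : Measure P} [IsProbabilityMeasure ν]
    (T : Finset α) {F : P → ℝ} {G : α → P → ℝ} {m B : ℝ} (hm : 0 < m) (hm1 : m ≤ 1)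
    (hF : Measurable F) (hG : ∀ i, Measurable (G i)) (hb : ∀ i, ∃ K, ∀ x, G i x ≤ K)
    (h : ∀ x, Real.exp (F x) ≤ ∑ i ∈ T, Real.exp (G i x)) (hB : ∀ i ∈ T, PM m ν (G i) ≤ B) :
    PM m ν F ≤ B + m⁻¹ * Real.log T.card := by
  have hi : ∀ i, Integrable (fun x => Real.exp (m * G i x)) ν := fun i => by
    obtain ⟨K, hK⟩ := hb i
    refine Integrable.of_bound ((hG i).const_mul m).exp.aestronglyMeasurable (Real.exp (m * K))
      (ae_of_all _ fun x => ?_)
    rw [Real.norm_of_nonneg (Real.exp_pos _).le]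
    exact Real.exp_le_exp.2 (mul_le_mul_of_nonneg_left (hK x) hm.le)
  have h1 : ∀ x, Real.exp (m * F x) ≤ ∑ i ∈ T, Real.exp (m * G i x) := fun x => by
    have hS : 0 < ∑ i ∈ T, Real.exp (G i x) := (Real.exp_pos _).trans_le (h x)
    obtain ⟨s, hs⟩ : ∃ s, Real.exp s = ∑ i ∈ T, Real.exp (G i x) := ⟨_, Real.exp_log hS⟩
    have h2 : F x ≤ s := Real.exp_le_exp.1 (hs ▸ h x)
    refine (Real.exp_le_exp.2 (mul_le_mul_of_nonneg_left h2 hm.le)).trans ?_
    have h3 : Real.exp (m * s) = ∑ i ∈ T, Real.exp (G i x + (m * s - s)) := by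
      simp only [Real.exp_add, ← Finset.sum_mul, ← hs]
      rw [← Real.exp_add, add_sub_cancel]
    rw [h3]
    refine Finset.sum_le_sum fun i hi => Real.exp_le_exp.2 ?_
    have h4 : G i x ≤ s := Real.exp_le_exp.1 (hs ▸ Finset.single_le_sum
      (f := fun i => Real.exp (G i x)) (fun _ _ => (Real.exp_pos _).le) hi)
    nlinarith
  have hs := integrable_finsetSum T fun i _ => hi i
  have hiF : Integrable (fun x => Real.exp (m * F x)) ν :=
    hs.mono' (hF.const_mul m).exp.aestronglyMeasurable (ae_of_all _ fun x => by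
      rw [Real.norm_of_nonneg (Real.exp_pos _).le]
      exact h1 x)
  have h2 : ∫ x, Real.exp (m * F x) ∂ν ≤ T.card * Real.exp (m * B) := by
    refine (integral_mono hiF hs h1).trans ?_
    rw [integral_finsetSum _ fun i _ => hi i, ← nsmul_eq_mul, ← Finset.sum_const]
    refine Finset.sum_le_sum fun i hiT => ?_
    rw [← Real.log_le_iff_le_exp (integral_exp_pos (hi i))]
    exact (inv_mul_le_iff₀ hm).1 (hB i hiT)
  have h3 := integral_exp_pos hiF
  have h4 : (T.card : ℝ) ≠ 0 := fun h0 => by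
    rw [h0, zero_mul] at h2
    linarith
  have h5 := Real.log_le_log h3 h2
  rw [Real.log_mul h4 (Real.exp_pos _).ne', Real.log_exp] at h5
  unfold PM
  rw [inv_mul_le_iff₀ hm, mul_add, mul_inv_cancel_left₀ hm.ne']
  linarith

variable {κ J : Type} [Fintype κ] [DecidableEq κ] [Fintype J] [DecidableEq J]

lemma cb_sum {ι : Type} [Fintype ι] [DecidableEq ι] (fld : ι → J) (f : J → ℝ) :
    ∑ r, f (fld r) = ∑ j, (ct fld j : ℝ) * f j := by
  rw [← sum_blocks fld]
  refine Finset.sum_congr rfl fun j _ => ?_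
  rw [Finset.sum_congr rfl fun (a : {a // fld a = j}) _ => by rw [a.2]]
  rw [Finset.sum_const, Finset.card_univ, card_block, nsmul_eq_mul]

open Classical in
theorem class_bound (S : Spec κ) (γ : J → ℝ) (hγ : ∀ j, 0 < γ j) (hγs : ∑ j, γ j = 1) (c : J → ℝ)
    {F : ℝ} (h : UBh S.G c γ F) {ε : ℝ} (hε : 0 < ε) : ∃ m₀ : ℝ, 0 < m₀ ∧ m₀ ≤ 1 ∧
    ∀ η : ℝ, 0 < η → ∃ (L e : ℝ) (N₀ : ℕ), 0 < e ∧
    ∀ (ι : Type) [Fintype ι] [DecidableEq ι] (lab : ι → κ) (fld : ι → J) (m : J → ℚ)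
      (P : (ι → Bool) → Prop), N₀ ≤ Fintype.card ι → Prp lab S.ρ e → Prp fld γ e →
      (∀ j, |(m j : ℝ)| ≤ 1 - η) → (∃ σ, P σ) →
      (∀ σ, P σ → ∀ j (b : ℝ), 0 ≤ b * m j → ((m j : ℝ) = 0 → b = 0) →
        b * m j * ct fld j ≤ b * Sg fld j σ) →
      PM m₀ (haar ι) (logZ (fun b => S.lam (lab b))
        fun σ => if P σ then 0 else -(L * Fintype.card ι)) ≤
        Fintype.card ι * (F - ∑ j, γ j * c j * m j + ε) := by
  obtain ⟨R, hRn, Hb, e₀, N₀, he₀, hHb, hub⟩ := ub_main S (half_pos hε)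
  have hR : 0 < R := NeZero.pos R
  have hR1 : (1 : ℝ) ≤ R := by exact_mod_cast hR
  have ha := exps_ua hR
  refine ⟨1 / R, by positivity, by rw [div_le_one (by positivity)]; exact hR1, fun η hη => ?_⟩
  set K : ℝ := 1 + Hb / 2 with hK
  have hK0 : 0 < K := by positivity
  set e₁ : ℝ := ε / 2 / ((Fintype.card J + 1) * K) with he₁
  refine ⟨2 * (K / η), min e₀ e₁, max N₀ 1, lt_min he₀ (by positivity), ?_⟩
  intro ι _ _ lab fld m P hN hlab hfld hm hP hsign
  have hN0 : (0 : ℝ) < Fintype.card ι := by exact_mod_cast (le_max_right _ _).trans hN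
  have hm1 : ∀ j, |(m j : ℝ)| < 1 := fun j => by linarith [hm j]
  obtain ⟨p, hp, hF⟩ := h m fun j => by
    have := abs_lt.1 (hm1 j)
    exact ⟨by exact_mod_cast this.1, by exact_mod_cast this.2⟩
  have hL : 0 ≤ 2 * (K / η) * Fintype.card ι := by positivity
  obtain ⟨v, hv0, hv, hle⟩ := hub p hp ι lab
    (fun σ => if P σ then 0 else -(2 * (K / η) * Fintype.card ι)) ((le_max_left _ _).trans hN)
    (hlab.mono (min_le_left _ _)) (fun σ => by split_ifs <;> linarith)
    (by obtain ⟨σ, hσ⟩ := hP; exact ⟨σ, if_pos hσ⟩)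
  have hau : ∀ i < R, 0 ≤ ua R i ∧ ua R i ≤ 1 := fun i hi => ⟨(ha.pos i hi).le, ha.cov_le_one i⟩
  choose b hb1 hb2 hb3 hb4 using fun j => exists_osc hau (fun i _ => hv0 i) (hm1 j)
  have hbK : ∀ j, |b j| ≤ K / η := fun j => by
    rw [le_div_iff₀ hη]
    have h1 : |b j| * η ≤ (1 - |(m j : ℝ)|) * |b j| := by
      rw [mul_comm]; exact mul_le_mul_of_nonneg_right (by linarith [hm j]) (abs_nonneg _)
    linarith [hb4 j, Real.log_two_lt_d9]
  have hsum : ∑ j, (ct fld j : ℝ) = Fintype.card ι := by exact_mod_cast sum_ct fld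
  have hV : ∀ σ, (if P σ then 0 else -(2 * (K / η) * Fintype.card ι)) ≤
      ∑ r, b (fld r) * spn σ r + -∑ j, b j * m j * ct fld j := fun σ => by
    have e : ∑ r, b (fld r) * spn σ r = ∑ j, b j * Sg fld j σ := Vc_eq fld b σ
    rw [e, ← sub_eq_add_neg, ← Finset.sum_sub_distrib]
    split_ifs with hσ
    · exact Finset.sum_nonneg fun j _ => sub_nonneg.2 (hsign σ hσ j _ (hb2 j) (hb3 j))
    · rw [← hsum, Finset.mul_sum, ← Finset.sum_neg_distrib]
      refine Finset.sum_le_sum fun j _ => ?_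
      have h0 : (0 : ℝ) ≤ ct fld j := Nat.cast_nonneg _
      have h1 : |b j * Sg fld j σ| ≤ K / η * ct fld j := by
        rw [abs_mul]; exact mul_le_mul (hbK j) (abs_Sg_le fld j σ) (abs_nonneg _) (by positivity)
      have h2 : |b j * m j * ct fld j| ≤ K / η * ct fld j := by
        rw [abs_mul, abs_mul, abs_of_nonneg h0]
        exact mul_le_mul_of_nonneg_right
          ((mul_le_of_le_one_right (abs_nonneg _) (hm1 j).le).trans (hbK j)) h0
      linarith [(abs_le.1 h1).1, (abs_le.1 h2).2]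
  have h1 := val_Ham_mono (R := R) (lamv := (0 : ι → ℝ)) (lamv' := 0)
    (hy := fun l _ => Real.sqrt (v l)) (px := 0) ha (fun _ => le_rfl) hV
  rw [val_Ham_free ha (fun r => b (fld r)) (fun _ => v) (fun _ i => hv0 i),
    cb_sum fld fun j => Ch (ua R) v R (b j)] at h1
  have h2 : ∑ j, (ct fld j : ℝ) * Ch (ua R) v R (b j) - ∑ j, b j * m j * ct fld j -
      Fintype.card ι * (∑ l ∈ range R, v l) / 2 = ∑ j, (ct fld j : ℝ) * osc (ua R) v R (m j) := by
    rw [← hsum, Finset.sum_mul, Finset.sum_div, ← Finset.sum_sub_distrib, ← Finset.sum_sub_distrib]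
    exact Finset.sum_congr rfl fun j _ => by rw [hb1 j, osv]; ring
  have h3 : ∑ j, (ct fld j : ℝ) * osc (ua R) v R (m j) ≤
      Fintype.card ι * ∑ j, γ j * osc (ua R) v R (m j) + ∑ _j : J, Fintype.card ι * (e₁ * K) := by
    rw [Finset.mul_sum, ← Finset.sum_add_distrib]
    refine Finset.sum_le_sum fun j _ => ?_
    have h4 : |osc (ua R) v R (m j)| ≤ K :=
      (abs_osc_le hau (fun i _ => hv0 i) (hm1 j).le).trans (by linarith)
    have h5 : |((ct fld j : ℝ) / Fintype.card ι - γ j) * osc (ua R) v R (m j)| ≤ e₁ * K := by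
      rw [abs_mul]
      exact mul_le_mul ((hfld j).trans (min_le_right _ _)) h4 (abs_nonneg _) (by positivity)
    have h6 := mul_le_mul_of_nonneg_left (abs_le.1 h5).2 hN0.le
    have h7 : (Fintype.card ι : ℝ) * (((ct fld j : ℝ) / Fintype.card ι - γ j) * osc (ua R) v R (m j)) =
        ct fld j * osc (ua R) v R (m j) - Fintype.card ι * (γ j * osc (ua R) v R (m j)) := by
      field_simp
    linarith
  rw [Finset.sum_const, Finset.card_univ, nsmul_eq_mul] at h3
  have h8 : (Fintype.card J : ℝ) * (e₁ * K) ≤ ε / 2 := by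
    have : ((Fintype.card J : ℝ) + 1) * (e₁ * K) = ε / 2 := by rw [he₁]; field_simp
    nlinarith [mul_pos (show 0 < e₁ by positivity) hK0]
  have h9 := mul_le_mul_of_nonneg_left (hF R hR v fun i _ => hv0 i) hN0.le
  have h10 := mul_le_mul_of_nonneg_left h8 hN0.le
  nlinarith

lemma um_exp_logZ {ι : Type} [Fintype ι] [DecidableEq ι] (lamv : ι → ℝ) (V : (ι → Bool) → ℝ)
    (U : Orth ι) : Real.exp (logZ lamv V U) = ∑ σ : ι → Bool, (1 / 2) ^ Fintype.card ι *
      Real.exp ((∑ a, lamv a * (U.1 *ᵥ spn σ) a ^ 2) / 2 + V σ) := by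
  rw [logZ, Real.exp_log (by positivity), Finset.mul_sum]

lemma um_logZ_bdd {ι : Type} [Fintype ι] [DecidableEq ι] (lamv : ι → ℝ) (V : (ι → Bool) → ℝ) :
    ∃ K, ∀ U, logZ lamv V U ≤ K :=
  ⟨_, logZ_le (Λ := ∑ a, |lamv a|) (B := ∑ σ, |V σ|)
    (fun a => Finset.single_le_sum (f := fun a => |lamv a|) (fun _ _ => abs_nonneg _) (mem_univ a))
    fun σ => (le_abs_self _).trans
      (Finset.single_le_sum (f := fun σ => |V σ|) (fun _ _ => abs_nonneg _) (mem_univ σ))⟩

theorem upper_main (S : Spec κ) (γ : J → ℝ) (hγ : ∀ j, 0 < γ j) (hγs : ∑ j, γ j = 1) (c : J → ℝ)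
    {F : ℝ} (h : UBh S.G c γ F) {ε : ℝ} (hε : 0 < ε) : ∃ m₀ e : ℝ, 0 < m₀ ∧ 0 < e ∧ ∃ N₀ : ℕ,
    ∀ (ι : Type) [Fintype ι] [DecidableEq ι] (lab : ι → κ) (fld : ι → J), N₀ ≤ Fintype.card ι →
      Prp lab S.ρ e → Prp fld γ e →
      PM m₀ (haar ι) (logZ (fun b => S.lam (lab b)) (Vc fld c)) ≤ Fintype.card ι * (F + ε) := by
  classical
  obtain ⟨m₀, hm₀, hm₁, H⟩ := class_bound S γ hγ hγs c h (ε := ε / 4) (by positivity)
  set cb := ∑ j, |c j| with hcb
  have hcb0 : 0 ≤ cb := Finset.sum_nonneg fun _ _ => abs_nonneg _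
  set η := ε / (4 * (cb + 1)) with hη
  have hη0 : 0 < η := by positivity
  have hηε : cb * η ≤ ε / 4 := by
    have : (cb + 1) * η = ε / 4 := by rw [hη]; field_simp
    linarith
  obtain ⟨T, η', hη', hT, hgrid⟩ := exists_grid_m hη0
  obtain ⟨L, e, N₀, he, H⟩ := H η' hη'
  set TT := Fintype.piFinset fun _ : J => T with hTT
  refine ⟨m₀, min e η, hm₀, lt_min he hη0, max (N₀ + 1) ⌈m₀⁻¹ * TT.card / (ε / 4)⌉₊, ?_⟩
  intro ι _ _ lab fld hN hlab hfld
  set N := Fintype.card ι with hNd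
  have hN0 : (0 : ℝ) < N := Nat.cast_pos.2 (by have := (max_le_iff.1 hN).1; omega)
  have hN1 : m₀⁻¹ * TT.card ≤ N * (ε / 4) :=
    (div_le_iff₀ (by positivity)).1 (Nat.ceil_le.1 (max_le_iff.1 hN).2)
  have hctN : ∀ j, (ct fld j : ℝ) ≤ N := fun j => Nat.cast_le.2 (Finset.card_filter_le _ _)
  let P : (J → ℚ) → (ι → Bool) → Prop := fun m σ => ∀ j,
    |Sg fld j σ - m j * ct fld j| ≤ η * ct fld j ∧
      ∀ b : ℝ, 0 ≤ b * m j → ((m j : ℝ) = 0 → b = 0) → b * m j * ct fld j ≤ b * Sg fld j σ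
  have hP : ∀ σ, ∃ m ∈ TT, P m σ := fun σ => by
    have h1 : ∀ j, |Sg fld j σ / ct fld j| ≤ 1 := fun j => by
      rw [abs_div, Nat.abs_cast]
      exact div_le_one_of_le₀ (abs_Sg_le fld j σ) (Nat.cast_nonneg _)
    choose m hm hm1 hm2 using fun j => hgrid _ (h1 j)
    refine ⟨m, Fintype.mem_piFinset.2 hm, fun j => ?_⟩
    have h0 : (0 : ℝ) ≤ ct fld j := Nat.cast_nonneg _
    have e1 : Sg fld j σ / ct fld j * ct fld j = Sg fld j σ := div_mul_cancel_of_imp fun h0 =>
      abs_nonpos_iff.1 (h0 ▸ abs_Sg_le fld j σ)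
    refine ⟨?_, fun b hb hb0 => ?_⟩
    · have := mul_le_mul_of_nonneg_right (hm1 j) h0
      rwa [← abs_of_nonneg h0, ← abs_mul, abs_of_nonneg h0, sub_mul, e1] at this
    · have := mul_le_mul_of_nonneg_right (hm2 j b hb hb0) h0
      rwa [mul_assoc b (_ / _), e1] at this
  let a : (J → ℚ) → ℝ := fun m => N * (∑ j, γ j * c j * m j + ε / 2)
  have hV : ∀ m ∈ TT, ∀ σ, P m σ → Vc fld c σ ≤ a m := fun m hm σ hσ => by
    have h1 : ∀ j, c j * Sg fld j σ ≤ N * (γ j * c j * m j) + 2 * N * η * |c j| := fun j => by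
      have h2 : |(m j : ℝ)| ≤ 1 := (hT _ (Fintype.mem_piFinset.1 hm j)).trans (by linarith)
      have h3 : |(ct fld j : ℝ) - γ j * N| ≤ η * N := by
        have := mul_le_mul_of_nonneg_right ((hfld j).trans (min_le_right _ _)) hN0.le
        rwa [← abs_of_pos hN0, ← abs_mul, abs_of_pos hN0, sub_mul, div_mul_cancel₀ _ hN0.ne'] at this
      have h4 : |Sg fld j σ - m j * (γ j * N)| ≤ 2 * N * η := by
        have e1 : Sg fld j σ - m j * (γ j * N) =
            (Sg fld j σ - m j * ct fld j) + m j * (ct fld j - γ j * N) := by ring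
        rw [e1]
        refine (abs_add_le _ _).trans ?_
        rw [abs_mul]
        have h5 := mul_le_mul h2 h3 (abs_nonneg _) zero_le_one
        have h6 := mul_le_mul_of_nonneg_left (hctN j) hη0.le
        linarith [(hσ j).1]
      have h5 := le_abs_self (c j * (Sg fld j σ - m j * (γ j * N)))
      rw [abs_mul] at h5
      have h6 := mul_le_mul_of_nonneg_left h4 (abs_nonneg (c j))
      linarith
    rw [Vc_eq]
    refine (Finset.sum_le_sum fun j _ => h1 j).trans ?_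
    rw [Finset.sum_add_distrib, ← Finset.mul_sum, ← Finset.mul_sum]
    have := mul_le_mul_of_nonneg_left hηε hN0.le
    simp only [a]
    linarith
  have key := PM_log_sum (ν := haar ι) (TT.filter fun m => ∃ σ, P m σ)
    (F := logZ (fun b => S.lam (lab b)) (Vc fld c))
    (G := fun m U => logZ (fun b => S.lam (lab b))
      (fun σ => if P m σ then 0 else -(L * N)) U + a m) (B := N * (F + 3 * ε / 4)) hm₀ hm₁
    (measurable_logZ _ _) (fun m => (measurable_logZ _ _).add_const _)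
    (fun m => by
      obtain ⟨K, hK⟩ := um_logZ_bdd (fun b => S.lam (lab b)) fun σ => if P m σ then 0 else -(L * N)
      exact ⟨K + a m, fun U => by linarith [hK U]⟩)
    (fun U => by
      simp only [Real.exp_add, um_exp_logZ, Finset.sum_mul]
      rw [Finset.sum_comm]
      refine Finset.sum_le_sum fun σ _ => ?_
      obtain ⟨m, hm, hσ⟩ := hP σ
      refine le_trans ?_ (Finset.single_le_sum (a := m) (fun _ _ => by positivity)
        (mem_filter.2 ⟨hm, σ, hσ⟩))
      rw [if_pos hσ, Real.exp_zero, mul_one, mul_assoc]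
      gcongr
      exact hV m hm σ hσ)
    (fun m hm => by
      obtain ⟨hm1, hm2⟩ := mem_filter.1 hm
      obtain ⟨K, hK⟩ := um_logZ_bdd (fun b => S.lam (lab b)) fun σ => if P m σ then 0 else -(L * N)
      rw [PM_add_const hm₀ (Integrable.of_bound
        ((measurable_logZ _ _).const_mul m₀).exp.aestronglyMeasurable (Real.exp (m₀ * K))
        (ae_of_all _ fun U => by
          rw [Real.norm_of_nonneg (Real.exp_pos _).le]
          exact Real.exp_le_exp.2 (mul_le_mul_of_nonneg_left (hK U) hm₀.le)))]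
      have := H ι lab fld m (P m) (by have := (max_le_iff.1 hN).1; omega)
        (hlab.mono (min_le_left _ _)) (hfld.mono (min_le_left _ _))
        (fun j => hT _ (Fintype.mem_piFinset.1 hm1 j)) hm2 fun σ hσ j => (hσ j).2
      refine (add_le_add_left (le_of_eq_of_le (by congr!) this) _).trans (le_of_eq ?_)
      simp only [a]
      ring)
  have h1 : Real.log (TT.filter fun m => ∃ σ, P m σ).card ≤ TT.card :=
    (Real.log_le_self (Nat.cast_nonneg _)).trans (Nat.cast_le.2 (Finset.card_filter_le _ _))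
  have h2 := mul_le_mul_of_nonneg_left h1 (inv_nonneg.2 hm₀.le)
  linarith

end Crest.Agent.R164
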