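import Crest.Agent.R164.Model
import Crest.Prelude.Def_InvariantGlass

/-!
# R164 / W1: transport distance on the line

`dF ν ν' = ∫⁻ |ν(t,∞) - ν'(t,∞)| dt`.  `dF_le`: for a coupling `π`,
`|ν(t,∞) - ν'(t,∞)| ≤ π{min x y ≤ t < max x y}`; integrate in `t` (Tonelli).
`dF_sorted`: for monotone `u, w` the indicators `1(t < u i) - 1(t < w i)` all have the same sign, so
`|Σ_i (1(t < u i) - 1(t < w i))| = Σ_i |…|`, and `∫ |1(t < x) - 1(t < y)| dt = |x - y|`.
`exists_match`: sort both vectors (`Tuple.sort`); the empirical law is permutation invariant.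
`exists_labels`: choose counts `n N j` with `Σ_j n N j = N`, `n N j / N → γ j` (floors, remainder on one
label), `lab₀` from `exists_lab`, compose with the permutation of `exists_match`; triangle inequality
through `ν` and the alphabet law; `dF (alphabet law) (empiricalLaw (cq ∘ lab₀)) ≤
Σ_j |γ j - n N j / N| · (max cq - min cq)`.
`mean_abs_bdd`: `(Σ|c r|)/N = ∫ |x| dπ ≤ ∫ |x - y| dπ + ∫ |y| dν`.
-/

set_option autoImplicit false

open MeasureTheory ProbabilityTheory Finset Filter Crest.ProbabilityR.InvariantGlass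

namespace Crest.Agent.R164

/-- `L¹` distance of the tail functions. -/
noncomputable def dF (ν ν' : Measure ℝ) : ENNReal :=
  ∫⁻ t, ENNReal.ofReal |ν.real (Set.Ioi t) - ν'.real (Set.Ioi t)|

/-- indicator of `t < x` -/
noncomputable def w1h (x t : ℝ) : ℝ := if t < x then 1 else 0

lemma w1_ind (x y t : ℝ) : ENNReal.ofReal |w1h x t - w1h y t| =
    (Set.Ico (min x y) (max x y)).indicator 1 t := by
  by_cases h1 : t < x <;> by_cases h2 : t < y <;> simp [w1h, h1, h2, Set.indicator, ← not_lt]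

lemma w1_sum {ι : Type*} [Fintype ι] {a : ι → ℝ} (ha : ∀ i, 0 ≤ a i) (x y : ι → ℝ) :
    ∫⁻ t, ENNReal.ofReal (∑ i, a i * |w1h (x i) t - w1h (y i) t|) =
      ENNReal.ofReal (∑ i, a i * |x i - y i|) := by
  have e : ∀ b : ι → ℝ, ENNReal.ofReal (∑ i, a i * |b i|) =
      ∑ i, ENNReal.ofReal (a i) * ENNReal.ofReal |b i| := fun b => by
    rw [ENNReal.ofReal_sum_of_nonneg fun i _ => mul_nonneg (ha i) (abs_nonneg _)]
    exact sum_congr rfl fun i _ => ENNReal.ofReal_mul (ha i)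
  simp only [e, w1_ind]
  rw [lintegral_finsetSum _ fun i _ => (measurable_one.indicator measurableSet_Ico).const_mul _]
  refine sum_congr rfl fun i _ => ?_
  rw [lintegral_const_mul _ (measurable_one.indicator measurableSet_Ico),
    lintegral_indicator_one measurableSet_Ico, Real.volume_Ico, max_sub_min_eq_abs']

lemma w1_real {ι : Type*} [Fintype ι] {a : ι → ℝ} (ha : ∀ i, 0 ≤ a i) (x : ι → ℝ) (t : ℝ) :
    (∑ i, ENNReal.ofReal (a i) • Measure.dirac (x i)).real (Set.Ioi t) =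
      ∑ i, a i * w1h (x i) t := by
  have e : ∀ i, (ENNReal.ofReal (a i) • Measure.dirac (x i)) (Set.Ioi t) =
      ENNReal.ofReal (a i * w1h (x i) t) := fun i => by
    by_cases h : t < x i <;> simp [w1h, h, Set.indicator]
  have h0 : ∀ i, 0 ≤ a i * w1h (x i) t := fun i =>
    mul_nonneg (ha i) (by unfold w1h; split_ifs <;> norm_num)
  rw [Measure.real, Measure.finsetSum_apply]
  simp only [e]
  rw [← ENNReal.ofReal_sum_of_nonneg fun i _ => h0 i,
    ENNReal.toReal_ofReal (sum_nonneg fun i _ => h0 i)]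

instance w1_fin {ι : Type*} [Fintype ι] (a x : ι → ℝ) :
    IsFiniteMeasure (∑ i, ENNReal.ofReal (a i) • Measure.dirac (x i)) :=
  ⟨by simp [Measure.finsetSum_apply]⟩

lemma w1_emp {N : ℕ} (u : Fin N → ℝ) :
    empiricalLaw u = ∑ r, ENNReal.ofReal (N : ℝ)⁻¹ • Measure.dirac (u r) := by
  rw [empiricalLaw, smul_sum]
  refine sum_congr rfl fun r _ => ?_
  rw [ENNReal.ofReal_inv_of_pos (by exact_mod_cast r.pos), ENNReal.ofReal_natCast]

instance w1_fin' {N : ℕ} (u : Fin N → ℝ) : IsFiniteMeasure (empiricalLaw u) := by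
  rw [w1_emp]
  infer_instance

lemma w1_meas (ν : Measure ℝ) [IsFiniteMeasure ν] : Measurable fun t => ν.real (Set.Ioi t) :=
  Antitone.measurable fun _ _ h => measureReal_mono (Set.Ioi_subset_Ioi h)

lemma dF_comm (ν ν' : Measure ℝ) : dF ν ν' = dF ν' ν := by
  simp only [dF, abs_sub_comm]

lemma dF_triangle (ν₁ ν₂ ν₃ : Measure ℝ) [IsFiniteMeasure ν₁] [IsFiniteMeasure ν₂]
    [IsFiniteMeasure ν₃] : dF ν₁ ν₃ ≤ dF ν₁ ν₂ + dF ν₂ ν₃ := by
  refine le_trans (lintegral_mono fun t => ?_) (lintegral_add_left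
    ((w1_meas ν₁).sub (w1_meas ν₂)).abs.ennreal_ofReal _).le
  exact (ENNReal.ofReal_le_ofReal (abs_sub_le _ _ _)).trans ENNReal.ofReal_add_le

lemma dF_le (ν ν' : Measure ℝ) [IsProbabilityMeasure ν'] : dF ν ν' ≤ transportCost ν ν' := by
  refine le_iInf₂ fun π h => ?_
  obtain ⟨rfl, h2⟩ := h
  have : IsFiniteMeasure π := ⟨by
    have := measure_lt_top ν' Set.univ
    rwa [← h2, Measure.map_apply measurable_snd MeasurableSet.univ] at this⟩
  have hS : MeasurableSet {p : ℝ × ℝ × ℝ | min p.2.1 p.2.2 ≤ p.1 ∧ p.1 < max p.2.1 p.2.2} :=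
    MeasurableSet.inter (measurableSet_le (f := fun p : ℝ × ℝ × ℝ => min p.2.1 p.2.2)
      (by fun_prop) measurable_fst)
      (measurableSet_lt (g := fun p : ℝ × ℝ × ℝ => max p.2.1 p.2.2) measurable_fst (by fun_prop))
  have h3 := (Measure.prod_apply (μ := volume) (ν := π) hS).symm.trans (Measure.prod_apply_symm hS)
  refine le_trans (lintegral_mono fun t => ?_) (h3.trans_le (lintegral_mono fun z => ?_))
  · rw [← h2, map_measureReal_apply measurable_fst measurableSet_Ioi,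
      map_measureReal_apply measurable_snd measurableSet_Ioi]
    refine (ENNReal.ofReal_le_ofReal (abs_measureReal_sub_le_measureReal_symmDiff
      (measurable_fst measurableSet_Ioi).nullMeasurableSet
      (measurable_snd measurableSet_Ioi).nullMeasurableSet)).trans
      (ENNReal.ofReal_toReal_le.trans (measure_mono ?_))
    rintro z (⟨h4, h5⟩ | ⟨h4, h5⟩)
    · exact ⟨(min_le_right _ _).trans (not_lt.1 h5), lt_max_of_lt_left h4⟩
    · exact ⟨(min_le_left _ _).trans (not_lt.1 h5), lt_max_of_lt_right h4⟩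
  · change volume (Set.Ico (min z.1 z.2) (max z.1 z.2)) ≤ _
    rw [Real.volume_Ico, max_sub_min_eq_abs', Real.enorm_eq_ofReal_abs]

lemma dF_sorted {N : ℕ} {u w : Fin N → ℝ} (hu : Monotone u) (hw : Monotone w) :
    dF (empiricalLaw u) (empiricalLaw w) = ENNReal.ofReal ((∑ i, |u i - w i|) / N) := by
  have hN : ∀ _ : Fin N, (0 : ℝ) ≤ (N : ℝ)⁻¹ := fun _ => by positivity
  rw [div_eq_inv_mul, mul_sum, ← w1_sum hN, dF]
  refine lintegral_congr fun t => congrArg _ ?_
  rw [w1_emp, w1_emp, w1_real hN, w1_real hN, ← sum_sub_distrib]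
  simp only [← mul_sub, ← mul_sum]
  rw [abs_mul, abs_of_nonneg (by positivity)]
  congr 1
  by_cases h : ∀ i, t < w i → t < u i
  · have h1 : ∀ i, 0 ≤ w1h (u i) t - w1h (w i) t := fun i => by
      have := h i
      unfold w1h
      split_ifs <;> simp_all
    rw [abs_of_nonneg (sum_nonneg fun i _ => h1 i)]
    exact sum_congr rfl fun i _ => (abs_of_nonneg (h1 i)).symm
  · push Not at h
    obtain ⟨k, h2, h3⟩ := h
    have h1 : ∀ i, w1h (u i) t - w1h (w i) t ≤ 0 := fun i => by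
      unfold w1h
      split_ifs with h4 h5
      · simp
      · rcases le_total i k with h6 | h6
        · linarith [hu h6]
        · exact absurd (h2.trans_le (hw h6)) h5
      · simp
      · simp
    rw [abs_of_nonpos (sum_nonpos fun i _ => h1 i), ← sum_neg_distrib]
    exact sum_congr rfl fun i _ => (abs_of_nonpos (h1 i)).symm

lemma w1_perm {N : ℕ} (u : Fin N → ℝ) (σ : Equiv.Perm (Fin N)) :
    empiricalLaw (u ∘ σ) = empiricalLaw u :=
  congrArg (_ • ·) (Equiv.sum_comp σ fun r => Measure.dirac (u r))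

lemma exists_match {N : ℕ} (u w : Fin N → ℝ) : ∃ π : Equiv.Perm (Fin N),
    dF (empiricalLaw u) (empiricalLaw w) = ENNReal.ofReal ((∑ i, |u i - w (π i)|) / N) := by
  refine ⟨(Tuple.sort u).symm.trans (Tuple.sort w), ?_⟩
  rw [← w1_perm u (Tuple.sort u), ← w1_perm w (Tuple.sort w),
    dF_sorted (Tuple.monotone_sort u) (Tuple.monotone_sort w),
    ← Equiv.sum_comp (Tuple.sort u) fun i => |u i - _|]
  simp

lemma w1_counts {J : ℕ} {γ : Fin J → ℝ} (hγ : ∀ j, 0 ≤ γ j) (hγs : ∑ j, γ j = 1) :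
    ∃ n : ℕ → Fin J → ℕ, (∀ N, ∑ j, n N j = N) ∧
      ∀ j, Tendsto (fun N : ℕ => (n N j : ℝ) / N) atTop (nhds (γ j)) := by
  obtain ⟨j₀, -⟩ := nonempty_of_sum_ne_zero (hγs.trans_ne one_ne_zero)
  have h1 : ∀ N : ℕ, ∑ j, ⌊γ j * N⌋₊ ≤ N := fun N => by
    have := sum_le_sum fun j (_ : j ∈ univ) => Nat.floor_le (mul_nonneg (hγ j) N.cast_nonneg)
    rw [← sum_mul, hγs, one_mul] at this
    exact_mod_cast this
  have h2 : ∀ j, Tendsto (fun N : ℕ => (⌊γ j * N⌋₊ : ℝ) / N) atTop (nhds (γ j)) := fun j =>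
    (tendsto_nat_floor_mul_div_atTop (hγ j)).comp tendsto_natCast_atTop_atTop
  have h3 : Tendsto (fun N : ℕ => ((N - ∑ j, ⌊γ j * N⌋₊ : ℕ) : ℝ) / N) atTop (nhds 0) := by
    have := (tendsto_finsetSum univ fun j _ => h2 j).const_sub 1
    rw [hγs, sub_self] at this
    refine this.congr' ((eventually_gt_atTop 0).mono fun N hN => ?_)
    have : (N : ℝ) ≠ 0 := by positivity
    beta_reduce
    rw [Nat.cast_sub (h1 N), sub_div, div_self this, Nat.cast_sum, sum_div]
  refine ⟨fun N j => ⌊γ j * N⌋₊ + if j = j₀ then N - ∑ j, ⌊γ j * N⌋₊ else 0, fun N => ?_,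
    fun j => ?_⟩
  · rw [sum_add_distrib, sum_ite_eq', if_pos (mem_univ _), Nat.add_sub_cancel' (h1 N)]
  · beta_reduce
    split_ifs
    · simpa only [Nat.cast_add, add_div, add_zero] using (h2 j).add h3
    · simpa only [add_zero] using h2 j

lemma w1_alph {J N : ℕ} (hN : 0 < N) {γ : Fin J → ℝ} (hγ : ∀ j, 0 ≤ γ j) (hγs : ∑ j, γ j = 1)
    (cq : Fin J → ℝ) (lab : Fin N → Fin J) :
    dF (∑ j, ENNReal.ofReal (γ j) • Measure.dirac (cq j)) (empiricalLaw (cq ∘ lab)) ≤
      ENNReal.ofReal (∑ j, |γ j - ct lab j / N| * |cq j - 0|) := by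
  rw [← w1_sum fun _ => abs_nonneg _]
  refine lintegral_mono fun t => ENNReal.ofReal_le_ofReal ?_
  have e : ∀ f : Fin J → ℝ, ∑ r, (N : ℝ)⁻¹ * f (lab r) = ∑ j, ct lab j / N * f j := fun f => by
    rw [← sum_fiberwise univ lab]
    refine sum_congr rfl fun j _ => ?_
    rw [sum_congr rfl fun r hr => by rw [(mem_filter.1 hr).2], sum_const, nsmul_eq_mul, ct,
      div_eq_mul_inv, mul_assoc]
  have e1 := e fun _ => 1
  rw [sum_const, card_univ, Fintype.card_fin, nsmul_eq_mul, mul_one,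
    mul_inv_cancel₀ (by positivity)] at e1
  simp only [mul_one] at e1
  rw [w1_emp, w1_real hγ, w1_real fun _ => by positivity]
  simp only [Function.comp, e fun j => w1h (cq j) t, ← abs_mul]
  refine le_trans (le_of_eq (congrArg _ ?_)) (abs_sum_le_sum_abs _ _)
  simp only [mul_sub, sub_mul, sum_sub_distrib, ← sum_mul, hγs, ← e1, sub_self, sub_zero]

variable {ν : Measure ℝ} [IsProbabilityMeasure ν] {c : (N : ℕ) → Fin N → ℝ}

theorem exists_labels
    (hW : Tendsto (fun N : ℕ => transportCost (empiricalLaw (c N)) ν) atTop (nhds 0))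
    {J : ℕ} (cq : Fin J → ℝ) {γ : Fin J → ℚ} (hγ : ∀ j, 0 < γ j) (hγs : ∑ j, γ j = 1) {η : ℝ}
    (hη : transportCost (∑ j : Fin J, ENNReal.ofReal ((γ j : ℚ) : ℝ) • Measure.dirac (cq j)) ν <
      ENNReal.ofReal η) :
    ∃ lab : (N : ℕ) → Fin N → Fin J, (∀ j : Fin J, Tendsto
      (fun N : ℕ => ((univ.filter fun r : Fin N => lab N r = j).card : ℝ) / (N : ℝ))
      atTop (nhds ((γ j : ℚ) : ℝ))) ∧
      ∀ᶠ N : ℕ in atTop, (∑ r, |c N r - cq (lab N r)|) / N ≤ η := by
  have h1 : ∀ j, (0 : ℝ) ≤ γ j := fun j => by exact_mod_cast (hγ j).le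
  have h2 : ∑ j, (γ j : ℝ) = 1 := by exact_mod_cast hγs
  obtain ⟨n, hn, hlim⟩ := w1_counts h1 h2
  choose lab hlab using fun N => exists_lab (ι := Fin N) (n N) (by rw [hn, Fintype.card_fin])
  choose π hπ using fun N => exists_match (c N) (cq ∘ lab N)
  refine ⟨fun N r => lab N (π N r), fun j => (hlim j).congr fun N => ?_, ?_⟩
  · rw [← hlab, ct, card_equiv (π N) (s := univ.filter fun r => lab N (π N r) = j)
      (t := univ.filter fun r => lab N r = j) (by simp)]
  have h3 : Tendsto (fun N : ℕ => ∑ j, |(γ j : ℝ) - n N j / N| * |cq j - 0|) atTop (nhds 0) := by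
    have := tendsto_finsetSum univ fun j _ =>
      ((hlim j).const_sub (γ j : ℝ)).abs.mul_const |cq j - 0|
    simpa using this
  have h4 := hW.add ((ENNReal.tendsto_ofReal h3).const_add (transportCost
    (∑ j : Fin J, ENNReal.ofReal ((γ j : ℚ) : ℝ) • Measure.dirac (cq j)) ν))
  rw [ENNReal.ofReal_zero, add_zero, zero_add] at h4
  filter_upwards [h4.eventually_lt_const hη, eventually_gt_atTop 0] with N hN hN0
  refine (ENNReal.ofReal_lt_ofReal_iff'.1 (lt_of_le_of_lt ?_ hN)).1.le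
  refine (hπ N).symm.trans_le ((dF_triangle _ ν _).trans (add_le_add (dF_le _ _)
    ((dF_triangle _ _ _).trans (add_le_add ((dF_comm _ _).trans_le (dF_le _ _)) ?_))))
  simpa only [hlab] using w1_alph hN0 h1 h2 cq (lab N)

lemma mean_abs_bdd (hν : Integrable (fun x : ℝ => x) ν)
    (hW : Tendsto (fun N : ℕ => transportCost (empiricalLaw (c N)) ν) atTop (nhds 0)) :
    ∃ B : ℝ, ∀ᶠ N : ℕ in atTop, (∑ r, |c N r|) / N ≤ B := by
  have h1 : 1 + ∫⁻ y, ‖y‖ₑ ∂ν ≠ ⊤ := ENNReal.add_ne_top.2 ⟨ENNReal.one_ne_top, hν.2.ne⟩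
  refine ⟨(1 + ∫⁻ y, ‖y‖ₑ ∂ν).toReal, (hW.eventually_lt_const one_pos).mono fun N hN => ?_⟩
  obtain ⟨π, hπ⟩ := iInf_lt_iff.1 hN
  obtain ⟨⟨h2, h3⟩, h4⟩ := iInf_lt_iff.1 hπ
  have h5 : ∫⁻ x, ‖x‖ₑ ∂empiricalLaw (c N) = ENNReal.ofReal ((∑ r, |c N r|) / N) := by
    rw [w1_emp, lintegral_finsetSum_measure, div_eq_inv_mul, mul_sum,
      ENNReal.ofReal_sum_of_nonneg fun _ _ => by positivity]
    refine sum_congr rfl fun r _ => ?_
    rw [lintegral_smul_measure, lintegral_dirac, ENNReal.ofReal_mul (by positivity),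
      Real.enorm_eq_ofReal_abs, smul_eq_mul]
  rw [← ENNReal.ofReal_le_iff_le_toReal h1, ← h5, ← h2, ← h3,
    lintegral_map measurable_enorm measurable_fst, lintegral_map measurable_enorm measurable_snd]
  refine le_trans ?_ (add_le_add_left h4.le _)
  rw [← lintegral_add_right _ measurable_snd.enorm]
  refine lintegral_mono fun z => ?_
  simpa using enorm_add_le (z.1 - z.2) z.2

end Crest.Agent.R164
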